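import Mathlib

/-!
# Row 18: two embeddings of a number field are told apart by square roots (helper245)

`exists_not_isSquare`: if `e ≠ e' : K →+* N` are two embeddings of number fields, there is
`x : K` such that `e x * e' x` is not a square in `N`.
-/

set_option autoImplicit false

namespace Crest.Agent.R018.NonSquarex245

open Polynomial NumberField

/-- a monic non-constant integer polynomial has a root modulo some prime not dividing `m`. -/
theorem exists_prime_dvd_eval (f : ℤ[X]) (hd : 0 < f.natDegree) (m : ℤ)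
    (hm : m ≠ 0) : ∃ p : ℕ, p.Prime ∧ ¬ ((p : ℤ) ∣ m) ∧ ∃ c : ℤ, (p : ℤ) ∣ f.eval c := by
  classical
  by_contra hcon
  push Not at hcon
  -- every prime dividing a value divides `m`
  have hdeg : 0 < f.degree := natDegree_pos_iff_degree_pos.mp hd
  -- choose `c₀` with `f c₀ ≠ 0`
  obtain ⟨c₀, hc₀⟩ : ∃ c₀ : ℤ, f.eval c₀ ≠ 0 := by
    by_contra h
    push Not at h
    have : f = 0 := Polynomial.funext (by simpa using h)
    simp [this] at hd
  set a := f.eval c₀ with ha
  -- `f (c₀ + a m t) = a (1 + m s)` for some `s`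
  have key : ∀ t : ℤ, ∃ s : ℤ, f.eval (c₀ + a * m * t) = a * (1 + m * s) := by
    intro t
    have h1 : (c₀ + a * m * t - c₀) ∣ f.eval (c₀ + a * m * t) - f.eval c₀ :=
      Polynomial.sub_dvd_eval_sub _ _ _
    obtain ⟨s, hs⟩ := h1
    refine ⟨t * s, ?_⟩
    have : f.eval (c₀ + a * m * t) = a + (c₀ + a * m * t - c₀) * s := by
      rw [← hs, ha]; ring
    rw [this]; ring
  -- the values `1 + m s` are units
  have hunit : ∀ t s : ℤ, f.eval (c₀ + a * m * t) = a * (1 + m * s) →
      (1 + m * s = 1 ∨ 1 + m * s = -1) := by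
    intro t s hts
    by_contra hne
    have hna : (1 + m * s).natAbs ≠ 1 := by
      intro h
      exact hne (Int.natAbs_eq_iff.mp h)
    obtain ⟨p, hp, hpd⟩ := Nat.exists_prime_and_dvd hna
    have hpd' : (p : ℤ) ∣ 1 + m * s := by
      rwa [← Int.natCast_dvd] at hpd
    have hnm : ¬ ((p : ℤ) ∣ m) := by
      intro h
      have h1 : (p : ℤ) ∣ 1 := by
        have h2 : (p : ℤ) ∣ m * s := Dvd.dvd.mul_right h s
        exact (dvd_add_left h2).mp hpd'
      have := Int.natCast_dvd_natCast.mp (by simpa using h1 : (p : ℤ) ∣ ((1 : ℕ) : ℤ))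
      exact hp.one_lt.ne' (Nat.dvd_one.mp this)
    refine hcon p hp hnm (c₀ + a * m * t) ?_
    rw [hts]
    exact Dvd.dvd.mul_left hpd' a
  -- hence `f` takes values in `{a, -a}` on infinitely many points
  have hval : ∀ t : ℤ, f.eval (c₀ + a * m * t) = a ∨ f.eval (c₀ + a * m * t) = -a := by
    intro t
    obtain ⟨s, hs⟩ := key t
    rcases hunit t s hs with h | h
    · left; rw [hs, h]; ring
    · right; rw [hs, h]; ring
  have hinj : Function.Injective (fun t : ℤ => c₀ + a * m * t) := by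
    intro t t' h
    have : a * m * t = a * m * t' := by simpa using h
    exact mul_left_cancel₀ (mul_ne_zero hc₀ hm) this
  have hzero : (f - C a) * (f + C a) = 0 := by
    apply Polynomial.eq_zero_of_infinite_isRoot
    apply Set.Infinite.mono (s := Set.range (fun t : ℤ => c₀ + a * m * t))
    · rintro _ ⟨t, rfl⟩
      simp only [Set.mem_ofPred_eq, IsRoot.def, eval_mul, eval_sub, eval_add, eval_C]
      rcases hval t with h | h
      · rw [h]; ring
      · rw [h]; ring
    · exact Set.infinite_range_of_injective hinj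
  rcases mul_eq_zero.mp hzero with h | h
  · have h' : f = C a := sub_eq_zero.mp h
    rw [h'] at hd; simp at hd
  · have h' : f = C (-a) := by
      rw [map_neg]; exact eq_neg_of_add_eq_zero_left h
    rw [h'] at hd; simp at hd

variable {N : Type*} [Field N] [NumberField N]

/-- the key arithmetic step. -/
theorem exists_not_isSquare_int (a b : 𝓞 N) (hab : a ≠ b) :
    ∃ c : ℤ, ¬ IsSquare (((c : N) - a) * ((c : N) - b)) := by
  classical
  by_contra hcon
  push Not at hcon
  -- squares of integers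
  have hsq : ∀ c : ℤ, ∃ y : 𝓞 N, ((c : 𝓞 N) - a) * ((c : 𝓞 N) - b) = y ^ 2 := by
    intro c
    obtain ⟨y, hy⟩ := hcon c
    have hint : IsIntegral ℤ y := by
      have : IsIntegral ℤ (y ^ 2) := by
        rw [sq, ← hy]
        have h1 : (((c : N) - a) * ((c : N) - b)) =
          algebraMap (𝓞 N) N (((c : 𝓞 N) - a) * ((c : 𝓞 N) - b)) := by simp
        rw [h1]
        exact RingOfIntegers.isIntegral_coe _
      exact IsIntegral.of_pow (n := 2) (by norm_num) this
    obtain ⟨y', rfl⟩ : ∃ y' : 𝓞 N, (y' : N) = y := ⟨⟨y, hint⟩, rfl⟩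
    refine ⟨y', ?_⟩
    apply RingOfIntegers.coe_injective
    simp only [map_mul, map_sub, map_intCast, map_pow]
    rw [sq]
    exact hy
  -- the minimal polynomial of `a`
  have hia : IsIntegral ℤ a := Algebra.IsIntegral.isIntegral a
  set f := minpoly ℤ a with hf

  have hdeg : 0 < f.natDegree := minpoly.natDegree_pos hia
  -- a nonzero integer in the ideal generated by `a - b`
  obtain ⟨m₁, hm₁, hm₁'⟩ : ∃ m₁ : ℤ, m₁ ≠ 0 ∧ (a - b) ∣ (m₁ : 𝓞 N) := by
    refine ⟨(Ideal.absNorm (Ideal.span {a - b}) : ℤ), ?_, ?_⟩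
    · have : Ideal.absNorm (Ideal.span {a - b}) ≠ 0 := by
        rw [Ne, Ideal.absNorm_eq_zero_iff, Ideal.span_singleton_eq_bot]
        exact sub_ne_zero.mpr hab
      exact_mod_cast this
    · have := Ideal.absNorm_mem (Ideal.span {a - b})
      rw [Ideal.mem_span_singleton] at this
      simpa using this
  have hdisc : (discr N) ≠ 0 := discr_ne_zero N
  obtain ⟨p, hp, hpm, c, hc⟩ := exists_prime_dvd_eval f hdeg (m₁ * discr N)
    (mul_ne_zero hm₁ hdisc)
  have : Fact p.Prime := ⟨hp⟩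
  have hpm₁ : ¬ ((p : ℤ) ∣ m₁) := fun h => hpm (Dvd.dvd.mul_right h _)
  have hpd : ¬ ((p : ℤ) ∣ discr N) := fun h => hpm (Dvd.dvd.mul_left h _)
  -- a prime `P` over `p` containing `c - a`
  obtain ⟨P, hP, hpP, hcP⟩ : ∃ P : Ideal (𝓞 N), P.IsPrime ∧ ((p : ℤ) : 𝓞 N) ∈ P ∧
      ((c : 𝓞 N) - a) ∈ P := by
    have hne : Ideal.span {((p : ℤ) : 𝓞 N), (c : 𝓞 N) - a} ≠ ⊤ := by
      intro htop
      have h1 : (1 : 𝓞 N) ∈ Ideal.span {((p : ℤ) : 𝓞 N), (c : 𝓞 N) - a} := by
        rw [htop]; trivial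
      -- map to the quotient by lying over
      let φ : ℤ[X] →+* 𝓞 N := (aeval a : ℤ[X] →ₐ[ℤ] 𝓞 N).toRingHom
      letI : Algebra ℤ[X] (𝓞 N) := φ.toAlgebra
      have : Algebra.IsIntegral ℤ[X] (𝓞 N) := by
        constructor
        intro x
        obtain ⟨q, hq, hq'⟩ := Algebra.IsIntegral.isIntegral (R := ℤ) x
        refine ⟨q.map (C : ℤ →+* ℤ[X]), hq.map _, ?_⟩
        rw [eval₂_map]
        have : (algebraMap ℤ[X] (𝓞 N)).comp (C : ℤ →+* ℤ[X]) = algebraMap ℤ (𝓞 N) :=
          RingHom.ext_int _ _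
        rw [this]; exact hq'
      let ψ : ℤ[X] →+* ZMod p := (evalRingHom (c : ZMod p)).comp (mapRingHom (Int.castRingHom _))
      have : (RingHom.ker ψ).IsPrime := RingHom.ker_isPrime ψ
      have hker : (⊥ : Ideal (𝓞 N)).comap (algebraMap ℤ[X] (𝓞 N)) ≤ RingHom.ker ψ := by
        intro q hq
        have hq' : aeval a q = 0 := by
          have h0 : algebraMap ℤ[X] (𝓞 N) q = 0 := by simpa using hq
          exact h0
        have hdvd : f ∣ q := minpoly.isIntegrallyClosed_dvd hia hq'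
        obtain ⟨r, rfl⟩ := hdvd
        rw [RingHom.mem_ker, map_mul]
        have : ψ f = 0 := by
          simp only [ψ, RingHom.comp_apply, coe_mapRingHom, coe_evalRingHom]
          rw [eval_intCast_map]
          rw [eq_intCast, ZMod.intCast_zmod_eq_zero_iff_dvd]
          exact hc
        rw [this, zero_mul]
      obtain ⟨Q, -, hQ, hQ'⟩ := Ideal.exists_ideal_over_prime_of_isIntegral (RingHom.ker ψ)
        (⊥ : Ideal (𝓞 N)) hker
      have h2 : ((p : ℤ) : 𝓞 N) ∈ Q := by
        have : (C (p : ℤ)) ∈ RingHom.ker ψ := by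
          rw [RingHom.mem_ker]
          simp [ψ]
        rw [← hQ', Ideal.mem_comap] at this
        have h3 : algebraMap ℤ[X] (𝓞 N) (C (p : ℤ)) = ((p : ℤ) : 𝓞 N) := by
          change aeval a (C (p : ℤ)) = _
          simp
        rwa [h3] at this
      have h4 : (c : 𝓞 N) - a ∈ Q := by
        have : (C c - X) ∈ RingHom.ker ψ := by
          rw [RingHom.mem_ker]
          simp [ψ]
        rw [← hQ', Ideal.mem_comap] at this
        have h3 : algebraMap ℤ[X] (𝓞 N) (C c - X) = (c : 𝓞 N) - a := by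
          change aeval a (C c - X) = _
          simp
        rwa [h3] at this
      have h5 : Ideal.span {((p : ℤ) : 𝓞 N), (c : 𝓞 N) - a} ≤ Q := by
        rw [Ideal.span_le]
        rintro x (rfl | rfl)
        · exact h2
        · exact h4
      exact hQ.ne_top (Ideal.eq_top_iff_one _ |>.mpr (h5 h1))
    obtain ⟨P, hP, hPle⟩ := Ideal.exists_le_maximal _ hne
    exact ⟨P, hP.isPrime, hPle (Ideal.subset_span (by simp)),
      hPle (Ideal.subset_span (by simp))⟩
  -- coprimality consequences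
  have hcop : ∀ m : ℤ, ¬ ((p : ℤ) ∣ m) → ((m : 𝓞 N) ∉ P) := by
    intro m hm hmem
    have hco : IsCoprime (p : ℤ) m := by
      rw [Int.isCoprime_iff_gcd_eq_one]
      have := (Nat.Prime.coprime_iff_not_dvd hp (n := m.natAbs)).mpr
        (fun h => hm (Int.natCast_dvd.mpr h))
      simpa [Int.gcd] using this
    obtain ⟨u, v, huv⟩ := hco
    apply hP.ne_top
    rw [Ideal.eq_top_iff_one]
    have : (1 : 𝓞 N) = (u : 𝓞 N) * ((p : ℤ) : 𝓞 N) + (v : 𝓞 N) * (m : 𝓞 N) := by
      exact_mod_cast congrArg (Int.cast : ℤ → 𝓞 N) huv.symm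
    rw [this]
    exact P.add_mem (P.mul_mem_left _ hpP) (P.mul_mem_left _ hmem)
  have habP : a - b ∉ P := by
    intro h
    obtain ⟨r, hr⟩ := hm₁'
    apply hcop m₁ hpm₁
    rw [hr]
    exact P.mul_mem_right _ h
  -- `P` is maximal
  have hpne : ((p : ℤ) : 𝓞 N) ≠ 0 := by
    simpa using hp.ne_zero
  have hPne : P ≠ ⊥ := by
    rintro rfl
    exact hpne (by simpa using hpP)
  have hPmax : P.IsMaximal := hP.isMaximal hPne
  -- membership in `P ^ 2`
  have hkey : ∀ c' : ℤ, ((c' : 𝓞 N) - a) ∈ P → ((c' : 𝓞 N) - a) ∈ P ^ 2 := by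
    intro c' hc'
    obtain ⟨y, hy⟩ := hsq c'
    have hyP : y ∈ P := by
      have : y ^ 2 ∈ P := by rw [← hy]; exact P.mul_mem_right _ hc'
      exact hP.mem_of_pow_mem _ this
    have hy2 : ((c' : 𝓞 N) - a) * ((c' : 𝓞 N) - b) ∈ P ^ 2 := by
      rw [hy]; exact Ideal.pow_mem_pow hyP 2
    have hb : ((c' : 𝓞 N) - b) ∉ P := by
      intro h
      apply habP
      have : a - b = ((c' : 𝓞 N) - b) - ((c' : 𝓞 N) - a) := by ring
      rw [this]; exact P.sub_mem h hc'
    -- `P ^ 2` is primary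
    have hprim : (P ^ 2).IsPrimary := Ideal.isPrimary_of_isMaximal_radical (by
      rw [Ideal.radical_pow _ (by norm_num), hP.isRadical.radical]; exact hPmax)
    rcases (Ideal.isPrimary_iff.mp hprim).2 hy2 with h | h
    · exact h
    · exact absurd (by
        rw [Ideal.radical_pow _ (by norm_num), hP.isRadical.radical] at h; exact h) hb
  have h1 : ((c : 𝓞 N) - a) ∈ P ^ 2 := hkey c hcP
  have h2' : (((c + p : ℤ) : 𝓞 N) - a) ∈ P := by
    have : (((c + p : ℤ) : 𝓞 N) - a) = ((c : 𝓞 N) - a) + ((p : ℤ) : 𝓞 N) := by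
      push_cast; ring
    rw [this]; exact P.add_mem hcP hpP
  have h2 : (((c + p : ℤ) : 𝓞 N) - a) ∈ P ^ 2 := hkey _ h2'
  have h3 : ((p : ℤ) : 𝓞 N) ∈ P ^ 2 := by
    have : ((p : ℤ) : 𝓞 N) = (((c + p : ℤ) : 𝓞 N) - a) - ((c : 𝓞 N) - a) := by
      push_cast; ring
    rw [this]; exact Ideal.sub_mem _ h2 h1
  -- contradiction with unramifiedness
  have hmapspan : (Ideal.span {(p : ℤ)}).map (algebraMap ℤ (𝓞 N)) =
      Ideal.span {((p : ℤ) : 𝓞 N)} := by
    rw [Ideal.map_span, Set.image_singleton]; simp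
  have hdvd : P ^ 2 ∣ (Ideal.span {(p : ℤ)}).map (algebraMap ℤ (𝓞 N)) := by
    rw [hmapspan, Ideal.dvd_span_singleton]; exact h3
  have hspne : Ideal.span {(p : ℤ)} ≠ ⊥ := by
    simpa using hp.ne_zero
  have : (Ideal.span {(p : ℤ)}).IsMaximal :=
    PrincipalIdealRing.isMaximal_of_irreducible (Nat.prime_iff_prime_int.mp hp).irreducible
  have hd2 : P ∣ differentIdeal ℤ (𝓞 N) := by
    have := pow_sub_one_dvd_differentIdeal ℤ P 2 hspne hdvd
    simpa using this
  have hdmem : ((discr N : ℤ) : 𝓞 N) ∈ P :=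
    (Ideal.dvd_iff_le.mp hd2) (discr_mem_differentIdeal N (𝓞 N))
  exact hcop _ hpd hdmem

/-- **Main result of the file**: two different embeddings of a number field are told apart by
square roots over every number field. -/
theorem exists_not_isSquare {K : Type*} [Field K] [NumberField K] (e e' : K →+* N)
    (hne : e ≠ e') : ∃ x : K, ¬ IsSquare (e x * e' x) := by
  classical
  obtain ⟨θ, hθ⟩ : ∃ θ : K, e θ ≠ e' θ := by
    by_contra h
    push Not at h
    exact hne (RingHom.ext h)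
  obtain ⟨n, hn0, hn⟩ := IsAlgebraic.exists_integral_multiple ((IsFractionRing.isAlgebraic_iff ℤ ℚ K).mpr
    (Algebra.IsAlgebraic.isAlgebraic θ))
  have ha : IsIntegral ℤ (e (n • θ)) := hn.map e.toIntAlgHom
  have hb : IsIntegral ℤ (e' (n • θ)) := hn.map e'.toIntAlgHom
  obtain ⟨a, ha'⟩ : ∃ a : 𝓞 N, (a : N) = e (n • θ) := ⟨⟨_, ha⟩, rfl⟩
  obtain ⟨b, hb'⟩ : ∃ b : 𝓞 N, (b : N) = e' (n • θ) := ⟨⟨_, hb⟩, rfl⟩
  have hab : a ≠ b := by
    rintro rfl
    rw [ha'] at hb'
    simp only [zsmul_eq_mul, map_mul, map_intCast] at hb'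
    exact hθ (mul_left_cancel₀ (by exact_mod_cast hn0) hb')
  obtain ⟨c, hc⟩ := exists_not_isSquare_int a b hab
  refine ⟨(c : K) - n • θ, ?_⟩
  rw [ha', hb'] at hc
  simpa using hc

end Crest.Agent.R018.NonSquarex245
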