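import Mathlib
import Crest.Agent.R018.NonSquare_245
import Crest.Prelude.Def_SolvClosed

/-!
# Row 18, end game, part A (helper245): pointwise conjugacy implies a global embedding

`exists_global_embedding`: `F₁, F₂` number fields, `Ω/F₁` algebraically closed algebraic,
`E₂/F₂` Galois and closed under square roots, `α : Gal(Ω/F₁) →* Gal(E₂/F₂)`.
If for every `g` there is an embedding `e : E₂ →+* Ω` with `g (e x) = e (α g x)` for all `x`, then
there is one `e` that works for all `g`.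
-/

set_option autoImplicit false

namespace Crest.Agent.R018.EndAx245

open Crest.Agent.R018.NonSquarex245
open scoped Pointwise

section group

variable {F₁ F₂ Ω E₂ : Type*} [Field F₁] [Field F₂] [Field Ω] [Field E₂]
  [Algebra F₁ Ω] [Algebra F₂ E₂]

/-- the subgroup of the `g` which are matched by `e` on the square roots of `K`. -/
def C (α : (Ω ≃ₐ[F₁] Ω) →* (E₂ ≃ₐ[F₂] E₂)) (K : IntermediateField F₂ E₂) (e : E₂ →+* Ω) :
    Subgroup (Ω ≃ₐ[F₁] Ω) where
  carrier := {g | (∀ x ∈ K, α g x = x) ∧ ∀ t : E₂, t ^ 2 ∈ K → g (e t) = e (α g t)}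
  one_mem' := by simp
  mul_mem' := by
    rintro g h ⟨hg, hg'⟩ ⟨hh, hh'⟩
    refine ⟨fun x hx => ?_, fun t ht => ?_⟩
    · rw [map_mul, AlgEquiv.mul_apply, hh x hx, hg x hx]
    · rw [AlgEquiv.mul_apply, hh' t ht, hg', map_mul, AlgEquiv.mul_apply]
      rw [← map_pow, hh _ ht]; exact ht
  inv_mem' := by
    rintro g ⟨hg, hg'⟩
    have h1 : ∀ x ∈ K, α g⁻¹ x = x := by
      intro x hx
      have : α g⁻¹ (α g x) = x := by
        rw [← AlgEquiv.mul_apply, ← map_mul, inv_mul_cancel, map_one, AlgEquiv.one_apply]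
      rwa [hg x hx] at this
    refine ⟨h1, fun t ht => ?_⟩
    have h2 : (α g⁻¹ t) ^ 2 ∈ K := by
      rw [← map_pow, h1 _ ht]; exact ht
    have h3 := hg' _ h2
    have h4 : α g (α g⁻¹ t) = t := by
      rw [← AlgEquiv.mul_apply, ← map_mul, mul_inv_cancel, map_one, AlgEquiv.one_apply]
    rw [h4] at h3
    rw [← h3, ← AlgEquiv.mul_apply, inv_mul_cancel, AlgEquiv.one_apply]

variable {α : (Ω ≃ₐ[F₁] Ω) →* (E₂ ≃ₐ[F₂] E₂)} {K : IntermediateField F₂ E₂}

theorem mem_C {e : E₂ →+* Ω} {g : Ω ≃ₐ[F₁] Ω} :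
    g ∈ C α K e ↔ (∀ x ∈ K, α g x = x) ∧ ∀ t : E₂, t ^ 2 ∈ K → g (e t) = e (α g t) := Iff.rfl

/-- an automorphism which is trivial on `K` moves a square root of an element of `K` by a sign. -/
theorem sign (σ : E₂ ≃ₐ[F₂] E₂) (h : ∀ x ∈ K, σ x = x) {t : E₂} (ht : t ^ 2 ∈ K) :
    σ t = t ∨ σ t = -t := by
  have : (σ t) ^ 2 = t ^ 2 := by rw [← map_pow, h _ ht]
  exact sq_eq_sq_iff_eq_or_eq_neg.mp this

theorem C_le_of_eqOn {e e' : E₂ →+* Ω} (h : ∀ x ∈ K, e x = e' x) : C α K e ≤ C α K e' := by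
  rintro g ⟨hg, hg'⟩
  refine ⟨hg, fun t ht => ?_⟩
  have h1 : (e t) ^ 2 = (e' t) ^ 2 := by
    rw [← map_pow, ← map_pow]; exact h _ ht
  have h2 := hg' t ht
  rcases sq_eq_sq_iff_eq_or_eq_neg.mp h1 with h3 | h3 <;>
  rcases sign (α g) hg ht with h4 | h4
  · rw [h4] at h2 ⊢; rw [← h3]; exact h2
  · rw [h4] at h2 ⊢; rw [map_neg] at h2 ⊢; rw [← h3]; exact h2
  · rw [h4] at h2 ⊢
    rw [h3, map_neg] at h2
    exact neg_injective h2
  · rw [h4] at h2 ⊢
    rw [map_neg, h3, map_neg, neg_neg] at h2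
    rw [map_neg, ← neg_eq_iff_eq_neg]
    exact h2

theorem C_congr {e e' : E₂ →+* Ω} (h : ∀ x ∈ K, e x = e' x) : C α K e = C α K e' :=
  le_antisymm (C_le_of_eqOn h) (C_le_of_eqOn fun x hx => (h x hx).symm)

/-- monotonicity in `K`. -/
theorem C_mono {K' : IntermediateField F₂ E₂} (hK : K ≤ K') (e : E₂ →+* Ω) :
    C α K' e ≤ C α K e := by
  rintro g ⟨hg, hg'⟩
  exact ⟨fun x hx => hg x (hK hx), fun t ht => hg' t (hK ht)⟩

/-- conjugation. -/
def conj (α : (Ω ≃ₐ[F₁] Ω) →* (E₂ ≃ₐ[F₂] E₂)) (h : Ω ≃ₐ[F₁] Ω) (e : E₂ →+* Ω) : E₂ →+* Ω :=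
  ((h : Ω →+* Ω).comp e).comp ((α h⁻¹ : E₂ ≃ₐ[F₂] E₂) : E₂ →+* E₂)

@[simp] theorem conj_apply (h : Ω ≃ₐ[F₁] Ω) (e : E₂ →+* Ω) (x : E₂) :
    conj α h e x = h (e (α h⁻¹ x)) := rfl

theorem mem_of_normal [Normal F₂ K] (σ : E₂ ≃ₐ[F₂] E₂) {x : E₂} (hx : x ∈ K) : σ x ∈ K := by
  have := AlgEquiv.restrictNormal_commutes σ K ⟨x, hx⟩
  have h2 : σ x = algebraMap K E₂ ((σ.restrictNormal K) ⟨x, hx⟩) := by
    rw [this]; rfl
  rw [h2]
  exact ((σ.restrictNormal K) ⟨x, hx⟩).2

theorem conj_mem [Normal F₂ K] {e : E₂ →+* Ω} (h : Ω ≃ₐ[F₁] Ω) {g : Ω ≃ₐ[F₁] Ω}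
    (hg : g ∈ C α K e) : h * g * h⁻¹ ∈ C α K (conj α h e) := by
  obtain ⟨h1, h2⟩ := hg
  have key : ∀ y : E₂, α h (α h⁻¹ y) = y := by
    intro y
    rw [← AlgEquiv.mul_apply, ← map_mul, mul_inv_cancel, map_one, AlgEquiv.one_apply]
  have key' : ∀ y : E₂, α h⁻¹ (α h y) = y := by
    intro y
    rw [← AlgEquiv.mul_apply, ← map_mul, inv_mul_cancel, map_one, AlgEquiv.one_apply]
  refine ⟨fun x hx => ?_, fun t ht => ?_⟩
  · rw [map_mul, map_mul, AlgEquiv.mul_apply, AlgEquiv.mul_apply,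
      h1 _ (mem_of_normal _ hx), key]
  · rw [map_mul, map_mul, AlgEquiv.mul_apply, AlgEquiv.mul_apply, AlgEquiv.mul_apply,
      AlgEquiv.mul_apply, conj_apply, conj_apply, key']
    have h3 : h⁻¹ (h (e (α h⁻¹ t))) = e (α h⁻¹ t) := by
      rw [← AlgEquiv.mul_apply, inv_mul_cancel, AlgEquiv.one_apply]
    rw [h3, h2 _ (by rw [← map_pow]; exact mem_of_normal _ ht)]

theorem finiteIndex_conj [Normal F₂ K] {e : E₂ →+* Ω} (h : Ω ≃ₐ[F₁] Ω)
    (hC : (C α K e).FiniteIndex) : (C α K (conj α h e)).FiniteIndex := by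
  have h1 : ((C α K e).map (MulAut.conj h : (Ω ≃ₐ[F₁] Ω) →* (Ω ≃ₐ[F₁] Ω))) ≤
      C α K (conj α h e) := by
    rintro _ ⟨g, hg, rfl⟩
    exact conj_mem h hg
  have h2 : ((C α K e).map (MulAut.conj h : (Ω ≃ₐ[F₁] Ω) →* (Ω ≃ₐ[F₁] Ω))).FiniteIndex := by
    constructor
    rw [Subgroup.index_map_equiv]
    exact hC.index_ne_zero
  exact Subgroup.finiteIndex_of_le h1

end group

section fixed

variable {k Ω : Type*} [Field k] [Field Ω] [Algebra k Ω] [IsGalois k Ω]

/-- the fixed field of a subgroup of finite index (not necessarily closed) is finite over `k`. -/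
theorem finiteDimensional_fixedField (W : Subgroup (Ω ≃ₐ[k] Ω)) (hW : W.FiniteIndex) :
    FiniteDimensional k (IntermediateField.fixedField W) := by
  set W' := W.topologicalClosure with hW'
  have hWW' : W ≤ W' := W.le_topologicalClosure
  have hclosed : IsClosed (W' : Set (Ω ≃ₐ[k] Ω)) := W.isClosed_topologicalClosure
  have hfin : W'.FiniteIndex := Subgroup.finiteIndex_of_le hWW'
  have hopen : IsOpen (W' : Set (Ω ≃ₐ[k] Ω)) := W'.isOpen_of_isClosed_of_finiteIndex hclosed
  let H : ClosedSubgroup (Ω ≃ₐ[k] Ω) := ⟨W', hclosed⟩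
  have h1 : (IntermediateField.fixedField W').fixingSubgroup = W' :=
    InfiniteGalois.fixingSubgroup_fixedField H
  have h2 : FiniteDimensional k (IntermediateField.fixedField W') := by
    rw [← InfiniteGalois.isOpen_iff_finite, h1]
    exact hopen
  have h3 : IntermediateField.fixedField W ≤ IntermediateField.fixedField W' := by
    intro y hy
    rw [IntermediateField.mem_fixedField_iff] at hy ⊢
    -- the stabilizer of `y` is closed
    have h4 : W ≤ (IntermediateField.adjoin k {y}).fixingSubgroup := by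
      intro g hg
      rw [IntermediateField.mem_fixingSubgroup_iff]
      intro z hz
      have h5 : IntermediateField.adjoin k {y} ≤ IntermediateField.fixedField (Subgroup.zpowers g) := by
        rw [IntermediateField.adjoin_le_iff, Set.singleton_subset_iff]
        rw [SetLike.mem_coe, IntermediateField.mem_fixedField_iff]
        intro f hf
        have : Subgroup.zpowers g ≤ W := by rwa [Subgroup.zpowers_le]
        exact hy f (this hf)
      have h6 := h5 hz
      rw [IntermediateField.mem_fixedField_iff] at h6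
      exact h6 g (Subgroup.mem_zpowers g)
    have h7 : W' ≤ (IntermediateField.adjoin k {y}).fixingSubgroup :=
      W.topologicalClosure_minimal h4 (InfiniteGalois.fixingSubgroup_isClosed _)
    intro g hg
    have h8 := h7 hg
    rw [IntermediateField.mem_fixingSubgroup_iff] at h8
    exact h8 y (IntermediateField.mem_adjoin_simple_self k y)
  exact FiniteDimensional.of_injective (IntermediateField.inclusion h3).toLinearMap
    (IntermediateField.inclusion_injective h3)

end fixed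

section unique

variable {F₁ F₂ Ω E₂ : Type*} [Field F₁] [NumberField F₁] [Field F₂] [NumberField F₂] [Field Ω]
  [Field E₂] [Algebra F₁ Ω] [Algebra F₂ E₂] [IsGalois F₁ Ω]
  {α : (Ω ≃ₐ[F₁] Ω) →* (E₂ ≃ₐ[F₂] E₂)} {K : IntermediateField F₂ E₂}

/-- **uniqueness**: the restriction to `K` of an embedding with `C(e)` of finite index is unique. -/
theorem eqOn_of_finiteIndex [FiniteDimensional F₂ K] (hsq : ∀ x : E₂, ∃ y, y ^ 2 = x)
    {e e' : E₂ →+* Ω} (h : (C α K e).FiniteIndex) (h' : (C α K e').FiniteIndex) :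
    ∀ x ∈ K, e x = e' x := by
  classical
  set W := C α K e ⊓ C α K e' with hW
  have hWf : W.FiniteIndex := inferInstance
  set N := IntermediateField.fixedField W with hN
  have hNf : FiniteDimensional F₁ N := finiteDimensional_fixedField W hWf
  have hNn : NumberField N := NumberField.of_module_finite F₁ N
  have hKn : NumberField K := NumberField.of_module_finite F₂ K
  have hmem : ∀ x : K, e (x : E₂) ∈ N := by
    intro x
    rw [hN, IntermediateField.mem_fixedField_iff]
    intro g hg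
    have h1 := (mem_C.mp hg.1).2 (x : E₂) (pow_mem x.2 2)
    rw [(mem_C.mp hg.1).1 _ x.2] at h1
    exact h1
  have hmem' : ∀ x : K, e' (x : E₂) ∈ N := by
    intro x
    rw [hN, IntermediateField.mem_fixedField_iff]
    intro g hg
    have h1 := (mem_C.mp hg.2).2 (x : E₂) (pow_mem x.2 2)
    rw [(mem_C.mp hg.2).1 _ x.2] at h1
    exact h1
  let f : K →+* N := (e.comp (algebraMap K E₂)).codRestrict N.toSubfield.toSubring hmem
  let f' : K →+* N := (e'.comp (algebraMap K E₂)).codRestrict N.toSubfield.toSubring hmem'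
  have hf : ∀ x : K, ((f x : N) : Ω) = e (x : E₂) := fun x => rfl
  have hf' : ∀ x : K, ((f' x : N) : Ω) = e' (x : E₂) := fun x => rfl
  have hff' : f = f' := by
    by_contra hne
    obtain ⟨x, hx⟩ := exists_not_isSquare f f' hne
    obtain ⟨t, ht⟩ := hsq (x : E₂)
    have htK : t ^ 2 ∈ K := by rw [ht]; exact x.2
    apply hx
    have hu : e t * e' t ∈ N := by
      rw [hN, IntermediateField.mem_fixedField_iff]
      intro g hg
      have h1 := (mem_C.mp hg.1).2 t htK
      have h2 := (mem_C.mp hg.2).2 t htK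
      rw [map_mul, h1, h2]
      rcases sign (α g) (mem_C.mp hg.1).1 htK with h3 | h3
      · rw [h3]
      · rw [h3, map_neg, map_neg, neg_mul_neg]
    refine ⟨⟨_, hu⟩, ?_⟩
    apply Subtype.ext
    change ((f x : N) : Ω) * ((f' x : N) : Ω) = e t * e' t * (e t * e' t)
    rw [hf, hf', ← ht, map_pow, map_pow]
    ring
  intro x hx
  have h1 := hf ⟨x, hx⟩
  have h2 := hf' ⟨x, hx⟩
  rw [hff'] at h1
  exact h1.symm.trans h2

omit [IsGalois F₁ Ω] in
/-- **existence** (B. H. Neumann), general form with finitely many group automorphisms `φ i` of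
which one makes `g` pointwise good: some `C(e)` has finite index. -/
theorem exists_finiteIndex_of_finite [FiniteDimensional F₂ K] [Normal F₂ K]
    {I : Type*} [Finite I] (φ : I → ((Ω ≃ₐ[F₁] Ω) ≃* (Ω ≃ₐ[F₁] Ω)))
    (hpt : ∀ g : Ω ≃ₐ[F₁] Ω, ∃ i, ∃ e : E₂ →+* Ω, ∀ x, (φ i g) (e x) = e (α (φ i g) x)) :
    ∃ e : E₂ →+* Ω, (C α K e).FiniteIndex := by
  classical
  have hKn : NumberField K := NumberField.of_module_finite F₂ K
  have hchar : CharZero Ω := charZero_of_injective_algebraMap (algebraMap F₁ Ω).injective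
  let U : I → Subgroup (Ω ≃ₐ[F₁] Ω) := fun i =>
    (((AlgEquiv.restrictNormalHom K).comp α).comp (φ i).toMonoidHom).ker
  have hUf : ∀ i, (U i).FiniteIndex := fun i => Subgroup.finiteIndex_ker _
  have hU : ∀ i, ∀ g ∈ U i, ∀ x ∈ K, α (φ i g) x = x := by
    intro i g hg x hx
    rw [MonoidHom.mem_ker, MonoidHom.comp_apply, MonoidHom.comp_apply] at hg
    have h1 := AlgEquiv.restrictNormal_commutes (α (φ i g)) K ⟨x, hx⟩
    have h2 : (α (φ i g)).restrictNormal K = 1 := hg
    rw [h2] at h1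
    exact h1.symm
  let U' : Subgroup (Ω ≃ₐ[F₁] Ω) := ⨅ i, U i
  have hU'f : U'.FiniteIndex := Subgroup.finiteIndex_iInf hUf
  have hQ : Finite ((Ω ≃ₐ[F₁] Ω) ⧸ U') := inferInstance
  let T := {f : K →+* Ω // ∃ e : E₂ →+* Ω, e.comp (algebraMap K E₂) = f}
  have hT : Finite T := inferInstance
  let ext : T → (E₂ →+* Ω) := fun f => f.2.choose
  have hext : ∀ f : T, (ext f).comp (algebraMap K E₂) = f.1 := fun f => f.2.choose_spec
  have : Fintype (((Ω ≃ₐ[F₁] Ω) ⧸ U') × (I × T)) := Fintype.ofFinite _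
  have hcov : ⋃ i ∈ (Finset.univ : Finset (((Ω ≃ₐ[F₁] Ω) ⧸ U') × (I × T))),
      (i.1.out : Ω ≃ₐ[F₁] Ω) • (((C α K (ext i.2.2)).comap (φ i.2.1).toMonoidHom :
        Subgroup (Ω ≃ₐ[F₁] Ω)) : Set (Ω ≃ₐ[F₁] Ω)) = Set.univ := by
    rw [Set.eq_univ_iff_forall]
    intro g
    set q : (Ω ≃ₐ[F₁] Ω) ⧸ U' := QuotientGroup.mk g with hq
    have hu : q.out⁻¹ * g ∈ U' := by
      rw [← QuotientGroup.eq, QuotientGroup.out_eq']
    obtain ⟨i, e, he⟩ := hpt (q.out⁻¹ * g)
    have hui : q.out⁻¹ * g ∈ U i := (Subgroup.mem_iInf.mp hu) i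
    have heC : φ i (q.out⁻¹ * g) ∈ C α K e := ⟨hU i _ hui, fun t _ => he t⟩
    let f : T := ⟨e.comp (algebraMap K E₂), e, rfl⟩
    have hfe : ∀ x ∈ K, e x = ext f x := by
      intro x hx
      have := congrArg (fun φ : K →+* Ω => φ ⟨x, hx⟩) (hext f)
      exact this.symm
    rw [C_congr hfe] at heC
    simp only [Set.mem_iUnion, Finset.mem_univ, exists_true_left]
    refine ⟨(q, (i, f)), ?_⟩
    rw [mem_leftCoset_iff]
    exact heC
  obtain ⟨i, -, hi⟩ := Subgroup.exists_finiteIndex_of_leftCoset_cover hcov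
  refine ⟨ext i.2.2, ⟨?_⟩⟩
  have h1 := hi.index_ne_zero
  rwa [Subgroup.index_comap_of_surjective _ (φ i.2.1).surjective] at h1

omit [IsGalois F₁ Ω] in
/-- **existence** (B. H. Neumann): some `C(e)` has finite index. -/
theorem exists_finiteIndex [FiniteDimensional F₂ K] [Normal F₂ K]
    (hpt : ∀ g : Ω ≃ₐ[F₁] Ω, ∃ e : E₂ →+* Ω, ∀ x, g (e x) = e (α g x)) :
    ∃ e : E₂ →+* Ω, (C α K e).FiniteIndex :=
  exists_finiteIndex_of_finite (I := Unit) (fun _ => MulEquiv.refl _)
    (fun g => ⟨(), hpt g⟩)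

/-- the matched embedding is equivariant on `K`. -/
theorem equivariant_of_finiteIndex [FiniteDimensional F₂ K] [Normal F₂ K]
    (hsq : ∀ x : E₂, ∃ y, y ^ 2 = x) {e : E₂ →+* Ω} (h : (C α K e).FiniteIndex) :
    ∀ g : Ω ≃ₐ[F₁] Ω, ∀ x ∈ K, g (e x) = e (α g x) := by
  intro g x hx
  have h1 := eqOn_of_finiteIndex hsq (finiteIndex_conj g h) h (α g x) (mem_of_normal _ hx)
  rw [conj_apply] at h1
  rw [← h1, ← AlgEquiv.mul_apply, ← map_mul, inv_mul_cancel, map_one, AlgEquiv.one_apply]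

end unique

section compact

/-- limit of a family of embeddings along an ultrafilter -/
theorem exists_limit {E Ω : Type*} [Field E] [Field Ω] [CharZero Ω]
    (halg : ∀ x : E, IsAlgebraic ℤ x) {ι : Type*} (U : Ultrafilter ι) (e : ι → (E →+* Ω)) :
    ∃ f : E →+* Ω, ∀ x, ∀ᶠ i in U, e i x = f x := by
  classical
  have hex : ∀ x : E, ∃ z : Ω, ∀ᶠ i in U, e i x = z := by
    intro x
    obtain ⟨p, hp, hpx⟩ := halg x
    have hp' : p.map (Int.castRingHom Ω) ≠ 0 :=
      (Polynomial.map_ne_zero_iff (RingHom.injective_int (Int.castRingHom Ω))).mpr hp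
    have hroot : ∀ i, e i x ∈ ((p.map (Int.castRingHom Ω)).roots.toFinset : Set Ω) := by
      intro i
      rw [Finset.mem_coe, Multiset.mem_toFinset, Polynomial.mem_roots hp', Polynomial.IsRoot.def,
        Polynomial.eval_map]
      have h1 := congrArg (e i) hpx
      rw [map_zero, Polynomial.aeval_def, Polynomial.hom_eval₂] at h1
      rw [← h1]
      congr 1
      exact RingHom.ext_int _ _
    have hcov : (⋃ z ∈ ((p.map (Int.castRingHom Ω)).roots.toFinset : Set Ω), {i | e i x = z}) ∈ U := by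
      apply Filter.mem_of_superset (Filter.univ_mem (f := (U : Filter ι)))
      intro i _
      simp only [Set.mem_iUnion]
      exact ⟨e i x, hroot i, rfl⟩
    rw [Ultrafilter.finite_biUnion_mem_iff (Finset.finite_toSet _)] at hcov
    obtain ⟨z, -, hz⟩ := hcov
    exact ⟨z, hz⟩
  choose j hj using hex
  have huniq : ∀ {x : E} {z : Ω}, (∀ᶠ i in U, e i x = z) → j x = z := by
    intro x z h
    obtain ⟨i, h1, h2⟩ := (h.and (hj x)).exists
    exact h2.symm.trans h1
  refine ⟨⟨⟨⟨j, ?_⟩, ?_⟩, ?_, ?_⟩, hj⟩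
  · exact huniq (Filter.Eventually.of_forall fun i => map_one _)
  · intro x y
    apply huniq
    filter_upwards [hj x, hj y] with i h1 h2
    rw [map_mul, h1, h2]
  · exact huniq (Filter.Eventually.of_forall fun i => map_zero _)
  · intro x y
    apply huniq
    filter_upwards [hj x, hj y] with i h1 h2
    rw [map_add, h1, h2]

/-- finite level implies infinite level (compactness) -/
theorem pointwise_of_finite {E Ω : Type*} [Field E] [Field Ω] [CharZero Ω]
    (halg : ∀ x : E, IsAlgebraic ℤ x) (g : Ω → Ω) (β : E → E)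
    (h : ∀ T : Finset E, ∃ e : E →+* Ω, ∀ x ∈ T, g (e x) = e (β x)) :
    ∃ e : E →+* Ω, ∀ x, g (e x) = e (β x) := by
  classical
  choose e he using h
  obtain ⟨f, hf⟩ := exists_limit halg (Ultrafilter.of (Filter.atTop : Filter (Finset E))) e
  refine ⟨f, fun x => ?_⟩
  have h1 : ∀ᶠ T in (Ultrafilter.of (Filter.atTop : Filter (Finset E)) : Filter (Finset E)),
      x ∈ T := by
    apply Ultrafilter.of_le
    filter_upwards [Filter.eventually_ge_atTop ({x} : Finset E)] with T hT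
    exact hT (Finset.mem_singleton_self x)
  obtain ⟨T, h2, h3, h4⟩ := (h1.and ((hf x).and (hf (β x)))).exists
  rw [← h3, ← h4]
  exact he T x h2

theorem isAlgebraic_int {F E : Type*} [Field F] [NumberField F] [Field E] [Algebra F E]
    [Algebra.IsAlgebraic F E] (x : E) : IsAlgebraic ℤ x := by
  have hc : CharZero E := charZero_of_injective_algebraMap (algebraMap F E).injective
  have h1 : Algebra.IsAlgebraic ℚ E := Algebra.IsAlgebraic.trans ℚ F E
  exact (IsFractionRing.isAlgebraic_iff ℤ ℚ E).mpr (Algebra.IsAlgebraic.isAlgebraic x)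

end compact

section main

variable {F₁ F₂ Ω E₂ : Type*} [Field F₁] [NumberField F₁] [Field F₂] [NumberField F₂] [Field Ω]
  [Field E₂] [Algebra F₁ Ω] [Algebra F₂ E₂] [IsGalois F₁ Ω] [IsGalois F₂ E₂]
  {α : (Ω ≃ₐ[F₁] Ω) →* (E₂ ≃ₐ[F₂] E₂)}

omit [NumberField F₂] in
/-- a finite normal subextension containing two given elements -/
theorem exists_normal_mem (x y : E₂) : ∃ K : IntermediateField F₂ E₂,
    FiniteDimensional F₂ K ∧ Normal F₂ K ∧ x ∈ K ∧ y ∈ K := by
  let L := IntermediateField.adjoin F₂ ({x, y} : Set E₂)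
  have hL : FiniteDimensional F₂ L := by
    apply IntermediateField.finiteDimensional_adjoin
    intro z _
    exact Algebra.IsIntegral.isIntegral z
  refine ⟨IntermediateField.normalClosure F₂ L E₂, inferInstance, inferInstance, ?_, ?_⟩
  · exact IntermediateField.le_normalClosure L
      (IntermediateField.subset_adjoin F₂ _ (by simp))
  · exact IntermediateField.le_normalClosure L
      (IntermediateField.subset_adjoin F₂ _ (by simp))

/-- **Part A of the end game.** -/
theorem exists_global_embedding (hsq : ∀ x : E₂, ∃ y, y ^ 2 = x)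
    (hpt : ∀ g : Ω ≃ₐ[F₁] Ω, ∃ e : E₂ →+* Ω, ∀ x, g (e x) = e (α g x)) :
    ∃ e : E₂ →+* Ω, ∀ (g : Ω ≃ₐ[F₁] Ω) (x : E₂), g (e x) = e (α g x) := by
  classical
  -- local data
  have hex : ∀ x : E₂, ∃ z : Ω, ∀ K : IntermediateField F₂ E₂, FiniteDimensional F₂ K →
      Normal F₂ K → x ∈ K → ∀ e : E₂ →+* Ω, (C α K e).FiniteIndex → e x = z := by
    intro x
    obtain ⟨K₀, hK₀, hK₀', hx, -⟩ := exists_normal_mem (F₂ := F₂) x x
    obtain ⟨e₀, he₀⟩ := exists_finiteIndex (K := K₀) hpt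
    refine ⟨e₀ x, ?_⟩
    intro K hK hK' hxK e he
    -- compare on `K ⊓ K₀`
    have h1 : (C α (K ⊓ K₀) e).FiniteIndex :=
      Subgroup.finiteIndex_of_le (C_mono inf_le_left e)
    have h2 : (C α (K ⊓ K₀) e₀).FiniteIndex :=
      Subgroup.finiteIndex_of_le (C_mono inf_le_right e₀)
    have h3 : FiniteDimensional F₂ ↥(K ⊓ K₀) :=
      FiniteDimensional.of_injective (IntermediateField.inclusion inf_le_left).toLinearMap
        (IntermediateField.inclusion_injective inf_le_left)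
    exact eqOn_of_finiteIndex hsq h1 h2 x ⟨hxK, hx⟩
  choose j hj using hex
  -- for any finite normal `K` there is `e` with `j = e` on `K`
  have hloc : ∀ K : IntermediateField F₂ E₂, FiniteDimensional F₂ K → Normal F₂ K →
      ∃ e : E₂ →+* Ω, (∀ x ∈ K, j x = e x) ∧ ∀ g : Ω ≃ₐ[F₁] Ω, ∀ x ∈ K, g (e x) = e (α g x) := by
    intro K hK hK'
    obtain ⟨e, he⟩ := exists_finiteIndex (K := K) hpt
    exact ⟨e, fun x hx => (hj x K hK hK' hx e he).symm, equivariant_of_finiteIndex hsq he⟩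
  have hone : j 1 = 1 := by
    obtain ⟨K, hK, hK', -, -⟩ := exists_normal_mem (F₂ := F₂) (1 : E₂) 1
    obtain ⟨e, he, -⟩ := hloc K hK hK'
    rw [he _ K.one_mem, map_one]
  have hzero : j 0 = 0 := by
    obtain ⟨K, hK, hK', -, -⟩ := exists_normal_mem (F₂ := F₂) (1 : E₂) 1
    obtain ⟨e, he, -⟩ := hloc K hK hK'
    rw [he _ K.zero_mem, map_zero]
  have hmul : ∀ x y, j (x * y) = j x * j y := by
    intro x y
    obtain ⟨K, hK, hK', hx, hy⟩ := exists_normal_mem (F₂ := F₂) x y
    obtain ⟨e, he, -⟩ := hloc K hK hK'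
    rw [he _ (K.mul_mem hx hy), he _ hx, he _ hy, map_mul]
  have hadd : ∀ x y, j (x + y) = j x + j y := by
    intro x y
    obtain ⟨K, hK, hK', hx, hy⟩ := exists_normal_mem (F₂ := F₂) x y
    obtain ⟨e, he, -⟩ := hloc K hK hK'
    rw [he _ (K.add_mem hx hy), he _ hx, he _ hy, map_add]
  refine ⟨⟨⟨⟨j, hone⟩, hmul⟩, hzero, hadd⟩, ?_⟩
  intro g x
  obtain ⟨K, hK, hK', hx, -⟩ := exists_normal_mem (F₂ := F₂) x x
  obtain ⟨e, he, he'⟩ := hloc K hK hK'
  change g (j x) = j (α g x)
  rw [he _ hx, he _ (mem_of_normal _ hx)]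
  exact he' g x hx

omit [IsGalois F₁ Ω] in
/-- the field `Ω` is Galois over `F₁` as soon as it is algebraically closed and algebraic over
`ℚ` -/
theorem isGalois_of_isAlgClosed [IsAlgClosed Ω] (h : ∀ x : Ω, IsAlgebraic ℤ x) :
    IsGalois F₁ Ω := by
  have hc : CharZero Ω := charZero_of_injective_algebraMap (algebraMap F₁ Ω).injective
  have h1 : Algebra.IsAlgebraic ℚ Ω := ⟨fun x => (IsFractionRing.isAlgebraic_iff ℤ ℚ Ω).mp (h x)⟩
  have h2 : Algebra.IsAlgebraic F₁ Ω := Algebra.IsAlgebraic.tower_top (K := ℚ) F₁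
  have h3 : Algebra.IsSeparable F₁ Ω := inferInstance
  have h4 : Normal F₁ Ω := by
    refine ⟨fun x => ?_⟩
    exact IsAlgClosed.splits _
  exact ⟨⟩

/-- **Part A of the end game, finite level input.** -/
theorem exists_global_embedding_of_finite (hsq : ∀ x : E₂, ∃ y, y ^ 2 = x)
    (hpt : ∀ (g : Ω ≃ₐ[F₁] Ω) (T : Finset E₂), ∃ e : E₂ →+* Ω, ∀ x ∈ T, g (e x) = e (α g x)) :
    ∃ e : E₂ →+* Ω, ∀ (g : Ω ≃ₐ[F₁] Ω) (x : E₂), g (e x) = e (α g x) := by
  have hc : CharZero Ω := charZero_of_injective_algebraMap (algebraMap F₁ Ω).injective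
  exact exists_global_embedding hsq fun g =>
    pointwise_of_finite (fun x => isAlgebraic_int (F := F₂) x) g (α g) (hpt g)

end main

section descent

variable {F₁ F₂ E₁ E₂ : Type*} [Field F₁] [NumberField F₁] [Field F₂] [NumberField F₂] [Field E₁]
  [Field E₂] [Algebra F₁ E₁] [Algebra F₂ E₂] [IsGalois F₁ E₁] [IsGalois F₂ E₂]

/-- a solvably closed field is closed under square roots. -/
theorem exists_sq_of_solvablyClosed {E : Type*} [Field E]
    (h : Crest.NumberTheoryR.IsSolvablyClosed E) (x : E) : ∃ y : E, y ^ 2 = x := by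
  classical
  let p : Polynomial E := Polynomial.X ^ 2 - Polynomial.C x
  have hdeg : p.natDegree = 2 := Polynomial.natDegree_X_pow_sub_C
  have hcomm : ∀ a b : p.Gal, a * b = b * a := by
    have hcard : Nat.card p.Gal ≤ 2 := by
      have hfact : Fact (Polynomial.map (algebraMap E p.SplittingField) p).Splits :=
        ⟨Polynomial.SplittingField.splits p⟩
      have h1 : Function.Injective (Polynomial.Gal.galActionHom p p.SplittingField) :=
        Polynomial.Gal.galActionHom_injective p p.SplittingField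
      have h2 := Nat.card_le_card_of_injective _ h1
      have h3 : Nat.card (Equiv.Perm (p.rootSet p.SplittingField)) ≤ 2 := by
        rw [Nat.card_perm]
        have h4 : Nat.card (p.rootSet p.SplittingField) ≤ 2 := by
          rw [← hdeg, Polynomial.rootSet_def, Nat.card_coe_set_eq, Set.ncard_coe_finset]
          refine (Multiset.toFinset_card_le _).trans ((Polynomial.card_roots' _).trans ?_)
          rw [Polynomial.natDegree_map]
        interval_cases Nat.card (p.rootSet p.SplittingField) <;> simp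
      exact h2.trans h3
    intro a b
    by_contra hne
    have h1 : (1 : p.Gal) ≠ a := by rintro rfl; simp at hne
    have h2 : (1 : p.Gal) ≠ b := by rintro rfl; simp at hne
    have h3 : a ≠ b := by rintro rfl; simp at hne
    have h4 : ({1, a, b} : Finset p.Gal).card = 3 := by
      rw [Finset.card_insert_of_notMem, Finset.card_pair h3]
      simp [h1, h2]
    have h5 : ({1, a, b} : Finset p.Gal).card ≤ Nat.card p.Gal := by
      rw [Nat.card_eq_fintype_card]; exact Finset.card_le_univ _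
    omega
  have hsp := h p hcomm
  obtain ⟨y, hy⟩ := hsp.exists_eval_eq_zero (by
    intro h0
    have h00 := Polynomial.natDegree_eq_of_degree_eq_some h0
    rw [hdeg] at h00
    exact absurd h00 (by norm_num))
  refine ⟨y, ?_⟩
  have : y ^ 2 - x = 0 := by simpa [p] using hy
  exact sub_eq_zero.mp this

end descent

end Crest.Agent.R018.EndAx245
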