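import Mathlib
import Crest.Prelude.Def_SolvClosed
import Crest.Agent.R018.EndA_245

/-!
# Row 18, section 4 (uniqueness): the centralizer of an open subgroup is trivial (helper275)

`E/ℚ` Galois, closed under square roots, `V ≤ Gal(E/ℚ)` of finite index (for instance open).
A ring endomorphism of `E` which commutes with all elements of `V` is the identity.
-/

set_option autoImplicit false

open Crest.NumberTheoryR Crest.Agent.R018.EndAx245

namespace Crest.Agent.R018.Centrx275

variable {E : Type*} [Field E] [CharZero E] [IsGalois ℚ E]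

/-- general form: `V` of finite index (open or not), `E` closed under square roots -/
theorem eq_id_of_commute (hsq : ∀ x : E, ∃ y, y ^ 2 = x) (V : Subgroup (E ≃ₐ[ℚ] E))
    (hV : V.FiniteIndex) (t : E →+* E) (h : ∀ v ∈ V, ∀ x, v (t x) = t (v x)) :
    ∀ x, t x = x := by
  classical
  set F := IntermediateField.fixedField V with hF
  have hFf : FiniteDimensional ℚ F := finiteDimensional_fixedField V hV
  have hFn : NumberField F := NumberField.of_module_finite ℚ F
  -- the closure of `V` also commutes with `t`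
  have hcl : ∀ v ∈ V.topologicalClosure, ∀ x, v (t x) = t (v x) := by
    intro v hv x
    -- a finite normal subextension containing `x` and `t x`
    obtain ⟨K, hK, hK', hx, htx⟩ := exists_normal_mem (F₂ := ℚ) x (t x)
    have hfi : IsOpen (K.fixingSubgroup : Set (E ≃ₐ[ℚ] E)) :=
      (InfiniteGalois.isOpen_iff_finite K).2 hK
    have hnhd : {w : E ≃ₐ[ℚ] E | v⁻¹ * w ∈ K.fixingSubgroup} ∈ nhds v := by
      have h1 : IsOpen {w : E ≃ₐ[ℚ] E | v⁻¹ * w ∈ K.fixingSubgroup} :=
        hfi.preimage (continuous_const.mul continuous_id)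
      exact h1.mem_nhds (by simp)
    have hv' : v ∈ closure (V : Set (E ≃ₐ[ℚ] E)) := hv
    obtain ⟨w, hw, hwV⟩ := mem_closure_iff_nhds.1 hv' _ hnhd
    have hw' : v⁻¹ * w ∈ K.fixingSubgroup := hw
    rw [IntermediateField.mem_fixingSubgroup_iff] at hw'
    have h1 : w (t x) = v (t x) := by
      have := hw' _ htx
      rw [AlgEquiv.mul_apply] at this
      conv_rhs => rw [← this]
      rw [← AlgEquiv.mul_apply, mul_inv_cancel, AlgEquiv.one_apply]
    have h2 : w x = v x := by
      have := hw' _ hx
      rw [AlgEquiv.mul_apply] at this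
      conv_rhs => rw [← this]
      rw [← AlgEquiv.mul_apply, mul_inv_cancel, AlgEquiv.one_apply]
    rw [← h1, ← h2]
    exact h w hwV x
  have hVc : V.topologicalClosure.FiniteIndex := Subgroup.finiteIndex_of_le V.le_topologicalClosure
  have hFV : F.fixingSubgroup ≤ V.topologicalClosure := by
    let H : ClosedSubgroup (E ≃ₐ[ℚ] E) := ⟨V.topologicalClosure, V.isClosed_topologicalClosure⟩
    have h1 : (IntermediateField.fixedField V.topologicalClosure).fixingSubgroup
        = V.topologicalClosure := InfiniteGalois.fixingSubgroup_fixedField H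
    have h3 : IntermediateField.fixedField V.topologicalClosure ≤ F := by
      intro y hy
      rw [hF, IntermediateField.mem_fixedField_iff]
      rw [IntermediateField.mem_fixedField_iff] at hy
      exact fun g hg => hy g (V.le_topologicalClosure hg)
    rw [← h1]
    exact IntermediateField.fixingSubgroup_le h3
  have hcomm : ∀ g : E ≃ₐ[F] E, ∀ x, g (t x) = t (g x) := by
    intro g x
    have hg : g.restrictScalars ℚ ∈ F.fixingSubgroup := by
      rw [IntermediateField.mem_fixingSubgroup_iff]
      intro y hy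
      exact g.commutes ⟨y, hy⟩
    exact hcl _ (hFV hg) x
  intro x
  obtain ⟨K, hK, hK', hx, -⟩ := exists_normal_mem (F₂ := F) x x
  have hker : (AlgEquiv.restrictNormalHom (F := F) (K₁ := E) K).ker.FiniteIndex :=
    Subgroup.finiteIndex_ker _
  have hfix : ∀ g ∈ (AlgEquiv.restrictNormalHom (F := F) (K₁ := E) K).ker, ∀ x ∈ K, g x = x := by
    intro g hg x hx
    have h1 := AlgEquiv.restrictNormal_commutes g K ⟨x, hx⟩
    have h2 : g.restrictNormal K = 1 := hg
    rw [h2] at h1
    exact h1.symm
  have hC : ∀ e : E →+* E, (∀ g : E ≃ₐ[F] E, ∀ x, g (e x) = e (g x)) →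
      (C (MonoidHom.id (E ≃ₐ[F] E)) K e).FiniteIndex := by
    intro e he
    refine Subgroup.finiteIndex_of_le (H := (AlgEquiv.restrictNormalHom (F := F) (K₁ := E) K).ker) ?_
    intro g hg
    exact ⟨fun y hy => hfix g hg y hy, fun s _ => he g s⟩
  have h1 := eqOn_of_finiteIndex hsq (hC t hcomm) (hC (RingHom.id E) (fun g x => rfl)) x hx
  exact h1

/-- **Centralizer triviality**: an automorphism commuting with an open subgroup is trivial -/
theorem eq_one_of_commute (hE : IsSolvablyClosed E) (V : Subgroup (E ≃ₐ[ℚ] E))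
    (hV : IsOpen (V : Set (E ≃ₐ[ℚ] E))) (t : E ≃ₐ[ℚ] E) (h : ∀ v ∈ V, v * t = t * v) : t = 1 := by
  have hfin : V.FiniteIndex := by
    have := V.quotient_finite_of_isOpen hV
    exact Subgroup.finiteIndex_of_finite_quotient
  ext x
  exact eq_id_of_commute (exists_sq_of_solvablyClosed hE) V hfin (t : E →+* E)
    (fun v hv x => congrArg (fun s : E ≃ₐ[ℚ] E => s x) (h v hv)) x

/-- two automorphisms which conjugate an open subgroup in the same way are equal -/
theorem eq_of_conj_eq (hE : IsSolvablyClosed E) (V : Subgroup (E ≃ₐ[ℚ] E))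
    (hV : IsOpen (V : Set (E ≃ₐ[ℚ] E))) (t t' : E ≃ₐ[ℚ] E)
    (h : ∀ v ∈ V, t⁻¹ * v * t = t'⁻¹ * v * t') : t = t' := by
  have h1 : t * t'⁻¹ = 1 := by
    refine eq_one_of_commute hE V hV _ fun v hv => ?_
    have h2 := h v hv
    calc v * (t * t'⁻¹) = t * (t⁻¹ * v * t) * t'⁻¹ := by group
      _ = t * (t'⁻¹ * v * t') * t'⁻¹ := by rw [h2]
      _ = t * t'⁻¹ * v := by group
  exact mul_inv_eq_one.1 h1

/-- the same with the conjugation on the other side -/
theorem eq_of_conj_eq' (hE : IsSolvablyClosed E) (V : Subgroup (E ≃ₐ[ℚ] E))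
    (hV : IsOpen (V : Set (E ≃ₐ[ℚ] E))) (t t' : E ≃ₐ[ℚ] E)
    (h : ∀ v ∈ V, t * v * t⁻¹ = t' * v * t'⁻¹) : t = t' := by
  have h1 : t⁻¹ = t'⁻¹ := eq_of_conj_eq hE V hV _ _ fun v hv => by simpa using h v hv
  exact inv_injective h1

end Crest.Agent.R018.Centrx275
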