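import Mathlib

/-!
# Row 18, block H7 (helper73): descent and induction (section 6 of the CORE text)

Abstract group theory.  `B` is a compact group (`Gal(Om/ℚ)`), `S` a topological group
(`Gal(Qsolv/ℚ)`).  We assume

* `NU`   : every continuous automorphism of an open subgroup `V` of `S` is conjugation by an
           element of `S` (Neukirch–Uchida);
* `Centr`: the centralizer in `S` of an open subgroup is trivial.

For a homomorphism `α : G → S`, `G` open in `B`, continuous with open image, condition `ND` says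
that for every `b ∉ G` there is `k ∈ ker α ∩ core(G)` with `α (b k b⁻¹) ≠ 1`.  If `ND` fails, `α`
extends to a strictly larger open subgroup.  Hence a property `FT` which is inherited by
restrictions and which holds under `ND`, holds for all `α`.
-/

set_option autoImplicit false

namespace Crest.Agent.R018.Descx73

section defs

variable {B S : Type*} [Group B] [Group S]

/-- **(ND)**: for every `b` outside `G` there is an element `k` of `ker α` which lies in the normal
core of `G` with `α (b k b⁻¹) ≠ 1`. -/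
def ND (G : Subgroup B) (α : G →* S) : Prop :=
  ∀ b : B, b ∉ G → ∃ k : B, ∃ hk : k ∈ G, α ⟨k, hk⟩ = 1 ∧ k ∈ G.normalCore ∧
    ∃ hk' : b * k * b⁻¹ ∈ G, α ⟨b * k * b⁻¹, hk'⟩ ≠ 1

/-- Neukirch–Uchida for automorphisms of open subgroups of `S`. -/
def NU (S : Type*) [Group S] [TopologicalSpace S] : Prop :=
  ∀ V : Subgroup S, IsOpen (V : Set S) → ∀ β : V ≃* V, Continuous β →
    ∃ t : S, ∀ v : V, ((β v : V) : S) = t * v * t⁻¹

/-- The centralizer of an open subgroup of `S` is trivial. -/
def Centr (S : Type*) [Group S] [TopologicalSpace S] : Prop :=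
  ∀ V : Subgroup S, IsOpen (V : Set S) → ∀ t : S, (∀ v ∈ V, t * v = v * t) → t = 1

end defs

section descent

variable {B S : Type*} [Group B] [TopologicalSpace B] [IsTopologicalGroup B] [CompactSpace B]
  [Group S] [TopologicalSpace S] [IsTopologicalGroup S] [T2Space S]

omit [CompactSpace B] [IsTopologicalGroup B] [TopologicalSpace B] [TopologicalSpace S]
  [IsTopologicalGroup S] [T2Space S] in
/-- conjugation by `b` maps `L` onto `L` as soon as it maps `L` into `L` and a power of `b`
normalizes `L` -/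
theorem conj_onto {L : Subgroup B} {b : B} (hb : ∀ k ∈ L, b * k * b⁻¹ ∈ L) {m : ℕ} (hm : 0 < m)
    (hbm : ∀ k ∈ L, (b ^ m)⁻¹ * k * b ^ m ∈ L) : ∀ k ∈ L, b⁻¹ * k * b ∈ L := by
  have hpow : ∀ n : ℕ, ∀ k ∈ L, b ^ n * k * (b ^ n)⁻¹ ∈ L := by
    intro n
    induction n with
    | zero => intro k hk; simpa using hk
    | succ n ih =>
      intro k hk
      have := hb _ (ih k hk)
      have e : b * (b ^ n * k * (b ^ n)⁻¹) * b⁻¹ = b ^ (n + 1) * k * (b ^ (n + 1))⁻¹ := by
        rw [pow_succ', mul_inv_rev]; group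
      rwa [e] at this
  intro k hk
  obtain ⟨n, rfl⟩ : ∃ n, m = n + 1 := ⟨m - 1, by omega⟩
  have h1 := hbm k hk
  have h2 := hpow n _ h1
  have e : b ^ n * ((b ^ (n + 1))⁻¹ * k * b ^ (n + 1)) * (b ^ n)⁻¹ = b⁻¹ * k * b := by
    rw [pow_succ, mul_inv_rev]; group
  rwa [e] at h2

omit [CompactSpace B] [T2Space S] in
/-- a homomorphism which is continuous on an open subgroup is continuous -/
theorem continuous_of_open {G H : Subgroup B} (hGH : G ≤ H) (hG : IsOpen (G : Set B))
    (f : H →* S) (hf : Continuous fun g : G => f ⟨g, hGH g.2⟩) : Continuous f := by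
  apply continuous_of_continuousAt_one f
  have hH : IsOpen (H : Set B) := Subgroup.isOpen_mono hGH hG
  rw [ContinuousAt, map_one]
  intro s hs
  rw [Filter.mem_map]
  have h1 : (fun g : G => f ⟨g, hGH g.2⟩) ⁻¹' s ∈ nhds (1 : G) := by
    apply hf.continuousAt.preimage_mem_nhds
    have : f ⟨((1 : G) : B), hGH (1 : G).2⟩ = 1 := by
      have : (⟨((1 : G) : B), hGH (1 : G).2⟩ : H) = 1 := rfl
      rw [this, map_one]
    rwa [this]
  -- the inclusion `G → H` is an open embedding
  have hemb : Topology.IsOpenEmbedding (fun g : G => (⟨g, hGH g.2⟩ : H)) := by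
    have h2 : Topology.IsOpenEmbedding (Subtype.val : G → B) := hG.isOpenEmbedding_subtypeVal
    have h3 : Topology.IsOpenEmbedding (Subtype.val : H → B) := hH.isOpenEmbedding_subtypeVal
    exact h3.of_comp _ h2
  have h4 := hemb.map_nhds_eq (1 : G)
  have h5 : f ⁻¹' s ∈ Filter.map (fun g : G => (⟨g, hGH g.2⟩ : H)) (nhds 1) := by
    rw [Filter.mem_map]; exact h1
  rw [h4] at h5
  exact h5

omit [IsTopologicalGroup S] in
/-- Conjugation by `g` induces a continuous automorphism of `α (N)`. -/
theorem exists_aut {N : Subgroup B} [N.Normal] (hN : IsClosed (N : Set B))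
    (a : N →* S) (ha : Continuous a) (g : B)
    (h1 : ∀ k : N, a k = 1 → a ⟨g * k * g⁻¹, ‹N.Normal›.conj_mem k k.2 g⟩ = 1)
    (h2 : ∀ k : N, a ⟨g * k * g⁻¹, ‹N.Normal›.conj_mem k k.2 g⟩ = 1 → a k = 1) :
    ∃ β : a.range ≃* a.range, Continuous β ∧ ∀ n : N, β ⟨a n, n, rfl⟩ =
      ⟨a ⟨g * n * g⁻¹, ‹N.Normal›.conj_mem n n.2 g⟩, _, rfl⟩ := by
  classical
  have : CompactSpace N := isCompact_iff_compactSpace.mp hN.isCompact
  let c : N ≃* N := MulAut.conjNormal g
  have hc : ∀ n : N, c n = ⟨g * n * g⁻¹, ‹N.Normal›.conj_mem n n.2 g⟩ := fun n => by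
    ext; simp [c]
  have hcc : Continuous c := by
    have : Continuous fun n : N => (⟨g * n * g⁻¹, ‹N.Normal›.conj_mem n n.2 g⟩ : N) :=
      Continuous.subtype_mk ((continuous_const.mul continuous_subtype_val).mul continuous_const) _
    refine this.congr fun n => (hc n).symm
  -- the map
  have hker : a.rangeRestrict.ker ≤ (a.rangeRestrict.comp c.toMonoidHom).ker := by
    intro k hk
    rw [MonoidHom.mem_ker] at hk ⊢
    have hk' : a k = 1 := congrArg Subtype.val hk
    have := h1 k hk'
    apply Subtype.ext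
    change a (c k) = 1
    rw [hc]; exact this
  have hker' : (a.rangeRestrict.comp c.toMonoidHom).ker ≤ a.rangeRestrict.ker := by
    intro k hk
    rw [MonoidHom.mem_ker] at hk ⊢
    have hk' : a (c k) = 1 := congrArg Subtype.val hk
    rw [hc] at hk'
    exact Subtype.ext (h2 k hk')
  have hsurj : Function.Surjective a.rangeRestrict := a.rangeRestrict_surjective
  let f : a.range →* a.range :=
    a.rangeRestrict.liftOfSurjective hsurj ⟨a.rangeRestrict.comp c.toMonoidHom, hker⟩
  have hf : ∀ n : N, f (a.rangeRestrict n) = a.rangeRestrict (c n) := fun n =>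
    MonoidHom.liftOfRightInverse_comp_apply _ _ _ ⟨_, hker⟩ n
  have hfinj : Function.Injective f := by
    rw [injective_iff_map_eq_one]
    intro v hv
    obtain ⟨n, rfl⟩ := hsurj v
    rw [hf] at hv
    exact hker' (show n ∈ (a.rangeRestrict.comp c.toMonoidHom).ker from hv)
  have hfsurj : Function.Surjective f := by
    intro v
    obtain ⟨n, rfl⟩ := hsurj v
    refine ⟨a.rangeRestrict (c.symm n), ?_⟩
    rw [hf, MulEquiv.apply_symm_apply]
  refine ⟨MulEquiv.ofBijective f ⟨hfinj, hfsurj⟩, ?_, ?_⟩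
  · change Continuous f
    have hcont : Continuous a.rangeRestrict := ha.subtype_mk _
    have hq : Topology.IsQuotientMap a.rangeRestrict :=
      (hcont.isClosedMap).isQuotientMap hcont hsurj
    rw [hq.continuous_iff]
    have : (f ∘ a.rangeRestrict) = a.rangeRestrict ∘ c := funext hf
    rw [this]
    exact hcont.comp hcc
  · intro n
    change f (a.rangeRestrict n) = _
    rw [hf]
    apply Subtype.ext
    change a (c n) = _
    rw [hc]

/-- **Descent**: if `ND` fails then `α` extends to a strictly larger subgroup. -/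
theorem exists_extension [CompactSpace S] (hNU : NU S) (hC : Centr S) (G : Subgroup B)
    (hG : IsOpen (G : Set B))
    (α : G →* S) (hα : Continuous α) (hopen : IsOpen (Set.range α)) (hnd : ¬ ND G α) :
    ∃ (H : Subgroup B) (hGH : G ≤ H) (α' : H →* S), G ≠ H ∧ Continuous α' ∧
      IsOpen (Set.range α') ∧ ∀ g : G, α' ⟨g, hGH g.2⟩ = α g := by
  classical
  -- the failure of `ND`
  unfold ND at hnd
  push Not at hnd
  obtain ⟨b, hbG, hb⟩ := hnd
  -- `N` = normal core, finite index
  have hfq : Finite (B ⧸ G) := Subgroup.quotient_finite_of_isOpen G hG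
  have hfi : G.FiniteIndex := Subgroup.finiteIndex_of_finite_quotient
  set N : Subgroup B := G.normalCore with hNdef
  have hNG : N ≤ G := Subgroup.normalCore_le G
  have hNn : N.Normal := Subgroup.normalCore_normal G
  have hNfi : N.FiniteIndex := inferInstance
  have hNcl : IsClosed (N : Set B) :=
    G.normalCore_isClosed (Subgroup.isClosed_of_isOpen G hG)
  let a : N →* S := α.comp (Subgroup.inclusion hNG)
  have ha : Continuous a := hα.comp (continuous_inclusion hNG)
  have haα : ∀ (n : B) (hn : n ∈ N), a ⟨n, hn⟩ = α ⟨n, hNG hn⟩ := fun n hn => rfl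
  -- `L`
  let L : Subgroup B := a.ker.map N.subtype
  have hL : ∀ k : B, k ∈ L ↔ ∃ hk : k ∈ N, a ⟨k, hk⟩ = 1 := by
    intro k
    constructor
    · rintro ⟨n, hn, rfl⟩
      exact ⟨n.2, hn⟩
    · rintro ⟨hk, h⟩
      exact ⟨⟨k, hk⟩, h, rfl⟩
  have hGL : ∀ g ∈ G, ∀ k ∈ L, g * k * g⁻¹ ∈ L := by
    intro g hg k hk
    rw [hL] at hk ⊢
    obtain ⟨hk, h⟩ := hk
    refine ⟨hNn.conj_mem k hk g, ?_⟩
    rw [haα] at h ⊢
    have : (⟨g * k * g⁻¹, hNG (hNn.conj_mem k hk g)⟩ : G) =
      ⟨g, hg⟩ * ⟨k, hNG hk⟩ * (⟨g, hg⟩)⁻¹ := rfl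
    rw [this, map_mul, map_mul, h, mul_one, map_inv, mul_inv_cancel]
  have hbL : ∀ k ∈ L, b * k * b⁻¹ ∈ L := by
    intro k hk
    rw [hL] at hk ⊢
    obtain ⟨hk, h⟩ := hk
    have h3 := hb k (hNG hk) h hk (hNG (hNn.conj_mem k hk b))
    exact ⟨hNn.conj_mem k hk b, h3⟩
  let H : Subgroup B := Subgroup.normalizer (L : Set B)
  have hGH : G ≤ H := Subgroup.le_normalizer_iff.mpr hGL
  have hbH : b ∈ H := by
    have hm : 0 < N.index := Nat.pos_of_ne_zero hNfi.index_ne_zero
    have hbm : b ^ N.index ∈ G := hNG (N.pow_index_mem b)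
    have h4 := conj_onto hbL hm (fun k hk => by
      have := hGL _ (G.inv_mem hbm) k hk
      rwa [inv_inv] at this)
    rw [Subgroup.mem_normalizer_iff]
    intro k
    refine ⟨hbL k, fun hk => ?_⟩
    have := h4 _ hk
    have e : b⁻¹ * (b * k * b⁻¹) * b = k := by group
    rwa [e] at this
  have hGneH : G ≠ H := fun h => hbG (h ▸ hbH)
  -- `V = α (N)`
  have hVopen : IsOpen (a.range : Set S) := by
    have hVcl : IsClosed (a.range : Set S) := by
      rw [MonoidHom.coe_range]
      have : CompactSpace N := isCompact_iff_compactSpace.mp hNcl.isCompact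
      exact (isCompact_range ha).isClosed
    have hR : IsOpen (α.range : Set S) := by rw [MonoidHom.coe_range]; exact hopen
    have : Finite (S ⧸ α.range) := Subgroup.quotient_finite_of_isOpen α.range hR
    have hRfi : α.range.FiniteIndex := Subgroup.finiteIndex_of_finite_quotient
    have hV : a.range = (N.subgroupOf G).map α := by
      ext s
      constructor
      · rintro ⟨n, rfl⟩
        exact ⟨⟨n, hNG n.2⟩, n.2, rfl⟩
      · rintro ⟨g, hg, rfl⟩
        exact ⟨⟨g, hg⟩, rfl⟩
    have hVfi : a.range.FiniteIndex := by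
      rw [hV]
      refine ⟨?_⟩
      rw [Subgroup.index_map]
      refine mul_ne_zero ?_ hRfi.index_ne_zero
      have h5 : (N.subgroupOf G).index ≠ 0 := by
        have : (N.subgroupOf G).FiniteIndex := inferInstance
        exact Subgroup.FiniteIndex.index_ne_zero
      intro h6
      apply h5
      exact Nat.eq_zero_of_zero_dvd (h6 ▸ Subgroup.index_dvd_of_le le_sup_left)
    exact Subgroup.isOpen_of_isClosed_of_finiteIndex _ hVcl
  -- existence of `t_g`
  have hex : ∀ g : H, ∃ t : S, ∀ n : N,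
      a ⟨g * n * (g : B)⁻¹, hNn.conj_mem n n.2 g⟩ = t * a n * t⁻¹ := by
    intro g
    have hg := Subgroup.mem_normalizer_iff.mp g.2
    obtain ⟨β, hβ, hβ2⟩ := exists_aut hNcl a ha (g : B)
      (fun k hk => by
        have h6 : (k : B) ∈ L := (hL _).mpr ⟨k.2, hk⟩
        obtain ⟨_, h7⟩ := (hL _).mp ((hg k).mp h6)
        exact h7)
      (fun k hk => by
        have h6 : (g : B) * k * (g : B)⁻¹ ∈ L := (hL _).mpr ⟨hNn.conj_mem k k.2 g, hk⟩
        obtain ⟨_, h7⟩ := (hL _).mp ((hg k).mpr h6)
        exact h7)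
    obtain ⟨t, ht⟩ := hNU a.range hVopen β hβ
    refine ⟨t, fun n => ?_⟩
    have := ht ⟨a n, n, rfl⟩
    rw [hβ2] at this
    exact this
  choose t ht using hex
  -- uniqueness
  have huniq : ∀ s s' : S, (∀ n : N, s * a n * s⁻¹ = s' * a n * s'⁻¹) → s = s' := by
    intro s s' h
    have := hC a.range hVopen (s'⁻¹ * s) (by
      rintro _ ⟨n, rfl⟩
      have h8 := h n
      have h9 : s * a n = s' * a n * s'⁻¹ * s := by rw [← h8]; group
      calc s'⁻¹ * s * a n = s'⁻¹ * (s * a n) := by group
        _ = s'⁻¹ * (s' * a n * s'⁻¹ * s) := by rw [h9]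
        _ = a n * (s'⁻¹ * s) := by group)
    have h10 : s = s' * (s'⁻¹ * s) := by group
    rw [h10, this, mul_one]
  -- the extension
  have hmul : ∀ g h : H, t (g * h) = t g * t h := by
    intro g h
    apply huniq
    intro n
    have e1 := ht (g * h) n
    have e2 := ht h n
    have e3 := ht g ⟨h * n * (h : B)⁻¹, hNn.conj_mem n n.2 h⟩
    have e4 : (⟨((g * h : H) : B) * n * ((g * h : H) : B)⁻¹, hNn.conj_mem n n.2 _⟩ : N) =
        ⟨g * ((⟨h * n * (h : B)⁻¹, hNn.conj_mem n n.2 h⟩ : N) : B) * (g : B)⁻¹,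
          hNn.conj_mem _ (⟨h * n * (h : B)⁻¹, hNn.conj_mem n n.2 h⟩ : N).2 g⟩ := by
      apply Subtype.ext
      change ((g : B) * h) * n * ((g : B) * h)⁻¹ = g * (h * n * (h : B)⁻¹) * (g : B)⁻¹
      group
    rw [← e1, e4, e3, e2]
    group
  let α' : H →* S := MonoidHom.mk' t hmul
  have hα' : ∀ g : G, α' ⟨g, hGH g.2⟩ = α g := by
    intro g
    change t ⟨g, hGH g.2⟩ = α g
    apply huniq
    intro n
    rw [← ht, haα]
    have e5 : (⟨(g : B) * n * (g : B)⁻¹, hNG (hNn.conj_mem n n.2 g)⟩ : G) =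
      g * ⟨n, hNG n.2⟩ * g⁻¹ := rfl
    have e6 : α ⟨n, hNG n.2⟩ = a n := rfl
    rw [e5, map_mul, map_mul, map_inv, e6]
  refine ⟨H, hGH, α', hGneH, ?_, ?_, hα'⟩
  · apply continuous_of_open hGH hG
    exact hα.congr fun g => (hα' g).symm
  · have h11 : (α.range : Set S) ⊆ (α'.range : Set S) := by
      rintro _ ⟨g, rfl⟩
      exact ⟨⟨g, hGH g.2⟩, hα' g⟩
    have h12 : IsOpen (α'.range : Set S) :=
      Subgroup.isOpen_mono (SetLike.coe_subset_coe.mp h11) (by
        rw [MonoidHom.coe_range]; exact hopen)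
    rwa [MonoidHom.coe_range] at h12

/-- **Induction**: a property `FT` inherited by restrictions which holds under `ND` holds for all
continuous homomorphisms with open image from open subgroups of `B` to `S`. -/
theorem induction_of_ND [CompactSpace S] (hNU : NU S) (hC : Centr S)
    (FT : (G : Subgroup B) → (G →* S) → Prop)
    (hres : ∀ (G H : Subgroup B) (hGH : G ≤ H) (α : G →* S) (α' : H →* S),
      (∀ g : G, α' ⟨g, hGH g.2⟩ = α g) → FT H α' → FT G α)
    (hND : ∀ (G : Subgroup B) (α : G →* S), IsOpen (G : Set B) → Continuous α →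
      IsOpen (Set.range α) → ND G α → FT G α)
    (G : Subgroup B) (α : G →* S) (hG : IsOpen (G : Set B)) (hα : Continuous α)
    (hopen : IsOpen (Set.range α)) : FT G α := by
  induction hn : G.index using Nat.strong_induction_on generalizing G with
  | _ n ih =>
    by_cases hnd : ND G α
    · exact hND G α hG hα hopen hnd
    · obtain ⟨H, hGH, α', hne, hα', hopen', hext⟩ :=
        exists_extension hNU hC G hG α hα hopen hnd
      have hH : IsOpen (H : Set B) := Subgroup.isOpen_mono hGH hG
      have : Finite (B ⧸ G) := Subgroup.quotient_finite_of_isOpen G hG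
      have : G.FiniteIndex := Subgroup.finiteIndex_of_finite_quotient
      have hlt : H.index < G.index :=
        Subgroup.index_strictAnti (lt_of_le_of_ne hGH hne)
      exact hres G H hGH α α' hext (ih _ (hn ▸ hlt) H α' hH hα' hopen' rfl)

end descent

end Crest.Agent.R018.Descx73
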