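import Mathlib

/-!
# Row 18, CORE section 6 (helper820): descent / induction

Abstract form.  `B` compact topological group (`Gal(Om/ℚ)`), `S` compact Hausdorff topological
group (`Gal(ℚsolv/ℚ)`), `G ≤ B` open, `α : G →* S` continuous with open range.

* `NU S`  : every continuous injective homomorphism with open range from an open subgroup of `S`
  to `S` is a conjugation by an element of `S` (Neukirch-Uchida for automorphisms, section 4);
* `CF S`  : the centralizer of every open subgroup of `S` is trivial;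
* `ND G α`: the nondegeneracy condition (ND) of section 6;
* `descent`: if (ND) fails then `α` extends to a strictly bigger subgroup;
* `induct`: induction on the index of `G`.
-/

set_option autoImplicit false

namespace Crest.Agent.R018.Descx820

section defs

variable (S : Type*) [Group S] [TopologicalSpace S]

/-- Neukirch-Uchida for open injections between open subgroups of `S` -/
def NU : Prop :=
  ∀ V : Subgroup S, IsOpen (V : Set S) → ∀ β : V →* S, Continuous β → Function.Injective β →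
    IsOpen (Set.range β) → ∃ t : S, ∀ v : V, β v = t * v * t⁻¹

/-- open subgroups of `S` have trivial centralizer -/
def CF : Prop :=
  ∀ V : Subgroup S, IsOpen (V : Set S) → ∀ t : S, (∀ v ∈ V, t * v = v * t) → t = 1

end defs

variable {B S : Type*} [Group B] [Group S]

/-- the normal core is normalized by everything -/
theorem core_conj (G : Subgroup B) {k : B} (hk : k ∈ G.normalCore) (b : B) :
    b * k * b⁻¹ ∈ G.normalCore :=
  G.normalCore_normal.conj_mem k hk b

/-- the nondegeneracy condition (ND): for every `b ∉ G` there is `k ∈ ker α ∩ N₁`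
(`N₁` = normal core of `G`) with `α (b k b⁻¹) ≠ 1`. -/
def ND (G : Subgroup B) (α : G →* S) : Prop :=
  ∀ b : B, b ∉ G → ∃ (k : B) (hk : k ∈ G.normalCore), α ⟨k, G.normalCore_le hk⟩ = 1 ∧
    α ⟨b * k * b⁻¹, G.normalCore_le (core_conj G hk b)⟩ ≠ 1

section descent

variable [TopologicalSpace B] [IsTopologicalGroup B] [CompactSpace B]
  [TopologicalSpace S] [IsTopologicalGroup S] [CompactSpace S] [T2Space S]

omit [Group S] [CompactSpace S] [IsTopologicalGroup S] [T2Space S] [TopologicalSpace S] in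
theorem finiteIndex_of_isOpen {N : Subgroup B} (hN : IsOpen (N : Set B)) : N.FiniteIndex := by
  have := Subgroup.quotient_finite_of_isOpen N hN
  exact Subgroup.finiteIndex_of_finite_quotient

omit [Group S] [CompactSpace S] [IsTopologicalGroup S] [T2Space S] [TopologicalSpace S] in
theorem isOpen_normalCore {G : Subgroup B} (hG : IsOpen (G : Set B)) :
    IsOpen (G.normalCore : Set B) := by
  have := finiteIndex_of_isOpen hG
  exact Subgroup.isOpen_of_isClosed_of_finiteIndex _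
    (Subgroup.normalCore_isClosed G (Subgroup.isClosed_of_isOpen G hG))

theorem isOpen_range_of_le {G N : Subgroup B} (hN : IsOpen (N : Set B))
    (hNG : N ≤ G) (α : G →* S) (hα : Continuous α) (hr : IsOpen (Set.range α)) :
    IsOpen ((α.comp (Subgroup.inclusion hNG)).range : Set S) := by
  have hfN : N.FiniteIndex := finiteIndex_of_isOpen hN
  have hNc : IsClosed (N : Set B) := Subgroup.isClosed_of_isOpen N hN
  have : CompactSpace N := isCompact_iff_compactSpace.mp hNc.isCompact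
  have hcont : Continuous (α.comp (Subgroup.inclusion hNG)) :=
    hα.comp (continuous_inclusion hNG)
  have hclosed : IsClosed ((α.comp (Subgroup.inclusion hNG)).range : Set S) := by
    rw [MonoidHom.coe_range]
    exact (isCompact_range hcont).isClosed
  have hRf : α.range.FiniteIndex := by
    have : IsOpen (α.range : Set S) := by rw [MonoidHom.coe_range]; exact hr
    exact finiteIndex_of_isOpen this
  have hfi : (α.comp (Subgroup.inclusion hNG)).range.FiniteIndex := by
    refine ⟨?_⟩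
    have h1 : (α.comp (Subgroup.inclusion hNG)).range = (N.subgroupOf G).map α := by
      ext s
      constructor
      · rintro ⟨n, rfl⟩
        exact ⟨⟨n, hNG n.2⟩, n.2, rfl⟩
      · rintro ⟨g, hg, rfl⟩
        exact ⟨⟨g, hg⟩, rfl⟩
    rw [h1, Subgroup.index_map]
    refine mul_ne_zero ?_ hRf.index_ne_zero
    have h2 : (N.subgroupOf G).index ≠ 0 := Subgroup.FiniteIndex.index_ne_zero
    have h5 := Subgroup.index_dvd_of_le (le_sup_left : N.subgroupOf G ≤ N.subgroupOf G ⊔ α.ker)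
    intro h3
    rw [h3] at h5
    exact h2 (Nat.eq_zero_of_zero_dvd h5)
  exact Subgroup.isOpen_of_isClosed_of_finiteIndex _ hclosed

/-- **Descent.**  If (ND) fails at `b ∉ G` then `α` extends to an open subgroup `G₀ > G`
containing `b`. -/
theorem descent (hNU : NU S) (hC : CF S) (G : Subgroup B) (hG : IsOpen (G : Set B))
    (α : G →* S) (hα : Continuous α) (hr : IsOpen (Set.range α)) (b : B)
    (hfail : ∀ (k : B) (hk : k ∈ G.normalCore), α ⟨k, G.normalCore_le hk⟩ = 1 →
      α ⟨b * k * b⁻¹, G.normalCore_le (core_conj G hk b)⟩ = 1) :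
    ∃ (G₀ : Subgroup B) (h : G ≤ G₀) (α₀ : G₀ →* S), b ∈ G₀ ∧ Continuous α₀ ∧
      ∀ g : G, α₀ ⟨g, h g.2⟩ = α g := by
  classical
  set N : Subgroup B := G.normalCore with hNdef
  have hNG : N ≤ G := G.normalCore_le
  have hNn : N.Normal := G.normalCore_normal
  have hNo : IsOpen (N : Set B) := isOpen_normalCore hG
  have hNf : N.FiniteIndex := finiteIndex_of_isOpen hNo
  have hNc : IsClosed (N : Set B) := Subgroup.isClosed_of_isOpen N hNo
  have hNcomp : CompactSpace N := isCompact_iff_compactSpace.mp hNc.isCompact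
  let αN : N →* S := α.comp (Subgroup.inclusion hNG)
  have hαN : ∀ n : N, αN n = α ⟨n, hNG n.2⟩ := fun n => rfl
  have hαNc : Continuous αN := hα.comp (continuous_inclusion hNG)
  let K : Subgroup B := αN.ker.map N.subtype
  have hK : ∀ x : B, x ∈ K ↔ ∃ hx : x ∈ N, α ⟨x, hNG hx⟩ = 1 := by
    intro x
    constructor
    · rintro ⟨n, hn, rfl⟩
      exact ⟨n.2, hn⟩
    · rintro ⟨hx, h⟩
      exact ⟨⟨x, hx⟩, h, rfl⟩
  let G₀ : Subgroup B := Subgroup.normalizer (K : Set B)
  have hG₀ : ∀ g : B, g ∈ G₀ ↔ ∀ x, x ∈ K ↔ g * x * g⁻¹ ∈ K := fun g =>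
    Subgroup.mem_normalizer_iff
  -- `G ≤ G₀`
  have hGK : ∀ g ∈ G, ∀ x ∈ K, g * x * g⁻¹ ∈ K := by
    intro g hg x hx
    obtain ⟨hxN, hx1⟩ := (hK x).1 hx
    refine (hK _).2 ⟨hNn.conj_mem x hxN g, ?_⟩
    have : (⟨g * x * g⁻¹, hNG (hNn.conj_mem x hxN g)⟩ : G) = ⟨g, hg⟩ * ⟨x, hNG hxN⟩ * ⟨g, hg⟩⁻¹ :=
      rfl
    rw [this, map_mul, map_mul, hx1, mul_one, map_inv, mul_inv_cancel]
  have hGG₀ : G ≤ G₀ := by
    intro g hg
    rw [hG₀]
    intro x
    refine ⟨hGK g hg x, fun h => ?_⟩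
    have := hGK g⁻¹ (G.inv_mem hg) _ h
    simpa [mul_assoc] using this
  -- `b ∈ G₀`
  have hbK : ∀ x ∈ K, b * x * b⁻¹ ∈ K := by
    intro x hx
    obtain ⟨hxN, hx1⟩ := (hK x).1 hx
    exact (hK _).2 ⟨hNn.conj_mem x hxN b, hfail x hxN hx1⟩
  have hbK' : ∀ (m : ℕ), ∀ x ∈ K, b ^ m * x * (b ^ m)⁻¹ ∈ K := by
    intro m
    induction m with
    | zero => intro x hx; simpa using hx
    | succ m ih =>
      intro x hx
      have := hbK _ (ih x hx)
      have h2 : b ^ (m + 1) * x * (b ^ (m + 1))⁻¹ = b * (b ^ m * x * (b ^ m)⁻¹) * b⁻¹ := by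
        rw [pow_succ']; group
      rw [h2]; exact this
  have hbG₀ : b ∈ G₀ := by
    rw [hG₀]
    intro x
    refine ⟨hbK x, fun h => ?_⟩
    obtain ⟨n, hn0, -, hn⟩ := Subgroup.exists_pow_mem_of_index_ne_zero hNf.index_ne_zero b
    obtain ⟨m, rfl⟩ : ∃ m, n = m + 1 := ⟨n - 1, by omega⟩
    have h1 := hbK' m _ h
    have h2 : b ^ m * (b * x * b⁻¹) * (b ^ m)⁻¹ = b ^ (m + 1) * x * (b ^ (m + 1))⁻¹ := by
      rw [pow_succ]; group
    rw [h2] at h1
    have h3 := hGK _ (G.inv_mem (hNG hn)) _ h1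
    simpa [mul_assoc] using h3
  -- the image of `N`
  let V : Subgroup S := αN.range
  have hVo : IsOpen (V : Set S) := isOpen_range_of_le hNo hNG α hα hr
  let r : N →* V := αN.rangeRestrict
  have hrs : Function.Surjective r := αN.rangeRestrict_surjective
  have hrc : Continuous r := hαNc.subtype_mk _
  have hrq : Topology.IsQuotientMap r := (hrc.isClosedMap).isQuotientMap hrc hrs
  -- conjugators
  have hex : ∀ g ∈ G₀, ∃ t : S, ∀ (n : B) (hn : n ∈ N),
      α ⟨g * n * g⁻¹, hNG (hNn.conj_mem n hn g)⟩ = t * α ⟨n, hNG hn⟩ * t⁻¹ := by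
    intro g hg
    rw [hG₀] at hg
    let c : N →* N := (MulAut.conjNormal g : MulAut N).toMonoidHom
    have hc : ∀ n : N, ((c n : N) : B) = g * n * g⁻¹ := fun n => MulAut.conjNormal_apply g n
    let γ : N →* S := αN.comp c
    have hγ : ∀ (n : B) (hn : n ∈ N), γ ⟨n, hn⟩ = α ⟨g * n * g⁻¹, hNG (hNn.conj_mem n hn g)⟩ := by
      intro n hn
      exact congrArg α (Subtype.ext (hc ⟨n, hn⟩))
    have hcc : Continuous c := by
      refine Continuous.subtype_mk (f := fun n : N => g * (n : B) * g⁻¹) ?_ _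
      fun_prop
    have hγc : Continuous γ := hαNc.comp hcc
    have hker : r.ker ≤ γ.ker := by
      intro n hn
      rw [MonoidHom.mem_ker] at hn ⊢
      have h1 : αN n = 1 := congrArg Subtype.val hn
      have h2 : (n : B) ∈ K := (hK _).2 ⟨n.2, h1⟩
      obtain ⟨h3, h4⟩ := (hK _).1 ((hg n).1 h2)
      have h5 := hγ n n.2
      rw [h5]
      exact h4
    let β : V →* S := r.liftOfSurjective hrs ⟨γ, hker⟩
    have hβ : ∀ n : N, β (r n) = γ n := fun n =>
      MonoidHom.liftOfRightInverse_comp_apply r _ _ ⟨γ, hker⟩ n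
    have hβc : Continuous β := by
      rw [hrq.continuous_iff]
      have : (β ∘ r : N → S) = γ := funext hβ
      rw [this]; exact hγc
    have hβi : Function.Injective β := by
      rw [injective_iff_map_eq_one]
      intro v hv
      obtain ⟨n, rfl⟩ := hrs v
      rw [hβ] at hv
      have h1 : γ ⟨n, n.2⟩ = 1 := hv
      rw [hγ] at h1
      have h2 : g * n * g⁻¹ ∈ K := (hK _).2 ⟨hNn.conj_mem n n.2 g, h1⟩
      obtain ⟨h3, h4⟩ := (hK _).1 ((hg n).2 h2)
      exact Subtype.ext h4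
    have hβr : IsOpen (Set.range β) := by
      have h1 : Set.range β = (V : Set S) := by
        ext s
        constructor
        · rintro ⟨v, rfl⟩
          obtain ⟨n, rfl⟩ := hrs v
          rw [hβ]
          exact ⟨c n, rfl⟩
        · rintro ⟨n, rfl⟩
          obtain ⟨m, hm⟩ := (MulAut.conjNormal g : MulAut N).surjective n
          refine ⟨r m, ?_⟩
          rw [hβ]
          exact congrArg αN hm
      rw [h1]; exact hVo
    obtain ⟨t, ht⟩ := hNU V hVo β hβc hβi hβr
    refine ⟨t, fun n hn => ?_⟩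
    have h1 := ht (r ⟨n, hn⟩)
    rw [hβ, hγ] at h1
    exact h1
  -- uniqueness
  have huniq : ∀ t t' : S, (∀ (n : B) (hn : n ∈ N),
      t * α ⟨n, hNG hn⟩ * t⁻¹ = t' * α ⟨n, hNG hn⟩ * t'⁻¹) → t = t' := by
    intro t t' h
    have h1 : t'⁻¹ * t = 1 := by
      refine hC V hVo _ ?_
      rintro v ⟨n, rfl⟩
      have h2 := h n n.2
      change t'⁻¹ * t * α ⟨n, hNG n.2⟩ = α ⟨n, hNG n.2⟩ * (t'⁻¹ * t)
      calc t'⁻¹ * t * α ⟨n, hNG n.2⟩ = t'⁻¹ * (t * α ⟨n, hNG n.2⟩ * t⁻¹) * t := by group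
        _ = t'⁻¹ * (t' * α ⟨n, hNG n.2⟩ * t'⁻¹) * t := by rw [h2]
        _ = α ⟨n, hNG n.2⟩ * (t'⁻¹ * t) := by group
    rw [inv_mul_eq_one] at h1
    exact h1.symm
  let T : G₀ → S := fun g => (hex g g.2).choose
  have hT : ∀ (g : G₀) (n : B) (hn : n ∈ N),
      α ⟨g * n * (g : B)⁻¹, hNG (hNn.conj_mem n hn g)⟩ = T g * α ⟨n, hNG hn⟩ * (T g)⁻¹ :=
    fun g => (hex g g.2).choose_spec
  have hTmul : ∀ g h : G₀, T (g * h) = T g * T h := by
    intro g h
    apply huniq
    intro n hn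
    have h1 := hT (g * h) n hn
    have h2 := hT h n hn
    have h3 := hT g _ (hNn.conj_mem n hn h)
    rw [h2] at h3
    rw [← h1]
    have h4 : (⟨(g * h : G₀) * n * ((g * h : G₀) : B)⁻¹, hNG (hNn.conj_mem n hn _)⟩ : G) =
        ⟨g * (h * n * (h : B)⁻¹) * (g : B)⁻¹, hNG (hNn.conj_mem _ (hNn.conj_mem n hn h) g)⟩ := by
      apply Subtype.ext
      push_cast
      group
    rw [h4, h3]
    group
  let α₀ : G₀ →* S := MonoidHom.mk' T hTmul
  have hα₀ : ∀ g : G, α₀ ⟨g, hGG₀ g.2⟩ = α g := by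
    intro g
    apply huniq
    intro n hn
    have h1 := hT ⟨g, hGG₀ g.2⟩ n hn
    refine Eq.trans h1.symm ?_
    have : (⟨(g : B) * n * (g : B)⁻¹, hNG (hNn.conj_mem n hn g)⟩ : G) = g * ⟨n, hNG hn⟩ * g⁻¹ := rfl
    change α ⟨(g : B) * n * (g : B)⁻¹, hNG (hNn.conj_mem n hn g)⟩ = _
    rw [this, map_mul, map_mul, map_inv]
  refine ⟨G₀, hGG₀, α₀, hbG₀, ?_, hα₀⟩
  -- continuity
  apply continuous_of_continuousAt_one α₀
  rw [ContinuousAt, map_one]
  intro U hU
  have h1 : α ⁻¹' U ∈ nhds (1 : G) := by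
    have := hα.tendsto 1
    rw [map_one] at this
    exact this hU
  rw [mem_nhds_subtype] at h1
  obtain ⟨W, hW, hWU⟩ := h1
  rw [Filter.mem_map, mem_nhds_subtype]
  refine ⟨W ∩ G, Filter.inter_mem hW (hG.mem_nhds G.one_mem), ?_⟩
  rintro ⟨x, hx⟩ ⟨hxW, hxG⟩
  have h2 := hα₀ ⟨x, hxG⟩
  change α₀ ⟨x, hx⟩ ∈ U
  have h3 : α₀ ⟨x, hx⟩ = α ⟨x, hxG⟩ := h2
  rw [h3]
  exact hWU hxW

omit [CompactSpace S] [T2Space S] [CompactSpace B] [IsTopologicalGroup B] [TopologicalSpace B] in
theorem isOpen_range_ext {G G₀ : Subgroup B} (h : G ≤ G₀) (α : G →* S) (α₀ : G₀ →* S)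
    (hext : ∀ g : G, α₀ ⟨g, h g.2⟩ = α g) (hr : IsOpen (Set.range α)) :
    IsOpen (Set.range α₀) := by
  have h1 : IsOpen (α.range : Set S) := by rw [MonoidHom.coe_range]; exact hr
  have h2 : α.range ≤ α₀.range := by
    rintro _ ⟨g, rfl⟩
    exact ⟨⟨g, h g.2⟩, hext g⟩
  have h3 := Subgroup.isOpen_mono h2 h1
  rwa [MonoidHom.coe_range] at h3

/-- **Induction on the index.** -/
theorem induct (hNU : NU S) (hC : CF S) (P : (G : Subgroup B) → (G →* S) → Prop)
    (hP : ∀ (G G₀ : Subgroup B) (h : G ≤ G₀) (α : G →* S) (α₀ : G₀ →* S),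
      (∀ g : G, α₀ ⟨g, h g.2⟩ = α g) → P G₀ α₀ → P G α)
    (hND : ∀ (G : Subgroup B) (α : G →* S), IsOpen (G : Set B) → Continuous α →
      IsOpen (Set.range α) → ND G α → P G α)
    (G : Subgroup B) (α : G →* S) (hG : IsOpen (G : Set B)) (hα : Continuous α)
    (hr : IsOpen (Set.range α)) : P G α := by
  induction hn : G.index using Nat.strong_induction_on generalizing G with
  | _ n ih =>
    by_cases hnd : ND G α
    · exact hND G α hG hα hr hnd
    · unfold ND at hnd
      push Not at hnd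
      obtain ⟨b, hb, hfail⟩ := hnd
      obtain ⟨G₀, h, α₀, hbG₀, hα₀c, hext⟩ := descent hNU hC G hG α hα hr b hfail
      refine hP G G₀ h α α₀ hext ?_
      have hG₀o : IsOpen (G₀ : Set B) := Subgroup.isOpen_mono h hG
      have hlt : G < G₀ := lt_of_le_of_ne h (fun e => hb (e ▸ hbG₀))
      have hGf : G.FiniteIndex := finiteIndex_of_isOpen hG
      have hidx : G₀.index < G.index := Subgroup.index_strictAnti hlt
      exact ih G₀.index (hn ▸ hidx) G₀ α₀ hG₀o hα₀c (isOpen_range_ext h α α₀ hext hr) rfl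

end descent

end Crest.Agent.R018.Descx820
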