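import Crest.Agent.R018.Core_74
import Crest.Agent.R018.Desc_820
import Crest.Agent.R018.Desc_73
import Crest.Agent.R018.Centr_275

/-!
# Row 18 (helper820): the targets `Descent`, `NDLevel`, `Slim` of `Core_74`
-/

set_option autoImplicit false

namespace Crest.Agent.R018.CoreDx820

open Crest.NumberTheoryR
open Crest.Agent.R018.Corex74
open Crest.Agent.R018.EndDefx924 (Om)

/-- **DESCENT** -/
theorem descent_of (hNU : NU) (hS : Slim) : Descent := by
  intro D hnd
  have hNU' : Crest.Agent.R018.Descx73.NU SG := by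
    intro V hV β hβ
    obtain ⟨t, ht⟩ := hNU V hV β hβ
    exact ⟨t⁻¹, fun v => by rw [ht, inv_inv]⟩
  have hnd' : ¬ Crest.Agent.R018.Descx73.ND D.G D.α := by
    intro h
    apply hnd
    intro b hb
    obtain ⟨k, hk, hk1, hkN, hk', hne⟩ := h b hb
    refine ⟨k, hkN, hk1, ?_⟩
    rw [Subgroup.mem_bot]
    exact hne
  obtain ⟨H, hGH, α', hne, hc, ho, hext⟩ :=
    Crest.Agent.R018.Descx73.exists_extension hNU' hS D.G D.isOpen_G D.α D.cont D.open_range hnd'
  refine ⟨⟨H, Subgroup.isOpen_mono hGH D.isOpen_G, α', hc, ho⟩, lt_of_le_of_ne hGH hne, ?_⟩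
  intro g hg hg'
  exact hext ⟨g, hg⟩

/-- the image of the normal core is open -/
theorem isOpen_image_N1 (D : Dat) :
    IsOpen {s : SG | ∃ (k : BB) (hk : k ∈ N1 D), αN D k hk = s} := by
  have h := Crest.Agent.R018.Descx820.isOpen_range_of_le
    (Crest.Agent.R018.Descx820.isOpen_normalCore D.isOpen_G) (N1_le D) D.α D.cont D.open_range
  convert h using 1
  ext s
  constructor
  · rintro ⟨k, hk, rfl⟩
    exact ⟨⟨k, hk⟩, rfl⟩
  · rintro ⟨k, rfl⟩
    exact ⟨k, k.2, rfl⟩

/-- **(ND) at a finite level** -/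
theorem ndLevel_holds : NDLevel := by
  classical
  intro D hnd V' hV'
  have hfin : Finite (BB ⧸ D.G) := Subgroup.quotient_finite_of_isOpen D.G D.isOpen_G
  -- data for the representatives
  have hrep : ∀ q : BB ⧸ D.G, ∃ s : SG, s ≠ 1 ∧ (q.out ∉ D.G → ∃ (k : BB) (hk : k ∈ N1 D),
      αN D k hk = 1 ∧ αN D (q.out * k * q.out⁻¹) (conj_mem_N1 D hk q.out) = s) ∨
      q.out ∈ D.G := by
    intro q
    by_cases hq : q.out ∈ D.G
    · exact ⟨1, Or.inr hq⟩
    · obtain ⟨k, hk, hk1, hk2⟩ := hnd q.out hq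
      rw [Subgroup.mem_bot] at hk2
      exact ⟨_, Or.inl ⟨hk2, fun _ => ⟨k, hk, hk1, rfl⟩⟩⟩
  choose s hs using hrep
  let W : Set SG := (V' : Set SG) ∩ {t : SG | ∃ (k : BB) (hk : k ∈ N1 D), αN D k hk = t} ∩
    ⋂ q ∈ {q : BB ⧸ D.G | q.out ∉ D.G}, {s q}ᶜ
  have hWo : IsOpen W := by
    refine (hV'.inter (isOpen_image_N1 D)).inter ?_
    refine Set.Finite.isOpen_biInter (Set.toFinite _) fun q _ => isOpen_compl_singleton
  have hW1 : (1 : SG) ∈ W := by
    refine ⟨⟨V'.one_mem, 1, (N1 D).one_mem, map_one _⟩, ?_⟩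
    simp only [Set.mem_iInter]
    intro q hq
    rcases hs q with h | h
    · exact fun h' => h.1 h'.symm
    · exact absurd h hq
  obtain ⟨V, hV⟩ := ProfiniteGrp.exist_openNormalSubgroup_sub_open_nhds_of_one hWo hW1
  refine ⟨V.toSubgroup, V.isNormal', V.isOpen', fun v hv => (hV hv).1.1, ?_, fun v hv => (hV hv).1.2⟩
  intro b hb
  set q : BB ⧸ D.G := QuotientGroup.mk b with hq
  have hh : q.out⁻¹ * b ∈ D.G := by
    rw [← QuotientGroup.eq, QuotientGroup.out_eq']
  have hqo : q.out ∉ D.G := by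
    intro h
    apply hb
    have := D.G.mul_mem h hh
    simpa using this
  have hsq := (hs q).resolve_right hqo
  obtain ⟨k, hk, hk1, hk2⟩ := hsq.2 hqo
  set h : BB := q.out⁻¹ * b with hhdef
  have hbq : b = q.out * h := by rw [hhdef]; group
  have hk' : h⁻¹ * k * h ∈ N1 D := by
    have := conj_mem_N1 D hk h⁻¹
    simpa using this
  refine ⟨h⁻¹ * k * h, hk', ?_, ?_⟩
  · have e : αN D (h⁻¹ * k * h) hk' = (D.α ⟨h, hh⟩)⁻¹ * αN D k hk * D.α ⟨h, hh⟩ := by
      unfold αN
      rw [← map_inv, ← map_mul, ← map_mul]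
      rfl
    rw [e, hk1]
    group
  · intro hmem
    have e : b * (h⁻¹ * k * h) * b⁻¹ = q.out * k * q.out⁻¹ := by
      rw [hbq]; group
    have e2 : αN D (b * (h⁻¹ * k * h) * b⁻¹) (conj_mem_N1 D hk' b) = s q := by
      rw [← hk2]
      unfold αN
      congr 1
      exact Subtype.ext e
    have h3 := (hV hmem).2
    rw [e2] at h3
    simp only [Set.mem_iInter] at h3
    exact h3 q hqo rfl

/-- **centralizers of open subgroups are trivial**, given that `Sv` is solvably closed -/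
theorem slim_of (hSv : IsSolvablyClosed Sv) : Slim := by
  intro S hS t ht
  exact Crest.Agent.R018.Centrx275.eq_one_of_commute hSv S hS t fun v hv => (ht v hv).symm

end Crest.Agent.R018.CoreDx820
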