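import Crest.Agent.R018.Core_74
import Crest.Agent.R018.CoreD_820

/-!
# Row 18 (helper820): `Sv` is solvably closed; the target `Slim`
-/

set_option autoImplicit false

open Polynomial

namespace Crest.Agent.R018.SvClosedx820

open Crest.NumberTheoryR
open Crest.Agent.R018.Corex74
open Crest.Agent.R018.EndDefx924 (Om)

/-- the Galois group stays commutative after base change -/
theorem gal_comm_map {F E : Type*} [Field F] [Field E] (i : F →+* E) (p : F[X])
    (hp : ∀ a b : p.Gal, a * b = b * a) : ∀ a b : (p.map i).Gal, a * b = b * a := by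
  let _ : Algebra F E := i.toAlgebra
  let L := (p.map i).SplittingField
  have hmap : (p.map i).map (algebraMap E L) = p.map (algebraMap F L) := by
    rw [Polynomial.map_map, IsScalarTower.algebraMap_eq F E L]; rfl
  have hs : Fact ((p.map (algebraMap F L)).Splits) :=
    ⟨by rw [← hmap]; exact SplittingField.splits (p.map i)⟩
  intro a b
  apply Polynomial.Gal.ext
  intro x hx
  have hx' : x ∈ p.rootSet L := by
    rw [Polynomial.rootSet, Polynomial.aroots_def] at hx ⊢
    rwa [hmap] at hx
  let a' : L ≃ₐ[F] L := AlgEquiv.restrictScalars F (a : L ≃ₐ[E] L)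
  let b' : L ≃ₐ[F] L := AlgEquiv.restrictScalars F (b : L ≃ₐ[E] L)
  have h1 := Polynomial.Gal.restrict_smul (p := p) (E := L) (a' * b') ⟨x, hx'⟩
  have h2 := Polynomial.Gal.restrict_smul (p := p) (E := L) (b' * a') ⟨x, hx'⟩
  rw [map_mul, hp, ← map_mul] at h1
  exact h1.symm.trans h2

/-- the intersection of solvably closed subfields is solvably closed -/
theorem isSolvablyClosed_Sv : IsSolvablyClosed Sv := by
  intro p hp
  by_cases hp0 : p = 0
  · rw [hp0]; exact Splits.zero
  refine Splits.of_splits_map (algebraMap Sv Om) (IsAlgClosed.splits _) ?_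
  intro x hx
  have hxE : ∀ E : SvFam, x ∈ E.1 := by
    intro E
    have hle : Sv ≤ E.1 := iInf_le _ E
    let i : Sv →+* E.1 := (IntermediateField.inclusion hle).toRingHom
    have h1 : (p.map i).Splits := E.2.2 _ (gal_comm_map i p hp)
    have h2 : ((p.map i).map (algebraMap E.1 Om)).IsRoot x := by
      have h3 : (p.map i).map (algebraMap E.1 Om) = p.map (algebraMap Sv Om) := by
        rw [Polynomial.map_map]; rfl
      rw [h3]
      exact isRoot_of_mem_roots hx
    obtain ⟨y, hy⟩ := h1.mem_range_of_isRoot ((Polynomial.map_ne_zero_iff i.injective).2 hp0) h2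
    rw [← hy]
    exact y.2
  have hxS : x ∈ Sv := by
    have : Sv = ⨅ E : SvFam, E.1 := rfl
    rw [this, ← SetLike.mem_coe, IntermediateField.coe_iInf, Set.mem_iInter]
    exact hxE
  exact ⟨⟨x, hxS⟩, rfl⟩

/-- **Slim** -/
theorem slim_holds : Slim := Crest.Agent.R018.CoreDx820.slim_of isSolvablyClosed_Sv

/-- **Descent** from N-U -/
theorem descent_of_NU (hNU : NU) : Descent :=
  Crest.Agent.R018.CoreDx820.descent_of hNU slim_holds

end Crest.Agent.R018.SvClosedx820
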