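import Crest.Agent.R018.THit_380
import Crest.Agent.R018.SvClosed_820

/-!
Row 18 (helper863): the literal `BadFinite` of `Core_74` from `LocT` (via helper380's (S1)).
-/

set_option autoImplicit false

open NumberField
open scoped Pointwise

namespace Crest.Agent.R018.BadFinx863

open Crest.Agent.R018.EndDefx924 (Om)
open Crest.Agent.R018.Placesx484 Crest.Agent.R018.LocDefx31 Crest.Agent.R018.Corex74

/-- **BadFinite** of `Core_74` -/
theorem badFinite_of (h : LocT) : BadFinite := by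
  intro D l hl hl2
  have hhit : ∀ S : Place Om, S1 D.α l S → Hit D l S := by
    rintro S ⟨hS, x, hx, N, hN, hNo, hn⟩
    refine ⟨?_, x, fun y => hx y, N, hN, hNo, hn⟩
    rintro rfl
    exact hS S.rchar_mem
  have hloc : Loc Om Sv D.α l := by
    intro P hP
    obtain ⟨Q, hQ, hQl, hu, hc⟩ := h D l hl hl2 P (hhit P hP)
    refine ⟨Q, fun hm => hQl (Q.rchar_eq_of_mem hl hm), hQ, hu, fun n d hd c hcd ζ hζ => ?_⟩
    have h1 := hc d hd n ζ hζ
    have h2 := hcd (ζ : Om) (by rw [← IntermediateField.coe_pow, hζ]; rfl)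
    have h3 : (d : BB) (ζ : Om) = (ζ : Om) ^ c := h2
    have h4 : D.α d ζ = ζ ^ c := by
      apply Subtype.ext
      rw [h1, h3]
      rfl
    exact h4
  obtain ⟨B, hB⟩ := THitx380.hit_of_loc Sv SvClosedx820.isSolvablyClosed_Sv D.G D.isOpen_G D.α
    D.cont D.open_range l hl hloc
  refine ⟨B, fun Q hQ => ?_⟩
  obtain ⟨P, hP, hG⟩ := hB Q hQ
  exact ⟨P, hhit P hP, hG⟩

end Crest.Agent.R018.BadFinx863
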