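import Crest.Agent.R018.BadPhi_933

/-!
# Row 18: independence of translates, periodic sums, values on decomposition groups (helper933)
-/

set_option autoImplicit false

open NumberField Pointwise
open Crest.NumberTheoryR

namespace Crest.Agent.R018.BadPhiBx933

open Crest.Agent.R018.EndDefx924 (Om)
open Crest.Agent.R018.Placesx484
open Crest.Agent.R018.Corex74
open Crest.Agent.R018.BadPhix933

section sign

variable {V : Subgroup SG} [hV : V.Normal] {x : Sv} {l : ℕ} [Fact l.Prime]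

theorem conj_fix (hx : Gen V x) (γ : SG) {a : SG} (ha : a ∈ V) : a (γ x) = γ x := by
  have h1 : γ⁻¹ * a * γ ∈ V := by simpa using hV.conj_mem a ha γ⁻¹
  have h2 := hx.2.1 _ h1
  have h3 : a (γ x) = γ ((γ⁻¹ * a * γ) x) := by
    rw [← AlgEquiv.mul_apply, ← AlgEquiv.mul_apply]
    congr 1
    group
  rw [h3, h2]

theorem sign_cases (hx : Gen V x) {γ : SG} {z : Sv} (hz : z ^ 2 = γ x) {a : SG} (ha : a ∈ V) :
    a z = z ∨ a z = -z := by
  apply sq_eq_sq_iff_eq_or_eq_neg.1
  rw [← map_pow, hz, conj_fix hx γ ha]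

theorem all_of_one {γ : SG} {z0 : Sv} (hz0 : z0 ^ 2 = γ x) {a : SG} (h : a z0 = z0) :
    ∀ z : Sv, z ^ 2 = γ x → a z = z := by
  intro z hz
  have h1 : z ^ 2 = z0 ^ 2 := by rw [hz, hz0]
  rcases sq_eq_sq_iff_eq_or_eq_neg.1 h1 with rfl | rfl
  · exact h
  · rw [map_neg, h]

theorem neg_of_one {γ : SG} {z0 : Sv} (hz0 : z0 ^ 2 = γ x) {a : SG} (h : a z0 = -z0) :
    ∀ z : Sv, z ^ 2 = γ x → a z = -z := by
  intro z hz
  have h1 : z ^ 2 = z0 ^ 2 := by rw [hz, hz0]
  rcases sq_eq_sq_iff_eq_or_eq_neg.1 h1 with rfl | rfl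
  · exact h
  · rw [map_neg, h]

/-- `tr p (a γ)` for `a ∈ V` fixing the square roots of `γ x` -/
theorem tr_mul_left_pos (p : Probe V x l) (γ a : SG) (ha : a ∈ V)
    (hpos : ∀ z : Sv, z ^ 2 = γ x → a z = z) : tr p (a * γ) = tr p γ := by
  have h1 : γ⁻¹ * a * γ ∈ V := by simpa using hV.conj_mem a ha γ⁻¹
  have h2 : a * γ = γ * (γ⁻¹ * a * γ) := by group
  rw [h2]
  apply tr_mul_pos p γ _ h1
  intro z hz
  have h3 := hpos (γ z) (by rw [← map_pow, hz])
  rw [AlgEquiv.mul_apply, AlgEquiv.mul_apply, h3, ← AlgEquiv.mul_apply, inv_mul_cancel]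
  rfl

theorem tr_mul_left_neg (p : Probe V x l) (γ a : SG) (ha : a ∈ V)
    (hneg : ∀ z : Sv, z ^ 2 = γ x → a z = -z) : tr p (a * γ) = -tr p γ := by
  have h1 : γ⁻¹ * a * γ ∈ V := by simpa using hV.conj_mem a ha γ⁻¹
  have h2 : a * γ = γ * (γ⁻¹ * a * γ) := by group
  rw [h2]
  apply tr_mul_neg p γ _ h1
  intro z hz
  have h3 := hneg (γ z) (by rw [← map_pow, hz])
  rw [AlgEquiv.mul_apply, AlgEquiv.mul_apply, h3, map_neg, ← AlgEquiv.mul_apply, inv_mul_cancel]
  rfl

open Classical in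
/-- the sign of `a` on the square roots of `γ x` -/
noncomputable def eps (x : Sv) (l : ℕ) [Fact l.Prime] (a γ : SG) : ℤ_[l] :=
  if ∀ z : Sv, z ^ 2 = γ x → a z = z then 1 else -1

theorem act_eps (hx : Gen V x) (p : Probe V x l) (γ a : SG) (ha : a ∈ V) :
    act a (tr p γ) = eps x l a γ • tr p γ := by
  rw [act_tr]
  unfold eps
  split_ifs with h
  · rw [one_smul, tr_mul_left_pos p γ a ha h]
  · rw [neg_smul, one_smul]
    apply tr_mul_left_neg p γ a ha
    obtain ⟨z0, hz0⟩ := exists_sqrt (γ x)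
    rcases sign_cases hx hz0 ha with h1 | h1
    · exact absurd (all_of_one hz0 h1) h
    · exact neg_of_one hz0 h1

theorem exists_eps_ne (hx : Gen V x) {γ γ' : SG} (hne : γ⁻¹ * γ' ∉ V) :
    ∃ a ∈ V, eps x l a γ ≠ eps x l a γ' := by
  classical
  have hxne : γ x ≠ γ' x := by
    intro h
    apply hne
    apply hx.2.2.1
    rw [AlgEquiv.mul_apply, ← h, ← AlgEquiv.mul_apply, inv_mul_cancel]
    rfl
  obtain ⟨z, hz⟩ := exists_sqrt (γ x)
  obtain ⟨z', hz'⟩ := exists_sqrt (γ' x)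
  have hT := hx.2.2.2 {γ x, γ' x} ⟨γ x, by simp⟩ (by
    intro y hy
    rcases Finset.mem_insert.1 hy with rfl | hy
    · exact ⟨γ, rfl⟩
    · exact ⟨γ', Finset.mem_singleton.1 hy⟩)
  have h1 : ¬ ∀ v ∈ V, v (z * z') = z * z' := by
    intro h
    apply hT
    refine ⟨z * z', h, ?_⟩
    rw [Finset.prod_pair hxne, mul_pow, hz, hz']
  push Not at h1
  obtain ⟨a, ha, hne'⟩ := h1
  have hz0 : z ≠ 0 := by
    rintro rfl
    apply hne'
    simp
  have hz0' : z' ≠ 0 := by
    rintro rfl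
    apply hne'
    simp
  have two_ne : (1 : ℤ_[l]) ≠ -1 := by
    intro h
    have h2 : (2 : ℤ_[l]) = 0 := by linear_combination h
    exact two_ne_zero h2
  refine ⟨a, ha, ?_⟩
  have nn : ∀ {w : Sv}, w ≠ 0 → w ≠ -w := by
    intro w hw h
    have h2 : (2 : Sv) * w = 0 := by linear_combination h
    exact hw ((mul_eq_zero.1 h2).resolve_left two_ne_zero)
  rcases sign_cases hx hz ha with h2 | h2 <;> rcases sign_cases hx hz' ha with h3 | h3
  · exact absurd (by rw [map_mul, h2, h3]) hne'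
  · have e1 : eps x l a γ = 1 := by
      unfold eps; rw [if_pos (all_of_one hz h2)]
    have e2 : eps x l a γ' = -1 := by
      unfold eps
      rw [if_neg]
      intro h
      exact nn hz0' ((h z' hz').symm.trans h3)
    rw [e1, e2]
    exact two_ne
  · have e1 : eps x l a γ = -1 := by
      unfold eps
      rw [if_neg]
      intro h
      exact nn hz0 ((h z hz).symm.trans h2)
    have e2 : eps x l a γ' = 1 := by
      unfold eps; rw [if_pos (all_of_one hz' h3)]
    rw [e1, e2]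
    exact two_ne.symm
  · exact absurd (by rw [map_mul, h2, h3]; ring) hne'

/-- **independence** of the translates over distinct cosets of `V` -/
theorem indep (hx : Gen V x) (p : Probe V x l) {ι : Type*} (s : Finset ι) (γ : ι → SG)
    (hd : ∀ i ∈ s, ∀ j ∈ s, i ≠ j → (γ i)⁻¹ * γ j ∉ V) (c : ι → ℤ_[l])
    (h0 : ∑ i ∈ s, c i • tr p (γ i) = 0) : ∀ i ∈ s, c i = 0 := by
  classical
  induction s using Finset.induction_on generalizing c with
  | empty => simp
  | insert j s hj ih =>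
    have key : ∀ i ∈ s, c i = 0 := by
      intro i hi
      have hij : i ≠ j := fun h => hj (h ▸ hi)
      obtain ⟨a, ha, hne⟩ := exists_eps_ne (l := l) hx
        (hd i (Finset.mem_insert_of_mem hi) j (Finset.mem_insert_self j s) hij)
      have h1 : ∑ k ∈ insert j s, (c k * (eps x l a (γ k) - eps x l a (γ j))) • tr p (γ k) = 0 := by
        have h2 : act a (∑ i ∈ insert j s, c i • tr p (γ i)) -
            eps x l a (γ j) • (∑ i ∈ insert j s, c i • tr p (γ i)) = 0 := by
          rw [h0, act_zero, smul_zero, sub_zero]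
        rw [← h2, act_sum, Finset.smul_sum, ← Finset.sum_sub_distrib]
        refine Finset.sum_congr rfl fun k _ => ?_
        rw [act_smul, act_eps hx p (γ k) a ha, smul_smul, smul_smul, ← sub_smul]
        congr 1
        ring
      rw [Finset.sum_insert hj, sub_self, mul_zero, zero_smul, zero_add] at h1
      have h3 := ih (fun i hi j hj => hd i (Finset.mem_insert_of_mem hi) j
        (Finset.mem_insert_of_mem hj)) _ h1 i hi
      exact (mul_eq_zero.1 h3).resolve_right (sub_ne_zero.2 hne)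
    intro i hi
    rcases Finset.mem_insert.1 hi with rfl | hi
    · rw [Finset.sum_insert hj, Finset.sum_eq_zero (fun k hk => by rw [key k hk, zero_smul]),
        add_zero] at h0
      by_contra hne
      exact tr_ne_zero p (γ i) ((smul_eq_zero.1 h0).resolve_left hne)
    · exact key i hi

end sign

section periodic

/-- a sum over a period is invariant under shifts -/
theorem sum_shift {M : Type*} [AddCommGroup M] (F : ℕ → M) (o : ℕ) (hF : ∀ j, F (j + o) = F j)
    (k : ℕ) : ∑ j ∈ Finset.range o, F (j + k) = ∑ j ∈ Finset.range o, F j := by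
  induction k with
  | zero => simp
  | succ k ih =>
    rw [← ih]
    have h1 : ∑ j ∈ Finset.range (o + 1), F (j + k) =
        ∑ j ∈ Finset.range o, F (j + (k + 1)) + F (0 + k) := by
      rw [Finset.sum_range_succ']
      congr 1
      exact Finset.sum_congr rfl fun j _ => by congr 1; ring
    have h2 : ∑ j ∈ Finset.range (o + 1), F (j + k) =
        ∑ j ∈ Finset.range o, F (j + k) + F (o + k) := Finset.sum_range_succ _ _
    have h3 : F (o + k) = F (0 + k) := by
      rw [show o + k = (0 + k) + o by ring, hF]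
    rw [h3] at h2
    exact add_right_cancel (h1.symm.trans h2)

variable {V : Subgroup SG} [hV : V.Normal] {x : Sv} {l : ℕ} [Fact l.Prime]

/-- `Σ_{j < o} c_j g^j γ ψ` -/
noncomputable def psum (p : Probe V x l) (g γ : SG) (o : ℕ) (c : ℕ → ℤ_[l]) : V2 V x → ℤ_[l] :=
  ∑ j ∈ Finset.range o, c j • tr p (g ^ j * γ)

theorem psum_mem (p : Probe V x l) (g γ : SG) (o : ℕ) (c : ℕ → ℤ_[l]) :
    psum p g γ o c ∈ Submodule.span ℤ_[l] (Set.range (tr p)) :=
  Submodule.sum_mem _ fun j _ => Submodule.smul_mem _ _ (Submodule.subset_span ⟨_, rfl⟩)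

theorem act_psum (p : Probe V x l) (g γ : SG) (o : ℕ) (c : ℕ → ℤ_[l]) (hgo : g ^ o ∈ V)
    (hfix : ∀ z : Sv, z ^ 2 = γ x → (g ^ o) z = z) (hc : ∀ j, c (j + o) = c j) (k : ℕ)
    (hk : ∀ j, c (j + k) = c j) : act (g ^ k) (psum p g γ o c) = psum p g γ o c := by
  unfold psum
  rw [act_sum]
  set F : ℕ → (V2 V x → ℤ_[l]) := fun j => c j • tr p (g ^ j * γ) with hFdef
  have hF : ∀ j, F (j + o) = F j := by
    intro j
    simp only [hFdef, hc]
    congr 1
    rw [pow_add, mul_assoc, ← act_tr p (g ^ j), tr_mul_left_pos p γ (g ^ o) hgo hfix, act_tr]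
  rw [← sum_shift F o hF k]
  refine Finset.sum_congr rfl fun j _ => ?_
  rw [act_smul, act_tr]
  simp only [hFdef, hk]
  rw [← mul_assoc, ← pow_add, add_comm k j]

theorem act_psum_mul (p : Probe V x l) (g γ : SG) (o : ℕ) (c : ℕ → ℤ_[l]) (hgo : g ^ o ∈ V)
    (hfix : ∀ z : Sv, z ^ 2 = γ x → (g ^ o) z = z) (hc : ∀ j, c (j + o) = c j) (k : ℕ)
    (hk : ∀ j, c (j + k) = c j) (m : ℕ) (hm : k ∣ m) :
    act (g ^ m) (psum p g γ o c) = psum p g γ o c := by
  obtain ⟨n, rfl⟩ := hm
  apply act_psum p g γ o c hgo hfix hc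
  intro j
  induction n with
  | zero => simp
  | succ n ih => rw [Nat.mul_succ, ← add_assoc, hk, ih]

theorem pow_coset (g γ : SG) (o : ℕ) (hmin : ∀ j, 0 < j → j < o → g ^ j ∉ V) {i j : ℕ}
    (hi : i < o) (hj : j < o) (hij : i ≠ j) : (g ^ i * γ)⁻¹ * (g ^ j * γ) ∉ V := by
  intro h
  have h1 : g⁻¹ ^ i * g ^ j ∈ V := by
    have := hV.conj_mem _ h γ
    rw [mul_inv_rev] at this
    convert this using 1
    rw [inv_pow]; group
  rcases lt_or_gt_of_ne hij with h2 | h2
  · apply hmin (j - i) (by omega) (by omega)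
    convert h1 using 1
    rw [inv_pow, eq_inv_mul_iff_mul_eq, ← pow_add]
    congr 1
    omega
  · apply hmin (i - j) (by omega) (by omega)
    have h3 := V.inv_mem h1
    convert h3 using 1
    rw [mul_inv_rev, inv_pow, inv_inv, eq_inv_mul_iff_mul_eq, ← pow_add]
    congr 1
    omega

theorem psum_ne_zero (hx : Gen V x) (p : Probe V x l) (g γ : SG) (o : ℕ) (c : ℕ → ℤ_[l])
    (hmin : ∀ j, 0 < j → j < o → g ^ j ∉ V) (j0 : ℕ) (hj0 : j0 < o) (hc : c j0 ≠ 0) :
    psum p g γ o c ≠ 0 := by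
  intro h
  exact hc (indep hx p (Finset.range o) (fun j => g ^ j * γ) (fun i hi j hj hij =>
    pow_coset g γ o hmin (Finset.mem_range.1 hi) (Finset.mem_range.1 hj) hij) c h j0
    (Finset.mem_range.2 hj0))

end periodic

section value

variable {V : Subgroup SG} [hV : V.Normal] {x : Sv} {l : ℕ} [Fact l.Prime]

/-- conjugation as a homomorphism -/
noncomputable def cjHom (V : Subgroup SG) [V.Normal] (x : Sv) (γ : SG) : V2 V x →* V2 V x where
  toFun := cj γ
  map_one' := Subtype.ext (by simp)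
  map_mul' a b := Subtype.ext (by simp only [coe_cj, Subgroup.coe_mul]; group)

theorem continuous_cj (γ : SG) : Continuous (cj γ : V2 V x → V2 V x) := by
  apply Continuous.subtype_mk
  exact (continuous_const.mul continuous_subtype_val).mul continuous_const

/-- `tr p γ` as a homomorphism -/
noncomputable def trHom (p : Probe V x l) (γ : SG) : V2 V x →* Multiplicative ℤ_[l] :=
  p.ψ.comp (cjHom V x γ)

theorem trHom_apply (p : Probe V x l) (γ : SG) (n : V2 V x) :
    Multiplicative.toAdd (trHom p γ n) = tr p γ n := rfl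

theorem continuous_trHom (p : Probe V x l) (γ : SG) : Continuous (trHom p γ) :=
  p.cont.comp (continuous_cj γ)

/-- `tr p γ` kills inertia -/
theorem tr_inertia (hF7 : F7) (hVo : IsOpen (V : Set SG)) (p : Probe V x l) (γ : SG)
    (Q : Place Sv) (hQ : Q.rchar ≠ l) (n : V2 V x)
    (hn : ∀ y : 𝓞 Sv, (n : SG) • y - y ∈ Q.ideal) : tr p γ n = 0 := by
  have := hF7 (V2 V x) (isOpen_V2 V hVo x) l (trHom p γ) (continuous_trHom p γ) Q hQ n hn
  rw [← trHom_apply, this]
  rfl

theorem smul_mem_of_fix {Q : Place Sv} {h : SG} (hh : h • Q = Q) {y : 𝓞 Sv} (hy : y ∈ Q.ideal) :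
    h • y ∈ Q.ideal := by
  have := (Place.smul_mem_smul_ideal h Q y).2 hy
  rwa [hh] at this

/-- an element acting as `x ↦ x ^ m` on the residue field stabilizes the place -/
theorem act_stab {E H : Type*} [Field E] [CharZero E] [Algebra.IsAlgebraic ℚ E] [Group H]
    [MulSemiringAction H E]
    {Q : Place E} {g : H} {m : ℕ} (h : Act Q g m) (hm : m ≠ 0) : g • Q = Q := by
  have h1 : (g⁻¹ • Q).ideal ≥ Q.ideal := by
    intro y hy
    rw [Place.mem_smul_ideal, inv_inv]
    have h2 := h y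
    have h3 : y ^ m ∈ Q.ideal := Ideal.pow_mem_of_mem _ hy m (Nat.pos_of_ne_zero hm)
    have := Ideal.add_mem _ h2 h3
    rwa [sub_add_cancel] at this
  have h2 : Q = g⁻¹ • Q := Place.ext_of_ideal_le h1
  rw [eq_inv_smul_iff] at h2
  exact h2

theorem Act.pow {E H : Type*} [Field E] [CharZero E] [Group H] [MulSemiringAction H E]
    {Q : Place E} {g : H} {m : ℕ} (h : Act Q g m) (j : ℕ) : Act Q (g ^ j) (m ^ j) := by
  induction j with
  | zero =>
    intro y
    simp
  | succ j ih =>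
    intro y
    have h1 := ih (g • y)
    have h2 := h y
    rw [pow_succ, mul_smul]
    have h3 : (g • y) ^ (m ^ j) - y ^ (m ^ (j + 1)) ∈ Q.ideal := by
      rw [pow_succ m, mul_comm (m ^ j) m, pow_mul y]
      exact Ideal.mem_of_dvd _ (sub_dvd_pow_sub_pow _ _ _) h2
    have := Ideal.add_mem _ h1 h3
    rwa [sub_add_sub_cancel] at this

/-- conjugating `h ∈ D_Q ∩ V₂` by a Frobenius power does not change `tr p γ` -/
theorem tr_cj (hF7 : F7) (hVo : IsOpen (V : Set SG)) (p : Probe V x l) (γ : SG)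
    {Q : Place Sv} (hQ : Q.rchar ≠ l) {d : SG} {m : ℕ} (hm : m ≠ 0) (hd : Act Q d m)
    {h : V2 V x} (hh : (h : SG) • Q = Q) : tr p γ (cj d h) = tr p γ h := by
  have hdQ : d • Q = Q := act_stab hd hm
  have hdQ' : d⁻¹ • Q = Q := by rw [inv_smul_eq_iff, hdQ]
  have h1 : ∀ y : 𝓞 Sv, ((cj d h * h⁻¹ : V2 V x) : SG) • y - y ∈ Q.ideal := by
    intro y
    have e1 : ((cj d h * h⁻¹ : V2 V x) : SG) = d⁻¹ * ((h : SG) * d * (h : SG)⁻¹) := by
      simp only [coe_cj, Subgroup.coe_mul, InvMemClass.coe_inv]; group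
    have h2 : ((h : SG) * d * (h : SG)⁻¹) • y - d • y ∈ Q.ideal := by
      have h3 := smul_mem_of_fix hh (hd ((h : SG)⁻¹ • y))
      rw [smul_sub, smul_pow', smul_inv_smul] at h3
      have h4 := hd y
      have h5 := Ideal.sub_mem _ h3 h4
      rw [sub_sub_sub_cancel_right] at h5
      rw [mul_smul, mul_smul]
      exact h5
    have h6 := smul_mem_of_fix hdQ' h2
    rw [smul_sub, inv_smul_smul, ← mul_smul, ← e1] at h6
    exact h6
  have h2 := tr_inertia hF7 hVo p γ Q hQ _ h1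
  have h3 := tr_map_mul p γ (cj d h * h⁻¹) h
  rw [inv_mul_cancel_right, h2, zero_add] at h3
  exact h3

/-- `tr p (g γ) h = tr p γ h` if `g = d v` with `d` a Frobenius power at `Q`, `v ∈ V₂`,
and `h ∈ D_Q ∩ V₂` -/
theorem tr_mul_left_apply (hF7 : F7) (hVo : IsOpen (V : Set SG)) (p : Probe V x l) (γ : SG)
    {Q : Place Sv} (hQ : Q.rchar ≠ l) {d g : SG} {m : ℕ} (hm : m ≠ 0) (hd : Act Q d m)
    (hg : d⁻¹ * g ∈ V2 V x) {h : V2 V x} (hh : (h : SG) • Q = Q) :
    tr p (g * γ) h = tr p γ h := by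
  have e : g = d * (d⁻¹ * g) := by group
  rw [← act_tr, e, act_mul, act_tr_of_mem p γ hg, act_apply, tr_cj hF7 hVo p γ hQ hm hd hh]

/-- value of a periodic sum on `D_Q ∩ V₂` -/
theorem psum_apply (hF7 : F7) (hVo : IsOpen (V : Set SG)) (p : Probe V x l) (g γ : SG) (o : ℕ)
    (c : ℕ → ℤ_[l]) {Q : Place Sv} (hQ : Q.rchar ≠ l) {φ : SG} (hφ : Act Q φ Q.rchar)
    (hg : φ⁻¹ * g ∈ V2 V x) {h : V2 V x} (hh : (h : SG) • Q = Q) :
    psum p g γ o c h = (∑ j ∈ Finset.range o, c j) * tr p γ h := by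
  unfold psum
  rw [Finset.sum_apply, Finset.sum_mul]
  refine Finset.sum_congr rfl fun j _ => ?_
  rw [Pi.smul_apply, smul_eq_mul]
  congr 1
  have hq : Q.rchar ≠ 0 := Q.rchar_prime.ne_zero
  refine tr_mul_left_apply hF7 hVo p γ hQ (pow_ne_zero j hq) (Act.pow hφ j) ?_ hh
  have hn : (V2 V x).Normal := V2_normal V x
  have h1 : (QuotientGroup.mk (φ ^ j) : SG ⧸ V2 V x) = QuotientGroup.mk (g ^ j) := by
    rw [QuotientGroup.mk_pow, QuotientGroup.mk_pow, QuotientGroup.eq.2 hg]
  exact QuotientGroup.eq.1 h1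

end value

end Crest.Agent.R018.BadPhiBx933
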