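import Mathlib
import Crest.Prelude.Def_SolvClosed

/-!
Row 18: Hilbert 90 and Kummer theory for subgroups of an infinite Galois group (helper568).

* `hilbert90`       : crossed homs `V → Eˣ`, `V ≤ Gal(E/F)` any subgroup, trivial on `V ∩ Gal(E/L)`
* `exists_primitiveRoot`, `exists_pow_eq` : a solvably closed field of characteristic zero has all
  roots of unity and all `n`-th roots
* `exists_finite_of_continuous` : local constancy of `s ↦ α s y`
* `Rel`, `rel_exists`, `rel_mul`, `rel_unique`, `rel_inj` : transport of Kummer classes along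
  `α : Gal(E₁/F₁) → Gal(E₂/F₂)`.
-/

set_option autoImplicit false

namespace Crest.Agent.R018.Kumx568

open Polynomial IntermediateField

section H90

variable {F E : Type*} [Field F] [Field E] [Algebra F E]

/-- Hilbert 90 for a crossed homomorphism `c : V → Eˣ` on a subgroup `V` of `Gal(E/F)` which is
trivial on `V ∩ Gal(E/L)`, `L/F` finite. -/
theorem hilbert90 (V : Subgroup (E ≃ₐ[F] E)) (c : V → Eˣ)
    (hc : ∀ s t : V, (c (s * t) : E) = c s * (s : E ≃ₐ[F] E) (c t))
    (L : IntermediateField F E) [FiniteDimensional F L]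
    (hL : ∀ s : V, (s : E ≃ₐ[F] E) ∈ L.fixingSubgroup → c s = 1) :
    ∃ y : Eˣ, ∀ s : V, (s : E ≃ₐ[F] E) y = c s * y := by
  classical
  let ρ : V → (L →ₐ[F] E) := fun s => ((s : E ≃ₐ[F] E) : E →ₐ[F] E).comp L.val
  have hρ : ∀ s t : V, ρ s = ρ t → c s = c t := by
    intro s t h
    have h1 : ((t⁻¹ * s : V) : E ≃ₐ[F] E) ∈ L.fixingSubgroup := by
      rw [IntermediateField.mem_fixingSubgroup_iff]
      intro x hx
      have h2 := congrArg (fun f : L →ₐ[F] E => f ⟨x, hx⟩) h
      have h3 : (s : E ≃ₐ[F] E) x = (t : E ≃ₐ[F] E) x := h2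
      rw [Subgroup.coe_mul, AlgEquiv.mul_apply, h3, ← AlgEquiv.mul_apply, ← Subgroup.coe_mul,
        inv_mul_cancel]
      rfl
    have h4 := hL _ h1
    have h5 := hc t (t⁻¹ * s)
    rw [h4, mul_inv_cancel_left] at h5
    apply Units.ext
    simpa using h5
  let R := Set.range ρ
  have : Finite R := Set.toFinite _
  have : Fintype R := Fintype.ofFinite _
  let c' : R → Eˣ := fun r => c r.2.choose
  have hc' : ∀ s : V, c' ⟨ρ s, s, rfl⟩ = c s := fun s =>
    hρ _ _ (Exists.choose_spec (⟨s, rfl⟩ : ∃ t, ρ t = ρ s))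
  -- linear independence
  have hli : LinearIndependent E (fun r : R => ((r.1 : L →* E) : L → E)) := by
    have h := linearIndependent_monoidHom L E
    refine h.comp (fun r : R => (r.1 : L →* E)) ?_
    intro r r' hrr
    apply Subtype.ext
    ext x
    exact congrArg (fun f : L →* E => f x) hrr
  obtain ⟨b, hb⟩ : ∃ b : L, ∑ r : R, (c' r : E) * r.1 b ≠ 0 := by
    by_contra hcon
    push Not at hcon
    rw [Fintype.linearIndependent_iff] at hli
    have h := hli (fun r => (c' r : E)) (by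
      ext b
      simpa using hcon b)
    exact (c' ⟨ρ 1, 1, rfl⟩).ne_zero (h _)
  let g : E := ∑ r : R, (c' r : E) * r.1 b
  have hg : g ≠ 0 := hb
  refine ⟨(Units.mk0 g hg)⁻¹, fun t => ?_⟩
  -- the permutation of R
  let e : R → R := fun r => ⟨((t : E ≃ₐ[F] E) : E →ₐ[F] E).comp r.1, by
    obtain ⟨s, hs⟩ := r.2
    exact ⟨t * s, by rw [← hs]; rfl⟩⟩
  have he : Function.Bijective e := by
    have hinj : Function.Injective e := by
      intro r r' h
      apply Subtype.ext
      ext x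
      have h1 := congrArg (fun f : R => f.1 x) h
      exact (t : E ≃ₐ[F] E).injective h1
    exact hinj.bijective_of_finite
  have hce : ∀ r : R, (c' (e r) : E) = c t * (t : E ≃ₐ[F] E) (c' r) := by
    intro r
    obtain ⟨s, hs⟩ := r.2
    have h1 : r = ⟨ρ s, s, rfl⟩ := Subtype.ext hs.symm
    have h2 : e r = ⟨ρ (t * s), t * s, rfl⟩ := by
      apply Subtype.ext
      change ((t : E ≃ₐ[F] E) : E →ₐ[F] E).comp r.1 = ρ (t * s)
      rw [← hs]; rfl
    rw [h2, h1, hc', hc', hc]
  have hsum : (c t : E) * (t : E ≃ₐ[F] E) g = g := by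
    change (c t : E) * (t : E ≃ₐ[F] E) (∑ r : R, (c' r : E) * r.1 b) = ∑ r : R, (c' r : E) * r.1 b
    rw [map_sum, Finset.mul_sum]
    rw [← he.sum_comp (fun r : R => (c' r : E) * r.1 b)]
    apply Finset.sum_congr rfl
    intro r _
    rw [map_mul, ← mul_assoc, ← hce]
    rfl
  rw [Units.val_inv_eq_inv_val, Units.val_mk0, map_inv₀]
  have hct : (c t : E) ≠ 0 := (c t).ne_zero
  have htg : (t : E ≃ₐ[F] E) g ≠ 0 := by
    rw [Ne, map_eq_zero]; exact hg
  field_simp
  rw [mul_comm, hsum]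

end H90

section solv

open Crest.NumberTheoryR

variable {E : Type*} [Field E] [CharZero E]

omit [CharZero E] in
set_option backward.isDefEq.respectTransparency false in
theorem splits_X_pow_sub_one (h : IsSolvablyClosed E) (n : ℕ) : (X ^ n - 1 : E[X]).Splits := by
  by_cases hn : n = 0
  · rw [hn, pow_zero, sub_self]; exact Splits.zero
  have hn' : 0 < n := pos_iff_ne_zero.mpr hn
  have hn'' : (X ^ n - 1 : E[X]) ≠ 0 := X_pow_sub_C_ne_zero hn' 1
  apply h
  intro σ τ
  ext a ha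
  simp only [mem_rootSet_of_ne hn'', map_sub, aeval_X_pow, aeval_one, sub_eq_zero] at ha
  have key : ∀ σ : (X ^ n - 1 : E[X]).Gal, ∃ m : ℕ, σ a = a ^ m := by
    intro σ
    lift n to ℕ+ using hn'
    exact map_rootsOfUnity_eq_pow_self σ.toAlgHom (rootsOfUnity.mkOfPowEq a ha)
  obtain ⟨c, hc⟩ := key σ
  obtain ⟨d, hd⟩ := key τ
  rw [σ.mul_apply, τ.mul_apply, hc, map_pow, hd, map_pow, hc, ← pow_mul, pow_mul']

theorem exists_primitiveRoot (h : IsSolvablyClosed E) (n : ℕ) (hn : n ≠ 0) :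
    ∃ ζ : E, IsPrimitiveRoot ζ n := by
  have : NeZero n := ⟨hn⟩
  have : NeZero (n : E) := ⟨Nat.cast_ne_zero.mpr hn⟩
  have h1 : (cyclotomic n E).Splits := by
    refine (splits_X_pow_sub_one h n).of_dvd ?_ (cyclotomic.dvd_X_pow_sub_one n E)
    exact X_pow_sub_C_ne_zero (Nat.pos_of_ne_zero hn) 1
  have h2 : (cyclotomic n E).degree ≠ 0 := by
    rw [degree_cyclotomic]
    have := Nat.totient_pos.2 (Nat.pos_of_ne_zero hn)
    exact_mod_cast this.ne'
  obtain ⟨ζ, hζ⟩ := h1.exists_eval_eq_zero h2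
  exact ⟨ζ, isRoot_cyclotomic_iff.1 hζ⟩

set_option backward.isDefEq.respectTransparency false in
theorem splits_X_pow_sub_C (h : IsSolvablyClosed E) (n : ℕ) (a : E) :
    (X ^ n - C a : E[X]).Splits := by
  have h' := splits_X_pow_sub_one h n
  by_cases ha : a = 0
  · rw [ha, C_0, sub_zero]
    exact Splits.X_pow n
  have ha' : algebraMap E (X ^ n - C a).SplittingField a ≠ 0 :=
    mt ((injective_iff_map_eq_zero _).mp (RingHom.injective _) a) ha
  by_cases hn : n = 0
  · rw [hn, pow_zero, ← C_1, ← C_sub]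
    exact Splits.C _
  have hn' : 0 < n := pos_iff_ne_zero.mpr hn
  have hn'' : X ^ n - C a ≠ 0 := X_pow_sub_C_ne_zero hn' a
  have hn''' : (X ^ n - 1 : E[X]) ≠ 0 := X_pow_sub_C_ne_zero hn' 1
  have mem_range : ∀ {c : (X ^ n - C a).SplittingField},
      (c ^ n = 1 → (∃ d, algebraMap E (X ^ n - C a).SplittingField d = c)) := fun {c} hc =>
    RingHom.mem_range.mp (minpoly.mem_range_of_degree_eq_one E c
      (Splits.degree_eq_one_of_irreducible (h'.of_dvd hn'''
        (minpoly.dvd E c (by rwa [map_sub, sub_eq_zero, aeval_X_pow, aeval_one])))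
          (minpoly.irreducible ((SplittingField.instNormal (X ^ n - C a)).isIntegral c))))
  apply h
  intro σ τ
  ext b hb
  rw [mem_rootSet_of_ne hn'', map_sub, aeval_X_pow, aeval_C, sub_eq_zero] at hb
  have hb' : b ≠ 0 := by
    intro hb'
    rw [hb', zero_pow hn] at hb
    exact ha' hb.symm
  have key : ∀ σ : (X ^ n - C a).Gal, ∃ c, σ b = b * algebraMap E _ c := by
    intro σ
    have key : (σ b / b) ^ n = 1 := by rw [div_pow, ← map_pow, hb, σ.commutes, div_self ha']
    obtain ⟨c, hc⟩ := mem_range key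
    use c
    rw [hc, mul_div_cancel₀ (σ b) hb']
  obtain ⟨c, hc⟩ := key σ
  obtain ⟨d, hd⟩ := key τ
  rw [σ.mul_apply, τ.mul_apply, hc, map_mul, τ.commutes, hd, map_mul, σ.commutes, hc,
    mul_assoc, mul_assoc, mul_right_inj' hb', mul_comm]

theorem exists_pow_eq (h : IsSolvablyClosed E) (n : ℕ) (hn : n ≠ 0) (a : E) :
    ∃ y : E, y ^ n = a := by
  have h1 := splits_X_pow_sub_C h n a
  have h2 : (X ^ n - C a : E[X]).degree ≠ 0 := by
    rw [degree_X_pow_sub_C (Nat.pos_of_ne_zero hn)]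
    exact_mod_cast hn
  obtain ⟨y, hy⟩ := h1.exists_eval_eq_zero h2
  refine ⟨y, ?_⟩
  simpa [sub_eq_zero] using hy

theorem exists_pow_eq_unit (h : IsSolvablyClosed E) (n : ℕ) (hn : n ≠ 0) (a : Eˣ) :
    ∃ y : Eˣ, y ^ n = a := by
  obtain ⟨y, hy⟩ := exists_pow_eq h n hn (a : E)
  have hy0 : y ≠ 0 := by
    rintro rfl
    rw [zero_pow hn] at hy
    exact a.ne_zero hy.symm
  exact ⟨Units.mk0 y hy0, Units.ext (by simpa using hy)⟩

end solv

end Crest.Agent.R018.Kumx568
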