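import Crest.Agent.R018.Core_74
import Crest.Agent.R018.Kum_568

/-!
# Row 18: calculus of translates of a probe, construction of bad `φ` (helper933)
-/

set_option autoImplicit false

open NumberField Pointwise
open Crest.NumberTheoryR

namespace Crest.Agent.R018.BadPhix933

open Crest.Agent.R018.EndDefx924 (Om)
open Crest.Agent.R018.Placesx484
open Crest.Agent.R018.Corex74

section sqrt

theorem mem_iInf' {ι : Type*} (S : ι → IntermediateField ℚ Om) (w : Om) :
    w ∈ (⨅ i, S i) ↔ ∀ i, w ∈ S i := by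
  rw [← SetLike.mem_coe, IntermediateField.coe_iInf]
  simp

/-- `ℚ^solv` is closed under `n`-th roots -/
theorem exists_pow_eq (n : ℕ) (hn : n ≠ 0) (y : Sv) : ∃ z : Sv, z ^ n = y := by
  classical
  obtain ⟨w, hw⟩ := IsAlgClosed.exists_pow_nat_eq (y : Om) (Nat.pos_of_ne_zero hn)
  have hmem : w ∈ Sv := by
    unfold Sv
    rw [mem_iInf']
    intro E
    have hy : (y : Om) ∈ E.1 := by
      have := y.2
      unfold Sv at this
      rw [mem_iInf'] at this
      exact this E
    rcases eq_or_ne w 0 with rfl | hw0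
    · exact zero_mem _
    obtain ⟨z, hz⟩ := Kumx568.exists_pow_eq E.2.2 n hn ⟨(y : Om), hy⟩
    obtain ⟨ζ, hζ⟩ := Kumx568.exists_primitiveRoot E.2.2 n hn
    have hz' : ((z : E.1) : Om) ^ n = y := by
      have := congrArg (fun t : E.1 => (t : Om)) hz
      simpa using this
    have hz0 : ((z : E.1) : Om) ≠ 0 := by
      intro h0
      rw [h0, zero_pow hn] at hz'
      rw [← hz'] at hw
      exact hw0 (pow_eq_zero_iff hn |>.1 hw)
    have hζ' : IsPrimitiveRoot ((ζ : E.1) : Om) n :=
      hζ.map_of_injective (f := algebraMap E.1 Om) (algebraMap E.1 Om).injective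
    have h1 : (w / (z : Om)) ^ n = 1 := by
      rw [div_pow, hw, hz', div_self]
      rw [← hz']
      exact pow_ne_zero _ hz0
    have : NeZero n := ⟨hn⟩
    obtain ⟨i, -, hi⟩ := hζ'.eq_pow_of_pow_eq_one h1
    have h2 : w = (z : Om) * (ζ : Om) ^ i := by
      rw [hi]; field_simp
    rw [h2]
    exact mul_mem z.2 (pow_mem ζ.2 i)
  exact ⟨⟨w, hmem⟩, Subtype.ext (by simpa using hw)⟩

theorem exists_sqrt (y : Sv) : ∃ z : Sv, z ^ 2 = y := exists_pow_eq 2 two_ne_zero y

theorem exists_I : ∃ i : Sv, i ^ 2 = -1 := exists_sqrt _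

/-- an element of order two does not fix `i` -/
theorem eq_one_of_sq {v : SG} (hv : v * v = 1) {i : Sv} (hi : i ^ 2 = -1) (hvi : v i = i) :
    v = 1 := by
  ext y
  by_contra hne
  have hvv : ∀ t : Sv, v (v t) = t := fun t => by
    rw [← AlgEquiv.mul_apply, hv]; rfl
  obtain ⟨b, hb⟩ := exists_sqrt (y - v y)
  have hz0 : y - v y ≠ 0 := fun h => hne (by
    have : v y = y := (sub_eq_zero.1 h).symm
    simp [this])
  have hb0 : b ≠ 0 := by
    rintro rfl
    apply hz0
    rw [← hb]; simp
  have h1 : (v b) ^ 2 = (i * b) ^ 2 := by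
    rw [← map_pow, hb, mul_pow, hi, hb, map_sub, hvv]; ring
  rcases sq_eq_sq_iff_eq_or_eq_neg.1 h1 with h2 | h2
  · have h3 := hvv b
    rw [h2, map_mul, hvi, h2, ← mul_assoc, ← sq, hi] at h3
    have h4 : (2 : Sv) * b = 0 := by linear_combination -h3
    exact hb0 ((mul_eq_zero.1 h4).resolve_left two_ne_zero)
  · have h3 := hvv b
    rw [h2, map_neg, map_mul, hvi, h2, mul_neg, neg_neg, ← mul_assoc, ← sq, hi] at h3
    have h4 : (2 : Sv) * b = 0 := by linear_combination -h3
    exact hb0 ((mul_eq_zero.1 h4).resolve_left two_ne_zero)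

end sqrt

section isopen

theorem isOpen_stab (z : Sv) : IsOpen {g : SG | g z = z} := by
  have h : {g : SG | g z = z} = (IntermediateField.adjoin ℚ {z}).fixingSubgroup := by
    ext g
    simp only [Set.mem_ofPred_eq, SetLike.mem_coe, IntermediateField.mem_fixingSubgroup_iff]
    constructor
    · intro hg y hy
      have : IntermediateField.adjoin ℚ {z} ≤ IntermediateField.fixedField
          (Subgroup.zpowers g) := by
        rw [IntermediateField.adjoin_le_iff, Set.singleton_subset_iff]
        intro ⟨s, k, hk⟩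
        have hs : ∀ k : ℤ, (g ^ k) z = z := by
          intro k
          induction k with
          | zero => simp
          | succ n ih =>
            rw [zpow_add_one, AlgEquiv.mul_apply, hg, ih]
          | pred n ih =>
            have hg' : g⁻¹ z = z := by
              rw [AlgEquiv.coe_inv, AlgEquiv.symm_apply_eq, hg]
            rw [zpow_sub_one, AlgEquiv.mul_apply, hg', ih]
        show s • z = z
        have hk' : g ^ k = s := hk
        rw [← hk']
        exact hs k
      exact this hy ⟨g, Subgroup.mem_zpowers g⟩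
    · intro hg
      exact hg z (IntermediateField.mem_adjoin_simple_self ℚ z)
  rw [h]
  have : FiniteDimensional ℚ (IntermediateField.adjoin ℚ {z}) :=
    IntermediateField.adjoin.finiteDimensional (Algebra.IsIntegral.isIntegral z)
  exact IntermediateField.fixingSubgroup_isOpen _

theorem V2_le (V : Subgroup SG) (x : Sv) : V2 V x ≤ V := fun _ h => h.1

theorem isOpen_V2 (V : Subgroup SG) (hV : IsOpen (V : Set SG)) (x : Sv) :
    IsOpen (V2 V x : Set SG) := by
  classical
  -- the set of square roots of conjugates of `x` is finite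
  set T : Set Sv := {z : Sv | ∃ γ : SG, z ^ 2 = γ x} with hT
  have hfin : T.Finite := by
    have hroots : {y : Sv | ∃ γ : SG, y = γ x} ⊆ ((minpoly ℚ x).aroots Sv).toFinset := by
      rintro y ⟨γ, rfl⟩
      have hx : IsIntegral ℚ x := Algebra.IsIntegral.isIntegral x
      simp only [Finset.mem_coe, Multiset.mem_toFinset, Polynomial.mem_aroots]
      refine ⟨minpoly.ne_zero hx, ?_⟩
      rw [show (γ x : Sv) = (γ : Sv →ₐ[ℚ] Sv) x from rfl, Polynomial.aeval_algHom_apply,
        minpoly.aeval, map_zero]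
    have h1 : {y : Sv | ∃ γ : SG, y = γ x}.Finite := (Finset.finite_toSet _).subset hroots
    have h2 : T ⊆ ⋃ y ∈ {y : Sv | ∃ γ : SG, y = γ x}, {z : Sv | z ^ 2 = y} := by
      rintro z ⟨γ, hγ⟩
      simp only [Set.mem_iUnion]
      exact ⟨γ x, ⟨γ, rfl⟩, hγ⟩
    refine (h1.biUnion fun y _ => ?_).subset h2
    obtain ⟨z0, hz0⟩ := exists_sqrt y
    refine (Set.toFinite {z0, -z0}).subset ?_
    intro z hz
    have : z ^ 2 = z0 ^ 2 := by rw [hz0]; exact hz
    exact sq_eq_sq_iff_eq_or_eq_neg.1 this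
  have heq : (V2 V x : Set SG) = (V : Set SG) ∩ ⋂ z ∈ T, {g : SG | g z = z} := by
    ext g
    simp only [SetLike.mem_coe, Set.mem_inter_iff, Set.mem_iInter, Set.mem_ofPred_eq]
    constructor
    · rintro ⟨h1, h2⟩
      refine ⟨h1, ?_⟩
      rintro z ⟨γ, hγ⟩
      exact h2 γ z hγ
    · rintro ⟨h1, h2⟩
      exact ⟨h1, fun γ z hγ => h2 z ⟨γ, hγ⟩⟩
  rw [heq]
  exact hV.inter (hfin.isOpen_biInter fun z _ => isOpen_stab z)

end isopen

section calculus

variable {V : Subgroup SG} [hV : V.Normal] {x : Sv} {l : ℕ} [Fact l.Prime]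

theorem cj_mem (V : Subgroup SG) [V.Normal] (x : Sv) (γ : SG) (n : V2 V x) :
    γ⁻¹ * n * γ ∈ V2 V x := by
  simpa using (V2_normal V x).conj_mem n n.2 γ⁻¹

/-- conjugation of an element of `V₂` -/
noncomputable def cj (γ : SG) (n : V2 V x) : V2 V x := ⟨γ⁻¹ * n * γ, cj_mem V x γ n⟩

@[simp] theorem coe_cj (γ : SG) (n : V2 V x) : ((cj γ n : V2 V x) : SG) = γ⁻¹ * n * γ := rfl

theorem act_apply (γ : SG) (f : V2 V x → ℤ_[l]) (n : V2 V x) : act γ f n = f (cj γ n) := rfl

theorem tr_apply (p : Probe V x l) (γ : SG) (n : V2 V x) :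
    tr p γ n = Multiplicative.toAdd (p.ψ (cj γ n)) := rfl

theorem act_mul (g h : SG) (f : V2 V x → ℤ_[l]) : act (g * h) f = act g (act h f) := by
  funext n
  rw [act_apply, act_apply, act_apply]
  exact congrArg f (Subtype.ext (by simp only [coe_cj]; group))

theorem act_one (f : V2 V x → ℤ_[l]) : act (1 : SG) f = f := by
  funext n
  rw [act_apply]
  exact congrArg f (Subtype.ext (by simp))

theorem act_add (g : SG) (f f' : V2 V x → ℤ_[l]) : act g (f + f') = act g f + act g f' := rfl

theorem act_smul (g : SG) (c : ℤ_[l]) (f : V2 V x → ℤ_[l]) : act g (c • f) = c • act g f := rfl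

theorem act_zero (g : SG) : act g (0 : V2 V x → ℤ_[l]) = 0 := rfl

theorem act_sum {ι : Type*} (g : SG) (s : Finset ι) (f : ι → V2 V x → ℤ_[l]) :
    act g (∑ i ∈ s, f i) = ∑ i ∈ s, act g (f i) := by
  classical
  induction s using Finset.induction_on with
  | empty => simp [act_zero]
  | insert a s ha ih => rw [Finset.sum_insert ha, Finset.sum_insert ha, act_add, ih]

theorem act_tr (p : Probe V x l) (g γ : SG) : act g (tr p γ) = tr p (g * γ) := by
  funext n
  rw [act_apply, tr_apply, tr_apply]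
  exact congrArg (fun t => Multiplicative.toAdd (p.ψ t))
    (Subtype.ext (by simp only [coe_cj]; group))

theorem tr_mul_pos (p : Probe V x l) (γ a : SG) (ha : a ∈ V) (hpos : ∀ z : Sv, z ^ 2 = x → a z = z) :
    tr p (γ * a) = tr p γ := by
  funext n
  rw [tr_apply, tr_apply]
  have h := p.eig_pos a ha hpos (cj γ n)
  rw [← h]
  exact congrArg (fun t => Multiplicative.toAdd (p.ψ t))
    (Subtype.ext (by simp only [coe_cj]; group))

theorem tr_mul_neg (p : Probe V x l) (γ a : SG) (ha : a ∈ V)
    (hneg : ∀ z : Sv, z ^ 2 = x → a z = -z) : tr p (γ * a) = -tr p γ := by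
  funext n
  rw [tr_apply, Pi.neg_apply, tr_apply]
  have h := p.eig_neg a ha hneg (cj γ n)
  rw [← toAdd_inv, ← h]
  exact congrArg (fun t => Multiplicative.toAdd (p.ψ t))
    (Subtype.ext (by simp only [coe_cj]; group))

theorem tr_map_mul (p : Probe V x l) (γ : SG) (n n' : V2 V x) :
    tr p γ (n * n') = tr p γ n + tr p γ n' := by
  rw [tr_apply, tr_apply, tr_apply, ← toAdd_mul, ← map_mul]
  exact congrArg (fun t => Multiplicative.toAdd (p.ψ t))
    (Subtype.ext (by simp only [coe_cj, Subgroup.coe_mul]; group))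

theorem tr_map_one (p : Probe V x l) (γ : SG) : tr p γ 1 = 0 := by
  have := tr_map_mul p γ 1 1
  rw [mul_one] at this
  exact left_eq_add.1 this

theorem tr_ne_zero (p : Probe V x l) (γ : SG) : tr p γ ≠ 0 := by
  intro h
  apply p.ne_one
  ext n
  have h1 := congrFun h (cj γ⁻¹ n)
  rw [tr_apply, Pi.zero_apply] at h1
  have h2 : cj γ (cj γ⁻¹ n) = n := by
    apply Subtype.ext
    simp only [coe_cj]
    group
  rw [h2] at h1
  simpa using h1

theorem act_inv_act (g : SG) (f : V2 V x → ℤ_[l]) : act g⁻¹ (act g f) = f := by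
  rw [← act_mul, inv_mul_cancel, act_one]

/-- the action of elements of `V₂` is trivial on `tr p γ` -/
theorem act_tr_of_mem (p : Probe V x l) (γ : SG) {v : SG} (hv : v ∈ V2 V x) :
    act v (tr p γ) = tr p γ := by
  funext n
  rw [act_apply, tr_apply, tr_apply]
  have h1 : cj γ (cj v n) = (cj γ ⟨v, hv⟩)⁻¹ * cj γ n * cj γ ⟨v, hv⟩ := by
    apply Subtype.ext
    simp only [coe_cj, Subgroup.coe_mul, InvMemClass.coe_inv]
    group
  have h2 : p.ψ (cj γ (cj v n)) = p.ψ (cj γ n) := by
    rw [h1, map_mul, map_mul, map_inv, mul_comm, mul_inv_cancel_left]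
  rw [h2]

end calculus

end Crest.Agent.R018.BadPhix933
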