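import Mathlib

/-!
# Row 18, LEMMA LOG: frozen definitions (helper575)

Abstract Herbrand numbers `h0`, `h1` of a subgroup for a pair of endomorphisms, the endomorphisms
`sg σ : x ↦ σ x / x` and `nm : x ↦ N x` of `Lˣ`, units at a rational prime, congruence subgroups,
the product of the ramification indices above a rational prime, and the statements of the blocks.
-/

set_option autoImplicit false

noncomputable section

open scoped NumberField
open IsDedekindDomain

namespace Crest.Agent.R018.LogDefsx575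

section Herbrand

variable {M : Type*} [CommGroup M]

/-- order of `(ker f ∩ B) / g(B)` (zero if infinite) -/
def h0 (f g : M →* M) (B : Subgroup M) : ℕ := (B.map g).relIndex (f.ker ⊓ B)

/-- order of `(ker g ∩ B) / f(B)` (zero if infinite) -/
def h1 (f g : M →* M) (B : Subgroup M) : ℕ := (B.map f).relIndex (g.ker ⊓ B)

/-- `B` is stable under `f` and `g` -/
structure Stab (f g : M →* M) (B : Subgroup M) : Prop where
  mapf : B.map f ≤ B
  mapg : B.map g ≤ B

end Herbrand

section Galois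

variable (K : Type*) {L : Type*} [Field K] [Field L] [Algebra K L]

/-- the endomorphism `x ↦ σ x / x` of `Lˣ` -/
def sg (σ : L ≃ₐ[K] L) : Lˣ →* Lˣ :=
  Units.map (σ : L →* L) / MonoidHom.id _

variable (L)

/-- the norm `Lˣ → Kˣ` -/
def nmK : Lˣ →* Kˣ := Units.map (Algebra.norm K : L →* K)

/-- the inclusion `Kˣ → Lˣ` -/
def inc : Kˣ →* Lˣ := Units.map (algebraMap K L : K →* L)

/-- the norm as an endomorphism of `Lˣ` -/
def nm : Lˣ →* Lˣ := (inc K L).comp (nmK K L)

end Galois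

section Primes

variable (K : Type*) [Field K] [NumberField K]

/-- the primes of `K` above the rational prime `l` -/
def PA (l : ℕ) : Set (HeightOneSpectrum (𝓞 K)) := {v | (l : 𝓞 K) ∈ v.asIdeal}

/-- units at all primes above `l` -/
def Rl (l : ℕ) : Subgroup Kˣ := Set.unit (PA K l)ᶜ K

/-- units at all primes above `l` which are `≡ 1 mod l^k` -/
def Uk (l k : ℕ) : Subgroup Kˣ where
  carrier := {x | x ∈ Rl K l ∧ ∀ v ∈ PA K l, v.valuation K ((x : K) - 1) ≤ v.valuation K (l : K) ^ k}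
  one_mem' := ⟨one_mem _, fun v _ => by simp⟩
  mul_mem' := by
    rintro x y ⟨hx, hx'⟩ ⟨hy, hy'⟩
    refine ⟨mul_mem hx hy, fun v hv => ?_⟩
    have h1 : ((x * y : Kˣ) : K) - 1 = ((x : K) - 1) * y + ((y : K) - 1) := by
      push_cast; ring
    rw [h1]
    refine (v.valuation K).map_add_le ?_ (hy' v hv)
    rw [map_mul]
    have : v.valuation K (y : K) = 1 := hy v (by simpa using hv)
    rw [this, mul_one]
    exact hx' v hv
  inv_mem' := by
    rintro x ⟨hx, hx'⟩
    refine ⟨inv_mem hx, fun v hv => ?_⟩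
    have h1 : ((x⁻¹ : Kˣ) : K) - 1 = -(((x : K) - 1) * ((x⁻¹ : Kˣ) : K)) := by
      have : (x : K) * ((x⁻¹ : Kˣ) : K) = 1 := by simp
      linear_combination (1 : K) * this
    rw [h1, Valuation.map_neg, map_mul]
    have h2 : v.valuation K (((x⁻¹ : Kˣ) : K)) = 1 := (inv_mem hx) v (by simpa using hv)
    rw [h2, mul_one]
    exact hx' v hv

variable {K} (L : Type*) [Field L] [NumberField L] [Algebra K L]

/-- the primes of `L` above a set of primes of `K` -/
def ov (S : Set (HeightOneSpectrum (𝓞 K))) : Set (HeightOneSpectrum (𝓞 L)) :=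
  {w | ∃ v ∈ S, w.asIdeal.LiesOver v.asIdeal}

variable (K)

/-- product of the ramification indices in `L/K` of the primes of `K` above `l` -/
def eL (l : ℕ) : ℕ := ∏ᶠ v : PA K l, (v.1.asIdeal).ramificationIdxIn (𝓞 L)

end Primes

/-! ## statements of the blocks -/

/-- BLOCK B (S-unit lattice): `q(U_S(L)) = 1/n`. -/
def BlockB (K L : Type*) [Field K] [NumberField K] [Field L] [NumberField L] [Algebra K L] : Prop :=
  ∀ (_ : IsGalois K L) (σ : L ≃ₐ[K] L) (_ : ∀ τ, τ ∈ Subgroup.zpowers σ)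
    (_ : Odd (Module.finrank K L))
    (S : Set (HeightOneSpectrum (𝓞 K))) (_ : S.Finite)
    (_ : ∀ v ∈ S, (v.asIdeal.primesOver (𝓞 L)).ncard = Module.finrank K L),
    h0 (sg K σ) (nm K L) ((ov L S).unit L) ≠ 0 ∧
    h1 (sg K σ) (nm K L) ((ov L S).unit L) =
      Module.finrank K L * h0 (sg K σ) (nm K L) ((ov L S).unit L)

/-- BLOCK C (Hilbert 90): `|H¹(G, U_S(L))| ≤ |Cl(K)| ∏ e_v`. -/
def BlockC (K L : Type*) [Field K] [NumberField K] [Field L] [NumberField L] [Algebra K L] : Prop :=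
  ∀ (_ : IsGalois K L) (σ : L ≃ₐ[K] L) (_ : ∀ τ, τ ∈ Subgroup.zpowers σ)
    (l : ℕ) (_ : l.Prime)
    (_ : ∀ v : HeightOneSpectrum (𝓞 K), v ∉ PA K l → v.asIdeal.ramificationIdxIn (𝓞 L) = 1)
    (S : Set (HeightOneSpectrum (𝓞 K))) (_ : S.Finite) (_ : Disjoint S (PA K l)),
    h1 (sg K σ) (nm K L) ((ov L S).unit L) ≤ Nat.card (ClassGroup (𝓞 K)) * eL K L l

/-- BLOCK D (semi-local norm index at `l`): `∏ e_v ≤ [R_K^* : N(R_L^*) U_K^{(k)}]` for large `k`. -/
def BlockD (K L : Type*) [Field K] [NumberField K] [Field L] [NumberField L] [Algebra K L] : Prop :=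
  ∀ (_ : IsGalois K L) (σ : L ≃ₐ[K] L) (_ : ∀ τ, τ ∈ Subgroup.zpowers σ)
    (l : ℕ) (_ : l.Prime),
    ∃ k0 : ℕ, ∀ k ≥ k0, eL K L l ≤ ((Rl L l).map (nmK K L) ⊔ Uk K l k).relIndex (Rl K l)

/-- the `S`-units are full at level `j`: they hit every class of `(1+l^j O)/(1+l^(j+1) O)` -/
def Full (K : Type*) [Field K] [NumberField K] (l : ℕ) (S : Set (HeightOneSpectrum (𝓞 K)))
    (j : ℕ) : Prop :=
  ∀ a : 𝓞 K, ∃ x ∈ S.unit K, ∀ v ∈ PA K l,
    v.valuation K ((x : K) - 1 - (l : K) ^ j * (a : K)) ≤ v.valuation K (l : K) ^ (j + 1)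

end Crest.Agent.R018.LogDefsx575
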