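import Mathlib
import Crest.Agent.R018.LogDefs_575

/-!
# Row 18: the bridge between "full at level j" and "generated by fewer than d elements"
(helper275)
-/

set_option autoImplicit false

noncomputable section

open scoped NumberField
open IsDedekindDomain Crest.Agent.R018.LogDefsx575

namespace Crest.Agent.R018.Bridgex275

section Group

/-- a finite elementary abelian `l`-group, module form -/
theorem elem_ab' {W : Type*} [AddCommGroup W] [Finite W] (l : ℕ) [hl : Fact l.Prime]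
    [Module (ZMod l) W] :
    ∃ r : ℕ, Nat.card W = l ^ r ∧ ∃ b : Fin r → W, ∀ w, w ∈ AddSubgroup.closure (Set.range b) := by
  refine ⟨Module.finrank (ZMod l) W, ?_, ?_⟩
  · rw [Module.natCard_eq_pow_finrank (K := ZMod l), Nat.card_zmod]
  · let b := Module.finBasis (ZMod l) W
    refine ⟨b, fun w => ?_⟩
    have hw : w ∈ Submodule.span (ZMod l) (Set.range b) := by
      rw [b.span_eq]; trivial
    induction hw using Submodule.span_induction with
    | mem z hz => exact AddSubgroup.subset_closure hz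
    | zero => exact zero_mem _
    | add z w _ _ hz hw => exact add_mem hz hw
    | smul c z _ hz =>
      have : c • z = c.val • z := by
        conv_lhs => rw [← ZMod.natCast_zmod_val c]
        rw [Nat.cast_smul_eq_nsmul]
      rw [this]
      exact nsmul_mem hz _

/-- a finite elementary abelian `l`-group -/
theorem elem_ab {W : Type*} [AddCommGroup W] [Finite W] (l : ℕ) [hl : Fact l.Prime]
    (hV : ∀ x : W, l • x = 0) :
    ∃ r : ℕ, Nat.card W = l ^ r ∧ ∃ b : Fin r → W, ∀ w, w ∈ AddSubgroup.closure (Set.range b) := by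
  let _ : Module (ZMod l) W := AddCommGroup.zmodModule hV
  exact elem_ab' l

/-- Burnside basis for finite abelian `l`-groups, counted by the `l`-torsion. -/
theorem exists_gen {P : Type*} [CommGroup P] [Finite P] (l : ℕ) [hl : Fact l.Prime]
    (hP : ∃ k, ∀ x : P, x ^ l ^ k = 1) (d : ℕ) (hd : Nat.card {x : P // x ^ l = 1} < l ^ d) :
    ∃ r < d, ∃ p : Fin r → P, ∀ x : P, ∃ a : Fin r → ℕ, x = ∏ i, p i ^ a i := by
  classical
  set f : P →* P := powMonoidHom l with hf
  have hker : Nat.card f.ker = Nat.card {x : P // x ^ l = 1} := by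
    refine Nat.card_congr (Equiv.subtypeEquivRight fun x => ?_)
    simp [hf, MonoidHom.mem_ker]
  have hidx : f.range.index = Nat.card f.ker := by
    have h1 := f.range.card_mul_index
    have h2 := f.ker.card_mul_index
    rw [Subgroup.index_ker] at h2
    have h3 : 0 < Nat.card f.range := Nat.card_pos
    rw [← h2, mul_comm (Nat.card f.ker)] at h1
    exact Nat.eq_of_mul_eq_mul_left h3 h1
  let V := P ⧸ f.range
  have hcardV : Nat.card V = Nat.card f.ker := by
    rw [← hidx]; rfl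
  have hV : ∀ x : Additive V, l • x = 0 := by
    intro x
    induction x using Additive.rec with
    | ofMul x =>
      rw [← ofMul_pow, ← ofMul_one]
      congr 1
      obtain ⟨y, rfl⟩ := QuotientGroup.mk_surjective x
      rw [← QuotientGroup.mk_pow, QuotientGroup.eq_one_iff]
      exact ⟨y, rfl⟩
  have hfinV : Finite (Additive V) := inferInstanceAs (Finite V)
  obtain ⟨r, hcard, b, hb⟩ := elem_ab l hV
  have hrd : r < d := by
    have h1 : Nat.card (Additive V) = Nat.card V := rfl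
    rw [h1, hcardV, hker] at hcard
    rw [hcard] at hd
    exact (Nat.pow_lt_pow_iff_right hl.out.one_lt).1 hd
  choose p hp using fun i : Fin r => QuotientGroup.mk_surjective (s := f.range) ((b i).toMul)
  refine ⟨r, hrd, p, ?_⟩
  let Q := Subgroup.closure (Set.range p)
  -- step 1: Q and the l-th powers generate
  have h1 : ∀ x : P, ∃ q ∈ Q, ∃ y : P, x = q * y ^ l := by
    intro x
    have hx := hb (Additive.ofMul ((x : P) : V))
    have hx2 : ∀ z : Additive V, z ∈ AddSubgroup.closure (Set.range b) →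
        ∃ q ∈ Q, Additive.ofMul ((q : P) : V) = z := by
      intro z hz
      induction hz using AddSubgroup.closure_induction with
      | mem z hz =>
        obtain ⟨i, rfl⟩ := hz
        exact ⟨p i, Subgroup.subset_closure ⟨i, rfl⟩, by rw [hp i]; rfl⟩
      | zero => exact ⟨1, one_mem _, rfl⟩
      | add z w _ _ hz hw =>
        obtain ⟨q, hq, rfl⟩ := hz
        obtain ⟨q', hq', rfl⟩ := hw
        exact ⟨q * q', mul_mem hq hq', rfl⟩
      | neg z _ hz =>
        obtain ⟨q, hq, rfl⟩ := hz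
        exact ⟨q⁻¹, inv_mem hq, rfl⟩
    obtain ⟨q, hq, hqx⟩ := hx2 _ hx
    have h2 : ((q : P) : V) = ((x : P) : V) := hqx
    rw [QuotientGroup.eq] at h2
    obtain ⟨y, hy⟩ := h2
    refine ⟨q, hq, y, ?_⟩
    have hy' : y ^ l = q⁻¹ * x := hy
    rw [hy', mul_inv_cancel_left]
  have h2 : ∀ k : ℕ, ∀ x : P, ∃ q ∈ Q, ∃ y : P, x = q * y ^ l ^ k := by
    intro k
    induction k with
    | zero => intro x; exact ⟨1, one_mem _, x, by simp⟩
    | succ k ih =>
      intro x
      obtain ⟨q, hq, y, rfl⟩ := ih x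
      obtain ⟨q', hq', z, rfl⟩ := h1 y
      refine ⟨q * q' ^ l ^ k, mul_mem hq (pow_mem hq' _), z, ?_⟩
      rw [mul_pow, ← pow_mul, mul_assoc, pow_succ' l k]
  obtain ⟨k, hk⟩ := hP
  intro x
  have hxQ : x ∈ Q := by
    obtain ⟨q, hq, y, rfl⟩ := h2 k x
    rwa [hk, mul_one]
  obtain ⟨a, ha⟩ := Subgroup.exists_of_mem_closure_range p x hxQ
  refine ⟨fun i => (a i % (l ^ k : ℕ)).toNat, ?_⟩
  rw [ha]
  refine Finset.prod_congr rfl fun i _ => ?_
  have hpos : (0 : ℤ) < (l ^ k : ℕ) := by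
    exact_mod_cast pow_pos hl.out.pos k
  rw [← zpow_natCast, Int.toNat_of_nonneg (Int.emod_nonneg _ hpos.ne')]
  conv_lhs => rw [← Int.emod_add_mul_ediv (a i) ((l ^ k : ℕ) : ℤ), zpow_add, zpow_mul, zpow_natCast,
    hk, one_zpow, mul_one]

end Group

section Arith

theorem one_add_pow' {R : Type*} [CommRing R] (t : R) (n : ℕ) :
    ∃ r, (1 + t) ^ n = 1 + n * t + t ^ 2 * r := by
  induction n with
  | zero => exact ⟨0, by simp⟩
  | succ n ih =>
    obtain ⟨r, hr⟩ := ih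
    refine ⟨n + r + t * r, ?_⟩
    rw [pow_succ, hr]
    push_cast
    ring

variable {R : Type*} [CommRing R] [IsDomain R] [CharZero R] (l : ℕ) [hl : Fact l.Prime]

theorem key_step (b : R) (e j : ℕ) (hj : 2 ≤ j) (hje : j + 2 ≤ e) (h2 : (l : R) ^ j ∣ b - 1)
    (he : (l : R) ^ e ∣ b ^ l - 1) : (l : R) ^ (j + 1) ∣ b - 1 := by
  obtain ⟨c, hc⟩ := h2
  have hb : b = 1 + (l : R) ^ j * c := by rw [← hc]; ring
  obtain ⟨r, hr⟩ := one_add_pow' ((l : R) ^ j * c) l
  have h1 : (l : R) ^ (j + 2) ∣ b ^ l - 1 := (pow_dvd_pow _ hje).trans he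
  have h3 : (l : R) ^ (j + 2) ∣ ((l : R) ^ j * c) ^ 2 * r := by
    refine Dvd.dvd.mul_right ?_ r
    rw [mul_pow, ← pow_mul]
    exact Dvd.dvd.mul_right (pow_dvd_pow _ (by omega)) _
  have h4 : (l : R) ^ (j + 2) ∣ (l : R) ^ (j + 1) * c := by
    have : (l : R) ^ (j + 1) * c = (b ^ l - 1) - ((l : R) ^ j * c) ^ 2 * r := by
      rw [hb, hr]; ring
    rw [this]
    exact dvd_sub h1 h3
  have hl0 : (l : R) ≠ 0 := by exact_mod_cast hl.out.ne_zero
  have h5 : (l : R) ∣ c := by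
    rw [show j + 2 = (j + 1) + 1 from rfl, pow_succ _ (j + 1)] at h4
    exact (mul_dvd_mul_iff_left (pow_ne_zero _ hl0)).1 h4
  rw [hc, pow_succ]
  exact mul_dvd_mul_left _ h5

theorem key (b : R) (e : ℕ) (h2 : (l : R) ^ 2 ∣ b - 1) (he : (l : R) ^ e ∣ b ^ l - 1) (j : ℕ)
    (hj : 2 ≤ j) (hje : j + 1 ≤ e) : (l : R) ^ j ∣ b - 1 := by
  induction j, hj using Nat.le_induction with
  | base => exact h2
  | succ j hj ih => exact key_step l b e j hj (by omega) (ih (by omega)) he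

end Arith

section Main

variable (K : Type*) [Field K] [NumberField K] (l : ℕ)

/-- the quotient ring `O / l^e` -/
abbrev A (e : ℕ) : Type _ := 𝓞 K ⧸ Ideal.span {(l : 𝓞 K) ^ e}

variable {K} in
omit [NumberField K] in
theorem mk_eq_iff {e : ℕ} (a b : 𝓞 K) :
    (Ideal.Quotient.mk (Ideal.span {(l : 𝓞 K) ^ e}) a = Ideal.Quotient.mk _ b) ↔
      (l : 𝓞 K) ^ e ∣ a - b := by
  rw [Ideal.Quotient.eq, Ideal.mem_span_singleton]

variable {K} in
theorem val_le_of_dvd {e : ℕ} {a : 𝓞 K} (h : (l : 𝓞 K) ^ e ∣ a) (v : HeightOneSpectrum (𝓞 K)) :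
    v.valuation K (a : K) ≤ v.valuation K (l : K) ^ e := by
  obtain ⟨c, rfl⟩ := h
  push_cast
  rw [map_mul, map_pow]
  exact mul_le_of_le_one_right' (v.valuation_le_one c)

variable {K} in
theorem val_l_lt {v : HeightOneSpectrum (𝓞 K)} (hv : v ∈ PA K l) :
    v.valuation K (l : K) < 1 := by
  have := (v.valuation_lt_one_iff_mem (K := K) (l : 𝓞 K)).2 hv
  simpa using this

variable {K} in
theorem val_eq_one_of {e : ℕ} (he : e ≠ 0) {b : 𝓞 K} (hb : (l : 𝓞 K) ^ 2 ∣ b - 1)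
    {v : HeightOneSpectrum (𝓞 K)} (hv : v ∈ PA K l) {x : K}
    (hx : v.valuation K (x - (b : K)) ≤ v.valuation K (l : K) ^ e) : v.valuation K x = 1 := by
  have hl := val_l_lt l hv
  have h1 : v.valuation K (((b - 1 : 𝓞 K)) : K) < 1 :=
    (val_le_of_dvd l hb v).trans_lt (pow_lt_one₀ zero_le hl two_ne_zero)
  have h2 : v.valuation K (b : K) = 1 := by
    have h3 := Valuation.map_one_add_of_lt (v := v.valuation K) h1
    have h4 : (1 : K) + ((b - 1 : 𝓞 K) : K) = (b : K) := by push_cast; ring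
    rwa [h4] at h3
  have h5 : v.valuation K (x - (b : K)) < v.valuation K (b : K) := by
    rw [h2]
    exact hx.trans_lt (pow_lt_one₀ zero_le hl he)
  have h6 := Valuation.map_add_eq_of_lt_left (v := v.valuation K) h5
  rw [← h2, ← h6]
  congr 1
  ring

/-- the image of the `S`-units `≡ 1 mod l^2` in `(O/l^e)ˣ` -/
def P (S : Set (HeightOneSpectrum (𝓞 K))) (e : ℕ) (he : 2 ≤ e) : Subgroup (A K l e)ˣ where
  carrier := {u | ∃ b : 𝓞 K, (l : 𝓞 K) ^ 2 ∣ b - 1 ∧
    Ideal.Quotient.mk (Ideal.span {(l : 𝓞 K) ^ e}) b = (u : A K l e) ∧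
    ∃ x ∈ S.unit K, ∀ v ∈ PA K l, v.valuation K ((x : K) - (b : K)) ≤ v.valuation K (l : K) ^ e}
  one_mem' := ⟨1, by simp, by simp, 1, one_mem _, by simp⟩
  mul_mem' := by
    rintro u u' ⟨b, hb, hbu, x, hx, hxb⟩ ⟨b', hb', hbu', x', hx', hxb'⟩
    refine ⟨b * b', ?_, ?_, x * x', mul_mem hx hx', fun v hv => ?_⟩
    · have : b * b' - 1 = (b - 1) * b' + (b' - 1) := by ring
      rw [this]
      exact dvd_add (Dvd.dvd.mul_right hb _) hb'
    · rw [map_mul, hbu, hbu']; rfl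
    · have h1 : ((x * x' : Kˣ) : K) - ((b * b' : 𝓞 K) : K)
          = ((x : K) - b) * ((x' : K) - b') + ((x : K) - b) * b' + b * ((x' : K) - b') := by
        push_cast; ring
      have h3 := hxb v hv
      have h4 := hxb' v hv
      have h5 : v.valuation K (l : K) ^ e ≤ 1 := by
        have := v.valuation_le_one (K := K) ((l : 𝓞 K) ^ e)
        push_cast at this
        rwa [map_pow] at this
      rw [h1]
      refine (v.valuation K).map_add_le ((v.valuation K).map_add_le ?_ ?_) ?_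
      · rw [map_mul]
        exact (mul_le_mul' h3 (h4.trans h5)).trans (by rw [mul_one])
      · rw [map_mul]
        exact (mul_le_mul' h3 (v.valuation_le_one b')).trans (by rw [mul_one])
      · rw [map_mul]
        exact (mul_le_mul' (v.valuation_le_one b) h4).trans (by rw [one_mul])
  inv_mem' := by
    rintro u ⟨b, hb, hbu, x, hx, hxb⟩
    obtain ⟨b', hb'⟩ := Ideal.Quotient.mk_surjective ((u⁻¹ : (A K l e)ˣ) : A K l e)
    have hbb : (l : 𝓞 K) ^ e ∣ b * b' - 1 := by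
      rw [← mk_eq_iff, map_mul, hbu, hb', map_one]
      exact u.mul_inv
    have hb2 : (l : 𝓞 K) ^ 2 ∣ b' - 1 := by
      have : b' - 1 = (b * b' - 1) - (b - 1) * b' := by ring
      rw [this]
      exact dvd_sub ((pow_dvd_pow _ he).trans hbb) (Dvd.dvd.mul_right hb _)
    refine ⟨b', hb2, hb', x⁻¹, inv_mem hx, fun v hv => ?_⟩
    have hx1 : v.valuation K (x : K) = 1 := val_eq_one_of l (by omega) hb hv (hxb v hv)
    have hxi : v.valuation K ((x⁻¹ : Kˣ) : K) = 1 := by
      rw [Units.val_inv_eq_inv_val, map_inv₀, hx1, inv_one]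
    have h1 : ((x⁻¹ : Kˣ) : K) - (b' : K)
        = ((x⁻¹ : Kˣ) : K) * (-(((b * b' - 1 : 𝓞 K)) : K) + -(((x : K) - b) * b')) := by
      have : (x : K) * (x : K)⁻¹ = 1 := mul_inv_cancel₀ x.ne_zero
      push_cast
      linear_combination (b' : K) * this
    rw [h1, map_mul, hxi, one_mul]
    refine (v.valuation K).map_add_le ?_ ?_
    · rw [Valuation.map_neg]
      exact val_le_of_dvd l hbb v
    · rw [Valuation.map_neg, map_mul]
      exact (mul_le_mul' (hxb v hv) (v.valuation_le_one b')).trans (by rw [mul_one])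

variable {K} in
theorem pow_mem_of_P {S : Set (HeightOneSpectrum (𝓞 K))} {e : ℕ} {he : 2 ≤ e}
    (u : P K l S e he) : u ^ l ^ e = 1 := by
  obtain ⟨u, b, hb, hbu, -⟩ := u
  rw [Subtype.ext_iff]
  push_cast
  ext
  push_cast
  rw [← hbu, ← map_pow, ← map_one (Ideal.Quotient.mk (Ideal.span {(l : 𝓞 K) ^ e})), mk_eq_iff]
  have h1 : (l : 𝓞 K) ∣ b - 1 := (dvd_pow_self _ two_ne_zero).trans hb
  have h2 := dvd_sub_pow_of_dvd_sub h1 e
  rw [one_pow] at h2
  exact (pow_dvd_pow _ (Nat.le_succ e)).trans h2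

variable {K} in
/-- **Bridge**: if the `S`-units are not full at level `e - 1` then modulo `l^e` they are generated
by fewer than `[K : ℚ]` elements. -/
theorem gen_of_not_full [hl : Fact l.Prime] (S : Set (HeightOneSpectrum (𝓞 K))) (e : ℕ)
    (he : 3 ≤ e) (h : ¬ Full K l S (e - 1)) :
    ∃ r < Module.finrank ℚ K, ∃ η : Fin r → 𝓞 K, (∀ k, (l : 𝓞 K) ^ 2 ∣ η k - 1) ∧
      ∀ y : 𝓞 K, (∃ x ∈ S.unit K, (x : K) = (y : K)) → (l : 𝓞 K) ^ 2 ∣ y - 1 →
        ∃ a : Fin r → ℕ, (l : 𝓞 K) ^ e ∣ y - ∏ k, η k ^ a k := by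
  classical
  have he2 : 2 ≤ e := by omega
  have hl0 : (l : 𝓞 K) ≠ 0 := by exact_mod_cast hl.out.ne_zero
  have hfin : ∀ k : ℕ, Finite (A K l k) := fun k =>
    Ideal.finiteQuotientOfFreeOfNeBot _ (by
      rw [Ne, Ideal.span_singleton_eq_bot]; exact pow_ne_zero _ hl0)
  have hfine := hfin e
  have hfinu : Finite (A K l e)ˣ := inferInstance
  -- counting the `l`-torsion
  have hcard : Nat.card {x : P K l S e he2 // x ^ l = 1} < l ^ Module.finrank ℚ K := by
    unfold Full at h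
    push Not at h
    obtain ⟨a, ha⟩ := h
    have he1 : e - 1 + 1 = e := by omega
    -- the map to the last layer
    have hlast : ∀ x : {x : P K l S e he2 // x ^ l = 1}, ∃ c : 𝓞 K,
        Ideal.Quotient.mk (Ideal.span {(l : 𝓞 K) ^ e}) (1 + (l : 𝓞 K) ^ (e - 1) * c)
          = ((x : P K l S e he2) : (A K l e)ˣ) := by
      rintro ⟨⟨u, b, hb, hbu, hx⟩, hu⟩
      have hu' : u ^ l = 1 := congrArg Subtype.val hu
      have hbl : (l : 𝓞 K) ^ e ∣ b ^ l - 1 := by
        rw [← mk_eq_iff, map_pow, hbu, map_one, ← Units.val_pow_eq_pow_val, hu', Units.val_one]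
      obtain ⟨c, hc⟩ := key l b e hb hbl (e - 1) (by omega) (by omega)
      refine ⟨c, ?_⟩
      rw [← hc, ← hbu]
      congr 1
      ring
    choose c hc using hlast
    have hinj : Function.Injective fun x : {x : P K l S e he2 // x ^ l = 1} =>
        Ideal.Quotient.mk (Ideal.span {(l : 𝓞 K) ^ 1}) (c x) := by
      intro x y hxy
      have hxy' : (l : 𝓞 K) ^ 1 ∣ c x - c y := (mk_eq_iff l _ _).1 hxy
      have h1 : Ideal.Quotient.mk (Ideal.span {(l : 𝓞 K) ^ e}) (1 + (l : 𝓞 K) ^ (e - 1) * c x)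
          = Ideal.Quotient.mk (Ideal.span {(l : 𝓞 K) ^ e}) (1 + (l : 𝓞 K) ^ (e - 1) * c y) := by
        rw [mk_eq_iff]
        have h2 : 1 + (l : 𝓞 K) ^ (e - 1) * c x - (1 + (l : 𝓞 K) ^ (e - 1) * c y)
            = (l : 𝓞 K) ^ (e - 1) * (c x - c y) := by ring
        have h3 : (l : 𝓞 K) ^ e = (l : 𝓞 K) ^ (e - 1) * (l : 𝓞 K) ^ 1 := by
          rw [← pow_add, he1]
        rw [h2, h3]
        exact mul_dvd_mul_left _ hxy'
      rw [hc, hc] at h1
      exact Subtype.ext (Subtype.ext (Units.ext h1))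
    have hnot : ¬ Function.Surjective fun x : {x : P K l S e he2 // x ^ l = 1} =>
        Ideal.Quotient.mk (Ideal.span {(l : 𝓞 K) ^ 1}) (c x) := by
      intro hsurj
      obtain ⟨x, hx⟩ := hsurj (Ideal.Quotient.mk _ a)
      have hxa : (l : 𝓞 K) ^ 1 ∣ c x - a := (mk_eq_iff l _ _).1 hx
      obtain ⟨b, hb, hbu, z, hz, hzb⟩ := x.1.2
      obtain ⟨v, hv, hlt⟩ := ha z hz
      rw [he1] at hlt
      refine absurd hlt (not_lt.2 ?_)
      have h1 : (l : 𝓞 K) ^ e ∣ b - (1 + (l : 𝓞 K) ^ (e - 1) * a) := by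
        have h2 : (l : 𝓞 K) ^ e ∣ b - (1 + (l : 𝓞 K) ^ (e - 1) * c x) := by
          rw [← mk_eq_iff, hbu, hc]
        have h3 : (l : 𝓞 K) ^ e ∣ (l : 𝓞 K) ^ (e - 1) * (c x - a) := by
          have h3 : (l : 𝓞 K) ^ e = (l : 𝓞 K) ^ (e - 1) * (l : 𝓞 K) ^ 1 := by
            rw [← pow_add, he1]
          rw [h3]
          exact mul_dvd_mul_left _ hxa
        have h4 : b - (1 + (l : 𝓞 K) ^ (e - 1) * a) = (b - (1 + (l : 𝓞 K) ^ (e - 1) * c x))
            + (l : 𝓞 K) ^ (e - 1) * (c x - a) := by ring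
        rw [h4]
        exact dvd_add h2 h3
      have h5 : (z : K) - 1 - (l : K) ^ (e - 1) * (a : K)
          = ((z : K) - (b : K)) + ((b - (1 + (l : 𝓞 K) ^ (e - 1) * a) : 𝓞 K) : K) := by
        push_cast; ring
      rw [h5]
      exact (v.valuation K).map_add_le (hzb v hv) (val_le_of_dvd l h1 v)
    have hfin1 := hfin 1
    have hcardO : Nat.card (A K l 1) = l ^ Module.finrank ℚ K := by
      have h1 : Nat.card (A K l 1) = Ideal.absNorm (Ideal.span {(l : 𝓞 K) ^ 1}) := by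
        rw [Ideal.absNorm_apply]; rfl
      rw [h1, pow_one, Ideal.absNorm_span_natCast, NumberField.RingOfIntegers.rank]
    rw [← hcardO]
    exact lt_of_le_of_ne (Nat.card_le_card_of_injective _ hinj)
      (fun h => hnot ((Nat.bijective_iff_injective_and_card _).2 ⟨hinj, h⟩).2)
  obtain ⟨r, hr, p, hp⟩ := exists_gen l ⟨e, fun x => pow_mem_of_P l x⟩ _ hcard
  choose η hη1 hη2 _ using fun i => (p i).2
  refine ⟨r, hr, η, hη1, fun y hy hy1 => ?_⟩
  obtain ⟨x, hx, hxy⟩ := hy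
  -- `y` is a unit modulo `l^e`
  have hunit : IsUnit (Ideal.Quotient.mk (Ideal.span {(l : 𝓞 K) ^ e}) y) := by
    have h1 : (l : 𝓞 K) ^ e ∣ (y ^ l ^ e - 1) := by
      have h1 : (l : 𝓞 K) ∣ y - 1 := (dvd_pow_self _ two_ne_zero).trans hy1
      have h2 := dvd_sub_pow_of_dvd_sub h1 e
      rw [one_pow] at h2
      exact (pow_dvd_pow _ (Nat.le_succ e)).trans h2
    rw [← mk_eq_iff, map_pow, map_one] at h1
    exact IsUnit.of_pow_eq_one h1 (pow_ne_zero _ hl.out.ne_zero)
  obtain ⟨u, hu⟩ := hunit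
  have huP : u ∈ P K l S e he2 := by
    refine ⟨y, hy1, hu.symm, x, hx, fun v _ => ?_⟩
    rw [hxy, sub_self, map_zero]
    exact zero_le
  obtain ⟨a, ha⟩ := hp ⟨u, huP⟩
  refine ⟨a, ?_⟩
  rw [← mk_eq_iff, ← hu, map_prod]
  have h1 := congrArg (fun z : P K l S e he2 => ((z : (A K l e)ˣ) : A K l e)) ha
  simp only [Subgroup.val_finsetProd, Units.coe_prod, SubgroupClass.coe_pow, Units.val_pow_eq_pow_val] at h1
  rw [h1]
  refine Finset.prod_congr rfl fun i _ => ?_
  rw [map_pow, hη2]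

variable {K} in
/-- consumed form of `helper410`'s finite level theorem W4 -/
theorem full_of_W4 [hl : Fact l.Prime] (y : ℕ → 𝓞 K) (n e0 : ℕ)
    (hW : ∀ e ≥ e0, ∀ r < Module.finrank ℚ K, ∀ η : Fin r → 𝓞 K,
      (∀ k, (l : 𝓞 K) ∣ η k - 1) → ∀ a : Fin n → Fin r → ℕ,
        ¬ ∀ j : Fin n, (l : 𝓞 K) ^ e ∣ y j - ∏ k, η k ^ a j k)
    (hy : ∀ j < n, (l : 𝓞 K) ^ 2 ∣ y j - 1)
    (S : Set (HeightOneSpectrum (𝓞 K))) (hS : ∀ j < n, ∃ x ∈ S.unit K, (x : K) = (y j : K)) :
    ∀ j, 2 ≤ j → e0 ≤ j + 1 → Full K l S j := by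
  intro j hj hj'
  by_contra hnot
  obtain ⟨r, hr, η, hη, hgen⟩ := gen_of_not_full l S (j + 1) (by omega) hnot
  choose a ha using fun i : Fin n => hgen (y i) (hS i i.2) (hy i i.2)
  exact hW (j + 1) hj' r hr η (fun k => (dvd_pow_self _ two_ne_zero).trans (hη k)) a ha

end Main

end Crest.Agent.R018.Bridgex275
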