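import Crest.Agent.R018.Places_484

/-!
# Decomposition groups, Hensel's lemma, approximation, F. K. Schmidt, Frobenius (row 18, helper484)
-/

set_option autoImplicit false

open NumberField Pointwise

namespace Crest.Agent.R018.Placesx484

namespace Place

section Closed

variable {M E : Type*} [Field M] [Field E] [Algebra M E]

theorem isOpen_smul_mem [IsGalois M E] (P : Place E) (x : 𝓞 E) :
    IsClopen {g : E ≃ₐ[M] E | g • x ∈ P.ideal} := by
  letI : TopologicalSpace (𝓞 E) := ⊥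
  haveI : DiscreteTopology (𝓞 E) := ⟨rfl⟩
  haveI := continuousSMul_int (M := M) (E := E)
  have hc : Continuous (fun g : E ≃ₐ[M] E => g • x) := continuous_id.smul continuous_const
  exact (isClopen_discrete {y : 𝓞 E | y ∈ P.ideal}).preimage hc

theorem ext_of_ideal_le' [CharZero E] {P Q : Place E} (h : P.ideal ≤ Q.ideal) : P = Q :=
  Place.ext (P.isMaximal.eq_of_le Q.isPrime.ne_top h)

theorem smul_eq_iff [CharZero E] {G : Type*} [Group G] [MulSemiringAction G E] (P : Place E)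
    (g : G) : g • P = P ↔ ∀ x ∈ P.ideal, g • x ∈ P.ideal := by
  constructor
  · intro h x hx
    have := (smul_mem_smul_ideal g P x).2 hx
    rwa [h] at this
  · intro h
    apply ext_of_ideal_le'
    intro x hx
    rw [mem_smul_ideal] at hx
    have := h _ hx
    rwa [smul_inv_smul] at this

/-- decomposition groups are closed -/
theorem isClosed_stabilizer [IsGalois M E] [CharZero E] (P : Place E) :
    IsClosed (MulAction.stabilizer (E ≃ₐ[M] E) P : Set (E ≃ₐ[M] E)) := by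
  have : (MulAction.stabilizer (E ≃ₐ[M] E) P : Set (E ≃ₐ[M] E)) =
      ⋂ x ∈ P.ideal, {g : E ≃ₐ[M] E | g • x ∈ P.ideal} := by
    ext g
    simp only [SetLike.mem_coe, MulAction.mem_stabilizer_iff, Set.mem_iInter, Set.mem_ofPred_eq]
    exact smul_eq_iff P g
  rw [this]
  exact isClosed_biInter fun x _ => (isOpen_smul_mem P x).isClosed

theorem isClosed_inertia [IsGalois M E] (P : Place E) :
    IsClosed (P.ideal.inertia (E ≃ₐ[M] E) : Set (E ≃ₐ[M] E)) := by
  letI : TopologicalSpace (𝓞 E) := ⊥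
  haveI : DiscreteTopology (𝓞 E) := ⟨rfl⟩
  haveI := continuousSMul_int (M := M) (E := E)
  have : (P.ideal.inertia (E ≃ₐ[M] E) : Set (E ≃ₐ[M] E)) =
      ⋂ x : 𝓞 E, (fun g : E ≃ₐ[M] E => g • x) ⁻¹' {y | y - x ∈ P.ideal} := by
    ext g
    simp only [SetLike.mem_coe, Set.mem_iInter, Set.mem_preimage, Set.mem_ofPred_eq]
    rfl
  rw [this]
  apply isClosed_iInter
  intro x
  have hc : Continuous (fun g : E ≃ₐ[M] E => g • x) := continuous_id.smul continuous_const
  exact (isClosed_discrete {y : 𝓞 E | y - x ∈ P.ideal}).preimage hc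

end Closed

section Inertia

variable {E : Type*} [Field E] [CharZero E]
variable {G : Type*} [Group G] [MulSemiringAction G E]

theorem smul_eq_of_mem_inertia (P : Place E) {g : G} (hg : g ∈ P.ideal.inertia G) :
    g • P = P := by
  rw [smul_eq_iff]
  intro x hx
  have h1 : g • x - x ∈ P.ideal := hg x
  have := Ideal.add_mem _ h1 hx
  rwa [sub_add_cancel] at this

theorem inertia_le_stabilizer (P : Place E) :
    P.ideal.inertia G ≤ MulAction.stabilizer G P :=
  fun _ hg => smul_eq_of_mem_inertia P hg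

variable [Algebra.IsAlgebraic ℚ E]

/-- inertia acts trivially on the residue field (valuation ring form) -/
theorem v_smul_sub_lt_one (P : Place E) {g : G} (hg : g ∈ P.ideal.inertia G) (a : E)
    (ha : P.v a ≤ 1) : P.v (g • a - a) < 1 := by
  rw [v_le_one_iff] at ha
  obtain ⟨u, s, hs, hus⟩ := ha
  have hgP : g • P = P := smul_eq_of_mem_inertia P hg
  have hs1 : P.v (algebraMap (𝓞 E) E s) = 1 := by
    apply le_antisymm (P.v_int_le_one s)
    rw [← not_lt, v_int_lt_one_iff]; exact hs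
  have hgs1 : P.v (g • algebraMap (𝓞 E) E s) = 1 := by rw [v_smul_eq g P hgP, hs1]
  have hs0 : algebraMap (𝓞 E) E s ≠ 0 := by
    intro h; rw [h, map_zero] at hs1; exact zero_ne_one hs1
  have hgs0 : g • algebraMap (𝓞 E) E s ≠ 0 := by
    intro h; rw [h, map_zero] at hgs1; exact zero_ne_one hgs1
  have h1 : (g • a - a) * (algebraMap (𝓞 E) E s * (g • algebraMap (𝓞 E) E s)) =
      algebraMap (𝓞 E) E ((g • u - u) * s - u * (g • s - s)) := by
    rw [map_sub, map_mul, map_mul, map_sub, map_sub, smul_coe, smul_coe, ← hus, smul_mul']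
    ring
  have h2 : P.v ((g • a - a) * (algebraMap (𝓞 E) E s * (g • algebraMap (𝓞 E) E s))) < 1 := by
    rw [h1, v_int_lt_one_iff]
    exact Ideal.sub_mem _ (Ideal.mul_mem_right _ _ (hg u)) (Ideal.mul_mem_left _ _ (hg s))
  rwa [map_mul, map_mul, hs1, hgs1, mul_one, mul_one] at h2

end Inertia

section Hensel

variable {E : Type*} [Field E] [CharZero E] [Algebra.IsAlgebraic ℚ E]

omit [CharZero E] [Algebra.IsAlgebraic ℚ E] in
theorem pow_eq_one_aux {Γ : Type*} [LinearOrderedCommGroupWithZero Γ] {a : Γ} {n : ℕ}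
    (hn : n ≠ 0) (h : a ^ n = 1) : a = 1 := by
  rcases lt_trichotomy a 1 with h1 | h1 | h1
  · exact absurd h (pow_lt_one₀ zero_le' h1 hn).ne
  · exact h1
  · exact absurd h (one_lt_pow₀ h1 hn).ne'

theorem v_root_of_unity (P : Place E) {η : E} {n : ℕ} (hn : n ≠ 0) (h : η ^ n = 1) :
    P.v η = 1 := by
  have h1 : P.v η ^ n = 1 := by rw [← map_pow, h, map_one]
  exact pow_eq_one_aux hn h1

theorem v_zeta_pow_sub_one_le (P : Place E) {ζ : E} {n : ℕ} (hn : n ≠ 0) (hζ : ζ ^ n = 1)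
    (k : ℕ) : P.v (ζ ^ k - 1) ≤ P.v (ζ - 1) := by
  have h1 : ζ ^ k - 1 = (∑ i ∈ Finset.range k, ζ ^ i) * (ζ - 1) := (geom_sum_mul ζ k).symm
  rw [h1, map_mul]
  have h2 : P.v (∑ i ∈ Finset.range k, ζ ^ i) ≤ 1 := by
    apply Valuation.map_sum_le
    intro i _
    rw [map_pow, v_root_of_unity P hn hζ, one_pow]
  calc _ ≤ 1 * P.v (ζ - 1) := by gcongr
    _ = _ := one_mul _

theorem v_zeta_pow_sub_one (P : Place E) {ζ : E} {l : ℕ} (hl : l.Prime)
    (hζ : IsPrimitiveRoot ζ l) (k : ℕ) (hk : ¬ l ∣ k) : P.v (ζ ^ k - 1) = P.v (ζ - 1) := by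
  apply le_antisymm (v_zeta_pow_sub_one_le P hl.ne_zero hζ.pow_eq_one k)
  have hc : Nat.Coprime k l := ((Nat.Prime.coprime_iff_not_dvd hl).2 hk).symm
  have hprim : IsPrimitiveRoot (ζ ^ k) l := hζ.pow_of_coprime k hc
  haveI : NeZero l := ⟨hl.ne_zero⟩
  obtain ⟨i, _, hi⟩ := hprim.eq_pow_of_pow_eq_one (hζ.pow_eq_one)
  have := v_zeta_pow_sub_one_le P hl.ne_zero hprim.pow_eq_one i
  rwa [hi] at this

/-- Hensel's lemma for `l`-th roots, canonical root. -/
theorem exists_canonical_root (P : Place E) {ζ : E} {l : ℕ} (hl : l.Prime)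
    (hζ : IsPrimitiveRoot ζ l) {y z : E} (hz : z ^ l = y)
    (hy : P.v (y - 1) < P.v (ζ - 1) ^ l) :
    ∃ z' : E, z' ^ l = y ∧ P.v (z' - 1) < P.v (ζ - 1) := by
  have h1 := hζ.pow_sub_pow_eq_prod_sub_mul (x := 1) (y := z) hl.pos
  rw [one_pow, hz] at h1
  by_contra hcon
  push Not at hcon
  have h2 : ∀ η ∈ Polynomial.nthRootsFinset l (1 : E), P.v (ζ - 1) ≤ P.v (1 - η * z) := by
    intro η hη
    have hη1 : η ^ l = 1 := (Polynomial.mem_nthRootsFinset hl.pos (1 : E)).1 hη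
    have := hcon (η * z) (by rw [mul_pow, hη1, one_mul, hz])
    rwa [Valuation.map_sub_swap P.v (η * z)] at this
  have h3 : P.v (ζ - 1) ^ l ≤ P.v (1 - y) := by
    rw [h1, map_prod]
    calc P.v (ζ - 1) ^ l = ∏ _η ∈ Polynomial.nthRootsFinset l (1 : E), P.v (ζ - 1) := by
          rw [Finset.prod_const, hζ.card_nthRootsFinset]
      _ ≤ _ := Finset.prod_le_prod' h2
  rw [Valuation.map_sub_swap P.v 1 y] at h3
  exact absurd hy (not_lt.2 h3)

theorem canonical_root_unique (P : Place E) {ζ : E} {l : ℕ} (hl : l.Prime)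
    (hζ : IsPrimitiveRoot ζ l) {z z' : E} (hzz : z ^ l = z' ^ l)
    (h : P.v (z - 1) < P.v (ζ - 1)) (h' : P.v (z' - 1) < P.v (ζ - 1)) : z = z' := by
  have hz1 : P.v z' = 1 := by
    have h2 : P.v (ζ - 1) ≤ 1 := by
      have := P.v.map_sub ζ 1
      rw [v_root_of_unity P hl.ne_zero hζ.pow_eq_one, map_one, max_self] at this
      exact this
    have h1 := Valuation.map_add_eq_of_lt_right P.v (x := z' - 1) (y := 1)
      (by rw [map_one]; exact lt_of_lt_of_le h' h2)
    rw [sub_add_cancel, map_one] at h1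
    exact h1
  have hz0 : z' ≠ 0 := by
    rintro rfl; rw [map_zero] at hz1; exact zero_ne_one hz1
  have h3 : (z / z') ^ l = 1 := by
    rw [div_pow, hzz, div_self (pow_ne_zero _ hz0)]
  haveI : NeZero l := ⟨hl.ne_zero⟩
  obtain ⟨k, _, hk⟩ := hζ.eq_pow_of_pow_eq_one h3
  by_cases hkl : l ∣ k
  · obtain ⟨m, rfl⟩ := hkl
    rw [pow_mul, hζ.pow_eq_one, one_pow] at hk
    rw [← div_eq_one_iff_eq hz0]; exact hk.symm
  · exfalso
    have h4 := v_zeta_pow_sub_one P hl hζ k hkl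
    rw [hk] at h4
    have h5 : P.v (z / z' - 1) = P.v (z - z') := by
      have : z / z' - 1 = (z - z') / z' := by field_simp
      rw [this, map_div₀, hz1, div_one]
    have h6 : P.v (z - z') < P.v (ζ - 1) := by
      have : z - z' = (z - 1) - (z' - 1) := by ring
      rw [this]
      exact lt_of_le_of_lt (P.v.map_sub _ _) (max_lt h h')
    rw [← h5, h4] at h6
    exact lt_irrefl _ h6

/-- Hensel's lemma for the fixed points of a subgroup of the decomposition group. -/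
theorem hensel {G : Type*} [Group G] [MulSemiringAction G E] (P : Place E) {ζ : E} {l : ℕ}
    (hl : l.Prime) (hζ : IsPrimitiveRoot ζ l) {y z : E} (hz : z ^ l = y)
    (hy : P.v (y - 1) < P.v (ζ - 1) ^ l) :
    ∃ z' : E, z' ^ l = y ∧ P.v (z' - 1) < P.v (ζ - 1) ∧
      ∀ g : G, g • P = P → g • y = y → g • z' = z' := by
  obtain ⟨z', h1, h2⟩ := exists_canonical_root P hl hζ hz hy
  refine ⟨z', h1, h2, fun g hg hgy => ?_⟩
  apply canonical_root_unique P hl hζ _ _ h2
  · rw [← smul_pow', h1, hgy]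
  · have : g • z' - 1 = g • (z' - 1) := by rw [smul_sub, smul_one]
    rw [this, v_smul_eq g P hg]
    exact h2

/-- `l` is the norm of `1 - ζ` -/
theorem v_zeta_sub_one_pow (P : Place E) {ζ : E} {l : ℕ} (hl : l.Prime)
    (hζ : IsPrimitiveRoot ζ l) : P.v (ζ - 1) ^ (l - 1) = P.v (l : E) := by
  haveI : Fact l.Prime := ⟨hl⟩
  have h1 : (Polynomial.cyclotomic l E).eval 1 = l := Polynomial.eval_one_cyclotomic_prime
  rw [Polynomial.cyclotomic_eq_prod_X_sub_primitiveRoots hζ, Polynomial.eval_prod] at h1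
  rw [← h1, map_prod]
  have h2 : ∀ μ ∈ primitiveRoots l E,
      P.v (Polynomial.eval 1 (Polynomial.X - Polynomial.C μ)) = P.v (ζ - 1) := by
    intro μ hμ
    rw [Polynomial.eval_sub, Polynomial.eval_X, Polynomial.eval_C, Valuation.map_sub_swap]
    have hμ' : IsPrimitiveRoot μ l := (mem_primitiveRoots hl.pos).1 hμ
    obtain ⟨k, _, hk⟩ := hζ.eq_pow_of_pow_eq_one hμ'.pow_eq_one
    rw [← hk]
    apply v_zeta_pow_sub_one P hl hζ
    rintro ⟨m, rfl⟩
    rw [pow_mul, hζ.pow_eq_one, one_pow] at hk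
    rw [← hk] at hμ'
    have := hμ'.dvd_of_pow_eq_one 1 (one_pow 1)
    exact hl.one_lt.ne' (Nat.dvd_one.1 this)
  rw [Finset.prod_congr rfl h2, Finset.prod_const, hζ.card_primitiveRoots,
    Nat.totient_prime hl]

theorem v_natCast_le_one (P : Place E) (n : ℕ) : P.v (n : E) ≤ 1 := by
  have := P.v_int_le_one (n : 𝓞 E)
  simpa using this

theorem v_natCast_eq_one_iff (P : Place E) (n : ℕ) : P.v (n : E) = 1 ↔ ¬ P.rchar ∣ n := by
  have h1 := P.v_int_lt_one_iff (n : 𝓞 E)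
  rw [natCast_mem_iff] at h1
  have h2 : algebraMap (𝓞 E) E (n : 𝓞 E) = (n : E) := map_natCast _ _
  rw [h2] at h1
  rw [← h1, not_lt]
  exact ⟨fun h => h.ge, fun h => le_antisymm (P.v_natCast_le_one n) h⟩

theorem v_zeta_sub_one_eq_one (P : Place E) {ζ : E} {l : ℕ} (hl : l.Prime)
    (hζ : IsPrimitiveRoot ζ l) (hP : P.rchar ≠ l) : P.v (ζ - 1) = 1 := by
  have h1 := v_zeta_sub_one_pow P hl hζ
  have h2 : P.v (l : E) = 1 := by
    rw [v_natCast_eq_one_iff]
    intro h
    exact hP ((Nat.prime_dvd_prime_iff_eq P.rchar_prime hl).1 h)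
  rw [h2] at h1
  have h3 : l - 1 ≠ 0 := by have := hl.two_le; omega
  exact pow_eq_one_aux h3 h1

theorem v_sq_le (P : Place E) {ζ : E} {l : ℕ} (hl : l.Prime)
    (hζ : IsPrimitiveRoot ζ l) : P.v ((l : E) ^ 2) ≤ P.v (ζ - 1) ^ l := by
  rw [map_pow, ← v_zeta_sub_one_pow P hl hζ, ← pow_mul]
  have h2 : P.v (ζ - 1) ≤ 1 := by
    have := P.v.map_sub ζ 1
    rw [v_root_of_unity P hl.ne_zero hζ.pow_eq_one, map_one, max_self] at this
    exact this
  apply pow_le_pow_right_of_le_one' h2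
  have := hl.two_le; omega

end Hensel

section Approx

variable {E : Type*} [Field E] [CharZero E] [Algebra.IsAlgebraic ℚ E]

/-- approximate idempotents for two distinct places -/
theorem exists_idem (P Q : Place E) (hPQ : P ≠ Q) (a b : E) (ha : a ≠ 0) (hb : b ≠ 0) :
    ∃ f : E, P.v f < P.v a ∧ Q.v (1 - f) < Q.v b := by
  have hcop : IsCoprime P.ideal Q.ideal := by
    have h1 := P.isMaximal
    have h2 := Q.isMaximal
    exact Ideal.isCoprime_of_isMaximal (fun h => hPQ (Place.ext h))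
  obtain ⟨e, he, f, hf, hef⟩ := Ideal.isCoprime_iff_exists.1 hcop
  set x := algebraMap (𝓞 E) E e with hx
  set y := algebraMap (𝓞 E) E f with hy
  have hxy : x + y = 1 := by rw [hx, hy, ← map_add, hef, map_one]
  have hPx : P.v x < 1 := (P.v_int_lt_one_iff e).2 he
  have hQy : Q.v y < 1 := (Q.v_int_lt_one_iff f).2 hf
  have hPy : P.v y = 1 := by
    have : y = 1 - x := by rw [← hxy]; ring
    rw [this]
    have h1 := Valuation.map_sub_eq_of_lt_left P.v (x := 1) (y := x) (by rwa [map_one])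
    rw [h1, map_one]
  have hQx : Q.v x = 1 := by
    have : x = 1 - y := by rw [← hxy]; ring
    rw [this]
    have h1 := Valuation.map_sub_eq_of_lt_left Q.v (x := 1) (y := y) (by rwa [map_one])
    rw [h1, map_one]
  obtain ⟨n, hn⟩ := P.exists_pow_lt x a hPx ha
  obtain ⟨m, hm⟩ := Q.exists_pow_lt y b hQy hb
  obtain ⟨N, hN, hnN, hmN⟩ : ∃ N : ℕ, 0 < N ∧ n ≤ N ∧ m ≤ N :=
    ⟨n + m + 1, by omega, by omega, by omega⟩
  have hPN : P.v (x ^ N + y ^ N) = 1 := by
    have h1 := Valuation.map_add_eq_of_lt_right P.v (x := x ^ N) (y := y ^ N) (by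
      rw [map_pow, map_pow, hPy, one_pow]; exact pow_lt_one₀ zero_le' hPx hN.ne')
    rw [h1, map_pow, hPy, one_pow]
  have hQN : Q.v (x ^ N + y ^ N) = 1 := by
    have h1 := Valuation.map_add_eq_of_lt_left Q.v (x := x ^ N) (y := y ^ N) (by
      rw [map_pow, map_pow, hQx, one_pow]; exact pow_lt_one₀ zero_le' hQy hN.ne')
    rw [h1, map_pow, hQx, one_pow]
  have h0 : x ^ N + y ^ N ≠ 0 := by
    intro h; rw [h, map_zero] at hPN; exact zero_ne_one hPN
  refine ⟨x ^ N / (x ^ N + y ^ N), ?_, ?_⟩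
  · rw [map_div₀, hPN, div_one]
    refine lt_of_le_of_lt ?_ hn
    rw [map_pow, map_pow]
    exact pow_le_pow_right_of_le_one' hPx.le hnN
  · have : 1 - x ^ N / (x ^ N + y ^ N) = y ^ N / (x ^ N + y ^ N) := by
      field_simp; ring
    rw [this, map_div₀, hQN, div_one]
    refine lt_of_le_of_lt ?_ hm
    rw [map_pow, map_pow]
    exact pow_le_pow_right_of_le_one' hQy.le hmN

/-- weak approximation for two distinct places, multiplicative form -/
theorem exists_approx (P Q : Place E) (hPQ : P ≠ Q) (x : E) (hx : x ≠ 0) (a b : E)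
    (ha : a ≠ 0) (hb : b ≠ 0) (ha1 : P.v a ≤ 1) :
    ∃ y : E, y ≠ 0 ∧ P.v (y - 1) < P.v a ∧ Q.v (y / x - 1) < Q.v b := by
  by_cases hx1 : x = 1
  · subst hx1
    exact ⟨1, one_ne_zero, by simpa using zero_lt_iff.2 ((Valuation.ne_zero_iff P.v).2 ha),
      by simpa using zero_lt_iff.2 ((Valuation.ne_zero_iff Q.v).2 hb)⟩
  have h1 : x - 1 ≠ 0 := sub_ne_zero.2 hx1
  have h2 : 1 / x - 1 ≠ 0 := by
    rw [sub_ne_zero]
    intro h
    apply hx1
    rw [div_eq_one_iff_eq hx] at h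
    exact h.symm
  obtain ⟨f, hf1, hf2⟩ := exists_idem P Q hPQ (a / (x - 1)) (b / (1 / x - 1))
    (div_ne_zero ha h1) (div_ne_zero hb h2)
  rw [map_div₀] at hf1 hf2
  have hv1 : 0 < P.v (x - 1) := zero_lt_iff.2 ((Valuation.ne_zero_iff P.v).2 h1)
  have hv2 : 0 < Q.v (1 / x - 1) := zero_lt_iff.2 ((Valuation.ne_zero_iff Q.v).2 h2)
  rw [lt_div_iff₀ hv1] at hf1
  rw [lt_div_iff₀ hv2] at hf2
  have e1 : (1 - f) + x * f - 1 = f * (x - 1) := by ring
  have e2 : ((1 - f) + x * f) / x - 1 = (1 - f) * (1 / x - 1) := by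
    field_simp; ring
  refine ⟨(1 - f) + x * f, ?_, ?_, ?_⟩
  · intro h0
    rw [h0] at e1
    rw [← map_mul, ← e1] at hf1
    have : P.v ((0 : E) - 1) = 1 := by
      rw [zero_sub, Valuation.map_neg, map_one]
    rw [this] at hf1
    exact absurd ha1 (not_le.2 hf1)
  · rw [e1, map_mul]; exact hf1
  · rw [e2, map_mul]; exact hf2

end Approx

section FKSchmidt

variable {M E : Type*} [Field M] [Field E] [Algebra M E] [IsGalois M E]
variable [CharZero M] [CharZero E] [Algebra.IsAlgebraic ℚ M] [Algebra.IsAlgebraic ℚ E]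

/-- An element close to `1` at a place fixed by the whole Galois group is an `l`-th power. -/
theorem exists_root_of_fixed (P : Place E) (hP : ∀ g : E ≃ₐ[M] E, g • P = P) {l : ℕ}
    (hl : l.Prime) {ζ : E} (hζ : IsPrimitiveRoot ζ l) (hroot : ∀ y : E, ∃ z, z ^ l = y)
    (y : M) (hy : P.v (algebraMap M E y - 1) < P.v (ζ - 1) ^ l) : ∃ z : M, z ^ l = y := by
  obtain ⟨z, hz⟩ := hroot (algebraMap M E y)
  obtain ⟨z', h1, h2, h3⟩ := hensel (G := E ≃ₐ[M] E) P hl hζ hz hy
  have h4 : z' ∈ Set.range (algebraMap M E) := by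
    rw [InfiniteGalois.mem_range_algebraMap_iff_fixed]
    intro g
    exact h3 g (hP g) (g.commutes y)
  obtain ⟨w, rfl⟩ := h4
  refine ⟨w, (algebraMap M E).injective ?_⟩
  rw [map_pow, h1]

/-- **F. K. Schmidt**: if the whole Galois group of `E/M` fixes two different places of `E` then
every element of `M` is an `l`-th power. -/
theorem fkSchmidt (P Q : Place E) (hPQ : P ≠ Q) (hP : ∀ g : E ≃ₐ[M] E, g • P = P)
    (hQ : ∀ g : E ≃ₐ[M] E, g • Q = Q) {l : ℕ} (hl : l.Prime) {ζ : E}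
    (hζ : IsPrimitiveRoot ζ l) (hroot : ∀ y : E, ∃ z, z ^ l = y) (x : M) :
    ∃ z : M, z ^ l = x := by
  by_cases hx : x = 0
  · exact ⟨0, by rw [hx, zero_pow hl.ne_zero]⟩
  have hres : P.res M ≠ Q.res M := by
    intro h
    obtain ⟨g, hg⟩ := exists_smul_eq_of_res_eq P Q h
    exact hPQ (by rw [← hg, hP g])
  have hl0 : ((l : M) ^ 2) ≠ 0 := pow_ne_zero _ (Nat.cast_ne_zero.2 hl.ne_zero)
  obtain ⟨y, hy0, hy1, hy2⟩ := exists_approx (P.res M) (Q.res M) hres x hx ((l : M) ^ 2)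
    ((l : M) ^ 2) hl0 hl0 (by rw [map_pow]; exact pow_le_one₀ zero_le' (v_natCast_le_one _ _))
  have key : ∀ (R : Place E) (hR : ∀ g : E ≃ₐ[M] E, g • R = R) (u : M),
      (R.res M).v (u - 1) < (R.res M).v ((l : M) ^ 2) → ∃ z : M, z ^ l = u := by
    intro R hR u hu
    apply exists_root_of_fixed R hR hl hζ hroot
    have h1 : (R.res M).v ((u - 1) / (l : M) ^ 2) < 1 := by
      rw [map_div₀, div_lt_one₀ (zero_lt_iff.2 ((Valuation.ne_zero_iff _).2 hl0))]
      exact hu
    rw [v_res_lt_one_iff, map_div₀, map_div₀, map_pow, map_natCast, map_sub, map_one,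
      div_lt_one₀ (zero_lt_iff.2 ((Valuation.ne_zero_iff _).2
        (pow_ne_zero _ (Nat.cast_ne_zero.2 hl.ne_zero))))] at h1
    exact lt_of_lt_of_le h1 (v_sq_le R hl hζ)
  obtain ⟨z1, hz1⟩ := key P hP y hy1
  obtain ⟨z2, hz2⟩ := key Q hQ (y / x) hy2
  refine ⟨z1 / z2, ?_⟩
  rw [div_pow, hz1, hz2]
  field_simp

end FKSchmidt

end Place

end Crest.Agent.R018.Placesx484
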