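import Mathlib
import Crest.Agent.R018.Places2_484

set_option autoImplicit false

/-!
# Row 18, H11: frozen definitions of the local correspondence (helper31)

Everything is phrased for groups acting on fields (`MulSemiringAction`), so that it applies to
`α : (E₁ ≃ₐ[F₁] E₁) →* (E₂ ≃ₐ[F₂] E₂)` and to `α : G₁ →* (E ≃ₐ[ℚ] E)`, `G₁ : Subgroup (Om ≃ₐ[ℚ] Om)`.
-/

namespace Crest.Agent.R018.LocDefx31

open Crest.Agent.R018.Placesx484 NumberField
open scoped Pointwise

section defs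

variable {G : Type*} [Group G] {E₁ : Type*} [Field E₁] [MulSemiringAction G E₁]
variable {H : Type*} [Group H] {E₂ : Type*} [Field E₂] [MulSemiringAction H E₂]

/-- `h` fixes the place `Q` and acts as `x ↦ x ^ (q ^ a)` on those elements of the residue field
which satisfy `x ^ (q ^ m) = x` (`q` is the residue characteristic of `Q`; `a` is "the exponent
`f_s` modulo `m`"). -/
def Acts (Q : Place E₂) (q : ℕ) (h : H) (m a : ℕ) : Prop :=
  h • Q = Q ∧ ∀ x : 𝓞 E₂, x ^ (q ^ m) - x ∈ Q.ideal → h • x - x ^ (q ^ a) ∈ Q.ideal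

/-- `h` acts as `x ↦ x ^ (q ^ k)` on the residue field (then it fixes `Q`, see `FPow.smul_eq`). -/
def FPow (Q : Place E₂) (q k : ℕ) (h : H) : Prop := ∀ x : 𝓞 E₂, h • x - x ^ (q ^ k) ∈ Q.ideal

/-- **`P ∈ S1(l)`**: `P ∤ l` and `α(I_P)` has an element whose order in some finite quotient is
divisible by `l` (i.e. `α` is nontrivial on the `l`-Sylow of `I_P`). -/
def S1 [TopologicalSpace H] (α : G →* H) (l : ℕ) (P : Place E₁) : Prop :=
  (l : 𝓞 E₁) ∉ P.ideal ∧ ∃ x ∈ P.ideal.inertia G, ∃ N : Subgroup H, N.Normal ∧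
    IsOpen (N : Set H) ∧ ∀ n : ℕ, (α x) ^ n ∈ N → l ∣ n

/-- **`P → Q`**: `α(D_P) ≤ D_Q`. -/
def Goes (α : G →* H) (P : Place E₁) (Q : Place E₂) : Prop :=
  ∀ d : G, d • P = P → α d • Q = Q

/-- `α` is compatible with the cyclotomic character at level `M` on `d` -/
def CycAt (α : G →* H) (E₁ : Type*) [Field E₁] [MulSemiringAction G E₁]
    (E₂ : Type*) [Field E₂] [MulSemiringAction H E₂] (M : ℕ) (d : G) : Prop :=
  ∀ c : ℕ, (∀ ζ : E₁, ζ ^ M = 1 → d • ζ = ζ ^ c) → ∀ ζ : E₂, ζ ^ M = 1 → α d • ζ = ζ ^ c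

/-- **The local correspondence at `l`** (L1) + (L2): every `P ∈ S1(l)` goes to a unique place `Q`,
`Q ∤ l`, and `α` is compatible with the `l`-adic cyclotomic characters on `D_P`. -/
def Loc [TopologicalSpace H] (E₁ : Type*) [Field E₁] [MulSemiringAction G E₁]
    (E₂ : Type*) [Field E₂] [MulSemiringAction H E₂] (α : G →* H) (l : ℕ) : Prop :=
  ∀ P : Place E₁, S1 α l P → ∃ Q : Place E₂, (l : 𝓞 E₂) ∉ Q.ideal ∧ Goes α P Q ∧
    (∀ Q' : Place E₂, Goes α P Q' → Q' = Q) ∧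
    ∀ (n : ℕ) (d : G), d • P = P → CycAt α E₁ E₂ (l ^ n) d

end defs

section acts

variable {H : Type*} [Group H] {E : Type*} [Field E] [CharZero E] [MulSemiringAction H E]

theorem natCast_pow_char {Q : Place E} {q : ℕ} [hq : Fact q.Prime] (hqQ : (q : 𝓞 E) ∈ Q.ideal) :
    CharP (𝓞 E ⧸ Q.ideal) q := by
  have := Q.isMaximal
  letI : Field (𝓞 E ⧸ Q.ideal) := Ideal.Quotient.field Q.ideal
  rw [CharP.charP_iff_prime_eq_zero hq.out]
  have h2 := Ideal.Quotient.eq_zero_iff_mem.2 hqQ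
  rw [map_natCast] at h2
  exact h2

theorem sub_mem_symm {Q : Place E} {x y : 𝓞 E} (h : x - y ∈ Q.ideal) : y - x ∈ Q.ideal := by
  rw [← neg_sub]; exact Q.ideal.neg_mem h

theorem pow_sub_pow_mem {Q : Place E} {x y : 𝓞 E} (h : x - y ∈ Q.ideal) (n : ℕ) :
    x ^ n - y ^ n ∈ Q.ideal := by
  rw [← Ideal.Quotient.eq] at h ⊢
  rw [map_pow, map_pow, h]

/-- iterating: `x ^ (q ^ m) = x` implies `x ^ (q ^ (m * n)) = x` -/
theorem iter_mem {Q : Place E} {q m : ℕ} {x : 𝓞 E} (h : x ^ (q ^ m) - x ∈ Q.ideal) (n : ℕ) :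
    x ^ (q ^ (m * n)) - x ∈ Q.ideal := by
  rw [← Ideal.Quotient.eq, map_pow] at h ⊢
  induction n with
  | zero => simp
  | succ n ih => rw [mul_add, mul_one, pow_add, pow_mul, ih, h]

theorem smul_sub_mem {Q : Place E} {h : H} (hQ : h • Q = Q) {x : 𝓞 E} (hx : x ∈ Q.ideal) :
    h • x ∈ Q.ideal := by
  have := (Place.smul_mem_smul_ideal h Q x).2 hx
  rwa [hQ] at this

theorem FPow.smul_eq {Q : Place E} {q k : ℕ} {h : H} (hh : FPow Q q k h) (hq : q ≠ 0) :
    h • Q = Q := by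
  rw [Place.smul_eq_iff]
  intro x hx
  have h1 := hh x
  have h2 : x ^ (q ^ k) ∈ Q.ideal := Ideal.pow_mem_of_mem _ hx _ (by positivity)
  have := Ideal.add_mem _ h1 h2
  rwa [sub_add_cancel] at this

theorem FPow.acts {Q : Place E} {q k : ℕ} {h : H} (hh : FPow Q q k h) (hq : q ≠ 0) (m : ℕ) :
    Acts Q q h m k := ⟨hh.smul_eq hq, fun x _ => hh x⟩

theorem FPow.mul {Q : Place E} {q k k' : ℕ} {h h' : H} (hh : FPow Q q k h) (hh' : FPow Q q k' h')
    (hq : q ≠ 0) : FPow Q q (k + k') (h * h') := by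
  intro x
  have h1 := smul_sub_mem (hh.smul_eq hq) (hh' x)
  rw [smul_sub, smul_pow'] at h1
  have h2 := pow_sub_pow_mem (hh x) (q ^ k')
  rw [← pow_mul, ← pow_add] at h2
  have := Ideal.add_mem _ h1 h2
  rwa [sub_add_sub_cancel, ← mul_smul] at this

theorem FPow.pow {Q : Place E} {q k : ℕ} {h : H} (hh : FPow Q q k h) (hq : q ≠ 0) (n : ℕ) :
    FPow Q q (k * n) (h ^ n) := by
  induction n with
  | zero => intro x; simp
  | succ n ih => rw [pow_succ, mul_add, mul_one]; exact ih.mul hh hq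

theorem FPow.of_inertia {Q : Place E} {q : ℕ} {h : H} (hh : h ∈ Q.ideal.inertia H) :
    FPow Q q 0 h := by
  intro x
  rw [pow_zero, pow_one]
  exact hh x

theorem Acts.mono {Q : Place E} {q m n a : ℕ} {h : H} (hh : Acts Q q h (m * n) a) :
    Acts Q q h m a :=
  ⟨hh.1, fun x hx => hh.2 x (iter_mem hx n)⟩

theorem Acts.mono_dvd {Q : Place E} {q m n a : ℕ} {h : H} (hmn : m ∣ n) (hh : Acts Q q h n a) :
    Acts Q q h m a := by
  obtain ⟨k, rfl⟩ := hmn
  exact hh.mono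

theorem Acts.mul {Q : Place E} {q m a a' : ℕ} {h h' : H} (hh : Acts Q q h m a)
    (hh' : Acts Q q h' m a') : Acts Q q (h * h') m (a + a') := by
  refine ⟨by rw [mul_smul, hh'.1, hh.1], fun x hx => ?_⟩
  have h1 := smul_sub_mem hh.1 (hh'.2 x hx)
  rw [smul_sub, smul_pow'] at h1
  have h2 := pow_sub_pow_mem (hh.2 x hx) (q ^ a')
  rw [← pow_mul, ← pow_add] at h2
  have := Ideal.add_mem _ h1 h2
  rwa [sub_add_sub_cancel, ← mul_smul] at this

theorem Acts.pow {Q : Place E} {q m a : ℕ} {h : H} (hh : Acts Q q h m a) (n : ℕ) :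
    Acts Q q (h ^ n) m (a * n) := by
  induction n with
  | zero => exact ⟨by simp, fun x _ => by simp⟩
  | succ n ih => rw [pow_succ, mul_add, mul_one]; exact ih.mul hh

/-- the exponent may be changed modulo `m` -/
theorem Acts.congr {Q : Place E} {q m a a' : ℕ} {h : H} (hh : Acts Q q h m a)
    (haa : a ≡ a' [MOD m]) : Acts Q q h m a' := by
  refine ⟨hh.1, fun x hx => ?_⟩
  have key : ∀ b c : ℕ, b ≤ c → b ≡ c [MOD m] → x ^ (q ^ b) - x ^ (q ^ c) ∈ Q.ideal := by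
    intro b c hbc hmod
    obtain ⟨n, hn⟩ := (Nat.modEq_iff_dvd' hbc).1 hmod
    have hc : c = m * n + b := by omega
    rw [hc, pow_add, pow_mul]
    exact sub_mem_symm (pow_sub_pow_mem (iter_mem hx n) _)
  have h1 := hh.2 x hx
  rcases le_total a a' with hle | hle
  · have h2 := Ideal.add_mem _ h1 (key a a' hle haa)
    rwa [sub_add_sub_cancel] at h2
  · have h2 := Ideal.add_mem _ h1 (sub_mem_symm (key a' a hle haa.symm))
    rwa [sub_add_sub_cancel] at h2

end acts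

section conj

variable {G : Type*} [Group G] {E₁ : Type*} [Field E₁] [MulSemiringAction G E₁]
variable {H : Type*} [Group H] {E₂ : Type*} [Field E₂] [MulSemiringAction H E₂]

theorem Goes.smul {α : G →* H} {P : Place E₁} {Q : Place E₂} (h : Goes α P Q) (g : G) :
    Goes α (g • P) (α g • Q) := by
  intro d hd
  have h1 : (g⁻¹ * d * g) • P = P := by
    rw [mul_smul, mul_smul, hd, inv_smul_smul]
  have h2 := h _ h1
  rw [map_mul, map_mul, map_inv, mul_smul, mul_smul, inv_smul_eq_iff] at h2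
  exact h2

theorem mem_inertia_smul {P : Place E₁} {x : G} (g : G) (hx : x ∈ P.ideal.inertia G) :
    g * x * g⁻¹ ∈ (g • P).ideal.inertia G := by
  intro y
  change (g * x * g⁻¹) • y - y ∈ (g • P).ideal
  rw [Place.mem_smul_ideal, smul_sub, mul_smul, mul_smul, inv_smul_smul]
  exact hx (g⁻¹ • y)

theorem S1.smul [TopologicalSpace H] {α : G →* H} {l : ℕ} {P : Place E₁} (h : S1 α l P) (g : G) :
    S1 α l (g • P) := by
  obtain ⟨hl, x, hx, N, hN, hNo, hn⟩ := h
  refine ⟨?_, g * x * g⁻¹, mem_inertia_smul g hx, N, hN, hNo, fun n hn' => hn n ?_⟩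
  · rw [Place.mem_smul_ideal]
    have : g⁻¹ • (l : 𝓞 E₁) = (l : 𝓞 E₁) := map_natCast (MulSemiringAction.toRingHom G (𝓞 E₁) g⁻¹) l
    rwa [this]
  · rw [map_mul, map_mul, map_inv, conj_pow] at hn'
    have h1 := hN.conj_mem _ hn' (α g)⁻¹
    rw [inv_inv] at h1
    have h2 : (α g)⁻¹ * (α g * α x ^ n * (α g)⁻¹) * α g = α x ^ n := by group
    rwa [h2] at h1

theorem FPow.smul {Q : Place E₁} {q k : ℕ} {h : G} (hh : FPow Q q k h) (g : G) :
    FPow (g • Q) q k (g * h * g⁻¹) := by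
  intro x
  rw [Place.mem_smul_ideal, smul_sub, mul_smul, mul_smul, inv_smul_smul, smul_pow']
  exact hh (g⁻¹ • x)

theorem Acts.smul {Q : Place E₁} {q m a : ℕ} {h : G} (hh : Acts Q q h m a) (g : G) :
    Acts (g • Q) q (g * h * g⁻¹) m a := by
  refine ⟨by rw [mul_smul, mul_smul, inv_smul_smul, hh.1], fun x hx => ?_⟩
  rw [Place.mem_smul_ideal, smul_sub, smul_pow'] at hx
  rw [Place.mem_smul_ideal, smul_sub, mul_smul, mul_smul, inv_smul_smul, smul_pow']
  exact hh.2 _ hx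

end conj

end Crest.Agent.R018.LocDefx31
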