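import Mathlib

/-!
# The `l`-adic logarithm on `ℤ_[l]ˣ` (row 18, helper814)

`exists_log`: for odd `l` there is a continuous homomorphism `L : ℤ_[l]ˣ →* Multiplicative ℤ_[l]`
whose kernel consists of the elements `u` with `u ^ (l - 1) = 1`.
-/

set_option autoImplicit false

open Filter Topology Finset

namespace Crest.Agent.R018.PLogx814

variable {l : ℕ} [hl : Fact l.Prime]

/-- principal units -/
def PU (u : ℤ_[l]) : Prop := (l : ℤ_[l]) ∣ u - 1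

theorem norm_le_of_dvd {a b : ℤ_[l]} (h : a ∣ b) : ‖b‖ ≤ ‖a‖ := by
  obtain ⟨c, rfl⟩ := h
  rw [norm_mul]
  exact mul_le_of_le_one_right (norm_nonneg _) (PadicInt.norm_le_one c)

theorem PU.norm_le {u : ℤ_[l]} (h : PU u) : ‖u - 1‖ ≤ (l : ℝ)⁻¹ := by
  have := norm_le_of_dvd h
  rwa [PadicInt.norm_p] at this

theorem pu_iff {u : ℤ_[l]} : PU u ↔ PadicInt.toZMod u = 1 := by
  rw [PU, ← sub_eq_zero, ← map_one (PadicInt.toZMod (p := l)), ← map_sub, ← RingHom.mem_ker,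
    PadicInt.ker_toZMod, PadicInt.maximalIdeal_eq_span_p, Ideal.mem_span_singleton]

theorem PU.pow {u : ℤ_[l]} (h : PU u) (n : ℕ) : PU (u ^ n) := by
  rw [pu_iff] at *
  rw [map_pow, h, one_pow]

theorem PU.mul {u v : ℤ_[l]} (h : PU u) (h' : PU v) : PU (u * v) := by
  rw [pu_iff] at *
  rw [map_mul, h, h', one_mul]

/-- `Σ_{i<l} y^i = l * unit` -/
theorem norm_geom (hodd : l ≠ 2) {y : ℤ_[l]} (h : PU y) :
    ‖∑ i ∈ range l, y ^ i‖ = (l : ℝ)⁻¹ := by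
  obtain ⟨b, hb⟩ := h
  have hy : y = 1 + (l : ℤ_[l]) * b := by rw [← hb]; ring
  have h1 := odd_sq_dvd_geom_sum₂_sub (R := ℤ_[l]) (p := l) (1 : ℤ_[l]) b
    (hl.out.odd_of_ne_two hodd)
  simp only [one_pow, mul_one] at h1
  rw [← hy] at h1
  have h2 := norm_le_of_dvd h1
  rw [norm_pow, PadicInt.norm_p] at h2
  have hl1 : (1 : ℝ) < l := by exact_mod_cast hl.out.one_lt
  have hlt : ‖(∑ i ∈ range l, y ^ i) - (l : ℤ_[l])‖ < ‖(l : ℤ_[l])‖ := by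
    rw [PadicInt.norm_p]
    refine h2.trans_lt ?_
    rw [pow_two]
    exact mul_lt_of_lt_one_left (by positivity) (inv_lt_one_of_one_lt₀ hl1)
  have h3 : ∑ i ∈ range l, y ^ i = ((∑ i ∈ range l, y ^ i) - (l : ℤ_[l])) + (l : ℤ_[l]) := by
    ring
  rw [h3, PadicInt.norm_add_eq_max_of_ne hlt.ne, max_eq_right hlt.le, PadicInt.norm_p]

theorem norm_pow_l (hodd : l ≠ 2) {y : ℤ_[l]} (h : PU y) :
    ‖y ^ l - 1‖ = ‖y - 1‖ * (l : ℝ)⁻¹ := by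
  rw [← geom_sum_mul, norm_mul, norm_geom hodd h, mul_comm]

theorem norm_pow_pow (hodd : l ≠ 2) {y : ℤ_[l]} (h : PU y) (n : ℕ) :
    ‖y ^ l ^ n - 1‖ = ‖y - 1‖ * ((l : ℝ)⁻¹) ^ n := by
  induction n with
  | zero => simp
  | succ n ih =>
    rw [pow_succ, pow_mul, norm_pow_l hodd (h.pow _), ih, pow_succ]
    ring

theorem norm_diff {y : ℤ_[l]} :
    ‖(y ^ l - 1) - (l : ℤ_[l]) * (y - 1)‖ ≤ ‖y - 1‖ ^ 2 := by
  have h1 : (y - 1) ^ 2 ∣ (y ^ l - 1) - (l : ℤ_[l]) * (y - 1) := by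
    rw [← geom_sum_mul, ← sub_mul, pow_two]
    refine mul_dvd_mul ?_ dvd_rfl
    have : (∑ i ∈ range l, y ^ i) - (l : ℤ_[l]) = ∑ i ∈ range l, (y ^ i - 1) := by
      rw [Finset.sum_sub_distrib]; simp
    rw [this]
    exact Finset.dvd_sum fun i _ => sub_one_dvd_pow_sub_one y i
  have := norm_le_of_dvd h1
  rwa [norm_pow] at this

/-- the approximations of the logarithm -/
noncomputable def f (n : ℕ) (u : ℤ_[l]) : ℚ_[l] := ((u : ℚ_[l]) ^ l ^ n - 1) / (l : ℚ_[l]) ^ n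

theorem l_ne : (l : ℚ_[l]) ≠ 0 := by
  exact_mod_cast hl.out.ne_zero

theorem norm_f (hodd : l ≠ 2) {u : ℤ_[l]} (h : PU u) (n : ℕ) : ‖f n u‖ = ‖u - 1‖ := by
  have h1 := norm_pow_pow hodd h n
  have h2 : (u : ℚ_[l]) ^ l ^ n - 1 = ((u ^ l ^ n - 1 : ℤ_[l]) : ℚ_[l]) := by push_cast; rfl
  rw [f, norm_div, norm_pow, Padic.norm_p, h2, PadicInt.padic_norm_e_of_padicInt, h1]
  have : (0 : ℝ) < (l : ℝ)⁻¹ ^ n := by
    have : (0 : ℝ) < l := by exact_mod_cast hl.out.pos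
    positivity
  rw [mul_div_assoc, div_self this.ne', mul_one]

theorem norm_step (hodd : l ≠ 2) {u : ℤ_[l]} (h : PU u) (n : ℕ) :
    ‖f (n + 1) u - f n u‖ ≤ (l : ℝ)⁻¹ * ((l : ℝ)⁻¹) ^ n := by
  have hl0 : (0 : ℝ) < l := by exact_mod_cast hl.out.pos
  have h1 := norm_diff (l := l) (y := u ^ l ^ n)
  have h2 : f (n + 1) u - f n u =
      (((u ^ l ^ n) ^ l - 1 - (l : ℤ_[l]) * (u ^ l ^ n - 1) : ℤ_[l]) : ℚ_[l]) /
        (l : ℚ_[l]) ^ (n + 1) := by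
    rw [f, f, pow_succ l n, pow_mul]
    push_cast
    rw [pow_succ]
    have := l_ne (l := l)
    field_simp
  rw [h2, norm_div, norm_pow, Padic.norm_p, PadicInt.padic_norm_e_of_padicInt]
  rw [norm_pow_pow hodd h n] at h1
  rw [div_le_iff₀ (by positivity)]
  refine h1.trans ?_
  have h3 := h.norm_le
  have h4 : ‖u - 1‖ ^ 2 ≤ (l : ℝ)⁻¹ ^ 2 := pow_le_pow_left₀ (norm_nonneg _) h3 2
  calc (‖u - 1‖ * (l : ℝ)⁻¹ ^ n) ^ 2 = ‖u - 1‖ ^ 2 * ((l : ℝ)⁻¹ ^ n) ^ 2 := by ring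
    _ ≤ (l : ℝ)⁻¹ ^ 2 * ((l : ℝ)⁻¹ ^ n) ^ 2 := by gcongr
    _ = (l : ℝ)⁻¹ * (l : ℝ)⁻¹ ^ n * (l : ℝ)⁻¹ ^ (n + 1) := by ring

theorem exists_lim (hodd : l ≠ 2) {u : ℤ_[l]} (h : PU u) :
    ∃ a : ℚ_[l], Tendsto (fun n => f n u) atTop (𝓝 a) := by
  have hl1 : (l : ℝ)⁻¹ < 1 := inv_lt_one_of_one_lt₀ (by exact_mod_cast hl.out.one_lt)
  refine cauchySeq_tendsto_of_complete
    (cauchySeq_of_le_geometric (l : ℝ)⁻¹ (l : ℝ)⁻¹ hl1 fun n => ?_)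
  rw [dist_comm, dist_eq_norm]
  exact norm_step hodd h n

open Classical in
/-- the logarithm of a principal unit -/
noncomputable def L0 (hodd : l ≠ 2) (u : ℤ_[l]) : ℚ_[l] :=
  if h : PU u then (exists_lim hodd h).choose else 0

theorem L0_spec (hodd : l ≠ 2) {u : ℤ_[l]} (h : PU u) :
    Tendsto (fun n => f n u) atTop (𝓝 (L0 hodd u)) := by
  rw [L0, dif_pos h]
  exact (exists_lim hodd h).choose_spec

theorem norm_L0 (hodd : l ≠ 2) {u : ℤ_[l]} (h : PU u) : ‖L0 hodd u‖ = ‖u - 1‖ := by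
  have h1 := (L0_spec hodd h).norm
  refine tendsto_nhds_unique h1 ?_
  simp_rw [norm_f hodd h]
  exact tendsto_const_nhds

theorem L0_mul (hodd : l ≠ 2) {u v : ℤ_[l]} (h : PU u) (h' : PU v) :
    L0 hodd (u * v) = L0 hodd u + L0 hodd v := by
  have h1 := L0_spec hodd (h.mul h')
  have hl1 : (l : ℝ)⁻¹ < 1 := inv_lt_one_of_one_lt₀ (by exact_mod_cast hl.out.one_lt)
  have h0 : Tendsto (fun n : ℕ => (l : ℚ_[l]) ^ n) atTop (𝓝 0) := by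
    apply tendsto_pow_atTop_nhds_zero_of_norm_lt_one
    rw [Padic.norm_p]; exact hl1
  have h2 : Tendsto (fun n => (l : ℚ_[l]) ^ n * (f n u * f n v) + (f n u + f n v)) atTop
      (𝓝 (0 * (L0 hodd u * L0 hodd v) + (L0 hodd u + L0 hodd v))) :=
    (h0.mul ((L0_spec hodd h).mul (L0_spec hodd h'))).add
      ((L0_spec hodd h).add (L0_spec hodd h'))
  rw [zero_mul, zero_add] at h2
  refine tendsto_nhds_unique h1 (h2.congr fun n => ?_)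
  have := l_ne (l := l)
  rw [f, f, f]
  push_cast
  field_simp
  ring

theorem pu_pow (u : ℤ_[l]ˣ) : PU ((u : ℤ_[l]) ^ (l - 1)) := by
  rw [pu_iff, map_pow]
  apply ZMod.pow_card_sub_one_eq_one
  have : IsUnit (PadicInt.toZMod (u : ℤ_[l])) := u.isUnit.map _
  exact this.ne_zero

theorem norm_L0_le (hodd : l ≠ 2) (u : ℤ_[l]ˣ) : ‖L0 hodd ((u : ℤ_[l]) ^ (l - 1))‖ ≤ 1 := by
  rw [norm_L0 hodd (pu_pow u)]
  exact PadicInt.norm_le_one _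

/-- the logarithm of `u ^ (l - 1)`, as a function -/
noncomputable def Lf (hodd : l ≠ 2) (u : ℤ_[l]ˣ) : ℤ_[l] :=
  ⟨L0 hodd ((u : ℤ_[l]) ^ (l - 1)), norm_L0_le hodd u⟩

theorem Lf_mul (hodd : l ≠ 2) (u v : ℤ_[l]ˣ) : Lf hodd (u * v) = Lf hodd u + Lf hodd v := by
  apply Subtype.ext
  change L0 hodd (((u * v : ℤ_[l]ˣ) : ℤ_[l]) ^ (l - 1)) = _
  rw [Units.val_mul, mul_pow, L0_mul hodd (pu_pow u) (pu_pow v)]
  rfl

/-- the logarithm of `u ^ (l - 1)` -/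
noncomputable def Lg (hodd : l ≠ 2) : ℤ_[l]ˣ →* Multiplicative ℤ_[l] :=
  MonoidHom.mk' (fun u => Multiplicative.ofAdd (Lf hodd u))
    (fun u v => by rw [Lf_mul, ofAdd_add])

theorem norm_Lg (hodd : l ≠ 2) (u : ℤ_[l]ˣ) :
    ‖(Lg hodd u).toAdd‖ = ‖(u : ℤ_[l]) ^ (l - 1) - 1‖ := by
  rw [← norm_L0 hodd (pu_pow u)]
  rfl

theorem Lg_eq_one_iff (hodd : l ≠ 2) (u : ℤ_[l]ˣ) : Lg hodd u = 1 ↔ u ^ (l - 1) = 1 := by
  have h := norm_Lg hodd u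
  constructor
  · intro h1
    rw [h1, toAdd_one, norm_zero, eq_comm, norm_eq_zero, sub_eq_zero] at h
    ext1
    simpa using h
  · intro h1
    have h2 : (u : ℤ_[l]) ^ (l - 1) = 1 := by rw [← Units.val_pow_eq_pow_val, h1, Units.val_one]
    rw [h2, sub_self, norm_zero, norm_eq_zero] at h
    exact h

theorem continuous_Lg (hodd : l ≠ 2) : Continuous (Lg hodd) := by
  apply continuous_of_continuousAt_one
  rw [ContinuousAt, map_one]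
  have h1 : Tendsto (fun u : ℤ_[l]ˣ => ‖(u : ℤ_[l]) ^ (l - 1) - 1‖) (𝓝 1) (𝓝 0) := by
    have : Continuous (fun u : ℤ_[l]ˣ => ‖(u : ℤ_[l]) ^ (l - 1) - 1‖) :=
      (((Units.continuous_val).pow _).sub continuous_const).norm
    have h2 := this.tendsto 1
    simpa using h2
  have h3 : Tendsto (fun u : ℤ_[l]ˣ => (Lg hodd u).toAdd) (𝓝 1) (𝓝 (0 : ℤ_[l])) := by
    rw [tendsto_zero_iff_norm_tendsto_zero]
    simp_rw [norm_Lg hodd]
    exact h1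
  exact h3

/-- **the logarithm**: a continuous homomorphism `ℤ_[l]ˣ → ℤ_[l]` with kernel the torsion. -/
theorem exists_log (hodd : l ≠ 2) : ∃ L : ℤ_[l]ˣ →* Multiplicative ℤ_[l], Continuous L ∧
    ∀ u, L u = 1 ↔ u ^ (l - 1) = 1 :=
  ⟨Lg hodd, continuous_Lg hodd, Lg_eq_one_iff hodd⟩

end Crest.Agent.R018.PLogx814
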