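import Crest.Agent.R018.Core_74
import Crest.Agent.R018.PLog_814
import Crest.Agent.R018.Kum_568
import Crest.Agent.R018.LocDef_31

/-!
# Row 18, consequence (D) of the CORE (helper814)

`CD_holds : LocT → BadFinite → CC → Deg1Thm → F1 → F2 → F5 → F6 → CD`.
-/

set_option autoImplicit false

open NumberField Pointwise
open Crest.NumberTheoryR

namespace Crest.Agent.R018.ConsDx814

open Crest.Agent.R018.EndDefx924 (Om)
open Crest.Agent.R018.Placesx484
open Crest.Agent.R018.Corex74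

/-! ### roots of unity and cyclotomic characters -/

theorem root_mem_Sv {ζ : Om} {n : ℕ} (hn : n ≠ 0) (h : ζ ^ n = 1) : ζ ∈ Sv := by
  have : NeZero n := ⟨hn⟩
  have key : ∀ E : SvFam, ζ ∈ (E.1 : Set Om) := by
    rintro ⟨E, hE1, hE2⟩
    obtain ⟨μ, hμ⟩ := Kumx568.exists_primitiveRoot hE2 n hn
    have h1 : IsPrimitiveRoot (μ : Om) n :=
      hμ.map_of_injective (f := algebraMap E Om) (algebraMap E Om).injective
    obtain ⟨i, _, hi⟩ := h1.eq_pow_of_pow_eq_one h
    rw [← hi]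
    exact pow_mem μ.2 i
  have h2 : ζ ∈ ((Sv : IntermediateField ℚ Om) : Set Om) := by
    rw [Sv, IntermediateField.coe_iInf, Set.mem_iInter]
    exact key
  exact h2

instance enough_Om (l : ℕ) [hl : Fact l.Prime] (n : ℕ) : HasEnoughRootsOfUnity Om (l ^ n) := by
  have : NeZero (l ^ n) := ⟨(pow_pos hl.out.pos n).ne'⟩
  infer_instance

instance enough_Sv (l : ℕ) [hl : Fact l.Prime] (n : ℕ) : HasEnoughRootsOfUnity Sv (l ^ n) := by
  have h0 : l ^ n ≠ 0 := (pow_pos hl.out.pos n).ne'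
  have : NeZero (l ^ n) := ⟨h0⟩
  refine ⟨?_, rootsOfUnity.isCyclic _ _⟩
  obtain ⟨ζ, hζ⟩ := HasEnoughRootsOfUnity.exists_primitiveRoot Om (l ^ n)
  exact ⟨⟨ζ, root_mem_Sv h0 hζ.pow_eq_one⟩,
    IsPrimitiveRoot.of_map_of_injective (f := algebraMap Sv Om) hζ (algebraMap Sv Om).injective⟩

section chi

variable (l : ℕ) [hl : Fact l.Prime]

/-- the cyclotomic character of `BB` -/
noncomputable def chiB : BB →* ℤ_[l]ˣ :=
  (cyclotomicCharacter Om l).comp (MulSemiringAction.toRingAut BB Om)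

/-- the cyclotomic character of `SG` -/
noncomputable def chiS : SG →* ℤ_[l]ˣ :=
  (cyclotomicCharacter Sv l).comp (MulSemiringAction.toRingAut SG Sv)

theorem continuous_chiB : Continuous (chiB l) := cyclotomicCharacter.continuous l ℚ Om

theorem continuous_chiS : Continuous (chiS l) := cyclotomicCharacter.continuous l ℚ Sv

theorem chiB_spec (g : BB) {n : ℕ} {ζ : Om} (h : ζ ^ l ^ n = 1) :
    g ζ = ζ ^ (PadicInt.toZModPow n (chiB l g : ℤ_[l])).val :=
  cyclotomicCharacter.spec l (L := Om) (MulSemiringAction.toRingAut BB Om g) ζ h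

theorem chiS_spec (s : SG) {n : ℕ} {ζ : Sv} (h : ζ ^ l ^ n = 1) :
    s ζ = ζ ^ (PadicInt.toZModPow n (chiS l s : ℤ_[l])).val :=
  cyclotomicCharacter.spec l (L := Sv) (MulSemiringAction.toRingAut SG Sv s) ζ h

theorem ext_of_pow {L : Type*} [Field L] [∀ i, HasEnoughRootsOfUnity L (l ^ i)] (x y : ℤ_[l])
    (h : ∀ (n : ℕ) (ζ : L), ζ ^ l ^ n = 1 →
      ζ ^ (PadicInt.toZModPow n x).val = ζ ^ (PadicInt.toZModPow n y).val) : x = y := by
  refine PadicInt.ext_of_toZModPow.mp fun n => ?_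
  obtain ⟨ζ, hζ⟩ := HasEnoughRootsOfUnity.exists_primitiveRoot L (l ^ n)
  have h1 := h n ζ hζ.pow_eq_one
  have : NeZero (l ^ n) := ⟨(pow_pos hl.out.pos n).ne'⟩
  exact ZMod.val_injective _ (hζ.pow_inj (ZMod.val_lt _) (ZMod.val_lt _) h1)

theorem cycEq_iff (g : BB) (s : SG) : CycEq l g s ↔ chiS l s = chiB l g := by
  constructor
  · intro h
    ext1
    apply ext_of_pow l (L := Sv)
    intro n ζ hζ
    have h1 := h n ζ hζ
    have hζ' : (ζ : Om) ^ l ^ n = 1 := by exact_mod_cast congrArg (algebraMap Sv Om) hζ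
    rw [chiS_spec l s hζ, chiB_spec l g hζ'] at h1
    exact_mod_cast h1
  · intro h n ζ hζ
    have hζ' : (ζ : Om) ^ l ^ n = 1 := by exact_mod_cast congrArg (algebraMap Sv Om) hζ
    rw [chiS_spec l s hζ, chiB_spec l g hζ', h]
    rfl

theorem toZModPow_natCast_pow {L : Type*} [Field L] (x : ℕ) (n : ℕ) {ζ : L} (hζ : ζ ^ l ^ n = 1) :
    ζ ^ (PadicInt.toZModPow n (x : ℤ_[l])).val = ζ ^ x := by
  rw [map_natCast, ZMod.val_natCast]
  exact (pow_eq_pow_mod x hζ).symm

theorem chiB_eq_of_act {P : Place Om} (hP : P.rchar ≠ l) {g : BB} {q : ℕ} (h : Act P g q) :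
    (chiB l g : ℤ_[l]) = q := by
  apply ext_of_pow l (L := Om)
  intro n ζ hζ
  rw [toZModPow_natCast_pow l q n hζ, ← chiB_spec l g hζ]
  refine P.frob_root h (n := l ^ n) ?_ hζ
  intro hd
  exact hP ((Nat.prime_dvd_prime_iff_eq P.rchar_prime hl.out).1
    (P.rchar_prime.dvd_of_dvd_pow hd))

theorem chiS_eq_of_act {P : Place Sv} (hP : P.rchar ≠ l) {g : SG} {q : ℕ} (h : Act P g q) :
    (chiS l g : ℤ_[l]) = q := by
  apply ext_of_pow l (L := Sv)
  intro n ζ hζ
  rw [toZModPow_natCast_pow l q n hζ, ← chiS_spec l g hζ]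
  refine P.frob_root h (n := l ^ n) ?_ hζ
  intro hd
  exact hP ((Nat.prime_dvd_prime_iff_eq P.rchar_prime hl.out).1
    (P.rchar_prime.dvd_of_dvd_pow hd))

/-- `ψ_l = (χ₂ ∘ α) / χ₁` -/
noncomputable def psi (D : Dat) : D.G →* ℤ_[l]ˣ :=
  ((chiS l).comp D.α) / ((chiB l).comp D.G.subtype)

theorem psi_apply (D : Dat) (g : D.G) : psi l D g = chiS l (D.α g) / chiB l (g : BB) := rfl

theorem continuous_psi (D : Dat) : Continuous (psi l D) := by
  have h1 : Continuous fun g : D.G => chiS l (D.α g) := (continuous_chiS l).comp D.cont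
  have h2 : Continuous fun g : D.G => chiB l (g : BB) :=
    (continuous_chiB l).comp continuous_subtype_val
  exact h1.div' h2

theorem psi_eq_one_iff (D : Dat) (g : D.G) : psi l D g = 1 ↔ CycEq l (g : BB) (D.α g) := by
  rw [psi_apply, div_eq_one, cycEq_iff]

/-- reduction of `chiS` modulo `l` -/
noncomputable def chiS1 : SG →* (ZMod l)ˣ :=
  (Units.map (PadicInt.toZMod (p := l) : ℤ_[l] →* ZMod l)).comp (chiS l)

theorem chiS1_apply (s : SG) :
    ((chiS1 l s : (ZMod l)ˣ) : ZMod l) = PadicInt.toZMod (chiS l s : ℤ_[l]) := rfl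

theorem isOpen_ker_chiS1 : IsOpen ((chiS1 l).ker : Set SG) := by
  have h1 : ((chiS1 l).ker : Set SG) =
      (fun s : SG => (chiS l s : ℤ_[l])) ⁻¹' (Metric.ball (1 : ℤ_[l]) 1) := by
    ext s
    rw [SetLike.mem_coe, MonoidHom.mem_ker, Set.mem_preimage, mem_ball_iff_norm, ← Units.val_inj,
      chiS1_apply, Units.val_one, ← PLogx814.pu_iff, PLogx814.PU, PadicInt.norm_lt_one_iff_dvd]
  rw [h1]
  exact Metric.isOpen_ball.preimage (Units.continuous_val.comp (continuous_chiS l))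

end chi

/-! ### the arithmetic: residue degree one -/

theorem eq_one_of_orderOf {l f : ℕ} [hl : Fact l.Prime] (hl5 : 5 ≤ l) (hf : 0 < f)
    (hr : ∀ r : ℕ, r.Prime → r ≤ f → r ∣ l - 1) (x : (ZMod l)ˣ) (hx : orderOf (x ^ f) = l - 1) :
    f = 1 := by
  by_contra hf1
  have hrp : f.minFac.Prime := Nat.minFac_prime hf1
  have h1 : f.minFac ∣ l - 1 := hr _ hrp (Nat.minFac_le hf)
  obtain ⟨m, hm⟩ := Nat.minFac_dvd f
  obtain ⟨k, hk⟩ := h1
  have h2 : (x ^ f) ^ k = 1 := by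
    have : x ^ (l - 1) = 1 := ZMod.units_pow_card_sub_one_eq_one l x
    calc (x ^ f) ^ k = (x ^ (l - 1)) ^ m := by
          rw [← pow_mul, ← pow_mul, hk]
          congr 1
          conv_lhs => rw [hm]
          ring
      _ = 1 := by rw [this, one_pow]
  have h3 : l - 1 ∣ k := by rw [← hx]; exact orderOf_dvd_of_pow_eq_one h2
  have hk0 : 0 < k := by
    rcases Nat.eq_zero_or_pos k with h | h
    · rw [h, mul_zero] at hk; omega
    · exact h
  have h4 := Nat.le_of_dvd hk0 h3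
  have h5 : 2 ≤ f.minFac := hrp.two_le
  have h6 : 2 * k ≤ l - 1 := by rw [hk]; exact Nat.mul_le_mul_right k h5
  omega

/-! ### places over a prime -/

theorem exists_place {E : Type*} [Field E] [CharZero E] {q : ℕ} (hq : q.Prime) :
    ∃ Q : Place E, Q.rchar = q := by
  have h1 : Ideal.span {(q : 𝓞 E)} ≠ ⊤ := by
    intro h
    rw [Ideal.span_singleton_eq_top] at h
    obtain ⟨u, hu⟩ := h.exists_right_inv
    have h2 : (q : E) * (u : E) = 1 := by
      have := congrArg (algebraMap (𝓞 E) E) hu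
      simpa using this
    have hq0 : (q : E) ≠ 0 := by exact_mod_cast hq.ne_zero
    have h3 : (u : E) = algebraMap ℚ E ((q : ℚ)⁻¹) := by
      rw [map_inv₀, map_natCast]
      exact eq_inv_of_mul_eq_one_right h2
    have h4 : IsIntegral ℤ ((q : ℚ)⁻¹) := by
      have h5 : IsIntegral ℤ (algebraMap ℚ E ((q : ℚ)⁻¹)) := by
        rw [← h3]
        exact NumberField.RingOfIntegers.isIntegral_coe u
      exact (isIntegral_algebraMap_iff (algebraMap ℚ E).injective).1 h5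
    obtain ⟨m, hm⟩ := IsIntegrallyClosed.isIntegral_iff.1 h4
    have hqQ : (q : ℚ) ≠ 0 := by exact_mod_cast hq.ne_zero
    have h6 : (q : ℚ) * m = 1 := by
      have : (m : ℚ) = (q : ℚ)⁻¹ := by simpa using hm
      rw [this, mul_inv_cancel₀ hqQ]
    have h7 : (q : ℤ) * m = 1 := by exact_mod_cast h6
    have h8 : IsUnit (q : ℤ) := IsUnit.of_mul_eq_one m h7
    exact (Nat.prime_iff_prime_int.1 hq).not_isUnit h8
  obtain ⟨I, hI, hI2⟩ := Ideal.exists_le_maximal _ h1
  have h2 : (q : 𝓞 E) ∈ I := hI2 (Ideal.mem_span_singleton_self _)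
  let Q : Place E :=
    { ideal := I
      isPrime := hI.isPrime
      ne_bot := by
        rintro rfl
        rw [Ideal.mem_bot] at h2
        have h3 := congrArg (algebraMap (𝓞 E) E) h2
        rw [map_natCast, map_zero] at h3
        have : (q : E) ≠ 0 := by exact_mod_cast hq.ne_zero
        exact this h3 }
  exact ⟨Q, Q.rchar_eq_of_mem hq h2⟩

/-! ### finiteness of the targets of places of bounded residue characteristic -/

theorem cor_unique (hLoc : LocT) {D : Dat} {l : ℕ} (hl : l.Prime) (hl2 : l ≠ 2) {P : Place Om}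
    (hP : Hit D l P) {Q Q' : Place Sv} (h : Cor D P Q) (h' : Cor D P Q') : Q = Q' := by
  obtain ⟨Q0, -, -, hu, -⟩ := hLoc D l hl hl2 P hP
  rw [hu Q h, hu Q' h']

/-- only finitely many `q` are hit by places of bounded residue characteristic -/
theorem finite_target (hLoc : LocT) (hF5 : F5) (hF6 : F6) (D : Dat) {l : ℕ} (hl : l.Prime)
    (hl2 : l ≠ 2) (B : ℕ) : {q : ℕ | ∃ (P : Place Om) (Q : Place Sv), Hit D l P ∧ Cor D P Q ∧
      P.rchar ≤ B ∧ Q.rchar = q}.Finite := by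
  classical
  have hfin : Finite (BB ⧸ D.G) := Subgroup.quotient_finite_of_isOpen D.G D.isOpen_G
  have h0 : ∀ p : ℕ, ∃ P0 : Place Om, p.Prime → P0.rchar = p := by
    intro p
    by_cases hp : p.Prime
    · obtain ⟨P0, h⟩ := exists_place (E := Om) hp
      exact ⟨P0, fun _ => h⟩
    · obtain ⟨P0, h⟩ := exists_place (E := Om) Nat.prime_two
      exact ⟨P0, fun h => absurd h hp⟩
  choose P0 hP0 using h0
  have h1 : ∀ P : Place Om, ∃ b : BB, b • P0 P.rchar = P := fun P =>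
    hF5.2 _ _ (hP0 _ P.rchar_prime)
  choose b hb using h1
  let A : Set ℕ := {q : ℕ | ∃ (P : Place Om) (Q : Place Sv), Hit D l P ∧ Cor D P Q ∧
      P.rchar ≤ B ∧ Q.rchar = q}
  change A.Finite
  have h2 : ∀ q : A, ∃ (P : Place Om) (Q : Place Sv), Hit D l P ∧ Cor D P Q ∧
      P.rchar ≤ B ∧ Q.rchar = (q : ℕ) := fun q => q.2
  choose P Q hH hC hB hq using h2
  let Φ : A → Fin (B + 1) × (BB ⧸ D.G) := fun q =>
    (⟨(P q).rchar, Nat.lt_succ_of_le (hB q)⟩, QuotientGroup.mk (b (P q))⁻¹)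
  have hΦ : Function.Injective Φ := by
    intro q q' h
    rw [Prod.ext_iff] at h
    obtain ⟨h3, h4⟩ := h
    have h5 : (P q).rchar = (P q').rchar := congrArg Fin.val h3
    have h6 : (b (P q')) * (b (P q))⁻¹ ∈ D.G := by
      have := QuotientGroup.eq.1 h4
      have h7 := D.G.inv_mem this
      simpa using h7
    let s : D.G := ⟨_, h6⟩
    have h8 : (s : BB) • P q = P q' := by
      change (b (P q') * (b (P q))⁻¹) • P q = P q'
      have h12 : (b (P q))⁻¹ • P q = P0 (P q).rchar := by rw [inv_smul_eq_iff, hb]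
      rw [mul_smul, h12, h5, hb]
    have h9 := (hF6 D l (P q) (Q q) s).2 (hC q)
    rw [h8] at h9
    have h10 := cor_unique hLoc hl hl2 (hH q') (hC q') h9
    have h11 : (Q q').rchar = (Q q).rchar := by rw [h10, Place.rchar_smul]
    rw [hq, hq] at h11
    exact Subtype.ext h11.symm
  have : Finite A := Finite.of_injective Φ hΦ
  exact Set.toFinite A

/-! ### degree one primes of `S₁(l)` -/

section main

variable {l : ℕ} [hl : Fact l.Prime]

/-- for `l ∈ 𝓛` there are hit places of residue degree one above arbitrarily large targets -/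
theorem exists_deg_one (hLoc : LocT) (hBad : BadFinite) (hCC : CC) (hF1 : F1) (hF2 : F2)
    (D : Dat) (hND : ND D) (hl5 : 5 ≤ l) (hLL : ∀ r : ℕ, r.Prime → r ≤ D.G.index → r ∣ l - 1)
    (N : ℕ) : ∃ (P : Place Om) (Q : Place Sv) (σ : D.G), N < Q.rchar ∧ Hit D l P ∧ Cor D P Q ∧
      fdeg D.G P = 1 ∧ FrobL D.G P (σ : BB) ∧ psi l D σ = 1 := by
  have hl2 : l ≠ 2 := by omega
  obtain ⟨B1, hB1⟩ := hBad D l hl.out hl2
  obtain ⟨B2, hB2⟩ := hCC D hND (chiS1 l).ker inferInstance (isOpen_ker_chiS1 l)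
  obtain ⟨x, hx⟩ := IsCyclic.exists_ofOrder_eq_natCard (α := (ZMod l)ˣ)
  have hcard : Nat.card (ZMod l)ˣ = l - 1 := by
    rw [Nat.card_eq_fintype_card, ZMod.card_units_eq_totient, Nat.totient_prime hl.out]
  rw [hcard] at hx
  obtain ⟨q, hqM, hqp, hqx⟩ :=
    Nat.forall_exists_prime_gt_and_eq_mod (q := l) x.isUnit (max (max B1 B2) (max N l))
  have hq1 : B1 < q := lt_of_le_of_lt ((le_max_left _ _).trans (le_max_left _ _)) hqM
  have hq2 : B2 < q := lt_of_le_of_lt ((le_max_right _ _).trans (le_max_left _ _)) hqM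
  have hq3 : N < q := lt_of_le_of_lt ((le_max_left _ _).trans (le_max_right _ _)) hqM
  have hq4 : l < q := lt_of_le_of_lt ((le_max_right _ _).trans (le_max_right _ _)) hqM
  obtain ⟨Q, hQ⟩ := exists_place (E := Sv) hqp
  obtain ⟨P, hHit, hCor⟩ := hB1 Q (by rw [hQ]; exact hq1)
  obtain ⟨hf0, hfi, ⟨σ, hσ⟩, -⟩ := hF1 D.G D.isOpen_G P
  obtain ⟨φ, -, hφ⟩ := hF2.1 Q
  have hφ' : Act Q φ Q.rchar := hφ
  obtain ⟨j, hj⟩ := hB2 P Q l hl.out hl2 hHit hCor (by rw [hQ]; exact hq2) ⟨σ, hσ.1⟩ hσ φ hφ'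
  -- compatibility on the decomposition group
  obtain ⟨Q0, hC0, -, hu0, hcyc⟩ := hLoc D l hl.out hl2 P hHit
  have hσP : σ • P = P := by
    have h1 : LocDefx31.FPow P P.rchar (fdeg D.G P) σ := hσ.2
    exact h1.smul_eq P.rchar_prime.ne_zero
  have hpsi : psi l D ⟨σ, hσ.1⟩ = 1 := (psi_eq_one_iff l D _).2 (hcyc ⟨σ, hσ.1⟩ hσP)
  have hchi : chiS l (D.α ⟨σ, hσ.1⟩) = chiB l σ := by
    rw [psi_apply, div_eq_one] at hpsi
    exact hpsi
  have hPl : P.rchar ≠ l := hHit.1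
  have hQl : Q.rchar ≠ l := by rw [hQ]; exact hq4.ne'
  have h2 : (chiB l σ : ℤ_[l]) = ((P.rchar ^ fdeg D.G P : ℕ) : ℤ_[l]) :=
    chiB_eq_of_act l hPl hσ.2
  have h3 : (chiS l φ : ℤ_[l]) = (Q.rchar : ℤ_[l]) := chiS_eq_of_act l hQl hφ'
  -- modulo `l`
  have hpl : IsUnit (P.rchar : ZMod l) := by
    rw [ZMod.isUnit_iff_coprime]
    exact (Nat.coprime_primes P.rchar_prime hl.out).2 hPl
  obtain ⟨y, hy⟩ := hpl
  have h4 : chiS1 l (D.α ⟨σ, hσ.1⟩) = y ^ fdeg D.G P := by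
    ext1
    rw [chiS1_apply, hchi, h2, map_natCast, Nat.cast_pow, Units.val_pow_eq_pow_val, hy]
  have h5 : chiS1 l φ = x := by
    ext1
    rw [chiS1_apply, h3, map_natCast, hQ, hqx]
  have h6 : (y ^ fdeg D.G P) ^ j = x := by
    rw [MonoidHom.mem_ker, map_mul, map_inv, map_pow, inv_mul_eq_one, h4, h5] at hj
    exact hj
  have h7 : orderOf (y ^ fdeg D.G P) = l - 1 := by
    apply Nat.dvd_antisymm
    · rw [← hcard]; exact orderOf_dvd_natCard _
    · rw [← hx, ← h6]; exact orderOf_pow_dvd j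
  have h8 : fdeg D.G P = 1 :=
    eq_one_of_orderOf hl5 hf0 (fun r hr hrf => hLL r hr (hrf.trans hfi)) y h7
  exact ⟨P, Q, ⟨σ, hσ.1⟩, by rw [hQ]; exact hq3, hHit, hCor, h8, hσ, hpsi⟩

end main

/-- **(D)** -/
theorem CD_holds (hLoc : LocT) (hBad : BadFinite) (hCC : CC) (hDeg : Deg1Thm) (hF1 : F1)
    (hF2 : F2) (hF5 : F5) (hF6 : F6) : CD := by
  intro D hND l hl hl5 hLL
  have hl' : Fact l.Prime := ⟨hl⟩
  have hl2 : l ≠ 2 := by omega
  have h1 : (PLogx814.Lg (l := l) hl2).comp (psi l D) = 1 := by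
    refine hDeg D.G D.isOpen_G l hl2 _
      ((PLogx814.continuous_Lg hl2).comp (continuous_psi l D)) fun B => ?_
    by_contra hcon
    push Not at hcon
    have hfin := finite_target hLoc hF5 hF6 D hl hl2 B
    obtain ⟨M, hM⟩ := hfin.bddAbove
    obtain ⟨P, Q, σ, hQ, hHit, hCor, hf, hσ, hpsi⟩ :=
      exists_deg_one hLoc hBad hCC hF1 hF2 D hND hl5 hLL M
    have h2 : P.rchar ≤ B := by
      by_contra h3
      push Not at h3
      apply hcon P σ h3 hf hσ
      rw [MonoidHom.comp_apply, hpsi, map_one]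
    have h3 : Q.rchar ≤ M := hM ⟨P, Q, hHit, hCor, h2, rfl⟩
    omega
  refine ⟨l - 1, by omega, fun g => ?_⟩
  have h2 : PLogx814.Lg (l := l) hl2 (psi l D g) = 1 := by
    have := congrArg (fun f => f g) h1
    simpa using this
  rw [PLogx814.Lg_eq_one_iff, psi_apply, div_pow, div_eq_one] at h2
  rw [cycEq_iff, map_pow, map_pow]
  exact h2


end Crest.Agent.R018.ConsDx814
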