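import Crest.Agent.R018.BadPhiB_933
import Crest.Agent.R018.ConsD_814

/-!
# Row 18: consequence (A) (helper933)
-/

set_option autoImplicit false

open NumberField Pointwise
open Crest.NumberTheoryR

namespace Crest.Agent.R018.CAx933

open Crest.Agent.R018.EndDefx924 (Om)
open Crest.Agent.R018.Placesx484
open Crest.Agent.R018.Corex74
open Crest.Agent.R018.BadPhix933
open Crest.Agent.R018.BadPhiBx933

section tools

theorem exists_pow_mem (H : Subgroup SG) (hn : H.Normal) (hH : IsOpen (H : Set SG)) (g : SG) :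
    ∃ k : ℕ, 0 < k ∧ g ^ k ∈ H := by
  have hfin : Finite (SG ⧸ H) := Subgroup.quotient_finite_of_isOpen H hH
  have : Fintype (SG ⧸ H) := Fintype.ofFinite _
  refine ⟨Fintype.card (SG ⧸ H), Fintype.card_pos, ?_⟩
  have h1 : (QuotientGroup.mk g : SG ⧸ H) ^ Fintype.card (SG ⧸ H) = 1 := pow_card_eq_one
  rw [← QuotientGroup.mk_pow] at h1
  exact (QuotientGroup.eq_one_iff _).1 h1

/-- divisibility by the minimal exponent -/
theorem dvd_of_pow_mem {G : Type*} [Group G] (R : Subgroup G) (g : G) (f : ℕ) (hf : 0 < f)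
    (hfR : g ^ f ∈ R) (hmin : ∀ j, 0 < j → j < f → g ^ j ∉ R) {m : ℕ} (hm : g ^ m ∈ R) : f ∣ m := by
  by_contra hd
  have h1 : 0 < m % f := Nat.pos_of_ne_zero fun h => hd (Nat.dvd_of_mod_eq_zero h)
  apply hmin (m % f) h1 (Nat.mod_lt _ hf)
  have h2 : g ^ m = (g ^ f) ^ (m / f) * g ^ (m % f) := by
    rw [← pow_mul, ← pow_add, Nat.div_add_mod]
  rw [h2] at hm
  exact (R.mul_mem_cancel_left (R.pow_mem hfR _)).1 hm

/-- the pigeonhole principle for properties of cosets holding for arbitrarily large bounds -/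
theorem pigeonhole {C : Type*} [Finite C] (P : ℕ → C → Prop) (hmono : ∀ B B' c, B ≤ B' →
    P B' c → P B c) (h : ∀ B, ∃ c, P B c) : ∃ c, ∀ B, P B c := by
  classical
  by_contra hcon
  push Not at hcon
  choose b hb using hcon
  have : Fintype C := Fintype.ofFinite C
  obtain ⟨c, hc⟩ := h (Finset.univ.sup b)
  exact hb c (hmono _ _ c (Finset.le_sup (Finset.mem_univ c)) hc)

/-- **LEMMA G**, uniform in `g` -/
theorem lemmaG_unif (hLG : LemmaG) (D : Dat) (V : Subgroup SG) [V.Normal]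
    (hVo : IsOpen (V : Set SG)) (hND : NDat D V)
    (hVN : ∀ v ∈ V, ∃ (k : BB) (hk : k ∈ N1 D), αN D k hk = v)
    (x : Sv) (hx : Gen V x) (l : ℕ) [Fact l.Prime] (hl : l ≠ 2) (p : Probe V x l)
    (φ : V2 V x → ℤ_[l]) (hφ : φ ∈ Submodule.span ℤ_[l] (Set.range (tr p))) (hne : φ ≠ 0) :
    ∃ B : ℕ, ∀ (P : Place Om), B < P.rchar → ∀ σ : D.G, FrobL D.G P (σ : BB) →
      ∀ g : SG, act g φ = φ → (D.α σ)⁻¹ * g ∈ V2 V x →
      ∀ (k : ℕ) (hk : (D.α σ) ^ k ∈ V2 V x), 0 < k → φ ⟨(D.α σ) ^ k, hk⟩ ≠ 0 := by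
  classical
  have hfin : Finite (SG ⧸ V2 V x) :=
    Subgroup.quotient_finite_of_isOpen (V2 V x) (isOpen_V2 V hVo x)
  have : Fintype (SG ⧸ V2 V x) := Fintype.ofFinite _
  have key : ∀ c : SG ⧸ V2 V x, ∃ B : ℕ, ∀ (P : Place Om), B < P.rchar → ∀ σ : D.G,
      FrobL D.G P (σ : BB) → (QuotientGroup.mk (D.α σ) : SG ⧸ V2 V x) = c →
      (∃ g : SG, QuotientGroup.mk g = c ∧ act g φ = φ) →
      ∀ (k : ℕ) (hk : (D.α σ) ^ k ∈ V2 V x), 0 < k → φ ⟨(D.α σ) ^ k, hk⟩ ≠ 0 := by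
    intro c
    by_cases h : ∃ g : SG, (QuotientGroup.mk g : SG ⧸ V2 V x) = c ∧ act g φ = φ
    · obtain ⟨g, hgc, hg⟩ := h
      obtain ⟨B, hB⟩ := hLG D V hVo hND hVN x hx l hl p φ hφ hne g hg
      refine ⟨B, fun P hP σ hσ hc _ k hk hk0 => hB P hP σ hσ ?_ k hk hk0⟩
      exact QuotientGroup.eq.1 (hc.trans hgc.symm)
    · exact ⟨0, fun P _ σ _ _ h' => absurd h' h⟩
  choose B hB using key
  refine ⟨Finset.univ.sup B, fun P hP σ hσ g hg hσg k hk hk0 => ?_⟩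
  exact hB (QuotientGroup.mk g) P (lt_of_le_of_lt (Finset.le_sup (Finset.mem_univ _)) hP) σ hσ
    (QuotientGroup.eq.2 hσg) ⟨g, rfl, hg⟩ k hk hk0

theorem V_le_range (D : Dat) (V : Subgroup SG)
    (hVN : ∀ v ∈ V, ∃ (k : BB) (hk : k ∈ N1 D), αN D k hk = v) : V ≤ D.α.range := by
  intro v hv
  obtain ⟨k, hk, h⟩ := hVN v hv
  exact ⟨⟨k, N1_le D hk⟩, h⟩

theorem V2_inf_le (V : Subgroup SG) (x₁ x₂ : Sv) : V2 V x₁ ⊓ V2 V x₂ ≤ V2 V (x₁ * x₂) := by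
  rintro g ⟨h1, h2⟩
  refine ⟨h1.1, fun γ z hz => ?_⟩
  obtain ⟨z₁, hz₁⟩ := exists_sqrt (γ x₁)
  obtain ⟨z₂, hz₂⟩ := exists_sqrt (γ x₂)
  have e1 := h1.2 γ z₁ hz₁
  have e2 := h2.2 γ z₂ hz₂
  have h3 : z ^ 2 = (z₁ * z₂) ^ 2 := by rw [hz, mul_pow, hz₁, hz₂, map_mul]
  rcases sq_eq_sq_iff_eq_or_eq_neg.1 h3 with rfl | rfl
  · rw [map_mul, e1, e2]
  · rw [map_neg, map_mul, e1, e2]

/-- the sign trick for one element -/
theorem sign_trick (V : Subgroup SG) [V.Normal] {x₁ x₂ : Sv} (hx₁ : Gen V x₁) (hx₂ : Gen V x₂)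
    (hx₁₂ : Gen V (x₁ * x₂)) (a : SG) (ha : a ∈ V) :
    ∃ x : Sv, Gen V x ∧ V2 V x₁ ⊓ V2 V x₂ ≤ V2 V x ∧
      ∀ z : Sv, z ^ 2 = (1 : SG) x → a z = z := by
  obtain ⟨z₁, hz₁⟩ := exists_sqrt ((1 : SG) x₁)
  obtain ⟨z₂, hz₂⟩ := exists_sqrt ((1 : SG) x₂)
  rcases sign_cases hx₁ hz₁ ha with h1 | h1
  · exact ⟨x₁, hx₁, inf_le_left, all_of_one hz₁ h1⟩
  · rcases sign_cases hx₂ hz₂ ha with h2 | h2
    · exact ⟨x₂, hx₂, inf_le_right, all_of_one hz₂ h2⟩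
    · refine ⟨x₁ * x₂, hx₁₂, V2_inf_le V x₁ x₂, all_of_one (z0 := z₁ * z₂) ?_ ?_⟩
      · rw [mul_pow, hz₁, hz₂, map_mul]
      · rw [map_mul, h1, h2]; ring

end tools

theorem ca_of (hNL : NDLevel) (hLG : LemmaG) (hPE : ProbeEx) (hLoc : LocT) (hBF : BadFinite)
    (hF1 : F1) (hF3 : F3) (hF4 : F4) (hF5 : F5) (hF6 : F6) (hF7 : F7) (hF8 : F8) (hF9 : F9) :
    CA := by
  classical
  intro D hND
  by_contra hsurj
  obtain ⟨s, hs⟩ : ∃ s : SG, s ∉ D.α.range := by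
    unfold Function.Surjective at hsurj
    push Not at hsurj
    obtain ⟨s, hs⟩ := hsurj
    exact ⟨s, fun ⟨d, hd⟩ => hs d hd⟩
  obtain ⟨i, hi⟩ := exists_I
  obtain ⟨V, hVn, hVo, hVV', hNDat, hVN⟩ := hNL D hND (MulAction.stabilizer SG i) (isOpen_stab i)
  have hVR : V ≤ D.α.range := V_le_range D V hVN
  have hinv : ∀ v ∈ V, v * v = 1 → v = 1 := fun v hv hvv => eq_one_of_sq hvv hi (hVV' hv)
  obtain ⟨x₁, x₂, hx₁, hx₂, hx₁₂⟩ := hF9 V hVn hVo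
  set W0 : Subgroup SG := V2 V x₁ ⊓ V2 V x₂ with hW0
  have hn1 : (V2 V x₁).Normal := V2_normal V x₁
  have hn2 : (V2 V x₂).Normal := V2_normal V x₂
  have hW0n : W0.Normal := inferInstance
  have hW0o : IsOpen (W0 : Set SG) := (isOpen_V2 V hVo x₁).inter (isOpen_V2 V hVo x₂)
  have hW0V : W0 ≤ V := inf_le_left.trans (V2_le V x₁)
  have hfin : Finite (SG ⧸ W0) := Subgroup.quotient_finite_of_isOpen W0 hW0o
  -- the element `g`
  obtain ⟨c0, hc0⟩ := pigeonhole (C := SG ⧸ W0)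
    (fun B c => ∃ (Q : Place Sv) (φ : SG), B < Q.rchar ∧ Act Q φ Q.rchar ∧
      (QuotientGroup.mk φ : SG ⧸ W0) = c ∧ ∃ j : ℕ, (φ ^ j)⁻¹ * s ∈ W0)
    (fun B B' c hBB' ⟨Q, φ, h1, h2⟩ => ⟨Q, φ, lt_of_le_of_lt hBB' h1, h2⟩)
    (fun B => by
      obtain ⟨Q, φ, h1, h2, -, h3⟩ := hF8 W0 hW0n hW0o s B
      exact ⟨QuotientGroup.mk φ, Q, φ, h1, h2, rfl, h3⟩)
  obtain ⟨g, rfl⟩ := QuotientGroup.mk_surjective c0
  have hg : ∀ B : ℕ, ∃ (Q : Place Sv) (φ : SG), B < Q.rchar ∧ Act Q φ Q.rchar ∧ φ⁻¹ * g ∈ W0 := by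
    intro B
    obtain ⟨Q, φ, h1, h2, h3, -⟩ := hc0 B
    exact ⟨Q, φ, h1, h2, QuotientGroup.eq.1 h3⟩
  have hgR : g ∉ D.α.range := by
    intro hgR
    obtain ⟨Q, φ, h1, h2, h3, j, hj⟩ := hc0 0
    have h4 : φ⁻¹ * g ∈ D.α.range := hVR (hW0V (QuotientGroup.eq.1 h3))
    have h5 : φ ∈ D.α.range := by
      have := D.α.range.mul_mem hgR (D.α.range.inv_mem h4)
      rwa [mul_inv_rev, inv_inv, mul_inv_cancel_left] at this
    have h6 := D.α.range.mul_mem (D.α.range.pow_mem h5 j) (hVR (hW0V hj))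
    rw [mul_inv_cancel_left] at h6
    exact hs h6
  -- minimal exponents
  have hexo : ∃ k, 0 < k ∧ g ^ k ∈ V := exists_pow_mem V hVn hVo g
  set o := Nat.find hexo with ho
  have ho0 : 0 < o := (Nat.find_spec hexo).1
  have hoV : g ^ o ∈ V := (Nat.find_spec hexo).2
  have homin : ∀ j, 0 < j → j < o → g ^ j ∉ V := fun j hj hjo hjV => Nat.find_min hexo hjo ⟨hj, hjV⟩
  have hexf : ∃ k, 0 < k ∧ g ^ k ∈ D.α.range := ⟨o, ho0, hVR hoV⟩
  set f := Nat.find hexf with hf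
  have hf0 : 0 < f := (Nat.find_spec hexf).1
  have hfR : g ^ f ∈ D.α.range := (Nat.find_spec hexf).2
  have hfmin : ∀ j, 0 < j → j < f → g ^ j ∉ D.α.range :=
    fun j hj hjo hjV => Nat.find_min hexf hjo ⟨hj, hjV⟩
  have hfo : f ∣ o := dvd_of_pow_mem _ g f hf0 hfR hfmin (hVR hoV)
  have hf2 : 2 ≤ f := by
    by_contra h
    have h1 : f = 1 := by omega
    rw [h1, pow_one] at hfR
    exact hgR hfR
  -- the sign trick
  obtain ⟨x, hx, hW0x, hfix⟩ := sign_trick V hx₁ hx₂ hx₁₂ (g ^ o) hoV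
  -- the probe
  obtain ⟨L0, hL0⟩ := hPE V hVo hinv x hx
  obtain ⟨l, hlL, hlp⟩ := Nat.exists_infinite_primes (L0 + 3)
  have : Fact l.Prime := ⟨hlp⟩
  have hl2 : l ≠ 2 := by omega
  obtain ⟨p⟩ := hL0 l (by omega)
  -- the bad `φ`
  set a : ℕ → ℤ_[l] := fun j => if f ∣ j then 1 else 0 with ha
  have haf : ∀ j, a (j + f) = a j := by
    intro j
    simp only [ha, Nat.dvd_add_self_right]
  have hao : ∀ j, a (j + o) = a j := by
    intro j
    simp only [ha]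
    congr 1
    exact propext (Nat.dvd_add_iff_left hfo).symm
  set c : ℕ → ℤ_[l] := fun j => a j - a (j + (f - 1)) with hc
  have hcf : ∀ j, c (j + f) = c j := by
    intro j
    simp only [hc]
    rw [haf, show j + f + (f - 1) = j + (f - 1) + f by ring, haf]
  have hco : ∀ j, c (j + o) = c j := by
    intro j
    simp only [hc]
    rw [hao, show j + o + (f - 1) = j + (f - 1) + o by ring, hao]
  have hcsum : ∑ j ∈ Finset.range o, c j = 0 := by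
    simp only [hc]
    rw [Finset.sum_sub_distrib, sum_shift a o hao (f - 1), sub_self]
  have hc0' : c 0 ≠ 0 := by
    have h1 : ¬ f ∣ (f - 1) := fun h => by
      have := Nat.le_of_dvd (by omega) h
      omega
    simp only [hc, ha, zero_add, dvd_zero, if_true, if_neg h1, sub_zero]
    exact one_ne_zero
  have hne : psum p g 1 o c ≠ 0 := psum_ne_zero hx p g 1 o c homin 0 ho0 hc0'
  obtain ⟨B1, hB1⟩ := lemmaG_unif hLG D V hVo hNDat hVN x hx l hl2 p (psum p g 1 o c)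
    (psum_mem p g 1 o c) hne
  -- the bounds
  obtain ⟨M, hM⟩ := (ConsDx814.finite_target hLoc hF5 hF6 D Nat.prime_five (by norm_num) B1).bddAbove
  obtain ⟨B3, hB3⟩ := hF3 W0 hW0o
  obtain ⟨B5, hB5⟩ := hBF D 5 Nat.prime_five (by norm_num)
  obtain ⟨Q, φ, hQ, hφ, hφg⟩ := hg (max (max M B3) (max B5 l))
  have hQM : M < Q.rchar := lt_of_le_of_lt ((le_max_left _ _).trans (le_max_left _ _)) hQ
  have hQ3 : B3 < Q.rchar := lt_of_le_of_lt ((le_max_right _ _).trans (le_max_left _ _)) hQ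
  have hQ5 : B5 < Q.rchar := lt_of_le_of_lt ((le_max_left _ _).trans (le_max_right _ _)) hQ
  have hQl : l < Q.rchar := lt_of_le_of_lt ((le_max_right _ _).trans (le_max_right _ _)) hQ
  obtain ⟨P, hHit, hCor⟩ := hB5 Q hQ5
  have hP : B1 < P.rchar := by
    by_contra h
    have h1 : Q.rchar ≤ M := hM ⟨P, Q, hHit, hCor, not_lt.1 h, rfl⟩
    omega
  obtain ⟨-, -, ⟨σ, hσ⟩, -⟩ := hF1 D.G D.isOpen_G P
  set σ' : D.G := ⟨σ, hσ.1⟩ with hσ'
  have hσP : σ • P = P := act_stab hσ.2 (pow_ne_zero _ P.rchar_prime.ne_zero)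
  have hαQ : D.α σ' • Q = Q := hCor σ' hσP
  obtain ⟨j, hj⟩ := hF4 W0 hW0n hW0o Q (hB3 Q hQ3) φ hφ (D.α σ') hαQ
  have hmk : (QuotientGroup.mk (D.α σ') : SG ⧸ W0) = QuotientGroup.mk (g ^ j) := by
    have h1 : (QuotientGroup.mk (φ ^ j) : SG ⧸ W0) = QuotientGroup.mk (D.α σ') :=
      QuotientGroup.eq.2 hj
    have h2 : (QuotientGroup.mk φ : SG ⧸ W0) = QuotientGroup.mk g := QuotientGroup.eq.2 hφg
    rw [← h1, QuotientGroup.mk_pow, QuotientGroup.mk_pow, h2]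
  have hσg : (D.α σ')⁻¹ * g ^ j ∈ W0 := QuotientGroup.eq.1 hmk
  have hjR : g ^ j ∈ D.α.range := by
    have h1 : D.α σ' ∈ D.α.range := ⟨σ', rfl⟩
    have h2 := D.α.range.mul_mem h1 (hVR (hW0V hσg))
    rwa [mul_inv_cancel_left] at h2
  have hfj : f ∣ j := dvd_of_pow_mem _ g f hf0 hfR hfmin hjR
  have hact := act_psum_mul p g 1 o c hoV hfix hco f hcf j hfj
  have hV2n : (V2 V x).Normal := V2_normal V x
  obtain ⟨k, hk0, hk⟩ := exists_pow_mem (V2 V x) hV2n (isOpen_V2 V hVo x) (D.α σ')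
  refine hB1 P hP σ' hσ (g ^ j) hact (hW0x hσg) k hk hk0 ?_
  have hkQ : ((D.α σ') ^ k) • Q = Q := by
    clear hk hk0
    induction k with
    | zero => simp
    | succ k ih => rw [pow_succ, mul_smul, hαQ, ih]
  rw [psum_apply hF7 hVo p g 1 o c hQl.ne' hφ (hW0x hφg) (h := ⟨(D.α σ') ^ k, hk⟩) hkQ, hcsum,
    zero_mul]

end Crest.Agent.R018.CAx933
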