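import Crest.Agent.R018.CA_933

/-!
# Row 18: consequence (B) (helper933)
-/

set_option autoImplicit false

open NumberField Pointwise
open Crest.NumberTheoryR

namespace Crest.Agent.R018.CBx933

open Crest.Agent.R018.EndDefx924 (Om)
open Crest.Agent.R018.Placesx484
open Crest.Agent.R018.Corex74
open Crest.Agent.R018.BadPhix933
open Crest.Agent.R018.BadPhiBx933
open Crest.Agent.R018.CAx933

theorem isOpen_normalCore {H : Subgroup SG} (hH : IsOpen (H : Set SG)) :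
    IsOpen (H.normalCore : Set SG) := by
  have hfin : Finite (SG ⧸ H) := Subgroup.quotient_finite_of_isOpen H hH
  have : H.FiniteIndex := Subgroup.finiteIndex_of_finite_quotient
  exact Subgroup.isOpen_of_isClosed_of_finiteIndex _
    (Subgroup.normalCore_isClosed H (Subgroup.isClosed_of_isOpen H hH))

section span

variable {V : Subgroup SG} [hV : V.Normal] {x : Sv} {l : ℕ} [Fact l.Prime]

/-- properties of elements of the span of the translates -/
theorem span_props (hF7 : F7) (hVo : IsOpen (V : Set SG)) (p : Probe V x l)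
    {f : V2 V x → ℤ_[l]} (hf : f ∈ Submodule.span ℤ_[l] (Set.range (tr p))) :
    (∀ a b, f (a * b) = f a + f b) ∧ Continuous f ∧
      ∀ Q : Place Sv, Q.rchar ≠ l → ∀ n : V2 V x, (∀ y : 𝓞 Sv, (n : SG) • y - y ∈ Q.ideal) →
        f n = 0 := by
  induction hf using Submodule.span_induction with
  | mem f hf =>
    obtain ⟨γ, rfl⟩ := hf
    refine ⟨tr_map_mul p γ, ?_, fun Q hQ n hn => tr_inertia hF7 hVo p γ Q hQ n hn⟩
    exact continuous_toAdd.comp (continuous_trHom p γ)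
  | zero => exact ⟨fun _ _ => by simp, continuous_zero, fun _ _ _ _ => rfl⟩
  | add f g _ _ hf hg =>
    refine ⟨fun a b => ?_, hf.2.1.add hg.2.1, fun Q hQ n hn => ?_⟩
    · simp only [Pi.add_apply, hf.1, hg.1]; ring
    · simp only [Pi.add_apply, hf.2.2 Q hQ n hn, hg.2.2 Q hQ n hn, add_zero]
  | smul c f _ hf =>
    refine ⟨fun a b => ?_, hf.2.1.const_smul c, fun Q hQ n hn => ?_⟩
    · simp only [Pi.smul_apply, hf.1, smul_add]
    · simp only [Pi.smul_apply, hf.2.2 Q hQ n hn, smul_zero]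

omit hV in
theorem f_one {f : V2 V x → ℤ_[l]} (h : ∀ a b, f (a * b) = f a + f b) : f 1 = 0 := by
  have := h 1 1
  rw [mul_one] at this
  exact left_eq_add.1 this

omit hV in
theorem f_inv {f : V2 V x → ℤ_[l]} (h : ∀ a b, f (a * b) = f a + f b) (a : V2 V x) :
    f a⁻¹ = -f a := by
  have := h a a⁻¹
  rw [mul_inv_cancel, f_one h] at this
  exact (neg_eq_of_add_eq_zero_right this.symm).symm

omit hV in
theorem f_pow {f : V2 V x → ℤ_[l]} (h : ∀ a b, f (a * b) = f a + f b) (a : V2 V x) (n : ℕ) :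
    f (a ^ n) = n * f a := by
  induction n with
  | zero => simp [f_one h]
  | succ n ih => rw [pow_succ, h, ih]; push_cast; ring

/-- inertia at a conjugate place -/
theorem inertia_conj {Q : Place Sv} {g : SG} (hg : ∀ y : 𝓞 Sv, g • y - y ∈ Q.ideal) (s : SG)
    (y : 𝓞 Sv) : (s * g * s⁻¹) • y - y ∈ (s • Q).ideal := by
  have h1 := hg (s⁻¹ • y)
  have h2 := (Place.smul_mem_smul_ideal s Q _).2 h1
  rw [smul_sub, smul_inv_smul] at h2
  rw [mul_smul, mul_smul]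
  exact h2

/-- **(T4)**: if `f` kills `g ^ o` (`g` a Frobenius at `Q`), it kills `D_Q ∩ V₂` -/
theorem kill_dec (hF4 : F4) {f : V2 V x → ℤ_[l]} (hadd : ∀ a b, f (a * b) = f a + f b)
    (hcont : Continuous f) (hVo : IsOpen (V : Set SG))
    {Q : Place Sv} (hQ : Q.rchar ≠ l)
    (hin : ∀ Q : Place Sv, Q.rchar ≠ l → ∀ n : V2 V x,
      (∀ y : 𝓞 Sv, (n : SG) • y - y ∈ Q.ideal) → f n = 0)
    (hIn2 : ∀ Q' : Place Sv, Q'.rchar = Q.rchar → ∀ g : SG,
      (∀ y : 𝓞 Sv, g • y - y ∈ Q'.ideal) → g ∈ V2 V x)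
    {g : SG} (hg : Act Q g Q.rchar) (o : ℕ) (ho : 0 < o)
    (homin : ∀ j, 0 < j → j < o → g ^ j ∉ V) (hgo : g ^ o ∈ V2 V x)
    (hf0 : f ⟨g ^ o, hgo⟩ = 0) (h : V2 V x) (hh : (h : SG) • Q = Q) : f h = 0 := by
  by_contra hne
  have hr : 0 < ‖f h‖ := norm_pos_iff.2 hne
  set r := ‖f h‖ with hrdef
  let H : Subgroup SG :=
    { carrier := {n | ∃ hn : n ∈ V2 V x, ‖f ⟨n, hn⟩‖ < r}
      one_mem' := ⟨one_mem _, by
        have : (⟨1, one_mem _⟩ : V2 V x) = 1 := rfl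
        rw [this, f_one hadd, norm_zero]; exact hr⟩
      mul_mem' := by
        rintro a b ⟨ha, ha'⟩ ⟨hb, hb'⟩
        refine ⟨mul_mem ha hb, ?_⟩
        have : (⟨a * b, mul_mem ha hb⟩ : V2 V x) = ⟨a, ha⟩ * ⟨b, hb⟩ := rfl
        rw [this, hadd]
        exact lt_of_le_of_lt (PadicInt.nonarchimedean _ _) (max_lt ha' hb')
      inv_mem' := by
        rintro a ⟨ha, ha'⟩
        refine ⟨inv_mem ha, ?_⟩
        have : (⟨a⁻¹, inv_mem ha⟩ : V2 V x) = ⟨a, ha⟩⁻¹ := rfl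
        rw [this, f_inv hadd, norm_neg]
        exact ha' }
  have hHo : IsOpen (H : Set SG) := by
    have h1 : IsOpen {n : V2 V x | ‖f n‖ < r} := isOpen_lt hcont.norm continuous_const
    have h2 : (H : Set SG) = Subtype.val '' {n : V2 V x | ‖f n‖ < r} := by
      ext n
      constructor
      · rintro ⟨hn, hn'⟩
        exact ⟨⟨n, hn⟩, hn', rfl⟩
      · rintro ⟨n, hn, rfl⟩
        exact ⟨n.2, hn⟩
    rw [h2]
    exact (isOpen_V2 V hVo x).isOpenMap_subtype_val _ h1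
  have hNo := isOpen_normalCore hHo
  have hNI : ∀ g : SG, (∀ y : 𝓞 Sv, g • y - y ∈ Q.ideal) → g ∈ H.normalCore := by
    intro g hg s
    have h1 := inertia_conj hg s
    have h2 : s * g * s⁻¹ ∈ V2 V x := hIn2 (s • Q) (Place.rchar_smul s Q) _ h1
    refine ⟨h2, ?_⟩
    rw [hin (s • Q) (by rw [Place.rchar_smul]; exact hQ) ⟨_, h2⟩ h1, norm_zero]
    exact hr
  obtain ⟨i, hi⟩ := hF4 H.normalCore inferInstance hNo Q hNI g hg (h : SG) hh
  have hiH : (g ^ i)⁻¹ * (h : SG) ∈ H := H.normalCore_le hi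
  obtain ⟨hi2, hi3⟩ := hiH
  have hgi2 : g ^ i ∈ V2 V x := by
    have := (V2 V x).mul_mem h.2 ((V2 V x).inv_mem hi2)
    rwa [mul_inv_rev, inv_inv, mul_inv_cancel_left] at this
  have hdvd : o ∣ i := dvd_of_pow_mem V g o ho (V2_le V x hgo) homin (V2_le V x hgi2)
  obtain ⟨m, rfl⟩ := hdvd
  have h5 : f ⟨g ^ (o * m), hgi2⟩ = 0 := by
    have e : (⟨g ^ (o * m), hgi2⟩ : V2 V x) = ⟨g ^ o, hgo⟩ ^ m :=
      Subtype.ext (by
        rw [Subgroup.coe_pow]
        exact pow_mul g o m)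
    rw [e, f_pow hadd, hf0, mul_zero]
  have h6 : h = ⟨g ^ (o * m), hgi2⟩ * ⟨(g ^ (o * m))⁻¹ * (h : SG), hi2⟩ :=
    Subtype.ext (by simp)
  have h7 : f h = f ⟨(g ^ (o * m))⁻¹ * (h : SG), hi2⟩ := by
    conv_lhs => rw [h6]
    rw [hadd, h5, zero_add]
  rw [← h7] at hi3
  exact lt_irrefl _ hi3

end span

theorem cb_of (hCA : CA) (hNL : NDLevel) (hLG : LemmaG) (hPE : ProbeEx)
    (hF1 : F1) (hF2 : F2) (hF3 : F3) (hF4 : F4) (hF5 : F5) (hF6 : F6) (hF7 : F7) (hF9 : F9)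
    (hF10 : F10) : CB := by
  classical
  intro D hND
  have hsurj := hCA D hND
  obtain ⟨i, hi⟩ := exists_I
  -- a biquadratic field
  obtain ⟨y₁, y₂, hy₁, hy₂, hy₁₂⟩ := hF9 ⊤ inferInstance isOpen_univ
  obtain ⟨z₁, hz₁⟩ := exists_sqrt ((1 : SG) y₁)
  obtain ⟨z₂, hz₂⟩ := exists_sqrt ((1 : SG) y₂)
  obtain ⟨V, hVn, hVo, hVV', hNDat, hVN⟩ := hNL D hND
    (MulAction.stabilizer SG i ⊓ (MulAction.stabilizer SG z₁ ⊓ MulAction.stabilizer SG z₂))
    ((isOpen_stab i).inter ((isOpen_stab z₁).inter (isOpen_stab z₂)))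
  have hinv : ∀ v ∈ V, v * v = 1 → v = 1 := fun v hv hvv => eq_one_of_sq hvv hi (hVV' hv).1
  -- `SG / V` is not cyclic
  have hnc : ∀ g : SG, ∃ γ : SG, ∀ k : ℕ, (g ^ k)⁻¹ * γ ∉ V := by
    intro g
    by_contra hcon
    push Not at hcon
    have hfix : ∀ w : Sv, (∀ v ∈ V, v w = w) → g w = w → ∀ γ ∈ (⊤ : Subgroup SG), γ w = w := by
      intro w hw hgw γ _
      obtain ⟨k, hk⟩ := hcon γ
      have h1 : (g ^ k) w = w := by
        clear hk
        induction k with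
        | zero => simp
        | succ k ih => rw [pow_succ, AlgEquiv.mul_apply, hgw, ih]
      have h2 : γ = g ^ k * ((g ^ k)⁻¹ * γ) := by group
      rw [h2, AlgEquiv.mul_apply, hw _ hk, h1]
    have hv1 : ∀ v ∈ V, v z₁ = z₁ := fun v hv => (hVV' hv).2.1
    have hv2 : ∀ v ∈ V, v z₂ = z₂ := fun v hv => (hVV' hv).2.2
    have hns : ∀ (y z : Sv), Gen ⊤ y → z ^ 2 = y → (∀ γ ∈ (⊤ : Subgroup SG), γ z = z) → False := by
      intro y z hy hz hall
      refine hy.2.2.2 {y} ⟨y, by simp⟩ (fun y' hy' => ⟨1, by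
        rw [Finset.mem_singleton.1 hy']; rfl⟩) ⟨z, hall, ?_⟩
      rw [Finset.prod_singleton, hz]
    rcases sign_cases hy₁ hz₁ (a := g) (Subgroup.mem_top g) with h1 | h1
    · exact hns y₁ z₁ hy₁ hz₁ (hfix z₁ hv1 h1)
    · rcases sign_cases hy₂ hz₂ (a := g) (Subgroup.mem_top g) with h2 | h2
      · exact hns y₂ z₂ hy₂ hz₂ (hfix z₂ hv2 h2)
      · refine hns (y₁ * y₂) (z₁ * z₂) hy₁₂ (by rw [mul_pow, hz₁, hz₂]; rfl)
          (hfix (z₁ * z₂) (fun v hv => by rw [map_mul, hv1 v hv, hv2 v hv]) ?_)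
        rw [map_mul, h1, h2]; ring
  obtain ⟨B3, hB3⟩ := hF3 V hVo
  refine ⟨max B3 2, fun q hq hqB => ?_⟩
  have hq3 : B3 < q := lt_of_le_of_lt (le_max_left _ _) hqB
  have hq2 : 2 < q := lt_of_le_of_lt (le_max_right _ _) hqB
  by_contra hcon
  push Not at hcon
  have hI : ∀ Q : Place Sv, Q.rchar = q → ∀ g : SG, (∀ y : 𝓞 Sv, g • y - y ∈ Q.ideal) → g ∈ V :=
    fun Q hQ => hB3 Q (by omega)
  obtain ⟨x, hx, hxD⟩ := hF10 V hVn hVo q hq (by omega) hI
  obtain ⟨-, Q0, -, -, -, -, -, hQ0, -⟩ := hcon 0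
  obtain ⟨g, hgQ, hgA⟩ := hF2.1 Q0
  have hpowQ : ∀ (g : SG), g • Q0 = Q0 → ∀ k : ℕ, g ^ k • Q0 = Q0 := by
    intro g hg k
    induction k with
    | zero => simp
    | succ k ih => rw [pow_succ, mul_smul, hg, ih]
  have hIn2 : ∀ Q' : Place Sv, Q'.rchar = Q0.rchar → ∀ g : SG,
      (∀ y : 𝓞 Sv, g • y - y ∈ Q'.ideal) → g ∈ V2 V x := by
    intro Q' hQ' g hg
    refine hxD Q' (hQ'.trans hQ0) g (hI Q' (hQ'.trans hQ0) g hg) ?_
    exact act_stab (m := 1) (fun y => by rw [pow_one]; exact hg y) one_ne_zero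
  have hexo : ∃ k, 0 < k ∧ g ^ k ∈ V := exists_pow_mem V hVn hVo g
  set o := Nat.find hexo with ho
  have ho0 : 0 < o := (Nat.find_spec hexo).1
  have hoV : g ^ o ∈ V := (Nat.find_spec hexo).2
  have homin : ∀ j, 0 < j → j < o → g ^ j ∉ V := fun j hj hjo hjV => Nat.find_min hexo hjo ⟨hj, hjV⟩
  have hoV2 : g ^ o ∈ V2 V x := hxD Q0 hQ0 _ hoV (hpowQ g hgQ o)
  obtain ⟨γ, hγ⟩ := hnc g
  -- the probe
  obtain ⟨L0, hL0⟩ := hPE V hVo hinv x hx
  obtain ⟨l, hlL, hlp⟩ := Nat.exists_infinite_primes (L0 + q + 3)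
  have : Fact l.Prime := ⟨hlp⟩
  have hl2 : l ≠ 2 := by omega
  have hQl : Q0.rchar ≠ l := by omega
  obtain ⟨p⟩ := hL0 l (by omega)
  set φ₁ : V2 V x → ℤ_[l] := psum p g 1 o (fun _ => 1) with hφ₁
  set φ₂ : V2 V x → ℤ_[l] := psum p g γ o (fun _ => 1) with hφ₂
  obtain ⟨c₁, c₂, hc, hc0⟩ : ∃ c₁ c₂ : ℤ_[l], (c₁ ≠ 0 ∨ c₂ ≠ 0) ∧
      c₁ * φ₁ ⟨g ^ o, hoV2⟩ + c₂ * φ₂ ⟨g ^ o, hoV2⟩ = 0 := by
    by_cases h : φ₁ ⟨g ^ o, hoV2⟩ = 0
    · exact ⟨1, 0, Or.inl one_ne_zero, by rw [h]; ring⟩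
    · exact ⟨φ₂ ⟨g ^ o, hoV2⟩, -φ₁ ⟨g ^ o, hoV2⟩, Or.inr (neg_ne_zero.2 h), by ring⟩
  set φ : V2 V x → ℤ_[l] := c₁ • φ₁ + c₂ • φ₂ with hφ
  have hmem : φ ∈ Submodule.span ℤ_[l] (Set.range (tr p)) :=
    Submodule.add_mem _ (Submodule.smul_mem _ _ (psum_mem p g 1 o _))
      (Submodule.smul_mem _ _ (psum_mem p g γ o _))
  have hne : φ ≠ 0 := by
    intro h0
    have hdist : ∀ i j : ℕ, i < o → j < o → (g ^ i)⁻¹ * (g ^ j * γ) ∉ V := by
      intro i j _ hj h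
      apply hγ (i + (o - j))
      have h1 : (g ^ (i + (o - j)))⁻¹ * γ = (g ^ o)⁻¹ * ((g ^ i)⁻¹ * (g ^ j * γ)) := by
        rw [← mul_assoc, ← mul_assoc]
        congr 1
        have h2 : g ^ (i + (o - j)) * (g ^ o)⁻¹ * (g ^ i)⁻¹ * g ^ j = 1 := by
          have e1 : g ^ (i + (o - j)) = g ^ i * g ^ (o - j) := pow_add _ _ _
          have e2 : g ^ o = g ^ (o - j) * g ^ j := by rw [← pow_add]; congr 1; omega
          have c1 : Commute (g ^ i) (g ^ j) := (Commute.refl g).pow_pow i j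
          have c2 : Commute (g ^ i) (g ^ (o - j)) := (Commute.refl g).pow_pow _ _
          rw [e1, e2, mul_inv_rev]
          calc g ^ i * g ^ (o - j) * ((g ^ j)⁻¹ * (g ^ (o - j))⁻¹) * (g ^ i)⁻¹ * g ^ j
              = g ^ i * (g ^ (o - j) * (g ^ j)⁻¹ * (g ^ (o - j))⁻¹) * (g ^ i)⁻¹ * g ^ j := by
                group
            _ = g ^ i * (g ^ j)⁻¹ * (g ^ i)⁻¹ * g ^ j := by
                have c3 : Commute (g ^ (o - j)) (g ^ j)⁻¹ :=
                  ((Commute.refl g).pow_pow _ _).inv_right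
                rw [c3.eq, mul_inv_cancel_right]
            _ = 1 := by
                rw [c1.inv_right.eq, mul_inv_cancel_right, inv_mul_cancel]
        rw [inv_eq_iff_mul_eq_one]
        simpa [mul_assoc] using h2
      rw [h1]
      exact V.mul_mem (V.inv_mem hoV) h
    have h1 := indep hx p ((Finset.range o) ×ˢ (Finset.univ : Finset Bool))
      (fun t => g ^ t.1 * (if t.2 then γ else 1)) (by
        rintro ⟨i, b⟩ hi ⟨j, b'⟩ hj hij
        have hi' : i < o := Finset.mem_range.1 (Finset.mem_product.1 hi).1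
        have hj' : j < o := Finset.mem_range.1 (Finset.mem_product.1 hj).1
        rcases Bool.eq_false_or_eq_true b with rfl | rfl <;>
          rcases Bool.eq_false_or_eq_true b' with rfl | rfl
        · exact pow_coset g _ o homin hi' hj' (fun h => hij (congrArg (fun t => (t, _)) h))
        · intro h
          apply hdist j i hj' hi'
          have := V.inv_mem h
          simpa using this
        · intro h
          apply hdist i j hi' hj'
          simpa using h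
        · exact pow_coset g _ o homin hi' hj' (fun h => hij (congrArg (fun t => (t, _)) h)))
      (fun t => if t.2 then c₂ else c₁) (by
        rw [Finset.sum_product]
        simp only [Fintype.sum_bool, if_true, Bool.false_eq_true, if_false]
        rw [Finset.sum_add_distrib, ← h0, hφ, hφ₁, hφ₂]
        unfold psum
        rw [Finset.smul_sum, Finset.smul_sum, add_comm]
        congr 1 <;> exact Finset.sum_congr rfl fun j _ => by rw [one_smul])
    rcases hc with hc | hc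
    · exact hc (by simpa using h1 (0, false) (by simp [ho0]))
    · exact hc (by simpa using h1 (0, true) (by simp [ho0]))
  have hact : ∀ j : ℕ, act (g ^ j) φ = φ := by
    intro j
    rw [hφ, act_add, act_smul, act_smul,
      act_psum_mul p g 1 o _ hoV (fun z hz => hoV2.2 1 z hz) (fun _ => rfl) 1 (fun _ => rfl) j
        (one_dvd j),
      act_psum_mul p g γ o _ hoV (fun z hz => hoV2.2 γ z hz) (fun _ => rfl) 1 (fun _ => rfl) j
        (one_dvd j)]
  obtain ⟨hadd, hcont, hin⟩ := span_props hF7 hVo p hmem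
  have hV2n : (V2 V x).Normal := V2_normal V x
  have hV2o := isOpen_V2 V hVo x
  obtain ⟨B1, hB1⟩ := lemmaG_unif hLG D V hVo hNDat hVN x hx l hl2 p φ hmem hne
  obtain ⟨P, Q, l', hl', hl'2, hHit, hCor, hQq, hPB⟩ := hcon B1
  obtain ⟨s, hs⟩ := hF5.1 Q Q0 (by rw [hQq, hQ0])
  obtain ⟨d, hd⟩ := hsurj s
  have hCor' : Cor D ((d : BB) • P) Q0 := by
    have := (hF6 D l' P Q d).2 hCor
    rwa [hd, hs] at this
  have hP' : B1 < ((d : BB) • P).rchar := by rw [Place.rchar_smul]; exact hPB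
  obtain ⟨-, -, ⟨σ, hσ⟩, -⟩ := hF1 D.G D.isOpen_G ((d : BB) • P)
  set σ' : D.G := ⟨σ, hσ.1⟩ with hσ'
  have hσP : σ • ((d : BB) • P) = (d : BB) • P :=
    act_stab hσ.2 (pow_ne_zero _ ((d : BB) • P).rchar_prime.ne_zero)
  have hαQ : D.α σ' • Q0 = Q0 := hCor' σ' hσP
  obtain ⟨j, hj⟩ := hF4 (V2 V x) hV2n hV2o Q0 (hIn2 Q0 rfl) g hgA (D.α σ') hαQ
  have hσg : (D.α σ')⁻¹ * g ^ j ∈ V2 V x := by
    have := (V2 V x).inv_mem hj
    rwa [mul_inv_rev, inv_inv] at this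
  obtain ⟨k, hk0, hk⟩ := exists_pow_mem (V2 V x) hV2n hV2o (D.α σ')
  refine hB1 _ hP' σ' hσ (g ^ j) (hact j) hσg k hk hk0 ?_
  refine kill_dec hF4 hadd hcont hVo hQl hin hIn2 hgA o ho0 homin hoV2 ?_ _ (hpowQ _ hαQ k)
  rw [hφ, Pi.add_apply, Pi.smul_apply, Pi.smul_apply, smul_eq_mul, smul_eq_mul]
  exact hc0

end Crest.Agent.R018.CBx933
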