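import Crest.Agent.R018.CA_933

/-!
# Row 18: consequence (C) = `Core_74.CC` (helper656)
-/

set_option autoImplicit false

open NumberField Pointwise
open Crest.NumberTheoryR

namespace Crest.Agent.R018.CCx656

open Crest.Agent.R018.EndDefx924 (Om)
open Crest.Agent.R018.Placesx484
open Crest.Agent.R018.Corex74
open Crest.Agent.R018.BadPhix933
open Crest.Agent.R018.BadPhiBx933
open Crest.Agent.R018.CAx933

/-- only finitely many `q` are hit (for any odd `l`) by places of bounded residue characteristic -/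
theorem finite_target' (hLoc : LocT) (hF5 : F5) (hF6 : F6) (D : Dat) (B : ℕ) :
    {q : ℕ | ∃ (P : Place Om) (Q : Place Sv) (l : ℕ), l.Prime ∧ l ≠ 2 ∧ Hit D l P ∧ Cor D P Q ∧
      P.rchar ≤ B ∧ Q.rchar = q}.Finite := by
  classical
  have hfin : Finite (BB ⧸ D.G) := Subgroup.quotient_finite_of_isOpen D.G D.isOpen_G
  have h0 : ∀ p : ℕ, ∃ P0 : Place Om, p.Prime → P0.rchar = p := by
    intro p
    by_cases hp : p.Prime
    · obtain ⟨P0, h⟩ := ConsDx814.exists_place (E := Om) hp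
      exact ⟨P0, fun _ => h⟩
    · obtain ⟨P0, h⟩ := ConsDx814.exists_place (E := Om) Nat.prime_two
      exact ⟨P0, fun h => absurd h hp⟩
  choose P0 hP0 using h0
  have h1 : ∀ P : Place Om, ∃ b : BB, b • P0 P.rchar = P := fun P =>
    hF5.2 _ _ (hP0 _ P.rchar_prime)
  choose b hb using h1
  let A : Set ℕ := {q : ℕ | ∃ (P : Place Om) (Q : Place Sv) (l : ℕ), l.Prime ∧ l ≠ 2 ∧
      Hit D l P ∧ Cor D P Q ∧ P.rchar ≤ B ∧ Q.rchar = q}
  change A.Finite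
  have h2 : ∀ q : A, ∃ (P : Place Om) (Q : Place Sv) (l : ℕ), l.Prime ∧ l ≠ 2 ∧ Hit D l P ∧
      Cor D P Q ∧ P.rchar ≤ B ∧ Q.rchar = (q : ℕ) := fun q => q.2
  choose P Q l hl hl2 hH hC hB hq using h2
  let Φ : A → Fin (B + 1) × (BB ⧸ D.G) := fun q =>
    (⟨(P q).rchar, Nat.lt_succ_of_le (hB q)⟩, QuotientGroup.mk (b (P q))⁻¹)
  have hΦ : Function.Injective Φ := by
    intro q q' h
    rw [Prod.ext_iff] at h
    obtain ⟨h3, h4⟩ := h
    have h5 : (P q).rchar = (P q').rchar := congrArg Fin.val h3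
    have h6 : (b (P q')) * (b (P q))⁻¹ ∈ D.G := by
      have := QuotientGroup.eq.1 h4
      have h7 := D.G.inv_mem this
      simpa using h7
    let s : D.G := ⟨_, h6⟩
    have h8 : (s : BB) • P q = P q' := by
      change (b (P q') * (b (P q))⁻¹) • P q = P q'
      have h12 : (b (P q))⁻¹ • P q = P0 (P q).rchar := by rw [inv_smul_eq_iff, hb]
      rw [mul_smul, h12, h5, hb]
    have h9 := (hF6 D (l q) (P q) (Q q) s).2 (hC q)
    rw [h8] at h9
    have h10 := ConsDx814.cor_unique hLoc (hl q') (hl2 q') (hH q') (hC q') h9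
    have h11 : (Q q').rchar = (Q q).rchar := by rw [h10, Place.rchar_smul]
    rw [hq, hq] at h11
    exact Subtype.ext h11.symm
  have : Finite A := Finite.of_injective Φ hΦ
  exact Set.toFinite A

/-- **(C)** -/
theorem cc_of (hNL : NDLevel) (hLG : LemmaG) (hPE : ProbeEx) (hLoc : LocT)
    (hF3 : F3) (hF4 : F4) (hF5 : F5) (hF6 : F6) (hF7 : F7) (hF9 : F9) : CC := by
  classical
  intro D hND V' hV'n hV'o
  by_contra hcon
  push Not at hcon
  obtain ⟨i, hi⟩ := exists_I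
  obtain ⟨V, hVn, hVo, hVV', hNDat, hVN⟩ := hNL D hND (V' ⊓ MulAction.stabilizer SG i)
    (by rw [Subgroup.coe_inf]; exact hV'o.inter (isOpen_stab i))
  have hVV : V ≤ V' := hVV'.trans inf_le_left
  have hinv : ∀ v ∈ V, v * v = 1 → v = 1 := fun v hv hvv =>
    eq_one_of_sq hvv hi ((hVV'.trans inf_le_right) hv)
  obtain ⟨x₁, x₂, hx₁, hx₂, hx₁₂⟩ := hF9 V hVn hVo
  set W0 : Subgroup SG := V2 V x₁ ⊓ V2 V x₂ with hW0
  have hn1 : (V2 V x₁).Normal := V2_normal V x₁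
  have hn2 : (V2 V x₂).Normal := V2_normal V x₂
  have hW0n : W0.Normal := inferInstance
  have hW0o : IsOpen (W0 : Set SG) := (isOpen_V2 V hVo x₁).inter (isOpen_V2 V hVo x₂)
  have hW0V : W0 ≤ V := inf_le_left.trans (V2_le V x₁)
  have hfin : Finite (SG ⧸ W0) := Subgroup.quotient_finite_of_isOpen W0 hW0o
  -- pigeonhole
  obtain ⟨⟨c1, c2⟩, hc⟩ := pigeonhole (C := (SG ⧸ W0) × (SG ⧸ W0))
    (fun B c => ∃ (P : Place Om) (Q : Place Sv) (l : ℕ) (σ : D.G) (φ : SG), l.Prime ∧ l ≠ 2 ∧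
      Hit D l P ∧ Cor D P Q ∧ B < Q.rchar ∧ FrobL D.G P (σ : BB) ∧ Act Q φ Q.rchar ∧
      (∀ j : ℕ, ((D.α σ) ^ j)⁻¹ * φ ∉ V') ∧
      (QuotientGroup.mk φ : SG ⧸ W0) = c.1 ∧ (QuotientGroup.mk (D.α σ) : SG ⧸ W0) = c.2)
    (fun B B' c hBB' ⟨P, Q, l, σ, φ, h1, h2, h3, h4, h5, h6⟩ =>
      ⟨P, Q, l, σ, φ, h1, h2, h3, h4, lt_of_le_of_lt hBB' h5, h6⟩)
    (fun B => by
      obtain ⟨P, Q, l, h1, h2, h3, h4, h5, σ, h6, φ, h7, h8⟩ := hcon B
      exact ⟨(QuotientGroup.mk φ, QuotientGroup.mk (D.α σ)), P, Q, l, σ, φ, h1, h2, h3, h4, h5,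
        h6, h7, h8, rfl, rfl⟩)
  obtain ⟨g, rfl⟩ := QuotientGroup.mk_surjective c1
  have hσP : ∀ (P : Place Om) (σ : D.G), FrobL D.G P (σ : BB) → (σ : BB) • P = P :=
    fun P σ hσ => act_stab hσ.2 (pow_ne_zero _ P.rchar_prime.ne_zero)
  obtain ⟨B3, hB3⟩ := hF3 W0 hW0o
  -- the exponent `f`
  obtain ⟨f, hf, hgen⟩ : ∃ f : ℕ, c2 = (QuotientGroup.mk (g ^ f) : SG ⧸ W0) ∧
      ∀ n : ℕ, (g ^ (f * n))⁻¹ * g ∉ V := by
    obtain ⟨P, Q, l, σ, φ, h1, h2, h3, h4, h5, h6, h7, h8, h9, h10⟩ := hc B3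
    obtain ⟨f, hf⟩ := hF4 W0 hW0n hW0o Q (hB3 Q h5) φ h7 (D.α σ) (h4 σ (hσP P σ h6))
    have h11 : (QuotientGroup.mk (g ^ f) : SG ⧸ W0) = QuotientGroup.mk (D.α σ) := by
      have h12 := QuotientGroup.eq.2 hf
      rw [QuotientGroup.mk_pow] at h12 ⊢
      simp only at h9
      rw [← h12, h9]
    refine ⟨f, ?_, fun n hn => h8 n (hVV ?_)⟩
    · simp only at h10
      rw [h11, h10]
    · have h13 : ((D.α σ) ^ n)⁻¹ * φ =
          (((D.α σ) ^ n)⁻¹ * g ^ (f * n)) * ((g ^ (f * n))⁻¹ * g) * (g⁻¹ * φ) := by group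
      rw [h13]
      refine V.mul_mem (V.mul_mem (hW0V ?_) hn) (hW0V ?_)
      · rw [← QuotientGroup.eq, pow_mul, QuotientGroup.mk_pow, QuotientGroup.mk_pow, h11]
      · exact QuotientGroup.eq.1 h9.symm
  -- the minimal exponent
  have hexo : ∃ k, 0 < k ∧ g ^ k ∈ V := exists_pow_mem V hVn hVo g
  set o := Nat.find hexo with ho
  have ho0 : 0 < o := (Nat.find_spec hexo).1
  have hoV : g ^ o ∈ V := (Nat.find_spec hexo).2
  have homin : ∀ j, 0 < j → j < o → g ^ j ∉ V := fun j hj hjo hjV => Nat.find_min hexo hjo ⟨hj, hjV⟩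
  set d := Nat.gcd f o with hd
  have hd0 : 0 < d := Nat.gcd_pos_of_pos_right _ ho0
  have hdo : d ∣ o := Nat.gcd_dvd_right _ _
  have hdf : d ∣ f := Nat.gcd_dvd_left _ _
  have hd2 : 2 ≤ d := by
    by_contra hlt
    have hd1 : Nat.gcd f o = 1 := by omega
    obtain ⟨n, hn⟩ : ∃ n, f * n ≡ 1 [MOD o] := by
      obtain ⟨n, hn⟩ := Nat.exists_mul_mod_eq_of_coprime 1 hd1 ho0.ne'
      exact ⟨n, hn.2⟩
    apply hgen n
    have hgo : (QuotientGroup.mk g : SG ⧸ V) ^ o = 1 := by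
      rw [← QuotientGroup.mk_pow]
      exact (QuotientGroup.eq_one_iff _).2 hoV
    rw [← QuotientGroup.eq, QuotientGroup.mk_pow]
    conv_rhs => rw [← pow_one (QuotientGroup.mk g : SG ⧸ V)]
    rw [pow_eq_pow_iff_modEq]
    exact hn.of_dvd (orderOf_dvd_of_pow_eq_one hgo)
  -- the sign trick
  obtain ⟨x, hx, hW0x, hfix⟩ := sign_trick V hx₁ hx₂ hx₁₂ (g ^ o) hoV
  -- the probe
  obtain ⟨L0, hL0⟩ := hPE V hVo hinv x hx
  obtain ⟨l, hlL, hlp⟩ := Nat.exists_infinite_primes (L0 + 3)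
  have : Fact l.Prime := ⟨hlp⟩
  have hl2 : l ≠ 2 := by omega
  obtain ⟨p⟩ := hL0 l (by omega)
  -- the bad `φ`
  set a : ℕ → ℤ_[l] := fun j => if d ∣ j then 1 else 0 with ha
  have haf : ∀ j, a (j + d) = a j := by
    intro j
    simp only [ha, Nat.dvd_add_self_right]
  have hao : ∀ j, a (j + o) = a j := by
    intro j
    simp only [ha]
    congr 1
    exact propext (Nat.dvd_add_iff_left hdo).symm
  set c : ℕ → ℤ_[l] := fun j => a j - a (j + (d - 1)) with hcdef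
  have hcf : ∀ j, c (j + d) = c j := by
    intro j
    simp only [hcdef]
    rw [haf, show j + d + (d - 1) = j + (d - 1) + d by ring, haf]
  have hco : ∀ j, c (j + o) = c j := by
    intro j
    simp only [hcdef]
    rw [hao, show j + o + (d - 1) = j + (d - 1) + o by ring, hao]
  have hcsum : ∑ j ∈ Finset.range o, c j = 0 := by
    simp only [hcdef]
    rw [Finset.sum_sub_distrib, sum_shift a o hao (d - 1), sub_self]
  have hc0' : c 0 ≠ 0 := by
    have h1 : ¬ d ∣ (d - 1) := fun h => by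
      have := Nat.le_of_dvd (by omega) h
      omega
    simp only [hcdef, ha, zero_add, dvd_zero, if_true, if_neg h1, sub_zero]
    exact one_ne_zero
  have hne : psum p g 1 o c ≠ 0 := psum_ne_zero hx p g 1 o c homin 0 ho0 hc0'
  obtain ⟨B1, hB1⟩ := lemmaG_unif hLG D V hVo hNDat hVN x hx l hl2 p (psum p g 1 o c)
    (psum_mem p g 1 o c) hne
  -- the bounds
  obtain ⟨M, hM⟩ := (finite_target' hLoc hF5 hF6 D B1).bddAbove
  obtain ⟨P, Q, l', σ, φ, h1, h2, h3, h4, h5, h6, h7, h8, h9, h10⟩ := hc (max M l)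
  have hQM : M < Q.rchar := lt_of_le_of_lt (le_max_left _ _) h5
  have hQl : l < Q.rchar := lt_of_le_of_lt (le_max_right _ _) h5
  have hP : B1 < P.rchar := by
    by_contra h
    have h11 : Q.rchar ≤ M := hM ⟨P, Q, l', h1, h2, h3, h4, not_lt.1 h, rfl⟩
    omega
  have hαQ : D.α σ • Q = Q := h4 σ (hσP P σ h6)
  have hφg : φ⁻¹ * g ∈ W0 := QuotientGroup.eq.1 h9
  have hσg : (D.α σ)⁻¹ * g ^ f ∈ W0 := QuotientGroup.eq.1 (h10.trans hf)
  have hact := act_psum_mul p g 1 o c hoV hfix hco d hcf f hdf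
  have hV2n : (V2 V x).Normal := V2_normal V x
  obtain ⟨k, hk0, hk⟩ := exists_pow_mem (V2 V x) hV2n (isOpen_V2 V hVo x) (D.α σ)
  refine hB1 P hP σ h6 (g ^ f) hact (hW0x hσg) k hk hk0 ?_
  have hkQ : ((D.α σ) ^ k) • Q = Q := by
    clear hk hk0
    induction k with
    | zero => simp
    | succ k ih => rw [pow_succ, mul_smul, hαQ, ih]
  rw [psum_apply hF7 hVo p g 1 o c hQl.ne' h7 (hW0x hφg) (h := ⟨(D.α σ) ^ k, hk⟩) hkQ, hcsum,
    zero_mul]

end Crest.Agent.R018.CCx656
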