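import Mathlib

/-!
# Row 18, CORE (E): the choice of the auxiliary prime `l` (statement, helper693)
-/

set_option autoImplicit false

namespace Crest.Agent.R018.LChoiceDefx693

/-- **LCHOICE** (pure number theory): given `m`, for all finite sets `S` of primes `> B₀` and
`T` of primes and all bounds `R`, `B` there is a prime `l > B`, `l ≡ 1 mod m`, such that for every
`q ∈ S`: `m` divides the order of `q` modulo `l`, and no power `p ^ f` (`0 < f ≤ R`) of another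
prime `p ∈ T` is in the subgroup generated by `q` modulo `l`. -/
def LChoice : Prop := ∀ m : ℕ, 0 < m → ∃ B₀ : ℕ, ∀ S : Finset ℕ, (∀ q ∈ S, q.Prime ∧ B₀ < q) →
  ∀ T : Finset ℕ, (∀ t ∈ T, t.Prime) → ∀ R B : ℕ,
  ∃ l : ℕ, l.Prime ∧ B < l ∧ m ∣ l - 1 ∧ ∀ q ∈ S,
    (∀ a b : ℕ, ((q : ℕ) : ZMod l) ^ a = ((q : ℕ) : ZMod l) ^ b → a ≡ b [MOD m]) ∧
    ∀ p ∈ T, p ≠ q → ∀ f j : ℕ, 0 < f → f ≤ R → ((p : ℕ) : ZMod l) ^ f ≠ ((q : ℕ) : ZMod l) ^ j

end Crest.Agent.R018.LChoiceDefx693
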