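import Crest.Agent.R018.Core_74
import Crest.Agent.R018.LChoiceDef_693
import Crest.Agent.R018.Kum_568

/-!
# Row 18, CORE section 8 (E)+(F): the target `CF` of Core_74 (helper819)

`cf_of` : the deduction of `CF` from `LChoice` (693), (A), (B), (D), (S2), LOC and the facts F1-F4.
-/

set_option autoImplicit false

open NumberField
open scoped Pointwise
open Crest.NumberTheoryR

namespace Crest.Agent.R018.CFx819

open Crest.Agent.R018.EndDefx924 (Om)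
open Crest.Agent.R018.Placesx484 Crest.Agent.R018.Corex74

section facts

variable {E : Type*} [Field E] [CharZero E] {H : Type*} [Group H] [MulSemiringAction H E]

/-- an element acting as a power map on the residue field stabilizes the place -/
theorem smul_eq_of_act (P : Place E) (g : H) {q : ℕ} (hq : q ≠ 0) (h : Act P g q) :
    g • P = P := by
  rw [Place.smul_eq_iff]
  intro x hx
  have h1 := h x
  have h2 : x ^ q ∈ P.ideal := Ideal.pow_mem_of_mem _ hx q (Nat.pos_of_ne_zero hq)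
  simpa using add_mem h1 h2

end facts

/-- the subgroup of `SG` fixing the `l`-th roots of unity -/
def Mu (l : ℕ) : Subgroup SG where
  carrier := {g | ∀ ζ : Sv, ζ ^ l = 1 → g ζ = ζ}
  one_mem' := fun _ _ => rfl
  mul_mem' := by
    intro a b ha hb ζ hζ
    rw [AlgEquiv.mul_apply, hb ζ hζ, ha ζ hζ]
  inv_mem' := by
    intro a ha ζ hζ
    have h := ha ζ hζ
    calc a⁻¹ ζ = a⁻¹ (a ζ) := by rw [h]
      _ = ζ := by rw [← AlgEquiv.mul_apply, inv_mul_cancel]; rfl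

theorem mem_Mu {l : ℕ} {g : SG} : g ∈ Mu l ↔ ∀ ζ : Sv, ζ ^ l = 1 → g ζ = ζ := Iff.rfl

theorem Mu_normal (l : ℕ) : (Mu l).Normal := by
  constructor
  intro n hn g
  rw [mem_Mu] at hn ⊢
  intro ζ hζ
  have h1 : (g⁻¹ ζ) ^ l = 1 := by rw [← map_pow, hζ, map_one]
  rw [AlgEquiv.mul_apply, AlgEquiv.mul_apply, hn _ h1, ← AlgEquiv.mul_apply, mul_inv_cancel]
  rfl

theorem Mu_isOpen (l : ℕ) (hl : l ≠ 0) (ζ₀ : Sv) (h₀ : IsPrimitiveRoot ζ₀ l) :
    IsOpen (Mu l : Set SG) := by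
  have : NeZero l := ⟨hl⟩
  have h1 : IsOpen (MulAction.stabilizer SG ζ₀ : Set SG) :=
    stabilizer_isOpen_of_isIntegral (K := ℚ) (L := Sv) ζ₀
  refine Subgroup.isOpen_mono (H₁ := MulAction.stabilizer SG ζ₀) ?_ h1
  intro g hg
  rw [mem_Mu]
  intro ζ hζ
  obtain ⟨i, -, rfl⟩ := h₀.eq_pow_of_pow_eq_one hζ
  have h2 : g ζ₀ = ζ₀ := hg
  rw [map_pow, h2]

/-- powers of `φ` modulo a normal subgroup of finite index -/
theorem pow_congr (V : Subgroup SG) [V.Normal] (φ : SG) {i j : ℕ} (h : i ≡ j [MOD V.index]) :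
    (φ ^ i)⁻¹ * φ ^ j ∈ V := by
  rw [← QuotientGroup.eq]
  have h1 : ((φ : SG ⧸ V)) ^ V.index = 1 := by
    rw [← QuotientGroup.mk_pow]
    exact (QuotientGroup.eq_one_iff _).2 (Subgroup.pow_index_mem V φ)
  have h2 : orderOf (φ : SG ⧸ V) ∣ V.index := orderOf_dvd_of_pow_eq_one h1
  rw [QuotientGroup.mk_pow, QuotientGroup.mk_pow]
  exact pow_eq_pow_iff_modEq.2 (h.of_dvd h2)

/-- the local computation: a place `P → Q`, `char Q = q`, over the auxiliary prime `l` -/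
theorem local_step (hSv : IsSolvablyClosed Sv) (hLoc : LocT) (hF1 : F1) (hF2 : F2) (hF4 : F4)
    (D : Dat) (V : Subgroup SG) [V.Normal] (hVo : IsOpen (V : Set SG))
    (l : ℕ) (hl : l.Prime) (hl2 : l ≠ 2) (P : Place Om) (Q : Place Sv)
    (hhit : Hit D l P) (hcor : Cor D P Q) (hQl : Q.rchar ≠ l)
    (hIn : ∀ g : SG, (∀ y : 𝓞 Sv, g • y - y ∈ Q.ideal) → g ∈ V) :
    ∃ (σ : D.G) (φ : SG) (j : ℕ), FrobL D.G P (σ : BB) ∧ Act Q φ Q.rchar ∧
      (D.α σ)⁻¹ * φ ^ j ∈ V ∧ 0 < fdeg D.G P ∧ fdeg D.G P ≤ D.G.index ∧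
      ((P.rchar : ℕ) : ZMod l) ^ (fdeg D.G P) = ((Q.rchar : ℕ) : ZMod l) ^ j := by
  obtain ⟨hf0, hfi, ⟨σ, hσ⟩, -⟩ := hF1 D.G D.isOpen_G P
  obtain ⟨φ, hφQ, hφ⟩ := hF2.1 Q
  obtain ⟨Q0, -, -, -, hcyc⟩ := hLoc D l hl hl2 P hhit
  have hσP : σ • P = P := smul_eq_of_act P σ (pow_ne_zero _ P.rchar_prime.ne_zero) hσ.2
  have hασ : D.α ⟨σ, hσ.1⟩ • Q = Q := hcor ⟨σ, hσ.1⟩ hσP
  obtain ⟨ζ₀, h₀⟩ := Crest.Agent.R018.Kumx568.exists_primitiveRoot hSv l hl.ne_zero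
  have hMo := Mu_isOpen l hl.ne_zero ζ₀ h₀
  have := Mu_normal l
  have hV'o : IsOpen ((V ⊓ Mu l : Subgroup SG) : Set SG) := by
    rw [Subgroup.coe_inf]; exact hVo.inter hMo
  have hQd : ¬ Q.rchar ∣ l := fun h => hQl ((Nat.prime_dvd_prime_iff_eq Q.rchar_prime hl).1 h)
  have hPd : ¬ P.rchar ∣ l :=
    fun h => hhit.1 ((Nat.prime_dvd_prime_iff_eq P.rchar_prime hl).1 h)
  have hIn' : ∀ g : SG, (∀ y : 𝓞 Sv, g • y - y ∈ Q.ideal) → g ∈ V ⊓ Mu l := by
    intro g hg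
    refine ⟨hIn g hg, fun ζ hζ => ?_⟩
    exact Place.inertia_root Q (g := g) (fun x => hg x) hQd hζ
  obtain ⟨j, hj⟩ := hF4 (V ⊓ Mu l) inferInstance hV'o Q hIn' φ hφ _ hασ
  refine ⟨⟨σ, hσ.1⟩, φ, j, hσ, hφ, ?_, hf0, hfi, ?_⟩
  · have := V.inv_mem hj.1
    simpa [mul_inv_rev] using this
  · -- compare on the roots of unity
    have h1 : ((D.α ⟨σ, hσ.1⟩ ζ₀ : Sv) : Om) = σ (ζ₀ : Om) :=
      hcyc ⟨σ, hσ.1⟩ hσP 1 ζ₀ (by rw [pow_one]; exact h₀.pow_eq_one)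
    have h2 : σ (ζ₀ : Om) = (ζ₀ : Om) ^ (P.rchar ^ fdeg D.G P) := by
      refine Place.frob_root P (g := σ) hσ.2 hPd ?_
      rw [← SubmonoidClass.coe_pow, h₀.pow_eq_one]; rfl
    have h3 : D.α ⟨σ, hσ.1⟩ ζ₀ = (φ ^ j) ζ₀ := by
      have h4 : ((φ ^ j)⁻¹ * D.α ⟨σ, hσ.1⟩) ζ₀ = ζ₀ := hj.2 ζ₀ h₀.pow_eq_one
      rw [AlgEquiv.mul_apply] at h4
      calc D.α ⟨σ, hσ.1⟩ ζ₀ = (φ ^ j * (φ ^ j)⁻¹) (D.α ⟨σ, hσ.1⟩ ζ₀) := by
            rw [mul_inv_cancel]; rfl
        _ = (φ ^ j) ζ₀ := by rw [AlgEquiv.mul_apply, h4]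
    have h5 : ∀ i : ℕ, (φ ^ i) ζ₀ = ζ₀ ^ (Q.rchar ^ i) := by
      intro i
      induction i with
      | zero => simp
      | succ i ih =>
        rw [pow_succ', AlgEquiv.mul_apply, ih, map_pow]
        have h6 : φ ζ₀ = ζ₀ ^ Q.rchar := Place.frob_root Q (g := φ) hφ hQd h₀.pow_eq_one
        rw [h6, ← pow_mul, ← pow_succ']
    have h6 : ζ₀ ^ (P.rchar ^ fdeg D.G P) = ζ₀ ^ (Q.rchar ^ j) := by
      apply Subtype.val_injective
      rw [← h5 j, ← h3, h1, h2]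
      rfl
    have h7 : P.rchar ^ fdeg D.G P ≡ Q.rchar ^ j [MOD l] := by
      have := (h₀.isOfFinOrder hl.ne_zero).pow_eq_pow_iff_modEq.1 h6
      rwa [← h₀.eq_orderOf] at this
    have h8 := (ZMod.natCast_eq_natCast_iff _ _ l).2 h7
    push_cast at h8
    exact h8

/-- **(E)+(F)**: `CF` -/
theorem cf_of (hSv : IsSolvablyClosed Sv) (hL : LChoiceDefx693.LChoice) (hCA : CA) (hCB : CB)
    (hCD : CD) (hBB : BadBound) (hLoc : LocT) (hF1 : F1) (hF2 : F2) (hF3 : F3) (hF4 : F4) :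
    CF := by
  classical
  intro D hND V hVn hVo
  have := hVn
  have : V.FiniteIndex := by
    have := Subgroup.quotient_finite_of_isOpen V hVo
    exact Subgroup.finiteIndex_of_finite_quotient
  -- the modulus
  set N : ℕ := V.index with hN
  have hN0 : N ≠ 0 := Subgroup.FiniteIndex.index_ne_zero
  set R : ℕ := D.G.index with hR
  set M : ℕ := ∏ r ∈ (Finset.range (R + 1)).filter Nat.Prime, r with hM
  have hM0 : M ≠ 0 := Finset.prod_ne_zero_iff.2 fun r hr => (Finset.mem_filter.1 hr).2.ne_zero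
  have hm0 : 0 < N * M := Nat.pos_of_ne_zero (mul_ne_zero hN0 hM0)
  obtain ⟨B1, hB1⟩ := hL (N * M) hm0
  obtain ⟨B2, hB2⟩ := hCB D hND
  obtain ⟨B3, hB3⟩ := hF3 V hVo
  set B0 : ℕ := max B1 (max B2 B3) with hB0
  -- the set of failing primes
  let Good : ℕ → Prop := fun q => ∃ (P : Place Om) (Q : Place Sv) (σ : D.G) (φ : SG),
    P.rchar = q ∧ Q.rchar = q ∧ FrobL D.G P (σ : BB) ∧ Act Q φ q ∧
      (D.α σ)⁻¹ * φ ^ fdeg D.G P ∈ V
  let Fail : Set ℕ := {q | q.Prime ∧ B0 < q ∧ ¬ Good q}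
  have key : ∀ s : Finset ℕ, (s : Set ℕ) ⊆ Fail → s.card ≤ 2 * R := by
    intro s hs
    -- bounds for the primes over the `q ∈ s`
    have hb : ∀ q : ℕ, ∃ B : ℕ, q ∈ s → ∀ (P : Place Om) (Q : Place Sv) (l : ℕ), l.Prime → l ≠ 2 →
        Hit D l P → Cor D P Q → Q.rchar = q → P.rchar ≤ B := by
      intro q
      by_cases hq : q ∈ s
      · obtain ⟨B, hB⟩ := hB2 q (hs hq).1 (lt_of_le_of_lt (by omega) (hs hq).2.1)
        exact ⟨B, fun _ => hB⟩
      · exact ⟨0, fun h => absurd h hq⟩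
    choose b hb using hb
    set T : Finset ℕ := (Finset.range (s.sup b + 1)).filter Nat.Prime with hT
    obtain ⟨l, hl, hBl, hml, hlq⟩ := hB1 s
      (fun q hq => ⟨(hs hq).1, lt_of_le_of_lt (by omega) (hs hq).2.1⟩) T
      (fun t ht => (Finset.mem_filter.1 ht).2) R (5 + s.sup id)
    have hl5 : 5 ≤ l := by omega
    have hl2 : l ≠ 2 := by omega
    have hsurj := hCA D hND
    have hfin : FinPsi D l := by
      refine hCD D hND l hl hl5 fun r hr hrR => ?_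
      refine dvd_trans ?_ hml
      refine dvd_mul_of_dvd_right ?_ _
      exact Finset.dvd_prod_of_mem _ (Finset.mem_filter.2 ⟨Finset.mem_range.2 (by omega), hr⟩)
    refine hBB D hsurj l hl hl5 hfin s fun q hq => ⟨(hs hq).1, ?_, ?_⟩
    · intro h
      have : id q ≤ s.sup id := Finset.le_sup hq
      simp only [id] at this
      omega
    · rintro ⟨P, Q, hhit, hcor, hQ⟩
      apply (hs hq).2.2
      have hQl : Q.rchar ≠ l := by
        intro h
        have : id q ≤ s.sup id := Finset.le_sup hq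
        simp only [id] at this
        omega
      have hQB3 : B3 < Q.rchar := by
        rw [hQ]; exact lt_of_le_of_lt (by omega) (hs hq).2.1
      obtain ⟨σ, φ, j, hσ, hφ, hV, hf0, hfi, hpow⟩ := local_step hSv hLoc hF1 hF2 hF4 D V hVo l hl
        hl2 P Q hhit hcor hQl (fun g hg => hB3 Q hQB3 g hg)
      rw [hQ] at hpow hφ
      have hPT : P.rchar ∈ T := by
        refine Finset.mem_filter.2 ⟨Finset.mem_range.2 ?_, P.rchar_prime⟩
        have h1 := hb q hq P Q l hl hl2 hhit hcor hQ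
        have h2 : b q ≤ s.sup b := Finset.le_sup hq
        omega
      have hPq : P.rchar = q := by
        by_contra hne
        exact (hlq q hq).2 P.rchar hPT hne (fdeg D.G P) j hf0 hfi hpow
      rw [hPq] at hpow
      have hmod : fdeg D.G P ≡ j [MOD N * M] := (hlq q hq).1 _ _ hpow
      have hmod' : j ≡ fdeg D.G P [MOD V.index] := (hmod.of_dvd (Dvd.intro _ rfl)).symm
      refine ⟨P, Q, σ, φ, hPq, hQ, hσ, hφ, ?_⟩
      have h1 := V.mul_mem hV (pow_congr V φ hmod')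
      have h2 : (D.α σ)⁻¹ * φ ^ j * ((φ ^ j)⁻¹ * φ ^ fdeg D.G P) =
          (D.α σ)⁻¹ * φ ^ fdeg D.G P := by group
      rwa [h2] at h1
  have hfinite : Fail.Finite := by
    by_contra hinf
    obtain ⟨s, hs, hcard⟩ := Set.Infinite.exists_subset_card_eq hinf (2 * R + 1)
    have := key s hs
    omega
  refine ⟨max B0 (hfinite.toFinset.sup id), fun q hq hqB => ?_⟩
  by_contra hbad
  have hmem : q ∈ Fail := ⟨hq, lt_of_le_of_lt (le_max_left _ _) hqB, hbad⟩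
  have h1 : id q ≤ hfinite.toFinset.sup id := Finset.le_sup (hfinite.mem_toFinset.2 hmem)
  have h2 := lt_of_le_of_lt (le_max_right _ _) hqB
  simp only [id] at h1
  omega

end Crest.Agent.R018.CFx819
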