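import Mathlib

/-!
# Row 18, end game: frozen definitions (helper924)

Everything is phrased with "geometric places": ring homomorphisms from the ring of algebraic
integers of `E` to an algebraic closure of `ℤ/p`.
-/

set_option autoImplicit false

namespace Crest.Agent.R018.EndDefx924

/-- the algebraic numbers -/
abbrev Om : Type := AlgebraicClosure ℚ

/-- the ring of algebraic integers of `E` -/
abbrev OO (E : Type*) [Field E] : Subalgebra ℤ E := integralClosure ℤ E

/-- a ring homomorphism restricted to algebraic integers -/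
def mapO {E E' : Type*} [Field E] [Field E'] (f : E →+* E') : OO E →+* OO E' :=
  (f.toIntAlgHom.mapIntegralClosure).toRingHom

@[simp] theorem coe_mapO {E E' : Type*} [Field E] [Field E'] (f : E →+* E') (x : OO E) :
    ((mapO f x : OO E') : E') = f x := rfl

theorem mapO_comp {E E' E'' : Type*} [Field E] [Field E'] [Field E''] (f : E →+* E')
    (g : E' →+* E'') (x : OO E) : mapO g (mapO f x) = mapO (g.comp f) x := rfl

theorem mapO_id {E : Type*} [Field E] (x : OO E) : mapO (RingHom.id E) x = x := rfl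

/-- a geometric place of `E` above `p` -/
abbrev Pl (p : ℕ) [Fact p.Prime] (E : Type*) [Field E] : Type _ :=
  OO E →+* AlgebraicClosure (ZMod p)

/-- `g` is a Frobenius at the geometric place `l` of `E` (over `ℤ/p`: `x ↦ x ^ p`) -/
def IsFrobAt (p : ℕ) [Fact p.Prime] {E : Type*} [Field E] (l : Pl p E) (g : E →+* E) : Prop :=
  ∀ x : OO E, l (mapO g x) = l x ^ p

/-- `g` is a `p`-Frobenius at some place of `E` above `p` -/
def IsFrob (p : ℕ) [Fact p.Prime] {E : Type*} [Field E] (g : E →+* E) : Prop :=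
  ∃ l : Pl p E, IsFrobAt p l g

/-- **Frobenius density over `ℚ`** along the set of primes `PP`: for every finite Galois `N/ℚ`
inside `Om`, every `s` and every bound there is a prime `p > B` of `PP` and a `p`-Frobenius `g`
at a place of `Om` above `p` such that `g|N` and `s|N` generate the same cyclic group. -/
def FD (PP : Set ℕ) : Prop :=
  ∀ (N : IntermediateField ℚ Om) [FiniteDimensional ℚ N] [IsGalois ℚ N] (s : Om ≃ₐ[ℚ] Om)
    (B : ℕ), ∃ (p : ℕ) (_ : Fact p.Prime), B < p ∧ p ∈ PP ∧ ∃ (l : Pl p Om) (g : Om ≃ₐ[ℚ] Om),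
      IsFrobAt p l (g : Om →+* Om) ∧ (∃ k : ℕ, ∀ x ∈ N, s x = (g ^ k) x) ∧
        (∃ k : ℕ, ∀ x ∈ N, g x = (s ^ k) x)

/-- **the local correspondence**, the only thing the end game needs about `α` (besides
continuity): `p`-Frobenius elements of `Gal(Om/F₁)` are mapped to `p`-Frobenius elements of
`Gal(E₂/F₂)`, for the primes `p` in `PP`. -/
def LC {F₁ F₂ E₂ : Type*} [Field F₁] [Algebra F₁ Om] [Field F₂] [Field E₂] [Algebra F₂ E₂]
    (PP : Set ℕ) (α : (Om ≃ₐ[F₁] Om) →* (E₂ ≃ₐ[F₂] E₂)) : Prop :=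
  ∀ (p : ℕ) [Fact p.Prime], p ∈ PP → ∀ g : Om ≃ₐ[F₁] Om,
    IsFrob p (g : Om →+* Om) → IsFrob p (α g : E₂ →+* E₂)

end Crest.Agent.R018.EndDefx924
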