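import Mathlib

/-!
# Places of (infinite) algebraic extensions of ℚ  (row 18, helper484)

`Place E` : nonzero prime ideals of `𝓞 E` (the ring of all algebraic integers of the field `E`).
-/

set_option autoImplicit false

open NumberField Pointwise

namespace Crest.Agent.R018.Placesx484

/-- A (finite) place of a field `E` (algebraic over `ℚ`): a nonzero prime ideal of the ring `𝓞 E`
of all algebraic integers of `E`. -/
@[ext] structure Place (E : Type*) [Field E] where
  /-- the prime ideal -/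
  ideal : Ideal (𝓞 E)
  isPrime : ideal.IsPrime
  ne_bot : ideal ≠ ⊥

namespace Place

section Basic

variable {E : Type*} [Field E]

instance (P : Place E) : P.ideal.IsPrime := P.isPrime

instance {G : Type*} [Group G] [MulSemiringAction G E] : MulAction G (Place E) where
  smul g P :=
    { ideal := g • P.ideal
      isPrime := by
        rw [Ideal.pointwise_smul_eq_comap]
        exact Ideal.comap_isPrime _ _
      ne_bot := by
        intro h
        apply P.ne_bot
        rw [eq_bot_iff]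
        intro x hx
        have h1 : g • x ∈ g • P.ideal := Ideal.smul_mem_pointwise_smul g x _ hx
        rw [h, Ideal.mem_bot] at h1
        have h2 : g⁻¹ • g • x = 0 := by rw [h1, smul_zero]
        rwa [inv_smul_smul] at h2 }
  one_smul P := Place.ext (one_smul _ _)
  mul_smul g h P := Place.ext (mul_smul _ _ _)

@[simp] theorem smul_ideal {G : Type*} [Group G] [MulSemiringAction G E] (g : G) (P : Place E) :
    (g • P).ideal = g • P.ideal := rfl

theorem mem_smul_ideal {G : Type*} [Group G] [MulSemiringAction G E] (g : G) (P : Place E)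
    (x : 𝓞 E) : x ∈ (g • P).ideal ↔ g⁻¹ • x ∈ P.ideal :=
  Ideal.mem_pointwise_smul_iff_inv_smul_mem

theorem smul_mem_smul_ideal {G : Type*} [Group G] [MulSemiringAction G E] (g : G) (P : Place E)
    (x : 𝓞 E) : g • x ∈ (g • P).ideal ↔ x ∈ P.ideal :=
  Ideal.smul_mem_pointwise_smul_iff

theorem one_notMem (P : Place E) : (1 : 𝓞 E) ∉ P.ideal := by
  intro h
  exact P.isPrime.ne_top ((Ideal.eq_top_iff_one _).2 h)

theorem isMaximal (P : Place E) [CharZero E] : P.ideal.IsMaximal := by
  have h0 : P.ideal.comap (algebraMap ℤ (𝓞 E)) ≠ ⊥ := by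
    obtain ⟨x, hx, hx0⟩ := Submodule.exists_mem_ne_zero_of_ne_bot P.ne_bot
    exact Ideal.comap_ne_bot_of_integral_mem (R := ℤ) hx0 hx
      (NumberField.RingOfIntegers.isIntegral x)
  have h1 : (P.ideal.comap (algebraMap ℤ (𝓞 E))).IsPrime := Ideal.comap_isPrime _ _
  have h2 : (P.ideal.comap (algebraMap ℤ (𝓞 E))).IsMaximal := h1.isMaximal h0
  exact Ideal.isMaximal_of_isIntegral_of_isMaximal_comap P.ideal h2

/-- the trace of a place on a subfield -/
def res (M : Type*) [Field M] [Algebra M E] (P : Place E) : Place M where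
  ideal := P.ideal.comap (algebraMap (𝓞 M) (𝓞 E))
  isPrime := Ideal.comap_isPrime _ _
  ne_bot := by
    obtain ⟨x, hx, hx0⟩ := Submodule.exists_mem_ne_zero_of_ne_bot P.ne_bot
    exact Ideal.comap_ne_bot_of_integral_mem (R := 𝓞 M) hx0 hx (Algebra.IsIntegral.isIntegral x)

@[simp] theorem res_ideal (M : Type*) [Field M] [Algebra M E] (P : Place E) :
    (P.res M).ideal = P.ideal.comap (algebraMap (𝓞 M) (𝓞 E)) := rfl

theorem mem_res (M : Type*) [Field M] [Algebra M E] (P : Place E) (x : 𝓞 M) :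
    x ∈ (P.res M).ideal ↔ algebraMap (𝓞 M) (𝓞 E) x ∈ P.ideal := Iff.rfl

theorem res_res (L M : Type*) [Field L] [Field M] [Algebra L M] [Algebra M E] [Algebra L E]
    [IsScalarTower L M E] (P : Place E) : (P.res M).res L = P.res L := by
  ext x
  simp only [mem_res, ← IsScalarTower.algebraMap_apply]

/-- every place of `M` extends to `E` (`E/M` algebraic) -/
theorem exists_res_eq (M : Type*) [Field M] [Algebra M E] (Q : Place M) :
    ∃ P : Place E, P.res M = Q := by
  obtain ⟨I, hI, hI2⟩ := Ideal.exists_ideal_over_prime_of_isIntegral_of_isDomain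
    (S := 𝓞 E) Q.ideal (by
      rw [(RingHom.injective_iff_ker_eq_bot _).1
        (NumberField.RingOfIntegers.algebraMap.injective M E)]
      exact bot_le)
  refine ⟨⟨I, hI, ?_⟩, Place.ext hI2⟩
  rintro rfl
  apply Q.ne_bot
  rw [← hI2]
  exact (RingHom.injective_iff_ker_eq_bot _).1 (NumberField.RingOfIntegers.algebraMap.injective M E)

end Basic

section Char

variable {E : Type*} [Field E]

/-- every place lies above a rational prime -/
theorem exists_prime_mem (P : Place E) [CharZero E] : ∃ p : ℕ, p.Prime ∧ (p : 𝓞 E) ∈ P.ideal := by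
  have h0 : P.ideal.comap (algebraMap ℤ (𝓞 E)) ≠ ⊥ := by
    obtain ⟨x, hx, hx0⟩ := Submodule.exists_mem_ne_zero_of_ne_bot P.ne_bot
    exact Ideal.comap_ne_bot_of_integral_mem (R := ℤ) hx0 hx
      (NumberField.RingOfIntegers.isIntegral x)
  have h1 : (P.ideal.comap (algebraMap ℤ (𝓞 E))).IsPrime := Ideal.comap_isPrime _ _
  obtain ⟨a, ha⟩ := (IsPrincipalIdealRing.principal (P.ideal.comap (algebraMap ℤ (𝓞 E)))).principal
  have ha0 : a ≠ 0 := by
    rintro rfl
    apply h0
    rw [ha]; simp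
  have hpr : Prime a := by
    rw [ha] at h1
    exact (Ideal.span_singleton_prime ha0).1 h1
  refine ⟨a.natAbs, Int.prime_iff_natAbs_prime.1 hpr, ?_⟩
  have hmem : a ∈ P.ideal.comap (algebraMap ℤ (𝓞 E)) := by
    rw [ha]; exact Submodule.mem_span_singleton_self a
  have h2 : ((a.natAbs : ℤ) : 𝓞 E) ∈ P.ideal := by
    rcases Int.natAbs_eq a with h | h
    · rw [← h]; simpa using hmem
    · have : ((a.natAbs : ℤ)) = - a := by omega
      rw [this]; simpa using hmem
  simpa using h2

/-- the residue characteristic -/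
noncomputable def rchar (P : Place E) [CharZero E] : ℕ := P.exists_prime_mem.choose

theorem rchar_prime (P : Place E) [CharZero E] : P.rchar.Prime := P.exists_prime_mem.choose_spec.1

theorem rchar_mem (P : Place E) [CharZero E] : (P.rchar : 𝓞 E) ∈ P.ideal :=
  P.exists_prime_mem.choose_spec.2

theorem natCast_mem_iff (P : Place E) [CharZero E] (n : ℕ) :
    (n : 𝓞 E) ∈ P.ideal ↔ P.rchar ∣ n := by
  constructor
  · intro h
    by_contra hn
    have hc : Nat.Coprime P.rchar n := (Nat.Prime.coprime_iff_not_dvd P.rchar_prime).2 hn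
    have h1 : ((1 : ℤ) : 𝓞 E) ∈ P.ideal := by
      have := Nat.gcd_eq_gcd_ab P.rchar n
      rw [hc] at this
      rw [show (1 : ℤ) = ((1 : ℕ) : ℤ) from rfl, this]
      push_cast
      exact Ideal.add_mem _ (Ideal.mul_mem_right _ _ P.rchar_mem) (Ideal.mul_mem_right _ _ h)
    exact P.one_notMem (by simpa using h1)
  · rintro ⟨m, rfl⟩
    push_cast
    exact Ideal.mul_mem_right _ _ P.rchar_mem

theorem rchar_eq_of_mem (P : Place E) [CharZero E] {p : ℕ} (hp : p.Prime)
    (h : (p : 𝓞 E) ∈ P.ideal) : P.rchar = p :=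
  (Nat.prime_dvd_prime_iff_eq P.rchar_prime hp).1 ((P.natCast_mem_iff p).1 h)

theorem rchar_res (M : Type*) [Field M] [Algebra M E] [CharZero E] [CharZero M] (P : Place E) :
    (P.res M).rchar = P.rchar := by
  apply rchar_eq_of_mem _ P.rchar_prime
  rw [mem_res]
  simpa using P.rchar_mem

theorem rchar_smul {G : Type*} [Group G] [MulSemiringAction G E] [CharZero E] (g : G)
    (P : Place E) : (g • P).rchar = P.rchar := by
  apply rchar_eq_of_mem _ P.rchar_prime
  rw [mem_smul_ideal]
  have : g⁻¹ • ((P.rchar : ℕ) : 𝓞 E) = (P.rchar : 𝓞 E) :=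
    map_natCast (MulSemiringAction.toRingHom G (𝓞 E) g⁻¹) P.rchar
  rw [this]
  exact P.rchar_mem

end Char

section Val

variable {E : Type*} [Field E] [CharZero E] [Algebra.IsAlgebraic ℚ E]

theorem dedekind_total {A : Type*} [CommRing A] [IsDedekindDomain A] (p : Ideal A) [p.IsPrime]
    (hp : p ≠ ⊥) (a b : A) : ∃ s c : A, s ∉ p ∧ (s * b = a * c ∨ s * a = b * c) := by
  have := IsLocalization.AtPrime.isDiscreteValuationRing_of_dedekind_domain A hp
    (Localization.AtPrime p)
  have key : ∀ a b : A, algebraMap A (Localization.AtPrime p) a ∣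
      algebraMap A (Localization.AtPrime p) b → ∃ s c : A, s ∉ p ∧ s * b = a * c := by
    intro a b ⟨z, hz⟩
    obtain ⟨c, s, rfl⟩ := IsLocalization.exists_mk'_eq p.primeCompl z
    have h2 : algebraMap A (Localization.AtPrime p) (b * s) =
        algebraMap A (Localization.AtPrime p) (a * c) := by
      rw [map_mul, map_mul, hz, mul_assoc, IsLocalization.mk'_spec]
    obtain ⟨t, ht⟩ := (IsLocalization.eq_iff_exists p.primeCompl _).1 h2
    refine ⟨t * s, t * c, ?_, ?_⟩
    · exact (t * s).2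
    · linear_combination ht
  rcases ValuationRing.dvd_total (algebraMap A (Localization.AtPrime p) a)
    (algebraMap A (Localization.AtPrime p) b) with h | h
  · obtain ⟨s, c, hs, h⟩ := key a b h
    exact ⟨s, c, hs, Or.inl h⟩
  · obtain ⟨s, c, hs, h⟩ := key b a h
    exact ⟨s, c, hs, Or.inr h⟩

/-- Each `x : E` is a fraction of algebraic integers. -/
theorem exists_div (x : E) : ∃ a b : 𝓞 E, b ≠ 0 ∧ x * algebraMap (𝓞 E) E b = algebraMap (𝓞 E) E a := by
  have hx : IsAlgebraic ℤ x := (IsFractionRing.isAlgebraic_iff ℤ ℚ E).2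
    (Algebra.IsAlgebraic.isAlgebraic (R := ℚ) x)
  obtain ⟨y, hy0, hy⟩ := hx.exists_integral_multiple
  have h1 : (algebraMap ℤ E y) ≠ 0 := by simpa using hy0
  refine ⟨⟨y • x, hy⟩, ⟨algebraMap ℤ E y, isIntegral_algebraMap⟩, ?_, ?_⟩
  · intro h
    apply h1
    have := congrArg (algebraMap (𝓞 E) E) h
    simpa using this
  · simp [Algebra.smul_def, mul_comm]

/-- the valuation ring of a place -/
theorem exists_of_place (P : Place E) (x : E) :
    ∃ a s : 𝓞 E, s ∉ P.ideal ∧ (x * algebraMap (𝓞 E) E s = algebraMap (𝓞 E) E a ∨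
      algebraMap (𝓞 E) E s = algebraMap (𝓞 E) E a * x) := by
  let K := IntermediateField.adjoin ℚ {x}
  have hfin : FiniteDimensional ℚ K := IntermediateField.adjoin.finiteDimensional
    (Algebra.IsAlgebraic.isAlgebraic (R := ℚ) x).isIntegral
  have hK : NumberField K := { to_finiteDimensional := hfin }
  obtain ⟨a, b, hb, hab⟩ := IsFractionRing.div_surjective (A := 𝓞 K)
    (⟨x, IntermediateField.mem_adjoin_simple_self ℚ x⟩ : K)
  have hb0 : b ≠ 0 := nonZeroDivisors.ne_zero hb
  have hbE : ((algebraMap (𝓞 K) (𝓞 E) b : 𝓞 E) : E) ≠ 0 := by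
    rw [NumberField.RingOfIntegers.coe_ne_zero_iff]
    intro h
    apply hb0
    exact (map_eq_zero_iff _ (NumberField.RingOfIntegers.algebraMap.injective K E)).1 h
  have hx : x * (algebraMap (𝓞 K) (𝓞 E) b : E) = (algebraMap (𝓞 K) (𝓞 E) a : E) := by
    have h1 := congrArg (algebraMap K E) hab
    rw [map_div₀] at h1
    have h2 : algebraMap K E (algebraMap (𝓞 K) K b) = (algebraMap (𝓞 K) (𝓞 E) b : E) := rfl
    have h3 : algebraMap K E (algebraMap (𝓞 K) K a) = (algebraMap (𝓞 K) (𝓞 E) a : E) := rfl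
    rw [h2, h3, div_eq_iff hbE] at h1
    exact h1.symm
  obtain ⟨s, c, hs, h⟩ := dedekind_total (P.res K).ideal (P.res K).ne_bot a b
  refine ⟨algebraMap _ _ c, algebraMap _ _ s, hs, ?_⟩
  rcases h with h | h
  · right
    -- s b = a c
    have h' : (algebraMap (𝓞 K) (𝓞 E) s : E) * (algebraMap (𝓞 K) (𝓞 E) b : E) =
        (algebraMap (𝓞 K) (𝓞 E) a : E) * (algebraMap (𝓞 K) (𝓞 E) c : E) := by
      have := congrArg (fun z : 𝓞 K => ((algebraMap (𝓞 K) (𝓞 E) z : 𝓞 E) : E)) h
      simpa using this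
    apply mul_right_cancel₀ hbE
    rw [h', ← hx]; ring
  · left
    have h' : (algebraMap (𝓞 K) (𝓞 E) s : E) * (algebraMap (𝓞 K) (𝓞 E) a : E) =
        (algebraMap (𝓞 K) (𝓞 E) b : E) * (algebraMap (𝓞 K) (𝓞 E) c : E) := by
      have := congrArg (fun z : 𝓞 K => ((algebraMap (𝓞 K) (𝓞 E) z : 𝓞 E) : E)) h
      simpa using this
    apply mul_right_cancel₀ hbE
    rw [mul_right_comm, hx, mul_comm, h', mul_comm]

/-- the valuation ring of a place -/
noncomputable def val (P : Place E) : ValuationSubring E where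
  carrier := {x | ∃ a s : 𝓞 E, s ∉ P.ideal ∧ x * algebraMap (𝓞 E) E s = algebraMap (𝓞 E) E a}
  mul_mem' := by
    rintro x y ⟨a, s, hs, h⟩ ⟨b, t, ht, h'⟩
    refine ⟨a * b, s * t, ?_, ?_⟩
    · intro hst
      rcases P.isPrime.mem_or_mem hst with h | h
      · exact hs h
      · exact ht h
    · push_cast [map_mul]
      rw [← h, ← h']; ring
  one_mem' := ⟨1, 1, P.one_notMem, by simp⟩
  add_mem' := by
    rintro x y ⟨a, s, hs, h⟩ ⟨b, t, ht, h'⟩
    refine ⟨a * t + b * s, s * t, ?_, ?_⟩
    · intro hst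
      rcases P.isPrime.mem_or_mem hst with h | h
      · exact hs h
      · exact ht h
    · push_cast [map_mul, map_add]
      rw [← h, ← h']; ring
  zero_mem' := ⟨0, 1, P.one_notMem, by simp⟩
  neg_mem' := by
    rintro x ⟨a, s, hs, h⟩
    exact ⟨-a, s, hs, by rw [map_neg, ← h]; ring⟩
  mem_or_inv_mem' := by
    intro x
    by_cases hx : x = 0
    · left; subst hx; exact ⟨0, 1, P.one_notMem, by simp⟩
    obtain ⟨a, s, hs, h | h⟩ := P.exists_of_place x
    · left; exact ⟨a, s, hs, h⟩
    · right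
      refine ⟨a, s, hs, ?_⟩
      rw [h]; field_simp

theorem mem_val (P : Place E) (x : E) :
    x ∈ P.val ↔ ∃ a s : 𝓞 E, s ∉ P.ideal ∧ x * algebraMap (𝓞 E) E s = algebraMap (𝓞 E) E a := Iff.rfl

theorem coe_mem_val (P : Place E) (x : 𝓞 E) : algebraMap (𝓞 E) E x ∈ P.val :=
  ⟨x, 1, P.one_notMem, by simp⟩

/-- the (canonical) valuation of a place -/
noncomputable def v (P : Place E) : Valuation E P.val.ValueGroup := P.val.valuation

theorem v_le_one_iff (P : Place E) (x : E) : P.v x ≤ 1 ↔ x ∈ P.val :=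
  ValuationSubring.valuation_le_one_iff _ _

theorem v_int_le_one (P : Place E) (x : 𝓞 E) : P.v (algebraMap (𝓞 E) E x) ≤ 1 :=
  (P.v_le_one_iff _).2 (P.coe_mem_val x)

theorem v_int_lt_one_iff (P : Place E) (x : 𝓞 E) : P.v (algebraMap (𝓞 E) E x) < 1 ↔ x ∈ P.ideal := by
  by_cases hx0 : x = 0
  · subst hx0; simp
  have hx0' : algebraMap (𝓞 E) E x ≠ 0 := NumberField.RingOfIntegers.coe_ne_zero_iff.2 hx0
  constructor
  · intro h
    by_contra hx
    have : P.v ((algebraMap (𝓞 E) E x)⁻¹) ≤ 1 := by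
      rw [v_le_one_iff]
      exact ⟨1, x, hx, by rw [inv_mul_cancel₀ hx0']; simp⟩
    rw [map_inv₀] at this
    have h0 : P.v (algebraMap (𝓞 E) E x) ≠ 0 := (Valuation.ne_zero_iff _).2 hx0'
    have h3 : 1 < (P.v (algebraMap (𝓞 E) E x))⁻¹ := (one_lt_inv₀ (zero_lt_iff.2 h0)).2 h
    exact absurd this (not_le.2 h3)
  · intro h
    by_contra hlt
    have h1 : P.v (algebraMap (𝓞 E) E x) = 1 := le_antisymm (P.v_int_le_one x) (not_lt.1 hlt)
    have h2 : P.v ((algebraMap (𝓞 E) E x)⁻¹) ≤ 1 := by rw [map_inv₀, h1, inv_one]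
    rw [v_le_one_iff] at h2
    obtain ⟨a, s, hs, hxs⟩ := h2
    apply hs
    have h3 : s = a * x := by
      apply NumberField.RingOfIntegers.coe_injective
      rw [map_mul]
      rw [← hxs]; field_simp
    rw [h3]
    exact Ideal.mul_mem_left _ _ h

theorem val_ne_top (P : Place E) : P.val ≠ ⊤ := by
  intro h
  obtain ⟨x, hx, hx0⟩ := Submodule.exists_mem_ne_zero_of_ne_bot P.ne_bot
  have h1 : P.v (algebraMap (𝓞 E) E x) < 1 := (P.v_int_lt_one_iff x).2 hx
  have hx0' : algebraMap (𝓞 E) E x ≠ 0 := NumberField.RingOfIntegers.coe_ne_zero_iff.2 hx0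
  have h2 : P.v ((algebraMap (𝓞 E) E x)⁻¹) ≤ 1 := by
    rw [v_le_one_iff, h]; trivial
  rw [map_inv₀] at h2
  have h0 : P.v (algebraMap (𝓞 E) E x) ≠ 0 := (Valuation.ne_zero_iff _).2 hx0'
  exact absurd h2 (not_le.2 ((one_lt_inv₀ (zero_lt_iff.2 h0)).2 h1))

/-- the place attached to a nontrivial valuation ring -/
noncomputable def ofVal (O : ValuationSubring E) (hO : O ≠ ⊤) : Place E where
  ideal :=
    { carrier := {x | O.valuation (algebraMap (𝓞 E) E x) < 1}
      add_mem' := by
        intro a b ha hb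
        simp only [Set.mem_ofPred_eq, map_add] at *
        exact lt_of_le_of_lt (Valuation.map_add _ _ _) (max_lt ha hb)
      zero_mem' := by simp
      smul_mem' := by
        intro c x hx
        simp only [Set.mem_ofPred_eq, smul_eq_mul, map_mul] at *
        have hc : O.valuation (algebraMap (𝓞 E) E c) ≤ 1 := by
          rw [ValuationSubring.valuation_le_one_iff]
          exact O.toSubring.toSubsemiring.toSubmonoid |> fun _ => by
            have hint : IsIntegral ℤ (algebraMap (𝓞 E) E c) := NumberField.RingOfIntegers.isIntegral_coe c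
            have hint' : IsIntegral O (algebraMap (𝓞 E) E c) := hint.tower_top
            obtain ⟨y, hy⟩ := IsIntegrallyClosed.isIntegral_iff.1 hint'
            rw [← hy]; exact y.2
        calc O.valuation (algebraMap (𝓞 E) E c) * O.valuation (algebraMap (𝓞 E) E x) ≤ 1 * O.valuation (algebraMap (𝓞 E) E x) := by gcongr
          _ < 1 := by simpa using hx }
  isPrime := by
    constructor
    · rw [Ideal.ne_top_iff_one]
      intro h
      have : O.valuation (algebraMap (𝓞 E) E 1) < 1 := h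
      simp at this
    · intro x y hxy
      have hxy' : O.valuation (algebraMap (𝓞 E) E (x * y)) < 1 := hxy
      by_contra hcon
      rw [not_or] at hcon
      have h1 : ¬ O.valuation (algebraMap (𝓞 E) E x) < 1 := hcon.1
      have h2 : ¬ O.valuation (algebraMap (𝓞 E) E y) < 1 := hcon.2
      rw [not_lt] at h1 h2
      apply absurd hxy'
      rw [not_lt, map_mul, map_mul]
      exact one_le_mul h1 h2
  ne_bot := by
    intro h
    apply hO
    rw [eq_top_iff]
    intro x _
    -- `x = a / b`, with `b` a unit of O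
    obtain ⟨a, b, hb, hab⟩ := exists_div x
    have hb1 : ¬ O.valuation (algebraMap (𝓞 E) E b) < 1 := by
      intro h1
      apply hb
      have : b ∈ (⊥ : Ideal (𝓞 E)) := by rw [← h]; exact h1
      simpa using this
    rw [← ValuationSubring.valuation_le_one_iff]
    have hcc : ∀ c : 𝓞 E, O.valuation (algebraMap (𝓞 E) E c) ≤ 1 := by
      intro c
      rw [ValuationSubring.valuation_le_one_iff]
      have hint : IsIntegral ℤ (algebraMap (𝓞 E) E c) := NumberField.RingOfIntegers.isIntegral_coe c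
      have hint' : IsIntegral O (algebraMap (𝓞 E) E c) := hint.tower_top
      obtain ⟨y, hy⟩ := IsIntegrallyClosed.isIntegral_iff.1 hint'
      rw [← hy]; exact y.2
    have hb2 : O.valuation (algebraMap (𝓞 E) E b) = 1 := le_antisymm (hcc b) (not_lt.1 hb1)
    have := hcc a
    rwa [← hab, map_mul, hb2, mul_one] at this

theorem mem_ofVal (O : ValuationSubring E) (hO : O ≠ ⊤) (x : 𝓞 E) :
    x ∈ (ofVal O hO).ideal ↔ O.valuation (algebraMap (𝓞 E) E x) < 1 := Iff.rfl

theorem int_mem_valuationSubring (O : ValuationSubring E) (c : 𝓞 E) :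
    algebraMap (𝓞 E) E c ∈ O := by
  have hint : IsIntegral ℤ (algebraMap (𝓞 E) E c) := NumberField.RingOfIntegers.isIntegral_coe c
  have hint' : IsIntegral O (algebraMap (𝓞 E) E c) := hint.tower_top
  obtain ⟨y, hy⟩ := IsIntegrallyClosed.isIntegral_iff.1 hint'
  rw [← hy]; exact y.2

theorem ext_of_val_le {P Q : Place E} (h : P.val ≤ Q.val) : P = Q := by
  have h1 : Q.ideal ≤ P.ideal := by
    intro x hx
    by_contra hxP
    have hx0 : algebraMap (𝓞 E) E x ≠ 0 := by
      intro h0
      apply hxP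
      have : x = 0 := NumberField.RingOfIntegers.coe_eq_zero_iff.1 h0
      rw [this]; exact Ideal.zero_mem _
    have h2 : (algebraMap (𝓞 E) E x)⁻¹ ∈ P.val :=
      ⟨1, x, hxP, by rw [inv_mul_cancel₀ hx0]; simp⟩
    have h3 := (Q.v_le_one_iff _).2 (h h2)
    rw [map_inv₀] at h3
    have h4 := (Q.v_int_lt_one_iff x).2 hx
    have h0 : Q.v (algebraMap (𝓞 E) E x) ≠ 0 := (Valuation.ne_zero_iff _).2 hx0
    exact absurd h3 (not_le.2 ((one_lt_inv₀ (zero_lt_iff.2 h0)).2 h4))
  exact (Place.ext (Q.isMaximal.eq_of_le P.isPrime.ne_top h1)).symm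

theorem ext_of_val {P Q : Place E} (h : P.val = Q.val) : P = Q := ext_of_val_le h.le

theorem ext_of_ideal_le {P Q : Place E} (h : P.ideal ≤ Q.ideal) : P = Q :=
  Place.ext (P.isMaximal.eq_of_le Q.isPrime.ne_top h)

theorem val_ofVal (O : ValuationSubring E) (hO : O ≠ ⊤) : (ofVal O hO).val = O := by
  ext x
  rw [mem_val]
  constructor
  · rintro ⟨a, s, hs, h⟩
    rw [mem_ofVal, not_lt] at hs
    have hs1 : O.valuation (algebraMap (𝓞 E) E s) = 1 := le_antisymm
      ((O.valuation_le_one_iff _).2 (int_mem_valuationSubring O s)) hs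
    rw [← O.valuation_le_one_iff]
    have ha := (O.valuation_le_one_iff _).2 (int_mem_valuationSubring O a)
    rwa [← h, map_mul, hs1, mul_one] at ha
  · intro hx
    rw [← O.valuation_le_one_iff] at hx
    obtain ⟨a, s, hs, h | h⟩ := (ofVal O hO).exists_of_place x
    · exact ⟨a, s, hs, h⟩
    · rw [mem_ofVal, not_lt] at hs
      have ha := (O.valuation_le_one_iff _).2 (int_mem_valuationSubring O a)
      refine ⟨s, a, ?_, by rw [h, mul_comm]⟩
      rw [mem_ofVal, not_lt]
      rw [h, map_mul] at hs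
      calc 1 ≤ _ := hs
        _ ≤ O.valuation (algebraMap (𝓞 E) E a) * 1 := by gcongr
        _ = _ := mul_one _

theorem ofVal_val (P : Place E) : ofVal P.val P.val_ne_top = P := by
  ext x
  rw [mem_ofVal]
  exact P.v_int_lt_one_iff x

theorem v_lt_one_iff (P : Place E) {x : E} (hx : x ≠ 0) : P.v x < 1 ↔ x⁻¹ ∉ P.val := by
  rw [← v_le_one_iff, map_inv₀, not_le]
  have h0 : P.v x ≠ 0 := (Valuation.ne_zero_iff _).2 hx
  exact (one_lt_inv₀ (zero_lt_iff.2 h0)).symm

theorem v_eq_one_iff (P : Place E) {x : E} (hx : x ≠ 0) :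
    P.v x = 1 ↔ x ∈ P.val ∧ x⁻¹ ∈ P.val := by
  constructor
  · intro h
    refine ⟨(P.v_le_one_iff _).1 h.le, (P.v_le_one_iff _).1 ?_⟩
    rw [map_inv₀, h, inv_one]
  · rintro ⟨h1, h2⟩
    apply le_antisymm ((P.v_le_one_iff _).2 h1)
    by_contra h
    exact ((P.v_lt_one_iff hx).1 (not_le.1 h)) h2

end Val

section Res

variable {E : Type*} [Field E] [CharZero E] [Algebra.IsAlgebraic ℚ E]
variable (M : Type*) [Field M] [CharZero M] [Algebra.IsAlgebraic ℚ M] [Algebra M E]

theorem mem_val_res (P : Place E) (x : M) : x ∈ (P.res M).val ↔ algebraMap M E x ∈ P.val := by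
  have h1 : (P.res M).val ≤ P.val.comap (algebraMap M E) := by
    rintro x ⟨a, s, hs, h⟩
    refine ⟨algebraMap _ _ a, algebraMap _ _ s, hs, ?_⟩
    have h1 := congrArg (algebraMap M E) h
    rw [map_mul] at h1
    exact h1
  constructor
  · intro hx; exact h1 hx
  · intro hx
    have h2 : P.val.comap (algebraMap M E) ≠ ⊤ := by
      intro h
      obtain ⟨y, hy, hy0⟩ := Submodule.exists_mem_ne_zero_of_ne_bot (P.res M).ne_bot
      have hy0' : algebraMap (𝓞 M) M y ≠ 0 := NumberField.RingOfIntegers.coe_ne_zero_iff.2 hy0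
      have h3 : (algebraMap (𝓞 M) M y)⁻¹ ∈ P.val.comap (algebraMap M E) := by rw [h]; trivial
      have h4 : P.v (algebraMap (𝓞 E) E (algebraMap (𝓞 M) (𝓞 E) y)) < 1 :=
        (P.v_int_lt_one_iff _).2 hy
      have h5 : algebraMap (𝓞 E) E (algebraMap (𝓞 M) (𝓞 E) y) =
        algebraMap M E (algebraMap (𝓞 M) M y) := rfl
      have h6 : algebraMap (𝓞 E) E (algebraMap (𝓞 M) (𝓞 E) y) ≠ 0 := by
        rw [h5]
        exact (map_ne_zero_iff _ (algebraMap M E).injective).2 hy0'
      apply (P.v_lt_one_iff h6).1 h4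
      rw [h5, ← map_inv₀]
      exact h3
    have h3 : P.res M = ofVal _ h2 := by
      apply ext_of_val_le
      rw [val_ofVal]
      exact h1
    rw [h3, val_ofVal]
    exact hx

theorem v_res_le_one_iff (P : Place E) (x : M) :
    (P.res M).v x ≤ 1 ↔ P.v (algebraMap M E x) ≤ 1 := by
  rw [v_le_one_iff, v_le_one_iff, mem_val_res]

theorem v_res_lt_one_iff (P : Place E) (x : M) :
    (P.res M).v x < 1 ↔ P.v (algebraMap M E x) < 1 := by
  by_cases hx : x = 0
  · subst hx; simp
  have hx' : algebraMap M E x ≠ 0 := (map_ne_zero_iff _ (algebraMap M E).injective).2 hx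
  rw [v_lt_one_iff _ hx, v_lt_one_iff _ hx', mem_val_res, map_inv₀]

theorem v_res_eq_one_iff (P : Place E) (x : M) :
    (P.res M).v x = 1 ↔ P.v (algebraMap M E x) = 1 := by
  have h1 := v_res_le_one_iff M P x
  have h2 := v_res_lt_one_iff M P x
  rw [le_iff_lt_or_eq, le_iff_lt_or_eq] at h1
  constructor
  · intro h
    rcases h1.1 (Or.inr h) with h' | h'
    · exact absurd (h2.2 h') (by rw [h]; exact lt_irrefl _)
    · exact h'
  · intro h
    rcases h1.2 (Or.inr h) with h' | h'
    · exact absurd (h2.1 h') (by rw [h]; exact lt_irrefl _)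
    · exact h'

end Res

section RankOne

theorem numberField_val_iff {K : Type*} [Field K] [NumberField K] (Q : Place K) (x : K) :
    Q.v x ≤ 1 ↔ (⟨Q.ideal, Q.isPrime, Q.ne_bot⟩ :
      IsDedekindDomain.HeightOneSpectrum (𝓞 K)).valuation K x ≤ 1 := by
  set w : IsDedekindDomain.HeightOneSpectrum (𝓞 K) := ⟨Q.ideal, Q.isPrime, Q.ne_bot⟩ with hw
  have hs1 : ∀ s : 𝓞 K, s ∉ Q.ideal → w.valuation K (algebraMap (𝓞 K) K s) = 1 := by
    intro s hs
    apply le_antisymm (w.valuation_le_one s)
    rw [← not_lt, w.valuation_lt_one_iff_mem]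
    exact hs
  rw [v_le_one_iff]
  constructor
  · rintro ⟨a, s, hs, h⟩
    have ha : w.valuation K (algebraMap (𝓞 K) K a) ≤ 1 := w.valuation_le_one a
    rwa [← h, map_mul, hs1 s hs, mul_one] at ha
  · intro hx
    obtain ⟨a, s, hs, h | h⟩ := Q.exists_of_place x
    · exact ⟨a, s, hs, h⟩
    · refine ⟨s, a, ?_, by rw [h, mul_comm]⟩
      have ha : w.valuation K (algebraMap (𝓞 K) K a) ≤ 1 := w.valuation_le_one a
      have h1 := hs1 s hs
      rw [h, map_mul] at h1
      have h2 : w.valuation K (algebraMap (𝓞 K) K a) = 1 := by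
        apply le_antisymm ha
        calc 1 = _ := h1.symm
          _ ≤ w.valuation K (algebraMap (𝓞 K) K a) * 1 := by gcongr
          _ = _ := mul_one _
      intro hmem
      have h3 := (w.valuation_lt_one_iff_mem (K := K) a).2 hmem
      rw [h2] at h3
      exact lt_irrefl _ h3

variable {E : Type*} [Field E] [CharZero E] [Algebra.IsAlgebraic ℚ E]

/-- there is an integer valued function on the multiplicative group generated by two elements -/
theorem exists_ord (P : Place E) (x y : E) (hx : x ≠ 0) (hy : y ≠ 0) :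
    ∃ i j : ℤ, ∀ m n : ℤ, (P.v (x ^ m * y ^ n) ≤ 1 ↔ m * i + n * j ≤ 0) := by
  let K := IntermediateField.adjoin ℚ {x, y}
  have hfin : FiniteDimensional ℚ K := by
    apply IntermediateField.finiteDimensional_adjoin
    intro z _
    exact (Algebra.IsAlgebraic.isAlgebraic (R := ℚ) z).isIntegral
  have hK : NumberField K := { to_finiteDimensional := hfin }
  have hxK : x ∈ K := IntermediateField.subset_adjoin _ _ (by simp)
  have hyK : y ∈ K := IntermediateField.subset_adjoin _ _ (by simp)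
  set Q := P.res K
  set w : IsDedekindDomain.HeightOneSpectrum (𝓞 K) := ⟨Q.ideal, Q.isPrime, Q.ne_bot⟩ with hw
  have hx0 : (⟨x, hxK⟩ : K) ≠ 0 := by
    intro h; exact hx (congrArg (algebraMap K E) h)
  have hy0 : (⟨y, hyK⟩ : K) ≠ 0 := by
    intro h; exact hy (congrArg (algebraMap K E) h)
  have hvx : w.valuation K ⟨x, hxK⟩ ≠ 0 := (Valuation.ne_zero_iff _).2 hx0
  have hvy : w.valuation K ⟨y, hyK⟩ ≠ 0 := (Valuation.ne_zero_iff _).2 hy0
  obtain ⟨i, hi⟩ : ∃ i : ℤ, w.valuation K ⟨x, hxK⟩ = WithZero.exp i :=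
    ⟨WithZero.log (w.valuation K ⟨x, hxK⟩), (WithZero.exp_log hvx).symm⟩
  obtain ⟨j, hj⟩ : ∃ j : ℤ, w.valuation K ⟨y, hyK⟩ = WithZero.exp j :=
    ⟨WithZero.log (w.valuation K ⟨y, hyK⟩), (WithZero.exp_log hvy).symm⟩
  refine ⟨i, j, fun m n => ?_⟩
  have h1 : x ^ m * y ^ n = algebraMap K E ((⟨x, hxK⟩ : K) ^ m * (⟨y, hyK⟩ : K) ^ n) := by
    rw [map_mul, map_zpow₀, map_zpow₀]; rfl
  rw [h1, ← v_res_le_one_iff, numberField_val_iff, map_mul, map_zpow₀, map_zpow₀, hi, hj,
    ← WithZero.exp_zsmul, ← WithZero.exp_zsmul, ← WithZero.exp_add, ← WithZero.exp_zero,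
    WithZero.exp_le_exp]
  simp only [smul_eq_mul]

/-- the archimedean property -/
theorem exists_pow_lt (P : Place E) (x y : E) (hx : P.v x < 1) (hy : y ≠ 0) :
    ∃ n : ℕ, P.v (x ^ n) < P.v y := by
  by_cases hx0 : x = 0
  · refine ⟨1, ?_⟩
    subst hx0
    simpa using zero_lt_iff.2 ((Valuation.ne_zero_iff P.v).2 hy)
  obtain ⟨i, j, hij⟩ := P.exists_ord x y hx0 hy
  have hi : i < 0 := by
    have h1 := hij (-1) 0
    rw [zpow_zero, mul_one, zpow_neg_one, map_inv₀] at h1
    have h0 : P.v x ≠ 0 := (Valuation.ne_zero_iff _).2 hx0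
    have h2 : ¬ (P.v x)⁻¹ ≤ 1 := not_le.2 ((one_lt_inv₀ (zero_lt_iff.2 h0)).2 hx)
    have h3 := fun h => h2 (h1.2 h)
    by_contra hcon
    apply h3
    linarith
  obtain ⟨n, hn⟩ : ∃ n : ℕ, (n : ℤ) * i < j := by
    refine ⟨j.natAbs + 1, ?_⟩
    push_cast
    have : -|j| ≤ j := neg_abs_le j
    nlinarith [abs_nonneg j]
  refine ⟨n, ?_⟩
  have h2 : ¬ P.v (y ^ (1 : ℤ) * x ^ (-(n : ℤ))) ≤ 1 := by
    rw [mul_comm, hij]
    push Not
    linarith
  rw [not_le, zpow_one, zpow_neg, zpow_natCast, map_mul, map_inv₀] at h2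
  have h0 : P.v (x ^ n) ≠ 0 := (Valuation.ne_zero_iff _).2 (pow_ne_zero _ hx0)
  have h3 := mul_lt_mul_of_pos_right h2 (zero_lt_iff.2 h0)
  rwa [one_mul, mul_assoc, inv_mul_cancel₀ h0, mul_one] at h3

/-- the value group has rational rank one -/
theorem exists_zpow_eq (P : Place E) (x y : E) (hx : x ≠ 0) (hy : y ≠ 0) :
    ∃ m n : ℤ, (m ≠ 0 ∨ n ≠ 0) ∧ P.v (x ^ m * y ^ n) = 1 := by
  obtain ⟨i, j, hij⟩ := P.exists_ord x y hx hy
  have key : ∀ m n : ℤ, m * i + n * j = 0 → P.v (x ^ m * y ^ n) = 1 := by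
    intro m n h
    apply le_antisymm ((hij m n).2 h.le)
    have h2 := (hij (-m) (-n)).2 (by linarith)
    rw [zpow_neg, zpow_neg, ← mul_inv, map_inv₀] at h2
    have h0 : P.v (x ^ m * y ^ n) ≠ 0 :=
      (Valuation.ne_zero_iff _).2 (mul_ne_zero (zpow_ne_zero _ hx) (zpow_ne_zero _ hy))
    by_contra hcon
    exact absurd h2 (not_le.2 ((one_lt_inv₀ (zero_lt_iff.2 h0)).2 (not_le.1 hcon)))
  by_cases hj : j = 0
  · exact ⟨0, 1, Or.inr one_ne_zero, key 0 1 (by simp [hj])⟩
  · exact ⟨j, -i, Or.inl hj, key _ _ (by ring)⟩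

end RankOne

section Action

variable {E : Type*} [Field E] [CharZero E] [Algebra.IsAlgebraic ℚ E]
variable {G : Type*} [Group G] [MulSemiringAction G E]

theorem smul_coe (g : G) (x : 𝓞 E) : algebraMap (𝓞 E) E (g • x) = g • algebraMap (𝓞 E) E x :=
  algebraMap.smul' g x E

theorem mem_smul_val (g : G) (P : Place E) (x : E) : x ∈ (g • P).val ↔ g⁻¹ • x ∈ P.val := by
  have key : ∀ (g : G) (P : Place E) (x : E), x ∈ P.val → g • x ∈ (g • P).val := by
    rintro g P x ⟨a, s, hs, h⟩
    refine ⟨g • a, g • s, ?_, ?_⟩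
    · rwa [smul_mem_smul_ideal]
    · rw [smul_coe, smul_coe, ← h, smul_mul']
  constructor
  · intro h
    have := key g⁻¹ _ _ h
    rwa [inv_smul_smul] at this
  · intro h
    have := key g _ _ h
    rwa [smul_inv_smul] at this

theorem smul_mem_smul_val (g : G) (P : Place E) (x : E) : g • x ∈ (g • P).val ↔ x ∈ P.val := by
  rw [mem_smul_val, inv_smul_smul]

theorem v_smul_smul_le_one (g : G) (P : Place E) (x : E) :
    (g • P).v (g • x) ≤ 1 ↔ P.v x ≤ 1 := by
  rw [v_le_one_iff, v_le_one_iff, smul_mem_smul_val]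

theorem v_smul_smul_lt_one (g : G) (P : Place E) (x : E) :
    (g • P).v (g • x) < 1 ↔ P.v x < 1 := by
  by_cases hx : x = 0
  · subst hx; simp
  have hgx : g • x ≠ 0 := by
    intro h
    apply hx
    have := congrArg (g⁻¹ • ·) h
    simpa using this
  rw [v_lt_one_iff _ hx, v_lt_one_iff _ hgx, ← smul_inv'', smul_mem_smul_val]

/-- comparison of values is invariant under the decomposition group -/
theorem v_smul_le_smul (g : G) (P : Place E) (hg : g • P = P) (x y : E) :
    P.v (g • x) ≤ P.v (g • y) ↔ P.v x ≤ P.v y := by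
  by_cases hy : y = 0
  · subst hy
    have : ∀ z : E, P.v (g • z) = 0 ↔ P.v z = 0 := by
      intro z
      rw [Valuation.zero_iff, Valuation.zero_iff]
      constructor
      · intro h
        have := congrArg (g⁻¹ • ·) h
        simpa using this
      · rintro rfl; simp
    simp only [smul_zero, map_zero, le_zero_iff, this]
  have hgy : g • y ≠ 0 := by
    intro h
    apply hy
    have := congrArg (g⁻¹ • ·) h
    simpa using this
  have h1 := v_smul_smul_le_one g P (x / y)
  rw [hg, smul_div₀', map_div₀, map_div₀] at h1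
  have h2 : 0 < P.v y := zero_lt_iff.2 ((Valuation.ne_zero_iff P.v).2 hy)
  have h3 : 0 < P.v (g • y) := zero_lt_iff.2 ((Valuation.ne_zero_iff P.v).2 hgy)
  rwa [div_le_one₀ h2, div_le_one₀ h3] at h1

/-- the decomposition group preserves the valuation: on an algebraic element the orbit is finite -/
theorem v_smul_eq (g : G) (P : Place E) (hg : g • P = P) (x : E) : P.v (g • x) = P.v x := by
  -- the orbit of `x` under powers of `g` is finite
  have hfin : (MulAction.orbit (Subgroup.zpowers g) x).Finite := by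
    have hx : IsAlgebraic ℚ x := Algebra.IsAlgebraic.isAlgebraic x
    apply ((minpoly ℚ x).rootSet_finite E).subset
    rintro y ⟨⟨h, hh⟩, rfl⟩
    rw [Polynomial.mem_rootSet]
    refine ⟨minpoly.ne_zero hx.isIntegral, ?_⟩
    change Polynomial.aeval (h • x) (minpoly ℚ x) = 0
    let φ : E →ₐ[ℚ] E := (MulSemiringAction.toRingHom G E h).toRatAlgHom
    have h1 : Polynomial.aeval (φ x) (minpoly ℚ x) = 0 := by
      rw [Polynomial.aeval_algHom_apply, minpoly.aeval, map_zero]
    exact h1
  obtain ⟨n, hn0, hn⟩ : ∃ n : ℕ, 0 < n ∧ g ^ n • x = x := by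
    have := hfin.to_subtype
    obtain ⟨i, j, hij, h⟩ := Finite.exists_ne_map_eq_of_infinite
      (fun i : ℕ => (⟨g ^ i • x, ⟨⟨g ^ i, ⟨i, by simp⟩⟩, rfl⟩⟩ :
        MulAction.orbit (Subgroup.zpowers g) x))
    have h' : g ^ i • x = g ^ j • x := congrArg Subtype.val h
    rcases lt_or_gt_of_ne hij with hlt | hlt
    · refine ⟨j - i, by omega, ?_⟩
      have h2 : g ^ j • x = g ^ i • g ^ (j - i) • x := by
        rw [← mul_smul, ← pow_add]; congr 2; omega
      rw [h2] at h'
      exact (MulAction.injective (g ^ i) h').symm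
    · refine ⟨i - j, by omega, ?_⟩
      have h2 : g ^ i • x = g ^ j • g ^ (i - j) • x := by
        rw [← mul_smul, ← pow_add]; congr 2; omega
      rw [h2] at h'
      exact MulAction.injective (g ^ j) h'
  rcases lt_trichotomy (P.v (g • x)) (P.v x) with h | h | h
  · exfalso
    have key : ∀ m : ℕ, P.v (g ^ (m + 1) • x) < P.v x := by
      intro m
      induction m with
      | zero => simpa using h
      | succ m ih =>
        have h1 : P.v (g • (g ^ (m + 1) • x)) < P.v (g • x) := by
          rw [← not_le, v_smul_le_smul g P hg, not_le]; exact ih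
        rw [pow_succ', mul_smul]
        exact h1.trans h
    have := key (n - 1)
    rw [Nat.sub_add_cancel hn0, hn] at this
    exact lt_irrefl _ this
  · exact h
  · exfalso
    have key : ∀ m : ℕ, P.v x < P.v (g ^ (m + 1) • x) := by
      intro m
      induction m with
      | zero => simpa using h
      | succ m ih =>
        have h1 : P.v (g • x) < P.v (g • (g ^ (m + 1) • x)) := by
          rw [← not_le, v_smul_le_smul g P hg, not_le]; exact ih
        rw [pow_succ', mul_smul]
        exact h.trans h1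
    have := key (n - 1)
    rw [Nat.sub_add_cancel hn0, hn] at this
    exact lt_irrefl _ this

end Action

section Galois

open scoped Topology

variable {M E : Type*} [Field M] [Field E] [Algebra M E]

theorem smul_algebraMap_int (g : E ≃ₐ[M] E) (x : 𝓞 M) :
    g • algebraMap (𝓞 M) (𝓞 E) x = algebraMap (𝓞 M) (𝓞 E) x := by
  apply NumberField.RingOfIntegers.coe_injective
  rw [show algebraMap (𝓞 E) E (g • algebraMap (𝓞 M) (𝓞 E) x) =
    g • algebraMap (𝓞 E) E (algebraMap (𝓞 M) (𝓞 E) x) from algebraMap.smul' _ _ E]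
  exact g.commutes _

instance smulCommClass_int : SMulCommClass (E ≃ₐ[M] E) (𝓞 M) (𝓞 E) where
  smul_comm g a b := by
    rw [Algebra.smul_def, Algebra.smul_def, smul_mul', smul_algebraMap_int]

theorem isInvariant_int [IsGalois M E] : Algebra.IsInvariant (𝓞 M) (𝓞 E) (E ≃ₐ[M] E) := by
  constructor
  intro b hb
  have h1 : (algebraMap (𝓞 E) E b) ∈ Set.range (algebraMap M E) := by
    rw [InfiniteGalois.mem_range_algebraMap_iff_fixed]
    intro f
    have := congrArg (algebraMap (𝓞 E) E) (hb f)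
    rw [show algebraMap (𝓞 E) E (f • b) = f • algebraMap (𝓞 E) E b from
      algebraMap.smul' f b E] at this
    exact this
  obtain ⟨a, ha⟩ := h1
  have hint : IsIntegral ℤ a := by
    have h2 : IsIntegral ℤ (algebraMap M E a) := by
      rw [ha]; exact NumberField.RingOfIntegers.isIntegral_coe b
    exact (isIntegral_algebraMap_iff (algebraMap M E).injective).1 h2
  refine ⟨⟨a, hint⟩, ?_⟩
  apply NumberField.RingOfIntegers.coe_injective
  exact ha

theorem continuousSMul_int [IsGalois M E] :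
    @ContinuousSMul (E ≃ₐ[M] E) (𝓞 E) _ _ ⊥ := by
  letI : TopologicalSpace (𝓞 E) := ⊥
  haveI : DiscreteTopology (𝓞 E) := ⟨rfl⟩
  rw [continuousSMul_iff_stabilizer_isOpen]
  intro x
  have : (MulAction.stabilizer (E ≃ₐ[M] E) x : Set (E ≃ₐ[M] E)) =
      (MulAction.stabilizer (E ≃ₐ[M] E) (algebraMap (𝓞 E) E x) : Set (E ≃ₐ[M] E)) := by
    ext g
    simp only [SetLike.mem_coe, MulAction.mem_stabilizer_iff]
    rw [← NumberField.RingOfIntegers.coe_injective.eq_iff,
      show algebraMap (𝓞 E) E (g • x) = g • algebraMap (𝓞 E) E x from algebraMap.smul' g x E]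
  rw [this]
  exact stabilizer_isOpen_of_isIntegral (K := M) (L := E) _

/-- `Gal(E/M)` is transitive on the places of `E` above a given place of `M` -/
theorem exists_smul_eq_of_res_eq [IsGalois M E] (P Q : Place E) (h : P.res M = Q.res M) :
    ∃ g : E ≃ₐ[M] E, g • P = Q := by
  letI : TopologicalSpace (𝓞 E) := ⊥
  haveI : DiscreteTopology (𝓞 E) := ⟨rfl⟩
  haveI := continuousSMul_int (M := M) (E := E)
  haveI := isInvariant_int (M := M) (E := E)
  obtain ⟨g, hg⟩ := Algebra.IsInvariant.exists_smul_of_under_eq_of_profinite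
    (A := 𝓞 M) (G := E ≃ₐ[M] E) P.ideal Q.ideal (congrArg Place.ideal h)
  exact ⟨g, (Place.ext hg).symm⟩

theorem res_smul (g : E ≃ₐ[M] E) (P : Place E) : (g • P).res M = P.res M := by
  ext x
  rw [mem_res, mem_res, mem_smul_ideal, smul_algebraMap_int]

end Galois

end Place

end Crest.Agent.R018.Placesx484
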