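import Mathlib
import Crest.Agent.R018.EndDef_924
import Crest.Agent.R018.Places_484

/-!
# Row 18, LEMMA G: frozen definitions (helper791)

`B = Gal(Om/ℚ)`, `G1 ≤ B` open, `α : G1 →* G₂` with `G₂` any profinite group
(for instance `E₂ ≃ₐ[ℚ] E₂`).
-/

set_option autoImplicit false

noncomputable section

namespace Crest.Agent.R018.GDefx791

open Crest.Agent.R018.EndDefx924 Crest.Agent.R018.Placesx484
open scoped NumberField

/-- the absolute Galois group of `ℚ` -/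
abbrev B : Type := Om ≃ₐ[ℚ] Om

section act

variable {G : Type*} [Group G]

/-- the conjugation action of `g` on functions on a normal subgroup: `(g φ)(u) = φ(g⁻¹ u g)` -/
def act (R : Type*) [CommRing R] (N : Subgroup G) [N.Normal] (g : G) : (N → R) →ₗ[R] (N → R) where
  toFun φ := fun u => φ (MulAut.conjNormal g⁻¹ u)
  map_add' _ _ := rfl
  map_smul' _ _ := rfl

variable [TopologicalSpace G] (l : ℕ) [Fact l.Prime]

/-- continuous homomorphisms `N → ℤ_l`, as a submodule of all functions -/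
def V (N : Subgroup G) : Submodule ℤ_[l] (N → ℤ_[l]) where
  carrier := {φ | Continuous φ ∧ ∀ u v, φ (u * v) = φ u + φ v}
  zero_mem' := ⟨continuous_zero, fun _ _ => by simp⟩
  add_mem' := by
    rintro φ ψ ⟨h1, h2⟩ ⟨h3, h4⟩
    refine ⟨h1.add h3, fun u v => ?_⟩
    simp only [Pi.add_apply, h2, h4]
    ring
  smul_mem' := by
    rintro c φ ⟨h1, h2⟩
    refine ⟨h1.const_smul c, fun u v => ?_⟩
    simp only [Pi.smul_apply, h2, smul_add]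

/-- the eigenspace of `V U2` for the conjugate character `a ↦ χ(γ⁻¹ a γ)` of `U21` -/
def Eig (U21 U2 : Subgroup G) [U21.Normal] [U2.Normal] (χ : U21 →* ℤˣ) (γ : G) :
    Submodule ℤ_[l] (U2 → ℤ_[l]) where
  carrier := {φ | φ ∈ V l U2 ∧ ∀ a : U21,
    act ℤ_[l] U2 (a : G) φ = (((χ (MulAut.conjNormal γ⁻¹ a) : ℤˣ) : ℤ) : ℤ_[l]) • φ}
  zero_mem' := ⟨zero_mem _, fun _ => by simp⟩
  add_mem' := by
    rintro φ ψ ⟨h1, h2⟩ ⟨h3, h4⟩
    refine ⟨add_mem h1 h3, fun a => ?_⟩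
    rw [map_add, h2, h4, smul_add]
  smul_mem' := by
    rintro c φ ⟨h1, h2⟩
    refine ⟨Submodule.smul_mem _ c h1, fun a => ?_⟩
    rw [map_smul, h2, smul_comm]

/-- `W = Σ_γ V[χ^γ]` -/
def W (U21 U2 : Subgroup G) [U21.Normal] [U2.Normal] (χ : U21 →* ℤˣ) :
    Submodule ℤ_[l] (U2 → ℤ_[l]) := ⨆ γ : G, Eig l U21 U2 χ γ

/-- the stabilizer in `G` of `χ` is `U21` -/
def TrivStab (U21 : Subgroup G) [U21.Normal] (χ : U21 →* ℤˣ) : Prop :=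
  ∀ g : G, (∀ a : U21, χ (MulAut.conjNormal g⁻¹ a) = χ a) → g ∈ U21

end act

section nd

variable {G₂ : Type*} [Group G₂]

theorem conj_core {G : Type*} [Group G] (G1 : Subgroup G) {k : G} (hk : k ∈ G1.normalCore) (b : G) :
    b * k * b⁻¹ ∈ G1 :=
  G1.normalCore_le ((inferInstance : G1.normalCore.Normal).conj_mem k hk b)

/-- condition (ND) of the CORE, `N1 = G1.normalCore`: for every `b ∉ G1` some `k ∈ K ⊓ N1` has
`α (b k b⁻¹) ≠ 1`. -/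
def ND {G : Type*} [Group G] (G1 : Subgroup G) (α : G1 →* G₂) : Prop :=
  ∀ b : G, b ∉ G1 → ∃ (k : G) (hk : k ∈ G1.normalCore),
    α ⟨k, G1.normalCore_le hk⟩ = 1 ∧ α ⟨b * k * b⁻¹, conj_core G1 hk b⟩ ≠ 1

/-- `U = Gal(E₂/F20)`: the nontriviality in (ND) is visible modulo `U`, and `U ≤ α(N1)`.
Every smaller subgroup is again good (`Good.mono`). -/
def Good {G : Type*} [Group G] (G1 : Subgroup G) (α : G1 →* G₂) (U : Subgroup G₂) : Prop :=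
  (∀ b : G, b ∉ G1 → ∃ (k : G) (hk : k ∈ G1.normalCore),
    α ⟨k, G1.normalCore_le hk⟩ = 1 ∧ α ⟨b * k * b⁻¹, conj_core G1 hk b⟩ ∉ U) ∧
  (∀ u ∈ U, ∃ (k : G) (hk : k ∈ G1.normalCore), α ⟨k, G1.normalCore_le hk⟩ = u)

theorem Good.mono {G : Type*} [Group G] {G1 : Subgroup G} {α : G1 →* G₂} {U U' : Subgroup G₂}
    (h : Good G1 α U) (hle : U' ≤ U) : Good G1 α U' :=
  ⟨fun b hb => by
    obtain ⟨k, hk, h1, h2⟩ := h.1 b hb
    exact ⟨k, hk, h1, fun h3 => h2 (hle h3)⟩, fun u hu => h.2 u (hle hu)⟩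

end nd

/-- `τ` acts as `x ↦ x ^ (p ^ k)` modulo the place `S` -/
def FrobPow (S : Place Om) (p k : ℕ) (τ : B) : Prop := ∀ x : 𝓞 Om, τ • x - x ^ (p ^ k) ∈ S.ideal

/-- `σ ∈ G1` is a Frobenius lift at `S` over the fixed field of `G1`: it acts as `x ↦ x ^ (p ^ k)`
on the residue field of `S` and no element of `G1` acts as `x ↦ x ^ (p ^ j)` for `0 < j < k`
(so `k` is the residue degree over `ℚ` of the prime below `S`). -/
def IsFrobLift (G1 : Subgroup B) (S : Place Om) (p k : ℕ) (σ : B) : Prop :=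
  σ ∈ G1 ∧ 0 < k ∧ FrobPow S p k σ ∧ ∀ j, 0 < j → j < k → ∀ τ ∈ G1, ¬ FrobPow S p j τ

/-- **V3'** (PROP TR of the CORE) at the prime `l` -/
def V3 (l : ℕ) [Fact l.Prime] : Prop :=
  ∀ (N : Subgroup B) [N.Normal] (_ : IsOpen (N : Set B)) (a : N →* Multiplicative ℤ_[l])
    (_ : Continuous a) (g1 : B) (n : ℕ) (_ : 0 < n) (_ : g1 ^ n ∈ N)
    (_ : ∀ B0 : ℕ, ∃ p, B0 < p ∧ p.Prime ∧ ∃ (S : Place Om) (F : B), (p : 𝓞 Om) ∈ S.ideal ∧
      (∀ x : 𝓞 Om, F • x - x ^ p ∈ S.ideal) ∧ g1⁻¹ * F ∈ N ∧ ∃ h : F ^ n ∈ N, a ⟨F ^ n, h⟩ = 1),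
    ∀ x : N, ∏ i ∈ Finset.range n, a (MulAut.conjNormal (g1 ^ i)⁻¹ x) = 1

/-- The statement of **LEMMA G** -/
def LemmaG (l : ℕ) [Fact l.Prime] {G₂ : Type*} [Group G₂] [TopologicalSpace G₂]
    (G1 : Subgroup B) (α : G1 →* G₂) : Prop :=
  ∀ (U21 U2 : Subgroup G₂) [U21.Normal] [U2.Normal] (_ : IsOpen (U21 : Set G₂))
    (_ : IsOpen (U2 : Set G₂)) (_ : Good G1 α U21) (χ : U21 →* ℤˣ) (_ : TrivStab U21 χ)
    (φ : U2 → ℤ_[l]) (_ : φ ∈ W l U21 U2 χ) (_ : φ ≠ 0),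
    ∃ B0 : ℕ, ∀ p, B0 < p → p.Prime → ∀ (S : Place Om), (p : 𝓞 Om) ∈ S.ideal →
      ∀ (k : ℕ) (σ : B) (hσ : IsFrobLift G1 S p k σ),
        act ℤ_[l] U2 (α ⟨σ, hσ.1⟩) φ = φ →
        ∀ m, 0 < m → ∀ h : (α ⟨σ, hσ.1⟩) ^ m ∈ U2, φ ⟨_, h⟩ ≠ 0

end Crest.Agent.R018.GDefx791
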