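import Mathlib
import Crest.Agent.R018.GDef_791

/-!
# Row 18: quadratic characters with trivial stabilizer, group theoretic part (helper472)

`U` a normal subgroup of `G`, `χ i : U →* ℤˣ` a finite family. `IND χ`: the characters
`a ↦ χ i (γ⁻¹ a γ)`, `i : Fin n`, `γ : G ⧸ U`, are independent.
-/

set_option autoImplicit false
set_option linter.unusedSectionVars false

noncomputable section

namespace Crest.Agent.R018.Chix472

open Crest.Agent.R018.GDefx791

variable {G : Type*} [Group G] {U : Subgroup G} [U.Normal]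

/-- independence of all the conjugates of all the `χ i` -/
def IND (U : Subgroup G) [U.Normal] {n : ℕ} (χ : Fin n → (U →* ℤˣ)) : Prop :=
  ∀ T : Finset (Fin n × G), T.Nonempty →
    (∀ t ∈ T, ∀ t' ∈ T, t.1 = t'.1 → t.2⁻¹ * t'.2 ∈ U → t = t') →
    ∃ a : U, ∏ t ∈ T, χ t.1 (MulAut.conjNormal t.2⁻¹ a) ≠ 1

/-- the product of the characters of index in `I` -/
def pr {n : ℕ} (χ : Fin n → (U →* ℤˣ)) (I : Finset (Fin n)) : U →* ℤˣ := ∏ i ∈ I, χ i

@[simp] theorem pr_apply {n : ℕ} (χ : Fin n → (U →* ℤˣ)) (I : Finset (Fin n)) (a : U) :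
    pr χ I a = ∏ i ∈ I, χ i a := by
  simp [pr]

theorem units_mul_self (u : ℤˣ) : u * u = 1 := by
  rcases Int.units_eq_one_or u with h | h <;> simp [h]

/-- the product of the characters `(χ_I)^γ`, `γ` in a finite set of inequivalent elements,
is nontrivial -/
theorem IND.pr_indep {n : ℕ} {χ : Fin n → (U →* ℤˣ)} (h : IND U χ) {I : Finset (Fin n)}
    (hI : I.Nonempty) (R : Finset G) (hR : R.Nonempty)
    (hinj : ∀ g ∈ R, ∀ g' ∈ R, g⁻¹ * g' ∈ U → g = g') :
    ∃ a : U, ∏ g ∈ R, pr χ I (MulAut.conjNormal g⁻¹ a) ≠ 1 := by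
  obtain ⟨a, ha⟩ := h (I ×ˢ R) (hI.product hR) (by
    rintro ⟨i, g⟩ hi ⟨i', g'⟩ hi' h1 h2
    rw [Finset.mem_product] at hi hi'
    simp only at h1 h2 hi hi'
    rw [h1, hinj g hi.2 g' hi'.2 h2])
  refine ⟨a, ?_⟩
  rw [Finset.prod_product_right] at ha
  simpa using ha

theorem IND.ne_one {n : ℕ} {χ : Fin n → (U →* ℤˣ)} (h : IND U χ) {I : Finset (Fin n)}
    (hI : I.Nonempty) : ∃ a : U, pr χ I a = -1 := by
  obtain ⟨a, ha⟩ := h.pr_indep hI {1} (Finset.singleton_nonempty _) (by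
    intro g hg g' hg' _
    rw [Finset.mem_singleton] at hg hg'
    rw [hg, hg'])
  refine ⟨a, ?_⟩
  rcases Int.units_eq_one_or (pr χ I a) with h1 | h1
  · exfalso
    apply ha
    rw [Finset.prod_singleton]
    simpa using h1
  · exact h1

theorem IND.trivStab {n : ℕ} {χ : Fin n → (U →* ℤˣ)} (h : IND U χ) {I : Finset (Fin n)}
    (hI : I.Nonempty) : TrivStab U (pr χ I) := by
  classical
  intro g hg
  by_contra hgU
  have hne : g ≠ 1 := by
    rintro rfl
    exact hgU U.one_mem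
  obtain ⟨a, ha⟩ := h.pr_indep hI {g, 1} (Finset.insert_nonempty _ _) (by
    intro x hx y hy hxy
    rw [Finset.mem_insert, Finset.mem_singleton] at hx hy
    rcases hx with rfl | rfl <;> rcases hy with rfl | rfl
    · rfl
    · exact absurd (by simpa using hxy) hgU
    · exact absurd (by simpa using hxy) hgU
    · rfl)
  apply ha
  rw [Finset.prod_pair hne]
  have h1 := hg a
  rw [h1]
  simp

/-- **sign trick**, two characters, one conjugate -/
theorem exists_sign_one (χ : Fin 2 → (U →* ℤˣ)) (a : U) :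
    ∃ I : Finset (Fin 2), I.Nonempty ∧ pr χ I a = 1 := by
  have key : ∀ f : Fin 2 → ℤˣ, ∃ I : Finset (Fin 2), I.Nonempty ∧ ∏ i ∈ I, f i = 1 := by
    decide
  obtain ⟨I, hI, h⟩ := key fun i => χ i a
  exact ⟨I, hI, by simpa using h⟩

/-- **sign trick**, three characters, two elements -/
theorem exists_sign_two (χ : Fin 3 → (U →* ℤˣ)) (a b : U) :
    ∃ I : Finset (Fin 3), I.Nonempty ∧ pr χ I a = 1 ∧ pr χ I b = 1 := by
  have key : ∀ f g : Fin 3 → ℤˣ, ∃ I : Finset (Fin 3), I.Nonempty ∧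
      ∏ i ∈ I, f i = 1 ∧ ∏ i ∈ I, g i = 1 := by
    decide
  obtain ⟨I, hI, h⟩ := key (fun i => χ i a) (fun i => χ i b)
  exact ⟨I, hI, by simpa using h⟩

end Crest.Agent.R018.Chix472
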