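import Mathlib
import Crest.Agent.R018.ChiA_472

/-!
# Row 18: quadratic characters with trivial stabilizer, Kummer part (helper472)
-/

set_option autoImplicit false
set_option linter.unusedSectionVars false

noncomputable section

namespace Crest.Agent.R018.Chix472

open NumberField Crest.Agent.R018.GDefx791

section sgn

variable {k E : Type*} [Field k] [Field E] [Algebra k E] [CharZero E]

theorem apply_eq_or_neg {a : E ≃ₐ[k] E} {s : E} (h : a (s ^ 2) = s ^ 2) : a s = s ∨ a s = -s := by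
  rw [map_pow] at h
  exact sq_eq_sq_iff_eq_or_eq_neg.1 h

theorem ne_neg_self' {s : E} (hs : s ≠ 0) : -s ≠ s := by
  intro h
  have h1 : (2 : E) * s = 0 := by linear_combination -h
  rcases mul_eq_zero.1 h1 with h2 | h2
  · exact two_ne_zero h2
  · exact hs h2

/-- the sign character `a ↦ a(s)/s` of `U`, where `s ^ 2` is fixed by `U` -/
def sgn (U : Subgroup (E ≃ₐ[k] E)) (s : E) (hs : s ≠ 0) (h : ∀ a ∈ U, a (s ^ 2) = s ^ 2) :
    U →* ℤˣ where
  toFun a := by
    classical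
    exact if (a : E ≃ₐ[k] E) s = s then 1 else -1
  map_one' := by simp
  map_mul' a b := by
    classical
    have hne := ne_neg_self' hs
    rcases apply_eq_or_neg (h a a.2) with ha | ha <;> rcases apply_eq_or_neg (h b b.2) with hb | hb
    · simp [ha, hb]
    · simp [ha, hb, hne]
    · simp [ha, hb, hne]
    · simp [ha, hb, hne]

theorem sgn_spec (U : Subgroup (E ≃ₐ[k] E)) (s : E) (hs : s ≠ 0)
    (h : ∀ a ∈ U, a (s ^ 2) = s ^ 2) (a : U) :
    (a : E ≃ₐ[k] E) s = (((sgn U s hs h a : ℤˣ) : ℤ) : E) * s := by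
  classical
  have hne := ne_neg_self' hs
  rcases apply_eq_or_neg (h a a.2) with ha | ha
  · simp [sgn, ha]
  · simp [sgn, ha, hne]

theorem sgn_eq_one_iff (U : Subgroup (E ≃ₐ[k] E)) (s : E) (hs : s ≠ 0)
    (h : ∀ a ∈ U, a (s ^ 2) = s ^ 2) (a : U) :
    sgn U s hs h a = 1 ↔ (a : E ≃ₐ[k] E) s = s := by
  classical
  have hne := ne_neg_self' hs
  rcases apply_eq_or_neg (h a a.2) with ha | ha
  · simp [sgn, ha]
  · simp [sgn, ha, hne]

theorem isOpen_stabilizer [Algebra.IsAlgebraic k E] (s : E) :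
    IsOpen ((MulAction.stabilizer (E ≃ₐ[k] E) s : Subgroup (E ≃ₐ[k] E)) : Set (E ≃ₐ[k] E)) := by
  haveI : FiniteDimensional k (IntermediateField.adjoin k {s}) :=
    IntermediateField.adjoin.finiteDimensional (Algebra.IsIntegral.isIntegral s)
  refine Subgroup.isOpen_mono (H₁ := (IntermediateField.adjoin k {s}).fixingSubgroup) ?_
    (IntermediateField.fixingSubgroup_isOpen _)
  intro a ha
  rw [IntermediateField.mem_fixingSubgroup_iff] at ha
  exact ha s (IntermediateField.mem_adjoin_simple_self k s)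

/-- continuity of `sgn` -/
theorem sgn_eq_one_of_stab (U : Subgroup (E ≃ₐ[k] E)) (s : E) (hs : s ≠ 0)
    (h : ∀ a ∈ U, a (s ^ 2) = s ^ 2) (a : U)
    (ha : (a : E ≃ₐ[k] E) ∈ MulAction.stabilizer (E ≃ₐ[k] E) s) : sgn U s hs h a = 1 :=
  (sgn_eq_one_iff U s hs h a).2 ha

/-- the conjugate character -/
theorem sgn_conj (U : Subgroup (E ≃ₐ[k] E)) [U.Normal] (s : E) (hs : s ≠ 0)
    (h : ∀ a ∈ U, a (s ^ 2) = s ^ 2) (g : E ≃ₐ[k] E) (a : U) :
    (a : E ≃ₐ[k] E) (g s) = (((sgn U s hs h (MulAut.conjNormal g⁻¹ a) : ℤˣ) : ℤ) : E) * g s := by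
  have h1 := sgn_spec U s hs h (MulAut.conjNormal g⁻¹ a)
  have h2 : ((MulAut.conjNormal g⁻¹ a : U) : E ≃ₐ[k] E) = g⁻¹ * a * g := by
    rw [MulAut.conjNormal_apply, inv_inv]
  rw [h2] at h1
  have h3 := congrArg g h1
  rw [map_mul, map_intCast] at h3
  rw [← h3]
  simp [AlgEquiv.mul_apply]

end sgn

section main

variable {E : Type*} [Field E] [CharZero E]

/-- the arithmetic input (helper678): `n` integers of `L` all of whose conjugates are independent
modulo squares -/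
def Indep (L : Type*) [Field L] [NumberField L] (n : ℕ) (x : Fin n → 𝓞 L) : Prop :=
  ∀ S : Finset (Gal(L/ℚ) × Fin n), S.Nonempty →
    ¬ IsSquare (∏ s ∈ S, ((s.1 • x s.2 : 𝓞 L) : L))

variable [IsGalois ℚ E]

theorem main (hsq : ∀ x : E, ∃ y, y ^ 2 = x) (U : Subgroup (E ≃ₐ[ℚ] E)) [U.Normal]
    (L : Type*) [Field L] [NumberField L] [IsGalois ℚ L] [Algebra L E]
    (hL : ∀ a : E ≃ₐ[ℚ] E, a ∈ U ↔ ∀ y : L, a (algebraMap L E y) = algebraMap L E y)
    (n : ℕ) (x : Fin n → 𝓞 L) (hx : Indep L n x) :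
    ∃ (s : Fin n → E) (hs0 : ∀ i, s i ≠ 0) (hs : ∀ i, ∀ a ∈ U, a (s i ^ 2) = s i ^ 2),
      (∀ i, s i ^ 2 = algebraMap L E (x i)) ∧ IND U (fun i => sgn U (s i) (hs0 i) (hs i)) := by
  classical
  have hx0 : ∀ i, algebraMap L E (x i) ≠ 0 := by
    intro i hi
    have h1 : (x i : L) = 0 := (map_eq_zero _).1 hi
    apply hx {(1, i)} (Finset.singleton_nonempty _)
    rw [Finset.prod_singleton]
    simp only [one_smul, h1]
    exact IsSquare.zero
  choose s hs using fun i => hsq (algebraMap L E (x i))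
  have hs0 : ∀ i, s i ≠ 0 := by
    intro i hi
    apply hx0 i
    rw [← hs i, hi]
    simp
  have hsU : ∀ i, ∀ a ∈ U, a (s i ^ 2) = s i ^ 2 := by
    intro i a ha
    rw [hs i]
    exact (hL a).1 ha _
  refine ⟨s, hs0, hsU, hs, ?_⟩
  intro T hT hinj
  by_contra hcon
  push Not at hcon
  -- the product of the square roots
  let S : E := ∏ t ∈ T, t.2 (s t.1)
  have hS : ∀ a : U, (a : E ≃ₐ[ℚ] E) S = S := by
    intro a
    have h1 : (a : E ≃ₐ[ℚ] E) S =
        (((∏ t ∈ T, sgn U (s t.1) (hs0 t.1) (hsU t.1) (MulAut.conjNormal t.2⁻¹ a) : ℤˣ) : ℤ) : E)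
          * S := by
      rw [Units.coe_prod, Int.cast_prod, ← Finset.prod_mul_distrib, map_prod]
      exact Finset.prod_congr rfl fun t _ => sgn_conj U (s t.1) (hs0 t.1) (hsU t.1) t.2 a
    rw [hcon a] at h1
    simpa using h1
  obtain ⟨S', hSL⟩ : ∃ S' : L, algebraMap L E S' = S := by
    have hG : IsGalois L E := IsGalois.tower_top_of_isGalois ℚ L E
    have h1 : S ∈ (⊥ : IntermediateField L E) := by
      rw [InfiniteGalois.mem_bot_iff_fixed]
      intro f
      exact hS ⟨f.restrictScalars ℚ, (hL _).2 fun y => f.commutes y⟩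
    exact IntermediateField.mem_bot.1 h1
  -- restriction to `L`
  let r : (E ≃ₐ[ℚ] E) →* Gal(L/ℚ) := AlgEquiv.restrictNormalHom L
  have hr : ∀ g (y : L), algebraMap L E (r g y) = g (algebraMap L E y) := by
    intro g y
    exact AlgEquiv.restrictNormal_commutes g L y
  have hker : ∀ g, r g = 1 → g ∈ U := by
    intro g hg
    rw [hL]
    intro y
    rw [← hr, hg]
    rfl
  let f : Fin n × (E ≃ₐ[ℚ] E) → Gal(L/ℚ) × Fin n := fun t => (r t.2, t.1)
  have hf : ∀ t ∈ T, ∀ t' ∈ T, f t = f t' → t = t' := by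
    intro t ht t' ht' h
    refine hinj t ht t' ht' (congrArg Prod.snd h) (hker _ ?_)
    have h1 : r t.2 = r t'.2 := congrArg Prod.fst h
    rw [map_mul, map_inv, h1, inv_mul_cancel]
  apply hx (T.image f) (hT.image f)
  refine ⟨S', ?_⟩
  apply (algebraMap L E).injective
  rw [Finset.prod_image hf, map_mul, hSL, ← pow_two, map_prod]
  change _ = (∏ t ∈ T, t.2 (s t.1)) ^ 2
  rw [← Finset.prod_pow]
  refine Finset.prod_congr rfl fun t _ => ?_
  have h1 : (((f t).1 • x (f t).2 : 𝓞 L) : L) = r t.2 (x t.1 : L) := rfl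
  rw [h1, hr, ← hs t.1, map_pow]

end main

end Crest.Agent.R018.Chix472
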