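import Crest.Agent.R018.DegOneB_796

/-!
# Row 18: sum over degree one primes (helper796)

* `bdd` : `∑ p, #{ideals of norm p} p ^ (-s) = log (1 / (s - 1)) + O(1)`, `1 < s ≤ 2`
* `summable_prime` : convergence for `s > 1`
-/

set_option autoImplicit false

open NumberField Ideal Filter Topology

namespace Crest.Agent.R018.DegOnex796

variable (K : Type*) [Field K] [NumberField K]

/-- the constant of the tail bound -/
noncomputable def Ct (d : ℕ) : ℝ := ∑' e : ℕ, (((e + 2 : ℕ) : ℝ) + 1) ^ d * (1 / 2 : ℝ) ^ e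

theorem summable_Ct (d : ℕ) :
    Summable (fun e : ℕ => (((e + 2 : ℕ) : ℝ) + 1) ^ d * (1 / 2 : ℝ) ^ e) := by
  have h := summable_pow_mul_geometric_of_norm_lt_one (R := ℝ) d (r := 1 / 2) (by norm_num)
  have h3 := ((summable_nat_add_iff 3).mpr h).mul_left 8
  refine h3.congr fun e => ?_
  push_cast
  rw [pow_add]
  ring

theorem Ct_nonneg (d : ℕ) : 0 ≤ Ct d := tsum_nonneg fun _ => by positivity

/-- degree of the ring of integers -/
noncomputable abbrev dK : ℕ := Module.finrank ℤ (𝓞 K)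

theorem fs_pow_le {s : ℝ} (hs : 1 ≤ s) {p : ℕ} (hp : p.Prime) (e : ℕ) :
    fs K s (p ^ e) ≤ ((e : ℝ) + 1) ^ (dK K) * ((p : ℝ)⁻¹) ^ e := by
  have hp0 : (0 : ℝ) < p := by exact_mod_cast hp.pos
  have hp1 : (1 : ℝ) ≤ p := by exact_mod_cast hp.one_lt.le
  rw [fs_ne K (pow_ne_zero _ hp.ne_zero)]
  have h1 : (aK K (p ^ e) : ℝ) ≤ ((e : ℝ) + 1) ^ (dK K) := by
    exact_mod_cast aK_pow_le K p hp e
  have h2 : (((p ^ e : ℕ) : ℝ)) ^ (-s) ≤ ((p : ℝ)⁻¹) ^ e := by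
    have h3 : (((p ^ e : ℕ) : ℝ)) ^ (-s) ≤ (((p ^ e : ℕ) : ℝ)) ^ (-1 : ℝ) := by
      apply Real.rpow_le_rpow_of_exponent_le
      · exact_mod_cast Nat.one_le_iff_ne_zero.mpr (pow_ne_zero _ hp.ne_zero)
      · linarith
    rw [Real.rpow_neg_one] at h3
    push_cast at h3
    push_cast
    rwa [inv_pow]
  exact mul_le_mul h1 h2 (by positivity) (by positivity)

omit [NumberField K] in
theorem tail_le {p : ℕ} (hp : p.Prime) (e : ℕ) :
    (((e + 2 : ℕ) : ℝ) + 1) ^ (dK K) * ((p : ℝ)⁻¹) ^ (e + 2) ≤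
      ((p : ℝ)⁻¹) ^ 2 * ((((e + 2 : ℕ) : ℝ) + 1) ^ (dK K) * (1 / 2 : ℝ) ^ e) := by
  have hp0 : (0 : ℝ) < p := by exact_mod_cast hp.pos
  have hp2 : (2 : ℝ) ≤ p := by exact_mod_cast hp.two_le
  have h1 : ((p : ℝ)⁻¹) ^ e ≤ (1 / 2 : ℝ) ^ e := by
    apply pow_le_pow_left₀ (by positivity)
    rw [one_div]
    exact inv_anti₀ (by norm_num) hp2
  calc _ = ((p : ℝ)⁻¹) ^ 2 * ((((e + 2 : ℕ) : ℝ) + 1) ^ (dK K) * ((p : ℝ)⁻¹) ^ e) := by
        rw [pow_add]; ring
    _ ≤ _ := by gcongr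

theorem local_le {s : ℝ} (hs : 1 ≤ s) {p : ℕ} (hp : p.Prime) (e : ℕ) :
    fs K s (p ^ (e + 2)) ≤
      ((p : ℝ)⁻¹) ^ 2 * ((((e + 2 : ℕ) : ℝ) + 1) ^ (dK K) * (1 / 2 : ℝ) ^ e) :=
  le_trans (fs_pow_le K hs hp (e + 2)) (tail_le K hp e)

theorem summable_local {s : ℝ} (hs : 1 ≤ s) {p : ℕ} (hp : p.Prime) :
    Summable (fun e => fs K s (p ^ e)) := by
  rw [← summable_nat_add_iff 2]
  refine Summable.of_nonneg_of_le (fun e => fs_nonneg K s _)
    (fun e => local_le K hs hp e) ((summable_Ct _).mul_left _)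

/-- the local factor -/
noncomputable def Fp (s : ℝ) (p : ℕ) : ℝ := ∑' e, fs K s (p ^ e)

theorem Fp_bounds {s : ℝ} (hs : 1 ≤ s) {p : ℕ} (hp : p.Prime) :
    1 + fs K s p ≤ Fp K s p ∧ Fp K s p ≤ 1 + fs K s p + ((p : ℝ)⁻¹) ^ 2 * Ct (dK K) := by
  have h := (summable_local K hs hp).sum_add_tsum_nat_add 2
  have e : Fp K s p = 1 + fs K s p + ∑' e, fs K s (p ^ (e + 2)) := by
    unfold Fp; rw [← h]
    simp [Finset.sum_range_succ, fs_one]
  rw [e]
  constructor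
  · have : 0 ≤ ∑' e, fs K s (p ^ (e + 2)) := tsum_nonneg fun _ => fs_nonneg K s _
    linarith
  · have : ∑' e, fs K s (p ^ (e + 2)) ≤ ((p : ℝ)⁻¹) ^ 2 * Ct (dK K) := by
      unfold Ct
      rw [← tsum_mul_left]
      have hs1 : Summable (fun e : ℕ => fs K s (p ^ (e + 2))) :=
        (summable_nat_add_iff (f := fun e : ℕ => fs K s (p ^ e)) 2).mpr (summable_local K hs hp)
      have hs2 : Summable (fun e : ℕ =>
          ((p : ℝ)⁻¹) ^ 2 * ((((e + 2 : ℕ) : ℝ) + 1) ^ (dK K) * (1 / 2 : ℝ) ^ e)) :=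
        (summable_Ct (dK K)).mul_left _
      exact hs1.tsum_le_tsum (fun e => local_le K hs hp e) hs2
    linarith

theorem fs_prime_le {s : ℝ} (hs : 1 ≤ s) {p : ℕ} (hp : p.Prime) :
    fs K s p ≤ 2 ^ (dK K) * (p : ℝ)⁻¹ := by
  have := fs_pow_le K hs hp 1
  rw [pow_one, pow_one] at this
  norm_num at this ⊢
  convert this using 3

/-- difference between the logarithm of the local factor and its main term -/
theorem log_Fp {s : ℝ} (hs : 1 ≤ s) {p : ℕ} (hp : p.Prime) :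
    |Real.log (Fp K s p) - fs K s p| ≤
      ((Ct (dK K) + (2 ^ (dK K)) ^ 2)) * ((p : ℝ)⁻¹) ^ 2 := by
  obtain ⟨h1, h2⟩ := Fp_bounds K hs hp
  have hx : 0 ≤ fs K s p := fs_nonneg K s p
  have hxb := fs_prime_le K hs hp
  have hF : 0 < Fp K s p := by linarith
  have hC := Ct_nonneg (dK K)
  have hsq : fs K s p ^ 2 ≤ (2 ^ (dK K)) ^ 2 * ((p : ℝ)⁻¹) ^ 2 := by
    rw [← mul_pow]; exact pow_le_pow_left₀ hx hxb 2
  have hCp : 0 ≤ ((p : ℝ)⁻¹) ^ 2 * Ct (dK K) := by positivity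
  have hup : Real.log (Fp K s p) - fs K s p ≤ ((p : ℝ)⁻¹) ^ 2 * Ct (dK K) := by
    have := Real.log_le_sub_one_of_pos hF
    linarith
  have hlo : fs K s p - Real.log (Fp K s p) ≤ fs K s p ^ 2 := by
    have h3 : Real.log (1 + fs K s p) ≤ Real.log (Fp K s p) :=
      Real.log_le_log (by linarith) h1
    have h4 := Real.one_sub_inv_le_log_of_pos (x := 1 + fs K s p) (by linarith)
    have h5 : fs K s p - fs K s p ^ 2 ≤ 1 - (1 + fs K s p)⁻¹ := by
      have : 1 - (1 + fs K s p)⁻¹ = fs K s p / (1 + fs K s p) := by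
        field_simp; ring
      rw [this, le_div_iff₀ (by linarith)]
      nlinarith [pow_nonneg hx 3]
    linarith
  rw [abs_le]
  constructor
  · nlinarith
  · nlinarith [sq_nonneg (fs K s p), pow_nonneg (inv_nonneg.mpr (Nat.cast_nonneg (α := ℝ) p)) 2,
      pow_nonneg (pow_nonneg (zero_le_two (α := ℝ)) (dK K)) 2]

theorem hasSum_log {s : ℝ} (hs : 1 < s) :
    HasSum (fun p : Nat.Primes => Real.log (Fp K s p)) (Real.log (Zr K s)) := by
  have h : HasProd (fun p : Nat.Primes => Fp K s p) (Zr K s) :=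
    EulerProduct.eulerProduct_hasProd (fs_one K s) (fun {m n} h => fs_mul K s h)
      (by simp only [Real.norm_eq_abs]; exact (summable_fs K hs).abs) (fs_zero K s)
  have hZ : Zr K s ≠ 0 := (lt_of_lt_of_le one_pos (one_le_Zr K hs)).ne'
  have hpos : ∀ p : Nat.Primes, Fp K s p ≠ 0 := fun p => by
    have := (Fp_bounds K hs.le p.2).1
    have := fs_nonneg K s p
    linarith
  have h2 := (Real.continuousAt_log hZ).tendsto.comp h
  refine Tendsto.congr (fun S => ?_) h2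
  simp only [Function.comp]
  rw [Real.log_prod]
  exact fun p _ => hpos p

theorem summable_prime_fs {s : ℝ} (hs : 1 < s) : Summable (fun p : Nat.Primes => fs K s p) :=
  (summable_fs K hs).comp_injective Nat.Primes.coe_nat_injective

theorem summable_inv_sq : Summable (fun p : Nat.Primes => (((p : ℕ) : ℝ)⁻¹) ^ 2) := by
  have h : Summable (fun n : ℕ => (((n : ℕ) : ℝ)⁻¹) ^ 2) := by
    simp [inv_pow]
  exact h.comp_injective Nat.Primes.coe_nat_injective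

theorem prime_term (s : ℝ) (p : Nat.Primes) :
    fs K s p = (Nat.card {I : Ideal (𝓞 K) // absNorm I = (p : ℕ)} : ℝ) * ((p : ℕ) : ℝ) ^ (-s) :=
  fs_ne K p.2.ne_zero s

/-- convergence of the series over the primes for `s > 1` -/
theorem summable_prime {s : ℝ} (hs : 1 < s) : Summable (fun p : Nat.Primes =>
    (Nat.card {I : Ideal (𝓞 K) // absNorm I = (p : ℕ)} : ℝ) * ((p : ℕ) : ℝ) ^ (-s)) :=
  (summable_prime_fs K hs).congr fun p => prime_term K s p

/-- **degree one primes** : `∑ p, #{I : N I = p} p ^ (-s) = log (1 / (s - 1)) + O(1)` -/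
theorem bdd : ∃ C : ℝ, ∀ s : ℝ, 1 < s → s ≤ 2 →
    |∑' p : Nat.Primes, (Nat.card {I : Ideal (𝓞 K) // absNorm I = (p : ℕ)} : ℝ)
      * ((p : ℕ) : ℝ) ^ (-s) - Real.log (1 / (s - 1))| ≤ C := by
  obtain ⟨C, hC⟩ := log_Zr_bdd K
  set D := Ct (dK K) + (2 ^ (dK K)) ^ 2
  refine ⟨∑' p : Nat.Primes, D * (((p : ℕ) : ℝ)⁻¹) ^ 2 + C, fun s hs hs2 => ?_⟩
  have e : ∑' p : Nat.Primes, (Nat.card {I : Ideal (𝓞 K) // absNorm I = (p : ℕ)} : ℝ)
      * ((p : ℕ) : ℝ) ^ (-s) = ∑' p : Nat.Primes, fs K s p :=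
    tsum_congr fun p => (prime_term K s p).symm
  rw [e]
  have h1 := hasSum_log K hs
  have h2 := (summable_prime_fs K hs).hasSum
  have h3 := h1.sub h2
  have h4 : Summable (fun p : Nat.Primes => D * (((p : ℕ) : ℝ)⁻¹) ^ 2) :=
    summable_inv_sq.mul_left D
  have h5 : |Real.log (Zr K s) - ∑' p : Nat.Primes, fs K s p| ≤
      ∑' p : Nat.Primes, D * (((p : ℕ) : ℝ)⁻¹) ^ 2 := by
    rw [← h3.tsum_eq]
    have := tsum_of_norm_bounded h4.hasSum
      (f := fun p : Nat.Primes => Real.log (Fp K s p) - fs K s p)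
      (fun p => by rw [Real.norm_eq_abs]; exact log_Fp K hs.le p.2)
    simpa using this
  have h6 := hC s hs hs2
  have e2 : ∑' p : Nat.Primes, fs K s p - Real.log (1 / (s - 1)) =
      -(Real.log (Zr K s) - ∑' p : Nat.Primes, fs K s p) +
        (Real.log (Zr K s) - Real.log (1 / (s - 1))) := by ring
  rw [e2]
  calc _ ≤ |-(Real.log (Zr K s) - ∑' p : Nat.Primes, fs K s p)| +
        |Real.log (Zr K s) - Real.log (1 / (s - 1))| := abs_add_le _ _
    _ ≤ _ := by rw [abs_neg]; exact add_le_add h5 h6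

end Crest.Agent.R018.DegOnex796
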