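import Mathlib

/-!
Counting primes of degree one in intermediate fields through decomposition groups.
-/

set_option autoImplicit false
set_option linter.unusedSectionVars false

open NumberField Ideal MulAction
open scoped Pointwise

namespace Crest.Agent.R018.FrobCountx389

section

variable {F M L : Type*} [Field F] [NumberField F] [Field M] [NumberField M] [Field L]
  [NumberField L] [Algebra F M] [Algebra M L] [Algebra F L] [IsScalarTower F M L]
  (G : Type*) [Group G] [Finite G] [MulSemiringAction G L] [IsGaloisGroup G F L]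

/-- the decomposition group inside a subgroup -/
theorem card_stab_sub (U : Subgroup G) (P : Ideal (𝓞 L)) (h : stabilizer G P ≤ U) :
    Nat.card (stabilizer U P) = Nat.card (stabilizer G P) := by
  refine Nat.card_congr ⟨fun x => ⟨x.1.1, x.2⟩, fun x => ⟨⟨x.1, h x.2⟩, x.2⟩, fun x => rfl,
    fun x => rfl⟩

theorem card_stab_sub_le (U : Subgroup G) (P : Ideal (𝓞 L)) :
    Nat.card (stabilizer U P) ≤ Nat.card (stabilizer G P) := by
  refine Nat.card_le_card_of_injective (fun x : stabilizer U P =>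
    (⟨x.1.1, x.2⟩ : stabilizer G P)) ?_
  intro x y hxy
  have := congrArg Subtype.val hxy
  exact Subtype.ext (Subtype.ext this)

theorem stab_le_of_card (U : Subgroup G) (P : Ideal (𝓞 L))
    (h : Nat.card (stabilizer G P) ≤ Nat.card (stabilizer U P)) : stabilizer G P ≤ U := by
  let i : stabilizer U P → stabilizer G P := fun x => (⟨x.1.1, x.2⟩ : stabilizer G P)
  have hi : Function.Injective i := by
    intro x y hxy
    have := congrArg Subtype.val hxy
    exact Subtype.ext (Subtype.ext this)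
  have hs : Function.Surjective i :=
    ((Nat.bijective_iff_injective_and_card i).mpr ⟨hi, le_antisymm (card_stab_sub_le G U P) h⟩).2
  intro g hg
  obtain ⟨x, hx⟩ := hs ⟨g, hg⟩
  have : x.1.1 = g := congrArg Subtype.val hx
  rw [← this]
  exact x.1.2

end

section

variable {F L : Type*} [Field F] [NumberField F] [Field L]
  [NumberField L] [Algebra F L]
  (G : Type*) [Group G] [Finite G] [MulSemiringAction G L] [IsGaloisGroup G F L]

theorem perfect_residue (p : Ideal (𝓞 F)) [p.IsPrime] (hp : p ≠ ⊥) :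
    PerfectField p.ResidueField := by
  have : p.IsMaximal := Ideal.IsPrime.isMaximal inferInstance hp
  have : Finite (𝓞 F ⧸ p) := Ring.HasFiniteQuotients.finiteQuotient hp
  infer_instance

/-- order of the decomposition group -/
theorem card_stab (P : Ideal (𝓞 L)) [P.IsPrime] (hP : P ≠ ⊥) :
    Nat.card (stabilizer G P) = (P.under (𝓞 F)).ramificationIdxIn (𝓞 L) *
      (P.under (𝓞 F)).inertiaDegIn (𝓞 L) := by
  have hp : P.under (𝓞 F) ≠ ⊥ := by
    intro h
    exact hP (Ideal.eq_bot_of_comap_eq_bot h)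
  have := perfect_residue (P.under (𝓞 F)) hp
  exact card_stabilizer_eq (P.under (𝓞 F)) P

theorem fund_id (Q : Ideal (𝓞 F)) [Q.IsPrime] :
    (primesOver Q (𝓞 L)).ncard * (ramificationIdxIn Q (𝓞 L) * inertiaDegIn Q (𝓞 L)) =
      Nat.card G :=
  ncard_primesOver_mul_ramificationIdxIn_mul_inertiaDegIn Q (𝓞 L) G

theorem card_stab' (P : Ideal (𝓞 L)) [P.IsPrime] (hP : P ≠ ⊥) :
    Nat.card (stabilizer G P) = P.ramificationIdx (𝓞 F) * P.inertiaDeg (𝓞 F) := by
  rw [card_stab (F := F) G P hP, ramificationIdxIn_eq_ramificationIdx (P.under (𝓞 F)) P G,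
    inertiaDegIn_eq_inertiaDeg (P.under (𝓞 F)) P G]

end

section

variable {F M L : Type*} [Field F] [NumberField F] [Field M] [NumberField M] [Field L]
  [NumberField L] [Algebra F M] [Algebra M L] [Algebra F L] [IsScalarTower F M L]
  (G : Type*) [Group G] [Finite G] [MulSemiringAction G L] [IsGaloisGroup G F L]
  (U : Subgroup G) [IsGaloisGroup U M L]

include M in
theorem under_under (P : Ideal (𝓞 L)) : (P.under (𝓞 M)).under (𝓞 F) = P.under (𝓞 F) := by
  rw [Ideal.under_under]

theorem norm_rel (P : Ideal (𝓞 L)) [P.IsPrime] :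
    (absNorm (P.under (𝓞 F))) ^ ((P.under (𝓞 M)).inertiaDeg (𝓞 F)) =
      absNorm (P.under (𝓞 M)) := by
  have : (P.under (𝓞 M)).LiesOver (P.under (𝓞 F)) := ⟨(under_under P).symm⟩
  exact absNorm_pow_inertiaDeg (P.under (𝓞 F)) (P.under (𝓞 M))

theorem A1 {p : ℕ} (hp : p.Prime) (P : Ideal (𝓞 L)) [P.IsPrime]
    (hP : absNorm (P.under (𝓞 M)) = p) (hram : P.ramificationIdx (𝓞 F) = 1) :
    absNorm (P.under (𝓞 F)) = p ∧ stabilizer G P ≤ U := by
  have hP0 : P ≠ ⊥ := by
    rintro rfl
    rw [Ideal.under_bot, absNorm_bot] at hP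
    exact hp.ne_zero hP.symm
  have h1 := norm_rel (F := F) (M := M) P
  rw [hP] at h1
  have hf : (P.under (𝓞 M)).inertiaDeg (𝓞 F) = 1 := by
    by_contra hne
    have h0 : (P.under (𝓞 M)).inertiaDeg (𝓞 F) ≠ 0 := by
      intro h0
      rw [h0, pow_zero] at h1
      exact hp.one_lt.ne h1
    have : Nat.Prime (absNorm (P.under (𝓞 F)) ^ ((P.under (𝓞 M)).inertiaDeg (𝓞 F))) := by
      rw [h1]; exact hp
    exact Nat.Prime.eq_one_of_pow this |> hne
  rw [hf, pow_one] at h1
  refine ⟨h1, ?_⟩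
  apply stab_le_of_card
  have h3 : Nat.card (stabilizer U P) = P.ramificationIdx (𝓞 M) * P.inertiaDeg (𝓞 M) :=
    card_stab' (F := M) U P hP0
  rw [card_stab' (F := F) G P hP0, h3, hram, one_mul]
  have htow : P.inertiaDeg (𝓞 F) = (P.under (𝓞 M)).inertiaDeg (𝓞 F) * P.inertiaDeg (𝓞 M) :=
    inertiaDeg_tower (P.under (𝓞 M)) P
  rw [htow, hf, one_mul]
  exact Nat.le_mul_of_pos_left _ (ramificationIdx_pos P (𝓞 M))

theorem B1 (P : Ideal (𝓞 L)) [P.IsPrime] (hP0 : P ≠ ⊥) (hram : P.ramificationIdx (𝓞 F) = 1)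
    (hU : stabilizer G P ≤ U) : absNorm (P.under (𝓞 M)) = absNorm (P.under (𝓞 F)) := by
  have h1 := norm_rel (F := F) (M := M) P
  have h2 := card_stab' (F := F) G P hP0
  have h3 : Nat.card (stabilizer U P) = P.ramificationIdx (𝓞 M) * P.inertiaDeg (𝓞 M) :=
    card_stab' (F := M) U P hP0
  rw [card_stab_sub G U P hU, h2, hram, one_mul] at h3
  have htow : P.inertiaDeg (𝓞 F) = (P.under (𝓞 M)).inertiaDeg (𝓞 F) * P.inertiaDeg (𝓞 M) :=
    inertiaDeg_tower (P.under (𝓞 M)) P
  have hrt : P.ramificationIdx (𝓞 F) = (P.under (𝓞 M)).ramificationIdx (𝓞 F) *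
      P.ramificationIdx (𝓞 M) := ramificationIdx_tower (P.under (𝓞 M)) P
  rw [hram] at hrt
  have he1 : P.ramificationIdx (𝓞 M) = 1 := Nat.eq_one_of_mul_eq_one_left hrt.symm
  rw [he1, one_mul, htow] at h3
  have hpos : 0 < P.inertiaDeg (𝓞 M) := inertiaDeg_pos P (𝓞 M)
  have hf : (P.under (𝓞 M)).inertiaDeg (𝓞 F) = 1 := by
    have : (P.under (𝓞 M)).inertiaDeg (𝓞 F) * P.inertiaDeg (𝓞 M) = 1 * P.inertiaDeg (𝓞 M) := by
      rw [h3, one_mul]
    exact Nat.eq_of_mul_eq_mul_right hpos this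
  rw [hf, pow_one] at h1
  exact h1.symm

end

section

variable {F M L : Type*} [Field F] [NumberField F] [Field M] [NumberField M] [Field L]
  [NumberField L] [Algebra F M] [Algebra M L] [Algebra F L] [IsScalarTower F M L]
  (G : Type*) [Group G] [Finite G] [MulSemiringAction G L] [IsGaloisGroup G F L]
  (U : Subgroup G) [IsGaloisGroup U M L]

/-- primes `P` of `L` whose restriction to `F` has norm `p` -/
def X (F L : Type*) [Field F] [NumberField F] [Field L] [NumberField L] [Algebra F L]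
    (p : ℕ) : Set (Ideal (𝓞 L)) :=
  {P | P.IsPrime ∧ absNorm (P.under (𝓞 F)) = p}

theorem ne_bot_of_mem_X {p : ℕ} (hp : p.Prime) {P : Ideal (𝓞 L)} (hP : P ∈ X F L p) : P ≠ ⊥ := by
  rintro rfl
  have := hP.2
  rw [Ideal.under_bot, absNorm_bot] at this
  exact hp.ne_zero this.symm

theorem mem_of_mem_X {p : ℕ} {P : Ideal (𝓞 L)} (hP : P ∈ X F L p) : (p : 𝓞 L) ∈ P := by
  have h1 : ((absNorm (P.under (𝓞 F)) : ℕ) : 𝓞 F) ∈ P.under (𝓞 F) := absNorm_mem _
  rw [hP.2] at h1
  simpa [Ideal.under_def] using h1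

theorem X_finite {p : ℕ} (hp : p.Prime) : (X F L p).Finite := by
  have h0 : Ideal.span {(p : 𝓞 L)} ≠ 0 := by
    simpa using hp.ne_zero
  refine ((Ideal.finite_factors h0).image (fun v => v.asIdeal)).subset ?_
  intro P hP
  have := hP.1
  refine ⟨⟨P, hP.1, ne_bot_of_mem_X hp hP⟩, ?_, rfl⟩
  change P ∣ _
  rw [Ideal.dvd_iff_le, Ideal.span_singleton_le_iff_mem]
  exact mem_of_mem_X hP

/-- ideals of `M` of norm `p` -/
def Y (M : Type*) [Field M] [NumberField M] (p : ℕ) : Set (Ideal (𝓞 M)) := {Q | absNorm Q = p}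

theorem Y_finite (p : ℕ) : (Y M p).Finite := Ideal.finite_setOfPred_absNorm_eq p

/-- all primes of `L` above `p` are unramified over `F` -/
def Unr (F L : Type*) [Field F] [NumberField F] [Field L] [NumberField L] [Algebra F L]
    (p : ℕ) : Prop :=
  ∀ P : Ideal (𝓞 L), P.IsPrime → P ≠ ⊥ → (p : 𝓞 L) ∈ P → P.ramificationIdx (𝓞 F) = 1

theorem fiber {p : ℕ} (hp : p.Prime) (hur : Unr F L p) (Q : Ideal (𝓞 M)) (hQ : absNorm Q = p)
    (P : Ideal (𝓞 L)) :
    (P ∈ X F L p ∧ stabilizer G P ≤ U ∧ P.under (𝓞 M) = Q) ↔ P ∈ primesOver Q (𝓞 L) := by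
  constructor
  · rintro ⟨h1, h2, h3⟩
    exact ⟨h1.1, ⟨h3.symm⟩⟩
  · rintro ⟨h1, h2⟩
    have hu : P.under (𝓞 M) = Q := h2.over.symm
    have hP0 : P ≠ ⊥ := by
      rintro rfl
      rw [Ideal.under_bot] at hu
      rw [← hu, absNorm_bot] at hQ
      exact hp.ne_zero hQ.symm
    have hmem : (p : 𝓞 L) ∈ P := by
      have h1 : ((absNorm (P.under (𝓞 M)) : ℕ) : 𝓞 M) ∈ P.under (𝓞 M) := absNorm_mem _
      rw [hu, hQ, ← hu] at h1
      simpa [Ideal.under_def] using h1
    obtain ⟨h4, h5⟩ := A1 (F := F) (M := M) G U hp P (by rw [hu, hQ]) (hur P h1 hP0 hmem)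
    exact ⟨⟨h1, h4⟩, h5, hu⟩

open scoped Classical in
/-- **the counting identity** -/
theorem count {p : ℕ} (hp : p.Prime) (hur : Unr F L p) :
    ∑ P ∈ (X_finite (F := F) (L := L) hp).toFinset.filter (fun P => stabilizer G P ≤ U),
      Nat.card (stabilizer G P) = Nat.card U * (Y_finite (M := M) p).toFinset.card := by
  rw [← Finset.sum_fiberwise_of_maps_to (t := (Y_finite (M := M) p).toFinset)
    (g := fun P => P.under (𝓞 M))]
  · rw [mul_comm, ← smul_eq_mul, ← Finset.sum_const]
    refine Finset.sum_congr rfl fun Q hQ => ?_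
    have hQ' : absNorm Q = p := by simpa [Y] using hQ
    have hQ0 : Q ≠ ⊥ := by
      rintro rfl
      rw [absNorm_bot] at hQ'
      exact hp.ne_zero hQ'.symm
    have hQp : Q.IsPrime := Ideal.isPrime_of_irreducible_absNorm (by rw [hQ']; exact hp)
    have hset : (((X_finite (F := F) (L := L) hp).toFinset.filter
        (fun P => stabilizer G P ≤ U)).filter (fun P => P.under (𝓞 M) = Q) : Set (Ideal (𝓞 L))) =
        primesOver Q (𝓞 L) := by
      ext P
      rw [← fiber G U hp hur Q hQ' P]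
      simp only [Finset.coe_filter, Finset.mem_filter, Set.Finite.mem_toFinset,
        Set.mem_ofPred_eq]
      constructor
      · rintro ⟨⟨h1, h2⟩, h3⟩
        exact ⟨h1, h2, h3⟩
      · rintro ⟨h1, h2, h3⟩
        exact ⟨⟨h1, h2⟩, h3⟩
    have hcard : (((X_finite (F := F) (L := L) hp).toFinset.filter
        (fun P => stabilizer G P ≤ U)).filter (fun P => P.under (𝓞 M) = Q)).card =
        (primesOver Q (𝓞 L)).ncard := by
      rw [← hset, Set.ncard_coe_finset]
    have key := fund_id (F := M) (L := L) U Q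
    rw [← key, ← hcard, ← smul_eq_mul, ← Finset.sum_const]
    refine Finset.sum_congr rfl fun P hP => ?_
    simp only [Finset.mem_filter, Set.Finite.mem_toFinset] at hP
    obtain ⟨⟨hPX, hPU⟩, hPQ⟩ := hP
    have := hPX.1
    have hP0 := ne_bot_of_mem_X hp hPX
    have h3 : Nat.card (stabilizer U P) = _ := card_stab (F := M) U P hP0
    rw [card_stab_sub G U P hPU, hPQ] at h3
    exact h3
  · intro P hP
    simp only [Finset.mem_filter, Set.Finite.mem_toFinset] at hP
    obtain ⟨hPX, hPU⟩ := hP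
    have := hPX.1
    have hP0 := ne_bot_of_mem_X hp hPX
    simp only [Set.Finite.mem_toFinset, Y, Set.mem_ofPred_eq]
    rw [B1 (F := F) G U P hP0 (hur P hPX.1 hP0 (mem_of_mem_X hPX)) hPU, hPX.2]

open scoped Classical in
/-- number of primes above `p` (of degree one below) with decomposition group exactly `D` -/
noncomputable def b (F : Type*) [Field F] [NumberField F] (L : Type*) [Field L] [NumberField L]
    [Algebra F L] (G : Type*) [Group G] [MulSemiringAction G L] (D : Subgroup G) (p : ℕ) : ℕ :=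
  Set.ncard {P : Ideal (𝓞 L) | P ∈ X F L p ∧ stabilizer G P = D}

open scoped Classical in
theorem count' [Fintype (Subgroup G)] {p : ℕ} (hp : p.Prime) (hur : Unr F L p) :
    ∑ D ∈ (Finset.univ : Finset (Subgroup G)).filter (fun D => D ≤ U),
      Nat.card D * b F L G D p = Nat.card U * (Y_finite (M := M) p).toFinset.card := by
  rw [← count (F := F) (M := M) G U hp hur]
  refine Eq.trans ?_ (Finset.sum_fiberwise_of_maps_to
    (t := (Finset.univ : Finset (Subgroup G)).filter (fun D => D ≤ U))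
    (g := fun P : Ideal (𝓞 L) => stabilizer G P) ?_ _)
  · refine Finset.sum_congr rfl fun D hD => ?_
    have hD' : D ≤ U := by simpa using hD
    have hset : ({P : Ideal (𝓞 L) | P ∈ X F L p ∧ stabilizer G P = D}) =
        (((X_finite (F := F) (L := L) hp).toFinset.filter
        (fun P => stabilizer G P ≤ U)).filter (fun P => stabilizer G P = D) :
          Set (Ideal (𝓞 L))) := by
      ext P
      simp only [Set.mem_ofPred_eq, Finset.coe_filter, Finset.mem_filter,
        Set.Finite.mem_toFinset]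
      constructor
      · rintro ⟨h1, h2⟩
        exact ⟨⟨h1, h2 ▸ hD'⟩, h2⟩
      · rintro ⟨⟨h1, -⟩, h2⟩
        exact ⟨h1, h2⟩
    rw [b, hset, Set.ncard_coe_finset, mul_comm, ← smul_eq_mul, ← Finset.sum_const]
    refine Finset.sum_congr rfl fun P hP => ?_
    simp only [Finset.mem_filter] at hP
    rw [hP.2]
  · intro P hP
    simp only [Finset.mem_filter, Set.Finite.mem_toFinset] at hP
    simp [hP.2]

end

end Crest.Agent.R018.FrobCountx389
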