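import Mathlib
import Crest.Agent.R018.FrobCount_389

/-!
Frobenius density from the pole of the Dedekind zeta functions of the intermediate fields.
-/

set_option autoImplicit false
set_option linter.unusedSectionVars false

open NumberField Ideal MulAction
open scoped Pointwise
open Crest.Agent.R018.FrobCountx389

namespace Crest.Agent.R018.FrobDensityx389

/-- prime sum with real coefficients -/
noncomputable def Z (a : ℕ → ℝ) (s : ℝ) : ℝ := ∑' p : Nat.Primes, a p * ((p : ℕ) : ℝ) ^ (-s)

/-- logarithmic density `c` (with bounded error) of the weight `a` on the rational primes -/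
def LogD (a : ℕ → ℝ) (c : ℝ) : Prop :=
  (∀ s : ℝ, 1 < s → Summable (fun p : Nat.Primes => a p * ((p : ℕ) : ℝ) ^ (-s))) ∧
  ∃ C : ℝ, ∀ s : ℝ, 1 < s → s ≤ 2 → |Z a s - c * Real.log (1 / (s - 1))| ≤ C

theorem LogD.add {a a' : ℕ → ℝ} {c c' : ℝ} (h : LogD a c) (h' : LogD a' c') :
    LogD (fun p => a p + a' p) (c + c') := by
  obtain ⟨h1, C, h2⟩ := h
  obtain ⟨h1', C', h2'⟩ := h'
  refine ⟨fun s hs => ?_, C + C', fun s hs hs2 => ?_⟩
  · simp only [add_mul]
    exact (h1 s hs).add (h1' s hs)
  · have : Z (fun p => a p + a' p) s = Z a s + Z a' s := by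
      simp only [Z, add_mul]
      exact (h1 s hs).tsum_add (h1' s hs)
    rw [this]
    have e : Z a s + Z a' s - (c + c') * Real.log (1 / (s - 1)) =
        (Z a s - c * Real.log (1 / (s - 1))) + (Z a' s - c' * Real.log (1 / (s - 1))) := by ring
    rw [e]
    exact (abs_add_le _ _).trans (add_le_add (h2 s hs hs2) (h2' s hs hs2))

theorem LogD.smul {a : ℕ → ℝ} {c : ℝ} (k : ℝ) (h : LogD a c) :
    LogD (fun p => k * a p) (k * c) := by
  obtain ⟨h1, C, h2⟩ := h
  refine ⟨fun s hs => ?_, |k| * C, fun s hs hs2 => ?_⟩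
  · simp only [mul_assoc]
    exact (h1 s hs).mul_left k
  · have : Z (fun p => k * a p) s = k * Z a s := by
      simp only [Z, mul_assoc]
      exact tsum_mul_left
    rw [this]
    have e : k * Z a s - k * c * Real.log (1 / (s - 1)) =
        k * (Z a s - c * Real.log (1 / (s - 1))) := by ring
    rw [e, abs_mul]
    exact mul_le_mul_of_nonneg_left (h2 s hs hs2) (abs_nonneg k)

theorem LogD.zero : LogD (fun _ => 0) 0 := by
  refine ⟨fun s hs => ?_, 0, fun s hs hs2 => ?_⟩
  · simpa using summable_zero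
  · simp [Z]

theorem LogD.sum {ι : Type*} (T : Finset ι) {a : ι → ℕ → ℝ} {c : ι → ℝ}
    (h : ∀ i ∈ T, LogD (a i) (c i)) : LogD (fun p => ∑ i ∈ T, a i p) (∑ i ∈ T, c i) := by
  classical
  induction T using Finset.induction_on with
  | empty => simpa using LogD.zero
  | insert i T hi ih =>
    simp only [Finset.sum_insert hi]
    exact (h i (Finset.mem_insert_self i T)).add
      (ih fun j hj => h j (Finset.mem_insert_of_mem hj))

/-- weights supported on small primes have density zero -/
theorem LogD.of_small {a : ℕ → ℝ} (N : ℕ) (h : ∀ p : ℕ, p.Prime → N < p → a p = 0) :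
    LogD a 0 := by
  have hfin : ({p : Nat.Primes | (p : ℕ) ≤ N} : Set Nat.Primes).Finite := by
    refine Set.Finite.of_finite_image ((Set.finite_Iic N).subset ?_)
      (f := fun p : Nat.Primes => (p : ℕ)) (Subtype.val_injective.injOn)
    rintro _ ⟨p, hp, rfl⟩
    exact hp
  have hsupp : ∀ s : ℝ, ∀ p : Nat.Primes, p ∉ hfin.toFinset →
      a p * ((p : ℕ) : ℝ) ^ (-s) = 0 := by
    intro s p hp
    have : N < (p : ℕ) := by simpa using hp
    rw [h p p.2 this, zero_mul]
  refine ⟨fun s hs => summable_of_ne_finset_zero (hsupp s), ∑ p ∈ hfin.toFinset, |a p|,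
    fun s hs hs2 => ?_⟩
  rw [zero_mul, sub_zero, Z, tsum_eq_sum (hsupp s)]
  refine (Finset.abs_sum_le_sum_abs _ _).trans (Finset.sum_le_sum fun p hp => ?_)
  rw [abs_mul]
  have h1 : |((p : ℕ) : ℝ) ^ (-s)| ≤ 1 := by
    rw [abs_of_nonneg (by positivity)]
    exact Real.rpow_le_one_of_one_le_of_nonpos (by exact_mod_cast p.2.one_lt.le) (by linarith)
  calc |a p| * |((p : ℕ) : ℝ) ^ (-s)| ≤ |a p| * 1 :=
        mul_le_mul_of_nonneg_left h1 (abs_nonneg _)
    _ = |a p| := mul_one _

theorem LogD.congr {a a' : ℕ → ℝ} {c : ℝ} (N : ℕ) (h : ∀ p : ℕ, p.Prime → N < p → a p = a' p)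
    (ha : LogD a c) : LogD a' c := by
  have h1 : LogD (fun p => a' p - a p) 0 := LogD.of_small N fun p hp hN => by
    rw [h p hp hN, sub_self]
  simpa using ha.add h1

theorem LogD.frequently {a : ℕ → ℝ} {c : ℝ} (hc : 0 < c) (ha : LogD a c) (N : ℕ) :
    ∃ p : ℕ, p.Prime ∧ N < p ∧ a p ≠ 0 := by
  by_contra hcon
  push Not at hcon
  obtain ⟨C, hC⟩ := (LogD.of_small N hcon).2
  obtain ⟨C', hC'⟩ := ha.2
  have key : ∀ s : ℝ, 1 < s → s ≤ 2 → c * Real.log (1 / (s - 1)) ≤ C + C' := by
    intro s h1 h2
    have h3 := hC s h1 h2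
    have h4 := hC' s h1 h2
    rw [abs_le] at h3 h4
    linarith [h3.1, h3.2, h4.1, h4.2]
  have hpos : 0 < Real.exp (-((C + C') / c + 1)) := Real.exp_pos _
  set δ := min 1 (Real.exp (-((C + C') / c + 1))) with hδ
  have hδ0 : 0 < δ := lt_min one_pos hpos
  have h5 := key (1 + δ) (by linarith) (by linarith [min_le_left 1 (Real.exp (-((C + C') / c + 1)))])
  have h6 : Real.log (1 / (1 + δ - 1)) ≥ (C + C') / c + 1 := by
    rw [add_sub_cancel_left, Real.log_div one_ne_zero hδ0.ne', Real.log_one, zero_sub]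
    have : Real.log δ ≤ -((C + C') / c + 1) := by
      calc Real.log δ ≤ Real.log (Real.exp (-((C + C') / c + 1))) :=
            Real.log_le_log hδ0 (min_le_right _ _)
        _ = _ := Real.log_exp _
    linarith
  have h7 : c * ((C + C') / c + 1) ≤ C + C' := (mul_le_mul_of_nonneg_left h6 hc.le).trans h5
  have h8 : c * ((C + C') / c + 1) = C + C' + c := by
    field_simp
  linarith

section

variable {F L : Type*} [Field F] [NumberField F] [Field L] [NumberField L] [Algebra F L]

/-- almost all primes are unramified -/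
theorem unr_of_large : ∃ N : ℕ, ∀ p : ℕ, p.Prime → N < p → Unr F L p := by
  refine ⟨(discr L).natAbs, fun p hp hN P hP hP0 hmem => ?_⟩
  have hpI : Prime (p : ℤ) := Nat.prime_iff_prime_int.mp hp
  have hnd : ¬ (p : ℤ) ∣ discr L := by
    intro hd
    have h1 := Int.natAbs_dvd_natAbs.mpr hd
    rw [Int.natAbs_natCast] at h1
    exact absurd (Nat.le_of_dvd (Int.natAbs_pos.mpr (discr_ne_zero L)) h1) (not_le.mpr hN)
  have hur := (NumberField.not_dvd_discr_iff_forall_mem L (𝓞 L) hpI).mp hnd P hP
    (by simpa using hmem)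
  have h1 : P.ramificationIdx ℤ = 1 := ramificationIdx_eq_one P ℤ
  have h2 : P.ramificationIdx ℤ = (P.under (𝓞 F)).ramificationIdx ℤ * P.ramificationIdx (𝓞 F) :=
    ramificationIdx_tower (P.under (𝓞 F)) P
  rw [h1] at h2
  exact Nat.eq_one_of_mul_eq_one_left h2.symm

end

section

variable {G : Type*} [Group G] [Finite G]

/-- number of generators -/
noncomputable def gen (U : Subgroup G) : ℕ := Nat.card {g : G // Subgroup.zpowers g = U}

open scoped Classical in
theorem sum_gen [Fintype (Subgroup G)] (U : Subgroup G) :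
    ∑ D ∈ (Finset.univ : Finset (Subgroup G)).filter (fun D => D ≤ U), gen D = Nat.card U := by
  have := Fintype.ofFinite G
  have h1 : Nat.card U = ((Finset.univ : Finset G).filter (fun g => g ∈ U)).card := by
    rw [Nat.card_eq_fintype_card, Fintype.card_subtype]
  rw [h1, Finset.card_eq_sum_card_fiberwise (f := fun g => Subgroup.zpowers g)
    (t := (Finset.univ : Finset (Subgroup G)).filter (fun D => D ≤ U))]
  · refine Finset.sum_congr rfl fun D hD => ?_
    have hD' : D ≤ U := by simpa using hD
    rw [gen, Nat.card_eq_fintype_card, Fintype.card_subtype, Finset.filter_filter]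
    congr 1
    ext g
    simp only [Finset.mem_filter, Finset.mem_univ, true_and]
    constructor
    · intro h
      exact ⟨hD' (h ▸ Subgroup.mem_zpowers g), h⟩
    · exact fun h => h.2
  · intro g hg
    simp only [Finset.coe_filter, Finset.mem_univ, true_and, Set.mem_ofPred_eq,
      Subgroup.zpowers_le] at hg ⊢
    exact hg

theorem gen_pos (σ : G) : 0 < gen (Subgroup.zpowers σ) := by
  have : Nonempty {g : G // Subgroup.zpowers g = Subgroup.zpowers σ} := ⟨⟨σ, rfl⟩⟩
  exact Nat.card_pos

end

section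

variable {F L : Type*} [Field F] [NumberField F] [Field L] [NumberField L] [Algebra F L]
  [IsGalois F L]

/-- the input: the pole of the Dedekind zeta functions of the intermediate fields -/
def ZetaInput (F L : Type*) [Field F] [NumberField F] [Field L] [NumberField L] [Algebra F L] :
    Prop :=
  ∀ M : IntermediateField F L, LogD (fun p => (Y M p).ncard) 1

theorem main (H : ZetaInput F L) (U : Subgroup Gal(L/F)) :
    LogD (fun p => (Nat.card U : ℝ) * (b F L Gal(L/F) U p : ℝ)) (gen U : ℝ) := by
  classical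
  have hfin : Finite (Subgroup Gal(L/F)) := inferInstance
  have := Fintype.ofFinite (Subgroup Gal(L/F))
  obtain ⟨N, hN⟩ := unr_of_large (F := F) (L := L)
  induction U using WellFoundedLT.induction with
  | ind U ih =>
    have h1 : LogD (fun p => (Nat.card U : ℝ) *
        ((Y (FixedPoints.intermediateField U : IntermediateField F L) p).ncard : ℝ))
        ((Nat.card U : ℝ) * 1) := (H _).smul _
    have h2 : LogD (fun p => ∑ D ∈ (Finset.univ : Finset (Subgroup Gal(L/F))).filter
        (fun D => D < U), ((Nat.card D : ℝ) * (b F L Gal(L/F) D p : ℝ)))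
        (∑ D ∈ (Finset.univ : Finset (Subgroup Gal(L/F))).filter (fun D => D < U),
          (gen D : ℝ)) := LogD.sum _ fun D hD => ih D (by simpa using hD)
    have h3 := h1.add (h2.smul (-1))
    have hsplit : (Finset.univ : Finset (Subgroup Gal(L/F))).filter (fun D => D ≤ U) =
        insert U ((Finset.univ : Finset (Subgroup Gal(L/F))).filter (fun D => D < U)) := by
      ext D
      simp only [Finset.mem_filter, Finset.mem_univ, true_and, Finset.mem_insert]
      exact le_iff_eq_or_lt
    have hnot : U ∉ (Finset.univ : Finset (Subgroup Gal(L/F))).filter (fun D => D < U) := by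
      simp
    have hc : ((Nat.card U : ℝ) * 1 + -1 * ∑ D ∈ (Finset.univ : Finset
        (Subgroup Gal(L/F))).filter (fun D => D < U), (gen D : ℝ)) = (gen U : ℝ) := by
      have := sum_gen U
      rw [hsplit, Finset.sum_insert hnot] at this
      have h' : (Nat.card U : ℝ) = (gen U : ℝ) + ∑ D ∈ (Finset.univ : Finset
        (Subgroup Gal(L/F))).filter (fun D => D < U), (gen D : ℝ) := by
        rw [← this]; push_cast; rfl
      rw [h']; ring
    rw [hc] at h3
    refine LogD.congr N (fun p hp hpN => ?_) h3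
    have hcount := count' (F := F) (M := (FixedPoints.intermediateField U :
      IntermediateField F L)) Gal(L/F) U hp (hN p hp hpN)
    rw [hsplit, Finset.sum_insert hnot] at hcount
    have hY : (Y_finite (M := (FixedPoints.intermediateField U :
      IntermediateField F L)) p).toFinset.card =
      (Y (FixedPoints.intermediateField U : IntermediateField F L) p).ncard := by
      rw [Set.ncard_eq_toFinset_card _ (Y_finite p)]
    rw [hY] at hcount
    have hcount' : ((Nat.card U : ℝ) * (b F L Gal(L/F) U p : ℝ)) +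
        ∑ D ∈ (Finset.univ : Finset (Subgroup Gal(L/F))).filter (fun D => D < U),
          ((Nat.card D : ℝ) * (b F L Gal(L/F) D p : ℝ)) = (Nat.card U : ℝ) *
          ((Y (FixedPoints.intermediateField U : IntermediateField F L) p).ncard : ℝ) := by
      exact_mod_cast hcount
    rw [← hcount']
    ring

/-- **Frobenius density, existence form.** -/
theorem exists_prime (H : ZetaInput F L) (σ : Gal(L/F)) (N : ℕ) :
    ∃ p : ℕ, p.Prime ∧ N < p ∧ Unr F L p ∧ ∃ P : Ideal (𝓞 L), P.IsPrime ∧
      absNorm (P.under (𝓞 F)) = p ∧ stabilizer Gal(L/F) P = Subgroup.zpowers σ := by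
  obtain ⟨N', hN'⟩ := unr_of_large (F := F) (L := L)
  have hpos : (0 : ℝ) < (gen (Subgroup.zpowers σ) : ℝ) := by exact_mod_cast gen_pos σ
  obtain ⟨p, hp, hpN, hne⟩ := (main H (Subgroup.zpowers σ)).frequently hpos (max N N')
  refine ⟨p, hp, lt_of_le_of_lt (le_max_left _ _) hpN,
    hN' p hp (lt_of_le_of_lt (le_max_right _ _) hpN), ?_⟩
  have hb : b F L Gal(L/F) (Subgroup.zpowers σ) p ≠ 0 := by
    intro h
    simp only [h, Nat.cast_zero, mul_zero, ne_eq, not_true_eq_false] at hne
  obtain ⟨P, hP⟩ := Set.nonempty_of_ncard_ne_zero hb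
  exact ⟨P, hP.1.1, hP.1.2, hP.2⟩

end

end Crest.Agent.R018.FrobDensityx389
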