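import Mathlib
import Crest.Agent.R018.FrobDensity_389

/-!
Frobenius elements: form of the Frobenius density theorem used in the end game.
-/

set_option autoImplicit false
set_option linter.unusedSectionVars false

open NumberField Ideal MulAction
open scoped Pointwise
open Crest.Agent.R018.FrobCountx389 Crest.Agent.R018.FrobDensityx389

namespace Crest.Agent.R018.FrobElemx389

variable {F L : Type*} [Field F] [NumberField F] [Field L] [NumberField L] [Algebra F L]
  [IsGalois F L]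

theorem pow_frob (P : Ideal (𝓞 L)) (q : ℕ) (φ : Gal(L/F))
    (hφ : ∀ x : 𝓞 L, φ • x - x ^ q ∈ P) (k : ℕ) (x : 𝓞 L) : φ ^ k • x - x ^ q ^ k ∈ P := by
  induction k generalizing x with
  | zero => simp
  | succ k ih =>
    have h1 := hφ (φ ^ k • x)
    have h2 := ih x
    have h3 : (φ ^ k • x) ^ q - (x ^ q ^ k) ^ q ∈ P := by
      have := Ideal.mem_of_dvd P (sub_dvd_pow_sub_pow (φ ^ k • x) (x ^ q ^ k) q) h2
      exact this
    have h4 := P.add_mem h1 h3
    rw [pow_succ', mul_smul, pow_succ, pow_mul]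
    simpa using h4

theorem frob_mem_stabilizer (P : Ideal (𝓞 L)) [P.IsPrime] (q : ℕ) (hq : q ≠ 0) (φ : Gal(L/F))
    (hφ : ∀ x : 𝓞 L, φ • x - x ^ q ∈ P) : φ ∈ stabilizer Gal(L/F) P := by
  rw [mem_stabilizer_iff]
  have h1 : ∀ x : 𝓞 L, x ∈ P ↔ φ • x ∈ P := by
    intro x
    constructor
    · intro hx
      have := P.add_mem (hφ x) (P.pow_mem_of_mem hx q (Nat.pos_of_ne_zero hq))
      simpa using this
    · intro hx
      have := P.sub_mem hx (hφ x)
      rw [sub_sub_cancel] at this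
      exact Ideal.IsPrime.mem_of_pow_mem inferInstance q this
  ext x
  rw [Ideal.mem_pointwise_smul_iff_inv_smul_mem, h1, smul_inv_smul]

theorem zpowers_frob (P : Ideal (𝓞 L)) [P.IsPrime] (hP0 : P ≠ ⊥)
    (hram : P.ramificationIdx (𝓞 F) = 1) (φ : Gal(L/F))
    (hφ : ∀ x : 𝓞 L, φ • x - x ^ (absNorm (P.under (𝓞 F))) ∈ P) :
    Subgroup.zpowers φ = stabilizer Gal(L/F) P := by
  set q := absNorm (P.under (𝓞 F)) with hqdef
  have hp0 : P.under (𝓞 F) ≠ ⊥ := by
    intro h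
    exact hP0 (Ideal.eq_bot_of_comap_eq_bot h)
  have hq0 : q ≠ 0 := by
    rw [hqdef, Ne, absNorm_eq_zero_iff]
    exact hp0
  have hq1 : 1 < q := by
    have : q ≠ 1 := by
      rw [hqdef, Ne, absNorm_eq_one_iff]
      exact Ideal.IsPrime.ne_top inferInstance
    omega
  have hmem := frob_mem_stabilizer P q hq0 φ hφ
  have hle : Subgroup.zpowers φ ≤ stabilizer Gal(L/F) P := by
    rw [Subgroup.zpowers_le]; exact hmem
  have hcard : Nat.card (stabilizer Gal(L/F) P) = P.inertiaDeg (𝓞 F) := by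
    rw [card_stab' (F := F) Gal(L/F) P hP0, hram, one_mul]
  have hPmax : P.IsMaximal := Ideal.IsPrime.isMaximal inferInstance hP0
  have hfinq : Finite (𝓞 L ⧸ P) := Ideal.finiteQuotientOfFreeOfNeBot P hP0
  have horder : P.inertiaDeg (𝓞 F) ≤ orderOf φ := by
    letI := Ideal.Quotient.field P
    have hk : 0 < orderOf φ := orderOf_pos φ
    have hroot : ∀ y : 𝓞 L ⧸ P, y ^ q ^ orderOf φ = y := by
      intro y
      obtain ⟨x, rfl⟩ := Ideal.Quotient.mk_surjective y
      have := pow_frob P q φ hφ (orderOf φ) x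
      rw [pow_orderOf_eq_one, one_smul] at this
      rw [← map_pow]
      exact ((Ideal.Quotient.eq).mpr this).symm
    have hcardk : Nat.card (𝓞 L ⧸ P) = q ^ P.inertiaDeg (𝓞 F) := by
      have h1 : (P.under (𝓞 F)).absNorm ^ P.inertiaDeg (𝓞 F) = P.absNorm :=
        absNorm_pow_inertiaDeg (P.under (𝓞 F)) P
      rw [hqdef, h1]
      rfl
    have hbound : Nat.card (𝓞 L ⧸ P) ≤ q ^ orderOf φ := by
      have := Fintype.ofFinite (𝓞 L ⧸ P)
      have hne : (Polynomial.X ^ q ^ orderOf φ - Polynomial.X : Polynomial (𝓞 L ⧸ P)) ≠ 0 :=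
        FiniteField.X_pow_card_sub_X_ne_zero _ (Nat.one_lt_pow hk.ne' hq1)
      have hdeg : (Polynomial.X ^ q ^ orderOf φ - Polynomial.X :
          Polynomial (𝓞 L ⧸ P)).natDegree = q ^ orderOf φ :=
        FiniteField.X_pow_card_sub_X_natDegree_eq _ (Nat.one_lt_pow hk.ne' hq1)
      rw [Nat.card_eq_fintype_card, ← Finset.card_univ, ← hdeg]
      have hsub : (Finset.univ : Finset (𝓞 L ⧸ P)).val ≤ (Polynomial.X ^ q ^ orderOf φ -
          Polynomial.X : Polynomial (𝓞 L ⧸ P)).roots := by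
        rw [Multiset.le_iff_subset Finset.univ.nodup]
        intro y _
        rw [Polynomial.mem_roots hne]
        simp [hroot y]
      exact (Multiset.card_le_card hsub).trans (Polynomial.card_roots' _)
    rw [hcardk] at hbound
    exact (Nat.pow_le_pow_iff_right hq1).mp hbound
  refine Subgroup.eq_of_le_of_card_ge hle ?_
  rw [Nat.card_zpowers, hcard]
  exact horder

/-- **Frobenius density, Frobenius element form.** -/
theorem exists_frob (H : ZetaInput F L) (σ : Gal(L/F)) (N : ℕ) :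
    ∃ p : ℕ, p.Prime ∧ N < p ∧ Unr F L p ∧ ∃ P : Ideal (𝓞 L), P.IsPrime ∧ P ≠ ⊥ ∧
      (p : 𝓞 L) ∈ P ∧ absNorm (P.under (𝓞 F)) = p ∧
      stabilizer Gal(L/F) P = Subgroup.zpowers σ ∧
      ∃ φ : Gal(L/F), Subgroup.zpowers φ = Subgroup.zpowers σ ∧ ∀ x : 𝓞 L, φ • x - x ^ p ∈ P := by
  obtain ⟨p, hp, hpN, hur, P, hP, hnorm, hst⟩ := exists_prime H σ N
  have hPX : P ∈ X F L p := ⟨hP, hnorm⟩
  have hP0 := ne_bot_of_mem_X hp hPX
  have hfin : Finite (𝓞 L ⧸ P) := Ideal.finiteQuotientOfFreeOfNeBot P hP0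
  have hφ := IsArithFrobAt.arithFrobAt (𝓞 F) Gal(L/F) P
  have hφ' : ∀ x : 𝓞 L, arithFrobAt (𝓞 F) Gal(L/F) P • x - x ^ p ∈ P := by
    intro x
    have := hφ x
    have hc : Nat.card (𝓞 F ⧸ P.under (𝓞 F)) = p := hnorm
    rw [hc] at this
    exact this
  refine ⟨p, hp, hpN, hur, P, hP, hP0, mem_of_mem_X hPX, hnorm, hst, _, ?_, hφ'⟩
  rw [zpowers_frob P hP0 (hur P hP hP0 (mem_of_mem_X hPX)) _ (by rw [hnorm]; exact hφ'), hst]

end Crest.Agent.R018.FrobElemx389
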