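import Mathlib
import Crest.Agent.R018.FrobElem_389
import Crest.Agent.R018.DegOne_796

/-!
# Row 18: the Frobenius density theorem (unconditional)

* `frob_density` : for `L/F` Galois number fields and `U ≤ Gal(L/F)`,
  `∑_p |U| b_U(p) p^{-s} = #{g | zpowers g = U} log (1/(s-1)) + O(1)`.
* `exists_frob` : for every `σ` infinitely many (unramified, degree one over `ℚ` below) primes `P` of
  `L` with decomposition group `zpowers σ`, with Frobenius element `φ`, `zpowers φ = zpowers σ`.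
* `exists_frob_rat` : the same over `ℚ`.
-/

set_option autoImplicit false
set_option linter.unusedSectionVars false

open NumberField Ideal MulAction
open scoped Pointwise
open Crest.Agent.R018.FrobCountx389 Crest.Agent.R018.FrobDensityx389

namespace Crest.Agent.R018.Frobeniusx389

section

variable (F L : Type*) [Field F] [NumberField F] [Field L] [NumberField L] [Algebra F L]

theorem zetaInput : ZetaInput F L := by
  intro M
  have hcard : ∀ p : ℕ, (Nat.card {I : Ideal (𝓞 M) // absNorm I = p}) = (Y M p).ncard := by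
    intro p
    rfl
  refine ⟨fun s hs => ?_, ?_⟩
  · have := Crest.Agent.R018.DegOnex796.summable_prime M hs
    simp only [hcard] at this
    exact this
  · obtain ⟨C, hC⟩ := Crest.Agent.R018.DegOnex796.bdd M
    refine ⟨C, fun s hs hs2 => ?_⟩
    have := hC s hs hs2
    simp only [hcard] at this
    rw [one_mul]
    exact this

variable {F L} [IsGalois F L]

theorem frob_density (U : Subgroup Gal(L/F)) :
    LogD (fun p => (Nat.card U : ℝ) * (b F L Gal(L/F) U p : ℝ)) (gen U : ℝ) :=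
  main (zetaInput F L) U

/-- **Frobenius density, Frobenius element form.** -/
theorem exists_frob (σ : Gal(L/F)) (N : ℕ) :
    ∃ p : ℕ, p.Prime ∧ N < p ∧ Unr F L p ∧ ∃ P : Ideal (𝓞 L), P.IsPrime ∧ P ≠ ⊥ ∧
      (p : 𝓞 L) ∈ P ∧ absNorm (P.under (𝓞 F)) = p ∧
      stabilizer Gal(L/F) P = Subgroup.zpowers σ ∧
      ∃ φ : Gal(L/F), Subgroup.zpowers φ = Subgroup.zpowers σ ∧ ∀ x : 𝓞 L, φ • x - x ^ p ∈ P :=
  Crest.Agent.R018.FrobElemx389.exists_frob (zetaInput F L) σ N

end

section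

variable {L : Type*} [Field L] [NumberField L] [IsGalois ℚ L]

/-- **Frobenius density over `ℚ`.** -/
theorem exists_frob_rat (σ : Gal(L/ℚ)) (N : ℕ) :
    ∃ p : ℕ, p.Prime ∧ N < p ∧ (∀ P : Ideal (𝓞 L), P.IsPrime → (p : 𝓞 L) ∈ P →
        P.ramificationIdx ℤ = 1) ∧ ∃ P : Ideal (𝓞 L), P.IsPrime ∧ P ≠ ⊥ ∧
      (p : 𝓞 L) ∈ P ∧ stabilizer Gal(L/ℚ) P = Subgroup.zpowers σ ∧
      ∃ φ : Gal(L/ℚ), Subgroup.zpowers φ = Subgroup.zpowers σ ∧ ∀ x : 𝓞 L, φ • x - x ^ p ∈ P := by
  obtain ⟨p, hp, hpN, -, P, hP, hP0, hmem, -, hst, hφ⟩ := exists_frob σ (max N (discr L).natAbs)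
  refine ⟨p, hp, lt_of_le_of_lt (le_max_left _ _) hpN, fun Q hQ hQmem => ?_,
    P, hP, hP0, hmem, hst, hφ⟩
  have hpI : Prime (p : ℤ) := Nat.prime_iff_prime_int.mp hp
  have hnd : ¬ (p : ℤ) ∣ discr L := by
    intro hd
    have h1 := Int.natAbs_dvd_natAbs.mpr hd
    rw [Int.natAbs_natCast] at h1
    exact absurd (Nat.le_of_dvd (Int.natAbs_pos.mpr (discr_ne_zero L)) h1)
      (not_le.mpr (lt_of_le_of_lt (le_max_right _ _) hpN))
  have hur := (NumberField.not_dvd_discr_iff_forall_mem L (𝓞 L) hpI).mp hnd Q hQ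
    (by simpa using hQmem)
  exact ramificationIdx_eq_one Q ℤ

end

end Crest.Agent.R018.Frobeniusx389
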