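import Mathlib
import Crest.Agent.R018.Frobenius_389

/-!
# Row 18, set-up of section 7 (helper678), arithmetic part

`exists_indep`: in a number field `F` Galois over `ℚ` there are, for every `n` and every modulus
`M ≠ 0`, algebraic integers `x 0, …, x (n-1)`, all `≡ 1 mod M`, all of whose conjugates
`γ • x i` are independent modulo squares.
-/

set_option autoImplicit false
set_option linter.unusedSectionVars false

open NumberField Ideal MulAction
open scoped Pointwise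

namespace Crest.Agent.R018.SetupAx678

variable {F : Type*} [Field F] [NumberField F] [IsGalois ℚ F]

theorem natCast_mem_smul {P : Ideal (𝓞 F)} {p : ℕ} (h : (p : 𝓞 F) ∈ P) (γ : Gal(F/ℚ)) :
    (p : 𝓞 F) ∈ γ • P := by
  rw [Ideal.mem_pointwise_smul_iff_inv_smul_mem]
  have : γ⁻¹ • (p : 𝓞 F) = p :=
    map_natCast (MulSemiringAction.toRingHom Gal(F/ℚ) (𝓞 F) γ⁻¹) p
  rwa [this]

instance smul_isPrime {P : Ideal (𝓞 F)} [hP : P.IsPrime] (γ : Gal(F/ℚ)) : (γ • P).IsPrime := by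
  infer_instance

theorem smul_ne_bot {P : Ideal (𝓞 F)} (hP0 : P ≠ ⊥) (γ : Gal(F/ℚ)) : γ • P ≠ ⊥ := by
  intro h
  apply hP0
  have h1 : γ⁻¹ • (γ • P) = γ⁻¹ • (⊥ : Ideal (𝓞 F)) := by rw [h]
  rw [inv_smul_smul] at h1
  rw [h1]
  exact Ideal.map_bot

/-- one element, with a simple zero at `P` and nonzero at the other conjugates of `P`. -/
theorem exists_one (p : ℕ) (hp : p.Prime) (P : Ideal (𝓞 F)) [hP : P.IsPrime] (hP0 : P ≠ ⊥)
    (hmem : (p : 𝓞 F) ∈ P) (hst : stabilizer Gal(F/ℚ) P = ⊥) (M : ℕ) (hM : ¬ p ∣ M) :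
    ∃ x : 𝓞 F, (M : 𝓞 F) ∣ x - 1 ∧ x ∈ P ∧ x ∉ P ^ 2 ∧ ∀ γ : Gal(F/ℚ), γ ≠ 1 → x ∉ γ • P := by
  classical
  obtain ⟨π, hπ, hπ2⟩ : ∃ π, π ∈ P ∧ π ∉ P ^ 2 := by
    have hlt : P ^ 2 < P := by
      have := Ideal.pow_right_strictAnti P hP0 hP.ne_top (show 1 < 2 by norm_num)
      simpa using this
    exact SetLike.exists_of_lt hlt
  let I : Option Gal(F/ℚ) → Ideal (𝓞 F) := fun o =>
    o.elim (span {(M : 𝓞 F)}) (fun γ => if γ = 1 then P ^ 2 else γ • P)
  have hMc : ∀ γ : Gal(F/ℚ), IsCoprime (span {(M : 𝓞 F)}) (γ • P) := by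
    intro γ
    have hc : IsCoprime (M : ℤ) (p : ℤ) := by
      rw [Nat.isCoprime_iff_coprime]
      exact ((Nat.Prime.coprime_iff_not_dvd hp).mpr hM).symm
    obtain ⟨a, b, hab⟩ := hc
    rw [Ideal.isCoprime_iff_exists]
    refine ⟨(a : 𝓞 F) * M, Ideal.mul_mem_left _ _ (Ideal.mem_span_singleton_self _),
      (b : 𝓞 F) * p, Ideal.mul_mem_left _ _ (natCast_mem_smul hmem γ), ?_⟩
    have := congrArg (Int.cast : ℤ → 𝓞 F) hab
    push_cast at this
    exact this
  have hne : ∀ γ γ' : Gal(F/ℚ), γ ≠ γ' → IsCoprime (γ • P) (γ' • P) := by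
    intro γ γ' h
    rw [Ideal.isCoprime_iff_sup_eq]
    have h1 : (γ • P).IsMaximal := (smul_isPrime γ).isMaximal (smul_ne_bot hP0 γ)
    have h2 : (γ' • P).IsMaximal := (smul_isPrime γ').isMaximal (smul_ne_bot hP0 γ')
    apply h1.coprime_of_ne h2
    intro he
    apply h
    have h3 : γ'⁻¹ * γ ∈ stabilizer Gal(F/ℚ) P := by
      rw [mem_stabilizer_iff, mul_smul, he, inv_smul_smul]
    rw [hst, Subgroup.mem_bot] at h3
    exact (inv_mul_eq_one.mp h3).symm
  have hI : Pairwise (Function.onFun IsCoprime I) := by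
    have key : ∀ γ : Gal(F/ℚ), IsCoprime (span {(M : 𝓞 F)}) (I (some γ)) := by
      intro γ
      change IsCoprime _ (if γ = 1 then P ^ 2 else γ • P)
      split_ifs with h
      · have := hMc 1
        rw [one_smul] at this
        exact this.pow_right
      · exact hMc γ
    have key2 : ∀ γ γ' : Gal(F/ℚ), γ ≠ γ' → IsCoprime (I (some γ)) (I (some γ')) := by
      intro γ γ' h
      change IsCoprime (if γ = 1 then P ^ 2 else γ • P) (if γ' = 1 then P ^ 2 else γ' • P)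
      have h0 := hne γ γ' h
      split_ifs with h1 h2 h2
      · exact absurd (h1.trans h2.symm) h
      · rw [h1, one_smul] at h0
        exact h0.pow_left
      · rw [h2, one_smul] at h0
        exact h0.pow_right
      · exact h0
    rintro (_ | γ) (_ | γ') h
    · exact absurd rfl h
    · exact key γ'
    · exact (key γ).symm
    · exact key2 γ γ' (fun he => h (by rw [he]))
  obtain ⟨x, hx⟩ := Ideal.exists_forall_sub_mem_ideal hI
    (fun o => o.elim (1 : 𝓞 F) (fun γ => if γ = 1 then π else 1))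
  have hx1 : x - π ∈ P ^ 2 := by
    have := hx (some 1)
    simpa [I] using this
  refine ⟨x, ?_, ?_, ?_, ?_⟩
  · have := hx none
    exact Ideal.mem_span_singleton.mp this
  · have h2 : x - π ∈ P := Ideal.pow_le_self two_ne_zero hx1
    have := P.add_mem h2 hπ
    simpa using this
  · intro h
    apply hπ2
    have := (P ^ 2).sub_mem h hx1
    simpa using this
  · intro γ hγ h
    have h1 : x - 1 ∈ γ • P := by
      have := hx (some γ)
      simpa [I, hγ] using this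
    have h2 : (1 : 𝓞 F) ∈ γ • P := by
      have := (γ • P).sub_mem h h1
      simpa using this
    exact (smul_isPrime γ).ne_top ((Ideal.eq_top_iff_one _).mpr h2)

/-- a bound beyond which primes are found: infinitely many primes `p` with a prime `P | p` of `F`
of trivial decomposition group. -/
theorem exists_split (B : ℕ) : ∃ p : ℕ, p.Prime ∧ B < p ∧ ∃ P : Ideal (𝓞 F), P.IsPrime ∧ P ≠ ⊥ ∧
    (p : 𝓞 F) ∈ P ∧ stabilizer Gal(F/ℚ) P = ⊥ := by
  obtain ⟨p, hp, hB, -, P, hP, hP0, hmem, hst, -⟩ :=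
    Crest.Agent.R018.Frobeniusx389.exists_frob_rat (1 : Gal(F/ℚ)) B
  exact ⟨p, hp, hB, P, hP, hP0, hmem, by rw [hst, Subgroup.zpowers_one_eq_bot]⟩

/-- increasing sequence of such primes. -/
theorem exists_split_seq (B : ℕ) (n : ℕ) : ∃ (p : Fin n → ℕ) (P : Fin n → Ideal (𝓞 F)),
    Function.Injective p ∧ (∀ i, (p i).Prime) ∧ (∀ i, B < p i) ∧ (∀ i, (P i).IsPrime) ∧
    (∀ i, P i ≠ ⊥) ∧ (∀ i, ((p i : ℕ) : 𝓞 F) ∈ P i) ∧
    ∀ i, stabilizer Gal(F/ℚ) (P i) = ⊥ := by
  induction n with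
  | zero => exact ⟨Fin.elim0, Fin.elim0, fun i => i.elim0, fun i => i.elim0, fun i => i.elim0,
      fun i => i.elim0, fun i => i.elim0, fun i => i.elim0, fun i => i.elim0⟩
  | succ n ih =>
    obtain ⟨p, P, hinj, h1, h2, h3, h4, h5, h6⟩ := ih
    obtain ⟨q, hq, hBq, Q, hQ, hQ0, hQm, hQs⟩ :=
      exists_split (F := F) (max B (Finset.univ.sup p))
    have hlt : ∀ i, p i < q := fun i =>
      lt_of_le_of_lt ((Finset.le_sup (Finset.mem_univ i)).trans (le_max_right _ _)) hBq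
    refine ⟨Fin.cons q p, Fin.cons Q P, ?_, ?_, ?_, ?_, ?_, ?_, ?_⟩
    · rw [Fin.cons_injective_iff]
      refine ⟨?_, hinj⟩
      rintro ⟨i, hi⟩
      exact absurd hi (hlt i).ne
    all_goals
      intro i
      refine Fin.cases ?_ (fun j => ?_) i
    · simpa using hq
    · simpa using h1 j
    · simpa using lt_of_le_of_lt (le_max_left _ _) hBq
    · simpa using h2 j
    · simpa using hQ
    · simpa using h3 j
    · simpa using hQ0
    · simpa using h4 j
    · simpa using hQm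
    · simpa using h5 j
    · simpa using hQs
    · simpa using h6 j

/-- **independence modulo squares**. -/
theorem exists_indep (n : ℕ) (M : ℕ) (hM : M ≠ 0) : ∃ x : Fin n → 𝓞 F,
    (∀ i, (M : 𝓞 F) ∣ x i - 1) ∧ (∀ i, x i ≠ 0) ∧
    ∀ S : Finset (Gal(F/ℚ) × Fin n), S.Nonempty →
      ¬ IsSquare (∏ s ∈ S, ((s.1 • x s.2 : 𝓞 F) : F)) := by
  classical
  obtain ⟨p, P, hinj, hp, hB, hP, hP0, hm, hst⟩ := exists_split_seq (F := F) M n
  have hex : ∀ i, ∃ x : 𝓞 F, ((M * ∏ j ∈ Finset.univ.erase i, p j : ℕ) : 𝓞 F) ∣ x - 1 ∧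
      x ∈ P i ∧ x ∉ P i ^ 2 ∧ ∀ γ : Gal(F/ℚ), γ ≠ 1 → x ∉ γ • P i := by
    intro i
    have := hP i
    refine exists_one (p i) (hp i) (P i) (hP0 i) (hm i) (hst i) _ ?_
    rw [(hp i).dvd_mul, not_or]
    refine ⟨fun h => ?_, fun h => ?_⟩
    · exact absurd (Nat.le_of_dvd (Nat.pos_of_ne_zero hM) h) (not_le.mpr (hB i))
    · rw [(hp i).prime.dvd_finsetProd_iff] at h
      obtain ⟨j, hj, hj'⟩ := h
      have h1 := (Nat.prime_dvd_prime_iff_eq (hp i) (hp j)).mp hj'
      exact (Finset.mem_erase.mp hj).1 (hinj h1).symm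
  choose x hx1 hx2 hx3 hx4 using hex
  have hMx : ∀ i, (M : 𝓞 F) ∣ x i - 1 := by
    intro i
    refine dvd_trans ?_ (hx1 i)
    push_cast
    exact dvd_mul_right _ _
  have hoff : ∀ i j, i ≠ j → ∀ γ γ' : Gal(F/ℚ), γ • x i ∉ γ' • P j := by
    intro i j hij γ γ' h
    have h1 : ((p j : ℕ) : 𝓞 F) ∣ x i - 1 := by
      refine dvd_trans ?_ (hx1 i)
      push_cast
      refine Dvd.dvd.mul_left (Finset.dvd_prod_of_mem (fun j => ((p j : ℕ) : 𝓞 F)) ?_) _
      exact Finset.mem_erase.mpr ⟨hij.symm, Finset.mem_univ _⟩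
    rw [Ideal.mem_pointwise_smul_iff_inv_smul_mem, smul_smul] at h
    have h2 : x i ∈ (γ'⁻¹ * γ)⁻¹ • P j := by
      rw [Ideal.mem_pointwise_smul_iff_inv_smul_mem, inv_inv]
      exact h
    have h3 : x i - 1 ∈ (γ'⁻¹ * γ)⁻¹ • P j := by
      obtain ⟨c, hc⟩ := h1
      rw [hc]
      exact Ideal.mul_mem_right _ _ (natCast_mem_smul (hm j) _)
    have h4 : (1 : 𝓞 F) ∈ (γ'⁻¹ * γ)⁻¹ • P j := by
      have := Ideal.sub_mem _ h2 h3
      simpa using this
    have := hP j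
    exact (smul_isPrime (P := P j) (γ'⁻¹ * γ)⁻¹).ne_top ((Ideal.eq_top_iff_one _).mpr h4)
  refine ⟨x, hMx, ?_, ?_⟩
  · intro i h0
    exact hx3 i (by rw [h0]; exact Submodule.zero_mem _)
  · intro S hS hsq
    obtain ⟨⟨γ₀, i₀⟩, hs₀⟩ := hS
    have hPi := hP i₀
    have hprime : (γ₀ • P i₀).IsPrime := smul_isPrime γ₀
    obtain ⟨z, hz⟩ := hsq
    have hzint : IsIntegral ℤ z := by
      have h1 : IsIntegral ℤ (z ^ 2) := by
        rw [sq, ← hz]
        have : (∏ s ∈ S, ((s.1 • x s.2 : 𝓞 F) : F)) =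
            algebraMap (𝓞 F) F (∏ s ∈ S, (s.1 • x s.2 : 𝓞 F)) := by
          rw [map_prod]
        rw [this]
        exact RingOfIntegers.isIntegral_coe _
      exact IsIntegral.of_pow (n := 2) (by norm_num) h1
    obtain ⟨y, rfl⟩ : ∃ y : 𝓞 F, (y : F) = z := ⟨⟨z, hzint⟩, rfl⟩
    have hy : (∏ s ∈ S, (s.1 • x s.2 : 𝓞 F)) = y * y := by
      apply RingOfIntegers.coe_injective
      rw [map_prod, map_mul]
      exact hz
    have hmemy : y ∈ γ₀ • P i₀ := by
      have h1 : y * y ∈ γ₀ • P i₀ := by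
        rw [← hy, ← Finset.mul_prod_erase S _ hs₀]
        refine Ideal.mul_mem_right _ _ ?_
        exact Ideal.smul_mem_pointwise_smul γ₀ _ _ (hx2 i₀)
      rcases hprime.mem_or_mem h1 with h | h <;> exact h
    have h2 : (∏ s ∈ S, (s.1 • x s.2 : 𝓞 F)) ∈ (γ₀ • P i₀) ^ 2 := by
      rw [hy, sq]
      exact Ideal.mul_mem_mul hmemy hmemy
    rw [← Finset.mul_prod_erase S _ hs₀, mul_comm] at h2
    rcases Ideal.IsPrime.mul_mem_pow (γ₀ • P i₀) h2 with h | h
    · rw [hprime.prod_mem_iff] at h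
      obtain ⟨⟨γ, i⟩, hs, hsm⟩ := h
      rw [Finset.mem_erase] at hs
      simp only at hsm
      by_cases hi : i = i₀
      · subst hi
        have hγ : γ ≠ γ₀ := fun h => hs.1 (by rw [h])
        have h3 : x i ∈ (γ⁻¹ * γ₀) • P i := by
          rw [Ideal.mem_pointwise_smul_iff_inv_smul_mem] at hsm ⊢
          rw [smul_smul] at hsm
          rw [mul_inv_rev, inv_inv]
          exact hsm
        exact hx4 i _ (fun he => hγ (inv_mul_eq_one.mp he)) h3
      · exact hoff i i₀ hi γ γ₀ hsm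
    · have h3 : x i₀ ∈ P i₀ ^ 2 := by
        have h4 : (γ₀ • P i₀) ^ 2 = γ₀ • (P i₀ ^ 2) := by
          rw [Ideal.pointwise_smul_def, Ideal.pointwise_smul_def, Ideal.map_pow]
        simp only at h
        rw [h4, Ideal.mem_pointwise_smul_iff_inv_smul_mem, inv_smul_smul] at h
        exact h
      exact hx3 i₀ h3

end Crest.Agent.R018.SetupAx678
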