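import Mathlib
import Crest.Agent.R018.ChiB_472
import Crest.Agent.R018.SetupA_678

/-!
# Row 18: existence of quadratic characters with trivial stabilizer (helper472)

`E/ℚ` Galois, closed under square roots, `U` open normal in `Gal(E/ℚ)`: for every `n` there are
`χ 0, …, χ (n-1) : U →* ℤˣ` all of whose conjugates are independent (`IND`), of the form
`χ i (a) = a (s i) / s i` with `s i ^ 2` fixed by `U` and `≡ 1 mod M`.
-/

set_option autoImplicit false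
set_option linter.unusedSectionVars false

noncomputable section

namespace Crest.Agent.R018.Chix472

open NumberField Crest.Agent.R018.GDefx791

variable {E : Type*} [Field E] [CharZero E] [IsGalois ℚ E]

/-- `U2`: the elements of `U` killed by all conjugates of all the `χ i` -/
def U2 {G : Type*} [Group G] {U : Subgroup G} [hUn : U.Normal] {n : ℕ} (χ : Fin n → (U →* ℤˣ)) :
    Subgroup G where
  carrier := {g | ∃ h : g ∈ U, ∀ i, ∀ γ : G, χ i (MulAut.conjNormal γ⁻¹ ⟨g, h⟩) = 1}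
  one_mem' := ⟨U.one_mem, fun i γ => by
    have : (⟨1, U.one_mem⟩ : U) = 1 := rfl
    rw [this, map_one, map_one]⟩
  mul_mem' := by
    rintro a b ⟨ha, ha'⟩ ⟨hb, hb'⟩
    refine ⟨U.mul_mem ha hb, fun i γ => ?_⟩
    have : (⟨a * b, U.mul_mem ha hb⟩ : U) = ⟨a, ha⟩ * ⟨b, hb⟩ := rfl
    rw [this, map_mul, map_mul, ha', hb', mul_one]
  inv_mem' := by
    rintro a ⟨ha, ha'⟩
    refine ⟨U.inv_mem ha, fun i γ => ?_⟩
    have : (⟨a⁻¹, U.inv_mem ha⟩ : U) = (⟨a, ha⟩ : U)⁻¹ := rfl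
    rw [this, map_inv, map_inv, ha', inv_one]

section U2

variable {G : Type*} [Group G] {U : Subgroup G} [hUn : U.Normal] {n : ℕ} (χ : Fin n → (U →* ℤˣ))

theorem mem_U2 {g : G} : g ∈ U2 χ ↔
    ∃ h : g ∈ U, ∀ i, ∀ γ : G, χ i (MulAut.conjNormal γ⁻¹ ⟨g, h⟩) = 1 := Iff.rfl

theorem U2_le : U2 χ ≤ U := fun _ h => h.1

instance U2_normal : (U2 χ).Normal := by
  constructor
  rintro a ⟨ha, ha'⟩ g
  refine ⟨hUn.conj_mem a ha g, fun i γ => ?_⟩
  have h1 := ha' i (g⁻¹ * γ)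
  rw [← h1]
  congr 1
  apply Subtype.val_injective
  simp only [MulAut.conjNormal_apply]
  group

theorem pr_eq_one_of_mem {g : G} (hg : g ∈ U2 χ) (I : Finset (Fin n)) :
    pr χ I ⟨g, U2_le χ hg⟩ = 1 := by
  rw [pr_apply]
  refine Finset.prod_eq_one fun i _ => ?_
  have h := hg.2 i 1
  have h2 : (MulAut.conjNormal (1 : G)⁻¹ (⟨g, hg.1⟩ : U)) = ⟨g, U2_le χ hg⟩ := by
    apply Subtype.val_injective
    simp
  rwa [h2] at h

end U2

/-- the open normal subgroup `U` seen through its fixed field -/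
theorem exists_fixedField {E : Type*} [Field E] [CharZero E] [IsGalois ℚ E]
    (U : Subgroup (E ≃ₐ[ℚ] E)) [U.Normal] (hU : IsOpen (U : Set (E ≃ₐ[ℚ] E))) :
    ∃ (L : IntermediateField ℚ E) (_ : NumberField L) (_ : IsGalois ℚ L),
      ∀ a : E ≃ₐ[ℚ] E, a ∈ U ↔ ∀ y : L, a (algebraMap L E y) = algebraMap L E y := by
  let L := IntermediateField.fixedField U
  have hcl : IsClosed (U : Set (E ≃ₐ[ℚ] E)) := Subgroup.isClosed_of_isOpen U hU
  have hfix : L.fixingSubgroup = U := by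
    have := InfiniteGalois.fixingSubgroup_fixedField (⟨U, hcl⟩ : ClosedSubgroup (E ≃ₐ[ℚ] E))
    exact this
  have hfin : @Module.Finite ℚ L _ _ L.algebra'.toModule := by
    have h1 : IsOpen (L.fixingSubgroup : Set (E ≃ₐ[ℚ] E)) := by
      rw [hfix]
      exact hU
    exact (InfiniteGalois.isOpen_iff_finite L).1 h1
  have hgal : @IsGalois ℚ _ L _ L.algebra' := by
    have h1 : L.fixingSubgroup.Normal := by
      rw [hfix]
      infer_instance
    exact (InfiniteGalois.normal_iff_isGalois L).1 h1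
  have halg : L.algebra' = (DivisionRing.toRatAlgebra : Algebra ℚ L) := Subsingleton.elim _ _
  rw [halg] at hfin hgal
  refine ⟨L, { to_charZero := inferInstance, to_finiteDimensional := hfin }, hgal, fun a => ?_⟩
  rw [← hfix, IntermediateField.mem_fixingSubgroup_iff]
  exact ⟨fun h y => h y y.2, fun h y hy => h ⟨y, hy⟩⟩

/-- **the existence theorem** -/
theorem exists_chi (hsq : ∀ x : E, ∃ y, y ^ 2 = x) (U : Subgroup (E ≃ₐ[ℚ] E)) [U.Normal]
    (hU : IsOpen (U : Set (E ≃ₐ[ℚ] E))) (n : ℕ) (M : ℕ) (hM : M ≠ 0) :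
    ∃ (s : Fin n → E) (hs0 : ∀ i, s i ≠ 0) (hs : ∀ i, ∀ a ∈ U, a (s i ^ 2) = s i ^ 2),
      (∀ i, ∃ z : 𝓞 E, s i ^ 2 = 1 + M * (z : E)) ∧
      IND U (fun i => sgn U (s i) (hs0 i) (hs i)) := by
  obtain ⟨L, h1, h2, h3⟩ := exists_fixedField U hU
  obtain ⟨x, hxM, hx0, hx⟩ := SetupAx678.exists_indep (F := L) n M hM
  obtain ⟨s, hs0, hs, hsx, hI⟩ := main hsq U L h3 n x hx
  refine ⟨s, hs0, hs, fun i => ?_, hI⟩
  obtain ⟨z, hz⟩ := hxM i
  refine ⟨⟨algebraMap L E z, ?_⟩, ?_⟩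
  · exact (NumberField.RingOfIntegers.isIntegral_coe z).algebraMap
  · rw [hsx i]
    have h4 : (x i : L) = 1 + M * (z : L) := by
      have h5 : x i = 1 + M * z := by linear_combination hz
      rw [h5]
      push_cast
      ring
    rw [h4]
    simp

/-- `U2` of sign characters is open -/
theorem isOpen_U2 {n : ℕ} (U : Subgroup (E ≃ₐ[ℚ] E)) [U.Normal]
    (hU : IsOpen (U : Set (E ≃ₐ[ℚ] E))) (s : Fin n → E) (hs0 : ∀ i, s i ≠ 0)
    (hs : ∀ i, ∀ a ∈ U, a (s i ^ 2) = s i ^ 2) :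
    IsOpen (U2 (fun i => sgn U (s i) (hs0 i) (hs i)) : Set (E ≃ₐ[ℚ] E)) := by
  have hW : IsOpen ((U : Set (E ≃ₐ[ℚ] E)) ∩
      ⋂ i, ((MulAction.stabilizer (E ≃ₐ[ℚ] E) (s i) : Subgroup _) : Set (E ≃ₐ[ℚ] E))) :=
    hU.inter (isOpen_iInter_of_finite fun i => isOpen_stabilizer (s i))
  obtain ⟨H, hH⟩ := ProfiniteGrp.exist_openNormalSubgroup_sub_open_nhds_of_one hW
    ⟨U.one_mem, Set.mem_iInter.2 fun i => Subgroup.one_mem _⟩
  refine Subgroup.isOpen_mono (H₁ := H.toSubgroup) ?_ H.isOpen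
  intro g hg
  refine ⟨(hH hg).1, fun i γ => ?_⟩
  rw [sgn_eq_one_iff]
  have h1 : γ⁻¹ * g * γ ∈ H.toSubgroup := by
    have := H.isNormal'.conj_mem g hg γ⁻¹
    simpa using this
  have h2 := Set.mem_iInter.1 (hH h1).2 i
  rw [MulAut.conjNormal_apply, inv_inv]
  exact h2

/-- plain form for the consumers: `n` characters with open kernels, independent conjugates -/
theorem exists_chi' (hsq : ∀ x : E, ∃ y, y ^ 2 = x) (U : Subgroup (E ≃ₐ[ℚ] E)) [U.Normal]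
    (hU : IsOpen (U : Set (E ≃ₐ[ℚ] E))) (n : ℕ) :
    ∃ χ : Fin n → (U →* ℤˣ), IND U χ ∧ IsOpen (U2 χ : Set (E ≃ₐ[ℚ] E)) ∧
      (∀ I : Finset (Fin n), I.Nonempty → TrivStab U (pr χ I) ∧ pr χ I ≠ 1) := by
  obtain ⟨s, hs0, hs, -, hI⟩ := exists_chi hsq U hU n 1 one_ne_zero
  refine ⟨_, hI, isOpen_U2 U hU s hs0 hs, fun I hI' => ⟨hI.trivStab hI', ?_⟩⟩
  obtain ⟨a, ha⟩ := hI.ne_one hI'
  intro h
  rw [h] at ha
  have : (1 : ℤˣ) = -1 := ha
  exact absurd this (by decide)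

end Crest.Agent.R018.Chix472
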