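import Crest.Agent.R018.ConsD_814

/-!
# Row 18: `ψ_l` of finite order has kernel of finite index (helper814)
-/

set_option autoImplicit false

namespace Crest.Agent.R018.ConsD2x814

open Crest.Agent.R018.EndDefx924 (Om)
open Crest.Agent.R018.Corex74 Crest.Agent.R018.ConsDx814

/-- a homomorphism to `ℤ_[l]ˣ` killed by `k > 0` has a kernel of finite index -/
theorem finiteIndex_ker {G : Type*} [Group G] {l : ℕ} [hl : Fact l.Prime] (f : G →* ℤ_[l]ˣ)
    {k : ℕ} (hk : 0 < k) (h : ∀ g, f g ^ k = 1) : f.ker.FiniteIndex := by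
  have h1 : {x : ℤ_[l] | x ^ k = 1}.Finite := by
    have h2 : (Polynomial.X ^ k - 1 : Polynomial ℤ_[l]) ≠ 0 :=
      Polynomial.X_pow_sub_C_ne_zero hk 1
    refine ((Polynomial.X ^ k - 1 : Polynomial ℤ_[l]).rootSet_finite ℤ_[l]).subset ?_
    intro x hx
    rw [Polynomial.mem_rootSet]
    refine ⟨h2, ?_⟩
    have hx' : x ^ k = 1 := hx
    simp [hx']
  have h3 : (f.range : Set ℤ_[l]ˣ).Finite := by
    refine (h1.preimage (Units.val_injective.injOn)).subset ?_
    rintro _ ⟨g, rfl⟩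
    have := congrArg (fun u : ℤ_[l]ˣ => (u : ℤ_[l])) (h g)
    simpa using this
  have h4 : Finite f.range := h3.to_subtype
  have h5 : Finite (G ⧸ f.ker) := Finite.of_equiv _ (QuotientGroup.quotientKerEquivRange f).symm.toEquiv
  exact Subgroup.finiteIndex_of_finite_quotient

theorem finiteIndex_psi {l : ℕ} [hl : Fact l.Prime] (D : Dat) (h : FinPsi D l) :
    (psi l D).ker.FiniteIndex := by
  obtain ⟨k, hk, h⟩ := h
  refine finiteIndex_ker (psi l D) hk fun g => ?_
  have h1 := (cycEq_iff l _ _).1 (h g)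
  rw [map_pow, map_pow] at h1
  rw [psi_apply, div_pow, h1, div_self']

theorem mem_ker_psi {l : ℕ} [hl : Fact l.Prime] (D : Dat) (g : D.G) :
    g ∈ (psi l D).ker ↔ CycEq l (g : BB) (D.α g) := by
  rw [MonoidHom.mem_ker, psi_eq_one_iff]

end Crest.Agent.R018.ConsD2x814
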