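import Mathlib
import Crest.Prelude.Def_SolvClosed
import Crest.Agent.R018.GDef_791

/-!
# Row 18, consequences (A), (B), (C): frozen interface (helper933)

`E` abstract (Galois over `ℚ`), `G1 ≤ Gal(Om/ℚ)`, `α : G1 →* Gal(E/ℚ)`.
`R S Q` is the relation "`S ∈ ⋃ₗ S1(l)` and `S → Q`" between places of `Om` and places of `E`;
the consequences only use the four properties collected in `Corr`.
-/

set_option autoImplicit false

noncomputable section

namespace Crest.Agent.R018.ConsDefx933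

open Crest.Agent.R018.EndDefx924 Crest.Agent.R018.Placesx484 Crest.Agent.R018.GDefx791
open scoped NumberField

variable {E : Type} [Field E] [CharZero E]

/-- the only properties of the local correspondence `S → Q` used in (A), (B), (C) -/
structure Corr (G1 : Subgroup B) (α : G1 →* (E ≃ₐ[ℚ] E)) (R : Place Om → Place E → Prop) :
    Prop where
  /-- `α (D_S ∩ G1) ≤ D_Q` -/
  goes : ∀ S Q, R S Q → ∀ d : G1, (d : B) • S = S → α d • Q = Q
  /-- `Q` is determined by `S` -/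
  unique : ∀ S Q Q', R S Q → R S Q' → Q = Q'
  /-- equivariance -/
  equiv : ∀ S Q, R S Q → ∀ h : G1, R ((h : B) • S) (α h • Q)
  /-- (S1) for one prime `l`: almost all `Q` are hit -/
  hit : ∃ B0 : ℕ, ∀ Q : Place E, B0 < Q.rchar → ∃ S, R S Q

/-- `F` is a Frobenius lift over `ℚ` at the place `Q` of `E` -/
def FrobQ (Q : Place E) (F : E ≃ₐ[ℚ] E) : Prop :=
  ∀ x : 𝓞 E, F • x - x ^ Q.rchar ∈ Q.ideal

/-- Frobenius density for `E` : for every open normal `N`, every `g` and every bound there is a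
place `Q` of large residue characteristic with a Frobenius lift `F` over `ℚ` such that `F` and `g`
generate the same subgroup modulo `N` -/
def FDE (E : Type) [Field E] [CharZero E] : Prop :=
  ∀ (N : Subgroup (E ≃ₐ[ℚ] E)) [N.Normal], IsOpen (N : Set (E ≃ₐ[ℚ] E)) →
    ∀ (g : E ≃ₐ[ℚ] E) (B0 : ℕ), ∃ (Q : Place E) (F : E ≃ₐ[ℚ] E), B0 < Q.rchar ∧ FrobQ Q F ∧
      (∃ k : ℕ, g⁻¹ ^ k * F ∈ N) ∧ (∃ k : ℕ, F⁻¹ ^ k * g ∈ N)

/-- section 9 of the CORE at the prime `l`, group form: `U21` open normal in `Gal(E/ℚ)` fixing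
some `i` with `i ^ 2 = -1`, `χ : U21 → {±1}` nontrivial with open kernel, `U2 ≤ ker χ` open:
the eigenspace `Eig χ` in `Hom(U2, ℤ_l)` is not zero, for all but finitely many primes `l`. -/
def MinusE (E : Type) [Field E] [CharZero E] : Prop :=
  ∀ (U21 : Subgroup (E ≃ₐ[ℚ] E)) [U21.Normal], IsOpen (U21 : Set (E ≃ₐ[ℚ] E)) →
    (∃ i : E, i ^ 2 = -1 ∧ ∀ u ∈ U21, (u : E ≃ₐ[ℚ] E) i = i) →
    ∀ χ : U21 →* ℤˣ, χ ≠ 1 → ∀ (U2 : Subgroup (E ≃ₐ[ℚ] E)) [U2.Normal],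
      IsOpen (U2 : Set (E ≃ₐ[ℚ] E)) → (∀ u (h : u ∈ U2), ∃ h' : u ∈ U21, χ ⟨u, h'⟩ = 1) →
      ∃ L0 : ℕ, ∀ (l : ℕ) [Fact l.Prime], L0 < l → ∃ ψ ∈ Eig l U21 U2 χ 1, ψ ≠ 0

/-- consequence (A) -/
def ConsA (G1 : Subgroup B) (α : G1 →* (E ≃ₐ[ℚ] E)) : Prop :=
  Function.Surjective α

/-- consequence (B), for the open normal subgroup `U20 = Gal(E/F20)`: if `q ≠ 2` is unramified in
`F20` then the places `S` going to places over `q` have bounded residue characteristic. -/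
def ConsB (R : Place Om → Place E → Prop) (U20 : Subgroup (E ≃ₐ[ℚ] E)) : Prop :=
  ∀ q : ℕ, q ≠ 2 →
    (∀ Q : Place E, Q.rchar = q → ∀ g : E ≃ₐ[ℚ] E, g ∈ Q.ideal.inertia (E ≃ₐ[ℚ] E) → g ∈ U20) →
    ∃ B1 : ℕ, ∀ S Q, R S Q → Q.rchar = q → S.rchar ≤ B1

/-- consequence (C), for the open normal subgroup `U21 = Gal(E/F21)`, `U20` as in (B): for almost
all residue characteristics of `S`, if `S → Q`, `Q` is unramified in `F21` (and in `F20`),
the image of a Frobenius lift `σ` at `S` generates the decomposition group of `Q` modulo `U21`. -/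
def ConsC (G1 : Subgroup B) (α : G1 →* (E ≃ₐ[ℚ] E)) (R : Place Om → Place E → Prop)
    (U20 : Subgroup (E ≃ₐ[ℚ] E)) : Prop :=
  ∀ (U21 : Subgroup (E ≃ₐ[ℚ] E)) [U21.Normal], IsOpen (U21 : Set (E ≃ₐ[ℚ] E)) → U21 ≤ U20 →
    ∃ B1 : ℕ, ∀ S Q, R S Q → B1 < S.rchar → Q.rchar ≠ 2 →
      (∀ g : E ≃ₐ[ℚ] E, g ∈ Q.ideal.inertia (E ≃ₐ[ℚ] E) → g ∈ U21) →
      ∀ (k : ℕ) (σ : B) (hσ : IsFrobLift G1 S S.rchar k σ),
      ∀ g : E ≃ₐ[ℚ] E, g • Q = Q → ∃ n : ℕ, (α ⟨σ, hσ.1⟩)⁻¹ ^ n * g ∈ U21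

end Crest.Agent.R018.ConsDefx933
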