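import Crest.Agent.R018.EndDef_924

/-!
# Row 18, end game: elementary lemmas (helper924)
-/

set_option autoImplicit false

namespace Crest.Agent.R018.EndAx924

open Crest.Agent.R018.EndDefx924 Polynomial

/-! ### instances for `Om` with the default `ℚ`-algebra structure -/

theorem om_alg_eq : (DivisionRing.toRatAlgebra : Algebra ℚ Om) = AlgebraicClosure.instAlgebra ℚ :=
  Subsingleton.elim _ _

instance om_isAlgebraic : Algebra.IsAlgebraic ℚ Om := by
  rw [om_alg_eq]; exact AlgebraicClosure.isAlgebraic ℚ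

instance om_normal : Normal ℚ Om := normal_iff.2 fun x =>
  ⟨Algebra.IsIntegral.isIntegral x, IsAlgClosed.splits _⟩

instance om_isGalois : IsGalois ℚ Om := ⟨⟩

/-! ### elements fixed by Frobenius are integers -/

theorem eq_intCast_of_pow {p : ℕ} [Fact p.Prime] {k : Type*} [Field k] [CharP k p] {x : k}
    (hx : x ^ p = x) : ∃ n : ℤ, x = (n : k) := by
  classical
  by_contra hcon
  push Not at hcon
  have hp : 1 < p := (Fact.out : p.Prime).one_lt
  have hne : (X ^ p - X : k[X]) ≠ 0 := FiniteField.X_pow_card_sub_X_ne_zero k hp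
  have hdeg : (X ^ p - X : k[X]).natDegree = p := FiniteField.X_pow_card_sub_X_natDegree_eq k hp
  let f : ZMod p → k := fun a => ZMod.castHom (dvd_refl p) k a
  have hf : Function.Injective f := (ZMod.castHom (dvd_refl p) k).injective
  have hroot : ∀ a : ZMod p, (f a) ^ p = f a := by
    intro a
    rw [← map_pow, ZMod.pow_card]
  let S : Finset k := insert x (Finset.univ.image f)
  have hxS : x ∉ Finset.univ.image f := by
    simp only [Finset.mem_image, Finset.mem_univ, true_and, not_exists]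
    intro a ha
    apply hcon (a.val : ℤ)
    rw [← ha]
    simp only [f, Int.cast_natCast]
    conv_lhs => rw [← ZMod.natCast_zmod_val a]
    rw [map_natCast]
  have hcard : S.card = p + 1 := by
    rw [Finset.card_insert_of_notMem hxS, Finset.card_image_of_injective _ hf, Finset.card_univ,
      ZMod.card]
  have hsub : S.val ⊆ (X ^ p - X : k[X]).roots := by
    intro y hy
    have hy' : y ∈ S := hy
    rw [Polynomial.mem_roots hne, IsRoot.def, eval_sub, eval_pow, eval_X, sub_eq_zero]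
    rcases Finset.mem_insert.1 hy' with h | h
    · rw [h, hx]
    · obtain ⟨a, -, rfl⟩ := Finset.mem_image.1 h
      exact hroot a
  have h1 := Polynomial.card_le_degree_of_subset_roots hsub
  rw [hcard, hdeg] at h1
  omega

/-! ### separating two Frobenius-fixed homomorphisms -/

theorem exists_separating {p : ℕ} [Fact p.Prime] {k : Type*} [Field k] [CharP k p] {R : Type*}
    [CommRing R] (f1 f2 : R →+* k) (h1 : ∀ x, f1 x ^ p = f1 x) (h2 : ∀ x, f2 x ^ p = f2 x)
    (hne : ∃ x, f1 x ≠ f2 x) (n : ℤ) : ∃ y : R, f1 y = 1 ∧ f2 y = (n : k) := by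
  obtain ⟨x, hx⟩ := hne
  obtain ⟨m, hm⟩ := eq_intCast_of_pow (h2 x)
  have hp : 1 < p := (Fact.out : p.Prime).one_lt
  obtain ⟨q, rfl⟩ : ∃ q, p = q + 1 := ⟨p - 1, by omega⟩
  have hq : q ≠ 0 := by omega
  set z : R := x - (m : R) with hz
  have hz2 : f2 z = 0 := by rw [hz, map_sub, map_intCast, hm, sub_self]
  have hz1 : f1 z ≠ 0 := by
    rw [hz, map_sub, map_intCast, ← hm, sub_ne_zero]
    exact hx
  have he1 : f1 (z ^ q) = 1 := by
    have := h1 z
    rw [pow_succ] at this
    rw [map_pow]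
    exact mul_right_cancel₀ hz1 (by rw [this, one_mul])
  have he2 : f2 (z ^ q) = 0 := by rw [map_pow, hz2, zero_pow hq]
  refine ⟨z ^ q + (n : R) * (1 - z ^ q), ?_, ?_⟩
  · rw [map_add, map_mul, map_sub, map_one, he1, sub_self, mul_zero, add_zero]
  · rw [map_add, map_mul, map_sub, map_one, he2, sub_zero, mul_one, zero_add, map_intCast]

/-- a quadratic non-residue -/
theorem exists_nonresidue {p : ℕ} [Fact p.Prime] (hp2 : p ≠ 2) (k : Type*) [Field k] [CharP k p] :
    ∃ n : ℤ, ∀ w : k, w ^ p = w → w * w ≠ (n : k) := by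
  have hrc : ringChar (ZMod p) ≠ 2 := by
    rw [ZMod.ringChar_zmod_n]; exact hp2
  obtain ⟨a, ha⟩ := FiniteField.exists_nonsquare (F := ZMod p) hrc
  refine ⟨(a.val : ℤ), fun w hw hsq => ha ?_⟩
  obtain ⟨m, rfl⟩ := eq_intCast_of_pow hw
  refine ⟨(m : ZMod p), ?_⟩
  apply (ZMod.castHom (dvd_refl p) k).injective
  rw [map_mul, map_intCast, hsq, Int.cast_natCast]
  conv_lhs => rw [← ZMod.natCast_zmod_val a]
  rw [map_natCast]

/-! ### nonzero algebraic integers are units at almost all places -/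

theorem exists_bound {E : Type*} [Field E] [CharZero E] (d : OO E) (hd : d ≠ 0) :
    ∃ B : ℕ, ∀ (p : ℕ) [Fact p.Prime], B < p → ∀ l : Pl p E, l d ≠ 0 := by
  have hint : IsIntegral ℤ d := Algebra.IsIntegral.isIntegral d
  obtain ⟨m, hm0, e, he⟩ : ∃ m : ℤ, m ≠ 0 ∧ ∃ e : OO E, d * e = (m : OO E) := by
    have hdm : d ∈ Ideal.span ({d} : Set (OO E)) := Ideal.subset_span rfl
    have h1 := Ideal.comap_ne_bot_of_integral_mem hd hdm hint
    obtain ⟨m, hm, hm0⟩ := Submodule.exists_mem_ne_zero_of_ne_bot h1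
    refine ⟨m, hm0, ?_⟩
    have h2 : algebraMap ℤ (OO E) m ∈ Ideal.span ({d} : Set (OO E)) := hm
    obtain ⟨e, he⟩ := Ideal.mem_span_singleton.1 h2
    exact ⟨e, by rw [← he]; simp⟩
  refine ⟨m.natAbs, fun p _ hp l hl => ?_⟩
  have h0 : l ((m : OO E)) = 0 := by rw [← he, map_mul, hl, zero_mul]
  rw [map_intCast] at h0
  have h1 : (p : ℤ) ∣ m := (CharP.intCast_eq_zero_iff _ p m).1 h0
  have h2 : p ≤ m.natAbs := Nat.le_of_dvd (Int.natAbs_pos.2 hm0) (Int.natCast_dvd.1 h1)
  omega

end Crest.Agent.R018.EndAx924
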