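import Mathlib
import Crest.Prelude.Def_SolvClosed
import Crest.Agent.R018.EndA_924

/-!
# Row 18: the solvable closure `Qs` of `ℚ` and the frozen statement `TheoremA` (helper924)

`TheoremA` is what sections 3-9 of the CORE prove; STEP 2 (files Step2*_924) deduces S0024.
The target is stated for an ABSTRACT field `E : Type` of characteristic zero, Galois over `ℚ`
(default algebra `DivisionRing.toRatAlgebra`, no diamond) and solvably closed: the proof of the CORE
uses nothing else about `E₂ = Qsolv`. STEP 2 only needs the instance `E = Qs`.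
-/

set_option autoImplicit false

open Crest.NumberTheoryR Crest.Agent.R018.EndDefx924 Crest.Agent.R018.EndAx924

namespace Crest.Agent.R018.Step2x924

/-- the solvable closure of `ℚ` inside `Om`: the smallest subfield closed under `n`-th roots -/
noncomputable abbrev Qs : IntermediateField ℚ Om := solvableByRad ℚ Om

/-- **THEOREM A** for one open subgroup `G₁ ≤ Gal(Om/ℚ)` (the induction is on the index of `G₁`). -/
def TheoremAFor (E : Type) [Field E] [CharZero E] (G₁ : Subgroup (Om ≃ₐ[ℚ] Om)) : Prop :=
  ∀ α : G₁ →* (E ≃ₐ[ℚ] E), Continuous α → IsOpen (Set.range α) →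
    ∃ t : E →+* Om, ∀ (g : G₁) (x : E), (g : Om ≃ₐ[ℚ] Om) (t x) = t (α g x)

/-- **THEOREM A**: `E/ℚ` Galois and solvably closed, `G₁ ≤ Gal(Om/ℚ)` open,
`α : G₁ → Gal(E/ℚ)` continuous with open image; then `α` is field theoretic. -/
def TheoremA : Prop :=
  ∀ (E : Type) [Field E] [CharZero E] [IsGalois ℚ E], IsSolvablyClosed E →
    ∀ (G₁ : Subgroup (Om ≃ₐ[ℚ] Om)), IsOpen (G₁ : Set (Om ≃ₐ[ℚ] Om)) → TheoremAFor E G₁

end Crest.Agent.R018.Step2x924
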