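import Mathlib
import Crest.Agent.R018.Desc_820
import Crest.Agent.R018.GDef_791
import Crest.Agent.R018.Step2Def_924

/-!
# Row 18, CORE section 6 (helper820), part 2: the induction in the shape of `TheoremAFor`

* `nu_of_equiv`: the form of N-U with `β : V₁ ≃* V₂` (helper275) implies `NU`;
* `theoremA_for`: `TheoremAFor E G₁` for all open `G₁` from N-U, trivial centralizers, and the
  (ND) case.
-/

set_option autoImplicit false

namespace Crest.Agent.R018.DescQx820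

open Crest.Agent.R018.Descx820 Crest.Agent.R018.EndDefx924 Crest.Agent.R018.EndAx924
  Crest.Agent.R018.Step2x924 Crest.NumberTheoryR

section adapter

variable {S : Type*} [Group S] [TopologicalSpace S] [IsTopologicalGroup S] [CompactSpace S]
  [T2Space S]

/-- the equivalence form of N-U implies `NU` -/
theorem nu_of_equiv
    (h : ∀ V₁ V₂ : Subgroup S, IsOpen (V₁ : Set S) → IsOpen (V₂ : Set S) → ∀ β : V₁ ≃* V₂,
      Continuous β → Continuous β.symm → ∃ t : S, ∀ v : V₁, ((β v : V₂) : S) = t⁻¹ * v * t) :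
    NU S := by
  intro V hV β hβ hinj hr
  have hVc : IsClosed (V : Set S) := Subgroup.isClosed_of_isOpen V hV
  have : CompactSpace V := isCompact_iff_compactSpace.mp hVc.isCompact
  have hr' : IsOpen (β.range : Set S) := by rw [MonoidHom.coe_range]; exact hr
  let e : V ≃* β.range := MonoidHom.ofInjective hinj
  have he : ∀ v, ((e v : β.range) : S) = β v := fun v => MonoidHom.ofInjective_apply hinj
  have hec : Continuous e := by
    rw [Topology.IsEmbedding.subtypeVal.continuous_iff]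
    have : (Subtype.val ∘ e : V → S) = β := funext he
    rw [this]; exact hβ
  have hes : Continuous e.symm := by
    have h1 : Continuous (e.toEquiv : V → β.range) := hec
    exact (Continuous.homeoOfEquivCompactToT2 (f := e.toEquiv) h1).symm.continuous
  obtain ⟨t, ht⟩ := h V β.range hV hr' e hec hes
  refine ⟨t⁻¹, fun v => ?_⟩
  rw [← he, ht, inv_inv]

/-- the same for "automorphisms" `β : V ≃* V` is enough for the induction; the general form above
is the one used here. -/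
theorem cf_of_forall (h : ∀ V : Subgroup S, IsOpen (V : Set S) → ∀ t : S,
    (∀ v ∈ V, t * v = v * t) → t = 1) : CF S := h

end adapter

variable {E : Type} [Field E] [CharZero E] [IsGalois ℚ E]

/-- `α` is field theoretic -/
def FT (E : Type) [Field E] [CharZero E] (G : Subgroup (Om ≃ₐ[ℚ] Om)) (α : G →* (E ≃ₐ[ℚ] E)) :
    Prop :=
  ∃ t : E →+* Om, ∀ (g : G) (x : E), (g : Om ≃ₐ[ℚ] Om) (t x) = t (α g x)

/-- **Theorem A from its (ND) case.** -/
theorem theoremA_for (hNU : NU (E ≃ₐ[ℚ] E)) (hCF : CF (E ≃ₐ[ℚ] E))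
    (hND : ∀ (G : Subgroup (Om ≃ₐ[ℚ] Om)) (α : G →* (E ≃ₐ[ℚ] E)),
      IsOpen (G : Set (Om ≃ₐ[ℚ] Om)) → Continuous α → IsOpen (Set.range α) →
      Crest.Agent.R018.GDefx791.ND G α → FT E G α)
    (G₁ : Subgroup (Om ≃ₐ[ℚ] Om)) (hG₁ : IsOpen (G₁ : Set (Om ≃ₐ[ℚ] Om))) :
    TheoremAFor E G₁ := by
  intro α hα hr
  refine induct (B := Om ≃ₐ[ℚ] Om) (S := E ≃ₐ[ℚ] E) hNU hCF (fun G α => FT E G α) ?_ ?_
    G₁ α hG₁ hα hr
  · rintro G G₀ h α α₀ hext ⟨t, ht⟩
    refine ⟨t, fun g x => ?_⟩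
    have := ht ⟨g, h g.2⟩ x
    rw [hext] at this
    exact this
  · intro G α hG hα hr hnd
    exact hND G α hG hα hr hnd

/-- **Theorem A from its (ND) case**, all fields at once. -/
theorem theoremA
    (hNU : ∀ (E : Type) [Field E] [CharZero E] [IsGalois ℚ E], IsSolvablyClosed E →
      ∀ V₁ V₂ : Subgroup (E ≃ₐ[ℚ] E), IsOpen (V₁ : Set (E ≃ₐ[ℚ] E)) →
        IsOpen (V₂ : Set (E ≃ₐ[ℚ] E)) → ∀ β : V₁ ≃* V₂, Continuous β → Continuous β.symm →
        ∃ t : E ≃ₐ[ℚ] E, ∀ v : V₁, ((β v : V₂) : E ≃ₐ[ℚ] E) = t⁻¹ * v * t)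
    (hCF : ∀ (E : Type) [Field E] [CharZero E] [IsGalois ℚ E], IsSolvablyClosed E →
      ∀ V : Subgroup (E ≃ₐ[ℚ] E), IsOpen (V : Set (E ≃ₐ[ℚ] E)) → ∀ t : E ≃ₐ[ℚ] E,
        (∀ v ∈ V, t * v = v * t) → t = 1)
    (hND : ∀ (E : Type) [Field E] [CharZero E] [IsGalois ℚ E], IsSolvablyClosed E →
      ∀ (G : Subgroup (Om ≃ₐ[ℚ] Om)) (α : G →* (E ≃ₐ[ℚ] E)),
      IsOpen (G : Set (Om ≃ₐ[ℚ] Om)) → Continuous α → IsOpen (Set.range α) →
      Crest.Agent.R018.GDefx791.ND G α → FT E G α) : TheoremA := by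
  intro E _ _ _ hE G₁ hG₁
  exact theoremA_for (nu_of_equiv (hNU E hE)) (hCF E hE) (hND E hE) G₁ hG₁

end Crest.Agent.R018.DescQx820
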