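import Crest.Agent.R018.ConsDef_933
import Crest.Agent.R018.LocDef_31
import Crest.Agent.R018.DescQ_820
import Crest.Agent.R018.LChoiceDef_693
import Crest.Agent.R018.Kum_568

/-!
# Row 18: frozen interface of the (ND) case of Theorem A, abstract `E` (helper74)

`E : Type`, characteristic zero, Galois over `ℚ` (default algebra), solvably closed;
`G1 ≤ B = Gal(Om/ℚ)` open, `α : G1 →* (E ≃ₐ[ℚ] E)` continuous with open range.
-/

set_option autoImplicit false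

open Crest.NumberTheoryR Crest.Agent.R018.EndDefx924 Crest.Agent.R018.Placesx484
  Crest.Agent.R018.GDefx791 Crest.Agent.R018.ConsDefx933 Crest.Agent.R018.LocDefx31
  Crest.Agent.R018.DescQx820
open scoped NumberField

namespace Crest.Agent.R018.HeartDefx74

section defs

variable {E : Type} [Field E] [CharZero E] (G1 : Subgroup B) (α : G1 →* (E ≃ₐ[ℚ] E))

/-- `S ∈ S1(l)` for some prime `l ≥ 5` and `S → Q` -/
def Rel (S : Place Om) (Q : Place E) : Prop :=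
  ∃ l : ℕ, l.Prime ∧ 5 ≤ l ∧ S1 α l S ∧ Goes α S Q

/-- the local correspondence at all primes `l ≥ 5` -/
def LocAll : Prop := ∀ l : ℕ, l.Prime → 5 ≤ l → Loc Om E α l

/-- **(S1)** for every prime `l ≥ 5` almost all places are hit -/
def HitAll : Prop := ∀ l : ℕ, l.Prime → 5 ≤ l →
  ∃ B0 : ℕ, ∀ Q : Place E, B0 < Q.rchar → ∃ S : Place Om, S1 α l S ∧ Goes α S Q

/-- `ψ_l = (χ₂ ∘ α) / χ₁` has finite order -/
def FinPsi (l : ℕ) : Prop :=
  ∃ k : ℕ, 0 < k ∧ ∀ (g : G1) (n : ℕ), CycAt α Om E (l ^ n) (g ^ k)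

/-- `q` is not hit by `S1(l)` -/
def Bad (l q : ℕ) : Prop :=
  ∀ (S : Place Om) (Q : Place E), S1 α l S → Goes α S Q → Q.rchar ≠ q

/-- **(S2)** the uniform bound -/
def BadBound : Prop := ∀ l : ℕ, l.Prime → 5 ≤ l → FinPsi G1 α l →
  ∀ s : Finset ℕ, (∀ q ∈ s, q.Prime ∧ q ≠ l ∧ Bad G1 α l q) → s.card ≤ 2 * G1.index

/-- **(D)** -/
def ConsD : Prop := ∀ l : ℕ, l.Prime → 5 ≤ l →
  (∀ r : ℕ, r.Prime → r ≤ G1.index → r ∣ l - 1) → FinPsi G1 α l

/-- the hypothesis of Theorem U (for surjective `α`): at every finite level, for almost all `q`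
there are places `S`, `Q` above `q`, a Frobenius lift `σ` at `S` over `Om^G1` (residue degree `k`)
and a Frobenius `φ` at `Q` over `ℚ` with `α σ ≡ φ ^ k` -/
def HypU : Prop :=
  ∀ V : Subgroup (E ≃ₐ[ℚ] E), V.Normal → IsOpen (V : Set (E ≃ₐ[ℚ] E)) →
    ∃ B0 : ℕ, ∀ q : ℕ, q.Prime → B0 < q →
      ∃ (S : Place Om) (Q : Place E) (k : ℕ) (σ : B) (hσ : IsFrobLift G1 S q k σ)
        (φ : E ≃ₐ[ℚ] E), S.rchar = q ∧ Q.rchar = q ∧ FrobQ Q φ ∧
          (α ⟨σ, hσ.1⟩)⁻¹ * φ ^ k ∈ V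

/-- the standing hypotheses -/
structure Setup : Prop where
  closed : IsSolvablyClosed E
  isOpen : IsOpen (G1 : Set B)
  cont : Continuous α
  open_range : IsOpen (Set.range α)

end defs

/-! ## the blocks -/

/-- quantifier over all data -/
def All (P : ∀ (E : Type) [Field E] [CharZero E] [IsGalois ℚ E] (G1 : Subgroup B)
    (_ : G1 →* (E ≃ₐ[ℚ] E)), Prop) : Prop :=
  ∀ (E : Type) [Field E] [CharZero E] [IsGalois ℚ E] (G1 : Subgroup B)
    (α : G1 →* (E ≃ₐ[ℚ] E)), Setup G1 α → P E G1 α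

/-- LOC: 484, 31 -/
def TLoc : Prop := All fun _ _ _ _ G1 α => LocAll G1 α

/-- (S1): 863 -/
def THit : Prop := All fun _ _ _ _ G1 α => HitAll G1 α

/-- (S2): 863 -/
def TBad : Prop := All fun _ _ _ _ G1 α => Function.Surjective α → BadBound G1 α

/-- V3: 793 -/
def TV3 : Prop := ∀ (l : ℕ) [Fact l.Prime], l ≠ 2 → V3 l

/-- LEMMA G: 791 (from V3) -/
def TG : Prop := All fun _ _ _ _ G1 α => ∀ (l : ℕ) [Fact l.Prime], l ≠ 2 → LemmaG l G1 α

/-- section 9: 975, 476 -/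
def TMin : Prop := ∀ (E : Type) [Field E] [CharZero E] [IsGalois ℚ E], IsSolvablyClosed E → MinusE E

/-- Frobenius density: 933, 389 -/
def TFDE : Prop := ∀ (E : Type) [Field E] [CharZero E] [IsGalois ℚ E], FDE E

/-- the relation `Rel` has the properties `Corr` (from TLoc, THit): 31 -/
def TCorr : Prop := All fun _ _ _ _ G1 α => Corr G1 α (Rel G1 α)

/-- (ND) at finite level: 820 / 791 -/
def TGood : Prop := All fun E _ _ _ G1 α => ND G1 α →
  ∀ U' : Subgroup (E ≃ₐ[ℚ] E), IsOpen (U' : Set (E ≃ₐ[ℚ] E)) →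
    ∃ U20 : Subgroup (E ≃ₐ[ℚ] E), U20.Normal ∧ IsOpen (U20 : Set (E ≃ₐ[ℚ] E)) ∧ U20 ≤ U' ∧
      Good G1 α U20

/-- (A): 933 -/
def TA : Prop := All fun _ _ _ _ G1 α => ND G1 α → ConsA G1 α

/-- (B): 933 -/
def TB : Prop := All fun E _ _ _ G1 α => Function.Surjective α →
  ∀ (U20 : Subgroup (E ≃ₐ[ℚ] E)) [U20.Normal], IsOpen (U20 : Set (E ≃ₐ[ℚ] E)) → Good G1 α U20 →
    (∃ i : E, i ^ 2 = -1 ∧ ∀ u ∈ U20, (u : E ≃ₐ[ℚ] E) i = i) → ConsB (Rel G1 α) U20

/-- (C): 656 -/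
def TC : Prop := All fun E _ _ _ G1 α => Function.Surjective α →
  ∀ (U20 : Subgroup (E ≃ₐ[ℚ] E)) [U20.Normal], IsOpen (U20 : Set (E ≃ₐ[ℚ] E)) → Good G1 α U20 →
    (∃ i : E, i ^ 2 = -1 ∧ ∀ u ∈ U20, (u : E ≃ₐ[ℚ] E) i = i) → ConsB (Rel G1 α) U20 →
      ConsC G1 α (Rel G1 α) U20

/-- (D): 814 -/
def TD : Prop := All fun E _ _ _ G1 α => Function.Surjective α →
  ∀ (U20 : Subgroup (E ≃ₐ[ℚ] E)) [U20.Normal], IsOpen (U20 : Set (E ≃ₐ[ℚ] E)) →
    ConsC G1 α (Rel G1 α) U20 → ConsD G1 α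

/-- (E)+(F): 819 -/
def TF : Prop := All fun E _ _ _ G1 α => Function.Surjective α →
  ∀ (U20 : Subgroup (E ≃ₐ[ℚ] E)) [U20.Normal], IsOpen (U20 : Set (E ≃ₐ[ℚ] E)) →
    ConsB (Rel G1 α) U20 → ConsD G1 α → BadBound G1 α → HypU G1 α

/-- THEOREM U: 245 -/
def TU : Prop := All fun E _ _ _ G1 α => Function.Surjective α → HypU G1 α → FT E G1 α

/-- the (ND) case of Theorem A = hypothesis `hND` of `DescQx820.theoremA` -/
def TND : Prop := ∀ (E : Type) [Field E] [CharZero E] [IsGalois ℚ E], IsSolvablyClosed E →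
  ∀ (G : Subgroup (Om ≃ₐ[ℚ] Om)) (α : G →* (E ≃ₐ[ℚ] E)),
    IsOpen (G : Set (Om ≃ₐ[ℚ] Om)) → Continuous α → IsOpen (Set.range α) →
      ND G α → FT E G α

/-- a solvably closed field of characteristic zero contains `√-1` -/
theorem exists_i {E : Type} [Field E] [CharZero E] (hE : IsSolvablyClosed E) :
    ∃ i : E, i ^ 2 = -1 :=
  Crest.Agent.R018.Kumx568.exists_pow_eq hE 2 two_ne_zero (-1)

/-- the stabilizer of an element -/
def stab {E : Type} [Field E] [CharZero E] (i : E) : Subgroup (E ≃ₐ[ℚ] E) :=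
  (IntermediateField.adjoin ℚ {i}).fixingSubgroup

theorem mem_stab {E : Type} [Field E] [CharZero E] {i : E} {g : E ≃ₐ[ℚ] E}
    (hg : g ∈ stab i) : g i = i :=
  (IntermediateField.mem_fixingSubgroup_iff _ _).1 hg i
    (IntermediateField.mem_adjoin_simple_self ℚ i)

/-- the stabilizer of an element is open -/
theorem isOpen_stab {E : Type} [Field E] [CharZero E] [IsGalois ℚ E] (i : E) :
    IsOpen (stab i : Set (E ≃ₐ[ℚ] E)) := by
  unfold stab
  have : FiniteDimensional ℚ (IntermediateField.adjoin ℚ {i}) :=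
    IntermediateField.adjoin.finiteDimensional (Algebra.IsIntegral.isIntegral i)
  exact (InfiniteGalois.isOpen_iff_finite _).2 this

/-- **WIRING of the (ND) case of Theorem A** -/
theorem tnd (hTA : TA) (hGood : TGood) (hTB : TB) (hTC : TC) (hTD : TD) (hBad : TBad)
    (hTF : TF) (hTU : TU) : TND := by
  intro E _ _ _ hE G α hG hα hr hnd
  have hs : Setup G α := ⟨hE, hG, hα, hr⟩
  have hA : Function.Surjective α := hTA E G α hs hnd
  obtain ⟨i, hi⟩ := exists_i hE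
  obtain ⟨U20, hN, hO, hle, hgood⟩ := hGood E G α hs hnd (stab i) (isOpen_stab i)
  have hi' : ∃ i : E, i ^ 2 = -1 ∧ ∀ u ∈ U20, (u : E ≃ₐ[ℚ] E) i = i :=
    ⟨i, hi, fun u hu => mem_stab (hle hu)⟩
  have hB := hTB E G α hs hA U20 hO hgood hi'
  have hC := hTC E G α hs hA U20 hO hgood hi' hB
  have hD := hTD E G α hs hA U20 hO hC
  exact hTU E G α hs hA (hTF E G α hs hA U20 hO hB hD (hBad E G α hs hA))

end Crest.Agent.R018.HeartDefx74
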