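import Crest.Agent.R018.Places2_484

/-!
# Frobenius lifts, surjectivity onto the residue automorphisms (row 18, helper484)
-/

set_option autoImplicit false

open NumberField Pointwise

namespace Crest.Agent.R018.Placesx484

namespace Place

section Surj

variable {M E : Type*} [Field M] [Field E] [Algebra M E] [IsGalois M E]

instance liesOver_res (P : Place E) : P.ideal.LiesOver (P.res M).ideal := ⟨rfl⟩

/-- `D_P → Aut(k_E/k_M)` is surjective, `E/M` infinite Galois -/
theorem exists_lift_residue (P : Place E)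
    (σ : (𝓞 E ⧸ P.ideal) ≃ₐ[𝓞 M ⧸ (P.res M).ideal] (𝓞 E ⧸ P.ideal)) :
    ∃ g : E ≃ₐ[M] E, g • P = P ∧ ∀ x : 𝓞 E,
      Ideal.Quotient.mk P.ideal (g • x) = σ (Ideal.Quotient.mk P.ideal x) := by
  letI : TopologicalSpace (𝓞 E) := ⊥
  haveI : DiscreteTopology (𝓞 E) := ⟨rfl⟩
  haveI := continuousSMul_int (M := M) (E := E)
  haveI := isInvariant_int (M := M) (E := E)
  obtain ⟨g, hg⟩ := Ideal.Quotient.stabilizerHom_surjective_of_profinite
    (G := E ≃ₐ[M] E) (P.res M).ideal P.ideal σ
  refine ⟨g.1, Place.ext g.2, fun x => ?_⟩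
  have := DFunLike.congr_fun hg (Ideal.Quotient.mk P.ideal x)
  exact this

end Surj

section Frob

variable {F E : Type*} [Field F] [NumberField F] [Field E] [Algebra F E] [IsGalois F E]

/-- the norm of the place of `F` below `P` -/
noncomputable def qv (F : Type*) [Field F] [Algebra F E] (P : Place E) : ℕ :=
  Nat.card (𝓞 F ⧸ (P.res F).ideal)

omit [NumberField F] [IsGalois F E] in
theorem qv_def (P : Place E) : P.qv F = Nat.card (𝓞 F ⧸ (P.res F).ideal) := rfl

theorem finite_residue (Q : Place F) : Finite (𝓞 F ⧸ Q.ideal) :=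
  Ring.HasFiniteQuotients.finiteQuotient (Q.ne_bot)

theorem exists_qv_eq (P : Place E) [CharZero E] :
    ∃ n : ℕ, 0 < n ∧ P.qv F = P.rchar ^ n := by
  haveI := finite_residue (P.res F)
  haveI : (P.res F).ideal.IsMaximal := (P.res F).isMaximal
  letI := Ideal.Quotient.field (P.res F).ideal
  haveI : Fact P.rchar.Prime := ⟨P.rchar_prime⟩
  haveI : CharP (𝓞 F ⧸ (P.res F).ideal) P.rchar := by
    constructor
    intro x
    rw [← rchar_res F P, ← natCast_mem_iff, ← map_natCast (Ideal.Quotient.mk (P.res F).ideal),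
      Ideal.Quotient.eq_zero_iff_mem]
  haveI := Fintype.ofFinite (𝓞 F ⧸ (P.res F).ideal)
  obtain ⟨n, _, hn⟩ := FiniteField.card (𝓞 F ⧸ (P.res F).ideal) P.rchar
  exact ⟨n, n.pos, by rw [qv_def, Nat.card_eq_fintype_card, hn]⟩

theorem one_lt_qv (P : Place E) [CharZero E] : 1 < P.qv F := by
  obtain ⟨n, hn, h⟩ := exists_qv_eq (F := F) P
  rw [h]
  exact Nat.one_lt_pow hn.ne' P.rchar_prime.one_lt

/-- existence of Frobenius lifts -/
theorem exists_frob (P : Place E) [CharZero E] :
    ∃ φ : E ≃ₐ[F] E, φ • P = P ∧ ∀ x : 𝓞 E, φ • x - x ^ (P.qv F) ∈ P.ideal := by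
  haveI := finite_residue (P.res F)
  haveI hmaxF : (P.res F).ideal.IsMaximal := (P.res F).isMaximal
  haveI hmaxE : P.ideal.IsMaximal := P.isMaximal
  letI := Ideal.Quotient.field (P.res F).ideal
  letI := Ideal.Quotient.field P.ideal
  haveI : Fact P.rchar.Prime := ⟨P.rchar_prime⟩
  haveI : CharP (𝓞 E ⧸ P.ideal) P.rchar := by
    constructor
    intro x
    rw [← natCast_mem_iff, ← map_natCast (Ideal.Quotient.mk P.ideal),
      Ideal.Quotient.eq_zero_iff_mem]
  haveI : ExpChar (𝓞 E ⧸ P.ideal) P.rchar := ExpChar.prime P.rchar_prime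
  haveI : Algebra.IsAlgebraic (𝓞 F ⧸ (P.res F).ideal) (𝓞 E ⧸ P.ideal) := inferInstance
  haveI : PerfectField (𝓞 E ⧸ P.ideal) :=
    Algebra.IsAlgebraic.perfectField (𝓞 F ⧸ (P.res F).ideal)
  haveI : PerfectRing (𝓞 E ⧸ P.ideal) P.rchar := inferInstance
  obtain ⟨n, hn0, hn⟩ := exists_qv_eq (F := F) P
  haveI := Fintype.ofFinite (𝓞 F ⧸ (P.res F).ideal)
  let σ : (𝓞 E ⧸ P.ideal) ≃ₐ[𝓞 F ⧸ (P.res F).ideal] (𝓞 E ⧸ P.ideal) :=
    { __ := iterateFrobeniusEquiv (𝓞 E ⧸ P.ideal) P.rchar n,
      commutes' r := by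
        change (algebraMap (𝓞 F ⧸ (P.res F).ideal) (𝓞 E ⧸ P.ideal) r) ^ (P.rchar ^ n) =
          algebraMap (𝓞 F ⧸ (P.res F).ideal) (𝓞 E ⧸ P.ideal) r
        rw [← hn, ← RingHom.map_pow, qv_def, Nat.card_eq_fintype_card, FiniteField.pow_card] }
  obtain ⟨φ, hφ, hφx⟩ := exists_lift_residue P σ
  refine ⟨φ, hφ, fun x => ?_⟩
  rw [← Ideal.Quotient.eq, hφx x, map_pow]
  change (Ideal.Quotient.mk P.ideal x) ^ P.rchar ^ n = _
  rw [hn]

end Frob

section Roots

variable {E : Type*} [Field E] [CharZero E] [Algebra.IsAlgebraic ℚ E]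
variable {G : Type*} [Group G] [MulSemiringAction G E]

/-- roots of unity of order prime to the residue characteristic are determined mod `P` -/
theorem root_eq_of_sub (P : Place E) {n : ℕ} (hn : ¬ P.rchar ∣ n) {a b : E} (ha : a ^ n = 1)
    (hb : b ^ n = 1) (h : P.v (a - b) < 1) : a = b := by
  have hn0 : n ≠ 0 := by rintro rfl; exact hn (dvd_zero _)
  have hb0 : b ≠ 0 := by
    rintro rfl; rw [zero_pow hn0] at hb; exact zero_ne_one hb
  have hvb : P.v b = 1 := v_root_of_unity P hn0 hb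
  by_contra hab
  -- `η = a / b` is a nontrivial root of unity congruent to one
  have hη : (a / b) ^ n = 1 := by rw [div_pow, ha, hb, div_one]
  have hη1 : P.v (a / b - 1) < 1 := by
    have : a / b - 1 = (a - b) / b := by field_simp
    rw [this, map_div₀, hvb, div_one]; exact h
  have hne : a / b ≠ 1 := by
    intro h'; exact hab ((div_eq_one_iff_eq hb0).1 h')
  -- the geometric sum vanishes and is congruent to n
  have h1 : (∑ i ∈ Finset.range n, (a / b) ^ i) = 0 := by
    have h2 := geom_sum_mul (a / b) n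
    rw [hη, sub_self] at h2
    rcases mul_eq_zero.1 h2 with h3 | h3
    · exact h3
    · exact absurd (sub_eq_zero.1 h3) hne
  have h2 : P.v ((n : E) - ∑ i ∈ Finset.range n, (a / b) ^ i) < 1 := by
    have : (n : E) - ∑ i ∈ Finset.range n, (a / b) ^ i =
        ∑ i ∈ Finset.range n, (1 - (a / b) ^ i) := by
      rw [Finset.sum_sub_distrib]; simp
    rw [this]
    apply Valuation.map_sum_lt P.v one_ne_zero
    intro i _
    rw [Valuation.map_sub_swap]
    exact lt_of_le_of_lt (v_zeta_pow_sub_one_le P hn0 hη i) hη1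
  rw [h1, sub_zero, (v_natCast_eq_one_iff P n).2 hn] at h2
  exact lt_irrefl _ h2

/-- an element acting as the `q`-power map on the residue field acts as the `q`-power map on
roots of unity of order prime to the residue characteristic -/
theorem frob_root (P : Place E) {g : G} {q : ℕ} (hg : ∀ x : 𝓞 E, g • x - x ^ q ∈ P.ideal)
    {n : ℕ} (hn : ¬ P.rchar ∣ n) {a : E} (ha : a ^ n = 1) : g • a = a ^ q := by
  have hn0 : n ≠ 0 := by rintro rfl; exact hn (dvd_zero _)
  have hint : IsIntegral ℤ a := by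
    refine ⟨Polynomial.X ^ n - 1, Polynomial.monic_X_pow_sub_C 1 hn0, ?_⟩
    simp [ha]
  apply root_eq_of_sub P hn
  · rw [← smul_pow', ha, smul_one]
  · rw [← pow_mul, mul_comm, pow_mul, ha, one_pow]
  · let a' : 𝓞 E := ⟨a, hint⟩
    have h1 := (P.v_int_lt_one_iff _).2 (hg a')
    rw [map_sub, smul_coe, map_pow] at h1
    exact h1

/-- inertia acts trivially on roots of unity of order prime to the residue characteristic -/
theorem inertia_root (P : Place E) {g : G} (hg : g ∈ P.ideal.inertia G)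
    {n : ℕ} (hn : ¬ P.rchar ∣ n) {a : E} (ha : a ^ n = 1) : g • a = a := by
  have := frob_root P (q := 1) (g := g) (fun x => by rw [pow_one]; exact hg x) hn ha
  rwa [pow_one] at this

end Roots

end Place

end Crest.Agent.R018.Placesx484
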