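import Crest.Prelude.Def_SolvClosed
import Crest.Agent.R018.EndA_924
import Crest.Agent.R018.Places3_484

/-!
# Row 18: frozen interface of the heart (helper74), CORE parts 1-3

Only definitions and statements (`def ... : Prop`).  The wiring is in `CoreW_74`.
Everything happens inside `Om = AlgebraicClosure ℚ`, with the full group `BB = Gal(Om/ℚ)`.
`G₁ = Gal(Om/F₁)` is an open subgroup `D.G` of `BB`, the target is `SG = Gal(ℚ^solv/ℚ)`,
`α` has open image.
-/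

set_option autoImplicit false

open NumberField Pointwise
open Crest.NumberTheoryR

namespace Crest.Agent.R018.Corex74

open Crest.Agent.R018.EndDefx924 (Om)
open Crest.Agent.R018.Placesx484

/-- the absolute Galois group of `ℚ` -/
abbrev BB : Type := Om ≃ₐ[ℚ] Om

/-- the family of normal solvably closed subfields of `Om` -/
abbrev SvFam : Type := {E : IntermediateField ℚ Om // Normal ℚ E ∧ IsSolvablyClosed E}

/-- `ℚ^solv`: the smallest solvably closed normal subfield of `Om` -/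
noncomputable def Sv : IntermediateField ℚ Om := ⨅ E : SvFam, E.1

theorem rat_alg_eq (E : IntermediateField ℚ Om) :
    (DivisionRing.toRatAlgebra : Algebra ℚ E) = E.algebra' := Subsingleton.elim _ _

theorem normal_conv (E : IntermediateField ℚ Om) :
    @Normal ℚ E _ _ (DivisionRing.toRatAlgebra) ↔ @Normal ℚ E _ _ E.algebra' := by
  rw [rat_alg_eq E]

theorem top_mem_fam : Normal ℚ (⊤ : IntermediateField ℚ Om) ∧
    IsSolvablyClosed (⊤ : IntermediateField ℚ Om) := by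
  constructor
  · exact Normal.of_algEquiv (F := ℚ) (E := Om)
      { (IntermediateField.topEquiv (F := ℚ) (E := Om)).symm.toRingEquiv with
        commutes' := fun r => by simp }
  · intro p _
    have : IsAlgClosed (⊤ : IntermediateField ℚ Om) :=
      IsAlgClosed.of_ringEquiv Om _ (IntermediateField.topEquiv (F := ℚ) (E := Om)).symm.toRingEquiv
    exact IsAlgClosed.splits p

instance : Nonempty SvFam := ⟨⟨⊤, top_mem_fam⟩⟩

instance normal_Sv : Normal ℚ Sv := by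
  rw [normal_conv]
  have h : ∀ E : SvFam, @Normal ℚ E.1 _ _ E.1.algebra' := fun E => (normal_conv E.1).1 E.2.1
  unfold Sv
  exact IntermediateField.normal_iInf (h := h) _

instance isGalois_Sv : IsGalois ℚ Sv := { to_normal := normal_Sv }

/-- `Gal(ℚ^solv/ℚ)` -/
abbrev SG : Type := Sv ≃ₐ[ℚ] Sv

/-- restriction -/
noncomputable def res : BB →* SG := AlgEquiv.restrictNormalHom Sv

/-- the data: an open subgroup `G₁ ≤ BB` and `α : G₁ → SG` continuous with open image -/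
structure Dat where
  /-- the open subgroup `Gal(Om/F₁)` -/
  G : Subgroup BB
  isOpen_G : IsOpen (G : Set BB)
  /-- the homomorphism -/
  α : G →* SG
  cont : Continuous α
  open_range : IsOpen (Set.range α)

/-- `α` is field-theoretic -/
def FT (D : Dat) : Prop := ∃ t : SG, ∀ g : D.G, D.α g = t⁻¹ * res (g : BB) * t

/-- **THEOREM A** -/
def TheoremA : Prop := ∀ D : Dat, FT D

/-! ## places and Frobenius -/

/-- `g` acts as `x ↦ x^q` on the residue field of `P` -/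
def Act {E H : Type*} [Field E] [Group H] [MulSemiringAction H E] (P : Place E) (g : H) (q : ℕ) :
    Prop := ∀ x : 𝓞 E, g • x - x ^ q ∈ P.ideal

/-- residue degree over `ℚ` of the prime of `Om^G` below `P` -/
noncomputable def fdeg (G : Subgroup BB) (P : Place Om) : ℕ :=
  sInf {a | 0 < a ∧ ∃ g ∈ G, Act P g (P.rchar ^ a)}

/-- `σ` is a Frobenius lift at `P` over `Om^G` -/
def FrobL (G : Subgroup BB) (P : Place Om) (σ : BB) : Prop :=
  σ ∈ G ∧ Act P σ (P.rchar ^ fdeg G P)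

/-- `P ∈ S₁(l)`: `l ≠ char P` and `α(I_P)` has an element of order divisible by `l` in some
finite quotient -/
def Hit (D : Dat) (l : ℕ) (P : Place Om) : Prop :=
  P.rchar ≠ l ∧ ∃ x : D.G, (∀ y : 𝓞 Om, (x : BB) • y - y ∈ P.ideal) ∧
    ∃ N : Subgroup SG, N.Normal ∧ IsOpen (N : Set SG) ∧ ∀ n : ℕ, (D.α x) ^ n ∈ N → l ∣ n

/-- `P → Q`: the decomposition group at `P` is mapped into the one at `Q` -/
def Cor (D : Dat) (P : Place Om) (Q : Place Sv) : Prop :=
  ∀ d : D.G, (d : BB) • P = P → D.α d • Q = Q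

/-- `g ∈ BB` and `s ∈ SG` act in the same way on `μ_{l^∞}` -/
def CycEq (l : ℕ) (g : BB) (s : SG) : Prop :=
  ∀ (n : ℕ) (ζ : Sv), ζ ^ (l ^ n) = 1 → ((s ζ : Sv) : Om) = g (ζ : Om)

/-- **LOC** (L1)+(L2).  Owners: 484, 931, 31. -/
def LocT : Prop := ∀ (D : Dat) (l : ℕ), l.Prime → l ≠ 2 → ∀ P : Place Om, Hit D l P →
  ∃ Q : Place Sv, Cor D P Q ∧ Q.rchar ≠ l ∧ (∀ Q' : Place Sv, Cor D P Q' → Q' = Q) ∧
    (∀ d : D.G, (d : BB) • P = P → CycEq l (d : BB) (D.α d))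

/-! ## existence -/

/-- **(S1)**: all places of large residue characteristic are hit. -/
def BadFinite : Prop := ∀ (D : Dat) (l : ℕ), l.Prime → l ≠ 2 →
  ∃ B : ℕ, ∀ Q : Place Sv, B < Q.rchar → ∃ P : Place Om, Hit D l P ∧ Cor D P Q

/-- the quotient `ψ_l = (χ₂ ∘ α) / χ₁` has finite order -/
def FinPsi (D : Dat) (l : ℕ) : Prop :=
  ∃ k : ℕ, 0 < k ∧ ∀ g : D.G, CycEq l ((g : BB) ^ k) ((D.α g) ^ k)

/-- `q` is not hit by `S₁(l)` -/
def BadP (D : Dat) (l q : ℕ) : Prop :=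
  ¬ ∃ (P : Place Om) (Q : Place Sv), Hit D l P ∧ Cor D P Q ∧ Q.rchar = q

/-- **(S2)** uniform bound. -/
def BadBound : Prop := ∀ (D : Dat), Function.Surjective D.α → ∀ l : ℕ, l.Prime → 5 ≤ l →
  FinPsi D l → ∀ s : Finset ℕ, (∀ q ∈ s, q.Prime ∧ q ≠ l ∧ BadP D l q) → s.card ≤ 2 * D.G.index

/-! ## Theorem U, Neukirch-Uchida, descent -/

/-- **CYC ⇒ FT**: cyclotomic compatibility for all odd `l` implies `FT`
(LOC + 925's bridge + 924's/245's end game).  Owners: 925, 924. -/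
def CycFT : Prop := ∀ D : Dat, (∀ l : ℕ, l.Prime → l ≠ 2 → ∀ g : D.G, CycEq l (g : BB) (D.α g)) →
  FT D

/-- the hypothesis of Theorem U (surjective `α`): at every finite level, for almost all `q`
there are places `P`, `Q` above `q`, a Frobenius lift `σ ∈ D.G` at `P` over `Om^G` and a
Frobenius `φ` at `Q` over `ℚ` with `α σ ≡ φ ^ f(P)`. -/
def HypU (D : Dat) : Prop :=
  ∀ V : Subgroup SG, V.Normal → IsOpen (V : Set SG) → ∃ B : ℕ, ∀ q : ℕ, q.Prime → B < q →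
    ∃ (P : Place Om) (Q : Place Sv) (σ : D.G) (φ : SG), P.rchar = q ∧ Q.rchar = q ∧
      FrobL D.G P (σ : BB) ∧ Act Q φ q ∧ (D.α σ)⁻¹ * φ ^ fdeg D.G P ∈ V

/-- **THEOREM U**.  Owner: 245. -/
def TheoremU : Prop := ∀ D : Dat, Function.Surjective D.α → HypU D → FT D

/-- **Neukirch-Uchida** for open subgroups of `SG`.  `S` open, `β : S → SG` injective
continuous with image `S`.  Owner: 820. -/
def NU : Prop := ∀ (S : Subgroup SG), IsOpen (S : Set SG) → ∀ β : S ≃* S, Continuous β →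
  ∃ t : SG, ∀ s : S, ((β s : S) : SG) = t⁻¹ * (s : SG) * t

/-- centralizers of open subgroups of `SG` are trivial.  Owner: 820. -/
def Slim : Prop := ∀ (S : Subgroup SG), IsOpen (S : Set SG) → ∀ t : SG,
  (∀ s ∈ S, t * s = s * t) → t = 1

/-- the normal core of `G₁` in `BB` -/
noncomputable def N1 (D : Dat) : Subgroup BB := D.G.normalCore

theorem N1_le (D : Dat) : N1 D ≤ D.G := Subgroup.normalCore_le _

instance (D : Dat) : (N1 D).Normal := Subgroup.normalCore_normal _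

theorem conj_mem_N1 (D : Dat) {k : BB} (hk : k ∈ N1 D) (b : BB) : b * k * b⁻¹ ∈ N1 D :=
  Subgroup.Normal.conj_mem inferInstance k hk b

/-- `α` on the normal core -/
noncomputable def αN (D : Dat) (k : BB) (hk : k ∈ N1 D) : SG := D.α ⟨k, N1_le D hk⟩

/-- condition (ND) at the level of the open normal subgroup `V` of `SG` -/
def NDat (D : Dat) (V : Subgroup SG) : Prop :=
  ∀ b : BB, b ∉ D.G → ∃ (k : BB) (hk : k ∈ N1 D), αN D k hk = 1 ∧
    αN D (b * k * b⁻¹) (conj_mem_N1 D hk b) ∉ V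

/-- (ND) -/
def ND (D : Dat) : Prop := NDat D ⊥

/-- **finite level form of (ND)**: there is an open normal `V₀` with `V₀ ≤ α(N₁)` and
`NDat D V₀` (easy: `N₁` has finite index, cosets).  Owner: 820. -/
def NDLevel : Prop := ∀ D : Dat, ND D → ∀ V' : Subgroup SG, IsOpen (V' : Set SG) →
  ∃ V : Subgroup SG, V.Normal ∧ IsOpen (V : Set SG) ∧ V ≤ V' ∧ NDat D V ∧
    ∀ v ∈ V, ∃ (k : BB) (hk : k ∈ N1 D), αN D k hk = v

/-- **DESCENT**: if (ND) fails then `α` extends to a bigger open subgroup (given NU and Slim).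
Owner: 820. -/
def Descent : Prop := ∀ D : Dat, ¬ ND D → ∃ D' : Dat, D.G < D'.G ∧
  ∀ (g : BB) (hg : g ∈ D.G) (hg' : g ∈ D'.G), D'.α ⟨g, hg'⟩ = D.α ⟨g, hg⟩

/-! ## the heart: Kummer characters, probes, Lemma G -/

/-- `x ∈ Sv` is fixed by `V` (i.e. `x ∈ F = Sv^V`) and its conjugates are pairwise distinct for
different classes mod `V` and independent modulo squares of `F`. -/
def Gen (V : Subgroup SG) (x : Sv) : Prop :=
  x ≠ 0 ∧ (∀ v ∈ V, v x = x) ∧ (∀ γ : SG, γ x = x → γ ∈ V) ∧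
    ∀ T : Finset Sv, T.Nonempty → (∀ y ∈ T, ∃ γ : SG, y = γ x) →
      ¬ ∃ z : Sv, (∀ v ∈ V, v z = z) ∧ z ^ 2 = ∏ y ∈ T, y

/-- `V₂(x)`: the group of `F(√(γx) : γ)` where `F = Sv^V`. -/
noncomputable def V2 (V : Subgroup SG) (x : Sv) : Subgroup SG where
  carrier := {g | g ∈ V ∧ ∀ γ : SG, ∀ z : Sv, z ^ 2 = γ x → g z = z}
  one_mem' := ⟨V.one_mem, fun _ _ _ => rfl⟩
  mul_mem' := by
    rintro a b ⟨ha, ha'⟩ ⟨hb, hb'⟩
    refine ⟨V.mul_mem ha hb, fun γ z hz => ?_⟩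
    rw [AlgEquiv.mul_apply, hb' γ z hz, ha' γ z hz]
  inv_mem' := by
    rintro a ⟨ha, ha'⟩
    refine ⟨V.inv_mem ha, fun γ z hz => ?_⟩
    have h := ha' γ z hz
    calc a⁻¹ z = a⁻¹ (a z) := by rw [h]
      _ = z := by rw [← AlgEquiv.mul_apply, inv_mul_cancel]; rfl

theorem V2_normal (V : Subgroup SG) [hV : V.Normal] (x : Sv) : (V2 V x).Normal := by
  constructor
  rintro n ⟨hn, hn'⟩ g
  refine ⟨hV.conj_mem n hn g, fun γ z hz => ?_⟩
  have h1 : (g⁻¹ z) ^ 2 = (g⁻¹ * γ) x := by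
    rw [AlgEquiv.mul_apply, ← hz, map_pow]
  have h2 := hn' (g⁻¹ * γ) (g⁻¹ z) h1
  rw [AlgEquiv.mul_apply, AlgEquiv.mul_apply, h2, ← AlgEquiv.mul_apply, mul_inv_cancel]
  rfl

/-- a **probe** at `x`: a nonzero continuous hom `ψ : V₂(x) → ℤ_l` on which `V` acts through the
quadratic character of `√x`. -/
structure Probe (V : Subgroup SG) [V.Normal] (x : Sv) (l : ℕ) [Fact l.Prime] where
  /-- the homomorphism -/
  ψ : V2 V x →* Multiplicative ℤ_[l]
  cont : Continuous ψ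
  ne_one : ψ ≠ 1
  eig_pos : ∀ a ∈ V, (∀ z : Sv, z ^ 2 = x → a z = z) → ∀ n : V2 V x,
    ψ ⟨a⁻¹ * n * a, by simpa using (V2_normal V x).conj_mem n n.2 a⁻¹⟩ = ψ n
  eig_neg : ∀ a ∈ V, (∀ z : Sv, z ^ 2 = x → a z = -z) → ∀ n : V2 V x,
    ψ ⟨a⁻¹ * n * a, by simpa using (V2_normal V x).conj_mem n n.2 a⁻¹⟩ = (ψ n)⁻¹

/-- **SECTION 9**: existence of probes.  `F = Sv^V` totally imaginary in the form: every
complex conjugation-like element, i.e. every element of order `2` of `SG`, is outside `V`.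
Owners: 975, 476. -/
def ProbeEx : Prop := ∀ (V : Subgroup SG) [V.Normal], IsOpen (V : Set SG) →
  (∀ v ∈ V, v * v = 1 → v = 1) → ∀ x : Sv, Gen V x →
    ∃ L0 : ℕ, ∀ (l : ℕ) [Fact l.Prime], L0 < l → Nonempty (Probe V x l)

/-- translate of the probe: `(γψ)(n) = ψ(γ⁻¹ n γ)` as a function on `V₂(x)` -/
noncomputable def tr {V : Subgroup SG} [V.Normal] {x : Sv} {l : ℕ} [Fact l.Prime]
    (p : Probe V x l) (γ : SG) : V2 V x → ℤ_[l] := fun n =>
  Multiplicative.toAdd (p.ψ ⟨γ⁻¹ * n * γ, by simpa using (V2_normal V x).conj_mem n n.2 γ⁻¹⟩)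

/-- the action of `SG` on functions on `V₂(x)` -/
noncomputable def act {V : Subgroup SG} [V.Normal] {x : Sv} {l : ℕ} [Fact l.Prime] (γ : SG)
    (f : V2 V x → ℤ_[l]) : V2 V x → ℤ_[l] := fun n =>
  f ⟨γ⁻¹ * n * γ, by simpa using (V2_normal V x).conj_mem n n.2 γ⁻¹⟩

/-- **LEMMA G**.  Owner: 791. -/
def LemmaG : Prop := ∀ (D : Dat) (V : Subgroup SG) [V.Normal], IsOpen (V : Set SG) →
  NDat D V → (∀ v ∈ V, ∃ (k : BB) (hk : k ∈ N1 D), αN D k hk = v) →
  ∀ x : Sv, Gen V x → ∀ (l : ℕ) [Fact l.Prime], l ≠ 2 → ∀ p : Probe V x l,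
  ∀ φ ∈ Submodule.span ℤ_[l] (Set.range (tr p)), φ ≠ 0 → ∀ g : SG, act g φ = φ →
  ∃ B : ℕ, ∀ (P : Place Om), B < P.rchar → ∀ σ : D.G, FrobL D.G P (σ : BB) →
    (D.α σ)⁻¹ * g ∈ V2 V x → ∀ (k : ℕ) (hk : (D.α σ) ^ k ∈ V2 V x), 0 < k →
      φ ⟨(D.α σ) ^ k, hk⟩ ≠ 0

/-! ## general facts (library F) -/

/-- F1: Frobenius lifts exist over `Om^G`; residue degree is at most the index. -/
def F1 : Prop := ∀ (G : Subgroup BB), IsOpen (G : Set BB) → ∀ P : Place Om,
  0 < fdeg G P ∧ fdeg G P ≤ G.index ∧ (∃ σ, FrobL G P σ) ∧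
    ∀ g ∈ G, ∀ a : ℕ, 0 < a → Act P g (P.rchar ^ a) → fdeg G P ∣ a

/-- F2: Frobenius lifts over `ℚ` exist at every place of `Sv`, and of `Om`. -/
def F2 : Prop := (∀ Q : Place Sv, ∃ φ : SG, φ • Q = Q ∧ Act Q φ Q.rchar) ∧
  (∀ P : Place Om, ∃ φ : BB, φ • P = P ∧ Act P φ P.rchar)

/-- F3: for an open subgroup `V` of `SG`, inertia groups at places of large residue
characteristic are contained in `V`. -/
def F3 : Prop := ∀ V : Subgroup SG, IsOpen (V : Set SG) → ∃ B : ℕ, ∀ Q : Place Sv, B < Q.rchar →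
  ∀ g : SG, (∀ y : 𝓞 Sv, g • y - y ∈ Q.ideal) → g ∈ V

/-- F3': the same for `BB`. -/
def F3' : Prop := ∀ V : Subgroup BB, IsOpen (V : Set BB) → ∃ B : ℕ, ∀ P : Place Om, B < P.rchar →
  ∀ g : BB, (∀ y : 𝓞 Om, g • y - y ∈ P.ideal) → g ∈ V

/-- F4: the decomposition group is generated by a Frobenius modulo inertia, at finite level:
if the inertia group at `Q` is contained in the open normal `V`, then every `g ∈ D_Q` is
`φ ^ j` modulo `V`. -/
def F4 : Prop := ∀ V : Subgroup SG, V.Normal → IsOpen (V : Set SG) → ∀ Q : Place Sv,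
  (∀ g : SG, (∀ y : 𝓞 Sv, g • y - y ∈ Q.ideal) → g ∈ V) → ∀ φ : SG, Act Q φ Q.rchar →
  ∀ g : SG, g • Q = Q → ∃ j : ℕ, (φ ^ j)⁻¹ * g ∈ V

/-- F5: places of `Sv` (of `Om`) over the same rational prime are conjugate. -/
def F5 : Prop := (∀ Q Q' : Place Sv, Q.rchar = Q'.rchar → ∃ g : SG, g • Q = Q') ∧
  (∀ P P' : Place Om, P.rchar = P'.rchar → ∃ g : BB, g • P = P')

/-- F6: `Hit` and `Cor` are equivariant. -/
def F6 : Prop := ∀ (D : Dat) (l : ℕ) (P : Place Om) (Q : Place Sv) (s : D.G),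
  (Hit D l P → Hit D l ((s : BB) • P)) ∧ (Cor D P Q → Cor D ((s : BB) • P) (D.α s • Q))

/-- F7: continuous homs from an open subgroup of `SG` to `ℤ_l` kill the inertia groups at places
of residue characteristic `≠ l`. -/
def F7 : Prop := ∀ (V : Subgroup SG), IsOpen (V : Set SG) → ∀ (l : ℕ) [Fact l.Prime],
  ∀ ψ : V →* Multiplicative ℤ_[l], Continuous ψ → ∀ Q : Place Sv, Q.rchar ≠ l →
  ∀ g : V, (∀ y : 𝓞 Sv, (g : SG) • y - y ∈ Q.ideal) → ψ g = 1

/-- F8: for large `q` places with a given Frobenius class: Frobenius density in `SG`.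
For every open normal `V` of `SG`, every `s ∈ SG` and `B` there is a place `Q` with
`B < char Q` and a Frobenius `φ` at `Q` with `φ ≡ s^k` and `s ≡ φ^j` modulo `V`. -/
def F8 : Prop := ∀ V : Subgroup SG, V.Normal → IsOpen (V : Set SG) → ∀ (s : SG) (B : ℕ),
  ∃ (Q : Place Sv) (φ : SG), B < Q.rchar ∧ Act Q φ Q.rchar ∧ (∃ k : ℕ, (s ^ k)⁻¹ * φ ∈ V) ∧
    ∃ j : ℕ, (φ ^ j)⁻¹ * s ∈ V

/-- F9: existence of generic elements: for an open normal `V` and a finite set of places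
(given by a bound `q` on primes: all `Q` with `char Q = q`), there are `x₁, x₂` such that all
conjugates of `x₁` and `x₂` together are independent; stated as: `Gen V x₁`, `Gen V x₂`,
`Gen V (x₁ x₂)`. -/
def F9 : Prop := ∀ V : Subgroup SG, V.Normal → IsOpen (V : Set SG) →
  ∃ x₁ x₂ : Sv, Gen V x₁ ∧ Gen V x₂ ∧ Gen V (x₁ * x₂)

/-- F10: generic element whose square roots are fixed by the decomposition groups over `q`:
if the inertia groups over `q` are in `V`, there is `x` with `Gen V x` such that every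
`g ∈ D_Q ∩ V` (`Q` over `q`) fixes all `√(γx)`, i.e. `g ∈ V2 V x`. -/
def F10 : Prop := ∀ V : Subgroup SG, V.Normal → IsOpen (V : Set SG) → ∀ q : ℕ, q.Prime → q ≠ 2 →
  (∀ Q : Place Sv, Q.rchar = q → ∀ g : SG, (∀ y : 𝓞 Sv, g • y - y ∈ Q.ideal) → g ∈ V) →
  ∃ x : Sv, Gen V x ∧ ∀ Q : Place Sv, Q.rchar = q → ∀ g ∈ V, g • Q = Q → g ∈ V2 V x

/-! ## the consequences (under (ND)) -/

/-- **(A)**. -/
def CA : Prop := ∀ D : Dat, ND D → Function.Surjective D.α

/-- the set of primes hit (for some odd `l`) over `q`, up to `G₁`-conjugacy, is finite: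
all `P → Q` with `char Q = q` have bounded residue characteristic. -/
def CB : Prop := ∀ D : Dat, ND D → ∃ B0 : ℕ, ∀ q : ℕ, q.Prime → B0 < q →
  ∃ B : ℕ, ∀ (P : Place Om) (Q : Place Sv) (l : ℕ), l.Prime → l ≠ 2 → Hit D l P → Cor D P Q →
    Q.rchar = q → P.rchar ≤ B

/-- **(C)**: for every open normal `V`, for all but finitely many `P → Q` (with `char Q > B0`),
`α(σ_P)` and a Frobenius at `Q` generate the same subgroup modulo `V`. -/
def CC : Prop := ∀ D : Dat, ND D → ∀ V : Subgroup SG, V.Normal → IsOpen (V : Set SG) →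
  ∃ B : ℕ, ∀ (P : Place Om) (Q : Place Sv) (l : ℕ), l.Prime → l ≠ 2 → Hit D l P → Cor D P Q →
    B < Q.rchar → ∀ σ : D.G, FrobL D.G P (σ : BB) → ∀ φ : SG, Act Q φ Q.rchar →
      ∃ j : ℕ, ((D.α σ) ^ j)⁻¹ * φ ∈ V

/-- **(D)**: `ψ_l` has finite order for all `l ∈ 𝓛`. -/
def CD : Prop := ∀ D : Dat, ND D → ∀ l : ℕ, l.Prime → 5 ≤ l →
  (∀ r : ℕ, r.Prime → r ≤ D.G.index → r ∣ l - 1) → FinPsi D l

/-- **(E)+(F)**: the hypothesis of Theorem U. -/
def CF : Prop := ∀ D : Dat, ND D → HypU D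

/-- **DEGREE ONE THEOREM** (614): a continuous hom `λ : G → ℤ_l` (`G` open in `BB`, `l` odd) which
kills Frobenius lifts at places of residue degree one over arbitrarily large primes is trivial. -/
def Deg1Thm : Prop := ∀ (G : Subgroup BB), IsOpen (G : Set BB) → ∀ (l : ℕ) [Fact l.Prime], l ≠ 2 →
  ∀ lam : G →* Multiplicative ℤ_[l], Continuous lam →
  (∀ B : ℕ, ∃ (P : Place Om) (σ : G), B < P.rchar ∧ fdeg G P = 1 ∧ FrobL G P (σ : BB) ∧
    lam σ = 1) → lam = 1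

end Crest.Agent.R018.Corex74
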