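import Mathlib
import Crest.Prelude.Def_SolvClosed

/-! R018 reductions (helper49), part A: continuity criterion, transport of Galois groups and of
`IsSolvablyClosed` along ring isomorphisms. -/

set_option autoImplicit false

open Crest.NumberTheoryR Polynomial

namespace Crest.Agent.R018.Redx49

section cont

variable {K L : Type*} [Field K] [Field L] [Algebra K L]

/-- A homomorphism into a Galois group is continuous as soon as every element of the field is
fixed by a neighbourhood of `1`. -/
theorem continuous_of_eval [Algebra.IsAlgebraic K L] {G : Type*} [Group G] [TopologicalSpace G]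
    [IsTopologicalGroup G] (φ : G →* (L ≃ₐ[K] L))
    (h : ∀ x : L, {g : G | φ g x = x} ∈ nhds (1 : G)) : Continuous φ := by
  apply continuous_of_continuousAt_one φ
  intro s hs
  rw [map_one, krullTopology_mem_nhds_one_iff] at hs
  obtain ⟨E, hE, hsub⟩ := hs
  have hE' : Module.Finite K E := hE
  obtain ⟨S, hS⟩ := (IntermediateField.essFiniteType_iff.mp inferInstance : E.FG)
  have h1 : (⋂ x ∈ S, {g : G | φ g x = x}) ∈ nhds (1 : G) :=
    (Filter.biInter_finset_mem S).mpr fun x _ => h x
  rw [Filter.mem_map]
  refine Filter.mem_of_superset h1 ?_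
  intro g hg
  simp only [Set.mem_iInter, Set.mem_ofPred_eq] at hg
  refine hsub ?_
  rw [SetLike.mem_coe, IntermediateField.mem_fixingSubgroup_iff]
  intro x hx
  rw [← hS] at hx
  have : IntermediateField.adjoin K (S : Set L) ≤
      IntermediateField.fixedField (Subgroup.zpowers (φ g)) := by
    rw [IntermediateField.adjoin_le_iff]
    intro y hy
    rw [SetLike.mem_coe, IntermediateField.mem_fixedField_iff]
    intro f hf
    have hst : Subgroup.zpowers (φ g) ≤ MulAction.stabilizer (L ≃ₐ[K] L) y := by
      rw [Subgroup.zpowers_le]
      exact hg y hy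
    exact hst hf
  exact (IntermediateField.mem_fixedField_iff _ _).mp (this hx) _ (Subgroup.mem_zpowers _)

theorem eval_mem_nhds [Algebra.IsAlgebraic K L] (x : L) :
    {g : L ≃ₐ[K] L | g x = x} ∈ nhds (1 : L ≃ₐ[K] L) := by
  rw [krullTopology_mem_nhds_one_iff]
  refine ⟨IntermediateField.adjoin K {x}, ?_, ?_⟩
  · exact IntermediateField.adjoin.finiteDimensional (Algebra.IsIntegral.isIntegral x)
  · intro g hg
    rw [SetLike.mem_coe, IntermediateField.mem_fixingSubgroup_iff] at hg
    exact hg x (IntermediateField.mem_adjoin_simple_self K x)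

end cont

section transport

variable {F E F' E' : Type*} [Field F] [Field E] [Field F'] [Field E'] [Algebra F E]
  [Algebra F' E']

/-- Transport of an automorphism. -/
def conjE (f : F ≃+* F') (e : E ≃+* E')
    (h : ∀ x : F, e (algebraMap F E x) = algebraMap F' E' (f x)) (σ : E ≃ₐ[F] E) :
    E' ≃ₐ[F'] E' :=
  AlgEquiv.ofRingEquiv (f := (e.symm.trans σ.toRingEquiv).trans e) (by
    intro y
    obtain ⟨x, rfl⟩ := f.surjective y
    have : e.symm (algebraMap F' E' (f x)) = algebraMap F E x := by
      rw [← h, RingEquiv.symm_apply_apply]
    simp [this, h])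

@[simp] theorem conjE_apply (f : F ≃+* F') (e : E ≃+* E')
    (h : ∀ x : F, e (algebraMap F E x) = algebraMap F' E' (f x)) (σ : E ≃ₐ[F] E) (y : E') :
    conjE f e h σ y = e (σ (e.symm y)) := rfl

/-- Transport of Galois groups along a pair of compatible ring isomorphisms. -/
def galCongr (f : F ≃+* F') (e : E ≃+* E')
    (h : ∀ x : F, e (algebraMap F E x) = algebraMap F' E' (f x)) :
    (E ≃ₐ[F] E) ≃* (E' ≃ₐ[F'] E') where
  toFun := conjE f e h
  invFun := conjE f.symm e.symm (by
    intro y
    obtain ⟨x, rfl⟩ := f.surjective y
    rw [← h]; simp)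
  left_inv σ := by ext x; simp
  right_inv σ := by ext x; simp
  map_mul' σ τ := by ext x; simp

@[simp] theorem galCongr_apply (f : F ≃+* F') (e : E ≃+* E')
    (h : ∀ x : F, e (algebraMap F E x) = algebraMap F' E' (f x)) (σ : E ≃ₐ[F] E) (y : E') :
    galCongr f e h σ y = e (σ (e.symm y)) := rfl

theorem galCongr_continuous (f : F ≃+* F') (e : E ≃+* E')
    (h : ∀ x : F, e (algebraMap F E x) = algebraMap F' E' (f x)) [Algebra.IsAlgebraic F E]
    [Algebra.IsAlgebraic F' E'] :
    Continuous (galCongr f e h) := by
  apply continuous_of_eval (galCongr f e h).toMonoidHom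
  intro y
  have := eval_mem_nhds (K := F) (e.symm y)
  refine Filter.mem_of_superset this ?_
  intro σ hσ
  simp only [Set.mem_ofPred_eq] at hσ ⊢
  change galCongr f e h σ y = y
  rw [galCongr_apply, hσ, RingEquiv.apply_symm_apply]

/-- `IsSolvablyClosed` is invariant under ring isomorphisms. -/
theorem IsSolvablyClosed.of_ringEquiv (e : E ≃+* E') (h : IsSolvablyClosed E) :
    IsSolvablyClosed E' := by
  intro p hp
  let q : E[X] := p.map (e.symm : E' →+* E)
  have hqp : q.map (e : E →+* E') = p := by
    simp only [q, Polynomial.map_map]
    convert Polynomial.map_id (p := p)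
    ext x; simp
  let _ : Algebra E p.SplittingField := ((algebraMap E' p.SplittingField).comp (e : E →+* E')).toAlgebra
  have hmap : q.map (algebraMap E p.SplittingField) = p.map (algebraMap E' p.SplittingField) := by
    have h1 : (q.map (e : E →+* E')).map (algebraMap E' p.SplittingField) =
        q.map (algebraMap E p.SplittingField) := by
      rw [Polynomial.map_map]; rfl
    rw [← h1]
    exact congrArg (Polynomial.map (algebraMap E' p.SplittingField)) hqp
  have hsplit : IsSplittingField E p.SplittingField q := by
    refine ⟨?_, ?_⟩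
    · rw [hmap]; exact SplittingField.splits p
    · rw [eq_top_iff]
      intro x _
      have hx : x ∈ Algebra.adjoin E' (p.rootSet p.SplittingField) := by
        rw [SplittingField.adjoin_rootSet]; trivial
      have hroot : q.rootSet p.SplittingField = p.rootSet p.SplittingField := by
        simp only [Polynomial.rootSet, Polynomial.aroots_def, hmap]
      rw [hroot]
      refine Algebra.adjoin_induction (fun y hy => Algebra.subset_adjoin hy) ?_
        (fun _ _ _ _ => Subalgebra.add_mem _) (fun _ _ _ _ => Subalgebra.mul_mem _) hx
      intro r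
      have : algebraMap E' p.SplittingField r = algebraMap E p.SplittingField (e.symm r) := by
        change _ = algebraMap E' p.SplittingField (e (e.symm r))
        rw [RingEquiv.apply_symm_apply]
      rw [this]
      exact Subalgebra.algebraMap_mem _ _
  let g : p.SplittingField ≃ₐ[E] q.SplittingField := IsSplittingField.algEquiv _ q
  have hcomm : ∀ a b : q.Gal, a * b = b * a := by
    have key : ∀ a b : (p.SplittingField ≃ₐ[E] p.SplittingField), a * b = b * a := by
      intro a b
      let up : (p.SplittingField ≃ₐ[E] p.SplittingField) → p.Gal := fun a =>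
        AlgEquiv.ofRingEquiv (f := a.toRingEquiv) (by
          intro r
          have : algebraMap E' p.SplittingField r = algebraMap E p.SplittingField (e.symm r) := by
            change _ = algebraMap E' p.SplittingField (e (e.symm r))
            rw [RingEquiv.apply_symm_apply]
          rw [this]; exact a.commutes _)
      have h1 := hp (up a) (up b)
      ext x
      exact DFunLike.congr_fun h1 x
    intro a b
    have h1 := key ((g.trans a).trans g.symm) ((g.trans b).trans g.symm)
    refine AlgEquiv.ext (fun x => ?_)
    have h2 := DFunLike.congr_fun h1 (g.symm x)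
    change g.symm (a (g (g.symm (b (g (g.symm x)))))) = g.symm (b (g (g.symm (a (g (g.symm x)))))) at h2
    rw [AlgEquiv.apply_symm_apply, AlgEquiv.apply_symm_apply, AlgEquiv.apply_symm_apply] at h2
    exact g.symm.injective h2
  have hs := h q hcomm
  rw [← hqp]
  exact hs.map _

end transport

end Crest.Agent.R018.Redx49
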