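import Crest.Agent.R018.Selmer_380
import Crest.Agent.R018.LogDefs_575

/-!
Row 18, LEMMA LOG, step (i) and block C.

`K` a number field, `L/K` finite Galois with generator `σ` of the (cyclic) Galois group.
* `kernel_bound`: the classes `u ∈ U_S(L)` of norm one, modulo `{σ t / t : t ∈ U_S(L)}`, which
  become trivial in `H^1` of the units at `l` modulo `V`, are at most `#Cl(K)` many.
* `blockC`: `BlockC K L`.
-/

set_option autoImplicit false
set_option linter.unusedSectionVars false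

namespace Crest.Agent.R018.KerClx793

open IsDedekindDomain FractionalIdeal NumberField Crest.Agent.R018.Selmerx380
  Crest.Agent.R018.LogDefsx575
open scoped nonZeroDivisors Pointwise

/-! ### Galois action on primes and orders -/

section action

variable {L : Type*} [Field L] [NumberField L] {G : Type*} [Group G] [MulSemiringAction G L]

/-- the image of a prime of `𝓞 L` under a field automorphism -/
noncomputable def act (g : G) (w : HeightOneSpectrum (𝓞 L)) : HeightOneSpectrum (𝓞 L) where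
  asIdeal := g • w.asIdeal
  isPrime := by have := w.isPrime; infer_instance
  ne_bot := by
    intro h
    apply w.ne_bot
    have h2 : g⁻¹ • (g • w.asIdeal) = g⁻¹ • (⊥ : Ideal (𝓞 L)) := by rw [h]
    rw [inv_smul_smul] at h2
    rw [h2]
    simp

theorem act_asIdeal (g : G) (w : HeightOneSpectrum (𝓞 L)) :
    (act g w).asIdeal = g • w.asIdeal := rfl

theorem act_one (w : HeightOneSpectrum (𝓞 L)) : act (1 : G) w = w := by
  ext1; simp [act_asIdeal]

theorem act_mul (g h : G) (w : HeightOneSpectrum (𝓞 L)) : act (g * h) w = act g (act h w) := by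
  ext1; simp [act_asIdeal, mul_smul]

theorem intValuation_act_le (g : G) (w : HeightOneSpectrum (𝓞 L)) (r : 𝓞 L) :
    (act g w).intValuation (g • r) ≤ w.intValuation r := by
  by_cases hr : r = 0
  · subst hr; simp
  · rw [w.intValuation_if_neg hr]
    set n := (Associates.mk w.asIdeal).count (Associates.mk (Ideal.span {r})).factors with hn
    have h1 : r ∈ w.asIdeal ^ n := by
      rw [← HeightOneSpectrum.intValuation_le_pow_iff_mem, w.intValuation_if_neg hr]
    rw [HeightOneSpectrum.intValuation_le_pow_iff_mem, act_asIdeal, ← smul_pow']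
    exact Ideal.smul_mem_pointwise_smul_iff.2 h1

theorem intValuation_act (g : G) (w : HeightOneSpectrum (𝓞 L)) (r : 𝓞 L) :
    (act g w).intValuation (g • r) = w.intValuation r := by
  refine le_antisymm (intValuation_act_le g w r) ?_
  have := intValuation_act_le g⁻¹ (act g w) (g • r)
  rwa [← act_mul, inv_mul_cancel, act_one, inv_smul_smul] at this

theorem valuation_act (g : G) (w : HeightOneSpectrum (𝓞 L)) (x : L) :
    (act g w).valuation L (g • x) = w.valuation L x := by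
  obtain ⟨a, b, hb, rfl⟩ := IsFractionRing.div_surjective (A := 𝓞 L) x
  have h1 : ∀ r : 𝓞 L, g • (algebraMap (𝓞 L) L r) = algebraMap (𝓞 L) L (g • r) := by
    intro r
    rw [algebraMap.smul']
  rw [smul_div₀', h1, h1, map_div₀, map_div₀]
  rw [HeightOneSpectrum.valuation_of_algebraMap, HeightOneSpectrum.valuation_of_algebraMap,
    HeightOneSpectrum.valuation_of_algebraMap, HeightOneSpectrum.valuation_of_algebraMap,
    intValuation_act, intValuation_act]

end action

section ordlemmas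

open WithZero

theorem ord_eq_iff_valuation {R : Type*} [CommRing R] [IsDedekindDomain R] {K : Type*} [Field K]
    [Algebra R K] [IsFractionRing R K] (v : HeightOneSpectrum R) (x y : K) (hx : x ≠ 0)
    (hy : y ≠ 0) (h : v.valuation K x = v.valuation K y) :
    ord R v (Units.mk0 x hx) = ord R v (Units.mk0 y hy) := by
  have h1 := valuation_eq_exp v (Units.mk0 x hx)
  have h2 := valuation_eq_exp v (Units.mk0 y hy)
  rw [Units.val_mk0] at h1 h2
  rw [h1, h2, exp_inj] at h
  omega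

theorem ord_eq_zero_iff {R : Type*} [CommRing R] [IsDedekindDomain R] {K : Type*} [Field K]
    [Algebra R K] [IsFractionRing R K] (v : HeightOneSpectrum R) (x : Kˣ) :
    ord R v x = 0 ↔ v.valuation K (x : K) = 1 := by
  rw [valuation_eq_exp, ← exp_zero, exp_inj]
  omega

theorem mem_unit_iff {R : Type*} [CommRing R] [IsDedekindDomain R] {K : Type*} [Field K]
    [Algebra R K] [IsFractionRing R K] (S : Set (HeightOneSpectrum R)) (x : Kˣ) :
    x ∈ S.unit K ↔ ∀ v, v ∉ S → ord R v x = 0 := by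
  constructor
  · intro h v hv
    rw [ord_eq_zero_iff]
    exact h v hv
  · intro h v hv
    rw [← ord_eq_zero_iff]
    exact h v hv

variable {K L : Type*} [Field K] [NumberField K] [Field L] [NumberField L] [Algebra K L]

theorem ord_inc (v : HeightOneSpectrum (𝓞 K)) (w : HeightOneSpectrum (𝓞 L))
    [w.asIdeal.LiesOver v.asIdeal] (a : Kˣ) :
    ord (𝓞 L) w (inc K L a) = v.asIdeal.ramificationIdx' w.asIdeal * ord (𝓞 K) v a := by
  have h1 := HeightOneSpectrum.valuation_liesOver L v w (a : K)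
  have h2 := valuation_eq_exp v a
  have h3 := valuation_eq_exp w (inc K L a)
  have h4 : ((inc K L a : Lˣ) : L) = algebraMap K L (a : K) := rfl
  rw [h4, ← h1, h2, ← exp_nsmul, exp_inj] at h3
  simp only [smul_neg, nsmul_eq_mul, neg_inj] at h3
  exact h3.symm

theorem ord_act (σ : L ≃ₐ[K] L) (w : HeightOneSpectrum (𝓞 L)) (x : Lˣ) :
    ord (𝓞 L) (act σ w) (Units.map (σ : L →* L) x) = ord (𝓞 L) w x := by
  have h1 := valuation_act σ w (x : L)
  have h2 := valuation_eq_exp w x
  have h3 := valuation_eq_exp (act σ w) (Units.map (σ : L →* L) x)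
  have h4 : ((Units.map (σ : L →* L) x : Lˣ) : L) = σ • (x : L) := rfl
  rw [h4, h1, h2, exp_inj] at h3
  omega

end ordlemmas


/-! ### Divisors and ideal classes -/

section divisors

variable {R : Type*} [CommRing R] [IsDedekindDomain R] (K : Type*) [Field K] [Algebra R K]
  [IsFractionRing R K]

/-- the fractional ideal of a divisor -/
noncomputable def dvi (D : HeightOneSpectrum R → ℤ) : FractionalIdeal R⁰ K :=
  ∏ᶠ v : HeightOneSpectrum R, (v.asIdeal : FractionalIdeal R⁰ K) ^ (D v)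

theorem dvi_ne_zero (D : HeightOneSpectrum R → ℤ) : dvi K D ≠ 0 := by
  unfold dvi
  apply finprod_induction (p := fun I : FractionalIdeal R⁰ K => I ≠ 0)
  · exact one_ne_zero
  · exact fun a b ha hb => mul_ne_zero ha hb
  · intro v
    exact zpow_ne_zero _ (coeIdeal_ne_zero.mpr v.ne_bot)

theorem count_dvi (D : HeightOneSpectrum R → ℤ) (hD : ∀ᶠ v in Filter.cofinite, D v = 0)
    (v : HeightOneSpectrum R) : count K v (dvi K D) = D v := by
  unfold dvi
  rw [count_finprod]
  exact hD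

/-- the class of a divisor -/
noncomputable def cls (D : HeightOneSpectrum R → ℤ) : ClassGroup R :=
  ClassGroup.mk K (Units.mk0 (dvi K D) (dvi_ne_zero K D))

theorem exists_of_cls_eq (D D' : HeightOneSpectrum R → ℤ)
    (hD : ∀ᶠ v in Filter.cofinite, D v = 0) (hD' : ∀ᶠ v in Filter.cofinite, D' v = 0)
    (h : cls K D = cls K D') :
    ∃ b : Kˣ, ∀ v, ord R v b = D' v - D v := by
  have h1 : ClassGroup.mk K (Units.mk0 (dvi K D') (dvi_ne_zero K D') *
      (Units.mk0 (dvi K D) (dvi_ne_zero K D))⁻¹) = 1 := by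
    rw [map_mul, map_inv]
    unfold cls at h
    rw [h, mul_inv_cancel]
  rw [ClassGroup.mk_eq_one_iff] at h1
  obtain ⟨c, hc⟩ := (isPrincipal_iff _).1 h1
  have hc0 : c ≠ 0 := by
    rintro rfl
    rw [spanSingleton_zero] at hc
    exact (Units.ne_zero _) hc
  refine ⟨Units.mk0 c hc0, fun v => ?_⟩
  unfold ord
  rw [Units.val_mk0, ← hc, Units.val_mul, Units.val_inv_eq_inv_val, Units.val_mk0, Units.val_mk0,
    count_mul K v (dvi_ne_zero K D') (inv_ne_zero (dvi_ne_zero K D)), count_inv,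
    count_dvi K D hD, count_dvi K D' hD']
  ring

end divisors

section index

theorem relIndex_le {G : Type*} [Group G] (H A : Subgroup G) {T : Type*} [Finite T]
    (φ : A → T) (h : ∀ a b : A, φ a = φ b → (a : G)⁻¹ * b ∈ H) :
    H.relIndex A ≤ Nat.card T ∧ H.relIndex A ≠ 0 := by
  let ψ : A ⧸ H.subgroupOf A → T := fun q => φ (Quotient.out q)
  have hψ : Function.Injective ψ := by
    intro p q hpq
    have h1 := h _ _ hpq
    have h2 : (Quotient.out p)⁻¹ * Quotient.out q ∈ H.subgroupOf A := by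
      rw [Subgroup.mem_subgroupOf]
      simpa using h1
    rw [← QuotientGroup.eq] at h2
    simpa using h2
  have : Finite (A ⧸ H.subgroupOf A) := Finite.of_injective ψ hψ
  refine ⟨Nat.card_le_card_of_injective ψ hψ, ?_⟩
  have : Nat.card (A ⧸ H.subgroupOf A) ≠ 0 := Nat.card_pos.ne'
  exact this

end index

/-! ### The core -/

section core

variable {K L : Type*} [Field K] [NumberField K] [Field L] [NumberField L] [Algebra K L]

theorem exists_act_eq [IsGalois K L] (v : HeightOneSpectrum (𝓞 K))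
    (w w' : HeightOneSpectrum (𝓞 L)) (hw : w.asIdeal.LiesOver v.asIdeal)
    (hw' : w'.asIdeal.LiesOver v.asIdeal) : ∃ τ : L ≃ₐ[K] L, act τ w = w' := by
  have := w.isPrime
  have := w'.isPrime
  obtain ⟨τ, hτ⟩ := Ideal.exists_smul_eq_of_isGaloisGroup v.asIdeal w.asIdeal w'.asIdeal
    (L ≃ₐ[K] L)
  exact ⟨τ, HeightOneSpectrum.ext hτ⟩

theorem act_liesOver [IsGalois K L] (v : HeightOneSpectrum (𝓞 K)) (w : HeightOneSpectrum (𝓞 L))
    (hw : w.asIdeal.LiesOver v.asIdeal) (τ : L ≃ₐ[K] L) :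
    (act τ w).asIdeal.LiesOver v.asIdeal := by
  rw [act_asIdeal]
  have := hw
  have : SMulCommClass (L ≃ₐ[K] L) (𝓞 K) (𝓞 L) :=
    IsGaloisGroup.commutes (G := L ≃ₐ[K] L) (A := 𝓞 K) (B := 𝓞 L)
  exact Ideal.LiesOver.smul τ

theorem eq_of_liesOver (v v' : HeightOneSpectrum (𝓞 K)) (w : HeightOneSpectrum (𝓞 L))
    (hw : w.asIdeal.LiesOver v.asIdeal) (hw' : w.asIdeal.LiesOver v'.asIdeal) : v = v' := by
  ext1
  rw [hw.over, hw'.over]

theorem exists_over (v : HeightOneSpectrum (𝓞 K)) :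
    ∃ w : HeightOneSpectrum (𝓞 L), w.asIdeal.LiesOver v.asIdeal := by
  have := v.isMaximal
  obtain ⟨Q, hQ, hQ'⟩ := Ideal.exists_maximal_ideal_liesOver_of_isIntegral
    (S := 𝓞 L) v.asIdeal
  refine ⟨⟨Q, hQ.isPrime, ?_⟩, hQ'⟩
  rintro rfl
  exact v.ne_bot (hQ'.over.trans (by simp))

theorem exists_under (w : HeightOneSpectrum (𝓞 L)) :
    ∃ v : HeightOneSpectrum (𝓞 K), w.asIdeal.LiesOver v.asIdeal := by
  exact ⟨w.under (𝓞 K), ⟨rfl⟩⟩

variable (L) in
/-- a chosen prime of `L` above `v` -/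
noncomputable def up (v : HeightOneSpectrum (𝓞 K)) : HeightOneSpectrum (𝓞 L) :=
  (exists_over (L := L) v).choose

theorem up_liesOver (v : HeightOneSpectrum (𝓞 K)) : (up L v).asIdeal.LiesOver v.asIdeal :=
  (exists_over (L := L) v).choose_spec

theorem up_injective : Function.Injective (up (K := K) L) := by
  intro v v' h
  have h1 := up_liesOver (L := L) v
  have h2 := up_liesOver (L := L) v'
  rw [← h] at h2
  exact eq_of_liesOver v v' _ h1 h2

theorem mem_ov_iff (S : Set (HeightOneSpectrum (𝓞 K))) (v : HeightOneSpectrum (𝓞 K))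
    (w : HeightOneSpectrum (𝓞 L)) (hw : w.asIdeal.LiesOver v.asIdeal) :
    w ∈ ov L S ↔ v ∈ S := by
  constructor
  · rintro ⟨v', hv', h⟩
    rwa [eq_of_liesOver v v' w hw h]
  · intro h
    exact ⟨v, h, hw⟩

/-- an element with `σ x / x` an `S`-unit has the same order at all primes above `v ∉ S` -/
theorem ord_eq_of_sg_mem [IsGalois K L] (σ : L ≃ₐ[K] L) (hσ : ∀ τ, τ ∈ Subgroup.zpowers σ)
    (S : Set (HeightOneSpectrum (𝓞 K))) (x : Lˣ) (hx : sg K σ x ∈ (ov L S).unit L)
    (v : HeightOneSpectrum (𝓞 K)) (hv : v ∉ S) (w w' : HeightOneSpectrum (𝓞 L))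
    (hw : w.asIdeal.LiesOver v.asIdeal) (hw' : w'.asIdeal.LiesOver v.asIdeal) :
    ord (𝓞 L) w x = ord (𝓞 L) w' x := by
  have hsg : ∀ u : HeightOneSpectrum (𝓞 L), u.asIdeal.LiesOver v.asIdeal →
      ord (𝓞 L) u (Units.map (σ : L →* L) x) = ord (𝓞 L) u x := by
    intro u hu
    have h1 := (mem_unit_iff _ _).1 hx u (by rw [mem_ov_iff S v u hu]; exact hv)
    have h2 : sg K σ x = Units.map (σ : L →* L) x / x := rfl
    rw [h2, ord_div] at h1
    omega
  let H : Subgroup (L ≃ₐ[K] L) :=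
    { carrier := {τ | ∀ u : HeightOneSpectrum (𝓞 L), u.asIdeal.LiesOver v.asIdeal →
        ord (𝓞 L) (act τ u) x = ord (𝓞 L) u x}
      one_mem' := by
        intro u _
        rw [act_one]
      mul_mem' := by
        intro a b ha hb u hu
        rw [act_mul, ha _ (act_liesOver v u hu b), hb _ hu]
      inv_mem' := by
        intro a ha u hu
        have h1 := ha _ (act_liesOver v u hu a⁻¹)
        rw [← act_mul, mul_inv_cancel, act_one] at h1
        exact h1.symm }
  have hσH : σ ∈ H := by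
    intro u hu
    rw [← hsg _ (act_liesOver v u hu σ), ord_act]
  obtain ⟨τ, hτ⟩ := exists_act_eq v w w' hw hw'
  have hτH : τ ∈ H := (Subgroup.zpowers_le.2 hσH) (hσ τ)
  rw [← hτ]
  exact (hτH w hw).symm

theorem sg_inc (σ : L ≃ₐ[K] L) (a : Kˣ) : sg K σ (inc K L a) = 1 := by
  have h2 : sg K σ (inc K L a) = Units.map (σ : L →* L) (inc K L a) / (inc K L a) := rfl
  rw [h2, div_eq_one]
  ext
  simp [inc]

/-- **Core lemma.** -/
theorem core [IsGalois K L] (σ : L ≃ₐ[K] L) (hσ : ∀ τ, τ ∈ Subgroup.zpowers σ)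
    (S : Set (HeightOneSpectrum (𝓞 K))) (x x' : Lˣ) (hx : sg K σ x ∈ (ov L S).unit L)
    (hx' : sg K σ x' ∈ (ov L S).unit L) (b : Kˣ)
    (hb : ∀ v, v ∉ S → ord (𝓞 L) (up L v) x' - ord (𝓞 L) (up L v) x =
      ord (𝓞 L) (up L v) (inc K L b)) :
    (sg K σ x)⁻¹ * sg K σ x' ∈ ((ov L S).unit L).map (sg K σ) := by
  set t := x' / (x * inc K L b) with ht
  have hsgt : sg K σ t = (sg K σ x)⁻¹ * sg K σ x' := by
    rw [ht, map_div, map_mul, sg_inc, mul_one, div_eq_mul_inv, mul_comm]
  have htS : sg K σ t ∈ (ov L S).unit L := by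
    rw [hsgt]
    exact mul_mem (inv_mem hx) hx'
  refine ⟨t, ?_, hsgt⟩
  show t ∈ (ov L S).unit L
  rw [mem_unit_iff]
  intro w hw
  obtain ⟨v, hv⟩ := exists_under (K := K) w
  have hvS : v ∉ S := by rwa [mem_ov_iff S v w hv] at hw
  rw [ord_eq_of_sg_mem σ hσ S t htS v hvS w (up L v) hv (up_liesOver v), ht, ord_div, ord_mul]
  have := hb v hvS
  omega

omit [NumberField K] [NumberField L] in
theorem hilbert90_aux {K L : Type*} [Field K] [Field L] [Algebra K L] [FiniteDimensional K L]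
    [IsGalois K L] (σ : L ≃ₐ[K] L) (hσ : ∀ τ, τ ∈ Subgroup.zpowers σ) (u : L)
    (hu : Algebra.norm K u = 1) : ∃ y : L, y ≠ 0 ∧ u * σ y = y := by
  classical
  set n := orderOf σ with hn
  have hnpos : 0 < n := orderOf_pos σ
  let a : ℕ → L := fun i => ∏ j ∈ Finset.range i, (σ ^ j) u
  have ha0 : a 0 = 1 := by simp [a]
  have hasucc : ∀ i, a (i + 1) = u * σ (a i) := by
    intro i
    simp only [a]
    rw [Finset.prod_range_succ', map_prod, mul_comm]
    simp only [pow_zero, AlgEquiv.one_apply]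
    congr 1
    refine Finset.prod_congr rfl fun j _ => ?_
    rw [pow_succ', AlgEquiv.mul_apply]
  have han : a n = 1 := by
    have h1 := Algebra.norm_eq_prod_automorphisms K u
    rw [hu, map_one] at h1
    rw [h1, ← IsCyclic.image_range_orderOf hσ, Finset.prod_image]
    intro i hi j hj hij
    exact pow_injOn_Iio_orderOf (by simpa using hi) (by simpa using hj) hij
  by_contra hcon
  push Not at hcon
  have hzero : ∀ c : L, ∑ i ∈ Finset.range n, a i * (σ ^ i) c = 0 := by
    intro c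
    by_contra hne
    refine hcon _ hne ?_
    rw [map_sum, Finset.mul_sum]
    have h1 : ∀ i ∈ Finset.range n, u * σ (a i * (σ ^ i) c) = a (i + 1) * (σ ^ (i + 1)) c := by
      intro i _
      rw [map_mul, ← mul_assoc, ← hasucc, pow_succ', AlgEquiv.mul_apply]
    rw [Finset.sum_congr rfl h1]
    have h2 := Finset.sum_range_succ' (fun i => a i * (σ ^ i) c) n
    have h3 := Finset.sum_range_succ (fun i => a i * (σ ^ i) c) n
    rw [h2] at h3
    rw [han, ha0, hn, pow_orderOf_eq_one, pow_zero] at h3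
    exact add_right_cancel h3
  have hind := linearIndependent_monoidHom L L
  have hinj : Function.Injective
      (fun i : Fin n => ((σ ^ (i : ℕ) : L ≃ₐ[K] L) : L →* L)) := by
    intro i j hij
    have h1 : σ ^ (i : ℕ) = σ ^ (j : ℕ) := by
      ext x
      exact DFunLike.congr_fun hij x
    exact Fin.ext (pow_injOn_Iio_orderOf i.2 j.2 h1)
  have hind2 := hind.comp _ hinj
  rw [Fintype.linearIndependent_iff] at hind2
  have h4 := hind2 (fun i => a i) (by
    ext c
    have h5 := hzero c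
    rw [Finset.sum_range] at h5
    simpa [Finset.sum_apply] using h5) ⟨0, hnpos⟩
  simp only [ha0] at h4
  exact one_ne_zero h4

theorem hilbert90 [IsGalois K L] (σ : L ≃ₐ[K] L) (hσ : ∀ τ, τ ∈ Subgroup.zpowers σ) (u : Lˣ)
    (hu : u ∈ (nm K L).ker) : ∃ x : Lˣ, u = sg K σ x := by
  have h1 : Algebra.norm K (u : L) = 1 := by
    have h2 : ((nm K L u : Lˣ) : L) = algebraMap K L (Algebra.norm K (u : L)) := rfl
    rw [MonoidHom.mem_ker] at hu
    rw [hu, Units.val_one] at h2
    exact (FaithfulSMul.algebraMap_injective K L) (by rw [← h2, map_one])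
  obtain ⟨y, hy0, hy⟩ := hilbert90_aux σ hσ u h1
  refine ⟨(Units.mk0 y hy0)⁻¹, ?_⟩
  have h2 : sg K σ (Units.mk0 y hy0)⁻¹ =
    Units.map (σ : L →* L) (Units.mk0 y hy0)⁻¹ / (Units.mk0 y hy0)⁻¹ := rfl
  rw [h2, map_inv, div_inv_eq_mul, mul_comm, ← div_eq_mul_inv, eq_div_iff_mul_eq']
  ext
  exact hy

theorem ram_pos [IsGalois K L] (v : HeightOneSpectrum (𝓞 K)) :
    0 < v.asIdeal.ramificationIdxIn (𝓞 L) := by
  have := v.isPrime
  exact Nat.pos_of_ne_zero (Ideal.ramificationIdxIn_ne_zero (L ≃ₐ[K] L))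

theorem ord_over_inc [IsGalois K L] (v : HeightOneSpectrum (𝓞 K))
    (w : HeightOneSpectrum (𝓞 L)) (hw : w.asIdeal.LiesOver v.asIdeal) (a : Kˣ) :
    ord (𝓞 L) w (inc K L a) =
      (v.asIdeal.ramificationIdxIn (𝓞 L) : ℤ) * ord (𝓞 K) v a := by
  have := w.isPrime
  have := v.isPrime
  rw [ord_inc v w a, Ideal.ramificationIdx'_eq_ramificationIdx,
    Ideal.ramificationIdxIn_eq_ramificationIdx v.asIdeal w.asIdeal (L ≃ₐ[K] L)]
  exact v.ne_bot

theorem mem_PA_iff (l : ℕ) (v : HeightOneSpectrum (𝓞 K)) (w : HeightOneSpectrum (𝓞 L))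
    (hw : w.asIdeal.LiesOver v.asIdeal) : w ∈ PA L l ↔ v ∈ PA K l := by
  unfold PA
  simp only [Set.mem_ofPred_eq]
  rw [hw.over, Ideal.mem_under, map_natCast]

theorem ord_eq_zero_of_mem_Rl (l : ℕ) (y : Lˣ) (hy : y ∈ Rl L l) (w : HeightOneSpectrum (𝓞 L))
    (hw : w ∈ PA L l) : ord (𝓞 L) w y = 0 :=
  (mem_unit_iff _ _).1 hy w (by simpa using hw)

theorem PA_finite (l : ℕ) (hl : l ≠ 0) : (PA K l).Finite := by
  have h0 : (Ideal.span {(l : 𝓞 K)}) ≠ 0 := by
    rw [Ne, Ideal.zero_eq_bot, Ideal.span_singleton_eq_bot]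
    exact_mod_cast hl
  refine (Ideal.finite_factors h0).subset ?_
  intro v hv
  rw [Set.mem_ofPred_eq, Ideal.dvd_span_singleton]
  exact hv

theorem up_eventually (x : Lˣ) : ∀ᶠ v : HeightOneSpectrum (𝓞 K) in Filter.cofinite,
    ord (𝓞 L) (up L v) x = 0 :=
  up_injective.tendsto_cofinite.eventually (ord_finite x)

/-- **Kernel bound.** -/
theorem kernel_bound [IsGalois K L] (σ : L ≃ₐ[K] L) (hσ : ∀ τ, τ ∈ Subgroup.zpowers σ)
    (l : ℕ)
    (hur : ∀ v : HeightOneSpectrum (𝓞 K), v ∉ PA K l → v.asIdeal.ramificationIdxIn (𝓞 L) = 1)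
    (S : Set (HeightOneSpectrum (𝓞 K))) (V : Subgroup Lˣ) (hV : V ≤ Rl L l)
    (hD1 : ∀ x : Lˣ, sg K σ x ∈ V → ∃ a : Kˣ, ∃ v ∈ V, x = inc K L a * v) :
    (((ov L S).unit L).map (sg K σ)).relIndex
      ((nm K L).ker ⊓ (ov L S).unit L ⊓ ((Rl L l).map (sg K σ) ⊔ V)) ≤
        Nat.card (ClassGroup (𝓞 K)) ∧
    (((ov L S).unit L).map (sg K σ)).relIndex
      ((nm K L).ker ⊓ (ov L S).unit L ⊓ ((Rl L l).map (sg K σ) ⊔ V)) ≠ 0 := by
  classical
  set A := (nm K L).ker ⊓ (ov L S).unit L ⊓ ((Rl L l).map (sg K σ) ⊔ V) with hA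
  have key : ∀ u : A, ∃ x : Lˣ, ∃ a : Kˣ, (u : Lˣ) = sg K σ x ∧ ∃ y ∈ Rl L l,
      x = inc K L a * y := by
    rintro ⟨u, ⟨hu1, hu2⟩, hu3⟩
    obtain ⟨x, hx⟩ := hilbert90 σ hσ u hu1
    obtain ⟨r', hr', v, hv, hrv⟩ := Subgroup.mem_sup.1 hu3
    obtain ⟨r, hr, rfl⟩ := hr'
    have h1 : sg K σ (x / r) ∈ V := by
      rw [map_div, ← hx, ← hrv, mul_div_cancel_left]
      exact hv
    obtain ⟨a, v', hv', hx'⟩ := hD1 _ h1
    refine ⟨x, a, hx, r * v', mul_mem hr (hV hv'), ?_⟩
    rw [div_eq_iff_eq_mul] at hx'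
    rw [hx', mul_assoc, mul_comm v' r]
  choose X a hX y hy hXa using key
  let D : A → HeightOneSpectrum (𝓞 K) → ℤ := fun u v =>
    if v ∈ S then 0 else if v ∈ PA K l then ord (𝓞 K) v (a u) else ord (𝓞 L) (up L v) (X u)
  have hD : ∀ u, ∀ᶠ v in Filter.cofinite, D u v = 0 := by
    intro u
    filter_upwards [ord_finite (R := 𝓞 K) (a u), up_eventually (K := K) (X u)] with v h1 h2
    simp only [D]
    split_ifs
    · rfl
    · exact h1
    · exact h2
  refine relIndex_le _ A (fun u => cls K (D u)) ?_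
  intro u u' h
  obtain ⟨b, hb⟩ := exists_of_cls_eq K (D u) (D u') (hD u) (hD u') h
  rw [hX u, hX u']
  refine core σ hσ S (X u) (X u') ?_ ?_ b ?_
  · rw [← hX u]; exact u.2.1.2
  · rw [← hX u']; exact u'.2.1.2
  · intro v hv
    have hbv := hb v
    rw [ord_over_inc v _ (up_liesOver v)]
    by_cases hvl : v ∈ PA K l
    · simp only [D, if_neg hv, if_pos hvl] at hbv
      have hz : ∀ u, ord (𝓞 L) (up L v) (X u) =
          (v.asIdeal.ramificationIdxIn (𝓞 L) : ℤ) * ord (𝓞 K) v (a u) := by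
        intro u
        rw [hXa u, ord_mul, ord_over_inc v _ (up_liesOver v),
          ord_eq_zero_of_mem_Rl l (y u) (hy u) _ ((mem_PA_iff l v _ (up_liesOver v)).2 hvl),
          add_zero]
      rw [hz, hz, hbv]
      ring
    · simp only [D, if_neg hv, if_neg hvl] at hbv
      rw [hbv, hur v hvl]
      simp

end core

theorem blockC_aux (K L : Type*) [Field K] [NumberField K] [Field L] [NumberField L] [Algebra K L] :
    BlockC K L ∧ ∀ (_ : IsGalois K L) (σ : L ≃ₐ[K] L) (_ : ∀ τ, τ ∈ Subgroup.zpowers σ)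
      (l : ℕ) (_ : l.Prime)
      (_ : ∀ v : HeightOneSpectrum (𝓞 K), v ∉ PA K l → v.asIdeal.ramificationIdxIn (𝓞 L) = 1)
      (S : Set (HeightOneSpectrum (𝓞 K))), h1 (sg K σ) (nm K L) ((ov L S).unit L) ≠ 0 := by
  classical
  have key : ∀ (_ : IsGalois K L) (σ : L ≃ₐ[K] L) (_ : ∀ τ, τ ∈ Subgroup.zpowers σ)
      (l : ℕ) (_ : l.Prime)
      (_ : ∀ v : HeightOneSpectrum (𝓞 K), v ∉ PA K l → v.asIdeal.ramificationIdxIn (𝓞 L) = 1)
      (S : Set (HeightOneSpectrum (𝓞 K))), h1 (sg K σ) (nm K L) ((ov L S).unit L) ≤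
        Nat.card (ClassGroup (𝓞 K)) * eL K L l ∧
        h1 (sg K σ) (nm K L) ((ov L S).unit L) ≠ 0 := by
    intro _ σ hσ l hl hur S
    have hfin : Finite (PA K l) := PA_finite l hl.ne_zero
    have : Fintype (PA K l) := Fintype.ofFinite _
    set A := (nm K L).ker ⊓ (ov L S).unit L with hA
    have key : ∀ u : A, ∃ x : Lˣ, (u : Lˣ) = sg K σ x := by
      rintro ⟨u, hu1, hu2⟩
      exact hilbert90 σ hσ u hu1
    choose X hX using key
    let e : HeightOneSpectrum (𝓞 K) → ℕ := fun v => v.asIdeal.ramificationIdxIn (𝓞 L)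
    have he : ∀ v, 0 < e v := fun v => ram_pos v
    let D : A → HeightOneSpectrum (𝓞 K) → ℤ := fun u v =>
      if v ∈ S then 0 else ord (𝓞 L) (up L v) (X u) / (e v : ℤ)
    have hD : ∀ u, ∀ᶠ v in Filter.cofinite, D u v = 0 := by
      intro u
      filter_upwards [up_eventually (K := K) (X u)] with v h2
      simp only [D]
      split_ifs
      · rfl
      · rw [h2, Int.zero_ediv]
    have hcard : Nat.card (ClassGroup (𝓞 K) × (∀ v : PA K l, Fin (e v))) =
        Nat.card (ClassGroup (𝓞 K)) * eL K L l := by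
      rw [Nat.card_prod, Nat.card_pi]
      congr 1
      unfold eL
      rw [finprod_eq_prod_of_fintype]
      refine Finset.prod_congr rfl fun v _ => ?_
      rw [Nat.card_fin]
    rw [← hcard]
    let φ : A → ClassGroup (𝓞 K) × (∀ v : PA K l, Fin (e v)) := fun u =>
      (cls K (D u), fun v => ⟨(ord (𝓞 L) (up L v.1) (X u) % (e v : ℤ)).toNat, by
        have hpos : (0 : ℤ) < e v := by exact_mod_cast he v
        have h1 := Int.emod_lt_of_pos (ord (𝓞 L) (up L v.1) (X u)) hpos
        have h2 := Int.emod_nonneg (ord (𝓞 L) (up L v.1) (X u)) hpos.ne'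
        omega⟩)
    refine relIndex_le _ A φ ?_
    intro u u' h
    obtain ⟨b, hb⟩ := exists_of_cls_eq K (D u) (D u') (hD u) (hD u') (congrArg Prod.fst h)
    rw [hX u, hX u']
    refine core σ hσ S (X u) (X u') ?_ ?_ b ?_
    · rw [← hX u]; exact u.2.2
    · rw [← hX u']; exact u'.2.2
    · intro v hv
      have hbv := hb v
      have hpos : (0 : ℤ) < e v := by exact_mod_cast he v
      simp only [D, if_neg hv] at hbv
      rw [ord_over_inc v _ (up_liesOver v)]
      change _ = (e v : ℤ) * _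
      have hmod : ord (𝓞 L) (up L v) (X u) % (e v : ℤ) = ord (𝓞 L) (up L v) (X u') % (e v : ℤ) := by
        by_cases hvl : v ∈ PA K l
        · have h1 := congrArg (fun p => (p.2 ⟨v, hvl⟩ : Fin (e v)).1) h
          simp only [φ] at h1
          have h2 := Int.emod_nonneg (ord (𝓞 L) (up L v) (X u)) hpos.ne'
          have h3 := Int.emod_nonneg (ord (𝓞 L) (up L v) (X u')) hpos.ne'
          omega
        · have h1 : e v = 1 := hur v hvl
          rw [h1]
          simp
      rw [hbv]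
      have h2 := Int.mul_ediv_add_emod (ord (𝓞 L) (up L v) (X u)) (e v)
      have h3 := Int.mul_ediv_add_emod (ord (𝓞 L) (up L v) (X u')) (e v)
      rw [mul_sub]
      linarith
  refine ⟨?_, ?_⟩
  · intro hG σ hσ l hl hur S _ _
    exact (key hG σ hσ l hl hur S).1
  · intro hG σ hσ l hl hur S
    exact (key hG σ hσ l hl hur S).2

/-- **Block C.** -/
theorem blockC (K L : Type*) [Field K] [NumberField K] [Field L] [NumberField L] [Algebra K L] :
    BlockC K L := (blockC_aux K L).1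

/-- `H^1` of the `S`-units is finite. -/
theorem h1_ne_zero (K L : Type*) [Field K] [NumberField K] [Field L] [NumberField L] [Algebra K L]
    [IsGalois K L] (σ : L ≃ₐ[K] L) (hσ : ∀ τ, τ ∈ Subgroup.zpowers σ)
    (l : ℕ) (hl : l.Prime)
    (hur : ∀ v : HeightOneSpectrum (𝓞 K), v ∉ PA K l → v.asIdeal.ramificationIdxIn (𝓞 L) = 1)
    (S : Set (HeightOneSpectrum (𝓞 K))) : h1 (sg K σ) (nm K L) ((ov L S).unit L) ≠ 0 :=
  (blockC_aux K L).2 inferInstance σ hσ l hl hur S

end Crest.Agent.R018.KerClx793
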