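import Mathlib

set_option autoImplicit false

/-!
Tame facts, part A (helper31): valuation subrings of an algebraic extension, decomposition
and inertia automorphisms, roots of unity.
-/

namespace Crest.Agent.R018.Tamex31

open scoped Pointwise

variable {F E : Type*} [Field F] [Field E] [Algebra F E]

/-- `g` stabilises the valuation subring `A`. -/
def decS (F : Type*) {E : Type*} [Field F] [Field E] [Algebra F E] (A : ValuationSubring E) :
    Subgroup (E ≃ₐ[F] E) where
  carrier := {g | ∀ x, g x ∈ A ↔ x ∈ A}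
  mul_mem' := by
    intro a b ha hb x
    have h1 := ha (b x)
    have h2 := hb x
    simp only [AlgEquiv.mul_apply]
    rw [h1, h2]
  one_mem' := by intro x; simp
  inv_mem' := by
    intro a ha x
    have h1 := ha (a⁻¹ x)
    rw [← h1]
    have : a (a⁻¹ x) = x := by
      rw [← AlgEquiv.mul_apply]; simp
    rw [this]

theorem mem_decS {A : ValuationSubring E} {g : E ≃ₐ[F] E} :
    g ∈ decS F A ↔ ∀ x, g x ∈ A ↔ x ∈ A := Iff.rfl

theorem dec_lt_one {A : ValuationSubring E} {g : E ≃ₐ[F] E} (hg : g ∈ decS F A) (x : E) :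
    A.valuation (g x) < 1 ↔ A.valuation x < 1 := by
  rcases eq_or_ne x 0 with rfl | hx
  · simp
  have hgx : g x ≠ 0 := by simpa using hx
  have key : ∀ y : E, y ≠ 0 → (A.valuation y < 1 ↔ ¬ (y⁻¹ ∈ A)) := by
    intro y hy
    rw [← A.valuation_le_one_iff, map_inv₀, not_le]
    have hy' : A.valuation y ≠ 0 := by simpa using hy
    constructor
    · intro h
      exact (one_lt_inv₀ (zero_lt_iff.mpr hy')).mpr h
    · intro h
      exact (one_lt_inv₀ (zero_lt_iff.mpr hy')).mp h
  rw [key _ hgx, key _ hx, ← map_inv₀, mem_decS.mp hg]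

theorem dec_val_lt {A : ValuationSubring E} {g : E ≃ₐ[F] E} (hg : g ∈ decS F A) {x y : E}
    (h : A.valuation x < A.valuation y) : A.valuation (g x) < A.valuation (g y) := by
  have hy : y ≠ 0 := by
    rintro rfl
    simp at h
  have hgy : g y ≠ 0 := by simpa using hy
  have h1 : A.valuation (x / y) < 1 := by
    rw [map_div₀]
    exact (div_lt_one₀ (zero_lt_iff.mpr (by simpa using hy))).mpr h
  have h2 := (dec_lt_one hg (x / y)).mpr h1
  rw [map_div₀, map_div₀] at h2
  exact (div_lt_one₀ (zero_lt_iff.mpr (by simpa using hgy))).mp h2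

/-- Iterates of an automorphism on an algebraic element are periodic. -/
theorem exists_pow_apply_eq [Algebra.IsAlgebraic F E] (g : E ≃ₐ[F] E) (y : E) :
    ∃ k : ℕ, 0 < k ∧ (g ^ k) y = y := by
  have hfin : ((minpoly F y).rootSet E).Finite := Polynomial.rootSet_finite _ _
  have hmem : ∀ n : ℕ, (g ^ n) y ∈ (minpoly F y).rootSet E := by
    intro n
    rw [Polynomial.mem_rootSet]
    refine ⟨minpoly.ne_zero (Algebra.IsIntegral.isIntegral y), ?_⟩
    have : Polynomial.aeval ((g ^ n) y) (minpoly F y) = (g ^ n) (Polynomial.aeval y (minpoly F y)) := by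
      rw [← Polynomial.aeval_algHom_apply (g ^ n : E ≃ₐ[F] E) y]
    rw [this, minpoly.aeval, map_zero]
  have hninj : ¬ Function.Injective (fun n : ℕ => (g ^ n) y) := by
    intro hinj
    have : Set.Infinite (Set.range (fun n : ℕ => (g ^ n) y)) := Set.infinite_range_of_injective hinj
    exact this (hfin.subset (by rintro _ ⟨n, rfl⟩; exact hmem n))
  rw [Function.Injective] at hninj
  push Not at hninj
  obtain ⟨a, b, hab, hne⟩ := hninj
  rcases lt_or_gt_of_ne hne with h | h
  · refine ⟨b - a, Nat.sub_pos_of_lt h, ?_⟩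
    have h1 : (g ^ a) ((g ^ (b - a)) y) = (g ^ a) y := by
      rw [← AlgEquiv.mul_apply, ← pow_add, Nat.add_sub_cancel' h.le]
      exact hab.symm
    exact (g ^ a).injective h1
  · refine ⟨a - b, Nat.sub_pos_of_lt h, ?_⟩
    have h1 : (g ^ b) ((g ^ (a - b)) y) = (g ^ b) y := by
      rw [← AlgEquiv.mul_apply, ← pow_add, Nat.add_sub_cancel' h.le]
      exact hab
    exact (g ^ b).injective h1

/-- A decomposition automorphism preserves the valuation. -/
theorem dec_val_eq [Algebra.IsAlgebraic F E] {A : ValuationSubring E} {g : E ≃ₐ[F] E}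
    (hg : g ∈ decS F A) (y : E) : A.valuation (g y) = A.valuation y := by
  by_contra hne
  have main : ∀ h : E ≃ₐ[F] E, h ∈ decS F A → A.valuation y < A.valuation (h y) → False := by
    intro h hh hlt
    obtain ⟨k, hk, hky⟩ := exists_pow_apply_eq h y
    have hmono : ∀ n : ℕ, A.valuation y < A.valuation ((h ^ (n + 1)) y) := by
      intro n
      induction n with
      | zero => simpa using hlt
      | succ n ih =>
        have h1 : A.valuation (h y) < A.valuation (h ((h ^ (n + 1)) y)) := dec_val_lt hh ih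
        rw [← AlgEquiv.mul_apply, ← pow_succ'] at h1
        exact hlt.trans h1
    obtain ⟨m, rfl⟩ : ∃ m, k = m + 1 := ⟨k - 1, by omega⟩
    have := hmono m
    rw [hky] at this
    exact lt_irrefl _ this
  rcases lt_or_gt_of_ne hne with h | h
  · have hg' : g⁻¹ ∈ decS F A := (decS F A).inv_mem hg
    have h2 := dec_val_lt hg' h
    rw [← AlgEquiv.mul_apply, inv_mul_cancel, AlgEquiv.one_apply] at h2
    exact main g⁻¹ hg' h2
  · exact main g hg h

/-- The inertia subgroup of `A` inside the full automorphism group. -/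
def inS (F : Type*) {E : Type*} [Field F] [Field E] [Algebra F E] (A : ValuationSubring E) :
    Subgroup (E ≃ₐ[F] E) where
  carrier := {g | g ∈ decS F A ∧ ∀ x ∈ A, A.valuation (g x - x) < 1}
  mul_mem' := by
    rintro a b ⟨ha, ha'⟩ ⟨hb, hb'⟩
    refine ⟨(decS F A).mul_mem ha hb, fun x hx => ?_⟩
    have h1 := ha' (b x) ((hb x).mpr hx)
    have h2 := hb' x hx
    have : (a * b) x - x = (a (b x) - b x) + (b x - x) := by
      rw [AlgEquiv.mul_apply]; ring
    rw [this]
    exact lt_of_le_of_lt (A.valuation.map_add _ _) (max_lt h1 h2)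
  one_mem' := ⟨(decS F A).one_mem, fun x _ => by simp⟩
  inv_mem' := by
    rintro a ⟨ha, ha'⟩
    refine ⟨(decS F A).inv_mem ha, fun x hx => ?_⟩
    have hx' : a⁻¹ x ∈ A := ((decS F A).inv_mem ha x).mpr hx
    have h1 := ha' (a⁻¹ x) hx'
    have h2 : a (a⁻¹ x) = x := by rw [← AlgEquiv.mul_apply]; simp
    rw [h2, ← Valuation.map_neg, neg_sub] at h1
    exact h1

theorem mem_inS {A : ValuationSubring E} {g : E ≃ₐ[F] E} :
    g ∈ inS F A ↔ g ∈ decS F A ∧ ∀ x ∈ A, A.valuation (g x - x) < 1 := Iff.rfl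

theorem inS_le_decS (A : ValuationSubring E) : inS F A ≤ decS F A := fun _ h => h.1

/-- The inertia group is normalised by the decomposition group. -/
theorem conj_mem_inS {A : ValuationSubring E} {s g : E ≃ₐ[F] E} (hs : s ∈ decS F A)
    (hg : g ∈ inS F A) : s * g * s⁻¹ ∈ inS F A := by
  refine ⟨(decS F A).mul_mem ((decS F A).mul_mem hs hg.1) ((decS F A).inv_mem hs),
    fun x hx => ?_⟩
  have hx' : s⁻¹ x ∈ A := ((decS F A).inv_mem hs x).mpr hx
  have h1 := hg.2 (s⁻¹ x) hx'
  have h2 := (dec_lt_one hs (g (s⁻¹ x) - s⁻¹ x)).mpr h1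
  have h3 : s (g (s⁻¹ x) - s⁻¹ x) = (s * g * s⁻¹) x - x := by
    rw [map_sub, AlgEquiv.mul_apply, AlgEquiv.mul_apply]
    congr 1
    rw [← AlgEquiv.mul_apply]; simp
  rwa [h3] at h2

/-- Inertia acts on units by principal units. -/
theorem in_unit {A : ValuationSubring E} {g : E ≃ₐ[F] E} (hg : g ∈ inS F A) {u : E}
    (hu : A.valuation u = 1) : A.valuation (g u / u - 1) < 1 := by
  have hu0 : u ≠ 0 := by
    rintro rfl
    simp at hu
  have h1 := hg.2 u ((A.valuation_le_one_iff u).mp hu.le)
  have h2 : g u / u - 1 = (g u - u) / u := by field_simp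
  rw [h2, map_div₀, hu, div_one]
  exact h1

/-- A root of unity of order invertible in the residue field which is `≡ 1` is `1`. -/
theorem root_eq_one {A : ValuationSubring E} {n : ℕ} (hn : A.valuation (n : E) = 1) {z : E}
    (hz : z ^ n = 1) (hz1 : A.valuation (z - 1) < 1) : z = 1 := by
  by_contra hne
  have hn0 : n ≠ 0 := by
    rintro rfl
    simp at hn
  have hzv : A.valuation z = 1 := by
    have : A.valuation z ^ n = 1 := by rw [← map_pow, hz, map_one]
    exact (pow_eq_one_iff_of_nonneg zero_le hn0).mp this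
  have hsum : ∑ i ∈ Finset.range n, z ^ i = 0 := by
    have := mul_neg_geom_sum z n
    rw [hz, sub_self] at this
    rcases mul_eq_zero.mp this with h | h
    · exact absurd (sub_eq_zero.mp h).symm hne
    · exact h
  have hpow : ∀ i : ℕ, A.valuation (z ^ i - 1) < 1 := by
    intro i
    have h1 : z ^ i - 1 = (z - 1) * ∑ j ∈ Finset.range i, z ^ j := by
      rw [mul_comm, geom_sum_mul]
    rw [h1, map_mul]
    have h2 : A.valuation (∑ j ∈ Finset.range i, z ^ j) ≤ 1 := by
      rw [A.valuation_le_one_iff]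
      refine sum_mem fun j _ => pow_mem ?_ j
      exact (A.valuation_le_one_iff z).mp hzv.le
    calc A.valuation (z - 1) * A.valuation (∑ j ∈ Finset.range i, z ^ j)
        ≤ A.valuation (z - 1) * 1 := mul_le_mul_right h2 _
      _ < 1 := by rwa [mul_one]
  have h3 : (n : E) = - ∑ i ∈ Finset.range n, (z ^ i - 1) := by
    rw [Finset.sum_sub_distrib, hsum]
    simp
  rw [h3, Valuation.map_neg] at hn
  have h4 : A.valuation (∑ i ∈ Finset.range n, (z ^ i - 1)) < 1 :=
    Valuation.map_sum_lt' A.valuation zero_lt_one fun i _ => hpow i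
  rw [hn] at h4
  exact lt_irrefl _ h4

end Crest.Agent.R018.Tamex31
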