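import Mathlib
import Crest.Agent.R018.TameA_31

set_option autoImplicit false

/-!
Tame facts, part B (helper31): Lagrange resolvents for characters of subgroups of an infinite
Galois group, and the pairing of such characters with the value group.
-/

namespace Crest.Agent.R018.Tamex31

variable {F E : Type*} [Field F] [Field E] [Algebra F E]

/-- A homomorphism from a group of automorphisms which is trivial on the automorphisms fixing
some finite subextension. -/
def OpenKer {H : Type*} [Group H] {U : Subgroup (E ≃ₐ[F] E)} (π : U →* H) : Prop :=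
  ∃ L : IntermediateField F E, FiniteDimensional F L ∧ ∀ u : U, (∀ x ∈ L, (u : E ≃ₐ[F] E) x = x) →
    π u = 1

theorem openKer_of_continuous [Algebra.IsAlgebraic F E] {H : Type*} [Group H] [TopologicalSpace H]
    [DiscreteTopology H] {U : Subgroup (E ≃ₐ[F] E)} (π : U →* H) (hπ : Continuous π) :
    OpenKer π := by
  have h1 : IsOpen (π ⁻¹' {1}) := (isOpen_discrete _).preimage hπ
  rw [isOpen_induced_iff] at h1
  obtain ⟨t, ht, htU⟩ := h1
  have h1t : (1 : E ≃ₐ[F] E) ∈ t := by
    have : (1 : U) ∈ Subtype.val ⁻¹' t := by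
      rw [htU]; simp
    simpa using this
  obtain ⟨L, hLfin, hLsub⟩ := (krullTopology_mem_nhds_one_iff F E t).mp (ht.mem_nhds h1t)
  refine ⟨L, hLfin, fun u hu => ?_⟩
  have h2 : (u : E ≃ₐ[F] E) ∈ (L.fixingSubgroup : Set (E ≃ₐ[F] E)) := by
    intro x
    exact hu x x.2
  have h3 : u ∈ π ⁻¹' {1} := by
    rw [← htU]
    exact hLsub h2
  simpa using h3

theorem OpenKer.comp {H H' : Type*} [Group H] [Group H'] {U : Subgroup (E ≃ₐ[F] E)} {π : U →* H}
    (h : OpenKer π) (f : H →* H') : OpenKer (f.comp π) := by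
  obtain ⟨L, hL, h'⟩ := h
  exact ⟨L, hL, fun u hu => by simp [h' u hu]⟩

theorem OpenKer.restrict {H : Type*} [Group H] {U V : Subgroup (E ≃ₐ[F] E)} {π : U →* H}
    (h : OpenKer π) (hVU : V ≤ U) : OpenKer (π.comp (Subgroup.inclusion hVU)) := by
  obtain ⟨L, hL, h'⟩ := h
  exact ⟨L, hL, fun v hv => h' _ (by simpa using hv)⟩

/-- Lagrange resolvent: a character with open kernel and values fixed by the group is realised
by a Kummer element. -/
theorem exists_resolvent [IsGalois F E] {V : Subgroup (E ≃ₐ[F] E)} (χ : V →* Eˣ)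
    (hχ : OpenKer χ) (hfix : ∀ x y : V, (x : E ≃ₐ[F] E) (χ y : E) = χ y) :
    ∃ y : E, y ≠ 0 ∧ ∀ x : V, (x : E ≃ₐ[F] E) y = χ x * y := by
  classical
  obtain ⟨L₀, hL₀, hker₀⟩ := hχ
  -- pass to the normal closure
  let L : IntermediateField F E := IntermediateField.normalClosure F L₀ E
  haveI : FiniteDimensional F L := normalClosure.is_finiteDimensional F L₀ E
  haveI : Normal F L := normalClosure.normal F L₀ E
  have hLL : L₀ ≤ L := IntermediateField.le_normalClosure L₀
  have hker : ∀ u : V, (∀ x ∈ L, (u : E ≃ₐ[F] E) x = x) → χ u = 1 :=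
    fun u hu => hker₀ u fun x hx => hu x (hLL hx)
  -- the restriction homs
  let r : V → (L →* E) := fun v =>
    ((v : E ≃ₐ[F] E) : E →* E).comp (algebraMap L E : L →* E)
  have hr : ∀ (v : V) (z : L), r v z = (v : E ≃ₐ[F] E) (z : E) := fun v z => rfl
  -- χ depends only on r
  have hχr : ∀ v w : V, r v = r w → χ v = χ w := by
    intro v w hvw
    have : χ (v⁻¹ * w) = 1 := by
      apply hker
      intro x hx
      have h1 : (v : E ≃ₐ[F] E) x = (w : E ≃ₐ[F] E) x := by
        have := DFunLike.congr_fun hvw (⟨x, hx⟩ : L)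
        simpa [hr] using this
      simp only [Subgroup.coe_mul, Subgroup.coe_inv, AlgEquiv.mul_apply]
      rw [← h1, ← AlgEquiv.mul_apply]; simp
    rw [map_mul, map_inv] at this
    exact (inv_mul_eq_one.mp this)
  -- finite set of restrictions
  have hfin : (Set.range r).Finite := by
    have h2 : (Set.range fun v : V =>
        ((v : E ≃ₐ[F] E) : E →ₐ[F] E).comp L.val).Finite := Set.toFinite _
    have h3 : Set.range r ⊆ (fun f : L →ₐ[F] E => (f : L →* E)) ''
        (Set.range fun v : V => ((v : E ≃ₐ[F] E) : E →ₐ[F] E).comp L.val) := by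
      rintro _ ⟨v, rfl⟩
      exact ⟨_, ⟨v, rfl⟩, rfl⟩
    exact (h2.image _).subset h3
  haveI : Fintype (Set.range r) := hfin.fintype
  choose lift hlift using fun t : Set.range r => t.2
  let c : Set.range r → Eˣ := fun t => χ (lift t)
  have hc : ∀ v : V, c ⟨r v, v, rfl⟩ = χ v := by
    intro v
    exact hχr _ _ (hlift ⟨r v, v, rfl⟩)
  -- linear independence
  have hli : LinearIndependent E (fun t : Set.range r => ((t : L →* E) : L → E)) :=
    (linearIndependent_monoidHom L E).comp _ Subtype.val_injective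
  obtain ⟨z, hz⟩ : ∃ z : L, ∑ t : Set.range r, ((c t)⁻¹ : Eˣ) * (t : L →* E) z ≠ (0 : E) := by
    by_contra hcon
    push Not at hcon
    have h4 : ∑ t : Set.range r, (((c t)⁻¹ : Eˣ) : E) • ((t : L →* E) : L → E) = 0 := by
      ext z
      simpa [Finset.sum_apply] using hcon z
    have h5 := Fintype.linearIndependent_iff.mp hli _ h4 ⟨r 1, 1, rfl⟩
    exact (c ⟨r 1, 1, rfl⟩)⁻¹.ne_zero h5
  refine ⟨_, hz, fun v => ?_⟩
  rw [map_sum, Finset.mul_sum]
  -- permutation of the range
  let σ : Set.range r → Set.range r := fun t => ⟨r (v * lift t), _, rfl⟩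
  have hσ : Function.Bijective σ := by
    refine Finite.injective_iff_bijective.mp fun t t' htt => ?_
    have h6 : r (v * lift t) = r (v * lift t') := congrArg Subtype.val htt
    apply Subtype.ext
    rw [← hlift t, ← hlift t']
    ext w
    have h7 := DFunLike.congr_fun h6 w
    simp only [hr, Subgroup.coe_mul, AlgEquiv.mul_apply] at h7
    exact (v : E ≃ₐ[F] E).injective h7
  have h8 : ∀ t : Set.range r, (v : E ≃ₐ[F] E) ((((c t)⁻¹ : Eˣ) : E) * (t : L →* E) z) =
      (χ v : E) * ((((c (σ t))⁻¹ : Eˣ) : E) * ((σ t : Set.range r) : L →* E) z) := by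
    intro t
    have h9 : c (σ t) = χ v * c t := by
      have := hc (v * lift t)
      rw [map_mul] at this
      exact this
    have h10 : (v : E ≃ₐ[F] E) ((((c t)⁻¹ : Eˣ) : E)) = (((c t)⁻¹ : Eˣ) : E) := by
      rw [Units.val_inv_eq_inv_val, map_inv₀]
      congr 1
      exact hfix v (lift t)
    have h11 : (v : E ≃ₐ[F] E) ((t : L →* E) z) = ((σ t : Set.range r) : L →* E) z := by
      have h12 : (t : L →* E) = r (lift t) := (hlift t).symm
      rw [h12]
      simp only [σ, hr, Subgroup.coe_mul, AlgEquiv.mul_apply]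
    rw [map_mul, h10, h11, h9]
    push_cast
    rw [mul_inv]
    field_simp
  rw [Finset.sum_congr rfl fun t _ => h8 t]
  exact (Fintype.sum_bijective σ hσ _ _ fun t => rfl)

/-- A character of a subgroup of inertia with prime-to-residue-characteristic values, realised by
an element whose value is that of an invariant element, is trivial. -/
theorem char_eq_one {A : ValuationSubring E} {V : Subgroup (E ≃ₐ[F] E)} (hV : V ≤ inS F A)
    {χ : V →* Eˣ} {n : ℕ} (hn : A.valuation (n : E) = 1) (hχn : ∀ x, χ x ^ n = 1) {u : E}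
    (hu : A.valuation u = 1) (hχu : ∀ x : V, (x : E ≃ₐ[F] E) u = χ x * u) : χ = 1 := by
  ext x
  have hu0 : u ≠ 0 := by
    rintro rfl
    simp at hu
  have h1 := in_unit (hV x.2) hu
  rw [hχu x, mul_div_assoc, div_self hu0, mul_one] at h1
  have h2 : ((χ x : Eˣ) : E) ^ n = 1 := by
    have := hχn x
    rw [← Units.val_pow_eq_pow_val, this, Units.val_one]
  simpa using root_eq_one hn h2 h1

end Crest.Agent.R018.Tamex31
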