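import Mathlib

set_option autoImplicit false

/-!
Tame facts, group theory part (helper31).
-/

namespace Crest.Agent.R018.Tamex31

/-- A finite `ℓ`-group all of whose coatoms coincide is cyclic. -/
theorem isCyclic_of_coatom_unique {C : Type*} [Group C] [Finite C]
    (h : ∀ M₁ M₂ : Subgroup C, IsCoatom M₁ → IsCoatom M₂ → M₁ = M₂) : IsCyclic C := by
  rcases subsingleton_or_nontrivial C with hs | hs
  · infer_instance
  obtain ⟨M, hM, -⟩ : ∃ M : Subgroup C, IsCoatom M ∧ (⊥ : Subgroup C) ≤ M := by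
    rcases (eq_top_or_exists_le_coatom (⊥ : Subgroup C)) with h1 | h1
    · exact absurd h1 (bot_ne_top)
    · exact h1
  obtain ⟨g, hg⟩ : ∃ g : C, g ∉ M := by
    by_contra hcon
    push Not at hcon
    exact hM.1 (Subgroup.eq_top_iff' M |>.mpr hcon)
  rw [isCyclic_iff_exists_zpowers_eq_top]
  refine ⟨g, ?_⟩
  rcases (eq_top_or_exists_le_coatom (Subgroup.zpowers g)) with h1 | ⟨M', hM', hle⟩
  · exact h1
  · exfalso
    rw [h M' M hM' hM] at hle
    exact hg (hle (Subgroup.mem_zpowers g))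

/-- A coatom of a finite `ℓ`-group is normal with quotient of order `ℓ`. -/
theorem coatom_normal_index {C : Type*} [Group C] [Finite C] {l : ℕ} [hl : Fact l.Prime]
    (hC : IsPGroup l C) {M : Subgroup C} (hM : IsCoatom M) : M.Normal ∧ M.index = l := by
  have hnil : Group.IsNilpotent C := hC.isNilpotent
  have hnorm : M.Normal :=
    Subgroup.NormalizerCondition.normal_of_coatom M (Group.normalizerCondition_of_isNilpotent) hM
  refine ⟨hnorm, ?_⟩
  obtain ⟨a, ha⟩ := (IsPGroup.iff_card).mp (hC.to_subgroup M)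
  obtain ⟨b, hb⟩ := (IsPGroup.iff_card).mp hC
  have hmul := M.card_mul_index
  have hne : a ≠ b := by
    rintro rfl
    exact hM.1 (Subgroup.eq_top_of_card_eq M (by rw [ha, hb]))
  have hle : a ≤ b := by
    have h1 : l ^ a ∣ l ^ b := by
      rw [← ha, ← hb]; exact Subgroup.card_subgroup_dvd_card M
    exact (Nat.pow_dvd_pow_iff_le_right hl.out.one_lt).mp h1
  have hlt : a < b := lt_of_le_of_ne hle hne
  have hdvd : l ^ (a + 1) ∣ Nat.card C := by
    rw [hb]; exact pow_dvd_pow _ hlt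
  obtain ⟨K, hK, hMK⟩ := Sylow.exists_subgroup_card_pow_succ hdvd ha
  have hKM : K ≠ M := by
    rintro rfl
    rw [hK] at ha
    have := Nat.pow_right_injective hl.out.two_le ha
    omega
  have hKtop : K = ⊤ := by
    by_contra hne'
    exact hne' (hM.2 K (lt_of_le_of_ne hMK (Ne.symm hKM)))
  have hcardC : Nat.card C = l ^ (a + 1) := by
    rw [← hK, hKtop, Subgroup.card_top]
  rw [ha, hcardC, pow_succ] at hmul
  exact Nat.eq_of_mul_eq_mul_left (pow_pos hl.out.pos a) hmul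

/-- A finite `ℓ`-group whose characters of order `ℓ` with values in a cyclic group `Z` of order `ℓ`
are pairwise dependent is cyclic. -/
theorem isCyclic_of_dependent {C : Type*} [Group C] [Finite C] {l : ℕ} [hl : Fact l.Prime]
    (hC : IsPGroup l C) {Z : Type*} [CommGroup Z] (hZ : Nat.card Z = l)
    (h : ∀ χ₁ χ₂ : C →* Z, ∃ m n : ℤ, IsCoprime m n ∧ ∀ c, χ₁ c ^ m * χ₂ c ^ n = 1) :
    IsCyclic C := by
  have hZl : ∀ z : Z, z ^ l = 1 := by
    intro z
    rw [← hZ]; exact pow_card_eq_one'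
  refine isCyclic_of_coatom_unique fun M₁ M₂ h₁ h₂ => ?_
  obtain ⟨n₁, i₁⟩ := coatom_normal_index hC h₁
  obtain ⟨n₂, i₂⟩ := coatom_normal_index hC h₂
  have mk : ∀ M : Subgroup C, M.Normal → M.index = l → ∃ χ : C →* Z, χ.ker = M := by
    intro M hM hi
    have e : C ⧸ M ≃* Z := mulEquivOfPrimeCardEq (p := l) (by rw [← hi]; rfl) hZ
    refine ⟨e.toMonoidHom.comp (QuotientGroup.mk' M), ?_⟩
    ext c
    simp
  obtain ⟨χ₁, hχ₁⟩ := mk M₁ n₁ i₁
  obtain ⟨χ₂, hχ₂⟩ := mk M₂ n₂ i₂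
  obtain ⟨m, n, hmn, hdep⟩ := h χ₁ χ₂
  have kill : ∀ (z : Z) (k : ℤ), ¬ ((l : ℤ) ∣ k) → z ^ k = 1 → z = 1 := by
    intro z k hk hz
    have hcop : IsCoprime (l : ℤ) k :=
      ((Nat.prime_iff_prime_int.mp hl.out).coprime_iff_not_dvd).mpr hk
    obtain ⟨a, b, hab⟩ := hcop
    have : z = z ^ (a * (l : ℤ) + b * k) := by rw [hab, zpow_one]
    rw [this, zpow_add, mul_comm a, mul_comm b, zpow_mul, zpow_mul, hz, one_zpow, mul_one,
      zpow_natCast, hZl, one_zpow]
  by_cases hm : (l : ℤ) ∣ m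
  · have hn : ¬ ((l : ℤ) ∣ n) := by
      intro hn
      have := hmn.isUnit_of_dvd' hm hn
      exact (Nat.prime_iff_prime_int.mp hl.out).not_isUnit this
    have hle : M₁ ≤ M₂ := by
      intro c hc
      rw [← hχ₁, MonoidHom.mem_ker] at hc
      rw [← hχ₂, MonoidHom.mem_ker]
      have := hdep c
      rw [hc, one_zpow, one_mul] at this
      exact kill _ _ hn this
    exact (h₁.le_iff_eq h₂.1).mp hle |>.symm
  · have hle : M₂ ≤ M₁ := by
      intro c hc
      rw [← hχ₂, MonoidHom.mem_ker] at hc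
      rw [← hχ₁, MonoidHom.mem_ker]
      have := hdep c
      rw [hc, one_zpow, mul_one] at this
      exact kill _ _ hm this
    exact (h₂.le_iff_eq h₁.1).mp hle

end Crest.Agent.R018.Tamex31
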