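import Mathlib
import Crest.Agent.R018.TameB_31
import Crest.Agent.R018.TameG_31

set_option autoImplicit false

/-!
Tame facts, part C (helper31): for a group `V` of inertia automorphisms and a prime `ℓ` invertible
in the residue field, every finite `ℓ`-group quotient of `V` is cyclic, and the decomposition group
acts on it through the cyclotomic character.
-/

namespace Crest.Agent.R018.Tamex31

variable {F E : Type*} [Field F] [Field E] [Algebra F E]

/-- The value group of `A` has rational rank at most one. -/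
def RankOne (A : ValuationSubring E) : Prop :=
  ∀ x y : E, x ≠ 0 → y ≠ 0 → ∃ m n : ℤ, (m ≠ 0 ∨ n ≠ 0) ∧ A.valuation (x ^ m * y ^ n) = 1

theorem val_pow_eq_one {A : ValuationSubring E} {x : E} {k : ℕ} (hk : k ≠ 0)
    (h : A.valuation (x ^ k) = 1) : A.valuation x = 1 := by
  rw [map_pow] at h
  exact (pow_eq_one_iff_of_nonneg zero_le hk).mp h

theorem val_zpow_eq_one {A : ValuationSubring E} {x : E} {k : ℤ} (hk : k ≠ 0)
    (h : A.valuation (x ^ k) = 1) : A.valuation x = 1 := by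
  obtain ⟨n, rfl | rfl⟩ := Int.eq_nat_or_neg k
  · refine val_pow_eq_one (k := n) (by simpa using hk) ?_
    simpa using h
  · refine val_pow_eq_one (k := n) (by simpa using hk) ?_
    rw [zpow_neg, zpow_natCast, map_inv₀, inv_eq_one] at h
    exact h

theorem RankOne.coprime {A : ValuationSubring E} (hA : RankOne A) {x y : E} (hx : x ≠ 0)
    (hy : y ≠ 0) : ∃ m n : ℤ, IsCoprime m n ∧ A.valuation (x ^ m * y ^ n) = 1 := by
  obtain ⟨m, n, hmn, h⟩ := hA x y hx hy
  have hg : (Int.gcd m n : ℤ) ≠ 0 := by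
    intro h0
    have : Int.gcd m n = 0 := by exact_mod_cast h0
    rw [Int.gcd_eq_zero_iff] at this
    rcases hmn with h1 | h1
    · exact h1 this.1
    · exact h1 this.2
  obtain ⟨m', hm'⟩ : (Int.gcd m n : ℤ) ∣ m := Int.gcd_dvd_left m n
  obtain ⟨n', hn'⟩ : (Int.gcd m n : ℤ) ∣ n := Int.gcd_dvd_right m n
  refine ⟨m', n', ?_, ?_⟩
  · rw [Int.isCoprime_iff_gcd_eq_one]
    have h1 : Int.gcd m n = Int.gcd m n * Int.gcd m' n' := by
      have h0 : Int.gcd ((Int.gcd m n : ℤ) * m') ((Int.gcd m n : ℤ) * n') =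
          Int.gcd m n * Int.gcd m' n' := by
        rw [Int.gcd_mul_left]; simp
      rwa [← hm', ← hn'] at h0
    have h2 : Int.gcd m n ≠ 0 := by exact_mod_cast hg
    exact (Nat.eq_of_mul_eq_mul_left (Nat.pos_of_ne_zero h2) (by rw [mul_one]; exact h1)).symm
  · refine val_zpow_eq_one hg ?_
    rw [mul_zpow, ← zpow_mul, ← zpow_mul]
    rw [mul_comm m', mul_comm n', ← hm', ← hn']
    exact h

/-- Inertia fixes the roots of unity of order invertible in the residue field. -/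
theorem in_fix_root {A : ValuationSubring E} {g : E ≃ₐ[F] E} (hg : g ∈ inS F A) {n : ℕ}
    (hn : A.valuation (n : E) = 1) {z : E} (hz : z ^ n = 1) : g z = z := by
  have hn0 : n ≠ 0 := by
    rintro rfl
    simp at hn
  have hz0 : z ≠ 0 := by
    rintro rfl
    rw [zero_pow hn0] at hz
    exact zero_ne_one hz
  have hzv : A.valuation z = 1 := val_pow_eq_one hn0 (by rw [hz, map_one])
  have h1 := in_unit hg hzv
  have h2 : (g z / z) ^ n = 1 := by
    rw [div_pow, ← map_pow, hz, map_one, div_one]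
  have h3 := root_eq_one hn h2 h1
  rw [div_eq_one_iff_eq hz0] at h3
  exact h3

/-- Two characters of order `ℓ` of an inertia group are dependent. -/
theorem char_dependent [IsGalois F E] {A : ValuationSubring E} (hA : RankOne A)
    {V : Subgroup (E ≃ₐ[F] E)} (hV : V ≤ inS F A) {n : ℕ} (hn : A.valuation (n : E) = 1)
    {χ₁ χ₂ : V →* Eˣ} (h₁ : OpenKer χ₁) (h₂ : OpenKer χ₂) (hn₁ : ∀ x, χ₁ x ^ n = 1)
    (hn₂ : ∀ x, χ₂ x ^ n = 1) : ∃ m k : ℤ, IsCoprime m k ∧ ∀ x, χ₁ x ^ m * χ₂ x ^ k = 1 := by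
  have fix : ∀ χ : V →* Eˣ, (∀ x, χ x ^ n = 1) → ∀ x y : V, (x : E ≃ₐ[F] E) (χ y : E) = χ y := by
    intro χ hχ x y
    refine in_fix_root (hV x.2) hn ?_
    rw [← Units.val_pow_eq_pow_val, hχ, Units.val_one]
  obtain ⟨y₁, hy₁, hxy₁⟩ := exists_resolvent χ₁ h₁ (fix χ₁ hn₁)
  obtain ⟨y₂, hy₂, hxy₂⟩ := exists_resolvent χ₂ h₂ (fix χ₂ hn₂)
  obtain ⟨m, k, hmk, hu⟩ := hA.coprime hy₁ hy₂
  refine ⟨m, k, hmk, ?_⟩
  let χ : V →* Eˣ :=
    { toFun := fun x => χ₁ x ^ m * χ₂ x ^ k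
      map_one' := by simp
      map_mul' := fun a b => by
        rw [map_mul, map_mul, mul_zpow, mul_zpow]
        exact mul_mul_mul_comm _ _ _ _ }
  have hχ : χ = 1 := by
    refine char_eq_one hV hn ?_ hu ?_
    · intro x
      change (χ₁ x ^ m * χ₂ x ^ k) ^ n = 1
      rw [mul_pow, ← zpow_natCast, ← zpow_natCast, ← zpow_mul, ← zpow_mul, mul_comm m, mul_comm k,
        zpow_mul, zpow_mul, zpow_natCast, zpow_natCast, hn₁, hn₂, one_zpow, one_zpow, mul_one]
    · intro x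
      change _ = ((χ₁ x ^ m * χ₂ x ^ k : Eˣ) : E) * _
      rw [map_mul, map_zpow₀, map_zpow₀, hxy₁, hxy₂, mul_zpow, mul_zpow]
      push_cast
      ring
  intro x
  exact DFunLike.congr_fun hχ x

/-- (LF1a) every finite `ℓ`-group quotient of an inertia group is cyclic. -/
theorem isCyclic_of_inertia [IsGalois F E] {A : ValuationSubring E} (hA : RankOne A)
    {V : Subgroup (E ≃ₐ[F] E)} (hV : V ≤ inS F A) {l : ℕ} [hl : Fact l.Prime]
    (hlA : A.valuation (l : E) = 1) {ζ : E} (hζ : IsPrimitiveRoot ζ l)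
    {C : Type*} [Group C] [Finite C] (hC : IsPGroup l C) (π : V →* C) (hπ : OpenKer π)
    (hsurj : Function.Surjective π) : IsCyclic C := by
  have hl0 : NeZero l := ⟨hl.out.ne_zero⟩
  have hcard : Nat.card (rootsOfUnity l E) = l := hζ.card_rootsOfUnity
  refine isCyclic_of_dependent hC hcard fun χ₁ χ₂ => ?_
  let φ : (rootsOfUnity l E) →* Eˣ := (rootsOfUnity l E).subtype
  have hpow : ∀ (χ : C →* rootsOfUnity l E) (x : V), ((φ.comp χ).comp π) x ^ l = 1 := by
    intro χ x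
    exact (mem_rootsOfUnity l _).mp (χ (π x)).2
  obtain ⟨m, n, hmn, h⟩ := char_dependent hA hV hlA (χ₁ := (φ.comp χ₁).comp π)
    (χ₂ := (φ.comp χ₂).comp π) (hπ.comp _) (hπ.comp _) (hpow χ₁) (hpow χ₂)
  refine ⟨m, n, hmn, fun c => ?_⟩
  obtain ⟨x, rfl⟩ := hsurj c
  apply Subtype.ext
  simpa [φ] using h x

/-- (LF2) the decomposition group acts on cyclic quotients of inertia of order prime to the
residue characteristic through the cyclotomic character. -/
theorem conj_eq_pow [IsGalois F E] {A : ValuationSubring E}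
    {V : Subgroup (E ≃ₐ[F] E)} (hV : V ≤ inS F A) {N : ℕ} (hN : A.valuation (N : E) = 1)
    {ζ : E} (hζ : IsPrimitiveRoot ζ N) {C : Type*} [Group C] [Finite C] [IsCyclic C]
    (hC : Nat.card C ∣ N) (π : V →* C) (hπ : OpenKer π)
    {s : E ≃ₐ[F] E} (hs : s ∈ decS F A) (hsV : ∀ x ∈ V, s * x * s⁻¹ ∈ V) {c : ℕ}
    (hc : s ζ = ζ ^ c)
    (x : V) : π ⟨s * x * s⁻¹, hsV x x.2⟩ = π x ^ c := by
  classical
  have hN0 : N ≠ 0 := by
    rintro rfl
    simp at hN
  obtain ⟨d, hd⟩ := hC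
  set a := Nat.card C with ha
  have ha0 : a ≠ 0 := Nat.card_pos.ne'
  have hd0 : d ≠ 0 := by
    rintro rfl
    exact hN0 (by rw [hd, mul_zero])
  have hω : IsPrimitiveRoot (ζ ^ d) a := hζ.pow (Nat.pos_of_ne_zero hN0) (by rw [hd, mul_comm])
  have haN : A.valuation (a : E) = 1 := by
    have h1 : A.valuation (a : E) * A.valuation (d : E) = 1 := by
      rw [← map_mul, ← Nat.cast_mul, ← hd, hN]
    have h2 : A.valuation (a : E) ≤ 1 := (A.valuation_le_one_iff _).mpr (natCast_mem A a)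
    have h3 : A.valuation (d : E) ≤ 1 := (A.valuation_le_one_iff _).mpr (natCast_mem A d)
    refine le_antisymm h2 ?_
    calc (1 : A.ValueGroup) = A.valuation (a : E) * A.valuation (d : E) := h1.symm
      _ ≤ A.valuation (a : E) * 1 := mul_le_mul_right h3 _
      _ = A.valuation (a : E) := mul_one _
  have hsω : s (ζ ^ d) = (ζ ^ d) ^ c := by
    rw [map_pow, hc, ← pow_mul, ← pow_mul, mul_comm]
  set ω := ζ ^ d with hωdef
  have : NeZero a := ⟨ha0⟩
  -- faithful character of C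
  have hcardZ : Nat.card (rootsOfUnity a E) = a := hω.card_rootsOfUnity
  have : IsCyclic (rootsOfUnity a E) := rootsOfUnity.isCyclic E a
  let e : C ≃* rootsOfUnity a E := mulEquivOfCyclicCardEq (by rw [hcardZ])
  let χ : V →* Eˣ := ((rootsOfUnity a E).subtype.comp e.toMonoidHom).comp π
  have hχa : ∀ y, χ y ^ a = 1 := fun y => (mem_rootsOfUnity a _).mp (e (π y)).2
  have hχroot : ∀ y : V, ((χ y : Eˣ) : E) ^ a = 1 := by
    intro y
    rw [← Units.val_pow_eq_pow_val, hχa, Units.val_one]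
  have hfix : ∀ y z : V, (y : E ≃ₐ[F] E) (χ z : E) = χ z :=
    fun y z => in_fix_root (hV y.2) haN (hχroot z)
  obtain ⟨y, hy0, hy⟩ := exists_resolvent χ (hπ.comp _) hfix
  -- u = s⁻¹ y / y
  have hsi : s⁻¹ ∈ decS F A := (decS F A).inv_mem hs
  have hval : A.valuation (s⁻¹ y / y) = 1 := by
    rw [map_div₀, dec_val_eq hsi, div_self]
    simpa using hy0
  let x' : V := ⟨s * x * s⁻¹, hsV x x.2⟩
  have hsx : s⁻¹ * (x' : E ≃ₐ[F] E) = (x : E ≃ₐ[F] E) * s⁻¹ := by
    simp only [x']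
    group
  have h1 : (x : E ≃ₐ[F] E) (s⁻¹ y) = s⁻¹ (χ x' : E) * s⁻¹ y := by
    rw [← AlgEquiv.mul_apply, ← hsx, AlgEquiv.mul_apply, hy x', map_mul]
  have h2 : (x : E ≃ₐ[F] E) (s⁻¹ y / y) = (s⁻¹ (χ x' : E) / (χ x : E)) * (s⁻¹ y / y) := by
    rw [map_div₀, h1, hy x]
    field_simp
  have h3 := in_unit (hV x.2) hval
  have hu0 : s⁻¹ y / y ≠ 0 := by
    intro h0
    rw [h0] at hval
    simp at hval
  rw [h2, mul_div_assoc, div_self hu0, mul_one] at h3
  have h4 : (s⁻¹ (χ x' : E) / (χ x : E)) ^ a = 1 := by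
    rw [div_pow, ← map_pow, hχroot, hχroot, map_one, div_one]
  have h5 := root_eq_one haN h4 h3
  rw [div_eq_one_iff_eq (χ x).ne_zero] at h5
  -- χ x' = s (χ x)
  have h6 : (χ x' : E) = s (χ x : E) := by
    rw [← h5, ← AlgEquiv.mul_apply]; simp
  -- s acts on a-th roots of unity as c-th power
  have h7 : s (χ x : E) = (χ x : E) ^ c := by
    obtain ⟨i, -, hi⟩ := hω.eq_pow_of_pow_eq_one (hχroot x)
    rw [← hi, map_pow, hsω]
    exact pow_right_comm _ _ _
  have h8 : χ x' = χ x ^ c := by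
    apply Units.ext
    rw [h6, h7, Units.val_pow_eq_pow_val]
  have h9 : e (π x') = e (π x ^ c) := by
    apply Subtype.ext
    rw [map_pow]
    exact h8
  exact e.injective h9

end Crest.Agent.R018.Tamex31
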