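import Mathlib
import Crest.Agent.R018.TameC_31

set_option autoImplicit false

/-!
Tame facts, part D (helper31): the unramified part.  For a closed subgroup `U` of the decomposition
group, every homomorphism with open kernel which is trivial on inertia has cyclic image.
-/

namespace Crest.Agent.R018.Tamex31

open scoped Pointwise

variable {F E : Type*} [Field F] [Field E] [Algebra F E]

/-- The residue field of `A` has characteristic `p` and is algebraic over `𝔽_p`. -/
def TorsRes (p : ℕ) (A : ValuationSubring E) : Prop :=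
  A.valuation (p : E) < 1 ∧ ∀ a ∈ A, ∃ n : ℕ, 0 < n ∧ A.valuation (a ^ (p ^ n) - a) < 1

theorem decS_eq (A : ValuationSubring E) : decS F A = A.decompositionSubgroup F := by
  ext g
  rw [mem_decS, ValuationSubring.decompositionSubgroup, MulAction.mem_stabilizer_iff]
  constructor
  · intro h
    ext x
    rw [ValuationSubring.mem_pointwise_smul_iff_inv_smul_mem]
    have h1 := h (g⁻¹ x)
    rw [← AlgEquiv.mul_apply, mul_inv_cancel, AlgEquiv.one_apply] at h1
    exact h1.symm
  · intro h x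
    have h1 : g • x ∈ g • A ↔ x ∈ A := ValuationSubring.smul_mem_pointwise_smul_iff
    rw [h] at h1
    exact h1

theorem isOpen_eval [Algebra.IsAlgebraic F E] (a : E) (T : Set E) :
    IsOpen {g : E ≃ₐ[F] E | g a ∈ T} := by
  rw [isOpen_iff_mem_nhds]
  intro g₀ hg₀
  have h1 : IsOpen (MulAction.stabilizer (E ≃ₐ[F] E) a : Set (E ≃ₐ[F] E)) :=
    stabilizer_isOpen_of_isIntegral (K := F) (L := E) a
  have h2 : IsOpen ((fun g : E ≃ₐ[F] E => g₀⁻¹ * g) ⁻¹'
      (MulAction.stabilizer (E ≃ₐ[F] E) a : Set (E ≃ₐ[F] E))) :=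
    h1.preimage (continuous_const_mul g₀⁻¹)
  refine Filter.mem_of_superset (h2.mem_nhds ?_) ?_
  · simp
  · intro g hg
    have h3 : (g₀⁻¹ * g) • a = a := hg
    have h4 : g a = g₀ a := by
      have : g₀ ((g₀⁻¹ * g) • a) = g₀ a := by rw [h3]
      rw [← this]
      change g a = g₀ (g₀⁻¹ (g a))
      rw [← AlgEquiv.mul_apply, mul_inv_cancel, AlgEquiv.one_apply]
    change g a ∈ T
    rw [h4]
    exact hg₀

theorem OpenKer.isOpen_ker [Algebra.IsAlgebraic F E] {H : Type*} [Group H]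
    {U : Subgroup (E ≃ₐ[F] E)} {π : U →* H} (hπ : OpenKer π) : IsOpen (π.ker : Set U) := by
  obtain ⟨L, hLfin, hL⟩ := hπ
  have h1 : IsOpen (L.fixingSubgroup : Set (E ≃ₐ[F] E)) :=
    L.fixingSubgroup_isOpen
  refine Subgroup.isOpen_mono (H₁ := (L.fixingSubgroup).subgroupOf U) ?_ ?_
  · intro u hu
    rw [MonoidHom.mem_ker]
    refine hL u fun x hx => ?_
    have h2 : (u : E ≃ₐ[F] E) ∈ L.fixingSubgroup := hu
    exact h2 ⟨x, hx⟩
  · exact h1.preimage continuous_subtype_val

/-- (LF1b) -/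
theorem isCyclic_of_unramified [IsGalois F E] {p : ℕ} [hp : Fact p.Prime]
    {A : ValuationSubring E} (hA : TorsRes p A) {U : Subgroup (E ≃ₐ[F] E)}
    (hUc : IsClosed (U : Set (E ≃ₐ[F] E))) (hU : U ≤ decS F A) {C : Type*} [Group C]
    (π : U →* C) (hπ : OpenKer π) (hI : ∀ u : U, (u : E ≃ₐ[F] E) ∈ inS F A → π u = 1) :
    ∃ u₀ : U, ∀ u : U, ∃ k : ℤ, π u = π u₀ ^ k := by
  classical
  -- compactness
  have hUcomp : CompactSpace U := isCompact_iff_compactSpace.mp hUc.isCompact
  have hopen : ∀ a : A, IsOpen {u : U | ¬ A.valuation ((u : E ≃ₐ[F] E) a - a) < 1} := by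
    intro a
    exact (isOpen_eval (F := F) (a : E) {y | ¬ A.valuation (y - a) < 1}).preimage
      continuous_subtype_val
  have hK : IsCompact ((π.ker : Set U)ᶜ) := hπ.isOpen_ker.isClosed_compl.isCompact
  obtain ⟨t, ht⟩ := hK.elim_finite_subcover _ hopen (by
    intro u hu
    have h1 : (u : E ≃ₐ[F] E) ∉ inS F A := by
      intro h
      exact hu (hI u h)
    rw [mem_inS, not_and] at h1
    have h2 := h1 (hU u.2)
    push Not at h2
    obtain ⟨x, hx, h3⟩ := h2
    rw [Set.mem_iUnion]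
    exact ⟨⟨x, hx⟩, not_lt.mpr h3⟩)
  -- the residue field
  let k := IsLocalRing.ResidueField A
  have : CharP k p := by
    rw [CharP.charP_iff_prime_eq_zero hp.out]
    have h1 : ((p : A) : E) = (p : E) := by norm_cast
    have h2 : IsLocalRing.residue A (p : A) = 0 := by
      rw [IsLocalRing.residue_eq_zero_iff, ValuationSubring.valuation_lt_one_iff, h1]
      exact hA.1
    rw [map_natCast] at h2
    exact h2
  let _ : Algebra (ZMod p) k := ZMod.algebra k p
  let S : Set k := (fun a : A => IsLocalRing.residue A a) '' (t : Set A)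
  have hSfin : S.Finite := t.finite_toSet.image _
  have hSint : ∀ x ∈ S, IsIntegral (ZMod p) x := by
    rintro _ ⟨a, -, rfl⟩
    obtain ⟨n, hn, h⟩ := hA.2 a a.2
    refine ⟨Polynomial.X ^ (p ^ n) - Polynomial.X, ?_, ?_⟩
    · refine Polynomial.monic_X_pow_sub ?_
      rw [Polynomial.degree_X]
      exact_mod_cast (Nat.one_lt_pow hn.ne' hp.out.one_lt)
    · rw [Polynomial.eval₂_sub, Polynomial.eval₂_X_pow, Polynomial.eval₂_X]
      have h3 : ((a ^ (p ^ n) - a : A) : E) = (a : E) ^ (p ^ n) - a := by push_cast; rfl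
      rw [← h3, ← ValuationSubring.valuation_lt_one_iff, ← IsLocalRing.residue_eq_zero_iff,
        map_sub, map_pow] at h
      exact h
  let k₀ : IntermediateField (ZMod p) k := IntermediateField.adjoin (ZMod p) S
  have : Finite S := hSfin
  have : FiniteDimensional (ZMod p) k₀ := IntermediateField.finiteDimensional_adjoin hSint
  have : Finite k₀ := Module.finite_of_finite (ZMod p)
  have : SMulCommClass (A.decompositionSubgroup F) (ZMod p) k := by
    constructor
    intro g a x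
    obtain ⟨m, rfl⟩ := ZMod.intCast_surjective a
    rw [Algebra.smul_def, Algebra.smul_def, smul_mul']
    congr 1
    rw [map_intCast]
    exact map_intCast (MulSemiringAction.toRingHom (A.decompositionSubgroup F) k g) m
  let ρ : U →* (k₀ ≃ₐ[ZMod p] k₀) :=
    ((AlgEquiv.restrictNormalHom k₀).comp
      (MulSemiringAction.toAlgAut (A.decompositionSubgroup F) (ZMod p) k)).comp
      (Subgroup.inclusion (by rw [← decS_eq]; exact hU))
  have hρ : ∀ u : U, ρ u = 1 → π u = 1 := by
    intro u hu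
    by_contra hne
    have h1 : u ∈ (π.ker : Set U)ᶜ := hne
    have h2 := ht h1
    rw [Set.mem_iUnion₂] at h2
    obtain ⟨a, hat, h3⟩ := h2
    apply h3
    have h4 : (IsLocalRing.residue A a : k) ∈ k₀ :=
      IntermediateField.subset_adjoin _ _ ⟨a, hat, rfl⟩
    have h5 := congrArg (fun f : k₀ ≃ₐ[ZMod p] k₀ => ((f ⟨_, h4⟩ : k₀) : k)) hu
    have hmem : (u : E ≃ₐ[F] E) ∈ A.decompositionSubgroup F := by
      rw [← decS_eq]; exact hU u.2
    have h6 : (⟨(u : E ≃ₐ[F] E), hmem⟩ : A.decompositionSubgroup F) •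
        (IsLocalRing.residue A a : k) = IsLocalRing.residue A a := by
      have h7 := AlgEquiv.restrictNormalHom_apply k₀
        (MulSemiringAction.toAlgAut (A.decompositionSubgroup F) (ZMod p) k
          ⟨(u : E ≃ₐ[F] E), hmem⟩) ⟨_, h4⟩
      exact h7.symm.trans h5
    rw [← IsLocalRing.ResidueField.residue_smul, ← sub_eq_zero, ← map_sub,
      IsLocalRing.residue_eq_zero_iff, ValuationSubring.valuation_lt_one_iff] at h6
    exact h6
  -- cyclic image
  have hcyc : IsCyclic ρ.range := inferInstance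
  obtain ⟨⟨g, u₀, hu₀⟩, hg⟩ := hcyc.exists_generator
  refine ⟨u₀, fun u => ?_⟩
  obtain ⟨k', hk'⟩ := Subgroup.mem_zpowers_iff.mp (hg ⟨ρ u, u, rfl⟩)
  refine ⟨k', ?_⟩
  have h8 : ρ (u₀ ^ k' * u⁻¹) = 1 := by
    have h9 : g ^ k' = ρ u := congrArg Subtype.val hk'
    rw [map_mul, map_zpow, map_inv, hu₀, h9, mul_inv_cancel]
  have h10 := hρ _ h8
  rw [map_mul, map_zpow, map_inv, mul_inv_eq_one] at h10
  exact h10.symm

/-! ### Counting characters -/

/-- the group of homomorphisms with open kernel into a commutative group -/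
def charS (U : Subgroup (E ≃ₐ[F] E)) (Z : Type*) [CommGroup Z] : Subgroup (U →* Z) where
  carrier := {χ | OpenKer χ}
  mul_mem' := by
    rintro a b ⟨L, hL, h⟩ ⟨L', hL', h'⟩
    refine ⟨L ⊔ L', IntermediateField.finiteDimensional_sup L L', fun u hu => ?_⟩
    have h1 := h u fun x hx => hu x (le_sup_left (a := L) (b := L') hx)
    have h2 := h' u fun x hx => hu x (le_sup_right (a := L) (b := L') hx)
    rw [MonoidHom.mul_apply, h1, h2, one_mul]
  one_mem' := ⟨⊥, inferInstance, fun _ _ => rfl⟩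
  inv_mem' := by
    rintro a ⟨L, hL, h⟩
    refine ⟨L, hL, fun u hu => ?_⟩
    rw [MonoidHom.inv_apply, h u hu, inv_one]

theorem mem_charS {U : Subgroup (E ≃ₐ[F] E)} {Z : Type*} [CommGroup Z] {χ : U →* Z} :
    χ ∈ charS U Z ↔ OpenKer χ := Iff.rfl

/-- A group of exponent `l` in which all elements are powers of any nontrivial element. -/
theorem card_le_of_powers {H : Type*} [Group H] {l : ℕ} (hl : 0 < l) (hexp : ∀ x : H, x ^ l = 1)
    (h : ∀ x y : H, x ≠ 1 → ∃ k : ℤ, y = x ^ k) : Nat.card H ≤ l ∧ Finite H := by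
  by_cases htriv : ∀ x : H, x = 1
  · have : Subsingleton H := ⟨fun a b => by rw [htriv a, htriv b]⟩
    refine ⟨?_, inferInstance⟩
    rw [Nat.card_of_subsingleton (1 : H)]
    exact hl
  · push Not at htriv
    obtain ⟨x, hx⟩ := htriv
    have htop : Subgroup.zpowers x = ⊤ := by
      rw [Subgroup.eq_top_iff']
      intro y
      obtain ⟨k, hk⟩ := h x y hx
      exact Subgroup.mem_zpowers_iff.mpr ⟨k, hk.symm⟩
    have hfo : IsOfFinOrder x := isOfFinOrder_iff_pow_eq_one.mpr ⟨l, hl, hexp x⟩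
    have hfin : Finite H := by
      have h1 : Finite (Subgroup.zpowers x) := finite_zpowers.mpr hfo
      rw [htop] at h1
      exact (Equiv.finite_iff (Subgroup.topEquiv (G := H)).toEquiv).mp h1
    refine ⟨?_, hfin⟩
    rw [← Subgroup.card_top (G := H), ← htop, Nat.card_zpowers]
    exact Nat.le_of_dvd hl (orderOf_dvd_of_pow_eq_one (hexp x))

/-- In a group `Z` of prime order `l`, every element is a power of any nontrivial one. -/
theorem exists_zpow_of_card {Z : Type*} [CommGroup Z] {l : ℕ} [hl : Fact l.Prime]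
    (hZ : Nat.card Z = l) {x : Z} (hx : x ≠ 1) (y : Z) : ∃ k : ℤ, y = x ^ k := by
  have h := zpowers_eq_top_of_prime_card hZ hx
  have : y ∈ Subgroup.zpowers x := by rw [h]; trivial
  obtain ⟨k, hk⟩ := Subgroup.mem_zpowers_iff.mp this
  exact ⟨k, hk.symm⟩

/-- unramified characters: all are powers of any nontrivial one. -/
theorem unram_powers [IsGalois F E] {p : ℕ} [hp : Fact p.Prime]
    {A : ValuationSubring E} (hA : TorsRes p A) {U : Subgroup (E ≃ₐ[F] E)}
    (hUc : IsClosed (U : Set (E ≃ₐ[F] E))) (hU : U ≤ decS F A) {Z : Type*} [CommGroup Z] {l : ℕ}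
    [hl : Fact l.Prime] (hZ : Nat.card Z = l) {χ₁ χ₂ : U →* Z} (h₁ : OpenKer χ₁)
    (h₂ : OpenKer χ₂) (hI₁ : ∀ u : U, (u : E ≃ₐ[F] E) ∈ inS F A → χ₁ u = 1)
    (hI₂ : ∀ u : U, (u : E ≃ₐ[F] E) ∈ inS F A → χ₂ u = 1) (hne : χ₁ ≠ 1) :
    ∃ k : ℤ, χ₂ = χ₁ ^ k := by
  have hpair : OpenKer (χ₁.prod χ₂) := by
    obtain ⟨L, hL, h⟩ := h₁
    obtain ⟨L', hL', h'⟩ := h₂
    refine ⟨L ⊔ L', IntermediateField.finiteDimensional_sup L L', fun u hu => ?_⟩
    have h3 := h u fun x hx => hu x (le_sup_left (a := L) (b := L') hx)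
    have h4 := h' u fun x hx => hu x (le_sup_right (a := L) (b := L') hx)
    rw [MonoidHom.prod_apply, h3, h4]
    rfl
  obtain ⟨u₀, hu₀⟩ := isCyclic_of_unramified hA hUc hU (χ₁.prod χ₂) hpair (by
    intro u hu
    rw [MonoidHom.prod_apply, hI₁ u hu, hI₂ u hu]
    rfl)
  have hu₁ : ∀ u : U, ∃ k : ℤ, χ₁ u = χ₁ u₀ ^ k ∧ χ₂ u = χ₂ u₀ ^ k := by
    intro u
    obtain ⟨k, hk⟩ := hu₀ u
    refine ⟨k, ?_, ?_⟩
    · have := congrArg Prod.fst hk
      simpa using this
    · have := congrArg Prod.snd hk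
      simpa using this
  have hx : χ₁ u₀ ≠ 1 := by
    intro h
    apply hne
    ext u
    obtain ⟨k, hk, -⟩ := hu₁ u
    rw [hk, h, one_zpow]
    rfl
  obtain ⟨k, hk⟩ := exists_zpow_of_card hZ hx (χ₂ u₀)
  refine ⟨k, ?_⟩
  ext u
  obtain ⟨j, h3, h4⟩ := hu₁ u
  change χ₂ u = χ₁ u ^ k
  rw [h4, hk, h3, ← zpow_mul, ← zpow_mul, mul_comm]

/-- characters of inertia groups: all are powers of any nontrivial one. -/
theorem inertia_powers [IsGalois F E] {A : ValuationSubring E} (hA : RankOne A)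
    {V : Subgroup (E ≃ₐ[F] E)} (hV : V ≤ inS F A) {Z : Type*} [CommGroup Z] {l : ℕ}
    [hl : Fact l.Prime] (hZ : Nat.card Z = l) (hlA : A.valuation (l : E) = 1) {ζ : E}
    (hζ : IsPrimitiveRoot ζ l) {χ₁ χ₂ : V →* Z} (h₁ : OpenKer χ₁) (h₂ : OpenKer χ₂)
    (hne : χ₁ ≠ 1) : ∃ k : ℤ, χ₂ = χ₁ ^ k := by
  have hl0 : NeZero l := ⟨hl.out.ne_zero⟩
  have hcard : Nat.card (rootsOfUnity l E) = l := hζ.card_rootsOfUnity
  let e : Z ≃* rootsOfUnity l E := mulEquivOfPrimeCardEq hZ hcard
  let φ : Z →* Eˣ := (rootsOfUnity l E).subtype.comp e.toMonoidHom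
  have hφ : Function.Injective φ := Subtype.val_injective.comp e.injective
  have hZl : ∀ z : Z, z ^ l = 1 := by
    intro z
    rw [← hZ]; exact pow_card_eq_one'
  obtain ⟨m, n, hmn, h⟩ := char_dependent hA hV hlA (χ₁ := φ.comp χ₁) (χ₂ := φ.comp χ₂)
    (h₁.comp _) (h₂.comp _)
    (fun x => by rw [MonoidHom.comp_apply, ← map_pow, hZl, map_one])
    (fun x => by rw [MonoidHom.comp_apply, ← map_pow, hZl, map_one])
  have hdep : ∀ x, χ₁ x ^ m * χ₂ x ^ n = 1 := by
    intro x
    apply hφ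
    have := h x
    simpa using this
  have kill : ∀ (k : ℤ), ¬ ((l : ℤ) ∣ k) → ∃ j : ℤ, ∀ z : Z, (z ^ k) ^ j = z := by
    intro k hk
    have hcop : IsCoprime (l : ℤ) k :=
      ((Nat.prime_iff_prime_int.mp hl.out).coprime_iff_not_dvd).mpr hk
    obtain ⟨a, b, hab⟩ := hcop
    refine ⟨b, fun z => ?_⟩
    have : z = z ^ (a * (l : ℤ) + b * k) := by rw [hab, zpow_one]
    conv_rhs => rw [this, zpow_add, mul_comm a, zpow_mul, zpow_natCast, hZl, one_zpow, one_mul]
    rw [← zpow_mul, mul_comm]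
  by_cases hn : (l : ℤ) ∣ n
  · exfalso
    have hm : ¬ ((l : ℤ) ∣ m) := by
      intro hm
      have := hmn.isUnit_of_dvd' hm hn
      exact (Nat.prime_iff_prime_int.mp hl.out).not_isUnit this
    obtain ⟨j, hj⟩ := kill m hm
    apply hne
    ext x
    obtain ⟨n', rfl⟩ := hn
    have h3 := hdep x
    rw [zpow_mul, zpow_natCast, hZl, one_zpow, mul_one] at h3
    rw [← hj (χ₁ x), h3, one_zpow]
    rfl
  · obtain ⟨j, hj⟩ := kill n hn
    refine ⟨-m * j, ?_⟩
    ext x
    have h3 : χ₂ x ^ n = χ₁ x ^ (-m) := by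
      have := hdep x
      rw [mul_comm, mul_eq_one_iff_eq_inv] at this
      rw [this, zpow_neg]
    change χ₂ x = χ₁ x ^ (-m * j)
    rw [← hj (χ₂ x), h3, ← zpow_mul]

/-- (LF1') a closed subgroup of a decomposition group has at most `l ^ 2` continuous characters
with values in a group of prime order `l` different from the residue characteristic. -/
theorem card_charS_le [IsGalois F E] {p : ℕ} [hp : Fact p.Prime]
    {A : ValuationSubring E} (hA : TorsRes p A) (hA1 : RankOne A) {U : Subgroup (E ≃ₐ[F] E)}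
    (hUc : IsClosed (U : Set (E ≃ₐ[F] E))) (hU : U ≤ decS F A) {Z : Type*} [CommGroup Z] {l : ℕ}
    [hl : Fact l.Prime] (hZ : Nat.card Z = l) (hlA : A.valuation (l : E) = 1) {ζ : E}
    (hζ : IsPrimitiveRoot ζ l) :
    Nat.card (charS U Z) ≤ l ^ 2 ∧ Finite (charS U Z) := by
  have hZl : ∀ z : Z, z ^ l = 1 := by
    intro z
    rw [← hZ]; exact pow_card_eq_one'
  let V : Subgroup (E ≃ₐ[F] E) := U ⊓ inS F A
  have hVU : V ≤ U := inf_le_left
  have hVI : V ≤ inS F A := inf_le_right
  let r : charS U Z →* (V →* Z) :=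
    { toFun := fun χ => (χ : U →* Z).comp (Subgroup.inclusion hVU)
      map_one' := rfl
      map_mul' := fun a b => rfl }
  have hker : Nat.card r.ker ≤ l ∧ Finite r.ker := by
    refine card_le_of_powers hl.out.pos (fun x => ?_) (fun x y hx => ?_)
    · apply Subtype.ext
      apply Subtype.ext
      ext u
      exact hZl _
    · have hI : ∀ x : r.ker, ∀ u : U, (u : E ≃ₐ[F] E) ∈ inS F A →
          ((x : charS U Z) : U →* Z) u = 1 := by
        intro x u hu
        have h1 : r (x : charS U Z) = 1 := x.2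
        exact DFunLike.congr_fun h1 ⟨(u : E ≃ₐ[F] E), u.2, hu⟩
      obtain ⟨k, hk⟩ := unram_powers hA hUc hU hZ (χ₁ := ((x : charS U Z) : U →* Z))
        (χ₂ := ((y : charS U Z) : U →* Z)) (x : charS U Z).2 (y : charS U Z).2 (hI x) (hI y)
        (by
          intro h
          apply hx
          apply Subtype.ext
          apply Subtype.ext
          exact h)
      refine ⟨k, ?_⟩
      apply Subtype.ext
      apply Subtype.ext
      rw [hk]
      rfl
  have hrange : Nat.card r.range ≤ l ∧ Finite r.range := by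
    refine card_le_of_powers hl.out.pos (fun x => ?_) (fun x y hx => ?_)
    · apply Subtype.ext
      ext u
      exact hZl _
    · obtain ⟨x, χ₁, hχ₁⟩ := x
      obtain ⟨y, χ₂, hχ₂⟩ := y
      have ho₁ : OpenKer x := by
        rw [← hχ₁]; exact OpenKer.restrict χ₁.2 hVU
      have ho₂ : OpenKer y := by
        rw [← hχ₂]; exact OpenKer.restrict χ₂.2 hVU
      obtain ⟨k, hk⟩ := inertia_powers hA1 hVI hZ hlA hζ ho₁ ho₂ (by
        intro h
        apply hx
        apply Subtype.ext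
        exact h)
      exact ⟨k, Subtype.ext hk⟩
  have hfk := hker.2
  have hfr := hrange.2
  have hfin : Finite (charS U Z) := by
    have h1 : Finite (charS U Z ⧸ r.ker) :=
      (Equiv.finite_iff (QuotientGroup.quotientKerEquivRange r).toEquiv).mpr hfr
    exact Finite.of_subgroup_quotient r.ker
  refine ⟨?_, hfin⟩
  have h2 : Nat.card (charS U Z) = Nat.card (charS U Z ⧸ r.ker) * Nat.card r.ker :=
    Subgroup.card_eq_card_quotient_mul_card_subgroup _
  rw [h2, Nat.card_congr (QuotientGroup.quotientKerEquivRange r).toEquiv, sq]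
  exact Nat.mul_le_mul hrange.1 hker.1

end Crest.Agent.R018.Tamex31
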