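import Mathlib
import Crest.Agent.R018.TameD_31
import Crest.Agent.R018.Places2_484

set_option autoImplicit false

/-!
Tame facts, part P (helper31): the bridge with `Place` of helper484, and the lifting of inertia
through a tower `F ⊆ L ⊆ E`.
-/

namespace Crest.Agent.R018.Tamex31

open Crest.Agent.R018.Placesx484 Crest.Agent.R018.Placesx484.Place NumberField
open scoped Pointwise

section Bridge

variable {F E : Type*} [Field F] [Field E] [Algebra F E] [CharZero E] [Algebra.IsAlgebraic ℚ E]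

theorem rankOne (P : Place E) : RankOne P.val := fun x y hx hy => P.exists_zpow_eq x y hx hy

theorem val_inj {P Q : Place E} (h : P.val = Q.val) : P = Q := ext_of_val_le h.le

theorem mem_decS_val (P : Place E) (g : E ≃ₐ[F] E) : g ∈ decS F P.val ↔ g • P = P := by
  constructor
  · intro h
    apply val_inj
    ext x
    rw [mem_smul_val]
    have h1 := h (g⁻¹ x)
    rw [← AlgEquiv.mul_apply, mul_inv_cancel, AlgEquiv.one_apply] at h1
    exact h1.symm
  · intro h x
    have h1 := smul_mem_smul_val g P x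
    rw [h] at h1
    exact h1

theorem mem_inS_val (P : Place E) (g : E ≃ₐ[F] E) :
    g ∈ inS F P.val ↔ g ∈ P.ideal.inertia (E ≃ₐ[F] E) := by
  constructor
  · intro h x
    have h1 := h.2 (algebraMap (𝓞 E) E x) (P.coe_mem_val x)
    have h2 : g (algebraMap (𝓞 E) E x) - algebraMap (𝓞 E) E x =
        algebraMap (𝓞 E) E (g • x - x) := by
      rw [map_sub, smul_coe]; rfl
    rw [h2] at h1
    exact (P.v_int_lt_one_iff _).1 h1
  · intro h
    refine ⟨(mem_decS_val P g).2 (smul_eq_of_mem_inertia P h), fun x hx => ?_⟩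
    exact v_smul_sub_lt_one P h x ((P.v_le_one_iff x).2 hx)

theorem torsRes (P : Place E) : TorsRes P.rchar P.val := by
  constructor
  · have h1 := (P.v_int_lt_one_iff (P.rchar : 𝓞 E)).2 P.rchar_mem
    rw [map_natCast] at h1
    exact h1
  · intro a ha
    let K := IntermediateField.adjoin ℚ {a}
    have hfin : FiniteDimensional ℚ K := IntermediateField.adjoin.finiteDimensional
      (Algebra.IsAlgebraic.isAlgebraic (R := ℚ) a).isIntegral
    have hK : NumberField K := { to_finiteDimensional := hfin }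
    let a' : K := ⟨a, IntermediateField.mem_adjoin_simple_self ℚ a⟩
    let Q := P.res K
    have ha' : a' ∈ Q.val := (mem_val_res K P a').2 ha
    obtain ⟨x, s, hs, hxs⟩ := ha'
    have hmax : Q.ideal.IsMaximal := Q.isMaximal
    letI : Field (𝓞 K ⧸ Q.ideal) := Ideal.Quotient.field Q.ideal
    have hfinq : Finite (𝓞 K ⧸ Q.ideal) := Ideal.finiteQuotientOfFreeOfNeBot _ Q.ne_bot
    letI : Fintype (𝓞 K ⧸ Q.ideal) := Fintype.ofFinite _
    have hpr : Fact P.rchar.Prime := ⟨P.rchar_prime⟩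
    have hch : CharP (𝓞 K ⧸ Q.ideal) P.rchar := by
      rw [CharP.charP_iff_prime_eq_zero P.rchar_prime]
      have h1 : (P.rchar : 𝓞 K) ∈ Q.ideal := by
        rw [mem_res, map_natCast]; exact P.rchar_mem
      have h2 := Ideal.Quotient.eq_zero_iff_mem.2 h1
      rw [map_natCast] at h2
      exact h2
    obtain ⟨n, -, hn⟩ := FiniteField.card (𝓞 K ⧸ Q.ideal) P.rchar
    have key : ∀ y : 𝓞 K, y ^ (P.rchar ^ (n : ℕ)) - y ∈ Q.ideal := by
      intro y
      rw [← Ideal.Quotient.eq_zero_iff_mem, map_sub, map_pow, ← hn, FiniteField.pow_card, sub_self]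
    refine ⟨n, n.pos, ?_⟩
    set q := P.rchar ^ (n : ℕ) with hq
    have hs0 : Q.v (algebraMap (𝓞 K) K s) = 1 := by
      refine le_antisymm (Q.v_int_le_one s) ?_
      rw [← not_lt, v_int_lt_one_iff]
      exact hs
    have h1 : Q.v ((a' ^ q - a') * algebraMap (𝓞 K) K s ^ (q + 1)) < 1 := by
      have h2 : (a' ^ q - a') * algebraMap (𝓞 K) K s ^ (q + 1) =
          algebraMap (𝓞 K) K ((x ^ q - x) * s - x * (s ^ q - s)) := by
        have h3 : algebraMap (𝓞 K) K ((x ^ q - x) * s - x * (s ^ q - s)) =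
            (algebraMap (𝓞 K) K x) ^ q * algebraMap (𝓞 K) K s -
            algebraMap (𝓞 K) K x * algebraMap (𝓞 K) K s ^ q := by
          simp only [map_sub, map_mul, map_pow]
          ring
        rw [h3, ← hxs, mul_pow]
        ring
      rw [h2, v_int_lt_one_iff]
      exact Ideal.sub_mem _ (Ideal.mul_mem_right _ _ (key x)) (Ideal.mul_mem_left _ _ (key s))
    rw [map_mul, map_pow, hs0, one_pow, mul_one] at h1
    have h4 := (v_res_lt_one_iff K P (a' ^ q - a')).1 h1
    rw [map_sub, map_pow] at h4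
    exact h4

theorem val_natCast_eq_one (P : Place E) {n : ℕ} (h : ¬ P.rchar ∣ n) :
    P.val.valuation (n : E) = 1 := (P.v_natCast_eq_one_iff n).2 h

theorem val_prime_eq_one (P : Place E) {l : ℕ} (hl : l.Prime) (h : P.rchar ≠ l) :
    P.val.valuation (l : E) = 1 :=
  val_natCast_eq_one P fun h' => h ((Nat.prime_dvd_prime_iff_eq P.rchar_prime hl).1 h')

end Bridge

section Lift

variable {F L E : Type*} [Field F] [Field L] [Field E] [Algebra F L] [Algebra L E] [Algebra F E]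
  [IsScalarTower F L E]

theorem exists_alg_lift [Normal F L] [Normal F E] (σ : L ≃ₐ[F] L) :
    ∃ g : E ≃ₐ[F] E, ∀ x : L, g (algebraMap L E x) = algebraMap L E (σ x) := by
  obtain ⟨g, hg⟩ := AlgEquiv.restrictNormalHom_surjective (F := F) (K₁ := L) E σ
  refine ⟨g, fun x => ?_⟩
  rw [← hg]
  exact (AlgEquiv.restrictNormal_commutes g L x).symm

theorem res_smul_of_lift {g : E ≃ₐ[F] E} {σ : L ≃ₐ[F] L}
    (h : ∀ x : L, g (algebraMap L E x) = algebraMap L E (σ x)) (P : Place E) :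
    (g • P).res L = σ • P.res L := by
  ext x
  rw [mem_res, mem_smul_ideal, mem_smul_ideal, mem_res]
  have h1 : g⁻¹ • algebraMap (𝓞 L) (𝓞 E) x = algebraMap (𝓞 L) (𝓞 E) (σ⁻¹ • x) := by
    rw [inv_smul_eq_iff]
    apply NumberField.RingOfIntegers.coe_injective
    have h2 : algebraMap (𝓞 E) E (g • algebraMap (𝓞 L) (𝓞 E) (σ⁻¹ • x)) =
        g (algebraMap L E (algebraMap (𝓞 L) L (σ⁻¹ • x))) := algebraMap.smul' _ _ E
    rw [h2, h]
    have h3 : algebraMap (𝓞 L) L (σ⁻¹ • x) = σ⁻¹ (algebraMap (𝓞 L) L x) := algebraMap.smul' _ _ L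
    rw [h3, ← AlgEquiv.mul_apply, mul_inv_cancel]
    rfl
  rw [h1]

/-- lifting of decomposition groups -/
theorem exists_dec_lift [Normal F L] [IsGalois F E] (P : Place E) (σ : L ≃ₐ[F] L)
    (hσ : σ • P.res L = P.res L) :
    ∃ g : E ≃ₐ[F] E, g • P = P ∧ ∀ x : L, g (algebraMap L E x) = algebraMap L E (σ x) := by
  have hLE : IsGalois L E := IsGalois.tower_top_of_isGalois F L E
  obtain ⟨g, hg⟩ := exists_alg_lift (E := E) σ
  have hres : P.res L = (g⁻¹ • P).res L := by
    have hg' : ∀ x : L, g⁻¹ (algebraMap L E x) = algebraMap L E (σ⁻¹ x) := by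
      intro x
      apply g.injective
      rw [hg, ← AlgEquiv.mul_apply, ← AlgEquiv.mul_apply, mul_inv_cancel, mul_inv_cancel]
      rfl
    rw [res_smul_of_lift hg' P]
    conv_rhs => rw [← hσ]
    rw [inv_smul_smul]
  obtain ⟨h, hh⟩ := exists_smul_eq_of_res_eq (M := L) P (g⁻¹ • P) hres
  refine ⟨g * (h.restrictScalars F), ?_, ?_⟩
  · rw [mul_smul]
    have h2 : (h.restrictScalars F) • P = h • P := rfl
    rw [h2, hh, smul_inv_smul]
  · intro x
    rw [AlgEquiv.mul_apply]
    have h3 : (h.restrictScalars F) (algebraMap L E x) = algebraMap L E x := h.commutes x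
    rw [h3, hg]

/-- surjectivity of the decomposition group onto the automorphisms of the residue field -/
theorem exists_dec_residue [IsGalois L E] (P : Place E) (f : 𝓞 E ⧸ P.ideal ≃+* 𝓞 E ⧸ P.ideal)
    (hf : ∀ x : 𝓞 L, f (Ideal.Quotient.mk _ (algebraMap (𝓞 L) (𝓞 E) x)) =
      Ideal.Quotient.mk _ (algebraMap (𝓞 L) (𝓞 E) x)) :
    ∃ h : E ≃ₐ[L] E, h • P = P ∧ ∀ x : 𝓞 E, f (Ideal.Quotient.mk _ x) =
      Ideal.Quotient.mk _ (h • x) := by
  letI : TopologicalSpace (𝓞 E) := ⊥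
  haveI : DiscreteTopology (𝓞 E) := ⟨rfl⟩
  haveI := continuousSMul_int (M := L) (E := E)
  haveI := isInvariant_int (M := L) (E := E)
  haveI : P.ideal.LiesOver (P.res L).ideal := ⟨rfl⟩
  let f' : (𝓞 E ⧸ P.ideal) ≃ₐ[𝓞 L ⧸ (P.res L).ideal] (𝓞 E ⧸ P.ideal) :=
    AlgEquiv.ofRingEquiv (f := f) (by
      intro x
      obtain ⟨x, rfl⟩ := Ideal.Quotient.mk_surjective x
      exact hf x)
  obtain ⟨h, hh⟩ := Ideal.Quotient.stabilizerHom_surjective_of_profinite
    (G := E ≃ₐ[L] E) (P.res L).ideal P.ideal f'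
  refine ⟨h, Place.ext h.2, fun x => ?_⟩
  have h1 := DFunLike.congr_fun hh (Ideal.Quotient.mk P.ideal x)
  exact h1.symm

/-- lifting of inertia groups -/
theorem exists_inertia_lift [Normal F L] [IsGalois F E] (P : Place E) (σ : L ≃ₐ[F] L)
    (hσ : σ ∈ (P.res L).ideal.inertia (L ≃ₐ[F] L)) [CharZero L] :
    ∃ τ ∈ P.ideal.inertia (E ≃ₐ[F] E), ∀ x : L, τ (algebraMap L E x) = algebraMap L E (σ x) := by
  have hLE : IsGalois L E := IsGalois.tower_top_of_isGalois F L E
  obtain ⟨g, hgP, hg⟩ := exists_dec_lift P σ (smul_eq_of_mem_inertia (P.res L) hσ)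
  let f : 𝓞 E ⧸ P.ideal ≃+* 𝓞 E ⧸ P.ideal :=
    Ideal.quotientEquiv P.ideal P.ideal (MulSemiringAction.toRingEquiv (E ≃ₐ[F] E) (𝓞 E) g) (by
      have := congrArg Place.ideal hgP
      exact this.symm)
  have hgx : ∀ x : 𝓞 L, g • algebraMap (𝓞 L) (𝓞 E) x = algebraMap (𝓞 L) (𝓞 E) (σ • x) := by
    intro x
    apply NumberField.RingOfIntegers.coe_injective
    have h2 : algebraMap (𝓞 E) E (g • algebraMap (𝓞 L) (𝓞 E) x) =
        g (algebraMap L E (algebraMap (𝓞 L) L x)) := algebraMap.smul' _ _ E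
    rw [h2, hg]
    have h3 : algebraMap (𝓞 L) L (σ • x) = σ (algebraMap (𝓞 L) L x) := algebraMap.smul' _ _ L
    rw [← h3]
    rfl
  obtain ⟨h, hhP, hh⟩ := exists_dec_residue (L := L) P f (by
    intro x
    change Ideal.Quotient.mk _ (g • algebraMap (𝓞 L) (𝓞 E) x) = _
    rw [hgx, Ideal.Quotient.eq, ← map_sub]
    exact hσ x)
  let h' : E ≃ₐ[F] E := h.restrictScalars F
  have hh'P : h' • P = P := hhP
  have hh' : ∀ x : 𝓞 E, g • x - h' • x ∈ P.ideal := by
    intro x
    rw [← Ideal.Quotient.eq]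
    exact hh x
  refine ⟨h'⁻¹ * g, ?_, ?_⟩
  · intro x
    have h1 := hh' x
    have h2 : (h'⁻¹ * g) • x - x = h'⁻¹ • (g • x - h' • x) := by
      rw [smul_sub, mul_smul, inv_smul_smul]
    rw [h2]
    have h3 : h'⁻¹ • P = P := by
      rw [inv_smul_eq_iff]; exact hh'P.symm
    have h4 := (smul_mem_smul_ideal h'⁻¹ P (g • x - h' • x)).2 h1
    rw [h3] at h4
    exact h4
  · intro x
    rw [AlgEquiv.mul_apply, hg]
    have h3 : h' (algebraMap L E (σ x)) = algebraMap L E (σ x) := h.commutes _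
    rw [← h3, ← AlgEquiv.mul_apply, inv_mul_cancel, h3]
    rfl

end Lift

end Crest.Agent.R018.Tamex31
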