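import Mathlib
import Crest.Agent.R018.TameP_31
import Crest.Agent.R018.KerCl_793

set_option autoImplicit false

/-!
Tame facts, part F (helper31): ramified elements.  If `ϖ` has order prime to `N` at a place `P` whose
residue characteristic does not divide `N`, then inertia acts on `ϖ^(1/N)` through all of `μ_N`.
-/

namespace Crest.Agent.R018.Tamex31

open Crest.Agent.R018.Placesx484 Crest.Agent.R018.Placesx484.Place NumberField IsDedekindDomain
open Crest.Agent.R018.Selmerx380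
open scoped Pointwise

/-- the prime of a number field given by a place -/
def hos {K : Type*} [Field K] (Q : Place K) : HeightOneSpectrum (𝓞 K) :=
  ⟨Q.ideal, Q.isPrime, Q.ne_bot⟩

theorem hos_liesOver {K L : Type*} [Field K] [Field L] [Algebra K L] (Q : Place L) :
    (hos Q).asIdeal.LiesOver (hos (Q.res K)).asIdeal := ⟨rfl⟩

theorem exists_inertia_root_fin {K L : Type*} [Field K] [NumberField K] [Field L] [NumberField L]
    [Algebra K L] [IsGalois K L] (Q : Place L) (N : ℕ) (hN : ¬ Q.rchar ∣ N) (ζ π : L)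
    (hζ : IsPrimitiveRoot ζ N) (ϖ : Kˣ)
    (hϖ : IsCoprime (ord (𝓞 K) (hos (Q.res K)) ϖ) (N : ℤ)) (hπ : π ^ N = algebraMap K L ϖ)
    (hgen : ∀ σ : L ≃ₐ[K] L, σ ζ = ζ → σ π = π → σ = 1) :
    ∃ τ ∈ Q.ideal.inertia (L ≃ₐ[K] L), τ π = ζ * π := by
  classical
  have hN0 : N ≠ 0 := by
    rintro rfl
    exact hN (dvd_zero _)
  have hN0' : NeZero N := ⟨hN0⟩
  have hπ0 : π ≠ 0 := by
    rintro rfl
    rw [zero_pow hN0] at hπ
    exact ϖ.ne_zero ((map_eq_zero _).1 hπ.symm)
  have hNv : Q.val.valuation (N : L) = 1 := val_natCast_eq_one Q hN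
  set I := Q.ideal.inertia (L ≃ₐ[K] L) with hI
  have hfix : ∀ τ ∈ I, ∀ z : L, z ^ N = 1 → τ z = z := by
    intro τ hτ z hz
    exact in_fix_root ((mem_inS_val Q τ).2 hτ) hNv hz
  have hroot : ∀ τ : L ≃ₐ[K] L, (τ π / π) ^ N = 1 := by
    intro τ
    rw [div_pow, ← map_pow, hπ, AlgEquiv.commutes, div_self]
    exact (map_ne_zero _).2 ϖ.ne_zero
  -- the tame character
  let t : I →* rootsOfUnity N L :=
    { toFun := fun τ => rootsOfUnity.mkOfPowEq ((τ : L ≃ₐ[K] L) π / π) (hroot τ)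
      map_one' := by
        apply Subtype.ext
        apply Units.ext
        rw [rootsOfUnity.coe_mkOfPowEq]
        simp [hπ0]
      map_mul' := by
        intro a b
        apply Subtype.ext
        apply Units.ext
        change (((rootsOfUnity.mkOfPowEq (((a * b : I) : L ≃ₐ[K] L) π / π) (hroot _) :
            rootsOfUnity N L) : Lˣ) : L) =
          (((rootsOfUnity.mkOfPowEq ((a : L ≃ₐ[K] L) π / π) (hroot _) :
            rootsOfUnity N L) : Lˣ) : L) *
          (((rootsOfUnity.mkOfPowEq ((b : L ≃ₐ[K] L) π / π) (hroot _) :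
            rootsOfUnity N L) : Lˣ) : L)
        rw [rootsOfUnity.coe_mkOfPowEq, rootsOfUnity.coe_mkOfPowEq, rootsOfUnity.coe_mkOfPowEq]
        have h1 := hfix a a.2 _ (hroot b)
        rw [map_div₀] at h1
        have h2 : (a : L ≃ₐ[K] L) π ≠ 0 := by simpa using hπ0
        rw [Subgroup.coe_mul, AlgEquiv.mul_apply]
        rw [← h1]
        field_simp }
  have htinj : Function.Injective t := by
    rw [injective_iff_map_eq_one]
    intro τ hτ
    apply Subtype.ext
    apply hgen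
    · exact hfix τ τ.2 ζ hζ.pow_eq_one
    · have h1 := congrArg (fun u : rootsOfUnity N L => ((u : Lˣ) : L)) hτ
      change (((rootsOfUnity.mkOfPowEq ((τ : L ≃ₐ[K] L) π / π) (hroot τ) : rootsOfUnity N L) : Lˣ) : L)
        = 1 at h1
      rw [rootsOfUnity.coe_mkOfPowEq, div_eq_one_iff_eq hπ0] at h1
      exact h1
  have hcardμ : Nat.card (rootsOfUnity N L) = N := hζ.card_rootsOfUnity
  -- the ramification index
  have hlies := hos_liesOver (K := K) Q
  have hpr1 : (hos Q).asIdeal.IsPrime := (hos Q).isPrime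
  have hpr2 : (hos (Q.res K)).asIdeal.IsPrime := (hos (Q.res K)).isPrime
  have hfinq : Finite (𝓞 K ⧸ (hos (Q.res K)).asIdeal) :=
    Ideal.finiteQuotientOfFreeOfNeBot _ (Q.res K).ne_bot
  have hmax : (hos (Q.res K)).asIdeal.IsMaximal := (hos (Q.res K)).isMaximal
  have hcardI : Nat.card I = (hos (Q.res K)).asIdeal.ramificationIdxIn (𝓞 L) :=
    Ideal.card_inertia_eq_ramificationIdxIn (G := L ≃ₐ[K] L) (hos (Q.res K)).asIdeal (hos Q).asIdeal
  have hord := KerClx793.ord_over_inc (hos (Q.res K)) (hos Q) hlies ϖ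
  have hdvd : (N : ℤ) ∣ Nat.card I := by
    rw [hcardI]
    have h1 : LogDefsx575.inc K L ϖ = (Units.mk0 π hπ0) ^ N := by
      apply Units.ext
      rw [Units.val_pow_eq_pow_val, Units.val_mk0, hπ]
      rfl
    rw [h1, ord_pow] at hord
    exact hϖ.symm.dvd_of_dvd_mul_right ⟨_, hord.symm⟩
  have hdvd' : N ∣ Nat.card I := by exact_mod_cast hdvd
  have hle : Nat.card I ≤ Nat.card (rootsOfUnity N L) := Nat.card_le_card_of_injective t htinj
  have hpos : 0 < Nat.card I := Nat.card_pos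
  have heq : Nat.card I = Nat.card (rootsOfUnity N L) :=
    le_antisymm hle (by rw [hcardμ]; exact Nat.le_of_dvd hpos hdvd')
  have hbij : Function.Bijective t := (Nat.bijective_iff_injective_and_card t).2 ⟨htinj, heq⟩
  obtain ⟨τ, hτ⟩ := hbij.2 (rootsOfUnity.mkOfPowEq ζ hζ.pow_eq_one)
  refine ⟨τ, τ.2, ?_⟩
  have h1 := congrArg (fun u : rootsOfUnity N L => ((u : Lˣ) : L)) hτ
  change (((rootsOfUnity.mkOfPowEq ((τ : L ≃ₐ[K] L) π / π) (hroot τ) : rootsOfUnity N L) : Lˣ) : L)
    = ((rootsOfUnity.mkOfPowEq ζ hζ.pow_eq_one : rootsOfUnity N L) : Lˣ) at h1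
  rw [rootsOfUnity.coe_mkOfPowEq, rootsOfUnity.coe_mkOfPowEq, div_eq_iff hπ0] at h1
  exact h1

/-- **Ramified elements.** -/
theorem exists_inertia_root {K E : Type*} [Field K] [NumberField K] [Field E] [CharZero E]
    [Algebra.IsAlgebraic ℚ E] [Algebra K E] [IsGalois K E] (P : Place E) (N : ℕ)
    (hN : ¬ P.rchar ∣ N) (ζ π : E) (hζ : IsPrimitiveRoot ζ N) (ϖ : Kˣ)
    (hϖ : IsCoprime (ord (𝓞 K) (hos (P.res K)) ϖ) (N : ℤ)) (hπ : π ^ N = algebraMap K E ϖ) :
    ∃ τ ∈ P.ideal.inertia (E ≃ₐ[K] E), τ π = ζ * π := by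
  classical
  have hN0 : N ≠ 0 := by
    rintro rfl
    exact hN (dvd_zero _)
  have hN0' : NeZero N := ⟨hN0⟩
  have hπ0 : π ≠ 0 := by
    rintro rfl
    rw [zero_pow hN0] at hπ
    exact ϖ.ne_zero ((map_eq_zero _).1 hπ.symm)
  let L : IntermediateField K E := IntermediateField.adjoin K {ζ, π}
  have hζL : ζ ∈ L := IntermediateField.subset_adjoin _ _ (by simp)
  have hπL : π ∈ L := IntermediateField.subset_adjoin _ _ (by simp)
  have hint : ∀ x : E, IsIntegral K x := fun x => Algebra.IsIntegral.isIntegral x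
  have hfd : FiniteDimensional K L :=
    IntermediateField.finiteDimensional_adjoin fun x _ => hint x
  have hnf : NumberField L :=
    { to_finiteDimensional := FiniteDimensional.trans ℚ K L }
  have hnorm : Normal K L := by
    rw [IntermediateField.normal_iff_forall_map_le']
    intro σ
    rw [IntermediateField.map_le_iff_le_comap, IntermediateField.adjoin_le_iff]
    rintro x (rfl | rfl)
    · change σ x ∈ L
      have h1 : (σ x) ^ N = 1 := by rw [← map_pow, hζ.pow_eq_one, map_one]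
      obtain ⟨i, -, hi⟩ := hζ.eq_pow_of_pow_eq_one h1
      rw [← hi]
      exact pow_mem hζL i
    · change σ x ∈ L
      have h1 : (σ x / x) ^ N = 1 := by
        rw [div_pow, ← map_pow, hπ, AlgEquiv.commutes, div_self]
        exact (map_ne_zero _).2 ϖ.ne_zero
      obtain ⟨i, -, hi⟩ := hζ.eq_pow_of_pow_eq_one h1
      have h2 : σ x = ζ ^ i * x := by rw [hi, div_mul_cancel₀ _ hπ0]
      rw [h2]
      exact mul_mem (pow_mem hζL i) hπL
  have hgal : IsGalois K L := ⟨⟩
  have hres : (P.res L).res K = P.res K := res_res K L P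
  obtain ⟨τ₀, hτ₀, hτπ⟩ := exists_inertia_root_fin (K := K) (P.res L) N
    (by rwa [rchar_res]) (⟨ζ, hζL⟩ : L) (⟨π, hπL⟩ : L)
    (by
      refine IsPrimitiveRoot.of_map_of_injective (f := L.val) ?_ L.val.injective
      exact hζ)
    ϖ (by rw [hres]; exact hϖ) (Subtype.ext hπ) (by
      intro σ h1 h2
      -- an automorphism fixing the generators is trivial
      obtain ⟨g, hg⟩ := exists_alg_lift (E := E) σ
      have hfix : L ≤ IntermediateField.fixedField (Subgroup.zpowers g) := by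
        rw [IntermediateField.adjoin_le_iff]
        rintro x hx
        have hgx : g x = x := by
          rcases hx with rfl | rfl
          · have h3 := hg ⟨x, hζL⟩
            rw [h1] at h3
            exact h3
          · have h3 := hg ⟨x, hπL⟩
            rw [h2] at h3
            exact h3
        have hmem : g ∈ MulAction.stabilizer (E ≃ₐ[K] E) x := hgx
        intro h
        have h4 : (h : E ≃ₐ[K] E) ∈ MulAction.stabilizer (E ≃ₐ[K] E) x :=
          (Subgroup.zpowers_le.2 hmem) h.2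
        exact h4
      ext x
      have h5 : g (x : E) = x := hfix x.2 ⟨g, Subgroup.mem_zpowers g⟩
      have h6 := hg x
      exact h6.symm.trans h5)
  obtain ⟨τ, hτ, hτL⟩ := exists_inertia_lift (E := E) P τ₀ hτ₀
  refine ⟨τ, hτ, ?_⟩
  have h1 := hτL (⟨π, hπL⟩ : L)
  rw [hτπ] at h1
  exact h1

/-- for every place with residue characteristic `≠ l`, some inertia element moves an `l`-th root of a
uniformizer -/
theorem exists_moving {K E : Type*} [Field K] [NumberField K] [Field E] [CharZero E]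
    [Algebra.IsAlgebraic ℚ E] [Algebra K E] [IsGalois K E] (P : Place E) (l : ℕ)
    (hl : l.Prime) (hP : P.rchar ≠ l) (ζ : E) (hζ : IsPrimitiveRoot ζ l)
    (hroot : ∀ x : K, ∃ y : E, y ^ l = algebraMap K E x) :
    ∃ τ ∈ P.ideal.inertia (E ≃ₐ[K] E), ∃ (π : E) (ϖ : Kˣ), π ^ l = algebraMap K E ϖ ∧
      ord (𝓞 K) (hos (P.res K)) ϖ = 1 ∧ τ π = ζ * π ∧ τ π ≠ π := by
  obtain ⟨ϖ, hϖ⟩ := exists_ord_eq_one (K := K) (hos (P.res K))
  obtain ⟨π, hπ⟩ := hroot ϖ
  have hN : ¬ P.rchar ∣ l := fun h =>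
    hP ((Nat.prime_dvd_prime_iff_eq P.rchar_prime hl).1 h)
  obtain ⟨τ, hτ, h1⟩ := exists_inertia_root P l hN ζ π hζ ϖ
    (by rw [hϖ]; exact isCoprime_one_left) hπ
  refine ⟨τ, hτ, π, ϖ, hπ, hϖ, h1, ?_⟩
  rw [h1]
  intro h
  have hπ0 : π ≠ 0 := by
    rintro rfl
    rw [zero_pow hl.ne_zero] at hπ
    exact ϖ.ne_zero ((map_eq_zero _).1 hπ.symm)
  have h2 : ζ = 1 := by
    have h3 : ζ * π = 1 * π := by rw [h, one_mul]
    exact mul_right_cancel₀ hπ0 h3
  rw [h2] at hζ
  exact hl.one_lt.ne' (hζ.unique IsPrimitiveRoot.one)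

end Crest.Agent.R018.Tamex31
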