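import Mathlib
import Crest.Agent.R018.Core_74
import Crest.Agent.R018.RedA_49
import Crest.Agent.R018.EndA_245
import Crest.Agent.R018.TameF_31

set_option autoImplicit false

/-!
# Row 18: conversion between `D.G : Subgroup (Om ≃ₐ[ℚ] Om)` and `Om ≃ₐ[F₁] Om`, and the literal
`LocT` of `Core_74` from the local correspondence for `(Om ≃ₐ[F₁] Om) →* (E₂ ≃ₐ[ℚ] E₂)` (helper31)
-/

open NumberField Pointwise

namespace Crest.Agent.R018.LocConvx31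

open Crest.Agent.R018.EndDefx924 (Om)
open Crest.Agent.R018.Placesx484 Crest.Agent.R018.Corex74 Crest.Agent.R018.Redx49

section conv

variable {k Ω : Type*} [Field k] [Field Ω] [Algebra k Ω] [IsGalois k Ω]

theorem fixingSubgroup_eq (G : Subgroup (Ω ≃ₐ[k] Ω)) (hG : IsOpen (G : Set (Ω ≃ₐ[k] Ω))) :
    (IntermediateField.fixedField G).fixingSubgroup = G := by
  have hcl : IsClosed (G : Set (Ω ≃ₐ[k] Ω)) := Subgroup.isClosed_of_isOpen G hG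
  let H : ClosedSubgroup (Ω ≃ₐ[k] Ω) := ⟨G, hcl⟩
  exact InfiniteGalois.fixingSubgroup_fixedField H

theorem mem_iff (G : Subgroup (Ω ≃ₐ[k] Ω)) (hG : IsOpen (G : Set (Ω ≃ₐ[k] Ω)))
    (g : Ω ≃ₐ[k] Ω) : g ∈ G ↔ ∀ x ∈ IntermediateField.fixedField G, g x = x := by
  constructor
  · intro hg x hx
    exact hx ⟨g, hg⟩
  · intro h
    rw [← fixingSubgroup_eq G hG]
    intro x
    exact h x x.2

/-- `Gal(Ω/Ω^G) → G` -/
noncomputable def toG (G : Subgroup (Ω ≃ₐ[k] Ω)) (hG : IsOpen (G : Set (Ω ≃ₐ[k] Ω))) :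
    (Ω ≃ₐ[IntermediateField.fixedField G] Ω) →* G where
  toFun σ := ⟨σ.restrictScalars k, (mem_iff G hG _).2 fun x hx => σ.commutes ⟨x, hx⟩⟩
  map_one' := rfl
  map_mul' _ _ := rfl

@[simp] theorem toG_apply (G : Subgroup (Ω ≃ₐ[k] Ω)) (hG : IsOpen (G : Set (Ω ≃ₐ[k] Ω)))
    (σ : Ω ≃ₐ[IntermediateField.fixedField G] Ω) (x : Ω) :
    ((toG G hG σ : G) : Ω ≃ₐ[k] Ω) x = σ x := rfl

theorem toG_bijective (G : Subgroup (Ω ≃ₐ[k] Ω)) (hG : IsOpen (G : Set (Ω ≃ₐ[k] Ω))) :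
    Function.Bijective (toG G hG) := by
  constructor
  · intro σ τ h
    ext x
    have := congrArg (fun g : G => (g : Ω ≃ₐ[k] Ω) x) h
    exact this
  · intro g
    refine ⟨AlgEquiv.ofRingEquiv (f := ((g : Ω ≃ₐ[k] Ω) : Ω ≃+* Ω)) fun x => ?_, ?_⟩
    · exact (mem_iff G hG g).1 g.2 x x.2
    · apply Subtype.ext
      ext x
      rfl

theorem toG_continuous (G : Subgroup (Ω ≃ₐ[k] Ω)) (hG : IsOpen (G : Set (Ω ≃ₐ[k] Ω))) :
    Continuous (toG G hG) := by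
  rw [continuous_induced_rng]
  have h1 : Continuous (G.subtype.comp (toG G hG)) := by
    apply continuous_of_eval
    intro x
    have h2 : IsOpen (MulAction.stabilizer (Ω ≃ₐ[IntermediateField.fixedField G] Ω) x :
        Set (Ω ≃ₐ[IntermediateField.fixedField G] Ω)) := stabilizer_isOpen_of_isIntegral x
    exact h2.mem_nhds (one_mem _)
  exact h1

/-- `Gal(Ω/Ω^G) ≃ G` -/
noncomputable def eG (G : Subgroup (Ω ≃ₐ[k] Ω)) (hG : IsOpen (G : Set (Ω ≃ₐ[k] Ω))) :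
    (Ω ≃ₐ[IntermediateField.fixedField G] Ω) ≃* G :=
  MulEquiv.ofBijective (toG G hG) (toG_bijective G hG)

theorem eG_apply (G : Subgroup (Ω ≃ₐ[k] Ω)) (hG : IsOpen (G : Set (Ω ≃ₐ[k] Ω)))
    (σ : Ω ≃ₐ[IntermediateField.fixedField G] Ω) (x : Ω) :
    ((eG G hG σ : G) : Ω ≃ₐ[k] Ω) x = σ x := rfl

theorem eG_symm_apply (G : Subgroup (Ω ≃ₐ[k] Ω)) (hG : IsOpen (G : Set (Ω ≃ₐ[k] Ω)))
    (g : G) (x : Ω) : ((eG G hG).symm g) x = (g : Ω ≃ₐ[k] Ω) x := by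
  obtain ⟨σ, rfl⟩ := (eG G hG).surjective g
  rw [MulEquiv.symm_apply_apply, eG_apply]

theorem eG_continuous (G : Subgroup (Ω ≃ₐ[k] Ω)) (hG : IsOpen (G : Set (Ω ≃ₐ[k] Ω))) :
    Continuous (eG G hG) := toG_continuous G hG

end conv

/-- the local correspondence in the shape `(Om ≃ₐ[F₁] Om) →* SG` -/
def LocF : Prop := ∀ (F₁ : IntermediateField ℚ Om) (_ : FiniteDimensional ℚ F₁)
  (α : (Om ≃ₐ[F₁] Om) →* SG) (_ : Continuous α) (l : ℕ) (_ : l.Prime) (_ : l ≠ 2)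
  (P : Place Om) (_ : P.rchar ≠ l)
  (_ : ∃ x ∈ P.ideal.inertia (Om ≃ₐ[F₁] Om), ∃ N : Subgroup SG, N.Normal ∧
    IsOpen (N : Set SG) ∧ ∀ n : ℕ, (α x) ^ n ∈ N → l ∣ n),
  ∃ Q : Place Sv, (∀ d : Om ≃ₐ[F₁] Om, d • P = P → α d • Q = Q) ∧ Q.rchar ≠ l ∧
    (∀ Q' : Place Sv, (∀ d : Om ≃ₐ[F₁] Om, d • P = P → α d • Q' = Q') → Q' = Q) ∧
    ∀ (n a : ℕ) (d : Om ≃ₐ[F₁] Om), d • P = P → (∀ ζ : Om, ζ ^ (l ^ n) = 1 → d ζ = ζ ^ a) →
      ∀ ζ : Sv, ζ ^ (l ^ n) = 1 → α d ζ = ζ ^ a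

/-- every automorphism acts on the `N`-th roots of unity as a power map -/
theorem exists_cyc (N : ℕ) (hN : N ≠ 0) {k Ω : Type*} [Field k] [Field Ω] [Algebra k Ω]
    (d : Ω ≃ₐ[k] Ω) {ζ₀ : Ω} (h₀ : IsPrimitiveRoot ζ₀ N) :
    ∃ a : ℕ, ∀ ζ : Ω, ζ ^ N = 1 → d ζ = ζ ^ a := by
  have : NeZero N := ⟨hN⟩
  obtain ⟨a, -, ha⟩ := h₀.eq_pow_of_pow_eq_one (ξ := d ζ₀) (by
    rw [← map_pow, h₀.pow_eq_one, map_one])
  refine ⟨a, fun ζ hζ => ?_⟩
  obtain ⟨i, -, rfl⟩ := h₀.eq_pow_of_pow_eq_one hζ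
  rw [map_pow, ← ha, ← pow_mul, ← pow_mul, mul_comm]

theorem locT_of_locF (h : LocF) : LocT := by
  intro D l hl hl2 P hit
  obtain ⟨hP, x, hx, N, hN, hNo, hn⟩ := hit
  let F₁ := IntermediateField.fixedField D.G
  have hfd : FiniteDimensional ℚ F₁ := by
    have hfq : Finite (BB ⧸ D.G) := Subgroup.quotient_finite_of_isOpen D.G D.isOpen_G
    have hfi : D.G.FiniteIndex := D.G.finiteIndex_of_finite_quotient
    exact Crest.Agent.R018.EndAx245.finiteDimensional_fixedField D.G hfi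
  let e := eG D.G D.isOpen_G
  let α : (Om ≃ₐ[F₁] Om) →* SG := D.α.comp e.toMonoidHom
  have hα : Continuous α := D.cont.comp (eG_continuous D.G D.isOpen_G)
  have hsmul : ∀ (d : Om ≃ₐ[F₁] Om) (R : Place Om), d • R = ((e d : D.G) : BB) • R := fun d R => rfl
  have hsmul' : ∀ (d : D.G) (R : Place Om), (e.symm d) • R = (d : BB) • R := by
    intro d R
    rw [hsmul, MulEquiv.apply_symm_apply]
  have hαe : ∀ d : D.G, α (e.symm d) = D.α d := by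
    intro d
    change D.α (e (e.symm d)) = D.α d
    rw [MulEquiv.apply_symm_apply]
  obtain ⟨Q, h1, h2, h3, h4⟩ := h F₁ hfd α hα l hl hl2 P hP
    ⟨e.symm x, by
      intro y
      have := hx y
      have h5 : (e.symm x) • y = (x : BB) • y := by
        have h6 : ((e (e.symm x) : D.G) : BB) • y = (x : BB) • y := by
          rw [MulEquiv.apply_symm_apply]
        exact h6
      change (e.symm x) • y - y ∈ P.ideal
      rw [h5]
      exact this, N, hN, hNo, by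
      intro n hn'
      rw [hαe] at hn'
      exact hn n hn'⟩
  refine ⟨Q, ?_, h2, ?_, ?_⟩
  · intro d hd
    rw [← hαe]
    exact h1 _ (by rw [hsmul']; exact hd)
  · intro Q' hQ'
    refine h3 Q' fun d hd => ?_
    exact hQ' (e d) (by rw [← hsmul]; exact hd)
  · intro d hd n ζ hζ
    have hln : l ^ n ≠ 0 := pow_ne_zero _ hl.ne_zero
    have hne : NeZero (l ^ n) := ⟨hln⟩
    obtain ⟨ζ₀, hζ₀⟩ := HasEnoughRootsOfUnity.exists_primitiveRoot Om (l ^ n)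
    obtain ⟨a, ha⟩ := exists_cyc (l ^ n) hln (e.symm d) hζ₀
    have h5 := h4 n a (e.symm d) (by rw [hsmul']; exact hd) ha ζ hζ
    rw [hαe] at h5
    have h6 := ha (ζ : Om) (by rw [← IntermediateField.coe_pow, hζ]; rfl)
    rw [eG_symm_apply] at h6
    rw [h5, h6]
    rfl

end Crest.Agent.R018.LocConvx31
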