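import Mathlib
import Crest.Agent.R018.Kum_568

/-!
Row 18: transport of Kummer classes along `α : Gal(E₁/F₁) → Gal(E₂/F₂)` (helper568).

`Rel α U ζ₁ ζ₂ y z` : for all `g ∈ U`, `α g y = ζ₂^i y` and `g z = ζ₁^i z` for the same `i`.
No roots of unity in the base fields are needed, only that `g` acts on `ζ₁` and `α g` acts on
`ζ₂` by the same exponent (`Cyc α U ζ₁ ζ₂`).
-/

set_option autoImplicit false

namespace Crest.Agent.R018.Kum2x568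

open Crest.Agent.R018.Kumx568

variable {F₁ E₁ F₂ E₂ : Type*} [Field F₁] [Field E₁] [Algebra F₁ E₁] [Field F₂] [Field E₂]
  [Algebra F₂ E₂]

/-- `s ↦ α s y` is locally constant. -/
theorem exists_finite_of_continuous [Algebra.IsIntegral F₂ E₂]
    (α : (E₁ ≃ₐ[F₁] E₁) →* (E₂ ≃ₐ[F₂] E₂))
    (hα : Continuous α) (y : E₂) :
    ∃ L : IntermediateField F₁ E₁, FiniteDimensional F₁ L ∧
      ∀ s ∈ L.fixingSubgroup, α s y = y := by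
  have h1 : IsOpen (MulAction.stabilizer (E₂ ≃ₐ[F₂] E₂) y : Set (E₂ ≃ₐ[F₂] E₂)) :=
    stabilizer_isOpen_of_isIntegral y
  have h2 : (α ⁻¹' (MulAction.stabilizer (E₂ ≃ₐ[F₂] E₂) y : Set (E₂ ≃ₐ[F₂] E₂))) ∈
      nhds (1 : E₁ ≃ₐ[F₁] E₁) := by
    apply (h1.preimage hα).mem_nhds
    change α 1 ∈ MulAction.stabilizer (E₂ ≃ₐ[F₂] E₂) y
    rw [map_one]
    exact Subgroup.one_mem _
  rw [krullTopology_mem_nhds_one_iff] at h2
  obtain ⟨L, hL, hL'⟩ := h2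
  exact ⟨L, hL, fun s hs => MulAction.mem_stabilizer_iff.1 (hL' hs)⟩

/-- `g ∈ U` acts on `ζ₁` and `α g` acts on `ζ₂` by the same exponent. -/
def Cyc (α : (E₁ ≃ₐ[F₁] E₁) →* (E₂ ≃ₐ[F₂] E₂)) (U : Subgroup (E₁ ≃ₐ[F₁] E₁))
    (ζ₁ : E₁) (ζ₂ : E₂) : Prop :=
  ∀ g ∈ U, ∃ a : ℕ, α g ζ₂ = ζ₂ ^ a ∧ g ζ₁ = ζ₁ ^ a

/-- `y ∈ E₂` and `z ∈ E₁` have the same Kummer cocycle on `U`. -/
def Rel (α : (E₁ ≃ₐ[F₁] E₁) →* (E₂ ≃ₐ[F₂] E₂)) (U : Subgroup (E₁ ≃ₐ[F₁] E₁))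
    (ζ₁ : E₁) (ζ₂ : E₂) (y : E₂) (z : E₁) : Prop :=
  ∀ g ∈ U, ∃ i : ℕ, α g y = ζ₂ ^ i * y ∧ g z = ζ₁ ^ i * z

variable {α : (E₁ ≃ₐ[F₁] E₁) →* (E₂ ≃ₐ[F₂] E₂)} {U : Subgroup (E₁ ≃ₐ[F₁] E₁)}
    {ζ₁ : E₁} {ζ₂ : E₂}

theorem Cyc.mono {U' : Subgroup (E₁ ≃ₐ[F₁] E₁)} (h : Cyc α U ζ₁ ζ₂) (hU : U' ≤ U) :
    Cyc α U' ζ₁ ζ₂ := fun g hg => h g (hU hg)

theorem Cyc.pow (h : Cyc α U ζ₁ ζ₂) (k : ℕ) : Cyc α U (ζ₁ ^ k) (ζ₂ ^ k) := by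
  intro g hg
  obtain ⟨a, h1, h2⟩ := h g hg
  exact ⟨a, by rw [map_pow, h1, ← pow_mul, ← pow_mul, mul_comm],
    by rw [map_pow, h2, ← pow_mul, ← pow_mul, mul_comm]⟩

theorem Rel.mono {U' : Subgroup (E₁ ≃ₐ[F₁] E₁)} {y : E₂} {z : E₁} (h : Rel α U ζ₁ ζ₂ y z)
    (hU : U' ≤ U) : Rel α U' ζ₁ ζ₂ y z := fun g hg => h g (hU hg)

theorem Rel.mul {y y' : E₂} {z z' : E₁} (h : Rel α U ζ₁ ζ₂ y z) (h' : Rel α U ζ₁ ζ₂ y' z') :
    Rel α U ζ₁ ζ₂ (y * y') (z * z') := by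
  intro g hg
  obtain ⟨i, h1, h2⟩ := h g hg
  obtain ⟨j, h3, h4⟩ := h' g hg
  exact ⟨i + j, by rw [map_mul, h1, h3]; ring, by rw [map_mul, h2, h4]; ring⟩

theorem Rel.pow {y : E₂} {z : E₁} (h : Rel α U ζ₁ ζ₂ y z) (k : ℕ) :
    Rel α U ζ₁ ζ₂ (y ^ k) (z ^ k) := by
  intro g hg
  obtain ⟨i, h1, h2⟩ := h g hg
  exact ⟨i * k, by rw [map_pow, h1, mul_pow, ← pow_mul], by rw [map_pow, h2, mul_pow, ← pow_mul]⟩

/-- lowering the level: `n = m * k`, the `k`-th power of the roots of unity -/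
theorem Rel.pow' {y : E₂} {z : E₁} (h : Rel α U ζ₁ ζ₂ y z) (k : ℕ) :
    Rel α U (ζ₁ ^ k) (ζ₂ ^ k) (y ^ k) (z ^ k) := by
  intro g hg
  obtain ⟨i, h1, h2⟩ := h g hg
  exact ⟨i, by rw [map_pow, h1, mul_pow, ← pow_mul, ← pow_mul, mul_comm i k],
    by rw [map_pow, h2, mul_pow, ← pow_mul, ← pow_mul, mul_comm i k]⟩

theorem Rel.of_fixed {b : E₂} {c : E₁} (hb : ∀ g ∈ U, α g b = b) (hc : ∀ g ∈ U, g c = c) :
    Rel α U ζ₁ ζ₂ b c := by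
  intro g hg
  exact ⟨0, by rw [hb g hg]; simp, by rw [hc g hg]; simp⟩

theorem Rel.one : Rel α U ζ₁ ζ₂ 1 1 := Rel.of_fixed (fun _ _ => map_one _) (fun _ _ => map_one _)

theorem Rel.inv {n : ℕ} (hn : n ≠ 0) (h₁ : ζ₁ ^ n = 1) (h₂ : ζ₂ ^ n = 1)
    {y : E₂} {z : E₁} (h : Rel α U ζ₁ ζ₂ y z) : Rel α U ζ₁ ζ₂ y⁻¹ z⁻¹ := by
  intro g hg
  obtain ⟨i, h1, h2⟩ := h g hg
  have key : ∀ {E : Type _} [Field E] (ζ : E), ζ ^ n = 1 → ζ ^ ((n - 1) * i) = (ζ ^ i)⁻¹ := by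
    intro E _ ζ hζ
    have h3 : ζ ^ ((n - 1) * i) * ζ ^ i = 1 := by
      rw [← pow_add]
      have : (n - 1) * i + i = n * i := by
        obtain ⟨m, rfl⟩ := Nat.exists_eq_succ_of_ne_zero hn
        simp; ring
      rw [this, pow_mul, hζ, one_pow]
    exact eq_inv_of_mul_eq_one_left h3
  refine ⟨(n - 1) * i, ?_, ?_⟩
  · rw [map_inv₀, h1, mul_inv, key ζ₂ h₂]
  · rw [map_inv₀, h2, mul_inv]
    have h3 : ζ₁ ^ ((n - 1) * i) * ζ₁ ^ i = 1 := by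
      rw [← pow_add]
      have : (n - 1) * i + i = n * i := by
        obtain ⟨m, rfl⟩ := Nat.exists_eq_succ_of_ne_zero hn
        simp; ring
      rw [this, pow_mul, h₁, one_pow]
    rw [eq_inv_of_mul_eq_one_left h3]

/-- `Rel` only depends on the classes: uniqueness. -/
theorem Rel.unique {n : ℕ} (h₁ : IsPrimitiveRoot ζ₁ n) (h₂ : IsPrimitiveRoot ζ₂ n)
    {y : E₂} (hy : y ≠ 0) {z z' : E₁} (hz' : z' ≠ 0)
    (h : Rel α U ζ₁ ζ₂ y z) (h' : Rel α U ζ₁ ζ₂ y z') (g : E₁ ≃ₐ[F₁] E₁) (hg : g ∈ U) :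
    g (z / z') = z / z' := by
  obtain ⟨i, h3, h4⟩ := h g hg
  obtain ⟨j, h5, h6⟩ := h' g hg
  have h7 : ζ₂ ^ i = ζ₂ ^ j := mul_right_cancel₀ hy (h3.symm.trans h5)
  have h8 : ζ₁ ^ i = ζ₁ ^ j := by
    rcases Nat.eq_zero_or_pos n with rfl | hn
    · -- `n = 0`: both have infinite order
      have h9 : i = j := by
        by_contra hne
        rcases lt_or_gt_of_ne hne with hlt | hlt
        · have h10 : ζ₂ ^ (j - i) = 1 := by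
            have h0 : ζ₂ ^ i ≠ 0 := by
              intro h0
              rw [h0, zero_mul] at h3
              exact hy ((map_eq_zero _).1 h3)
            have : ζ₂ ^ i * ζ₂ ^ (j - i) = ζ₂ ^ i * 1 := by
              rw [← pow_add, Nat.add_sub_cancel' hlt.le, mul_one, h7]
            exact mul_left_cancel₀ h0 this
          have := (h₂.pow_eq_one_iff_dvd _).1 h10
          have := Nat.eq_zero_of_zero_dvd this
          omega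
        · have h10 : ζ₂ ^ (i - j) = 1 := by
            have h0 : ζ₂ ^ j ≠ 0 := by
              intro h0
              rw [h0, zero_mul] at h5
              exact hy ((map_eq_zero _).1 h5)
            have : ζ₂ ^ j * ζ₂ ^ (i - j) = ζ₂ ^ j * 1 := by
              rw [← pow_add, Nat.add_sub_cancel' hlt.le, mul_one, h7]
            exact mul_left_cancel₀ h0 this
          have := (h₂.pow_eq_one_iff_dvd _).1 h10
          have := Nat.eq_zero_of_zero_dvd this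
          omega
      rw [h9]
    · have h9 : i % n = j % n := by
        have hi : ζ₂ ^ (i % n) = ζ₂ ^ (j % n) := by
          rw [← pow_mod_orderOf ζ₂ i, ← pow_mod_orderOf ζ₂ j, ← h₂.eq_orderOf] at h7
          exact h7
        exact h₂.pow_inj (Nat.mod_lt _ hn) (Nat.mod_lt _ hn) hi
      rw [← pow_mod_orderOf ζ₁ i, ← pow_mod_orderOf ζ₁ j, ← h₁.eq_orderOf, h9]
  rw [map_div₀, h4, h6, h8]
  have h10 : ζ₁ ^ j ≠ 0 := by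
    intro h0
    rw [h0, zero_mul] at h6
    exact hz' ((map_eq_zero _).1 h6)
  exact mul_div_mul_left _ _ h10

/-- injectivity -/
theorem Rel.inj {n : ℕ} (hn : n ≠ 0) (h₁ : IsPrimitiveRoot ζ₁ n) (h₂ : IsPrimitiveRoot ζ₂ n)
    {y y' : E₂} (hy' : y' ≠ 0) {z : E₁} (hz : z ≠ 0)
    (h : Rel α U ζ₁ ζ₂ y z) (h' : Rel α U ζ₁ ζ₂ y' z) (g : E₁ ≃ₐ[F₁] E₁) (hg : g ∈ U) :
    α g (y / y') = y / y' := by
  obtain ⟨i, h3, h4⟩ := h g hg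
  obtain ⟨j, h5, h6⟩ := h' g hg
  have h7 : ζ₁ ^ i = ζ₁ ^ j := mul_right_cancel₀ hz (h4.symm.trans h6)
  have hn' : 0 < n := Nat.pos_of_ne_zero hn
  have h8 : ζ₂ ^ i = ζ₂ ^ j := by
    have h9 : i % n = j % n := by
      have hi : ζ₁ ^ (i % n) = ζ₁ ^ (j % n) := by
        rw [← pow_mod_orderOf ζ₁ i, ← pow_mod_orderOf ζ₁ j, ← h₁.eq_orderOf] at h7
        exact h7
      exact h₁.pow_inj (Nat.mod_lt _ hn') (Nat.mod_lt _ hn') hi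
    rw [← pow_mod_orderOf ζ₂ i, ← pow_mod_orderOf ζ₂ j, ← h₂.eq_orderOf, h9]
  rw [map_div₀, h3, h5, h8]
  have h10 : ζ₂ ^ j ≠ 0 := by
    intro h0
    rw [h0, zero_mul] at h5
    exact hy' ((map_eq_zero _).1 h5)
  exact mul_div_mul_left _ _ h10

/-- conjugation: `h` normalizes nothing, it moves `U` to `h U h⁻¹` -/
theorem Rel.conj {y : E₂} {z : E₁} (hr : Rel α U ζ₁ ζ₂ y z) (h : E₁ ≃ₐ[F₁] E₁) (a : ℕ)
    (ha₂ : α h ζ₂ = ζ₂ ^ a) (ha₁ : h ζ₁ = ζ₁ ^ a)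
    (g : E₁ ≃ₐ[F₁] E₁) (hg : h⁻¹ * g * h ∈ U) :
    ∃ i : ℕ, α g (α h y) = ζ₂ ^ i * α h y ∧ g (h z) = ζ₁ ^ i * h z := by
  obtain ⟨i, h1, h2⟩ := hr _ hg
  refine ⟨a * i, ?_, ?_⟩
  · have h3 : α g (α h y) = α h (α (h⁻¹ * g * h) y) := by
      rw [← AlgEquiv.mul_apply, ← AlgEquiv.mul_apply, ← map_mul, ← map_mul]
      congr 2
      group
    rw [h3, h1, map_mul, map_pow, ha₂, ← pow_mul]
  · have h3 : g (h z) = h ((h⁻¹ * g * h) z) := by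
      rw [← AlgEquiv.mul_apply, ← AlgEquiv.mul_apply]
      congr 1
      group
    rw [h3, h2, map_mul, map_pow, ha₁, ← pow_mul]

/-- **existence of the transport** -/
theorem exists_rel [Algebra.IsIntegral F₂ E₂] (hα : Continuous α) {n : ℕ} (hn : n ≠ 0)
    (h₁ : IsPrimitiveRoot ζ₁ n) (h₂ : IsPrimitiveRoot ζ₂ n) (hc : Cyc α U ζ₁ ζ₂)
    (y : E₂) (hy : y ≠ 0) (hyn : ∀ g ∈ U, α g (y ^ n) = y ^ n) :
    ∃ z : E₁, z ≠ 0 ∧ (∀ g ∈ U, g (z ^ n) = z ^ n) ∧ Rel α U ζ₁ ζ₂ y z := by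
  classical
  have hn' : 0 < n := Nat.pos_of_ne_zero hn
  obtain ⟨L, hL, hLy⟩ := exists_finite_of_continuous α hα y
  have hex : ∀ g : U, ∃ i : ℕ, i < n ∧ α g y = ζ₂ ^ i * y := by
    intro g
    have h3 : (α g y / y) ^ n = 1 := by
      rw [div_pow, ← map_pow, hyn g g.2, div_self (pow_ne_zero _ hy)]
    have : NeZero n := ⟨hn⟩
    obtain ⟨i, hi, h4⟩ := h₂.eq_pow_of_pow_eq_one h3
    exact ⟨i, hi, by rw [h4, div_mul_cancel₀ _ hy]⟩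
  choose k hk hky using hex
  have hζ0 : ζ₁ ≠ 0 := h₁.ne_zero hn
  have hζ20 : ζ₂ ≠ 0 := h₂.ne_zero hn
  -- comparison of powers
  have hcmp : ∀ i j : ℕ, ζ₂ ^ i = ζ₂ ^ j → ζ₁ ^ i = ζ₁ ^ j := by
    intro i j h7
    have h9 : i % n = j % n := by
      have hi : ζ₂ ^ (i % n) = ζ₂ ^ (j % n) := by
        rw [← pow_mod_orderOf ζ₂ i, ← pow_mod_orderOf ζ₂ j, ← h₂.eq_orderOf] at h7
        exact h7
      exact h₂.pow_inj (Nat.mod_lt _ hn') (Nat.mod_lt _ hn') hi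
    rw [← pow_mod_orderOf ζ₁ i, ← pow_mod_orderOf ζ₁ j, ← h₁.eq_orderOf, h9]
  let c : U → E₁ˣ := fun g => Units.mk0 (ζ₁ ^ k g) (pow_ne_zero _ hζ0)
  obtain ⟨z, hz⟩ := hilbert90 U c (by
    intro s t
    obtain ⟨a, ha2, ha1⟩ := hc s s.2
    change ζ₁ ^ k (s * t) = ζ₁ ^ k s * (s : E₁ ≃ₐ[F₁] E₁) (ζ₁ ^ k t)
    rw [map_pow, ha1, ← pow_mul, ← pow_add]
    apply hcmp
    have h3 : ζ₂ ^ k (s * t) * y = ζ₂ ^ (k s + a * k t) * y := by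
      rw [← hky, Subgroup.coe_mul, map_mul, AlgEquiv.mul_apply, hky t, map_mul, map_pow, ha2,
        hky s, pow_add, pow_mul]
      ring
    exact mul_right_cancel₀ hy h3) L (by
    intro s hs
    apply Units.ext
    change ζ₁ ^ k s = 1
    have h3 : ζ₂ ^ k s = ζ₂ ^ 0 := by
      have h4 := hky s
      rw [hLy s hs] at h4
      have h5 : ζ₂ ^ k s * y = ζ₂ ^ 0 * y := by rw [← h4]; simp
      exact mul_right_cancel₀ hy h5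
    rw [hcmp _ _ h3, pow_zero])
  refine ⟨z, z.ne_zero, ?_, ?_⟩
  · intro g hg
    have h3 := hz ⟨g, hg⟩
    change g z = ζ₁ ^ k ⟨g, hg⟩ * z at h3
    rw [map_pow, h3, mul_pow, ← pow_mul, mul_comm _ n, pow_mul, h₁.pow_eq_one, one_pow, one_mul]
  · intro g hg
    exact ⟨k ⟨g, hg⟩, hky ⟨g, hg⟩, hz ⟨g, hg⟩⟩

end Crest.Agent.R018.Kum2x568
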