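import Mathlib
import Crest.Agent.R018.Kum2_568

/-!
Row 18: transport of Kummer classes, class level and `MonoidHom` version (helper568).

`Tr α U n ζ₁ ζ₂ b c` : `b ∈ E₂` and `c ∈ E₁` have `n`-th roots with the same Kummer cocycle on `U`.
`exists_transport` : for `K₁ ⊆ E₁`, `K₂ ⊆ E₂` with `α (Gal(E₁/K₁)) ≤ Gal(E₂/K₂)` there is a map
`Φ : K₂ˣ → K₁ˣ` (homomorphism modulo `n`-th powers, injective modulo `n`-th powers if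
`α (Gal(E₁/K₁)) = Gal(E₂/K₂)`).
-/

set_option autoImplicit false

namespace Crest.Agent.R018.Kum3x568

open Crest.Agent.R018.Kumx568 Crest.Agent.R018.Kum2x568
open Crest.NumberTheoryR

variable {F₁ E₁ F₂ E₂ : Type*} [Field F₁] [Field E₁] [Algebra F₁ E₁] [Field F₂] [Field E₂]
  [Algebra F₂ E₂]

/-- `b ∈ E₂` and `c ∈ E₁` have `n`-th roots with the same Kummer cocycle on `U`. -/
def Tr (α : (E₁ ≃ₐ[F₁] E₁) →* (E₂ ≃ₐ[F₂] E₂)) (U : Subgroup (E₁ ≃ₐ[F₁] E₁)) (n : ℕ)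
    (ζ₁ : E₁) (ζ₂ : E₂) (b : E₂) (c : E₁) : Prop :=
  ∃ y : E₂, ∃ z : E₁, y ^ n = b ∧ z ^ n = c ∧ Rel α U ζ₁ ζ₂ y z

variable {α : (E₁ ≃ₐ[F₁] E₁) →* (E₂ ≃ₐ[F₂] E₂)} {U : Subgroup (E₁ ≃ₐ[F₁] E₁)} {n : ℕ}
    {ζ₁ : E₁} {ζ₂ : E₂}

theorem Tr.mono {U' : Subgroup (E₁ ≃ₐ[F₁] E₁)} {b : E₂} {c : E₁} (h : Tr α U n ζ₁ ζ₂ b c)
    (hU : U' ≤ U) : Tr α U' n ζ₁ ζ₂ b c := by
  obtain ⟨y, z, hy, hz, hr⟩ := h
  exact ⟨y, z, hy, hz, hr.mono hU⟩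

theorem Tr.mul {b b' : E₂} {c c' : E₁} (h : Tr α U n ζ₁ ζ₂ b c) (h' : Tr α U n ζ₁ ζ₂ b' c') :
    Tr α U n ζ₁ ζ₂ (b * b') (c * c') := by
  obtain ⟨y, z, hy, hz, hr⟩ := h
  obtain ⟨y', z', hy', hz', hr'⟩ := h'
  exact ⟨y * y', z * z', by rw [mul_pow, hy, hy'], by rw [mul_pow, hz, hz'], hr.mul hr'⟩

theorem Tr.one : Tr α U n ζ₁ ζ₂ 1 1 := ⟨1, 1, one_pow _, one_pow _, Rel.one⟩

theorem Tr.of_pow {b : E₂} {c : E₁} (hb : ∀ g ∈ U, α g b = b) (hc : ∀ g ∈ U, g c = c) :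
    Tr α U n ζ₁ ζ₂ (b ^ n) (c ^ n) := ⟨b, c, rfl, rfl, Rel.of_fixed hb hc⟩

theorem Tr.inv (hn : n ≠ 0) (h₁ : ζ₁ ^ n = 1) (h₂ : ζ₂ ^ n = 1) {b : E₂} {c : E₁}
    (h : Tr α U n ζ₁ ζ₂ b c) : Tr α U n ζ₁ ζ₂ b⁻¹ c⁻¹ := by
  obtain ⟨y, z, hy, hz, hr⟩ := h
  exact ⟨y⁻¹, z⁻¹, by rw [inv_pow, hy], by rw [inv_pow, hz], hr.inv hn h₁ h₂⟩

/-- `ζ₂` and `ζ₁` are related. -/
theorem rel_root (hn : n ≠ 0) (h₁ : ζ₁ ^ n = 1) (h₂ : ζ₂ ^ n = 1) (hc : Cyc α U ζ₁ ζ₂) :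
    Rel α U ζ₁ ζ₂ ζ₂ ζ₁ := by
  intro g hg
  obtain ⟨a, h3, h4⟩ := hc g hg
  refine ⟨a + (n - 1), ?_, ?_⟩
  · rw [h3, ← pow_succ, add_assoc, Nat.sub_add_cancel (Nat.pos_of_ne_zero hn), pow_add, h₂, mul_one]
  · rw [h4, ← pow_succ, add_assoc, Nat.sub_add_cancel (Nat.pos_of_ne_zero hn), pow_add, h₁, mul_one]

/-- every `n`-th root of `b` has a partner -/
theorem Tr.exists_root (hn : n ≠ 0) (h₁ : ζ₁ ^ n = 1) (h₂ : IsPrimitiveRoot ζ₂ n)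
    (hc : Cyc α U ζ₁ ζ₂) {b : E₂} {c : E₁} (hb : b ≠ 0)
    (h : Tr α U n ζ₁ ζ₂ b c) (y' : E₂) (hy' : y' ^ n = b) :
    ∃ z' : E₁, z' ^ n = c ∧ Rel α U ζ₁ ζ₂ y' z' := by
  obtain ⟨y, z, hy, hz, hr⟩ := h
  have hy0 : y ≠ 0 := by
    rintro rfl
    rw [zero_pow hn] at hy
    exact hb hy.symm
  have : NeZero n := ⟨hn⟩
  obtain ⟨i, -, hi⟩ := h₂.eq_pow_of_pow_eq_one (ξ := y' / y) (by
    rw [div_pow, hy', hy, div_self hb])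
  refine ⟨ζ₁ ^ i * z, ?_, ?_⟩
  · rw [mul_pow, ← pow_mul, mul_comm i, pow_mul, h₁, one_pow, one_mul, hz]
  · have h3 : y' = ζ₂ ^ i * y := by rw [hi, div_mul_cancel₀ _ hy0]
    rw [h3]
    exact ((rel_root hn h₁ h₂.pow_eq_one hc).pow i).mul hr

/-- the image class is unique -/
theorem Tr.unique (hn : n ≠ 0) (h₁ : IsPrimitiveRoot ζ₁ n) (h₂ : IsPrimitiveRoot ζ₂ n)
    (hc : Cyc α U ζ₁ ζ₂) {b : E₂} {c c' : E₁} (hb : b ≠ 0) (hc0 : c' ≠ 0)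
    (h : Tr α U n ζ₁ ζ₂ b c) (h' : Tr α U n ζ₁ ζ₂ b c') :
    ∃ d : E₁, (∀ g ∈ U, g d = d) ∧ c = c' * d ^ n := by
  obtain ⟨y, z, hy, hz, hr⟩ := h
  have hy0 : y ≠ 0 := by
    rintro rfl
    rw [zero_pow hn] at hy
    exact hb hy.symm
  obtain ⟨z', hz', hr'⟩ := h'.exists_root hn h₁.pow_eq_one h₂ hc hb y hy
  have hz0' : z' ≠ 0 := by
    rintro rfl
    rw [zero_pow hn] at hz'
    exact hc0 hz'.symm
  refine ⟨z / z', hr.unique h₁ h₂ hy0 hz0' hr', ?_⟩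
  rw [div_pow, hz, hz', mul_div_cancel₀ _ hc0]

/-- partner of an `n`-th root of `c` -/
theorem Tr.exists_root' (hn : n ≠ 0) (h₁ : IsPrimitiveRoot ζ₁ n) (h₂ : ζ₂ ^ n = 1)
    (hc : Cyc α U ζ₁ ζ₂) {b : E₂} {c : E₁} (hc0 : c ≠ 0)
    (h : Tr α U n ζ₁ ζ₂ b c) (z' : E₁) (hz' : z' ^ n = c) :
    ∃ y' : E₂, y' ^ n = b ∧ Rel α U ζ₁ ζ₂ y' z' := by
  obtain ⟨y, z, hy, hz, hr⟩ := h
  have hz0 : z ≠ 0 := by
    rintro rfl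
    rw [zero_pow hn] at hz
    exact hc0 hz.symm
  have : NeZero n := ⟨hn⟩
  obtain ⟨i, -, hi⟩ := h₁.eq_pow_of_pow_eq_one (ξ := z' / z) (by
    rw [div_pow, hz', hz, div_self hc0])
  refine ⟨ζ₂ ^ i * y, ?_, ?_⟩
  · rw [mul_pow, ← pow_mul, mul_comm i, pow_mul, h₂, one_pow, one_mul, hy]
  · have h3 : z' = ζ₁ ^ i * z := by rw [hi, div_mul_cancel₀ _ hz0]
    rw [h3]
    exact ((rel_root hn h₁.pow_eq_one h₂ hc).pow i).mul hr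

/-- injectivity modulo `n`-th powers of elements fixed by `α U` -/
theorem Tr.inj (hn : n ≠ 0) (h₁ : IsPrimitiveRoot ζ₁ n) (h₂ : IsPrimitiveRoot ζ₂ n)
    (hc : Cyc α U ζ₁ ζ₂) {b b' : E₂} {c : E₁} (hb' : b' ≠ 0) (hc0 : c ≠ 0)
    (h : Tr α U n ζ₁ ζ₂ b c) (h' : Tr α U n ζ₁ ζ₂ b' c) :
    ∃ d : E₂, (∀ g ∈ U, α g d = d) ∧ b = b' * d ^ n := by
  obtain ⟨y, z, hy, hz, hr⟩ := h
  have hz0 : z ≠ 0 := by
    rintro rfl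
    rw [zero_pow hn] at hz
    exact hc0 hz.symm
  obtain ⟨y', hy', hr'⟩ := h'.exists_root' hn h₁ h₂.pow_eq_one hc hc0 z hz
  have hy0' : y' ≠ 0 := by
    rintro rfl
    rw [zero_pow hn] at hy'
    exact hb' hy'.symm
  refine ⟨y / y', hr.inj hn h₁ h₂ hy0' hz0 hr', ?_⟩
  rw [div_pow, hy, hy', mul_div_cancel₀ _ hb']

/-- existence -/
theorem exists_tr [CharZero E₂] (hsc : IsSolvablyClosed E₂) [Algebra.IsIntegral F₂ E₂]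
    (hα : Continuous α)
    (hn : n ≠ 0) (h₁ : IsPrimitiveRoot ζ₁ n) (h₂ : IsPrimitiveRoot ζ₂ n) (hc : Cyc α U ζ₁ ζ₂)
    (b : E₂) (hb : b ≠ 0) (hbU : ∀ g ∈ U, α g b = b) :
    ∃ c : E₁, c ≠ 0 ∧ (∀ g ∈ U, g c = c) ∧ Tr α U n ζ₁ ζ₂ b c := by
  obtain ⟨y, hy⟩ := exists_pow_eq hsc n hn b
  have hy0 : y ≠ 0 := by
    rintro rfl
    rw [zero_pow hn] at hy
    exact hb hy.symm
  obtain ⟨z, hz0, hz, hr⟩ := exists_rel hα hn h₁ h₂ hc y hy0 (by rw [hy]; exact hbU)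
  exact ⟨z ^ n, pow_ne_zero _ hz0, hz, y, z, hy, rfl, hr⟩

/-- lowering the level -/
theorem Tr.level {m k : ℕ} (hn : n = m * k) {b : E₂} {c : E₁} (h : Tr α U n ζ₁ ζ₂ b c) :
    Tr α U m (ζ₁ ^ k) (ζ₂ ^ k) b c := by
  obtain ⟨y, z, hy, hz, hr⟩ := h
  refine ⟨y ^ k, z ^ k, ?_, ?_, hr.pow' k⟩
  · rw [← pow_mul, mul_comm k, ← hn, hy]
  · rw [← pow_mul, mul_comm k, ← hn, hz]

/-- raising the level: `b^k` at level `m * k` -/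
theorem Tr.level' {m k : ℕ} (hn : n = m * k) {b : E₂} {c : E₁}
    (h : Tr α U m (ζ₁ ^ k) (ζ₂ ^ k) b c) : Tr α U n ζ₁ ζ₂ (b ^ k) (c ^ k) := by
  obtain ⟨y, z, hy, hz, hr⟩ := h
  refine ⟨y, z, ?_, ?_, ?_⟩
  · rw [hn, pow_mul, hy]
  · rw [hn, pow_mul, hz]
  · intro g hg
    obtain ⟨i, h1, h2⟩ := hr g hg
    exact ⟨k * i, by rw [h1, pow_mul], by rw [h2, pow_mul]⟩

/-- Galois equivariance: `h` moves `U` to `U' = h U h⁻¹`. -/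
theorem Tr.conj {b : E₂} {c : E₁} (hr : Tr α U n ζ₁ ζ₂ b c) (h : E₁ ≃ₐ[F₁] E₁) (a : ℕ)
    (ha₂ : α h ζ₂ = ζ₂ ^ a) (ha₁ : h ζ₁ = ζ₁ ^ a) (U' : Subgroup (E₁ ≃ₐ[F₁] E₁))
    (hU : ∀ g ∈ U', h⁻¹ * g * h ∈ U) :
    Tr α U' n ζ₁ ζ₂ (α h b) (h c) := by
  obtain ⟨y, z, hy, hz, hr⟩ := hr
  exact ⟨α h y, h z, by rw [← map_pow, hy], by rw [← map_pow, hz],
    fun g hg => hr.conj h a ha₂ ha₁ g (hU g hg)⟩

section fields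

variable (K₁ : IntermediateField F₁ E₁) (K₂ : IntermediateField F₂ E₂)

/-- **Transport of Kummer classes** `K₂ˣ → K₁ˣ` along `α`, any `n`, roots of unity not
necessarily in the base fields. -/
theorem exists_transport [CharZero E₂] (hsc : IsSolvablyClosed E₂) [Algebra.IsIntegral F₂ E₂]
    [IsGalois F₁ E₁]
    (hα : Continuous α) (hn : n ≠ 0) (h₁ : IsPrimitiveRoot ζ₁ n) (h₂ : IsPrimitiveRoot ζ₂ n)
    (hK : ∀ g ∈ K₁.fixingSubgroup, α g ∈ K₂.fixingSubgroup)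
    (hc : Cyc α K₁.fixingSubgroup ζ₁ ζ₂) :
    ∃ Φ : K₂ˣ → K₁ˣ, ∀ b : K₂ˣ, Tr α K₁.fixingSubgroup n ζ₁ ζ₂ ((b : K₂) : E₂) ((Φ b : K₁) : E₁) := by
  have h : ∀ b : K₂ˣ, ∃ c : K₁ˣ,
      Tr α K₁.fixingSubgroup n ζ₁ ζ₂ ((b : K₂) : E₂) ((c : K₁) : E₁) := by
    intro b
    have hb0 : ((b : K₂) : E₂) ≠ 0 := by
      intro h0
      exact b.ne_zero (Subtype.ext h0)
    obtain ⟨c, hc0, hcU, htr⟩ := exists_tr hsc hα hn h₁ h₂ hc ((b : K₂) : E₂) hb0 (by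
      intro g hg
      exact (IntermediateField.mem_fixingSubgroup_iff _ _).1 (hK g hg) _ (b : K₂).2)
    have hcK : c ∈ K₁ := by
      have h3 : c ∈ IntermediateField.fixedField K₁.fixingSubgroup := by
        rw [IntermediateField.mem_fixedField_iff]
        exact hcU
      rwa [InfiniteGalois.fixedField_fixingSubgroup] at h3
    refine ⟨Units.mk0 ⟨c, hcK⟩ (fun h0 => hc0 (congrArg Subtype.val h0)), htr⟩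
  choose Φ hΦ using h
  exact ⟨Φ, hΦ⟩

variable {K₁ K₂}

omit [Algebra F₂ E₂] in
theorem coe_units_ne_zero (b : K₁ˣ) : ((b : K₁) : E₁) ≠ 0 := by
  intro h0
  exact b.ne_zero (Subtype.ext h0)

/-- fixed elements are in the field -/
theorem mem_of_fixed [IsGalois F₁ E₁] (K₁ : IntermediateField F₁ E₁) (c : E₁)
    (hc : ∀ g ∈ K₁.fixingSubgroup, g c = c) : c ∈ K₁ := by
  have h3 : c ∈ IntermediateField.fixedField K₁.fixingSubgroup := by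
    rw [IntermediateField.mem_fixedField_iff]
    exact hc
  rwa [InfiniteGalois.fixedField_fixingSubgroup] at h3

theorem Tr.unique_units [IsGalois F₁ E₁] (hn : n ≠ 0) (h₁ : IsPrimitiveRoot ζ₁ n)
    (h₂ : IsPrimitiveRoot ζ₂ n)
    (hc : Cyc α K₁.fixingSubgroup ζ₁ ζ₂) {b : E₂} (hb : b ≠ 0) {c c' : K₁ˣ}
    (h : Tr α K₁.fixingSubgroup n ζ₁ ζ₂ b ((c : K₁) : E₁))
    (h' : Tr α K₁.fixingSubgroup n ζ₁ ζ₂ b ((c' : K₁) : E₁)) :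
    ∃ d : K₁ˣ, c = c' * d ^ n := by
  obtain ⟨d, hd, hcd⟩ := h.unique hn h₁ h₂ hc hb (coe_units_ne_zero c') h'
  have hdK := mem_of_fixed K₁ d hd
  have hd0 : d ≠ 0 := by
    rintro rfl
    rw [zero_pow hn, mul_zero] at hcd
    exact coe_units_ne_zero c hcd
  refine ⟨Units.mk0 ⟨d, hdK⟩ (fun h0 => hd0 (congrArg Subtype.val h0)), ?_⟩
  apply Units.ext
  apply Subtype.ext
  simpa using hcd

/-- multiplicativity of the transport modulo `n`-th powers -/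
theorem transport_mul [IsGalois F₁ E₁] (hn : n ≠ 0) (h₁ : IsPrimitiveRoot ζ₁ n)
    (h₂ : IsPrimitiveRoot ζ₂ n)
    (hc : Cyc α K₁.fixingSubgroup ζ₁ ζ₂) (Φ : K₂ˣ → K₁ˣ)
    (hΦ : ∀ b : K₂ˣ, Tr α K₁.fixingSubgroup n ζ₁ ζ₂ ((b : K₂) : E₂) ((Φ b : K₁) : E₁))
    (b b' : K₂ˣ) : ∃ d : K₁ˣ, Φ (b * b') = Φ b * Φ b' * d ^ n := by
  apply Tr.unique_units hn h₁ h₂ hc (coe_units_ne_zero (b * b')) (hΦ _)
  simpa using (hΦ b).mul (hΦ b')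

/-- injectivity of the transport modulo `n`-th powers, `α (Gal(E₁/K₁)) = Gal(E₂/K₂)` -/
theorem transport_inj [IsGalois F₂ E₂] (hn : n ≠ 0) (h₁ : IsPrimitiveRoot ζ₁ n)
    (h₂ : IsPrimitiveRoot ζ₂ n)
    (hc : Cyc α K₁.fixingSubgroup ζ₁ ζ₂)
    (hK : ∀ g ∈ K₂.fixingSubgroup, ∃ g' ∈ K₁.fixingSubgroup, α g' = g)
    (b b' : K₂ˣ) (c c' z : K₁ˣ)
    (h : Tr α K₁.fixingSubgroup n ζ₁ ζ₂ ((b : K₂) : E₂) ((c : K₁) : E₁))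
    (h' : Tr α K₁.fixingSubgroup n ζ₁ ζ₂ ((b' : K₂) : E₂) ((c' : K₁) : E₁))
    (hz : c = c' * z ^ n) : ∃ z : K₂ˣ, b = b' * z ^ n := by
  have h3 : Tr α K₁.fixingSubgroup n ζ₁ ζ₂ (((b' : K₂) : E₂) * 1 ^ n)
      (((c' : K₁) : E₁) * ((z : K₁) : E₁) ^ n) :=
    h'.mul (Tr.of_pow (fun _ _ => map_one _) (fun g hg =>
      (IntermediateField.mem_fixingSubgroup_iff _ _).1 hg _ (z : K₁).2))
  rw [one_pow, mul_one] at h3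
  have h4 : ((c' : K₁) : E₁) * ((z : K₁) : E₁) ^ n = ((c : K₁) : E₁) := by
    rw [hz]; simp
  rw [h4] at h3
  obtain ⟨d, hd, hbd⟩ := h.inj hn h₁ h₂ hc (coe_units_ne_zero b') (coe_units_ne_zero c) h3
  have hdK : d ∈ K₂ := by
    apply mem_of_fixed
    intro g hg
    obtain ⟨g', hg', rfl⟩ := hK g hg
    exact hd g' hg'
  have hd0 : d ≠ 0 := by
    rintro rfl
    rw [zero_pow hn, mul_zero] at hbd
    exact coe_units_ne_zero b hbd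
  refine ⟨Units.mk0 ⟨d, hdK⟩ (fun h0 => hd0 (congrArg Subtype.val h0)), ?_⟩
  apply Units.ext
  apply Subtype.ext
  simpa using hbd

end fields

end Crest.Agent.R018.Kum3x568
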