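import Mathlib
import Crest.Agent.R018.Kum3_568

/-!
Row 18, (S2), transport half (helper568).

`α : Gal(E₁/F₁) → Gal(E₂/F₂)` continuous and onto, `K/F₁` finite of degree prime to `n`,
`α` compatible with the action on `μ_n` over `K`.  Kummer classes `F₂ˣ/n → Kˣ/n`:
* `transport_inj`  injective modulo `n`-th powers,
* `transport_eig`  `h (Φ x)^a = (Φ x)^a'` modulo `n`-th powers if `α h ζ₂ = ζ₂^a`, `h ζ₁ = ζ₁^a'`,
* `transport_ram`  if `α τ` fixes the `n`-th roots of `x` then `τ` fixes the `n`-th roots of `Φ x`.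
-/

set_option autoImplicit false

namespace Crest.Agent.R018.S2Trx568

open Crest.Agent.R018.Kumx568 Crest.Agent.R018.Kum2x568 Crest.Agent.R018.Kum3x568
open Crest.NumberTheoryR

section group

/-- in a commutative group: `z^e` an `n`-th power, `e` prime to `n` ⇒ `z` is an `n`-th power -/
theorem exists_pow_of_coprime {G : Type*} [CommGroup G] (z w : G) (e n : ℕ) (h : Nat.Coprime e n)
    (hz : z ^ e = w ^ n) : ∃ u : G, z = u ^ n := by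
  have h1 : IsCoprime (e : ℤ) (n : ℤ) := Nat.isCoprime_iff_coprime.2 h
  obtain ⟨a, b, hab⟩ := h1
  refine ⟨w ^ a * z ^ b, ?_⟩
  calc z = z ^ (a * e + b * n) := by rw [hab, zpow_one]
    _ = (z ^ e) ^ a * (z ^ b) ^ n := by
        rw [zpow_add, mul_comm a, zpow_mul, zpow_natCast, zpow_mul, zpow_natCast]
    _ = (w ^ a * z ^ b) ^ n := by
        rw [hz, mul_pow]
        congr 1
        rw [← zpow_natCast, ← zpow_mul, ← zpow_natCast, ← zpow_mul, mul_comm (n : ℤ)]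

end group

variable {F₁ E₁ F₂ E₂ : Type*} [Field F₁] [Field E₁] [Algebra F₁ E₁] [Field F₂] [Field E₂]
  [Algebra F₂ E₂]

/-- The norm argument: `x ∈ F₂ˣ` is an `n`-th power of an element fixed by the subgroup `V` of
finite index prime to `n`; then `x` is an `n`-th power in `F₂ˣ`. -/
theorem exists_root_of_coprime_index [IsGalois F₂ E₂] (V : Subgroup (E₂ ≃ₐ[F₂] E₂))
    (hV : V.index ≠ 0) (n : ℕ) (hn : n ≠ 0) (hcop : Nat.Coprime V.index n) (x : F₂ˣ) (b : E₂)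
    (hb : ∀ g ∈ V, g b = b) (hx : algebraMap F₂ E₂ (x : F₂) = b ^ n) :
    ∃ u : F₂ˣ, x = u ^ n := by
  classical
  have : V.FiniteIndex := ⟨hV⟩
  have : Fintype ((E₂ ≃ₐ[F₂] E₂) ⧸ V) := V.fintypeQuotientOfFiniteIndex
  set N : E₂ := ∏ q : (E₂ ≃ₐ[F₂] E₂) ⧸ V, (q.out : E₂ ≃ₐ[F₂] E₂) b with hN
  have hout : ∀ (g : E₂ ≃ₐ[F₂] E₂), ((g : (E₂ ≃ₐ[F₂] E₂) ⧸ V).out : E₂ ≃ₐ[F₂] E₂) b = g b := by
    intro g
    have h1 : (g : (E₂ ≃ₐ[F₂] E₂) ⧸ V).out⁻¹ * g ∈ V := by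
      rw [← QuotientGroup.eq, QuotientGroup.out_eq']
    have h2 := hb _ h1
    conv_lhs => rw [← h2]
    rw [← AlgEquiv.mul_apply, mul_inv_cancel_left]
  have hfix : ∀ g : E₂ ≃ₐ[F₂] E₂, g N = N := by
    intro g
    rw [hN, map_prod]
    rw [← Equiv.prod_comp (MulAction.toPerm g : Equiv.Perm ((E₂ ≃ₐ[F₂] E₂) ⧸ V))
      (fun q : (E₂ ≃ₐ[F₂] E₂) ⧸ V => (q.out : E₂ ≃ₐ[F₂] E₂) b)]
    apply Finset.prod_congr rfl
    intro q _
    have h1 : (MulAction.toPerm g : Equiv.Perm ((E₂ ≃ₐ[F₂] E₂) ⧸ V)) q =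
        ((g * q.out : E₂ ≃ₐ[F₂] E₂) : (E₂ ≃ₐ[F₂] E₂) ⧸ V) := by
      rw [MulAction.toPerm_apply]
      conv_lhs => rw [← QuotientGroup.out_eq' q]
      rfl
    rw [h1, hout, AlgEquiv.mul_apply]
  obtain ⟨w, hw⟩ := (InfiniteGalois.mem_range_algebraMap_iff_fixed N).2 hfix
  have hNn : N ^ n = algebraMap F₂ E₂ ((x : F₂) ^ V.index) := by
    rw [hN, ← Finset.prod_pow]
    have h1 : ∀ q : (E₂ ≃ₐ[F₂] E₂) ⧸ V, ((q.out : E₂ ≃ₐ[F₂] E₂) b) ^ n =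
        algebraMap F₂ E₂ (x : F₂) := by
      intro q
      rw [← map_pow, ← hx, AlgEquiv.commutes]
    rw [Finset.prod_congr rfl (fun q _ => h1 q), Finset.prod_const, map_pow]
    congr 1
    rw [Finset.card_univ, ← Nat.card_eq_fintype_card]
    rfl
  have hw2 : w ^ n = (x : F₂) ^ V.index := by
    apply (algebraMap F₂ E₂).injective
    rw [map_pow, hw, hNn]
  have hw0 : w ≠ 0 := by
    rintro rfl
    rw [zero_pow hn] at hw2
    exact pow_ne_zero _ x.ne_zero hw2.symm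
  exact exists_pow_of_coprime x (Units.mk0 w hw0) V.index n hcop (by
    apply Units.ext
    simpa using hw2.symm)

variable {α : (E₁ ≃ₐ[F₁] E₁) →* (E₂ ≃ₐ[F₂] E₂)} {n : ℕ} {ζ₁ : E₁} {ζ₂ : E₂}

variable (K : IntermediateField F₁ E₁)

/-- `Φ : F₂ˣ → Kˣ` is a Kummer transport at level `n`. -/
def IsTransport (α : (E₁ ≃ₐ[F₁] E₁) →* (E₂ ≃ₐ[F₂] E₂)) (n : ℕ) (ζ₁ : E₁) (ζ₂ : E₂)
    (Φ : F₂ˣ → Kˣ) : Prop :=
  ∀ x : F₂ˣ, Tr α K.fixingSubgroup n ζ₁ ζ₂ (algebraMap F₂ E₂ (x : F₂)) ((Φ x : K) : E₁)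

variable {K}

omit [Algebra F₂ E₂] in
theorem algebraMap_units_ne_zero [Algebra F₂ E₂] (x : F₂ˣ) : algebraMap F₂ E₂ (x : F₂) ≠ 0 := by
  rw [Ne, map_eq_zero]
  exact x.ne_zero

theorem exists_isTransport [CharZero E₂] (hsc : IsSolvablyClosed E₂) [IsGalois F₁ E₁]
    [IsGalois F₂ E₂] (hα : Continuous α) (hn : n ≠ 0)
    (h₁ : IsPrimitiveRoot ζ₁ n) (h₂ : IsPrimitiveRoot ζ₂ n)
    (hc : Cyc α K.fixingSubgroup ζ₁ ζ₂) : ∃ Φ : F₂ˣ → Kˣ, IsTransport K α n ζ₁ ζ₂ Φ := by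
  have h : ∀ b : F₂ˣ, ∃ c : Kˣ,
      Tr α K.fixingSubgroup n ζ₁ ζ₂ (algebraMap F₂ E₂ (b : F₂)) ((c : K) : E₁) := by
    intro b
    obtain ⟨c, hc0, hcU, htr⟩ := exists_tr hsc hα hn h₁ h₂ hc (algebraMap F₂ E₂ (b : F₂))
      (algebraMap_units_ne_zero b) (fun g _ => AlgEquiv.commutes _ _)
    exact ⟨Units.mk0 ⟨c, mem_of_fixed K c hcU⟩ (fun h0 => hc0 (congrArg Subtype.val h0)), htr⟩
  choose Φ hΦ using h
  exact ⟨Φ, hΦ⟩

variable {Φ : F₂ˣ → Kˣ}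

/-- (1) multiplicativity -/
theorem IsTransport.map_mul [IsGalois F₁ E₁] (hn : n ≠ 0) (h₁ : IsPrimitiveRoot ζ₁ n)
    (h₂ : IsPrimitiveRoot ζ₂ n) (hc : Cyc α K.fixingSubgroup ζ₁ ζ₂)
    (hΦ : IsTransport K α n ζ₁ ζ₂ Φ) (x y : F₂ˣ) : ∃ d : Kˣ, Φ (x * y) = Φ x * Φ y * d ^ n := by
  apply Tr.unique_units hn h₁ h₂ hc (algebraMap_units_ne_zero (E₂ := E₂) (x * y)) (hΦ _)
  simpa using (hΦ x).mul (hΦ y)

/-- (2) injectivity modulo `n`-th powers -/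
theorem IsTransport.inj [IsGalois F₁ E₁] [IsGalois F₂ E₂] [FiniteDimensional F₁ K]
    (hsurj : Function.Surjective α)
    (hn : n ≠ 0) (h₁ : IsPrimitiveRoot ζ₁ n)
    (h₂ : IsPrimitiveRoot ζ₂ n) (hc : Cyc α K.fixingSubgroup ζ₁ ζ₂)
    (hcop : Nat.Coprime (Module.finrank F₁ K) n)
    (hΦ : IsTransport K α n ζ₁ ζ₂ Φ) (x y : F₂ˣ) (d : Kˣ) (hd : Φ x = Φ y * d ^ n) :
    ∃ b : F₂ˣ, x = y * b ^ n := by
  have h3 : Tr α K.fixingSubgroup n ζ₁ ζ₂ (algebraMap F₂ E₂ (y : F₂) * 1 ^ n)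
      (((Φ y : K) : E₁) * ((d : K) : E₁) ^ n) :=
    (hΦ y).mul (Tr.of_pow (fun _ _ => _root_.map_one _) (fun g hg =>
      (IntermediateField.mem_fixingSubgroup_iff _ _).1 hg _ (d : K).2))
  rw [one_pow, mul_one] at h3
  have h4 : ((Φ y : K) : E₁) * ((d : K) : E₁) ^ n = ((Φ x : K) : E₁) := by
    rw [hd]; simp
  rw [h4] at h3
  obtain ⟨b, hb, hbd⟩ := (hΦ x).inj hn h₁ h₂ hc (algebraMap_units_ne_zero y)
    (coe_units_ne_zero (Φ x)) h3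
  -- index of the image
  have hidx : (K.fixingSubgroup.map α).index ∣ K.fixingSubgroup.index :=
    Subgroup.index_map_dvd _ hsurj
  have hK : K.fixingSubgroup.index = Module.finrank F₁ K :=
    (IntermediateField.finrank_eq_fixingSubgroup_index (L := K)).symm
  have hcop' : Nat.Coprime (K.fixingSubgroup.map α).index n := by
    rw [hK] at hidx
    exact Nat.Coprime.coprime_dvd_left hidx hcop
  have h0 : (K.fixingSubgroup.map α).index ≠ 0 := by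
    intro h0
    rw [h0, hK, zero_dvd_iff] at hidx
    exact (Module.finrank_pos (R := F₁) (M := K)).ne' hidx
  have hxy : algebraMap F₂ E₂ ((x / y : F₂ˣ) : F₂) = b ^ n := by
    rw [Units.val_div_eq_div_val, map_div₀, hbd, mul_div_cancel_left₀ _
      (algebraMap_units_ne_zero y)]
  obtain ⟨u, hu⟩ := exists_root_of_coprime_index (K.fixingSubgroup.map α) h0 n hn hcop' (x / y) b
    (by
      rintro g ⟨g', hg', rfl⟩
      exact hb g' hg') hxy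
  exact ⟨u, by rw [← hu, mul_div_cancel]⟩

/-- (3) the eigenvalue property: `α h ζ₂ = ζ₂^a`, `h ζ₁ = ζ₁^a'` -/
theorem IsTransport.eig [IsGalois F₁ E₁] (hK : K.fixingSubgroup.Normal)
    (hn : n ≠ 0) (h₁ : IsPrimitiveRoot ζ₁ n)
    (h₂ : IsPrimitiveRoot ζ₂ n) (hc : Cyc α K.fixingSubgroup ζ₁ ζ₂)
    (hΦ : IsTransport K α n ζ₁ ζ₂ Φ) (x : F₂ˣ) (h : E₁ ≃ₐ[F₁] E₁) (a a' : ℕ)
    (ha : α h ζ₂ = ζ₂ ^ a) (ha' : h ζ₁ = ζ₁ ^ a') :
    ∃ d : Kˣ, (h ((Φ x : K) : E₁)) ^ a = ((Φ x : K) : E₁) ^ a' * ((d : K) : E₁) ^ n := by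
  obtain ⟨y, z, hy, hz, hr⟩ := hΦ x
  have hmem : ∀ g ∈ K.fixingSubgroup, h⁻¹ * g * h ∈ K.fixingSubgroup := by
    intro g hg
    have := hK.conj_mem g hg h⁻¹
    simpa using this
  -- the related pair
  have hr' : Rel α K.fixingSubgroup ζ₁ ζ₂ ((α h y) ^ a') ((h z) ^ a) := by
    intro g hg
    obtain ⟨i, h3, h4⟩ := hr _ (hmem g hg)
    refine ⟨a * i * a', ?_, ?_⟩
    · have h5 : α g (α h y) = α h (α (h⁻¹ * g * h) y) := by
        rw [← AlgEquiv.mul_apply, ← AlgEquiv.mul_apply, ← _root_.map_mul, ← _root_.map_mul]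
        congr 2
        group
      rw [map_pow, h5, h3, _root_.map_mul, map_pow, ha, mul_pow, ← pow_mul, ← pow_mul, mul_assoc a]
    · have h5 : g (h z) = h ((h⁻¹ * g * h) z) := by
        rw [← AlgEquiv.mul_apply, ← AlgEquiv.mul_apply]
        congr 1
        group
      rw [map_pow, h5, h4, _root_.map_mul, map_pow, ha', mul_pow, ← pow_mul, ← pow_mul]
      congr 2
      ring
  have ht : Tr α K.fixingSubgroup n ζ₁ ζ₂ ((algebraMap F₂ E₂ (x : F₂)) ^ a')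
      ((h ((Φ x : K) : E₁)) ^ a) := by
    refine ⟨_, _, ?_, ?_, hr'⟩
    · rw [← pow_mul, mul_comm a', pow_mul, ← map_pow, hy, AlgEquiv.commutes]
    · rw [← pow_mul, mul_comm a, pow_mul, ← map_pow, hz]
  have ht' : Tr α K.fixingSubgroup n ζ₁ ζ₂ ((algebraMap F₂ E₂ (x : F₂)) ^ a')
      (((Φ x : K) : E₁) ^ a') := by
    refine ⟨y ^ a', z ^ a', ?_, ?_, hr.pow a'⟩
    · rw [← pow_mul, mul_comm a', pow_mul, hy]
    · rw [← pow_mul, mul_comm a', pow_mul, hz]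
  obtain ⟨d, hd, hcd⟩ := ht.unique hn h₁ h₂ hc (pow_ne_zero _ (algebraMap_units_ne_zero x))
    (pow_ne_zero _ (coe_units_ne_zero (Φ x))) ht'
  have hd0 : d ≠ 0 := by
    rintro rfl
    rw [zero_pow hn, mul_zero] at hcd
    refine pow_ne_zero a ?_ hcd
    rw [Ne, map_eq_zero]
    exact coe_units_ne_zero (Φ x)
  exact ⟨Units.mk0 ⟨d, mem_of_fixed K d hd⟩ (fun h0 => hd0 (congrArg Subtype.val h0)), hcd⟩

/-- (4) unramifiedness: if `α τ` fixes the `n`-th roots of `x` then `τ` fixes the `n`-th roots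
of `Φ x`. -/
theorem IsTransport.ram (hn : n ≠ 0) (h₁ : IsPrimitiveRoot ζ₁ n)
    (h₂ : IsPrimitiveRoot ζ₂ n) (hc : Cyc α K.fixingSubgroup ζ₁ ζ₂)
    (hΦ : IsTransport K α n ζ₁ ζ₂ Φ) (x : F₂ˣ) (τ : E₁ ≃ₐ[F₁] E₁) (hτ : τ ∈ K.fixingSubgroup)
    (hfix : ∀ y : E₂, y ^ n = algebraMap F₂ E₂ (x : F₂) → α τ y = y)
    (z : E₁) (hz : z ^ n = ((Φ x : K) : E₁)) : τ z = z := by
  obtain ⟨y, hy, hr⟩ := (hΦ x).exists_root' hn h₁ h₂.pow_eq_one hc (coe_units_ne_zero (Φ x)) z hz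
  obtain ⟨i, h3, h4⟩ := hr τ hτ
  rw [hfix y hy] at h3
  have hy0 : y ≠ 0 := by
    rintro rfl
    rw [zero_pow hn] at hy
    exact algebraMap_units_ne_zero x hy.symm
  have h5 : ζ₂ ^ i = 1 := by
    have : ζ₂ ^ i * y = 1 * y := by rw [← h3, one_mul]
    exact mul_right_cancel₀ hy0 this
  have h6 : n ∣ i := (h₂.pow_eq_one_iff_dvd i).1 h5
  have h7 : ζ₁ ^ i = 1 := (h₁.pow_eq_one_iff_dvd i).2 h6
  rw [h4, h7, one_mul]

/-- (4') the converse -/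
theorem IsTransport.ram' (hn : n ≠ 0) (h₁ : IsPrimitiveRoot ζ₁ n)
    (h₂ : IsPrimitiveRoot ζ₂ n) (hc : Cyc α K.fixingSubgroup ζ₁ ζ₂)
    (hΦ : IsTransport K α n ζ₁ ζ₂ Φ) (x : F₂ˣ) (τ : E₁ ≃ₐ[F₁] E₁) (hτ : τ ∈ K.fixingSubgroup)
    (hfix : ∀ z : E₁, z ^ n = ((Φ x : K) : E₁) → τ z = z)
    (y : E₂) (hy : y ^ n = algebraMap F₂ E₂ (x : F₂)) : α τ y = y := by
  obtain ⟨z, hz, hr⟩ := (hΦ x).exists_root hn h₁.pow_eq_one h₂ hc (algebraMap_units_ne_zero x) y hy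
  obtain ⟨i, h3, h4⟩ := hr τ hτ
  rw [hfix z hz] at h4
  have hz0 : z ≠ 0 := by
    rintro rfl
    rw [zero_pow hn] at hz
    exact coe_units_ne_zero (Φ x) hz.symm
  have h5 : ζ₁ ^ i = 1 := by
    have : ζ₁ ^ i * z = 1 * z := by rw [← h4, one_mul]
    exact mul_right_cancel₀ hz0 this
  have h6 : n ∣ i := (h₁.pow_eq_one_iff_dvd i).1 h5
  have h7 : ζ₂ ^ i = 1 := (h₂.pow_eq_one_iff_dvd i).2 h6
  rw [h3, h7, one_mul]

end Crest.Agent.R018.S2Trx568
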