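import Mathlib
import Crest.Agent.R018.S2Tr_568

/-!
Row 18, (S2): the kernel of `ψ_l = (χ₂ ∘ α) / χ₁` (helper568).

* `psiKer α l hl` : the (closed normal) subgroup of all `h ∈ Gal(E₁/F₁)` such that `h` and `α h` act
  by the same exponent on the `l`-power roots of unity of `E₁` and `E₂`;
* `not_dvd_index` : if its index is finite it is prime to `l` (`l` odd);
* `psiField` : its fixed field, `fixingSubgroup_psiField`, `finite_psiField`, `isGalois_psiField`,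
  `coprime_finrank`, `cyc_psiField`;
* `IsTransport.eigen` : `g (Φ x) = (Φ x)^m` modulo `l^n`-th powers, `m` depends on `g` only.
-/

set_option autoImplicit false

namespace Crest.Agent.R018.S2Psix568

open Crest.Agent.R018.Kumx568 Crest.Agent.R018.Kum2x568 Crest.Agent.R018.Kum3x568
open Crest.Agent.R018.S2Trx568
open Crest.NumberTheoryR

section arith

/-- `a^l ≡ b^l mod l^(n+1)` implies `a ≡ b mod l^n`, `l` odd prime, `a` prime to `l`. -/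
theorem modEq_of_pow_modEq {l : ℕ} (hl : l.Prime) (hodd : l ≠ 2) (n : ℕ) (a b : ℕ)
    (ha : Nat.Coprime a l) (h : a ^ l ≡ b ^ l [MOD l ^ (n + 1)]) : a ≡ b [MOD l ^ n] := by
  have : Fact l.Prime := ⟨hl⟩
  have hodd' : Odd l := hl.odd_of_ne_two hodd
  have h1 : a ^ l ≡ b ^ l [MOD l] := h.of_dvd (dvd_pow_self _ (Nat.succ_ne_zero n))
  have h2 : a ≡ b [MOD l] := by
    rw [← ZMod.natCast_eq_natCast_iff] at h1 ⊢
    push_cast at h1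
    rwa [ZMod.pow_card, ZMod.pow_card] at h1
  have h3 : (l : ℤ) ∣ (a : ℤ) - b := by
    have := (Nat.modEq_iff_dvd.1 h2)
    rw [← dvd_neg, neg_sub]
    exact this
  have h4 : ¬ (l : ℤ) ∣ (a : ℤ) := by
    intro h5
    have h6 : l ∣ a := by exact_mod_cast h5
    have h7 : l ∣ Nat.gcd a l := Nat.dvd_gcd h6 dvd_rfl
    rw [ha] at h7
    exact hl.one_lt.ne' (Nat.dvd_one.1 h7)
  have h5 := Int.emultiplicity_pow_sub_pow hl hodd' h3 h4 l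
  have h6 : ((l ^ (n + 1) : ℕ) : ℤ) ∣ (a : ℤ) ^ l - (b : ℤ) ^ l := by
    have := (Nat.modEq_iff_dvd.1 h)
    push_cast at this
    rw [← dvd_neg, neg_sub]
    exact_mod_cast this
  have h7 : ((n + 1 : ℕ) : ℕ∞) ≤ emultiplicity (l : ℤ) ((a : ℤ) ^ l - (b : ℤ) ^ l) := by
    apply le_emultiplicity_of_pow_dvd
    exact_mod_cast h6
  have h8 : emultiplicity l l = 1 :=
    (Nat.finiteMultiplicity_iff.2 ⟨hl.ne_one, hl.pos⟩).emultiplicity_self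
  rw [h5, h8] at h7
  have h9 : ((n : ℕ) : ℕ∞) ≤ emultiplicity (l : ℤ) ((a : ℤ) - b) := by
    push_cast at h7
    exact (ENat.add_le_add_iff_right (by simp)).1 h7
  have h10 : (l : ℤ) ^ n ∣ (a : ℤ) - b := pow_dvd_of_le_emultiplicity h9
  apply Nat.modEq_iff_dvd.2
  rw [← dvd_neg, neg_sub]
  exact_mod_cast h10

end arith

section prim

variable {F E E' : Type*} [Field F] [Field E] [Algebra F E] [Field E']

theorem exists_exp {ζ : E} {n : ℕ} (hn : n ≠ 0) (h : IsPrimitiveRoot ζ n) (g : E ≃ₐ[F] E) :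
    ∃ a : ℕ, Nat.Coprime a n ∧ g ζ = ζ ^ a := by
  have : NeZero n := ⟨hn⟩
  have h1 : IsPrimitiveRoot (g ζ) n := h.map_of_injective g.injective
  obtain ⟨i, -, hi, hi'⟩ := (h.isPrimitiveRoot_iff).1 h1
  exact ⟨i, hi, hi'.symm⟩

omit [Algebra F E] in
theorem pow_eq_iff_modEq {ζ : E} {n : ℕ} (hn : n ≠ 0) (h : IsPrimitiveRoot ζ n) (i j : ℕ) :
    ζ ^ i = ζ ^ j ↔ i ≡ j [MOD n] := by
  have hn' : 0 < n := Nat.pos_of_ne_zero hn
  have h1 : ∀ i : ℕ, ζ ^ i = ζ ^ (i % n) := by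
    intro i
    rw [h.eq_orderOf, pow_mod_orderOf]
  rw [h1 i, h1 j]
  constructor
  · intro h2
    exact h.pow_inj (Nat.mod_lt _ hn') (Nat.mod_lt _ hn') h2
  · intro h2
    have h3 : i % n = j % n := h2
    rw [h3]

/-- all elements of `μ_n` are raised to the same power -/
theorem apply_of_pow {ζ ξ : E} {n a : ℕ} (hn : n ≠ 0) (h : IsPrimitiveRoot ζ n)
    (g : E ≃ₐ[F] E) (hg : g ζ = ζ ^ a) (hξ : ξ ^ n = 1) : g ξ = ξ ^ a := by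
  have : NeZero n := ⟨hn⟩
  obtain ⟨i, -, rfl⟩ := h.eq_pow_of_pow_eq_one hξ
  rw [map_pow, hg, ← pow_mul, ← pow_mul, mul_comm]

end prim

variable {F₁ E₁ F₂ E₂ : Type*} [Field F₁] [Field E₁] [Algebra F₁ E₁] [Field F₂] [Field E₂]
  [Algebra F₂ E₂]

variable (α : (E₁ ≃ₐ[F₁] E₁) →* (E₂ ≃ₐ[F₂] E₂))

/-- `h` and `α h` act by the same exponent on `μ_n`. -/
def lev {n : ℕ} (hn : n ≠ 0) {ζ₁ : E₁} {ζ₂ : E₂} (h₁ : IsPrimitiveRoot ζ₁ n)
    (h₂ : IsPrimitiveRoot ζ₂ n) : Subgroup (E₁ ≃ₐ[F₁] E₁) where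
  carrier := {h | ∃ a : ℕ, h ζ₁ = ζ₁ ^ a ∧ α h ζ₂ = ζ₂ ^ a}
  mul_mem' := by
    rintro g h ⟨a, h3, h4⟩ ⟨b, h5, h6⟩
    exact ⟨a * b, by rw [AlgEquiv.mul_apply, h5, map_pow, h3, pow_mul],
      by rw [map_mul, AlgEquiv.mul_apply, h6, map_pow, h4, pow_mul]⟩
  one_mem' := ⟨1, by simp, by simp⟩
  inv_mem' := by
    rintro g ⟨a, h3, h4⟩
    obtain ⟨b, -, hb⟩ := exists_exp hn h₁ g⁻¹
    have h5 : ζ₁ ^ (a * b) = ζ₁ ^ 1 := by
      have h6 : g (g⁻¹ ζ₁) = ζ₁ := by rw [← AlgEquiv.mul_apply, mul_inv_cancel]; rfl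
      rw [hb, map_pow, h3, ← pow_mul] at h6
      rw [h6, pow_one]
    have h6 : ζ₂ ^ (a * b) = ζ₂ ^ 1 :=
      (pow_eq_iff_modEq hn h₂ _ _).2 ((pow_eq_iff_modEq hn h₁ _ _).1 h5)
    refine ⟨b, hb, ?_⟩
    apply (α g).injective
    rw [map_pow, h4, ← pow_mul, h6, pow_one, ← AlgEquiv.mul_apply, ← map_mul, mul_inv_cancel,
      map_one]
    rfl

theorem mem_lev {n : ℕ} (hn : n ≠ 0) {ζ₁ : E₁} {ζ₂ : E₂} (h₁ : IsPrimitiveRoot ζ₁ n)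
    (h₂ : IsPrimitiveRoot ζ₂ n) (h : E₁ ≃ₐ[F₁] E₁) :
    h ∈ lev α hn h₁ h₂ ↔ ∃ a : ℕ, h ζ₁ = ζ₁ ^ a ∧ α h ζ₂ = ζ₂ ^ a := Iff.rfl

theorem lev_normal {n : ℕ} (hn : n ≠ 0) {ζ₁ : E₁} {ζ₂ : E₂} (h₁ : IsPrimitiveRoot ζ₁ n)
    (h₂ : IsPrimitiveRoot ζ₂ n) : (lev α hn h₁ h₂).Normal := by
  constructor
  rintro h ⟨a, h3, h4⟩ g
  refine ⟨a, ?_, ?_⟩
  · obtain ⟨b, -, hb⟩ := exists_exp hn h₁ g⁻¹
    have h5 : g (g⁻¹ ζ₁) = ζ₁ := by rw [← AlgEquiv.mul_apply, mul_inv_cancel]; rfl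
    rw [AlgEquiv.mul_apply, AlgEquiv.mul_apply, hb, map_pow, h3, map_pow]
    rw [map_pow, ← pow_mul, mul_comm a b, pow_mul, ← map_pow g, ← hb, h5]
  · obtain ⟨b, -, hb⟩ := exists_exp hn h₂ (α g)⁻¹
    have h5 : α g ((α g)⁻¹ ζ₂) = ζ₂ := by rw [← AlgEquiv.mul_apply, mul_inv_cancel]; rfl
    rw [map_mul, map_mul, map_inv, AlgEquiv.mul_apply, AlgEquiv.mul_apply, hb, map_pow, h4, map_pow]
    rw [map_pow, ← pow_mul, mul_comm a b, pow_mul, ← map_pow (α g), ← hb, h5]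

theorem isOpen_lev [IsGalois F₁ E₁] [Algebra.IsIntegral F₂ E₂] (hα : Continuous α) {n : ℕ}
    (hn : n ≠ 0) {ζ₁ : E₁} {ζ₂ : E₂}
    (h₁ : IsPrimitiveRoot ζ₁ n) (h₂ : IsPrimitiveRoot ζ₂ n) :
    IsOpen (lev α hn h₁ h₂ : Set (E₁ ≃ₐ[F₁] E₁)) := by
  obtain ⟨L, hL, hLy⟩ := exists_finite_of_continuous α hα ζ₂
  obtain ⟨L', hL', hLy'⟩ := exists_finite_of_continuous (MonoidHom.id (E₁ ≃ₐ[F₁] E₁))
    continuous_id ζ₁
  apply Subgroup.isOpen_of_mem_nhds (g := 1)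
  rw [krullTopology_mem_nhds_one_iff]
  refine ⟨L ⊔ L', inferInstance, ?_⟩
  intro s hs
  have hs1 : s ∈ L.fixingSubgroup := by
    rw [SetLike.mem_coe, IntermediateField.mem_fixingSubgroup_iff] at hs
    rw [IntermediateField.mem_fixingSubgroup_iff]
    exact fun x hx => hs x (le_sup_left (a := L) (b := L') hx)
  have hs2 : s ∈ L'.fixingSubgroup := by
    rw [SetLike.mem_coe, IntermediateField.mem_fixingSubgroup_iff] at hs
    rw [IntermediateField.mem_fixingSubgroup_iff]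
    exact fun x hx => hs x (le_sup_right (a := L) (b := L') hx)
  refine ⟨1, ?_, ?_⟩
  · rw [pow_one]; exact hLy' s hs2
  · rw [pow_one]; exact hLy s hs1

/-- the kernel of `ψ_l` -/
def psiKer (l : ℕ) (hl : l ≠ 0) : Subgroup (E₁ ≃ₐ[F₁] E₁) :=
  ⨅ (n : ℕ) (ζ₁ : E₁) (ζ₂ : E₂) (h₁ : IsPrimitiveRoot ζ₁ (l ^ n))
    (h₂ : IsPrimitiveRoot ζ₂ (l ^ n)), lev α (pow_ne_zero n hl) h₁ h₂

theorem mem_psiKer (l : ℕ) (hl : l ≠ 0) (h : E₁ ≃ₐ[F₁] E₁) : h ∈ psiKer α l hl ↔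
    ∀ (n : ℕ) (ζ₁ : E₁) (ζ₂ : E₂), IsPrimitiveRoot ζ₁ (l ^ n) → IsPrimitiveRoot ζ₂ (l ^ n) →
      ∃ a : ℕ, h ζ₁ = ζ₁ ^ a ∧ α h ζ₂ = ζ₂ ^ a := by
  unfold psiKer
  simp only [Subgroup.mem_iInf, mem_lev]

theorem psiKer_normal (l : ℕ) (hl : l ≠ 0) : (psiKer α l hl).Normal := by
  unfold psiKer
  refine Subgroup.normal_iInf_normal fun n => Subgroup.normal_iInf_normal fun ζ₁ =>
    Subgroup.normal_iInf_normal fun ζ₂ => Subgroup.normal_iInf_normal fun h₁ =>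
    Subgroup.normal_iInf_normal fun h₂ => lev_normal α _ h₁ h₂

theorem isClosed_psiKer [IsGalois F₁ E₁] [Algebra.IsIntegral F₂ E₂] (hα : Continuous α) (l : ℕ)
    (hl : l ≠ 0) : IsClosed (psiKer α l hl : Set (E₁ ≃ₐ[F₁] E₁)) := by
  unfold psiKer
  simp only [Subgroup.coe_iInf]
  refine isClosed_iInter fun n => isClosed_iInter fun ζ₁ => isClosed_iInter fun ζ₂ =>
    isClosed_iInter fun h₁ => isClosed_iInter fun h₂ => ?_
  exact Subgroup.isClosed_of_isOpen _ (isOpen_lev α hα _ h₁ h₂)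

/-- roots: `h^l ∈ psiKer` implies `h ∈ psiKer`, `l` odd -/
theorem mem_psiKer_of_pow (l : ℕ) (hl : l.Prime) (hodd : l ≠ 2)
    (hr₁ : ∀ n, ∃ ζ : E₁, IsPrimitiveRoot ζ (l ^ n))
    (hr₂ : ∀ n, ∃ ζ : E₂, IsPrimitiveRoot ζ (l ^ n)) (h : E₁ ≃ₐ[F₁] E₁)
    (hh : h ^ l ∈ psiKer α l hl.ne_zero) : h ∈ psiKer α l hl.ne_zero := by
  rw [mem_psiKer] at hh ⊢
  intro n ζ₁ ζ₂ h₁ h₂
  obtain ⟨ξ₁, k₁⟩ := hr₁ (n + 1)
  obtain ⟨ξ₂, k₂⟩ := hr₂ (n + 1)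
  have hn0 : l ^ (n + 1) ≠ 0 := pow_ne_zero _ hl.ne_zero
  obtain ⟨a, ha, ha'⟩ := exists_exp hn0 k₁ h
  obtain ⟨b, hb, hb'⟩ := exists_exp hn0 k₂ (α h)
  have hpow : ∀ (E : Type _) [Field E] (F : Type _) [Field F] [Algebra F E] (g : E ≃ₐ[F] E)
      (ξ : E) (c : ℕ), g ξ = ξ ^ c → ∀ k : ℕ, (g ^ k) ξ = ξ ^ (c ^ k) := by
    intro E _ F _ _ g ξ c hc k
    induction k with
    | zero => simp
    | succ k ih => rw [pow_succ', AlgEquiv.mul_apply, ih, map_pow, hc, ← pow_mul, pow_succ']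
  have hpow₂ : ∀ k : ℕ, (α h ^ k) ξ₂ = ξ₂ ^ (b ^ k) := by
    intro k
    induction k with
    | zero => simp
    | succ k ih => rw [pow_succ', AlgEquiv.mul_apply, ih, map_pow, hb', ← pow_mul, pow_succ']
  obtain ⟨c, hc1, hc2⟩ := hh (n + 1) ξ₁ ξ₂ k₁ k₂
  have h3 : a ^ l ≡ c [MOD l ^ (n + 1)] := by
    rw [← pow_eq_iff_modEq hn0 k₁, ← hpow E₁ F₁ h ξ₁ a ha' l, hc1]
  have h4 : b ^ l ≡ c [MOD l ^ (n + 1)] := by
    rw [← pow_eq_iff_modEq hn0 k₂, ← hpow₂ l, ← map_pow, hc2]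
  have hal : Nat.Coprime a l := Nat.Coprime.coprime_dvd_right (dvd_pow_self _ n.succ_ne_zero) ha
  have h5 : a ≡ b [MOD l ^ n] := modEq_of_pow_modEq hl hodd n a b hal (h3.trans h4.symm)
  refine ⟨a, ?_, ?_⟩
  · exact apply_of_pow hn0 k₁ h ha' (by rw [pow_succ, pow_mul, h₁.pow_eq_one, one_pow])
  · have h6 := apply_of_pow hn0 k₂ (α h) hb' (ξ := ζ₂)
      (by rw [pow_succ, pow_mul, h₂.pow_eq_one, one_pow])
    rw [h6]
    exact (pow_eq_iff_modEq (pow_ne_zero _ hl.ne_zero) h₂ _ _).2 h5.symm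

theorem not_dvd_index (l : ℕ) (hl : l.Prime) (hodd : l ≠ 2)
    (hr₁ : ∀ n, ∃ ζ : E₁, IsPrimitiveRoot ζ (l ^ n))
    (hr₂ : ∀ n, ∃ ζ : E₂, IsPrimitiveRoot ζ (l ^ n))
    (hfin : (psiKer α l hl.ne_zero).index ≠ 0) : ¬ l ∣ (psiKer α l hl.ne_zero).index := by
  intro hdvd
  have : Fact l.Prime := ⟨hl⟩
  have hnorm := psiKer_normal α l hl.ne_zero
  have : (psiKer α l hl.ne_zero).FiniteIndex := ⟨hfin⟩
  have : Finite ((E₁ ≃ₐ[F₁] E₁) ⧸ psiKer α l hl.ne_zero) :=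
    Subgroup.finite_quotient_of_finiteIndex
  obtain ⟨q, hq⟩ := exists_prime_orderOf_dvd_card' (G := (E₁ ≃ₐ[F₁] E₁) ⧸ psiKer α l hl.ne_zero) l
    hdvd
  obtain ⟨h, rfl⟩ := QuotientGroup.mk_surjective q
  have h1 : h ^ l ∈ psiKer α l hl.ne_zero := by
    rw [← QuotientGroup.eq_one_iff, QuotientGroup.mk_pow]
    have h0 := pow_orderOf_eq_one (h : (E₁ ≃ₐ[F₁] E₁) ⧸ psiKer α l hl.ne_zero)
    rwa [hq] at h0
  have h2 := mem_psiKer_of_pow α l hl hodd hr₁ hr₂ h h1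
  rw [(QuotientGroup.eq_one_iff h).2 h2, orderOf_one] at hq
  exact hl.one_lt.ne hq

/-- the field cut out by `ψ_l` -/
noncomputable def psiField (l : ℕ) (hl : l ≠ 0) : IntermediateField F₁ E₁ :=
  IntermediateField.fixedField (psiKer α l hl)

section field

variable [IsGalois F₁ E₁] [Algebra.IsIntegral F₂ E₂] (hα : Continuous α) (l : ℕ) (hl : l.Prime)

include hα

theorem fixingSubgroup_psiField :
    (psiField α l hl.ne_zero).fixingSubgroup = psiKer α l hl.ne_zero := by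
  let N : ClosedSubgroup (E₁ ≃ₐ[F₁] E₁) :=
    ⟨psiKer α l hl.ne_zero, isClosed_psiKer α hα l hl.ne_zero⟩
  exact InfiniteGalois.fixingSubgroup_fixedField N

theorem isGalois_psiField : IsGalois F₁ (psiField α l hl.ne_zero) := by
  rw [← InfiniteGalois.normal_iff_isGalois, fixingSubgroup_psiField α hα l hl]
  exact psiKer_normal α l hl.ne_zero

theorem finrank_psiField :
    Module.finrank F₁ (psiField α l hl.ne_zero) = (psiKer α l hl.ne_zero).index := by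
  rw [IntermediateField.finrank_eq_fixingSubgroup_index (L := psiField α l hl.ne_zero),
    fixingSubgroup_psiField α hα l hl]

theorem finite_psiField (hfin : (psiKer α l hl.ne_zero).index ≠ 0) :
    FiniteDimensional F₁ (psiField α l hl.ne_zero) := by
  apply Module.finite_of_finrank_pos
  rw [finrank_psiField α hα l hl]
  exact Nat.pos_of_ne_zero hfin

theorem coprime_finrank (hodd : l ≠ 2)
    (hr₁ : ∀ n, ∃ ζ : E₁, IsPrimitiveRoot ζ (l ^ n))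
    (hr₂ : ∀ n, ∃ ζ : E₂, IsPrimitiveRoot ζ (l ^ n))
    (hfin : (psiKer α l hl.ne_zero).index ≠ 0) (n : ℕ) :
    Nat.Coprime (Module.finrank F₁ (psiField α l hl.ne_zero)) (l ^ n) := by
  rw [finrank_psiField α hα l hl]
  apply Nat.Coprime.pow_right
  rw [Nat.coprime_comm, Nat.Prime.coprime_iff_not_dvd hl]
  exact not_dvd_index α l hl hodd hr₁ hr₂ hfin

theorem cyc_psiField (n : ℕ) (ζ₁ : E₁) (ζ₂ : E₂) (h₁ : IsPrimitiveRoot ζ₁ (l ^ n))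
    (h₂ : IsPrimitiveRoot ζ₂ (l ^ n)) :
    Cyc α (psiField α l hl.ne_zero).fixingSubgroup ζ₁ ζ₂ := by
  rw [fixingSubgroup_psiField α hα l hl]
  intro g hg
  obtain ⟨a, h3, h4⟩ := (mem_psiKer α l hl.ne_zero g).1 hg n ζ₁ ζ₂ h₁ h₂
  exact ⟨a, h4, h3⟩

end field

/-- the eigenvalue property for automorphisms of a normal `K`, `n = l^k` -/
theorem eigen {α : (E₁ ≃ₐ[F₁] E₁) →* (E₂ ≃ₐ[F₂] E₂)} [IsGalois F₁ E₁]
    {K : IntermediateField F₁ E₁} [IsGalois F₁ K]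
    {n : ℕ} {ζ₁ : E₁} {ζ₂ : E₂} (hn : n ≠ 0) (h₁ : IsPrimitiveRoot ζ₁ n)
    (h₂ : IsPrimitiveRoot ζ₂ n) (hc : Cyc α K.fixingSubgroup ζ₁ ζ₂)
    {Φ : F₂ˣ → Kˣ} (hΦ : IsTransport K α n ζ₁ ζ₂ Φ) (g : K ≃ₐ[F₁] K) :
    ∃ m : ℕ, Nat.Coprime m n ∧ ∀ x : F₂ˣ, ∃ d : Kˣ, g (Φ x : K) = (Φ x : K) ^ m * (d : K) ^ n := by
  obtain ⟨h, rfl⟩ := AlgEquiv.restrictNormalHom_surjective (F := F₁) (K₁ := K) (E := E₁) g
  obtain ⟨a', ha', ha1⟩ := exists_exp hn h₁ h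
  obtain ⟨a, ha, ha2⟩ := exists_exp hn h₂ (α h)
  -- inverse of `a` modulo `n`
  obtain ⟨u, hu⟩ : ∃ u : ℕ, a * u ≡ 1 [MOD n] := by
    rcases Nat.eq_or_lt_of_le (Nat.one_le_iff_ne_zero.2 hn) with h0 | h0
    · exact ⟨0, by rw [← h0]; exact Nat.modEq_one⟩
    · obtain ⟨u, -, hu⟩ := Nat.exists_mul_mod_eq_one_of_coprime ha h0
      exact ⟨u, by
        unfold Nat.ModEq
        rw [hu, Nat.mod_eq_of_lt h0]⟩
  have hu' : Nat.Coprime u n := by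
    have h3 : Nat.Coprime (a * u) n := by
      unfold Nat.Coprime
      rw [hu.gcd_eq, Nat.gcd_one_left]
    exact Nat.Coprime.coprime_mul_left h3
  have hK : K.fixingSubgroup.Normal := (InfiniteGalois.normal_iff_isGalois K).2 inferInstance
  refine ⟨a' * u, Nat.Coprime.mul_left ha' hu', fun x => ?_⟩
  obtain ⟨d, hd⟩ := hΦ.eig hK hn h₁ h₂ hc x h a a' ha2 ha1
  set w : K := AlgEquiv.restrictNormalHom K h (Φ x : K) with hw
  have hwE : ((w : K) : E₁) = h ((Φ x : K) : E₁) := by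
    rw [hw]
    exact AlgEquiv.restrictNormal_commutes h K (Φ x : K)
  have hw0 : w ≠ 0 := by
    intro h0
    rw [h0] at hwE
    have h1 : h ((Φ x : K) : E₁) = 0 := by rw [← hwE]; rfl
    rw [map_eq_zero] at h1
    exact (Φ x).ne_zero (Subtype.ext h1)
  have hd' : w ^ a = (Φ x : K) ^ a' * (d : K) ^ n := by
    apply Subtype.ext
    change ((w : K) : E₁) ^ a = ((Φ x : K) : E₁) ^ a' * ((d : K) : E₁) ^ n
    rw [hwE, hd]
  -- `w = w^(a u) * (w^k)^n`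
  obtain ⟨c, hc'⟩ : ∃ c : ℤ, (a * u : ℤ) = 1 + n * c := by
    have h3 : (n : ℤ) ∣ ((1 : ℕ) : ℤ) - ((a * u : ℕ) : ℤ) := Nat.modEq_iff_dvd.1 hu
    obtain ⟨c, hc⟩ := h3
    refine ⟨-c, ?_⟩
    push_cast at hc
    linarith
  let W : Kˣ := Units.mk0 w hw0
  refine ⟨d ^ u * (W ^ c)⁻¹, ?_⟩
  have h4 : (W : Kˣ) ^ (a * u : ℤ) = W * (W ^ c) ^ n := by
    rw [hc', zpow_add, zpow_one, mul_comm (n : ℤ), zpow_mul, zpow_natCast]
  have h5 : W ^ a = (Φ x) ^ a' * d ^ n := by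
    apply Units.ext
    simpa [W] using hd'
  have h6 : (W : Kˣ) ^ (a * u : ℤ) = (Φ x) ^ (a' * u) * (d ^ u) ^ n := by
    rw [zpow_mul, zpow_natCast, zpow_natCast, h5, mul_pow, ← pow_mul, ← pow_mul, ← pow_mul,
      mul_comm n u]
  have h7 : W = (Φ x) ^ (a' * u) * (d ^ u * (W ^ c)⁻¹) ^ n := by
    rw [mul_pow, ← mul_assoc, ← h6, h4, inv_pow, mul_inv_cancel_right]
  have h8 := congrArg (fun z : Kˣ => (z : K)) h7
  simpa [W] using h8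

end Crest.Agent.R018.S2Psix568
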