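import Mathlib
import Crest.Agent.R018.S2Psi_568

/-!
Row 18, (S2): `ψ_l` of finite exponent has finite image (helper568).

`mem_psiKer_of_lev` : if `h` is compatible at level `l` and `h^k ∈ psiKer`, `k > 0`, `l` odd, then
`h ∈ psiKer`; `index_ne_zero_of_pow` : if `g^k ∈ psiKer` for all `g` (some `k > 0`, `l` odd) then
`psiKer` has finite index.
-/

set_option autoImplicit false

namespace Crest.Agent.R018.S2PsiBx568

open Crest.Agent.R018.Kumx568 Crest.Agent.R018.Kum2x568 Crest.Agent.R018.Kum3x568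
open Crest.Agent.R018.S2Trx568 Crest.Agent.R018.S2Psix568

/-- `a ≡ b mod l`, `a^k ≡ b^k mod l^n`, `l ∤ k`, `a` prime to `l` imply `a ≡ b mod l^n`. -/
theorem modEq_of_pow_modEq' {l : ℕ} (hl : l.Prime) (n k a b : ℕ) (hk : ¬ l ∣ k)
    (ha : Nat.Coprime a l) (h0 : a ≡ b [MOD l]) (h : a ^ k ≡ b ^ k [MOD l ^ n]) :
    a ≡ b [MOD l ^ n] := by
  have : Fact l.Prime := ⟨hl⟩
  have h3 : (l : ℤ) ∣ (b : ℤ) - a := Nat.modEq_iff_dvd.1 h0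
  have h4 : ¬ (l : ℤ) ∣ (b : ℤ) := by
    intro h5
    have h6 : (l : ℤ) ∣ (a : ℤ) := by
      have := Int.dvd_sub h5 h3
      simpa using this
    have h6' : l ∣ a := by exact_mod_cast h6
    have h7 : l ∣ Nat.gcd a l := Nat.dvd_gcd h6' dvd_rfl
    rw [ha] at h7
    exact hl.one_lt.ne' (Nat.dvd_one.1 h7)
  have h5 : emultiplicity (l : ℤ) ((b : ℤ) ^ k - (a : ℤ) ^ k) =
      emultiplicity (l : ℤ) ((b : ℤ) - a) :=
    emultiplicity_pow_sub_pow_of_prime (Nat.prime_iff_prime_int.1 hl) h3 h4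
      (by exact_mod_cast hk)
  have h6 : ((l ^ n : ℕ) : ℤ) ∣ (b : ℤ) ^ k - (a : ℤ) ^ k := by
    have := Nat.modEq_iff_dvd.1 h
    push_cast at this
    exact_mod_cast this
  have h7 : ((n : ℕ) : ℕ∞) ≤ emultiplicity (l : ℤ) ((b : ℤ) ^ k - (a : ℤ) ^ k) := by
    apply le_emultiplicity_of_pow_dvd
    exact_mod_cast h6
  rw [h5] at h7
  have h10 : (l : ℤ) ^ n ∣ (b : ℤ) - a := pow_dvd_of_le_emultiplicity h7
  apply Nat.modEq_iff_dvd.2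
  exact_mod_cast h10

variable {F₁ E₁ F₂ E₂ : Type*} [Field F₁] [Field E₁] [Algebra F₁ E₁] [Field F₂] [Field E₂]
  [Algebra F₂ E₂]

variable (α : (E₁ ≃ₐ[F₁] E₁) →* (E₂ ≃ₐ[F₂] E₂))

theorem pow_apply {F E : Type*} [Field F] [Field E] [Algebra F E] (g : E ≃ₐ[F] E) (ξ : E) (c : ℕ)
    (hc : g ξ = ξ ^ c) (k : ℕ) : (g ^ k) ξ = ξ ^ (c ^ k) := by
  induction k with
  | zero => simp
  | succ k ih => rw [pow_succ', AlgEquiv.mul_apply, ih, map_pow, hc, ← pow_mul, pow_succ']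

/-- `h^k ∈ psiKer` implies `h^k' ∈ psiKer` for some `k'` prime to `l` -/
theorem exists_prime_to (l : ℕ) (hl : l.Prime) (hodd : l ≠ 2)
    (hr₁ : ∀ n, ∃ ζ : E₁, IsPrimitiveRoot ζ (l ^ n))
    (hr₂ : ∀ n, ∃ ζ : E₂, IsPrimitiveRoot ζ (l ^ n)) (h : E₁ ≃ₐ[F₁] E₁) (k : ℕ) (hk : 0 < k)
    (hh : h ^ k ∈ psiKer α l hl.ne_zero) :
    ∃ k' : ℕ, ¬ l ∣ k' ∧ h ^ k' ∈ psiKer α l hl.ne_zero := by
  induction k using Nat.strong_induction_on with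
  | _ k ih =>
    by_cases hd : l ∣ k
    · obtain ⟨m, rfl⟩ := hd
      have hm : 0 < m := Nat.pos_of_mul_pos_left hk
      refine ih m ?_ hm ?_
      · have := hl.one_lt
        nlinarith
      · apply mem_psiKer_of_pow α l hl hodd hr₁ hr₂
        rwa [← pow_mul, mul_comm]
    · exact ⟨k, hd, hh⟩

/-- compatibility at level `l` and `h^k ∈ psiKer` imply `h ∈ psiKer` -/
theorem mem_psiKer_of_lev (l : ℕ) (hl : l.Prime) (hodd : l ≠ 2)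
    (hr₁ : ∀ n, ∃ ζ : E₁, IsPrimitiveRoot ζ (l ^ n))
    (hr₂ : ∀ n, ∃ ζ : E₂, IsPrimitiveRoot ζ (l ^ n)) {η₁ : E₁} {η₂ : E₂}
    (e₁ : IsPrimitiveRoot η₁ l) (e₂ : IsPrimitiveRoot η₂ l)
    (h : E₁ ≃ₐ[F₁] E₁) (hlev : h ∈ lev α hl.ne_zero e₁ e₂) (k : ℕ) (hk : 0 < k)
    (hh : h ^ k ∈ psiKer α l hl.ne_zero) : h ∈ psiKer α l hl.ne_zero := by
  obtain ⟨k', hk', hh'⟩ := exists_prime_to α l hl hodd hr₁ hr₂ h k hk hh
  rw [mem_psiKer] at hh' ⊢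
  intro n ζ₁ ζ₂ h₁ h₂
  obtain ⟨ξ₁, x₁⟩ := hr₁ (n + 1)
  obtain ⟨ξ₂, x₂⟩ := hr₂ (n + 1)
  have hn0 : l ^ (n + 1) ≠ 0 := pow_ne_zero _ hl.ne_zero
  obtain ⟨a, ha, ha'⟩ := exists_exp hn0 x₁ h
  obtain ⟨b, hb, hb'⟩ := exists_exp hn0 x₂ (α h)
  obtain ⟨c, hc1, hc2⟩ := hh' (n + 1) ξ₁ ξ₂ x₁ x₂
  have h3 : a ^ k' ≡ c [MOD l ^ (n + 1)] := by
    rw [← pow_eq_iff_modEq hn0 x₁, ← pow_apply h ξ₁ a ha' k', hc1]
  have h4 : b ^ k' ≡ c [MOD l ^ (n + 1)] := by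
    rw [← pow_eq_iff_modEq hn0 x₂, ← pow_apply (α h) ξ₂ b hb' k', ← map_pow, hc2]
  have hal : Nat.Coprime a l := Nat.Coprime.coprime_dvd_right (dvd_pow_self _ n.succ_ne_zero) ha
  -- level `l`
  obtain ⟨d, hd1, hd2⟩ := (mem_lev α hl.ne_zero e₁ e₂ h).1 hlev
  have h5 : a ≡ d [MOD l] := by
    rw [← pow_eq_iff_modEq hl.ne_zero e₁, ← hd1]
    exact (apply_of_pow hn0 x₁ h ha' (by
      rw [pow_succ', pow_mul, e₁.pow_eq_one, one_pow])).symm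
  have h6 : b ≡ d [MOD l] := by
    rw [← pow_eq_iff_modEq hl.ne_zero e₂, ← hd2]
    exact (apply_of_pow hn0 x₂ (α h) hb' (by
      rw [pow_succ', pow_mul, e₂.pow_eq_one, one_pow])).symm
  have h7 : a ≡ b [MOD l ^ (n + 1)] :=
    modEq_of_pow_modEq' hl (n + 1) k' a b hk' hal (h5.trans h6.symm) (h3.trans h4.symm)
  refine ⟨a, ?_, ?_⟩
  · exact apply_of_pow hn0 x₁ h ha' (by rw [pow_succ, pow_mul, h₁.pow_eq_one, one_pow])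
  · have h8 := apply_of_pow hn0 x₂ (α h) hb' (ξ := ζ₂)
      (by rw [pow_succ, pow_mul, h₂.pow_eq_one, one_pow])
    rw [h8]
    exact (pow_eq_iff_modEq (pow_ne_zero _ hl.ne_zero) h₂ _ _).2
      (h7.symm.of_dvd (pow_dvd_pow l n.le_succ))

/-- finite exponent implies finite index -/
theorem index_ne_zero_of_pow [IsGalois F₁ E₁] [Algebra.IsIntegral F₂ E₂] (hα : Continuous α)
    (l : ℕ) (hl : l.Prime) (hodd : l ≠ 2)
    (hr₁ : ∀ n, ∃ ζ : E₁, IsPrimitiveRoot ζ (l ^ n))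
    (hr₂ : ∀ n, ∃ ζ : E₂, IsPrimitiveRoot ζ (l ^ n)) (k : ℕ) (hk : 0 < k)
    (h : ∀ g : E₁ ≃ₐ[F₁] E₁, g ^ k ∈ psiKer α l hl.ne_zero) :
    (psiKer α l hl.ne_zero).index ≠ 0 := by
  obtain ⟨η₁, e₁⟩ := hr₁ 1
  obtain ⟨η₂, e₂⟩ := hr₂ 1
  rw [pow_one] at e₁ e₂
  have h1 : lev α hl.ne_zero e₁ e₂ ≤ psiKer α l hl.ne_zero := fun g hg =>
    mem_psiKer_of_lev α l hl hodd hr₁ hr₂ e₁ e₂ g hg k hk (h g)
  have h2 : Finite ((E₁ ≃ₐ[F₁] E₁) ⧸ lev α hl.ne_zero e₁ e₂) :=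
    Subgroup.quotient_finite_of_isOpen _ (isOpen_lev α hα _ e₁ e₂)
  have h3 : (lev α hl.ne_zero e₁ e₂).index ≠ 0 := Subgroup.index_ne_zero_of_finite
  intro h0
  have h4 := Subgroup.index_dvd_of_le h1
  rw [h0, zero_dvd_iff] at h4
  exact h3 h4

end Crest.Agent.R018.S2PsiBx568
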