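import Crest.Agent.R018.S2Fin_863
import Crest.Agent.R018.S2PsiB_568
import Crest.Agent.R018.LocConv_31
import Crest.Agent.R018.SvClosed_820
import Crest.Agent.R018.HeartDef_74

/-!
Row 18 (helper863): the literals `BadBound` of `Core_74` and `TBad` of `HeartDef_74`.
-/

set_option autoImplicit false

open NumberField Module IsDedekindDomain
open scoped Pointwise

namespace Crest.Agent.R018.CoreBadx863

open Crest.Agent.R018.EndDefx924 (Om)
open Crest.Agent.R018.Placesx484 Crest.Agent.R018.Tamex31 Crest.Agent.R018.LocDefx31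
open Crest.Agent.R018.LocConvx31 Crest.Agent.R018.S2Finx863 Crest.Agent.R018.S2Psix568
open Crest.NumberTheoryR

theorem exists_place {E : Type*} [Field E] [CharZero E] {q : ℕ} (hq : q.Prime) :
    ∃ Q : Place E, Q.rchar = q := by
  have h1 : Ideal.span {(q : 𝓞 E)} ≠ ⊤ := by
    intro h
    rw [Ideal.span_singleton_eq_top] at h
    obtain ⟨u, hu⟩ := h.exists_right_inv
    have h2 : (q : E) * (u : E) = 1 := by
      have := congrArg (algebraMap (𝓞 E) E) hu
      simpa using this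
    have h3 : (u : E) = algebraMap ℚ E ((q : ℚ)⁻¹) := by
      rw [map_inv₀, map_natCast]
      exact eq_inv_of_mul_eq_one_right h2
    have h4 : IsIntegral ℤ ((q : ℚ)⁻¹) := by
      have h5 : IsIntegral ℤ (u : E) := RingOfIntegers.isIntegral_coe u
      rw [h3] at h5
      exact (isIntegral_algebraMap_iff (algebraMap ℚ E).injective).1 h5
    obtain ⟨z, hz⟩ := IsIntegrallyClosed.isIntegral_iff.1 h4
    have hq0 : (q : ℚ) ≠ 0 := by exact_mod_cast hq.ne_zero
    have h6 : (z : ℚ) * q = 1 := by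
      have h7 : (z : ℚ) = (q : ℚ)⁻¹ := hz
      rw [h7, inv_mul_cancel₀ hq0]
    have h8 : z * (q : ℤ) = 1 := by exact_mod_cast h6
    have h9 : (q : ℤ) ∣ 1 := ⟨z, by rw [mul_comm]; exact h8.symm⟩
    have h10 : q ∣ 1 := by exact_mod_cast h9
    exact hq.one_lt.ne' (Nat.dvd_one.1 h10)
  obtain ⟨M, hM, hM'⟩ := Ideal.exists_le_maximal _ h1
  have hmem : (q : 𝓞 E) ∈ M := hM' (Ideal.mem_span_singleton_self _)
  have hq0 : (q : 𝓞 E) ≠ 0 := by exact_mod_cast hq.ne_zero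
  let Q : Place E := ⟨M, hM.isPrime, by
    rintro rfl
    exact hq0 (by simpa using hmem)⟩
  exact ⟨Q, Q.rchar_eq_of_mem hq hmem⟩

section abs

variable (E : Type) [Field E] [CharZero E] [IsGalois ℚ E] (hE : IsSolvablyClosed E)
  (G1 : Subgroup (Om ≃ₐ[ℚ] Om)) (hG : IsOpen (G1 : Set (Om ≃ₐ[ℚ] Om)))
  (α : G1 →* (E ≃ₐ[ℚ] E)) (hα : Continuous α)

include hE hG hα

theorem badBound_abs (hs : Function.Surjective α) (l : ℕ) (hl : l.Prime) (hl2 : l ≠ 2)
    (hloc : ∀ S : Place Om, S1 α l S → ∃ Q : Place E, (l : 𝓞 E) ∉ Q.ideal ∧ Goes α S Q)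
    (k : ℕ) (hk : 0 < k) (hfin : ∀ (g : G1) (n : ℕ), CycAt α Om E (l ^ n) (g ^ k))
    (s : Finset ℕ) (hsb : ∀ q ∈ s, q.Prime ∧
      ∀ (S : Place Om) (Q : Place E), S1 α l S → Goes α S Q → Q.rchar ≠ q) :
    s.card ≤ 2 * G1.index := by
  classical
  let F₁ := IntermediateField.fixedField G1
  have hfd : FiniteDimensional ℚ F₁ := by
    have hfq : Finite ((Om ≃ₐ[ℚ] Om) ⧸ G1) := Subgroup.quotient_finite_of_isOpen G1 hG
    have hfi : G1.FiniteIndex := G1.finiteIndex_of_finite_quotient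
    exact Crest.Agent.R018.EndAx245.finiteDimensional_fixedField G1 hfi
  have hnf : NumberField F₁ := by
    refine { to_finiteDimensional := ?_ }
    convert hfd
  let e := eG G1 hG
  let α' : (Om ≃ₐ[F₁] Om) →* (E ≃ₐ[ℚ] E) := α.comp e.toMonoidHom
  have hα' : Continuous α' := hα.comp (eG_continuous G1 hG)
  have hs' : Function.Surjective α' := hs.comp e.surjective
  have hidx : finrank ℚ F₁ = G1.index := by
    have h1 := IntermediateField.finrank_eq_fixingSubgroup_index (L := F₁)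
    rw [fixingSubgroup_eq G1 hG] at h1
    convert h1
  have hS1 : ∀ P : Place Om, S1 α' l P → S1 α l P := by
    rintro P ⟨hP, x, hx, N, hN, hNo, hn⟩
    exact ⟨hP, e x, hx, N, hN, hNo, hn⟩
  have hGo : ∀ (P : Place Om) (Q : Place E), Goes α P Q → Goes α' P Q := by
    intro P Q h d hd
    exact h (e d) hd
  have hGo' : ∀ (P : Place Om) (Q : Place E), Goes α' P Q → Goes α P Q := by
    intro P Q h d hd
    obtain ⟨d', rfl⟩ := e.surjective d
    exact h d' hd
  have hroots₁ : ∀ n : ℕ, ∃ ζ : Om, IsPrimitiveRoot ζ (l ^ n) := by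
    intro n
    have hne : NeZero (l ^ n) := ⟨pow_ne_zero _ hl.ne_zero⟩
    exact HasEnoughRootsOfUnity.exists_primitiveRoot Om (l ^ n)
  have hroots₂ : ∀ n : ℕ, ∃ ζ : E, IsPrimitiveRoot ζ (l ^ n) := fun n =>
    Kumx568.exists_primitiveRoot hE _ (pow_ne_zero n hl.ne_zero)
  have hfin' : (psiKer α' l hl.ne_zero).index ≠ 0 := by
    refine S2PsiBx568.index_ne_zero_of_pow α' hα' l hl hl2 hroots₁ hroots₂ k hk fun g => ?_
    rw [mem_psiKer]
    intro n ζ₁ ζ₂ h₁ h₂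
    obtain ⟨a, ha⟩ := exists_cyc (l ^ n) (pow_ne_zero n hl.ne_zero) (g ^ k) h₁
    refine ⟨a, ha _ h₁.pow_eq_one, ?_⟩
    have h3 := hfin (e g) n a (by
      intro ζ hζ
      rw [← map_pow]
      exact ha ζ hζ) ζ₂ h₂.pow_eq_one
    rw [← map_pow] at h3
    exact h3
  -- the primes of `ℚ`
  have hw : ∀ q : ℕ, ∃ Q : Place ℚ, q.Prime → Q.rchar = q := by
    intro q
    by_cases hq : q.Prime
    · obtain ⟨Q, hQ⟩ := exists_place (E := ℚ) hq
      exact ⟨Q, fun _ => hQ⟩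
    · obtain ⟨Q, hQ⟩ := exists_place (E := ℚ) Nat.prime_two
      exact ⟨Q, fun h => absurd h hq⟩
  choose w hw using hw
  have hrc : ∀ (Q : Place ℚ) (q : ℕ), q.Prime → hos Q = hos (w q) → Q.rchar = q := by
    intro Q q hq h
    apply Q.rchar_eq_of_mem hq
    have h1 : Q.ideal = (w q).ideal := congrArg HeightOneSpectrum.asIdeal h
    rw [h1]
    have h2 := (w q).rchar_mem
    rwa [hw q hq] at h2
  have hinj : Set.InjOn (fun q => hos (w q)) (s : Set ℕ) := by
    intro q hq q' hq' h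
    have h1 := hrc (w q) q' (hsb q' hq').1 h
    rw [hw q (hsb q hq).1] at h1
    exact h1
  rw [← hidx, ← Finset.card_image_of_injOn hinj]
  refine s2 hE α' hα' hs' l hl hl2 hroots₁ (fun n x =>
    IsAlgClosed.exists_pow_nat_eq x (Nat.pos_of_ne_zero (pow_ne_zero n hl.ne_zero))) hfin'
    (fun P hP => by
      obtain ⟨Q, hQl, hQ⟩ := hloc P (hS1 P hP)
      exact ⟨Q, hQl, hGo P Q hQ⟩) _ ?_
  intro v hv
  obtain ⟨q, hq, rfl⟩ := Finset.mem_image.1 hv
  rintro ⟨P, Q, hP, hQl, hQ, h⟩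
  apply (hsb q hq).2 P Q (hS1 P hP) (hGo' P Q hQ)
  rw [← Place.rchar_res ℚ Q]
  exact hrc _ q (hsb q hq).1 h

end abs

/-- **TBad** of `HeartDef_74` -/
theorem tbad (h : HeartDefx74.TLoc) : HeartDefx74.TBad := by
  intro E _ _ _ G1 α hset hs l hl hl5 hfin s hsb
  obtain ⟨k, hk, hfin⟩ := hfin
  have hl2 : l ≠ 2 := by omega
  refine badBound_abs E hset.closed G1 hset.isOpen α hset.cont hs l hl hl2 (fun S hS => ?_) k hk
    hfin s (fun q hq => ⟨(hsb q hq).1, (hsb q hq).2.2⟩)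
  obtain ⟨Q, hQl, hQ, -⟩ := h E G1 α hset l hl hl5 S hS
  exact ⟨Q, hQl, hQ⟩

open Corex74 in
/-- **BadBound** of `Core_74` -/
theorem badBound_of (h : Corex74.LocT) : Corex74.BadBound := by
  intro D hs l hl hl5 hfin s hsb
  obtain ⟨k, hk, hfin⟩ := hfin
  have hl2 : l ≠ 2 := by omega
  have hhit : ∀ S : Place Om, S1 D.α l S → Hit D l S := by
    rintro S ⟨hS, x, hx, N, hN, hNo, hn⟩
    exact ⟨rchar_ne_of_notMem S hS, x, fun y => hx y, N, hN, hNo, hn⟩
  refine badBound_abs Sv SvClosedx820.isSolvablyClosed_Sv D.G D.isOpen_G D.α D.cont hs l hl hl2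
    (fun S hS => ?_) k hk (fun g n c hc ζ hζ => ?_) s (fun q hq => ⟨(hsb q hq).1, ?_⟩)
  · obtain ⟨Q, hQ, hQl, -⟩ := h D l hl hl2 S (hhit S hS)
    exact ⟨Q, notMem_of_rchar_ne Q hl hQl, hQ⟩
  · have h1 := hfin g n ζ hζ
    have h2 := hc (ζ : Om) (by rw [← IntermediateField.coe_pow, hζ]; rfl)
    have h3 : ((g : BB) ^ k) (ζ : Om) = (ζ : Om) ^ c := h2
    have h4 : D.α (g ^ k) ζ = ζ ^ c := by
      rw [map_pow]
      apply Subtype.ext
      rw [h1, h3]
      rfl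
    exact h4
  · intro S Q hS hQ hq'
    exact (hsb q hq).2.2 ⟨S, Q, hhit S hS, hQ, hq'⟩


end Crest.Agent.R018.CoreBadx863
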