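import Crest.Agent.R018.Core_74

/-!
# F2 of the frozen interface `Core_74`: Frobenius lifts over `ℚ` (helper755)
-/

set_option autoImplicit false

open NumberField Pointwise
open Crest.NumberTheoryR

namespace Crest.Agent.R018.CoreF2x755

open Crest.Agent.R018.EndDefx924 (Om)
open Crest.Agent.R018.Placesx484
open Crest.Agent.R018.Corex74

/-- the residue field of a place of `ℚ` has `p` elements -/
theorem card_rat (Q : Place ℚ) : Nat.card (𝓞 ℚ ⧸ Q.ideal) = Q.rchar := by
  haveI : Fact Q.rchar.Prime := ⟨Q.rchar_prime⟩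
  haveI : CharP (𝓞 ℚ ⧸ Q.ideal) Q.rchar := by
    constructor
    intro x
    rw [← Place.natCast_mem_iff, ← map_natCast (Ideal.Quotient.mk Q.ideal),
      Ideal.Quotient.eq_zero_iff_mem]
  haveI : Nontrivial (𝓞 ℚ ⧸ Q.ideal) := Ideal.Quotient.nontrivial_iff.2 Q.isPrime.ne_top
  have hinj : Function.Injective (ZMod.castHom (dvd_refl Q.rchar) (𝓞 ℚ ⧸ Q.ideal)) :=
    RingHom.injective _
  have hsurj : Function.Surjective (ZMod.castHom (dvd_refl Q.rchar) (𝓞 ℚ ⧸ Q.ideal)) := by
    intro y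
    obtain ⟨x, rfl⟩ := Ideal.Quotient.mk_surjective y
    refine ⟨((Rat.ringOfIntegersEquiv x : ℤ) : ZMod Q.rchar), ?_⟩
    rw [map_intCast, ← map_intCast (Ideal.Quotient.mk Q.ideal)]
    congr 1
    apply Rat.ringOfIntegersEquiv.injective
    rw [map_intCast]
    rfl
  rw [← Nat.card_congr (Equiv.ofBijective _ ⟨hinj, hsurj⟩), Nat.card_zmod]

/-- over `ℚ` the norm of the place below `P` is the residue characteristic -/
theorem qv_rat {E : Type*} [Field E] [CharZero E] (P : Place E) : P.qv ℚ = P.rchar := by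
  rw [Place.qv_def, card_rat, Place.rchar_res]

/-- Frobenius lifts over `ℚ` -/
theorem exists_frob_rat {E : Type*} [Field E] [CharZero E] [IsGalois ℚ E] (P : Place E) :
    ∃ φ : E ≃ₐ[ℚ] E, φ • P = P ∧ Act P φ P.rchar := by
  obtain ⟨φ, h1, h2⟩ := Place.exists_frob (F := ℚ) P
  refine ⟨φ, h1, fun x => ?_⟩
  have := h2 x
  rwa [qv_rat] at this

/-- **F2** -/
theorem F2_holds : F2 := ⟨fun Q => exists_frob_rat Q, fun P => exists_frob_rat P⟩

end Crest.Agent.R018.CoreF2x755
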