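import Mathlib
import Crest.Agent.R018.Places3_484
import Crest.Agent.R018.TameP_31

/-!
# Row 18: tools on places of an infinite extension (helper656)

* `residue_pow`: an element of `D_Q` acts on finitely many residue classes as `x ↦ x ^ (p ^ i)`;
* `unram`: an open subgroup contains the inertia groups of all places of large residue
  characteristic;
* `inert`: `ℤ_l`-characters of open subgroups kill inertia at places `Q ∤ l`;
* `comm_mem_inertia`: `D_Q / I_Q` is commutative;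
* `exists_frob_pow`: `D_Q ≤ ⟨φ⟩ N` if `I_Q ≤ N`, `N` open, `φ` a Frobenius lift over `ℚ`.
-/

set_option autoImplicit false

open NumberField Pointwise Filter
open Crest.Agent.R018.Placesx484 Crest.Agent.R018.Placesx484.Place Crest.Agent.R018.Tamex31

namespace Crest.Agent.R018.TgtTx656

section residue

variable {E : Type*} [Field E] [CharZero E] {G : Type*} [Group G] [MulSemiringAction G E]

/-- an element of the decomposition group acts on finitely many residue classes as a power of the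
Frobenius map. -/
theorem residue_pow (Q : Place E) (g : G) (hg : g • Q = Q) (T : Finset (𝓞 E)) :
    ∃ i : ℕ, ∀ x ∈ T, g • x - x ^ (Q.rchar ^ i) ∈ Q.ideal := by
  classical
  have hmax : Q.ideal.IsMaximal := Q.isMaximal
  have : Fact Q.rchar.Prime := ⟨Q.rchar_prime⟩
  let := Ideal.Quotient.field Q.ideal
  have hch : CharP (𝓞 E ⧸ Q.ideal) Q.rchar := by
    constructor
    intro x
    rw [← natCast_mem_iff, ← map_natCast (Ideal.Quotient.mk Q.ideal),
      Ideal.Quotient.eq_zero_iff_mem]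
  let : Algebra (ZMod Q.rchar) (𝓞 E ⧸ Q.ideal) := ZMod.algebra _ _
  have hgi : g • Q.ideal = Q.ideal := congrArg Place.ideal hg
  let σ₀ : (𝓞 E ⧸ Q.ideal) ≃+* (𝓞 E ⧸ Q.ideal) :=
    Ideal.quotientEquiv Q.ideal Q.ideal (MulSemiringAction.toRingEquiv G (𝓞 E) g) hgi.symm
  have hσ₀ : ∀ x : 𝓞 E, σ₀ (Ideal.Quotient.mk Q.ideal x) = Ideal.Quotient.mk Q.ideal (g • x) :=
    fun x => Ideal.quotientEquiv_mk _ _ _ _ _
  let σ : (𝓞 E ⧸ Q.ideal) ≃ₐ[ZMod Q.rchar] (𝓞 E ⧸ Q.ideal) :=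
    AlgEquiv.ofRingEquiv (f := σ₀) (by
      intro a
      have : (σ₀ : (𝓞 E ⧸ Q.ideal) →+* (𝓞 E ⧸ Q.ideal)).comp
          (algebraMap (ZMod Q.rchar) (𝓞 E ⧸ Q.ideal)) =
          algebraMap (ZMod Q.rchar) (𝓞 E ⧸ Q.ideal) := Subsingleton.elim _ _
      exact RingHom.congr_fun this a)
  let S : Set (𝓞 E ⧸ Q.ideal) := (Ideal.Quotient.mk Q.ideal) '' (T : Set (𝓞 E))
  have hSfin : S.Finite := T.finite_toSet.image _
  have hSint : ∀ x ∈ S, IsIntegral (ZMod Q.rchar) x := by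
    rintro _ ⟨a, -, rfl⟩
    have h1 : IsIntegral ℤ a := NumberField.RingOfIntegers.isIntegral a
    have h2 : IsIntegral ℤ (Ideal.Quotient.mk Q.ideal a) := h1.map (Ideal.Quotient.mk Q.ideal).toIntAlgHom
    exact h2.tower_top
  let k₀ : IntermediateField (ZMod Q.rchar) (𝓞 E ⧸ Q.ideal) := IntermediateField.adjoin _ S
  have : Finite S := hSfin
  have : FiniteDimensional (ZMod Q.rchar) k₀ := IntermediateField.finiteDimensional_adjoin hSint
  have : Finite k₀ := Module.finite_of_finite (ZMod Q.rchar)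
  obtain ⟨i, hi⟩ := FiniteField.exists_forall_apply_eq_pow (ZMod Q.rchar) Q.rchar k₀
    (AlgEquiv.restrictNormalHom k₀ σ)
  refine ⟨i, fun x hx => ?_⟩
  have h4 : (Ideal.Quotient.mk Q.ideal x) ∈ k₀ := IntermediateField.subset_adjoin _ _ ⟨x, hx, rfl⟩
  have h5 := AlgEquiv.restrictNormalHom_apply k₀ σ ⟨_, h4⟩
  rw [hi, Nat.card_zmod] at h5
  rw [← Ideal.Quotient.eq, map_pow, ← hσ₀ x]
  exact h5.symm

/-- `D_Q / I_Q` is commutative. -/
theorem comm_mem_inertia (Q : Place E) {g h : G} (hg : g • Q = Q) (hh : h • Q = Q) :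
    g * h * g⁻¹ * h⁻¹ ∈ Q.ideal.inertia G := by
  classical
  intro x
  set y : 𝓞 E := g⁻¹ • h⁻¹ • x with hy
  -- `g h y ≡ h g y`
  obtain ⟨i, hi⟩ := residue_pow Q g hg {y, h • y}
  obtain ⟨j, hj⟩ := residue_pow Q h hh {y, g • y}
  have h1 := hi y (by simp)
  have h2 := hi (h • y) (by simp)
  have h3 := hj y (by simp)
  have h4 := hj (g • y) (by simp)
  change (g * h * g⁻¹ * h⁻¹) • x - x ∈ Q.ideal
  rw [← Ideal.Quotient.eq_zero_iff_mem, map_sub, sub_eq_zero] at h1 h2 h3 h4 ⊢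
  have e1 : (g * h * g⁻¹ * h⁻¹) • x = g • h • y := by
    rw [hy]; simp only [smul_smul, mul_assoc]
  have e2 : x = h • g • y := by
    rw [hy, smul_smul, smul_smul, smul_smul]
    simp
  rw [e1]
  conv_rhs => rw [e2]
  rw [h2, h4, map_pow, map_pow, h1, h3, map_pow, map_pow, ← pow_mul, ← pow_mul, mul_comm]

end residue

section unram

variable {E : Type*} [Field E] [CharZero E]

/-- a nonzero algebraic integer lies in no place of large residue characteristic -/
theorem not_mem_eventually (a : 𝓞 E) (ha : a ≠ 0) :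
    ∀ᶠ q in (atTop : Filter ℕ), ∀ Q : Place E, Q.rchar = q → a ∉ Q.ideal := by
  have h0 : (Ideal.span {a}).comap (algebraMap ℤ (𝓞 E)) ≠ ⊥ :=
    Ideal.comap_ne_bot_of_integral_mem (R := ℤ) ha (Ideal.mem_span_singleton_self a)
      (NumberField.RingOfIntegers.isIntegral a)
  obtain ⟨n, hn, hn0⟩ := Submodule.exists_mem_ne_zero_of_ne_bot h0
  rw [Ideal.mem_comap, Ideal.mem_span_singleton] at hn
  filter_upwards [eventually_gt_atTop n.natAbs] with q hq Q hQ hmem
  have h1 : ((n : ℤ) : 𝓞 E) ∈ Q.ideal := by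
    have := Q.ideal.mem_of_dvd hn hmem
    simpa using this
  have h2 : ((n.natAbs : ℕ) : 𝓞 E) ∈ Q.ideal := by
    rcases Int.natAbs_eq n with h | h
    · rw [h] at h1; simpa using h1
    · rw [h] at h1
      have := Q.ideal.neg_mem h1
      simpa using this
  rw [natCast_mem_iff, hQ] at h2
  have := Nat.le_of_dvd (Int.natAbs_pos.2 hn0) h2
  omega

variable [Algebra.IsAlgebraic ℚ E]

theorem v_eq_one_eventually (z : E) (hz : z ≠ 0) :
    ∀ᶠ q in (atTop : Filter ℕ), ∀ Q : Place E, Q.rchar = q → Q.v z = 1 := by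
  obtain ⟨a, b, hb, hab⟩ := Place.exists_div z
  have ha : a ≠ 0 := by
    rintro rfl
    rw [map_zero] at hab
    rcases mul_eq_zero.1 hab with h | h
    · exact hz h
    · exact hb (NumberField.RingOfIntegers.coe_eq_zero_iff.1 h)
  filter_upwards [not_mem_eventually a ha, not_mem_eventually b hb] with q h1 h2 Q hQ
  have h3 : ∀ c : 𝓞 E, c ∉ Q.ideal → Q.v (algebraMap (𝓞 E) E c) = 1 := by
    intro c hc
    refine le_antisymm (Q.v_int_le_one c) ?_
    rw [← not_lt, v_int_lt_one_iff]; exact hc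
  have h4 := congrArg Q.v hab
  rw [map_mul, h3 a (h1 Q hQ), h3 b (h2 Q hQ), mul_one] at h4
  exact h4

variable {F : Type*} [Field F] [Algebra F E] [Algebra.IsAlgebraic F E]

theorem fix_eventually (x : E) :
    ∀ᶠ q in (atTop : Filter ℕ), ∀ Q : Place E, Q.rchar = q →
      ∀ g ∈ Q.ideal.inertia (E ≃ₐ[F] E), g x = x := by
  rcases eq_or_ne x 0 with rfl | hx
  · exact Eventually.of_forall fun q Q hQ g hg => map_zero g
  have hfin : {y : E | (minpoly F x).aeval y = 0}.Finite := by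
    have h0 : minpoly F x ≠ 0 := minpoly.ne_zero (Algebra.IsAlgebraic.isAlgebraic x).isIntegral
    refine ((minpoly F x).rootSet_finite E).subset ?_
    intro y hy
    exact (Polynomial.mem_rootSet).2 ⟨h0, hy⟩
  have key : ∀ y ∈ {y : E | (minpoly F x).aeval y = 0}, ∀ᶠ q in (atTop : Filter ℕ),
      ∀ Q : Place E, Q.rchar = q → y ≠ x → Q.v (y - x) = 1 := by
    intro y _
    by_cases hyx : y = x
    · exact Eventually.of_forall fun q Q hQ h => absurd hyx h
    · filter_upwards [v_eq_one_eventually (y - x) (sub_ne_zero.2 hyx)] with q h Q hQ _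
      exact h Q hQ
  rw [← Filter.eventually_all_finite hfin] at key
  filter_upwards [key, v_eq_one_eventually x hx] with q h1 h2 Q hQ g hg
  by_contra hne
  have h3 : (minpoly F x).aeval (g x) = 0 := by
    have := Polynomial.aeval_algHom_apply (g : E →ₐ[F] E) x (minpoly F x)
    rw [minpoly.aeval, map_zero] at this
    exact this
  have h4 := h1 (g x) h3 Q hQ hne
  have h5 := v_smul_sub_lt_one Q hg x (h2 Q hQ).le
  rw [AlgEquiv.smul_def, h4] at h5
  exact lt_irrefl _ h5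

/-- **(T1)** an open subgroup contains the inertia groups at all places of large residue
characteristic. -/
theorem unram (N : Subgroup (E ≃ₐ[F] E)) (hN : IsOpen (N : Set (E ≃ₐ[F] E))) :
    ∃ q0 : ℕ, ∀ Q : Place E, q0 < Q.rchar → Q.ideal.inertia (E ≃ₐ[F] E) ≤ N := by
  obtain ⟨L, hLfin, hL⟩ := (krullTopology_mem_nhds_one_iff F E _).1 (hN.mem_nhds N.one_mem)
  have : Module.Finite F L := hLfin
  obtain ⟨S, hS⟩ := (IntermediateField.essFiniteType_iff.mp inferInstance : L.FG)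
  have h1 : ∀ᶠ q in (atTop : Filter ℕ), ∀ x ∈ S, ∀ Q : Place E, Q.rchar = q →
      ∀ g ∈ Q.ideal.inertia (E ≃ₐ[F] E), g x = x := by
    rw [Filter.eventually_all_finset]
    exact fun x _ => fix_eventually x
  obtain ⟨q0, hq0⟩ := Filter.eventually_atTop.1 h1
  refine ⟨q0, fun Q hQ g hg => hL ?_⟩
  rw [SetLike.mem_coe, IntermediateField.mem_fixingSubgroup_iff]
  intro x hx
  rw [← hS] at hx
  have h2 : IntermediateField.adjoin F (S : Set E) ≤
      IntermediateField.fixedField (Subgroup.zpowers g) := by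
    rw [IntermediateField.adjoin_le_iff]
    intro y hy
    rw [SetLike.mem_coe, IntermediateField.mem_fixedField_iff]
    intro f hf
    have hst : Subgroup.zpowers g ≤ MulAction.stabilizer (E ≃ₐ[F] E) y := by
      rw [Subgroup.zpowers_le]
      exact hq0 Q.rchar hQ.le y hy Q rfl g hg
    exact hst hf
  exact (IntermediateField.mem_fixedField_iff _ _).mp (h2 hx) _ (Subgroup.mem_zpowers _)

end unram

section dec

variable {F E : Type*} [Field F] [Field E] [CharZero E] [Algebra F E] [IsGalois F E]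

/-- compactness: an open subgroup `N ⊇ I_Q` contains every element acting trivially on a
suitable finite set of residue classes. -/
theorem exists_finset (Q : Place E) (N : Subgroup (E ≃ₐ[F] E))
    (hN : IsOpen (N : Set (E ≃ₐ[F] E))) (hI : Q.ideal.inertia (E ≃ₐ[F] E) ≤ N) :
    ∃ T : Finset (𝓞 E), ∀ g : E ≃ₐ[F] E, (∀ x ∈ T, g • x - x ∈ Q.ideal) → g ∈ N := by
  classical
  have hK : IsCompact ((N : Set (E ≃ₐ[F] E))ᶜ) := hN.isClosed_compl.isCompact
  have hopen : ∀ x : 𝓞 E, IsOpen {g : E ≃ₐ[F] E | ¬ (g • x - x ∈ Q.ideal)} := by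
    intro x
    let _ : TopologicalSpace (𝓞 E) := ⊥
    have : DiscreteTopology (𝓞 E) := ⟨rfl⟩
    have := continuousSMul_int (M := F) (E := E)
    have hc : Continuous (fun g : E ≃ₐ[F] E => g • x) := continuous_id.smul continuous_const
    exact (isOpen_discrete {y : 𝓞 E | ¬ (y - x ∈ Q.ideal)}).preimage hc
  obtain ⟨t, ht⟩ := hK.elim_finite_subcover _ hopen (by
    intro g hg
    rw [Set.mem_iUnion]
    by_contra hcon
    push Not at hcon
    apply hg
    apply hI
    intro x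
    have := hcon x
    simpa using this)
  refine ⟨t, fun g hg => ?_⟩
  by_contra hgN
  have h1 := ht hgN
  rw [Set.mem_iUnion₂] at h1
  obtain ⟨x, hx, h2⟩ := h1
  exact h2 (hg x hx)

omit [CharZero E] [IsGalois F E] in
theorem frob_pow_aux (Q : Place E) {G : Type*} [Group G] [MulSemiringAction G E] {φ : G} {q : ℕ}
    (hφ : ∀ x : 𝓞 E, φ • x - x ^ q ∈ Q.ideal) (n : ℕ) (x : 𝓞 E) :
    φ ^ n • x - x ^ (q ^ n) ∈ Q.ideal := by
  induction n generalizing x with
  | zero => simp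
  | succ n ih =>
    have h1 := ih (φ • x)
    have h2 := hφ x
    rw [pow_succ, mul_smul, pow_succ]
    rw [← Ideal.Quotient.eq_zero_iff_mem, map_sub, sub_eq_zero] at h1 h2 ⊢
    rw [h1, map_pow, h2, map_pow, map_pow, ← pow_mul, mul_comm]

theorem frob_stab (Q : Place E) {G : Type*} [Group G] [MulSemiringAction G E] {φ : G} {q : ℕ}
    (hq : q ≠ 0) (hφ : ∀ x : 𝓞 E, φ • x - x ^ q ∈ Q.ideal) : φ • Q = Q := by
  rw [smul_eq_iff]
  intro x hx
  have h1 := Q.ideal.add_mem (hφ x) (Q.ideal.pow_mem_of_mem hx q (Nat.pos_of_ne_zero hq))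
  rwa [sub_add_cancel] at h1

/-- **(T3)** if `I_Q ≤ N` then `D_Q` is generated by any Frobenius lift (over `ℤ/q`) modulo the
open subgroup `N`. -/
theorem exists_frob_pow (Q : Place E) (N : Subgroup (E ≃ₐ[F] E))
    (hN : IsOpen (N : Set (E ≃ₐ[F] E))) (hI : Q.ideal.inertia (E ≃ₐ[F] E) ≤ N)
    {φ g : E ≃ₐ[F] E} (hφ : ∀ x : 𝓞 E, φ • x - x ^ Q.rchar ∈ Q.ideal) (hg : g • Q = Q) :
    ∃ n : ℕ, g⁻¹ * φ ^ n ∈ N := by
  obtain ⟨T, hT⟩ := exists_finset Q N hN hI
  obtain ⟨i, hi⟩ := residue_pow Q g hg T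
  refine ⟨i, hT _ fun x hx => ?_⟩
  have h1 := frob_pow_aux Q hφ i x
  have h2 := hi x hx
  have h3 : φ ^ i • x - g • x ∈ Q.ideal := by
    have := Q.ideal.sub_mem h1 h2
    rwa [sub_sub_sub_cancel_right] at this
  have hg' : g⁻¹ • Q = Q := by rw [inv_smul_eq_iff, hg]
  have h4 : (g⁻¹ * φ ^ i) • x - x = g⁻¹ • (φ ^ i • x - g • x) := by
    rw [smul_sub, inv_smul_smul, mul_smul]
  rw [h4]
  exact (smul_eq_iff Q g⁻¹).1 hg' _ h3

end dec

section inert

variable {F E : Type*} [Field F] [NumberField F] [Field E] [CharZero E] [Algebra F E]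
  [IsGalois F E] [Algebra.IsAlgebraic ℚ E]

omit [NumberField F] [CharZero E] [Algebra.IsAlgebraic ℚ E] in
theorem openKer_toZModPow {l : ℕ} [hl : Fact l.Prime] {N : Subgroup (E ≃ₐ[F] E)}
    {ψ : N → ℤ_[l]} (hc : Continuous ψ) (hadd : ∀ u v, ψ (u * v) = ψ u + ψ v)
    {V : Subgroup (E ≃ₐ[F] E)} (hV : V ≤ N) (n : ℕ) (π : V →* Multiplicative (ZMod (l ^ n)))
    (hπ : ∀ v : V, π v = Multiplicative.ofAdd (PadicInt.toZModPow n (ψ ⟨v, hV v.2⟩))) :
    OpenKer π := by
  have h1 : ψ 1 = 0 := by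
    have := hadd 1 1
    rw [mul_one] at this
    simpa using this
  have hop : IsOpen {x : ℤ_[l] | ‖x‖ < (l : ℝ) ^ (-(n : ℤ) + 1)} :=
    isOpen_lt continuous_norm continuous_const
  have h2 := hop.preimage hc
  rw [isOpen_induced_iff] at h2
  obtain ⟨t, ht, htN⟩ := h2
  have hl1 : (0 : ℝ) < (l : ℝ) := by exact_mod_cast hl.out.pos
  have h1t : (1 : E ≃ₐ[F] E) ∈ t := by
    have : (1 : N) ∈ Subtype.val ⁻¹' t := by
      rw [htN, Set.mem_preimage, h1]
      simp only [Set.mem_ofPred_eq, norm_zero]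
      positivity
    simpa using this
  obtain ⟨L, hLfin, hLsub⟩ := (krullTopology_mem_nhds_one_iff F E t).mp (ht.mem_nhds h1t)
  refine ⟨L, hLfin, fun u hu => ?_⟩
  have h3 : ((⟨u, hV u.2⟩ : N) : E ≃ₐ[F] E) ∈ t := hLsub fun x => hu x x.2
  have h4 : (⟨u, hV u.2⟩ : N) ∈ ψ ⁻¹' {x : ℤ_[l] | ‖x‖ < (l : ℝ) ^ (-(n : ℤ) + 1)} := by
    rw [← htN]; exact h3
  have h5 : ψ ⟨u, hV u.2⟩ ∈ Ideal.span {(l : ℤ_[l]) ^ n} := by
    rw [← PadicInt.norm_le_pow_iff_mem_span_pow, PadicInt.norm_le_pow_iff_norm_lt_pow_add_one]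
    exact h4
  rw [← PadicInt.ker_toZModPow, RingHom.mem_ker] at h5
  rw [hπ, h5, ofAdd_zero]

/-- **(T2)** `ℤ_l`-characters of open subgroups are unramified at the places `Q ∤ l`. -/
theorem inert (Q : Place E) {l : ℕ} [hl : Fact l.Prime] (hQl : Q.rchar ≠ l)
    (hroots : ∀ n : ℕ, ∃ ζ : E, IsPrimitiveRoot ζ (l ^ n)) (N : Subgroup (E ≃ₐ[F] E))
    (hN : IsOpen (N : Set (E ≃ₐ[F] E))) {ψ : N → ℤ_[l]} (hc : Continuous ψ)
    (hadd : ∀ u v, ψ (u * v) = ψ u + ψ v) (τ : N)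
    (hτ : (τ : E ≃ₐ[F] E) ∈ Q.ideal.inertia (E ≃ₐ[F] E)) : ψ τ = 0 := by
  obtain ⟨φ, hφQ, hφ⟩ := Place.exists_frob (F := F) Q
  have hfin : Finite ((E ≃ₐ[F] E) ⧸ N) := N.quotient_finite_of_isOpen hN
  have hidx : N.index ≠ 0 := (Subgroup.finiteIndex_of_finite_quotient (H := N)).index_ne_zero
  obtain ⟨m, hm0, -, hm⟩ := Subgroup.exists_pow_mem_of_index_ne_zero hidx φ
  set s : N := ⟨φ ^ m, hm⟩ with hs
  have h1 : ψ 1 = 0 := by
    have := hadd 1 1
    rw [mul_one] at this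
    simpa using this
  have hinv : ∀ u, ψ u⁻¹ = - ψ u := by
    intro u
    have := hadd u u⁻¹
    rw [mul_inv_cancel, h1] at this
    exact (neg_eq_of_add_eq_zero_right this.symm).symm
  have hconj : ψ (s * τ * s⁻¹) = ψ τ := by
    rw [hadd, hadd, hinv]; ring
  set c : ℕ := Q.qv F ^ m with hcdef
  -- the key congruence
  have key : ∀ n : ℕ, PadicInt.toZModPow n (((c : ℤ_[l]) - 1) * ψ τ) = 0 := by
    intro n
    let V : Subgroup (E ≃ₐ[F] E) := N ⊓ Q.ideal.inertia (E ≃ₐ[F] E)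
    have hVN : V ≤ N := inf_le_left
    have hVI : V ≤ inS F Q.val := fun g hg => (mem_inS_val Q g).2 hg.2
    obtain ⟨ζ, hζ⟩ := hroots n
    let π : V →* Multiplicative (ZMod (l ^ n)) :=
      { toFun := fun v => Multiplicative.ofAdd (PadicInt.toZModPow n (ψ ⟨v, hVN v.2⟩))
        map_one' := by
          have : (⟨((1 : V) : E ≃ₐ[F] E), hVN (1 : V).2⟩ : N) = 1 := rfl
          rw [this, h1, map_zero, ofAdd_zero]
        map_mul' := by
          intro u v
          have : (⟨((u * v : V) : E ≃ₐ[F] E), hVN (u * v).2⟩ : N) =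
            ⟨u, hVN u.2⟩ * ⟨v, hVN v.2⟩ := rfl
          rw [this, hadd, map_add, ofAdd_add] }
    have hπ : OpenKer π := openKer_toZModPow hc hadd hVN n π fun v => rfl
    have hsD : (s : E ≃ₐ[F] E) • Q = Q := by
      have : ∀ k : ℕ, φ ^ k • Q = Q := by
        intro k
        induction k with
        | zero => simp
        | succ k ih => rw [pow_succ, mul_smul, hφQ, ih]
      exact this m
    have hsV : ∀ x ∈ V, (s : E ≃ₐ[F] E) * x * (s : E ≃ₐ[F] E)⁻¹ ∈ V := by
      intro x hx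
      refine ⟨N.mul_mem (N.mul_mem s.2 hx.1) (N.inv_mem s.2), ?_⟩
      have h2 := conj_mem_inS ((mem_decS_val Q (s : E ≃ₐ[F] E)).2 hsD) ((mem_inS_val Q x).2 hx.2)
      exact (mem_inS_val Q _).1 h2
    have hcζ : (s : E ≃ₐ[F] E) ζ = ζ ^ c := by
      have hn : ¬ Q.rchar ∣ l ^ n := by
        intro h
        exact hQl ((Nat.prime_dvd_prime_iff_eq Q.rchar_prime hl.out).1
          (Q.rchar_prime.dvd_of_dvd_pow h))
      exact frob_root Q (g := (s : E ≃ₐ[F] E)) (fun x => frob_pow_aux Q hφ m x) hn hζ.pow_eq_one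
    have hcard : Nat.card (Multiplicative (ZMod (l ^ n))) ∣ l ^ n := by
      have : Nat.card (Multiplicative (ZMod (l ^ n))) = l ^ n := Nat.card_zmod (l ^ n)
      rw [this]
    have : NeZero (l ^ n) := ⟨pow_ne_zero _ hl.out.ne_zero⟩
    have : Finite (Multiplicative (ZMod (l ^ n))) := inferInstance
    have hval : Q.val.valuation ((l ^ n : ℕ) : E) = 1 := by
      rw [Nat.cast_pow, map_pow, val_prime_eq_one Q hl.out hQl, one_pow]
    have h3 := conj_eq_pow hVI hval hζ hcard π hπ ((mem_decS_val Q (s : E ≃ₐ[F] E)).2 hsD) hsV hcζ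
      ⟨τ, τ.2, hτ⟩
    have h4 : PadicInt.toZModPow n (ψ (s * τ * s⁻¹)) = (c : ZMod (l ^ n)) *
        PadicInt.toZModPow n (ψ τ) := by
      have h5 := congrArg Multiplicative.toAdd h3
      rw [toAdd_pow, nsmul_eq_mul] at h5
      exact h5
    rw [hconj] at h4
    rw [map_mul, map_sub, map_natCast, map_one, sub_mul, one_mul, ← h4, sub_self]
  have h6 : ((c : ℤ_[l]) - 1) * ψ τ = 0 :=
    PadicInt.ext_of_toZModPow.1 fun n => by rw [key, map_zero]
  rcases mul_eq_zero.1 h6 with h7 | h7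
  · exfalso
    have h8 : ((c : ℕ) : ℤ_[l]) = ((1 : ℕ) : ℤ_[l]) := by
      rw [Nat.cast_one]; exact sub_eq_zero.1 h7
    have h9 : c = 1 := by exact_mod_cast h8
    have h10 : 1 < c := Nat.one_lt_pow hm0.ne' (Place.one_lt_qv (F := F) Q)
    omega
  · exact h7

/-- a `ℤ_l`-character of an open normal subgroup does not see the conjugation by elements of the
decomposition group on the decomposition group. -/
theorem conj_eq_of_dec (Q : Place E) {l : ℕ} [hl : Fact l.Prime] (hQl : Q.rchar ≠ l)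
    (hroots : ∀ n : ℕ, ∃ ζ : E, IsPrimitiveRoot ζ (l ^ n)) (N : Subgroup (E ≃ₐ[F] E)) [N.Normal]
    (hN : IsOpen (N : Set (E ≃ₐ[F] E))) {ψ : N → ℤ_[l]} (hc : Continuous ψ)
    (hadd : ∀ u v, ψ (u * v) = ψ u + ψ v) {g : E ≃ₐ[F] E} (hg : g • Q = Q) (h : N)
    (hh : (h : E ≃ₐ[F] E) • Q = Q) : ψ (MulAut.conjNormal g h) = ψ h := by
  have h1 : (((MulAut.conjNormal g h * h⁻¹ : N) : E ≃ₐ[F] E)) ∈
      Q.ideal.inertia (E ≃ₐ[F] E) := comm_mem_inertia Q hg hh
  have h2 := inert Q hQl hroots N hN hc hadd _ h1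
  have h3 := hadd (MulAut.conjNormal g h * h⁻¹) h
  rw [inv_mul_cancel_right, h2, zero_add] at h3
  exact h3

end inert

end Crest.Agent.R018.TgtTx656
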