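import Mathlib
import Crest.Agent.R018.Core_74
import Crest.Agent.R018.TgtT_656
import Crest.Agent.R018.Kum_568

/-!
# Row 18: the library facts F3, F3', F4, F7 of `Core_74` (helper656)

Also: `Sv` is closed under radicals, contains all roots of unity.
-/

set_option autoImplicit false

open NumberField Pointwise
open Crest.NumberTheoryR
open Crest.Agent.R018.EndDefx924 (Om)
open Crest.Agent.R018.Placesx484 Crest.Agent.R018.Placesx484.Place
open Crest.Agent.R018.Corex74 Crest.Agent.R018.TgtTx656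

namespace Crest.Agent.R018.CoreFx656

/-- `Sv` is closed under radicals in `Om`. -/
theorem sv_rad {n : ℕ} (hn : n ≠ 0) (y : Om) (hy : y ^ n ∈ Sv) : y ∈ Sv := by
  unfold Sv at hy ⊢
  rw [← SetLike.mem_coe, IntermediateField.coe_iInf, Set.mem_iInter] at hy ⊢
  intro E
  have hE : IsSolvablyClosed E.1 := E.2.2
  obtain ⟨z, hz⟩ := Crest.Agent.R018.Kumx568.exists_pow_eq hE n hn (⟨y ^ n, hy E⟩ : E.1)
  obtain ⟨ζ, hζ⟩ := Crest.Agent.R018.Kumx568.exists_primitiveRoot hE n hn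
  have hz' : (z : Om) ^ n = y ^ n := congrArg Subtype.val hz
  by_cases hy0 : y = 0
  · rw [hy0]; exact zero_mem _
  have hz0 : (z : Om) ≠ 0 := by
    intro h
    rw [h, zero_pow hn] at hz'
    exact pow_ne_zero n hy0 hz'.symm
  have hζ' : IsPrimitiveRoot (ζ : Om) n := hζ.map_of_injective (f := algebraMap E.1 Om)
    (algebraMap E.1 Om).injective
  have h1 : (y / z) ^ n = 1 := by
    rw [div_pow, hz', div_self (pow_ne_zero n hy0)]
  have : NeZero n := ⟨hn⟩
  obtain ⟨i, -, hi⟩ := hζ'.eq_pow_of_pow_eq_one h1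
  have h2 : y = (ζ : Om) ^ i * z := by
    rw [hi, div_mul_cancel₀ _ hz0]
  rw [h2]
  exact mul_mem (pow_mem ζ.2 i) z.2

theorem sv_root {n : ℕ} (hn : n ≠ 0) (a : Sv) : ∃ z : Sv, z ^ n = a := by
  obtain ⟨y, hy⟩ := IsAlgClosed.exists_pow_nat_eq (a : Om) (Nat.pos_of_ne_zero hn)
  refine ⟨⟨y, sv_rad hn y (by rw [hy]; exact a.2)⟩, Subtype.ext hy⟩

theorem sv_primitive {n : ℕ} (hn : n ≠ 0) : ∃ ζ : Sv, IsPrimitiveRoot ζ n := by
  have : NeZero n := ⟨hn⟩
  have : NeZero (n : Om) := ⟨by exact_mod_cast hn⟩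
  obtain ⟨ζ, hζ⟩ := IsAlgClosed.exists_root (Polynomial.cyclotomic n Om)
    (by rw [Polynomial.degree_cyclotomic]
        exact_mod_cast (Nat.totient_pos.2 (Nat.pos_of_ne_zero hn)).ne')
  have hζ' : IsPrimitiveRoot ζ n := Polynomial.isRoot_cyclotomic_iff.1 hζ
  have hmem : ζ ∈ Sv := sv_rad hn ζ (by rw [hζ'.pow_eq_one]; exact one_mem _)
  exact ⟨⟨ζ, hmem⟩, IsPrimitiveRoot.of_map_of_injective (f := algebraMap Sv Om)
    (by exact hζ') (algebraMap Sv Om).injective⟩

theorem F3_holds : F3 := by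
  intro V hV
  obtain ⟨B, hB⟩ := unram V hV
  exact ⟨B, fun Q hQ g hg => hB Q hQ hg⟩

theorem F3'_holds : F3' := by
  intro V hV
  obtain ⟨B, hB⟩ := unram V hV
  exact ⟨B, fun Q hQ g hg => hB Q hQ hg⟩

theorem F4_holds : F4 := by
  intro V hVn hV Q hI φ hφ g hg
  obtain ⟨n, hn⟩ := exists_frob_pow Q V hV (fun g hg => hI g hg) hφ hg
  refine ⟨n, ?_⟩
  have h1 := V.inv_mem hn
  rwa [mul_inv_rev, inv_inv] at h1

theorem F7_holds : F7 := by
  intro V hV l hl ψ hψ Q hQ g hg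
  have h1 := inert Q hQ (fun n => sv_primitive (pow_ne_zero n hl.out.ne_zero)) V hV
    (ψ := fun v => Multiplicative.toAdd (ψ v)) hψ (fun u v => by rw [map_mul, toAdd_mul]) g hg
  exact Multiplicative.toAdd.injective (by rw [h1]; rfl)

/-- an involution of `Sv` moves `i`: an open subgroup fixing `i` has no element of order two -/
theorem no_involution {i : Sv} (hi : i ^ 2 = -1) {v : SG} (hv : v * v = 1) (hvi : v i = i) :
    v = 1 := by
  by_contra hne
  obtain ⟨b, hb⟩ : ∃ b : Sv, v b = -b ∧ b ≠ 0 := by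
    obtain ⟨y, hy⟩ : ∃ y, v y ≠ y := by
      by_contra h
      push Not at h
      exact hne (AlgEquiv.ext h)
    refine ⟨y - v y, ?_, sub_ne_zero.2 (Ne.symm hy)⟩
    have : v (v y) = y := by rw [← AlgEquiv.mul_apply, hv]; rfl
    rw [map_sub, this]; ring
  obtain ⟨c, hc⟩ := sv_root (two_ne_zero) b
  have hc0 : c ≠ 0 := by
    rintro rfl
    exact hb.2 (by rw [← hc]; ring)
  have h1 : (v c) ^ 2 = (i * c) ^ 2 := by
    rw [← map_pow, hc, hb.1, mul_pow, hi, hc]; ring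
  have h2 : v (v c) = c := by rw [← AlgEquiv.mul_apply, hv]; rfl
  have h3 : ∀ e : Sv, v c = e * c → v e = e → e ^ 2 = -1 → False := by
    intro e he hve hee
    rw [he, map_mul, hve, he, ← mul_assoc, ← pow_two, hee] at h2
    have h4 : (2 : Sv) * c = 0 := by linear_combination -h2
    rcases mul_eq_zero.1 h4 with h5 | h5
    · exact two_ne_zero h5
    · exact hc0 h5
  rcases sq_eq_sq_iff_eq_or_eq_neg.1 h1 with h | h
  · exact h3 i h hvi hi
  · exact h3 (-i) (by rw [h]; ring) (by rw [map_neg, hvi]) (by rw [neg_sq, hi])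

end Crest.Agent.R018.CoreFx656
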