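import Crest.Agent.R018.FT_925

/-!
# Row 18: consequences of Frobenius density for `Gal(Om/F₁)` (helper925)

* `exists_frob_near` : for `s : Gal(Om/F₁)` and a finite set `T` there is a `p`-Frobenius `g` in
  `Gal(Om/F₁)` with `s = g ^ k` on `T`.
* `eq_top_of_frob` : an open subgroup of `Gal(Om/F₁)` which contains all `p`-Frobenius elements for
  all large `p` is everything.
* `cyc_of_frob` : cyclotomic compatibility at level `m` follows from the one on Frobenius elements.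
-/

set_option autoImplicit false

open NumberField
open scoped Pointwise Topology
open Crest.Agent.R018.Placesx484
open Crest.Agent.R018.EndDefx924

namespace Crest.Agent.R018.Densx925

theorem exists_finset_fixing {F W : Type*} [Field F] [Field W] [Algebra F W]
    (L : IntermediateField F W) [FiniteDimensional F L] :
    ∃ T : Finset W, (∀ x ∈ T, x ∈ L) ∧
      ∀ s : W ≃ₐ[F] W, (∀ x ∈ T, s x = x) → s ∈ L.fixingSubgroup := by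
  classical
  let b := Module.finBasis F L
  refine ⟨Finset.univ.image (fun i => ((b i : L) : W)), ?_, fun s hs => ?_⟩
  · intro x hx
    obtain ⟨i, _, rfl⟩ := Finset.mem_image.1 hx
    exact (b i).2
  rw [IntermediateField.mem_fixingSubgroup_iff]
  intro z hz
  have h4 : z = ∑ i, (b.repr ⟨z, hz⟩ i) • ((b i : L) : W) := by
    have := congrArg L.val (b.sum_repr ⟨z, hz⟩)
    rw [map_sum] at this
    simp only [map_smul] at this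
    exact this.symm
  rw [h4, map_sum]
  refine Finset.sum_congr rfl fun i _ => ?_
  rw [map_smul, hs _ (Finset.mem_image.2 ⟨i, Finset.mem_univ _, rfl⟩)]

section

variable {F₁ : Type*} [Field F₁] [NumberField F₁] [Algebra F₁ Om]

theorem exists_frob_near {PP : Set ℕ} (hFD : FD PP) (S0 : Finset Om) (B : ℕ)
    (s : Om ≃ₐ[F₁] Om) :
    ∃ (p : ℕ) (_ : Fact p.Prime), B < p ∧ p ∈ PP ∧ ∃ (l : Pl p Om) (g : Om ≃ₐ[F₁] Om),
      IsFrobAt p l (g : Om →+* Om) ∧ ∃ k : ℕ, ∀ z ∈ S0, s z = (g ^ k) z := by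
  classical
  let b := Module.finBasis ℚ F₁
  let S1 : Finset Om := Finset.univ.image (fun i => algebraMap F₁ Om (b i))
  obtain ⟨N, _, hNG, hN⟩ := EndBx924.exists_level ℚ (S0 ∪ S1)
  have : IsGalois ℚ N := by
    convert hNG
    exact Subsingleton.elim _ _
  obtain ⟨p, hpF, hpB, hpP, l, g, hg, ⟨k, hk⟩, ⟨k', hk'⟩⟩ :=
    hFD N (s.restrictScalars ℚ) B
  have hspow : ∀ (n : ℕ) (x : Om), ((s.restrictScalars ℚ) ^ n) x = (s ^ n) x := by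
    intro n
    induction n with
    | zero => intro x; rfl
    | succ n ih =>
      intro x
      rw [pow_succ, pow_succ, AlgEquiv.mul_apply, AlgEquiv.mul_apply, ih]
      rfl
  have hF₁N : ∀ x : F₁, algebraMap F₁ Om x ∈ N := by
    intro x
    rw [← b.sum_repr x, map_sum]
    refine sum_mem fun i _ => ?_
    have h1 : algebraMap F₁ Om (b.repr x i • b i) =
        algebraMap ℚ Om (b.repr x i) * algebraMap F₁ Om (b i) := by
      rw [Algebra.smul_def, map_mul]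
      congr 1
      simp
    rw [h1]
    exact mul_mem (N.algebraMap_mem _) (hN _ (Finset.mem_union_right _
      (Finset.mem_image.2 ⟨i, Finset.mem_univ _, rfl⟩)))
  have hgF : ∀ x : F₁, g (algebraMap F₁ Om x) = algebraMap F₁ Om x := by
    intro x
    rw [hk' _ (hF₁N x), hspow, AlgEquiv.commutes]
  let g1 : Om ≃ₐ[F₁] Om := AlgEquiv.ofRingEquiv (f := g.toRingEquiv) hgF
  have hgpow : ∀ (n : ℕ) (x : Om), (g ^ n) x = (g1 ^ n) x := by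
    intro n
    induction n with
    | zero => intro x; rfl
    | succ n ih =>
      intro x
      rw [pow_succ, pow_succ, AlgEquiv.mul_apply, AlgEquiv.mul_apply, ih]
      rfl
  refine ⟨p, hpF, hpB, hpP, l, g1, hg, k, ?_⟩
  intro z hz
  rw [← hgpow]
  exact hk z (hN z (Finset.mem_union_left _ hz))

/-- an open subgroup of `Gal(Om/F₁)` containing all `p`-Frobenius elements, `p ∈ PP` large, is
the whole group. -/
theorem eq_top_of_frob {PP : Set ℕ} (hFD : FD PP) (K : Subgroup (Om ≃ₐ[F₁] Om))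
    (hK : IsOpen (K : Set (Om ≃ₐ[F₁] Om))) (B : ℕ)
    (h : ∀ (p : ℕ) [Fact p.Prime], B < p → p ∈ PP → ∀ (l : Pl p Om) (g : Om ≃ₐ[F₁] Om),
      IsFrobAt p l (g : Om →+* Om) → g ∈ K) : K = ⊤ := by
  classical
  rw [eq_top_iff]
  intro s _
  have h1 : (K : Set (Om ≃ₐ[F₁] Om)) ∈ nhds (1 : Om ≃ₐ[F₁] Om) := hK.mem_nhds K.one_mem
  obtain ⟨L, hL, hsub⟩ := (krullTopology_mem_nhds_one_iff F₁ Om _).1 h1
  obtain ⟨T, -, hT⟩ := exists_finset_fixing L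
  obtain ⟨p, hp, hB, hPP, l, g, hg, k, hk⟩ := exists_frob_near hFD T B s
  have hgK : g ∈ K := h p hB hPP l g hg
  have h2 : (g ^ k)⁻¹ * s ∈ L.fixingSubgroup := by
    apply hT
    intro x hx
    rw [AlgEquiv.mul_apply, hk _ hx, ← AlgEquiv.mul_apply, inv_mul_cancel, AlgEquiv.one_apply]
  have h3 : (g ^ k)⁻¹ * s ∈ K := hsub h2
  have h4 := K.mul_mem (K.pow_mem hgK k) h3
  rwa [mul_inv_cancel_left] at h4

end

section

variable {F₁ F₂ E₂ : Type*} [Field F₁] [NumberField F₁] [Algebra F₁ Om] [Field F₂]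
  [Field E₂] [Algebra F₂ E₂] [Algebra.IsAlgebraic F₂ E₂]

/-- the subgroup of all `s` such that `s` and `α s` act in the same way on the `m`-th roots of
unity -/
def cycSub (α : (Om ≃ₐ[F₁] Om) →* (E₂ ≃ₐ[F₂] E₂)) (ζ₁ : Om) (ζ₂ : E₂) :
    Subgroup (Om ≃ₐ[F₁] Om) where
  carrier := {s | ∃ a b : ℕ, s ζ₁ = ζ₁ ^ a ∧ s⁻¹ ζ₁ = ζ₁ ^ b ∧ α s ζ₂ = ζ₂ ^ a ∧
    (α s)⁻¹ ζ₂ = ζ₂ ^ b}
  mul_mem' := by
    rintro s t ⟨a, b, h1, h2, h3, h4⟩ ⟨a', b', h1', h2', h3', h4'⟩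
    refine ⟨a * a', b' * b, ?_, ?_, ?_, ?_⟩
    · rw [AlgEquiv.mul_apply, h1', map_pow, h1, pow_mul]
    · rw [mul_inv_rev, AlgEquiv.mul_apply, h2, map_pow, h2', pow_mul]
    · rw [map_mul, AlgEquiv.mul_apply, h3', map_pow, h3, pow_mul]
    · rw [map_mul, mul_inv_rev, AlgEquiv.mul_apply, h4, map_pow, h4', pow_mul]
  one_mem' := ⟨1, 1, by simp, by simp, by simp, by simp⟩
  inv_mem' := by
    rintro s ⟨a, b, h1, h2, h3, h4⟩
    refine ⟨b, a, h2, by rwa [inv_inv], ?_, ?_⟩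
    · rw [map_inv]; exact h4
    · rw [map_inv, inv_inv]; exact h3

theorem mem_cycSub (α : (Om ≃ₐ[F₁] Om) →* (E₂ ≃ₐ[F₂] E₂)) {m : ℕ} (hm : m ≠ 0) {ζ₁ : Om}
    {ζ₂ : E₂} (hζ₁ : IsPrimitiveRoot ζ₁ m) (hζ₂ : IsPrimitiveRoot ζ₂ m) (s : Om ≃ₐ[F₁] Om)
    (h : ∀ a : ℕ, s ζ₁ = ζ₁ ^ a → α s ζ₂ = ζ₂ ^ a) : s ∈ cycSub α ζ₁ ζ₂ := by
  haveI : NeZero m := ⟨hm⟩
  obtain ⟨a, ha⟩ := LCMainx925.exists_aut_pow s hζ₁
  obtain ⟨b, hb⟩ := LCMainx925.exists_aut_pow s⁻¹ hζ₁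
  refine ⟨a, b, ha, hb, h a ha, ?_⟩
  have h1 : ζ₁ ^ (b * a) = ζ₁ ^ 1 := by
    have h2 : s (s⁻¹ ζ₁) = ζ₁ := by
      rw [← AlgEquiv.mul_apply, mul_inv_cancel, AlgEquiv.one_apply]
    rw [hb, map_pow, ha, ← pow_mul, mul_comm] at h2
    rw [h2, pow_one]
  have h3 : b * a ≡ 1 [MOD m] := LCMainx925.modEq_of_pow_eq hm hζ₁ h1
  have h4 : (α s)⁻¹ (ζ₂ ^ 1) = ζ₂ ^ b := by
    have h5 : ζ₂ ^ 1 = ζ₂ ^ (b * a) := (pow_eq_pow_of_modEq h3 hζ₂.pow_eq_one).symm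
    rw [h5]
    have h6 : α s (ζ₂ ^ b) = ζ₂ ^ (b * a) := by
      rw [map_pow, h a ha, ← pow_mul, mul_comm]
    rw [← h6, ← AlgEquiv.mul_apply, inv_mul_cancel, AlgEquiv.one_apply]
  rwa [pow_one] at h4

theorem isOpen_cycSub (α : (Om ≃ₐ[F₁] Om) →* (E₂ ≃ₐ[F₂] E₂)) (hα : Continuous α) (ζ₁ : Om)
    (ζ₂ : E₂) : IsOpen (cycSub α ζ₁ ζ₂ : Set (Om ≃ₐ[F₁] Om)) := by
  haveI : IsGalois F₁ Om := LCEndx925.isGalois_Om F₁
  apply Subgroup.isOpen_of_mem_nhds (g := 1)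
  have h1 : (MulAction.stabilizer (Om ≃ₐ[F₁] Om) ζ₁ : Set (Om ≃ₐ[F₁] Om)) ∈
      nhds (1 : Om ≃ₐ[F₁] Om) :=
    (stabilizer_isOpen_of_isIntegral (K := F₁) (L := Om) ζ₁).mem_nhds (one_mem _)
  have h2 : (α ⁻¹' (MulAction.stabilizer (E₂ ≃ₐ[F₂] E₂) ζ₂ : Set (E₂ ≃ₐ[F₂] E₂))) ∈
      nhds (1 : Om ≃ₐ[F₁] Om) := by
    apply hα.continuousAt
    rw [map_one]
    exact (stabilizer_isOpen_of_isIntegral (K := F₂) (L := E₂) ζ₂).mem_nhds (one_mem _)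
  filter_upwards [h1, h2] with s hs1 hs2
  have hs1' : s ζ₁ = ζ₁ := hs1
  have hs2' : α s ζ₂ = ζ₂ := hs2
  refine ⟨1, 1, by rw [hs1', pow_one], ?_, by rw [hs2', pow_one], ?_⟩
  · rw [pow_one]
    conv_lhs => rw [← hs1']
    rw [← AlgEquiv.mul_apply, inv_mul_cancel, AlgEquiv.one_apply]
  · rw [pow_one]
    conv_lhs => rw [← hs2']
    rw [← AlgEquiv.mul_apply, inv_mul_cancel, AlgEquiv.one_apply]

/-- **cyclotomic compatibility from Frobenius elements** -/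
theorem cyc_of_frob {PP : Set ℕ} (hFD : FD PP) (α : (Om ≃ₐ[F₁] Om) →* (E₂ ≃ₐ[F₂] E₂))
    (hα : Continuous α) {m : ℕ} (hm : m ≠ 0) (hroot₂ : ∃ ζ : E₂, IsPrimitiveRoot ζ m) (B : ℕ)
    (h : ∀ (p : ℕ) [Fact p.Prime], B < p → p ∈ PP → ∀ (l : Pl p Om) (g : Om ≃ₐ[F₁] Om),
      IsFrobAt p l (g : Om →+* Om) → ∀ a : ℕ, (∀ ζ : Om, ζ ^ m = 1 → g ζ = ζ ^ a) →
        ∀ ζ : E₂, ζ ^ m = 1 → α g ζ = ζ ^ a) :
    ∀ (s : Om ≃ₐ[F₁] Om) (a : ℕ), (∀ ζ : Om, ζ ^ m = 1 → s ζ = ζ ^ a) →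
      ∀ ζ : E₂, ζ ^ m = 1 → α s ζ = ζ ^ a := by
  haveI : NeZero m := ⟨hm⟩
  haveI : NeZero (m : Om) := ⟨by exact_mod_cast hm⟩
  obtain ⟨ζ₁, hζ₁⟩ := HasEnoughRootsOfUnity.exists_primitiveRoot Om m
  obtain ⟨ζ₂, hζ₂⟩ := hroot₂
  have htop : cycSub α ζ₁ ζ₂ = ⊤ := by
    apply eq_top_of_frob hFD _ (isOpen_cycSub α hα ζ₁ ζ₂) B
    intro p hp hB hPP l g hg
    apply mem_cycSub α hm hζ₁ hζ₂
    intro a ha
    exact h p hB hPP l g hg a (LCMainx925.aut_eq_pow g hζ₁ a ha) ζ₂ hζ₂.pow_eq_one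
  intro s a hs
  obtain ⟨a', b', h1, -, h3, -⟩ : s ∈ cycSub α ζ₁ ζ₂ := by rw [htop]; trivial
  have h4 : a' ≡ a [MOD m] := by
    apply LCMainx925.modEq_of_pow_eq hm hζ₁
    rw [← h1, hs ζ₁ hζ₁.pow_eq_one]
  apply LCMainx925.aut_eq_pow (α s) hζ₂
  rw [h3]
  exact pow_eq_pow_of_modEq h4 hζ₂.pow_eq_one

/-- cyclotomic compatibility from the one on decomposition groups (of the places not above `m`) -/
theorem cyc_of_dec (α : (Om ≃ₐ[F₁] Om) →* (E₂ ≃ₐ[F₂] E₂))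
    (hα : Continuous α) {m : ℕ} (hm : m ≠ 0) (hroot₂ : ∃ ζ : E₂, IsPrimitiveRoot ζ m)
    (h : ∀ P : Place Om, ¬ P.rchar ∣ m → ∀ g : Om ≃ₐ[F₁] Om, g • P = P →
      ∀ a : ℕ, (∀ ζ : Om, ζ ^ m = 1 → g ζ = ζ ^ a) → ∀ ζ : E₂, ζ ^ m = 1 → α g ζ = ζ ^ a) :
    ∀ (s : Om ≃ₐ[F₁] Om) (a : ℕ), (∀ ζ : Om, ζ ^ m = 1 → s ζ = ζ ^ a) →
      ∀ ζ : E₂, ζ ^ m = 1 → α s ζ = ζ ^ a := by
  apply cyc_of_frob FDAdaptx389.fd_univ α hα hm hroot₂ m
  intro p hp hB _ l g hg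
  apply h (LCEndx925.placeOf p l)
  · rw [(LCEndx925.placeOf p l).rchar_eq_of_mem hp.out (LCEndx925.natCast_mem_placeOf p l)]
    intro hd
    exact absurd (Nat.le_of_dvd (Nat.pos_of_ne_zero hm) hd) (not_le.2 hB)
  · apply LCMainx925.frob_stab _ _ p hp.out.ne_zero
    intro x
    rw [LCEndx925.mem_placeOf, map_sub, map_sub, LCEndx925.toOO_smul, map_pow, map_pow,
      sub_eq_zero]
    exact hg _

end

/-- compatibility with `μ_l` on the decomposition groups + local correspondence imply the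
conclusion of S0024. -/
theorem ft_of_dec {F₁ F₂ E₂ : Type*} [Field F₁] [NumberField F₁] [Algebra F₁ Om] [Field F₂]
    [NumberField F₂] [Field E₂] [Algebra F₂ E₂] [IsGalois F₂ E₂]
    (hsc : Crest.NumberTheoryR.IsSolvablyClosed E₂)
    (α : (Om ≃ₐ[F₁] Om) →* (E₂ ≃ₐ[F₂] E₂)) (hα : Continuous α) (S : Finset ℕ)
    (h : ∀ l : ℕ, l.Prime → l ∉ S → ∀ P : Place Om, P.rchar ≠ l →
      ∀ g : Om ≃ₐ[F₁] Om, g • P = P →
      ∀ a : ℕ, (∀ ζ : Om, ζ ^ l = 1 → g ζ = ζ ^ a) → ∀ ζ : E₂, ζ ^ l = 1 → α g ζ = ζ ^ a)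
    (loc : ∀ r : ℕ, r.Prime → r ≠ 2 → ∀ P : Place Om, P.rchar ≠ r →
      (∃ s : Om ≃ₐ[F₁] Om, (∀ x : 𝓞 Om, s • x - x ∈ P.ideal) ∧
        ∃ N : Subgroup (E₂ ≃ₐ[F₂] E₂), N.Normal ∧ IsOpen (N : Set (E₂ ≃ₐ[F₂] E₂)) ∧
          ∀ n : ℕ, (α s) ^ n ∈ N → r ∣ n) →
      ∃ Q : Place E₂, ∀ d : Om ≃ₐ[F₁] Om, d • P = P → α d • Q = Q) :
    ∃ e : E₂ →+* Om, ∀ (g : Om ≃ₐ[F₁] Om) (x : E₂), g (e x) = e (α g x) := by
  haveI : CharZero E₂ := charZero_of_injective_algebraMap (algebraMap F₂ E₂).injective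
  refine FTx925.ft_of_cyc hsc α hα S ?_ loc
  intro l hl hlS
  refine cyc_of_dec α hα hl.ne_zero (Kumx568.exists_primitiveRoot hsc l hl.ne_zero) ?_
  intro P hP
  exact h l hl hlS P (fun he => hP (by rw [he]))

end Crest.Agent.R018.Densx925
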