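import Crest.Agent.R018.EndA_924

/-!
# Row 18, end game, theorem B: `(LC)` + Frobenius density imply pointwise compatibility (helper924)
-/

set_option autoImplicit false

namespace Crest.Agent.R018.EndBx924

open Crest.Agent.R018.EndDefx924 Crest.Agent.R018.EndAx924 Polynomial

/-! ### uniform denominators -/

theorem exists_uniform {X : Type*} (T : Finset X) (P : ℤ → X → Prop)
    (hP : ∀ m n x, P m x → P (m * n) x) (h : ∀ x ∈ T, ∃ m : ℤ, m ≠ 0 ∧ P m x) :
    ∃ m : ℤ, m ≠ 0 ∧ ∀ x ∈ T, P m x := by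
  classical
  induction T using Finset.induction_on with
  | empty => exact ⟨1, one_ne_zero, by simp⟩
  | insert a T ha ih =>
    obtain ⟨m, hm, hmT⟩ := ih fun x hx => h x (Finset.mem_insert_of_mem hx)
    obtain ⟨n, hn, hna⟩ := h a (Finset.mem_insert_self a T)
    refine ⟨m * n, mul_ne_zero hm hn, fun x hx => ?_⟩
    rcases Finset.mem_insert.1 hx with rfl | hx
    · rw [mul_comm]; exact hP _ _ _ hna
    · exact hP _ _ _ (hmT x hx)

theorem exists_bound_uniform {X : Type*} (T : Finset X) (P : ℕ → X → Prop)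
    (h : ∀ x ∈ T, ∃ B : ℕ, ∀ p, B < p → P p x) :
    ∃ B : ℕ, ∀ x ∈ T, ∀ p, B < p → P p x := by
  classical
  induction T using Finset.induction_on with
  | empty => exact ⟨1, by simp⟩
  | insert a T ha ih =>
    obtain ⟨m, hmT⟩ := ih fun x hx => h x (Finset.mem_insert_of_mem hx)
    obtain ⟨n, hna⟩ := h a (Finset.mem_insert_self a T)
    refine ⟨max m n, fun x hx p hp => ?_⟩
    rcases Finset.mem_insert.1 hx with rfl | hx
    · exact hna p ((le_max_right _ _).trans_lt hp)
    · exact hmT x hx p ((le_max_left _ _).trans_lt hp)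

/-! ### a primitive integral element with controlled denominators -/

theorem adjoin_denominators {E : Type*} [Field E] [CharZero E] (θ0 : E) (a : ℤ) (ha : a ≠ 0)
    (x : E) (hx : x ∈ Algebra.adjoin ℚ ({θ0} : Set E)) :
    ∃ m : ℤ, m ≠ 0 ∧ (m : E) * x ∈ Algebra.adjoin ℤ ({(a : E) * θ0} : Set E) := by
  induction hx using Algebra.adjoin_induction with
  | mem y hy =>
    rw [Set.mem_singleton_iff] at hy
    subst hy
    exact ⟨a, ha, Algebra.subset_adjoin rfl⟩
  | algebraMap r =>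
    refine ⟨r.den, by exact_mod_cast r.den_nz, ?_⟩
    have h1 : ((r.den : ℤ) : E) * algebraMap ℚ E r = ((r.num : ℤ) : E) := by
      rw [eq_ratCast]
      have : ((r.den : ℚ) * r : ℚ) = r.num := by rw [mul_comm]; exact Rat.mul_den_eq_num r
      exact_mod_cast congrArg (fun q : ℚ => (q : E)) this
    rw [h1]
    exact Subalgebra.intCast_mem _ _
  | add x y _ _ hx hy =>
    obtain ⟨m, hm, hmx⟩ := hx
    obtain ⟨n, hn, hny⟩ := hy
    refine ⟨m * n, mul_ne_zero hm hn, ?_⟩
    have : ((m * n : ℤ) : E) * (x + y) = (n : E) * ((m : E) * x) + (m : E) * ((n : E) * y) := by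
      push_cast; ring
    rw [this]
    exact add_mem (mul_mem (Subalgebra.intCast_mem _ _) hmx)
      (mul_mem (Subalgebra.intCast_mem _ _) hny)
  | mul x y _ _ hx hy =>
    obtain ⟨m, hm, hmx⟩ := hx
    obtain ⟨n, hn, hny⟩ := hy
    refine ⟨m * n, mul_ne_zero hm hn, ?_⟩
    have : ((m * n : ℤ) : E) * (x * y) = ((m : E) * x) * ((n : E) * y) := by
      push_cast; ring
    rw [this]
    exact mul_mem hmx hny

theorem exists_primitive_gen (F : Type*) {E : Type*} [Field F] [CharZero F] [Field E] [Algebra F E]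
    [Algebra.IsAlgebraic F E] (T : Finset E) :
    ∃ θ0 : E, ∀ x ∈ T, x ∈ Algebra.adjoin F ({θ0} : Set E) := by
  classical
  let K := IntermediateField.adjoin F (T : Set E)
  have : FiniteDimensional F K :=
    IntermediateField.finiteDimensional_adjoin fun x _ => Algebra.IsIntegral.isIntegral x
  obtain ⟨θ0, hθ0⟩ := Field.exists_primitive_element F K
  refine ⟨θ0, fun x hx => ?_⟩
  have hxK : x ∈ K := IntermediateField.subset_adjoin F _ hx
  have h1 : (⟨x, hxK⟩ : K) ∈ (IntermediateField.adjoin F ({θ0} : Set K)) := by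
    rw [hθ0]; exact IntermediateField.mem_top
  rw [← IntermediateField.mem_toSubalgebra,
    IntermediateField.adjoin_toSubalgebra_of_isAlgebraic
      (fun x _ => Algebra.IsAlgebraic.isAlgebraic x)] at h1
  have h3 : K.val ⟨x, hxK⟩ ∈ (Algebra.adjoin F ({θ0} : Set K)).map K.val :=
    Subalgebra.mem_map.2 ⟨_, h1, rfl⟩
  rw [AlgHom.map_adjoin] at h3
  simpa using h3

theorem exists_primitive_integral {E : Type*} [Field E] [CharZero E] [Algebra.IsAlgebraic ℚ E]
    (T : Finset E) : ∃ θ : E, IsIntegral ℤ θ ∧ ∃ m : ℤ, m ≠ 0 ∧ ∀ x ∈ T, ∃ h : ℤ[X],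
      (m : E) * x = aeval θ h := by
  classical
  obtain ⟨θ0, hθ0⟩ := exists_primitive_gen ℚ T
  have halg : IsAlgebraic ℤ (θ0 : E) :=
    (IsFractionRing.isAlgebraic_iff ℤ ℚ E).2 (Algebra.IsAlgebraic.isAlgebraic _)
  obtain ⟨a, ha, hint⟩ := halg.exists_integral_multiple
  rw [zsmul_eq_mul] at hint
  refine ⟨(a : E) * (θ0 : E), hint, ?_⟩
  refine exists_uniform T (fun m x => ∃ h : ℤ[X], (m : E) * x = aeval ((a : E) * (θ0 : E)) h) ?_ ?_
  · rintro m n x ⟨h, hh⟩
    refine ⟨C n * h, ?_⟩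
    rw [map_mul, aeval_C, ← hh]
    push_cast
    simp
    ring
  · intro x hx
    obtain ⟨m, hm, h4⟩ := adjoin_denominators (θ0 : E) a ha x (hθ0 x hx)
    rw [Algebra.adjoin_singleton_eq_range_aeval] at h4
    obtain ⟨h, hh⟩ := h4
    exact ⟨m, hm, h, hh.symm⟩

/-! ### lifting roots along a geometric place -/

theorem root_lift {k : Type*} [Field k] {W : Type*} [Field W] [IsAlgClosed W]
    (l : OO W →+* k) (f : Polynomial ℤ) (hf : f.Monic) (y : k)
    (hy : eval₂ (Int.castRingHom k) y f = 0) :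
    ∃ θ : OO W, eval₂ (Int.castRingHom (OO W)) θ f = 0 ∧ l θ = y := by
  classical
  set F : W[X] := f.map (Int.castRingHom W) with hF
  have hFm : F.Monic := hf.map _
  have hroots : ∀ a ∈ F.roots, a ∈ OO W := by
    intro a ha
    refine ⟨f, hf, ?_⟩
    have := (mem_roots hFm.ne_zero).1 ha
    rw [IsRoot.def, hF, eval_map] at this
    exact this
  let r : Multiset (OO W) := F.roots.pmap (fun a ha => ⟨a, ha⟩) hroots
  have hr : r.map (fun a : OO W => (a : W)) = F.roots := by
    rw [Multiset.map_pmap]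
    exact (Multiset.pmap_eq_map _ _ _ _).trans (Multiset.map_id _)
  have hprod : f.map (Int.castRingHom (OO W)) = (r.map (fun a => X - C a)).prod := by
    apply Polynomial.map_injective (algebraMap (OO W) W) Subtype.val_injective
    rw [Polynomial.map_map, Polynomial.map_multiset_prod, Multiset.map_map]
    have h1 : (algebraMap (OO W) W).comp (Int.castRingHom (OO W)) = Int.castRingHom W :=
      RingHom.ext_int _ _
    rw [h1]
    have h2 : (r.map ((fun p : (OO W)[X] => p.map (algebraMap (OO W) W)) ∘ fun a => X - C a)) =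
        F.roots.map (fun a => X - C a) := by
      rw [← hr, Multiset.map_map]
      apply Multiset.map_congr rfl
      intro a _
      simp
    exact ((IsAlgClosed.splits F).eq_prod_roots_of_monic hFm).trans (by rw [← h2])
  have hev : (r.map (fun a => y - l a)).prod = 0 := by
    have h3 : eval₂ l y (f.map (Int.castRingHom (OO W))) = 0 := by
      rw [eval₂_map, RingHom.ext_int (l.comp (Int.castRingHom (OO W))) (Int.castRingHom k)]
      exact hy
    rw [hprod, eval₂_multiset_prod, Multiset.map_map] at h3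
    rw [← h3]
    congr 1
    apply Multiset.map_congr rfl
    intro a _
    simp
  rw [Multiset.prod_eq_zero_iff, Multiset.mem_map] at hev
  obtain ⟨a, ha, hya⟩ := hev
  refine ⟨a, ?_, (sub_eq_zero.1 hya).symm⟩
  have h4 : eval₂ (Int.castRingHom (OO W)) a f = eval a (f.map (Int.castRingHom (OO W))) := by
    rw [eval_map]
  rw [h4, hprod, eval_multiset_prod, Multiset.map_map]
  apply Multiset.prod_eq_zero
  rw [Multiset.mem_map]
  exact ⟨a, ha, by simp⟩

/-! ### distinct roots stay distinct at almost all places -/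

theorem roots_bound {E : Type*} [Field E] [CharZero E] (f : ℤ[X]) (hf : f ≠ 0) :
    ∃ B : ℕ, ∀ (p : ℕ) [Fact p.Prime], B < p → ∀ l : Pl p E, ∀ a b : OO E,
      eval₂ (Int.castRingHom (OO E)) a f = 0 → eval₂ (Int.castRingHom (OO E)) b f = 0 →
        l a = l b → a = b := by
  classical
  set F : (OO E)[X] := f.map (Int.castRingHom (OO E)) with hF
  have hF0 : F ≠ 0 := by
    rw [hF, Ne, Polynomial.map_eq_zero_iff]
    · exact hf
    · exact RingHom.injective_int _
  obtain ⟨B, hB⟩ := exists_bound_uniform (F.roots.toFinset ×ˢ F.roots.toFinset)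
    (fun p x => ∀ _ : Fact p.Prime, ∀ l : Pl p E, l x.1 = l x.2 → x.1 = x.2) (by
      intro x _
      by_cases hx : x.1 = x.2
      · exact ⟨0, fun _ _ _ _ _ => hx⟩
      · obtain ⟨B, hB⟩ := exists_bound (x.1 - x.2) (sub_ne_zero.2 hx)
        refine ⟨B, fun p hp _ l hl => ?_⟩
        exact absurd (by rw [map_sub, hl, sub_self]) (hB p hp l))
  refine ⟨B, fun p _ hp l a b ha hb hl => ?_⟩
  have hmem : ∀ c : OO E, eval₂ (Int.castRingHom (OO E)) c f = 0 → c ∈ F.roots.toFinset := by
    intro c hc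
    rw [Multiset.mem_toFinset, mem_roots hF0, IsRoot.def, hF, eval_map]
    exact hc
  exact hB (a, b) (Finset.mem_product.2 ⟨hmem a ha, hmem b hb⟩) p hp inferInstance l hl

/-! ### embeddings compatible with two places, at finite level -/

theorem exists_embedding {E : Type*} [Field E] [CharZero E] [Algebra.IsAlgebraic ℚ E]
    (T : Finset (OO E)) : ∃ B : ℕ, ∀ (p : ℕ) [Fact p.Prime], B < p →
      ∀ (l : Pl p Om) (l2 : Pl p E), ∃ e : E →+* Om, ∀ x ∈ T, l (mapO e x) = l2 x := by
  classical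
  obtain ⟨θ, hint, m, hm, hT⟩ := exists_primitive_integral (T.image (fun x : OO E => (x : E)))
  refine ⟨m.natAbs, fun p _ hp l l2 => ?_⟩
  let θ' : OO E := ⟨θ, hint⟩
  have hev : aeval θ' (minpoly ℤ θ) = 0 := by
    apply Subtype.val_injective
    have h1 : ((aeval θ' (minpoly ℤ θ) : OO E) : E) = aeval θ (minpoly ℤ θ) :=
      (aeval_algHom_apply (OO E).val θ' _).symm
    rw [h1, minpoly.aeval]
    rfl
  obtain ⟨θ1, h1, h2⟩ := root_lift l (minpoly ℤ θ) (minpoly.monic hint) (l2 θ') (by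
    have h3 : l2 (aeval θ' (minpoly ℤ θ)) = eval₂ (Int.castRingHom _) (l2 θ') (minpoly ℤ θ) := by
      rw [aeval_def, hom_eval₂, RingHom.ext_int (l2.comp (algebraMap ℤ (OO E))) (Int.castRingHom _)]
    rw [← h3, hev, map_zero])
  have hroot : aeval (θ1 : Om) (minpoly ℚ θ) = 0 := by
    rw [minpoly.isIntegrallyClosed_eq_field_fractions' ℚ hint, aeval_map_algebraMap]
    have h3 : aeval (θ1 : Om) (minpoly ℤ θ) =
        ((eval₂ (Int.castRingHom (OO Om)) θ1 (minpoly ℤ θ) : OO Om) : Om) := by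
      have := aeval_algHom_apply (OO Om).val θ1 (minpoly ℤ θ)
      rw [aeval_def (R := ℤ) θ1,
        RingHom.ext_int (algebraMap ℤ (OO Om)) (Int.castRingHom _)] at this
      exact this
    rw [h3, h1]
    rfl
  obtain ⟨e, he⟩ := IntermediateField.exists_algHom_of_splits_of_aeval (F := ℚ) (E := E) (K := Om)
    (fun s => ⟨Algebra.IsIntegral.isIntegral s, IsAlgClosed.splits _⟩) hroot
  refine ⟨(e : E →+* Om), fun x hx => ?_⟩
  obtain ⟨h, hh⟩ := hT x (Finset.mem_image.2 ⟨x, hx, rfl⟩)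
  have hmk : ((m : ℤ) : AlgebraicClosure (ZMod p)) ≠ 0 := by
    intro h0
    have h4 : (p : ℤ) ∣ m := (CharP.intCast_eq_zero_iff _ p m).1 h0
    have h5 : p ≤ m.natAbs := Nat.le_of_dvd (Int.natAbs_pos.2 hm) (Int.natCast_dvd.1 h4)
    omega
  apply mul_left_cancel₀ hmk
  have hh' : (m : OO E) * x = aeval θ' h := by
    apply Subtype.val_injective
    have h6 : ((aeval θ' h : OO E) : E) = aeval θ h :=
      (aeval_algHom_apply (OO E).val θ' _).symm
    rw [h6, ← hh]
    simp
  have he1 : mapO (e : E →+* Om) θ' = θ1 := by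
    apply Subtype.val_injective
    exact he
  have e1 : (m : AlgebraicClosure (ZMod p)) * l (mapO (e : E →+* Om) x) =
      l (mapO (e : E →+* Om) ((m : OO E) * x)) := by
    rw [map_mul, map_mul, map_intCast, map_intCast]
  have e2 : (m : AlgebraicClosure (ZMod p)) * l2 x = l2 ((m : OO E) * x) := by
    rw [map_mul, map_intCast]
  have key : ∀ (f : OO E →+* AlgebraicClosure (ZMod p)),
      f (aeval θ' h) = eval₂ (Int.castRingHom _) (f θ') h := by
    intro f
    rw [aeval_def, hom_eval₂, RingHom.ext_int (f.comp (algebraMap ℤ (OO E))) (Int.castRingHom _)]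
  rw [e1, e2, hh', key l2]
  have := key (l.comp (mapO (e : E →+* Om)))
  rw [RingHom.comp_apply, RingHom.comp_apply] at this
  rw [this, he1, h2]

/-! ### continuity at finite level -/

theorem exists_finite_control {F₁ F₂ W E₂ : Type*} [Field F₁] [Field W] [Algebra F₁ W] [Field F₂]
    [Field E₂] [Algebra F₂ E₂] [Algebra.IsAlgebraic F₂ E₂] (α : (W ≃ₐ[F₁] W) →* (E₂ ≃ₐ[F₂] E₂))
    (hα : Continuous α) (T : Finset E₂) :
    ∃ S : Finset W, ∀ s : W ≃ₐ[F₁] W, (∀ x ∈ S, s x = x) → ∀ y ∈ T, α s y = y := by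
  classical
  let K := IntermediateField.adjoin F₂ (T : Set E₂)
  have : FiniteDimensional F₂ K :=
    IntermediateField.finiteDimensional_adjoin fun x _ => Algebra.IsIntegral.isIntegral x
  have h1 : (K.fixingSubgroup : Set (E₂ ≃ₐ[F₂] E₂)) ∈ nhds (1 : E₂ ≃ₐ[F₂] E₂) :=
    (krullTopology_mem_nhds_one_iff F₂ E₂ _).2 ⟨K, this, subset_rfl⟩
  have h2 : α ⁻¹' (K.fixingSubgroup : Set (E₂ ≃ₐ[F₂] E₂)) ∈ nhds (1 : W ≃ₐ[F₁] W) := by
    apply hα.continuousAt
    rw [map_one]
    exact h1
  obtain ⟨L, hL, hsub⟩ := (krullTopology_mem_nhds_one_iff F₁ W _).1 h2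
  let b := Module.finBasis F₁ L
  refine ⟨Finset.univ.image (fun i => ((b i : L) : W)), fun s hs y hy => ?_⟩
  have h3 : s ∈ L.fixingSubgroup := by
    rw [IntermediateField.mem_fixingSubgroup_iff]
    intro z hz
    have h4 : z = ∑ i, (b.repr ⟨z, hz⟩ i) • ((b i : L) : W) := by
      have := congrArg L.val (b.sum_repr ⟨z, hz⟩)
      rw [map_sum] at this
      simp only [map_smul] at this
      exact this.symm
    rw [h4, map_sum]
    refine Finset.sum_congr rfl fun i _ => ?_
    rw [map_smul, hs _ (Finset.mem_image.2 ⟨i, Finset.mem_univ _, rfl⟩)]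
  have h5 : α s ∈ K.fixingSubgroup := hsub h3
  rw [IntermediateField.mem_fixingSubgroup_iff] at h5
  exact h5 y (IntermediateField.subset_adjoin F₂ _ hy)

theorem exists_level (F : Type*) {W : Type*} [Field F] [CharZero F] [Field W] [Algebra F W]
    [Normal F W] (S : Finset W) : ∃ N : IntermediateField F W, FiniteDimensional F N ∧
      IsGalois F N ∧ ∀ x ∈ S, x ∈ N := by
  classical
  let K := IntermediateField.adjoin F (S : Set W)
  have : FiniteDimensional F K :=
    IntermediateField.finiteDimensional_adjoin fun x _ => Algebra.IsIntegral.isIntegral x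
  refine ⟨IntermediateField.normalClosure F K W, inferInstance, ⟨⟩, fun x hx =>
    IntermediateField.le_normalClosure K (IntermediateField.subset_adjoin F _ hx)⟩

/-! ### theorem B -/

theorem root_mapO {E W : Type*} [Field E] [Field W] (φ : E →+* W) (x : OO E) :
    eval₂ (Int.castRingHom (OO W)) (mapO φ x) (minpoly ℤ (x : E)) = 0 := by
  have h0 : eval₂ (Int.castRingHom (OO E)) x (minpoly ℤ (x : E)) = 0 := by
    apply Subtype.val_injective
    have h1 : ((aeval x (minpoly ℤ (x : E)) : OO E) : E) = aeval (x : E) (minpoly ℤ (x : E)) :=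
      (aeval_algHom_apply (OO E).val x _).symm
    rw [minpoly.aeval, aeval_def,
      RingHom.ext_int (algebraMap ℤ (OO E)) (Int.castRingHom (OO E))] at h1
    exact h1
  have h2 := hom_eval₂ (minpoly ℤ (x : E)) (Int.castRingHom (OO E)) (mapO φ) x
  rw [h0, map_zero, RingHom.ext_int ((mapO φ).comp (Int.castRingHom (OO E)))
    (Int.castRingHom (OO W))] at h2
  exact h2.symm

section

variable {F₁ F₂ E₂ : Type*} [Field F₁] [NumberField F₁] [Algebra F₁ Om] [Field F₂]
  [NumberField F₂] [Field E₂] [Algebra F₂ E₂] [Algebra.IsAlgebraic F₂ E₂]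

theorem pointwise_integral {PP : Set ℕ} (α : (Om ≃ₐ[F₁] Om) →* (E₂ ≃ₐ[F₂] E₂))
    (hα : Continuous α) (hFD : FD PP) (hLC : LC PP α) (T : Finset (OO E₂))
    (hT : ∀ σ : E₂ ≃ₐ[F₂] E₂, ∀ x ∈ T, mapO (σ : E₂ →+* E₂) x ∈ T) (s : Om ≃ₐ[F₁] Om) :
    ∃ e : E₂ →+* Om, ∀ x ∈ T, s (e x) = e (α s x) := by
  classical
  have : CharZero E₂ := charZero_of_injective_algebraMap (algebraMap F₂ E₂).injective
  have : Algebra.IsAlgebraic ℚ E₂ := Algebra.IsAlgebraic.trans ℚ F₂ E₂
  obtain ⟨S0, hS0⟩ := exists_finite_control α hα (T.image (fun x : OO E₂ => (x : E₂)))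
  let b := Module.finBasis ℚ F₁
  let S1 : Finset Om := Finset.univ.image (fun i => algebraMap F₁ Om (b i))
  let S2 : Finset Om := T.biUnion fun x =>
    ((minpoly ℤ (x : E₂)).map (Int.castRingHom Om)).roots.toFinset
  obtain ⟨N, _, hNG, hN⟩ := exists_level ℚ (S0 ∪ S1 ∪ S2)
  have : IsGalois ℚ N := by
    convert hNG
    exact Subsingleton.elim _ _
  obtain ⟨B1, hB1⟩ := exists_embedding T
  obtain ⟨B2, hB2⟩ := exists_bound_uniform T (fun p x => ∀ _ : Fact p.Prime, ∀ l : Pl p Om,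
    ∀ a b : OO Om, eval₂ (Int.castRingHom (OO Om)) a (minpoly ℤ (x : E₂)) = 0 →
      eval₂ (Int.castRingHom (OO Om)) b (minpoly ℤ (x : E₂)) = 0 → l a = l b → a = b) (by
    intro x _
    obtain ⟨B, hB⟩ := roots_bound (E := Om) (minpoly ℤ (x : E₂)) (minpoly.ne_zero x.2)
    exact ⟨B, fun p hp _ => hB p hp⟩)
  obtain ⟨p, hpF, hpB, hpP, l, g, hg, ⟨k, hk⟩, ⟨k', hk'⟩⟩ :=
    hFD N (s.restrictScalars ℚ) (max B1 B2)
  have hspow : ∀ (n : ℕ) (x : Om), ((s.restrictScalars ℚ) ^ n) x = (s ^ n) x := by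
    intro n
    induction n with
    | zero => intro x; rfl
    | succ n ih =>
      intro x
      rw [pow_succ, pow_succ, AlgEquiv.mul_apply, AlgEquiv.mul_apply, ih]
      rfl
  have hF₁N : ∀ x : F₁, algebraMap F₁ Om x ∈ N := by
    intro x
    rw [← b.sum_repr x, map_sum]
    refine sum_mem fun i _ => ?_
    have h1 : algebraMap F₁ Om (b.repr x i • b i) =
        algebraMap ℚ Om (b.repr x i) * algebraMap F₁ Om (b i) := by
      rw [Algebra.smul_def, map_mul]
      congr 1
      simp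
    rw [h1]
    exact mul_mem (N.algebraMap_mem _) (hN _ (Finset.mem_union_left _ (Finset.mem_union_right _
      (Finset.mem_image.2 ⟨i, Finset.mem_univ _, rfl⟩))))
  have hgF : ∀ x : F₁, g (algebraMap F₁ Om x) = algebraMap F₁ Om x := by
    intro x
    rw [hk' _ (hF₁N x), hspow, AlgEquiv.commutes]
  let g1 : Om ≃ₐ[F₁] Om := AlgEquiv.ofRingEquiv (f := g.toRingEquiv) hgF
  have hg1 : ∀ x, g1 x = g x := fun x => rfl
  have hgpow : ∀ (n : ℕ) (x : Om), (g ^ n) x = (g1 ^ n) x := by
    intro n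
    induction n with
    | zero => intro x; rfl
    | succ n ih =>
      intro x
      rw [pow_succ, pow_succ, AlgEquiv.mul_apply, AlgEquiv.mul_apply, ih]
      rfl
  obtain ⟨l2, hl2⟩ := hLC p hpP g1 ⟨l, hg⟩
  obtain ⟨e, he⟩ := hB1 p ((le_max_left _ _).trans_lt hpB) l l2
  have key : ∀ x ∈ T, g1 (e x) = e (α g1 x) := by
    intro x hx
    have h1 := hB2 x hx p ((le_max_right _ _).trans_lt hpB) inferInstance l
      (mapO ((g : Om →+* Om).comp e) x) (mapO (e.comp (α g1 : E₂ →+* E₂)) x)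
      (root_mapO _ x) (root_mapO _ x) (by
        rw [← mapO_comp, ← mapO_comp, hg, he x hx, he _ (hT _ x hx), hl2])
    exact congrArg (fun z : OO Om => (z : Om)) h1
  have keyn : ∀ n : ℕ, ∀ x ∈ T, (g1 ^ n) (e x) = e (α (g1 ^ n) x) := by
    intro n
    induction n with
    | zero => intro x _; simp
    | succ n ih =>
      intro x hx
      rw [pow_succ, map_mul, AlgEquiv.mul_apply, AlgEquiv.mul_apply, key x hx]
      exact ih _ (hT (α g1) x hx)
  have hctl : ∀ y ∈ T, α s y = α (g1 ^ k) y := by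
    intro y hy
    have h1 : ∀ z ∈ S0, ((g1 ^ k)⁻¹ * s) z = z := by
      intro z hz
      have h2 : s z = (g1 ^ k) z := by
        rw [← hgpow]
        exact hk z (hN z (Finset.mem_union_left _ (Finset.mem_union_left _ hz)))
      rw [AlgEquiv.mul_apply, h2, ← AlgEquiv.mul_apply, inv_mul_cancel, AlgEquiv.one_apply]
    have h3 := hS0 _ h1 y (Finset.mem_image.2 ⟨y, hy, rfl⟩)
    rw [map_mul, map_inv, AlgEquiv.mul_apply] at h3
    have h4 := congrArg (α (g1 ^ k)) h3
    rw [← AlgEquiv.mul_apply, mul_inv_cancel, AlgEquiv.one_apply] at h4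
    exact h4
  refine ⟨e, fun x hx => ?_⟩
  have hex : e x ∈ N := by
    refine hN _ (Finset.mem_union_right _ (Finset.mem_biUnion.2 ⟨x, hx, ?_⟩))
    rw [Multiset.mem_toFinset, mem_roots, IsRoot.def, eval_map]
    · have h1 := hom_eval₂ (minpoly ℤ (x : E₂)) (Int.castRingHom (OO Om))
        (algebraMap (OO Om) Om) (mapO e x)
      rw [root_mapO, map_zero, RingHom.ext_int ((algebraMap (OO Om) Om).comp
        (Int.castRingHom (OO Om))) (Int.castRingHom Om)] at h1
      exact h1.symm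
    · exact ((minpoly.monic x.2).map _).ne_zero
  rw [hctl x hx, ← keyn k x hx, ← hgpow]
  exact hk _ hex

theorem mem_closure_roots {E : Type*} [Field E] (T1 : Finset (OO E)) :
    ∃ T : Finset (OO E), T1 ⊆ T ∧ ∀ σ : E →+* E, ∀ x ∈ T, mapO σ x ∈ T := by
  classical
  refine ⟨T1.biUnion fun x =>
    ((minpoly ℤ (x : E)).map (Int.castRingHom (OO E))).roots.toFinset, fun x hx => ?_, ?_⟩
  · refine Finset.mem_biUnion.2 ⟨x, hx, ?_⟩
    rw [Multiset.mem_toFinset, mem_roots ((minpoly.monic x.2).map _).ne_zero, IsRoot.def, eval_map]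
    have := root_mapO (RingHom.id E) x
    rwa [mapO_id] at this
  · intro σ y hy
    obtain ⟨x, hx, hxy⟩ := Finset.mem_biUnion.1 hy
    refine Finset.mem_biUnion.2 ⟨x, hx, ?_⟩
    rw [Multiset.mem_toFinset, mem_roots ((minpoly.monic x.2).map _).ne_zero, IsRoot.def,
      eval_map] at hxy ⊢
    have h2 := hom_eval₂ (minpoly ℤ (x : E)) (Int.castRingHom (OO E)) (mapO σ) y
    rw [hxy, map_zero, RingHom.ext_int ((mapO σ).comp (Int.castRingHom (OO E)))
      (Int.castRingHom (OO E))] at h2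
    exact h2.symm

/-- **Theorem B**: `(LC)` and Frobenius density imply pointwise compatibility. -/
theorem pointwise {PP : Set ℕ} (α : (Om ≃ₐ[F₁] Om) →* (E₂ ≃ₐ[F₂] E₂))
    (hα : Continuous α) (hFD : FD PP) (hLC : LC PP α) (s : Om ≃ₐ[F₁] Om) (T : Finset E₂) :
    ∃ e : E₂ →+* Om, ∀ x ∈ T, s (e x) = e (α s x) := by
  classical
  have : CharZero E₂ := charZero_of_injective_algebraMap (algebraMap F₂ E₂).injective
  have : Algebra.IsAlgebraic ℚ E₂ := Algebra.IsAlgebraic.trans ℚ F₂ E₂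
  have hmul : ∀ x : E₂, ∃ m : ℤ, m ≠ 0 ∧ IsIntegral ℤ ((m : E₂) * x) := by
    intro x
    have halg : IsAlgebraic ℤ x :=
      (IsFractionRing.isAlgebraic_iff ℤ ℚ E₂).2 (Algebra.IsAlgebraic.isAlgebraic _)
    obtain ⟨a, ha, hint⟩ := halg.exists_integral_multiple
    exact ⟨a, ha, by rwa [zsmul_eq_mul] at hint⟩
  choose m hm hint using hmul
  let T1 : Finset (OO E₂) := T.image fun x => (⟨(m x : E₂) * x, hint x⟩ : OO E₂)
  obtain ⟨T', hT1, hT'⟩ := mem_closure_roots T1
  obtain ⟨e, he⟩ := pointwise_integral α hα hFD hLC T' (fun σ x hx => hT' _ x hx) s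
  refine ⟨e, fun x hx => ?_⟩
  have h1 := he _ (hT1 (Finset.mem_image.2 ⟨x, hx, rfl⟩))
  simp only [map_mul, map_intCast] at h1
  have h2 : ((m x : ℤ) : Om) ≠ 0 := by exact_mod_cast hm x
  exact mul_left_cancel₀ h2 h1

end

end Crest.Agent.R018.EndBx924
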