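import Mathlib
import Crest.Agent.R018.EndDef_924
import Crest.Agent.R018.Frobenius_389

/-!
# Row 18: `FD` (Frobenius density over `ℚ`, geometric places of the algebraic closure)

adaptor from `Frobenius_389` to the frozen definitions `EndDef_924`.
-/

set_option autoImplicit false
set_option linter.unusedSectionVars false

open NumberField Ideal MulAction
open scoped Pointwise
open Crest.Agent.R018.EndDefx924

namespace Crest.Agent.R018.FDAdaptx389

noncomputable section

/-- the discrete topology on the algebraic integers -/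
local instance topOO : TopologicalSpace (OO Om) := ⊥

local instance discOO : DiscreteTopology (OO Om) := ⟨rfl⟩

instance algOm : Algebra.IsAlgebraic ℚ Om := by
  have h := AlgebraicClosure.isAlgebraic ℚ
  have e : (DivisionRing.toRatAlgebra : Algebra ℚ Om) = AlgebraicClosure.instAlgebra ℚ :=
    Subsingleton.elim _ _
  rw [e]
  exact h

instance galOm : IsGalois ℚ Om where
  to_isSeparable := inferInstance
  to_normal := by
    refine ⟨fun x => ?_⟩
    exact IsAlgClosed.splits _

theorem smul_coe (g : Om ≃ₐ[ℚ] Om) (x : OO Om) : ((g • x : OO Om) : Om) = g x := rfl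

theorem mapO_eq_smul (g : Om ≃ₐ[ℚ] Om) (x : OO Om) : mapO (g : Om →+* Om) x = g • x := by
  ext; rfl

local instance contOO : ContinuousSMul (Om ≃ₐ[ℚ] Om) (OO Om) := by
  rw [continuousSMul_iff_stabilizer_isOpen]
  intro x
  have h := stabilizer_isOpen_of_isIntegral (K := ℚ) (L := Om) (x : Om)
  convert h using 2
  ext g
  simp only [mem_stabilizer_iff]
  constructor
  · intro h
    exact congrArg Subtype.val h
  · intro h
    exact Subtype.ext h

instance invOO : Algebra.IsInvariant ℤ (OO Om) (Om ≃ₐ[ℚ] Om) where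
  isInvariant b hb := by
    have h1 : (b : Om) ∈ (⊥ : IntermediateField ℚ Om) := by
      rw [InfiniteGalois.mem_bot_iff_fixed]
      intro f
      exact congrArg Subtype.val (hb f)
    obtain ⟨r, hr⟩ := IntermediateField.mem_bot.mp h1
    have hint : IsIntegral ℤ r := by
      have hb2 : IsIntegral ℤ (b : Om) := b.2
      rw [← hr] at hb2
      exact (isIntegral_algebraMap_iff (algebraMap ℚ Om).injective).mp hb2
    obtain ⟨n, hn⟩ := IsIntegrallyClosed.isIntegral_iff.mp hint
    refine ⟨n, ?_⟩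
    ext
    rw [← hr, ← hn]
    simp

theorem under_eq (p : ℕ) [hpf : Fact p.Prime] (Q : Ideal (OO Om)) [Q.IsPrime]
    (hp : (p : OO Om) ∈ Q) : Q.under ℤ = span {(p : ℤ)} := by
  have hmax : (span {(p : ℤ)}).IsMaximal :=
    PrincipalIdealRing.isMaximal_of_irreducible
      (Nat.prime_iff_prime_int.mp hpf.out).irreducible
  have hne : Q.under ℤ ≠ ⊤ := Ideal.IsPrime.ne_top inferInstance
  have hle : span {(p : ℤ)} ≤ Q.under ℤ := by
    rw [Ideal.span_singleton_le_iff_mem, Ideal.under_def, Ideal.mem_comap]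
    simpa using hp
  exact (hmax.eq_of_le hne hle).symm

theorem field_facts (p : ℕ) [hpf : Fact p.Prime] (k : Type*) [Field k] [CharP k p]
    (h : ∀ y : k, IsIntegral ℤ y) :
    Nonempty (k →+* AlgebraicClosure (ZMod p)) ∧ ∃ e : k ≃+* k, ∀ x, e x = x ^ p := by
  let : Algebra (ZMod p) k := ZMod.algebra _ p
  have halg : Algebra.IsAlgebraic (ZMod p) k := by
    constructor
    intro y
    have hx3 : IsIntegral (ZMod p) y := by
      obtain ⟨f, hf, hf2⟩ := h y
      refine ⟨f.map (Int.castRingHom (ZMod p)), hf.map _, ?_⟩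
      rw [Polynomial.eval₂_map]
      have he : (algebraMap (ZMod p) k).comp (Int.castRingHom (ZMod p)) = algebraMap ℤ k :=
        RingHom.ext_int _ _
      rw [he]
      exact hf2
    exact hx3.isAlgebraic
  have : PerfectField k := Algebra.IsAlgebraic.perfectField (K := ZMod p)
  have : ExpChar k p := ExpChar.prime hpf.out
  have : PerfectRing k p := PerfectField.toPerfectRing p
  exact ⟨⟨(IsAlgClosed.lift : k →ₐ[ZMod p] AlgebraicClosure (ZMod p)).toRingHom⟩,
    frobeniusEquiv k p, fun x => rfl⟩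

/-- a Frobenius lift at every prime of the ring of all algebraic integers -/
theorem exists_frob_lift (p : ℕ) [hpf : Fact p.Prime] (Q : Ideal (OO Om)) [hQ : Q.IsPrime]
    (hp : (p : OO Om) ∈ Q) :
    ∃ (l : Pl p Om) (g : Om ≃ₐ[ℚ] Om), RingHom.ker l = Q ∧ IsFrobAt p l (g : Om →+* Om) := by
  have hu := under_eq p Q hp
  have hover : Q.LiesOver (span {(p : ℤ)}) := ⟨hu.symm⟩
  have hmax : (span {(p : ℤ)}).IsMaximal :=
    PrincipalIdealRing.isMaximal_of_irreducible
      (Nat.prime_iff_prime_int.mp hpf.out).irreducible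
  have hQmax : Q.IsMaximal := by
    have : Algebra.IsIntegral ℤ (OO Om) := inferInstance
    exact Ideal.isMaximal_of_isIntegral_of_isMaximal_comap (R := ℤ) Q (by
      change (Q.under ℤ).IsMaximal
      rw [hu]; exact hmax)
  let : Field (OO Om ⧸ Q) := Ideal.Quotient.field Q
  have hchar : CharP (OO Om ⧸ Q) p := by
    refine (CharP.charP_iff_prime_eq_zero hpf.out).mpr ?_
    have : (Ideal.Quotient.mk Q) (p : OO Om) = 0 := Ideal.Quotient.eq_zero_iff_mem.mpr hp
    simpa using this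
  have hint : ∀ y : OO Om ⧸ Q, IsIntegral ℤ y := by
    intro y
    obtain ⟨x, rfl⟩ := Ideal.Quotient.mk_surjective y
    have hx : IsIntegral ℤ x := Algebra.IsIntegral.isIntegral x
    exact hx.map (Ideal.Quotient.mkₐ ℤ Q)
  obtain ⟨⟨l0⟩, e, he⟩ := field_facts p (OO Om ⧸ Q) hint
  let l : Pl p Om := l0.comp (Ideal.Quotient.mk Q)
  let σ : (OO Om ⧸ Q) ≃ₐ[ℤ ⧸ span {(p : ℤ)}] (OO Om ⧸ Q) :=
    { e with
      commutes' := by
        intro r
        obtain ⟨n, rfl⟩ := Ideal.Quotient.mk_surjective r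
        have h1 : algebraMap (ℤ ⧸ span {(p : ℤ)}) (OO Om ⧸ Q) (Ideal.Quotient.mk _ n) =
            (n : OO Om ⧸ Q) := by
          rw [Ideal.Quotient.algebraMap_mk_of_liesOver]
          simp
        rw [h1]
        exact map_intCast e n }
  obtain ⟨τ, hτ⟩ := Ideal.Quotient.stabilizerHom_surjective_of_profinite
    (G := Om ≃ₐ[ℚ] Om) (span {(p : ℤ)}) Q σ
  refine ⟨l, τ.1, ?_, ?_⟩
  · ext x
    rw [RingHom.mem_ker]
    change l0 (Ideal.Quotient.mk Q x) = 0 ↔ x ∈ Q
    rw [map_eq_zero, Ideal.Quotient.eq_zero_iff_mem]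
  · intro x
    have h1 := congrArg (fun f : (OO Om ⧸ Q) ≃ₐ[ℤ ⧸ span {(p : ℤ)}] (OO Om ⧸ Q) =>
      f (Ideal.Quotient.mk Q x)) hτ
    have h2 : Ideal.Quotient.mk Q (τ.1 • x) = (Ideal.Quotient.mk Q x) ^ p :=
      (show Ideal.Quotient.mk Q (τ.1 • x) = e (Ideal.Quotient.mk Q x) from h1).trans (he _)
    rw [mapO_eq_smul]
    change l0 (Ideal.Quotient.mk Q (τ.1 • x)) = (l0 (Ideal.Quotient.mk Q x)) ^ p
    rw [h2, map_pow]

theorem mapO_injective {E E' : Type*} [Field E] [Field E'] (f : E →+* E') :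
    Function.Injective (mapO f) := by
  intro x y h
  have h1 : f x = f y := congrArg Subtype.val h
  exact Subtype.ext (f.injective h1)

/-- the integers of a subfield inside all algebraic integers -/
def iN (N : IntermediateField ℚ Om) : 𝓞 N →+* OO Om :=
  RingHom.codRestrict ((algebraMap N Om).comp (algebraMap (𝓞 N) N)) (OO Om) fun x => by
    have h : IsIntegral ℤ (x : N) := x.2
    exact h.map (IsScalarTower.toAlgHom ℤ N Om)

theorem coe_iN (N : IntermediateField ℚ Om) (x : 𝓞 N) : ((iN N x : OO Om) : Om) = ((x : N) : Om) :=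
  rfl

theorem iN_injective (N : IntermediateField ℚ Om) : Function.Injective (iN N) := by
  intro x y h
  have h1 : ((x : N) : Om) = ((y : N) : Om) := by rw [← coe_iN, ← coe_iN, h]
  exact RingOfIntegers.ext (Subtype.ext h1)

theorem exists_above (N : IntermediateField ℚ Om) (P : Ideal (𝓞 N)) [P.IsPrime] :
    ∃ Q : Ideal (OO Om), Q.IsPrime ∧ Q.comap (iN N) = P := by
  let : Algebra (𝓞 N) (OO Om) := (iN N).toAlgebra
  have hint : Algebra.IsIntegral (𝓞 N) (OO Om) := by
    constructor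
    intro x
    have hx : IsIntegral ℤ x := Algebra.IsIntegral.isIntegral x
    obtain ⟨f, hf, hf2⟩ := hx
    refine ⟨f.map (Int.castRingHom (𝓞 N)), hf.map _, ?_⟩
    rw [Polynomial.eval₂_map]
    have he : (algebraMap (𝓞 N) (OO Om)).comp (Int.castRingHom (𝓞 N)) =
      algebraMap ℤ (OO Om) := RingHom.ext_int _ _
    rw [he]
    exact hf2
  have hker : (⊥ : Ideal (OO Om)).comap (algebraMap (𝓞 N) (OO Om)) ≤ P := by
    intro x hx
    have h1 : iN N x = 0 := hx
    have h2 : x = 0 := iN_injective N (by rw [h1, map_zero])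
    rw [h2]
    exact P.zero_mem
  obtain ⟨Q, -, hQ, hQP⟩ := Ideal.exists_ideal_over_prime_of_isIntegral P
    (⊥ : Ideal (OO Om)) hker
  exact ⟨Q, hQ, hQP⟩

/-- **Frobenius density over `ℚ`** in the frozen form of `EndDef_924`. -/
theorem fd_univ : FD Set.univ := by
  intro N _ _ s B
  have : NumberField N := {
    to_charZero := inferInstance
    to_finiteDimensional := inferInstance }
  let σ : Gal(N/ℚ) := AlgEquiv.restrictNormalHom N s
  obtain ⟨p, hp, hpB, hur, P, hP, hP0, hmem, hnorm, hst, -⟩ :=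
    Crest.Agent.R018.Frobeniusx389.exists_frob σ B
  have hpf : Fact p.Prime := ⟨hp⟩
  -- a prime of `OO Om` above `P`
  obtain ⟨Q, hQ, hQP⟩ := exists_above N P
  have hpQ : (p : OO Om) ∈ Q := by
    have : (p : 𝓞 N) ∈ Q.comap (iN N) := by rw [hQP]; exact hmem
    simpa using this
  obtain ⟨l, g, hker, hfrob⟩ := exists_frob_lift p Q hpQ
  let ψ : Gal(N/ℚ) := AlgEquiv.restrictNormalHom N g
  have hψ : ∀ x : 𝓞 N, ψ • x - x ^ p ∈ P := by
    intro x
    rw [← hQP, Ideal.mem_comap, ← hker, RingHom.mem_ker, map_sub, map_sub, map_pow, map_pow,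
      sub_eq_zero, ← hfrob]
    congr 1
    ext
    exact AlgEquiv.restrictNormal_commutes g N (x : N)
  have hz : Subgroup.zpowers ψ = Subgroup.zpowers σ := by
    rw [Crest.Agent.R018.FrobElemx389.zpowers_frob P hP0 (hur P hP hP0 hmem) ψ
      (by rw [hnorm]; exact hψ), hst]
  refine ⟨p, hpf, hpB, Set.mem_univ _, l, g, hfrob, ?_, ?_⟩
  · have h1 : σ ∈ Submonoid.powers ψ := by
      rw [mem_powers_iff_mem_zpowers, hz]
      exact Subgroup.mem_zpowers σ
    obtain ⟨k, hk⟩ := h1
    refine ⟨k, fun x hx => ?_⟩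
    have h2 : ((σ ⟨x, hx⟩ : N) : Om) = s x := AlgEquiv.restrictNormal_commutes s N ⟨x, hx⟩
    have h3 : (AlgEquiv.restrictNormalHom N (g ^ k)) = ψ ^ k := map_pow _ _ _
    have h4 : (((AlgEquiv.restrictNormalHom N (g ^ k)) ⟨x, hx⟩ : N) : Om) = (g ^ k) x :=
      AlgEquiv.restrictNormal_commutes (g ^ k) N ⟨x, hx⟩
    rw [← h2, ← h4, h3]
    exact congrArg (fun f : Gal(N/ℚ) => ((f ⟨x, hx⟩ : N) : Om)) hk.symm
  · have h1 : ψ ∈ Submonoid.powers σ := by
      rw [mem_powers_iff_mem_zpowers, ← hz]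
      exact Subgroup.mem_zpowers ψ
    obtain ⟨k, hk⟩ := h1
    refine ⟨k, fun x hx => ?_⟩
    have h2 : ((ψ ⟨x, hx⟩ : N) : Om) = g x := AlgEquiv.restrictNormal_commutes g N ⟨x, hx⟩
    have h3 : (AlgEquiv.restrictNormalHom N (s ^ k)) = σ ^ k := map_pow _ _ _
    have h4 : (((AlgEquiv.restrictNormalHom N (s ^ k)) ⟨x, hx⟩ : N) : Om) = (s ^ k) x :=
      AlgEquiv.restrictNormal_commutes (s ^ k) N ⟨x, hx⟩
    rw [← h2, ← h4, h3]
    exact congrArg (fun f : Gal(N/ℚ) => ((f ⟨x, hx⟩ : N) : Om)) hk.symm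

theorem fd_of_finite_compl (S : Set ℕ) (hS : S.Finite) : FD {p | p ∉ S} := by
  intro N _ _ s B
  obtain ⟨M, hM⟩ := hS.bddAbove
  obtain ⟨p, hpf, hpB, -, h⟩ := fd_univ N s (max B M)
  refine ⟨p, hpf, lt_of_le_of_lt (le_max_left _ _) hpB, fun hpS => ?_, h⟩
  exact absurd (hM hpS) (not_le.mpr (lt_of_le_of_lt (le_max_right _ _) hpB))

end

end Crest.Agent.R018.FDAdaptx389
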