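import Crest.Agent.R018.EndA2_245
import Crest.Agent.R018.EndB_924
import Crest.Agent.R018.FDAdapt_389

/-!
# Row 18: THEOREM U of the CORE text (helper245)

`HU PP N₀ α` : for every finite `T ⊆ E₂`, for all large primes `q ∈ PP` which split completely in
the field generated by `N₀`, every `q`-Frobenius `β ∈ Gal(E₂/F₂)` agrees on `T` with a conjugate of
`α h`, `h ∈ Gal(Om/F₁)` a `q`-Frobenius.

`theoremU` : `HU` and Frobenius density imply the existence of `j`.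
-/

set_option autoImplicit false

namespace Crest.Agent.R018.TheoremUx245

open Crest.Agent.R018.EndDefx924 Crest.Agent.R018.EndAx924 Crest.Agent.R018.EndBx924
open Crest.Agent.R018.EndAx245 Crest.Agent.R018.EndA2x245
open Polynomial

/-- the hypothesis of THEOREM U -/
def HU {F₁ F₂ E₂ : Type*} [Field F₁] [Algebra F₁ Om] [Field F₂] [Field E₂] [Algebra F₂ E₂]
    (PP : Set ℕ) (N₀ : Set Om) (α : (Om ≃ₐ[F₁] Om) →* (E₂ ≃ₐ[F₂] E₂)) : Prop :=
  ∀ T : Finset E₂, ∃ B : ℕ, ∀ (q : ℕ) [Fact q.Prime], B < q → q ∈ PP →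
    (∀ σ : Om ≃ₐ[ℚ] Om, IsFrob q (σ : Om →+* Om) → ∀ x ∈ N₀, σ x = x) →
    ∀ β : E₂ ≃ₐ[F₂] E₂, IsFrob q (β : E₂ →+* E₂) →
      ∃ (h : Om ≃ₐ[F₁] Om) (γ : E₂ ≃ₐ[F₂] E₂), IsFrob q (h : Om →+* Om) ∧
        ∀ x ∈ T, α h x = γ (β (γ⁻¹ x))

/-! ### auxiliary facts -/

/-- a ring endomorphism of `Om` is an automorphism -/
theorem exists_algEquiv (e : Om →+* Om) : ∃ w : Om ≃ₐ[ℚ] Om, ∀ x, w x = e x := by
  refine ⟨AlgEquiv.ofBijective (e.toRatAlgHom)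
    (Algebra.IsAlgebraic.algHom_bijective _), fun x => rfl⟩

/-- extension of an embedding of `F₁` to an automorphism of `Om` -/
theorem exists_extend {F₁ : Type*} [Field F₁] [NumberField F₁] [Algebra F₁ Om] (c : F₁ →+* Om) :
    ∃ v : Om ≃ₐ[ℚ] Om, ∀ x : F₁, v (algebraMap F₁ Om x) = c x := by
  have : Algebra.IsAlgebraic F₁ Om := Algebra.IsAlgebraic.tower_top (K := ℚ) F₁
  obtain ⟨φ, hφ⟩ := IsAlgClosed.surjective_domRestrict_of_isAlgebraic (K := ℚ) (L := F₁) (M := Om)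
    (E := Om) c.toRatAlgHom
  obtain ⟨v, hv⟩ := exists_algEquiv (φ : Om →+* Om)
  refine ⟨v, fun x => ?_⟩
  rw [hv]
  have := congrArg (fun f : F₁ →ₐ[ℚ] Om => f x) hφ
  exact this

/-- an automorphism of `Om` fixing `t(F₂)` induces one of the normal extension `E₂/F₂` -/
theorem exists_restrict {F₂ E₂ : Type*} [Field F₂] [Field E₂] [Algebra F₂ E₂] [Normal F₂ E₂]
    (t : E₂ →+* Om) (φ : Om ≃ₐ[ℚ] Om)
    (hφ : ∀ x : F₂, φ (t (algebraMap F₂ E₂ x)) = t (algebraMap F₂ E₂ x)) :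
    ∃ β : E₂ ≃ₐ[F₂] E₂, ∀ x, φ (t x) = t (β x) := by
  let _ : Algebra E₂ Om := t.toAlgebra
  let _ : Algebra F₂ Om := (t.comp (algebraMap F₂ E₂)).toAlgebra
  have : IsScalarTower F₂ E₂ Om := IsScalarTower.of_algebraMap_eq fun x => rfl
  let φ' : Om ≃ₐ[F₂] Om := AlgEquiv.ofRingEquiv (f := φ.toRingEquiv) hφ
  refine ⟨φ'.restrictNormal E₂, fun x => ?_⟩
  exact (AlgEquiv.restrictNormal_commutes φ' E₂ x).symm

/-- two Frobenius elements at two places are conjugate at finite level -/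
theorem exists_conj (S : Finset (OO Om))
    (hS : ∀ σ : Om →+* Om, ∀ x ∈ S, mapO σ x ∈ S) : ∃ B : ℕ, ∀ (q : ℕ) [Fact q.Prime], B < q →
      ∀ (l l' : Pl q Om) (φ h : Om →+* Om), IsFrobAt q l φ → IsFrobAt q l' h →
        ∃ w : Om ≃ₐ[ℚ] Om, ∀ x ∈ S, φ (w x) = w (h x) := by
  classical
  obtain ⟨B1, hB1⟩ := exists_embedding (E := Om) S
  obtain ⟨B2, hB2⟩ := exists_bound_uniform S (fun p x => ∀ _ : Fact p.Prime, ∀ l : Pl p Om,
    ∀ a b : OO Om, eval₂ (Int.castRingHom (OO Om)) a (minpoly ℤ (x : Om)) = 0 →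
      eval₂ (Int.castRingHom (OO Om)) b (minpoly ℤ (x : Om)) = 0 → l a = l b → a = b) (by
    intro x _
    obtain ⟨B, hB⟩ := roots_bound (E := Om) (minpoly ℤ (x : Om)) (minpoly.ne_zero x.2)
    exact ⟨B, fun p hp _ => hB p hp⟩)
  refine ⟨max B1 B2, fun q _ hq l l' φ h hφ hh => ?_⟩
  obtain ⟨e, he⟩ := hB1 q ((le_max_left _ _).trans_lt hq) l l'
  obtain ⟨w, hw⟩ := exists_algEquiv e
  refine ⟨w, fun x hx => ?_⟩
  have h1 := hB2 x hx q ((le_max_right _ _).trans_lt hq) inferInstance l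
      (mapO (φ.comp e) x) (mapO (e.comp h) x) (root_mapO _ x) (root_mapO _ x) (by
        rw [← mapO_comp, ← mapO_comp, hφ, he x hx, he _ (hS h x hx), hh])
  rw [hw, hw]
  exact congrArg (fun z : OO Om => (z : Om)) h1

theorem exists_conj_field (S : Finset Om) : ∃ B : ℕ, ∀ (q : ℕ) [Fact q.Prime], B < q →
      ∀ (l l' : Pl q Om) (φ h : Om →+* Om), IsFrobAt q l φ → IsFrobAt q l' h →
        ∃ w : Om ≃ₐ[ℚ] Om, ∀ x ∈ S, φ (w x) = w (h x) := by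
  classical
  have hmul : ∀ x : Om, ∃ m : ℤ, m ≠ 0 ∧ IsIntegral ℤ ((m : Om) * x) := by
    intro x
    have halg : IsAlgebraic ℤ x :=
      (IsFractionRing.isAlgebraic_iff ℤ ℚ Om).2 (Algebra.IsAlgebraic.isAlgebraic _)
    obtain ⟨a, ha, hint⟩ := halg.exists_integral_multiple
    exact ⟨a, ha, by rwa [zsmul_eq_mul] at hint⟩
  choose m hm hint using hmul
  let T1 : Finset (OO Om) := S.image fun x => (⟨(m x : Om) * x, hint x⟩ : OO Om)
  obtain ⟨T', hT1, hT'⟩ := mem_closure_roots T1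
  obtain ⟨B, hB⟩ := exists_conj T' hT'
  refine ⟨B, fun q _ hq l l' φ h hφ hh => ?_⟩
  obtain ⟨w, hw⟩ := hB q hq l l' φ h hφ hh
  refine ⟨w, fun x hx => ?_⟩
  have h1 := hw _ (hT1 (Finset.mem_image.2 ⟨x, hx, rfl⟩))
  simp only [map_mul, map_intCast] at h1
  have h2 : ((m x : ℤ) : Om) ≠ 0 := by exact_mod_cast hm x
  exact mul_left_cancel₀ h2 h1

theorem mem_of_normal' (K₀ : IntermediateField ℚ Om) [Normal ℚ K₀] (σ : Om ≃ₐ[ℚ] Om) {x : Om}
    (hx : x ∈ K₀) : σ x ∈ K₀ := by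
  have h1 := AlgEquiv.restrictNormal_commutes σ K₀ ⟨x, hx⟩
  have h2 : σ x = algebraMap K₀ Om ((σ.restrictNormal K₀) ⟨x, hx⟩) := by
    rw [h1]; rfl
  rw [h2]
  exact ((σ.restrictNormal K₀) ⟨x, hx⟩).2

section main

variable {F₁ F₂ E₂ : Type*} [Field F₁] [NumberField F₁] [Algebra F₁ Om] [Field F₂]
  [NumberField F₂] [Field E₂] [Algebra F₂ E₂] [Normal F₂ E₂]

theorem pointwise_integral_U {PP : Set ℕ} (α : (Om ≃ₐ[F₁] Om) →* (E₂ ≃ₐ[F₂] E₂))
    (hα : Continuous α) (hFD : FD PP) (N₀ : Finset Om) (hHU : HU PP (N₀ : Set Om) α)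
    (K₀ : IntermediateField ℚ Om) [FiniteDimensional ℚ K₀] [Normal ℚ K₀]
    (hK1 : ∀ x : F₁, algebraMap F₁ Om x ∈ K₀) (hK2 : ∀ (c : F₂ →+* Om) (x : F₂), c x ∈ K₀)
    (hK3 : ∀ x ∈ N₀, x ∈ K₀) (T : Finset (OO E₂))
    (hT : ∀ σ : E₂ ≃ₐ[F₂] E₂, ∀ x ∈ T, mapO (σ : E₂ →+* E₂) x ∈ T) (s : Om ≃ₐ[F₁] Om)
    (hs : ∀ x ∈ K₀, s x = x) :
    ∃ (w : Om ≃ₐ[ℚ] Om) (e : E₂ →+* Om), ∀ s' : Om ≃ₐ[F₁] Om,
      (∀ x, s' x = w.symm (s (w x))) → ∀ x ∈ T, s' (e x) = e (α s' x) := by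
  classical
  have : CharZero E₂ := charZero_of_injective_algebraMap (algebraMap F₂ E₂).injective
  have : Algebra.IsAlgebraic ℚ E₂ := Algebra.IsAlgebraic.trans ℚ F₂ E₂
  obtain ⟨S0, hS0⟩ := exists_finite_control α hα (T.image (fun x : OO E₂ => (x : E₂)))
  obtain ⟨S1, hS1⟩ := IntermediateField.essFiniteType_iff.mp (inferInstance : Algebra.EssFiniteType ℚ K₀)
  let S2 : Finset Om := T.biUnion fun x =>
    ((minpoly ℤ (x : E₂)).map (Int.castRingHom Om)).roots.toFinset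
  obtain ⟨N, _, hNG, hN⟩ := exists_level ℚ (S0 ∪ S1 ∪ S2)
  have hNG' : IsGalois ℚ N := by
    convert hNG
    exact Subsingleton.elim _ _
  have hNn : Normal ℚ N := hNG'.to_normal
  have hK₀N : ∀ x ∈ K₀, x ∈ N := by
    have h1 : K₀ ≤ N := by
      rw [← hS1, IntermediateField.adjoin_le_iff]
      intro x hx
      exact hN _ (Finset.mem_union_left _ (Finset.mem_union_right _ hx))
    exact h1
  obtain ⟨B1, hB1⟩ := hHU (T.image (fun x : OO E₂ => (x : E₂)))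
  obtain ⟨B2, hB2⟩ := exists_conj_field (S0 ∪ N₀)
  obtain ⟨q, hqF, hqB, hqP, l, φ, hφ, ⟨k, hk⟩, ⟨k', hk'⟩⟩ :=
    hFD N (s.restrictScalars ℚ) (max B1 B2)
  have hqB1 : B1 < q := (le_max_left _ _).trans_lt hqB
  have hqB2 : B2 < q := (le_max_right _ _).trans_lt hqB
  have hspow : ∀ (n : ℕ), ∀ x ∈ K₀, ((s.restrictScalars ℚ) ^ n) x = x := by
    intro n
    induction n with
    | zero => intro x _; rfl
    | succ n ih =>
      intro x hx
      rw [pow_succ, AlgEquiv.mul_apply]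
      have h1 : (s.restrictScalars ℚ) x = x := hs x hx
      rw [h1, ih x hx]
  have hφK : ∀ x ∈ K₀, φ x = x := by
    intro x hx
    rw [hk' x (hK₀N x hx), hspow k' x hx]
  -- the splitting condition
  have hsplit : ∀ σ : Om ≃ₐ[ℚ] Om, IsFrob q (σ : Om →+* Om) → ∀ x ∈ (N₀ : Set Om), σ x = x := by
    rintro σ ⟨l'', hl''⟩ x hx
    obtain ⟨w, hw⟩ := hB2 q hqB2 l l'' φ σ hφ hl''
    have h1 := hw x (Finset.mem_union_right _ hx)
    have h2 : w x ∈ K₀ := mem_of_normal' K₀ w (hK3 x hx)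
    have h3 : (φ : Om →+* Om) (w x) = w x := hφK _ h2
    rw [h3] at h1
    exact (w.injective h1).symm
  -- an embedding and the induced Frobenius
  let t : E₂ →+* Om := (IsAlgClosed.lift : E₂ →ₐ[ℚ] Om)
  obtain ⟨β, hβ⟩ := exists_restrict (F₂ := F₂) t φ
    (fun x => hφK _ (hK2 (t.comp (algebraMap F₂ E₂)) x))
  have hβF : IsFrob q (β : E₂ →+* E₂) := by
    refine ⟨l.comp (mapO t), fun x => ?_⟩
    have h1 : mapO t (mapO (β : E₂ →+* E₂) x) = mapO (φ : Om →+* Om) (mapO t x) := by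
      apply Subtype.val_injective
      exact (hβ x).symm
    rw [RingHom.comp_apply, RingHom.comp_apply, h1]
    exact hφ _
  obtain ⟨h, γ, ⟨l', hl'⟩, hαh⟩ := hB1 q hqB1 hqP hsplit β hβF
  obtain ⟨w, hw⟩ := hB2 q hqB2 l l' φ h hφ hl'
  -- the conjugate of `φ`
  have hφ1 : ∀ x : F₁, w.symm (φ (w (algebraMap F₁ Om x))) = algebraMap F₁ Om x := by
    intro x
    rw [hφK _ (mem_of_normal' K₀ w (hK1 x)), AlgEquiv.symm_apply_apply]
  let φ₁ : Om ≃ₐ[F₁] Om :=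
    AlgEquiv.ofRingEquiv (f := ((w.trans φ).trans w.symm).toRingEquiv) hφ1
  have hφ₁ : ∀ x, φ₁ x = w.symm (φ (w x)) := fun x => rfl
  have hφ₁pow : ∀ (n : ℕ) (x : Om), (φ₁ ^ n) x = w.symm ((φ ^ n) (w x)) := by
    intro n
    induction n with
    | zero => intro x; simp
    | succ n ih =>
      intro x
      rw [pow_succ, pow_succ, AlgEquiv.mul_apply, AlgEquiv.mul_apply, ih, hφ₁,
        AlgEquiv.apply_symm_apply]
  have hφ₁h : ∀ x ∈ S0, φ₁ x = h x := by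
    intro x hx
    have h1 : φ (w x) = w (h x) := hw x (Finset.mem_union_left _ hx)
    rw [hφ₁, h1, AlgEquiv.symm_apply_apply]
  -- control
  have hctl : ∀ a c : Om ≃ₐ[F₁] Om, (∀ z ∈ S0, a z = c z) → ∀ y ∈ T, α a y = α c y := by
    intro a c hac y hy
    have h1 : ∀ z ∈ S0, (c⁻¹ * a) z = z := by
      intro z hz
      rw [AlgEquiv.mul_apply, hac z hz, ← AlgEquiv.mul_apply, inv_mul_cancel,
        AlgEquiv.one_apply]
    have h3 := hS0 _ h1 y (Finset.mem_image.2 ⟨y, hy, rfl⟩)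
    rw [map_mul, map_inv, AlgEquiv.mul_apply] at h3
    have h4 := congrArg (α c) h3
    rw [← AlgEquiv.mul_apply, mul_inv_cancel, AlgEquiv.one_apply] at h4
    exact h4
  let e : E₂ →+* Om := ((w.symm : Om →+* Om).comp t).comp ((γ⁻¹ : E₂ ≃ₐ[F₂] E₂) : E₂ →+* E₂)
  have he : ∀ x, e x = w.symm (t (γ⁻¹ x)) := fun x => rfl
  have key : ∀ x ∈ T, φ₁ (e x) = e (α φ₁ x) := by
    intro x hx
    rw [hctl φ₁ h hφ₁h x hx, hαh _ (Finset.mem_image.2 ⟨x, hx, rfl⟩), hφ₁, he, he,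
      AlgEquiv.apply_symm_apply, hβ]
    have h5 : ∀ y, γ⁻¹ (γ y) = y := by
      intro y
      rw [← AlgEquiv.mul_apply, inv_mul_cancel, AlgEquiv.one_apply]
    rw [h5]
  have keyn : ∀ n : ℕ, ∀ x ∈ T, (φ₁ ^ n) (e x) = e (α (φ₁ ^ n) x) := by
    intro n
    induction n with
    | zero => intro x _; simp
    | succ n ih =>
      intro x hx
      rw [pow_succ, map_mul, AlgEquiv.mul_apply, AlgEquiv.mul_apply, key x hx]
      exact ih _ (hT (α φ₁) x hx)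
  refine ⟨w, e, fun s' hs' x hx => ?_⟩
  have hs'N : ∀ z : Om, w z ∈ N → s' z = (φ₁ ^ k) z := by
    intro z hz
    rw [hs', hφ₁pow, ← hk _ hz]
    rfl
  have hS0N : ∀ z ∈ S0, s' z = (φ₁ ^ k) z := by
    intro z hz
    exact hs'N z (mem_of_normal' N w (hN z (Finset.mem_union_left _ (Finset.mem_union_left _ hz))))
  have hex : w (e x) ∈ N := by
    rw [he, AlgEquiv.apply_symm_apply]
    refine hN _ (Finset.mem_union_right _ (Finset.mem_biUnion.2 ⟨x, hx, ?_⟩))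
    rw [Multiset.mem_toFinset, mem_roots, IsRoot.def, eval_map]
    · have h1 := hom_eval₂ (minpoly ℤ (x : E₂)) (Int.castRingHom (OO Om))
        (algebraMap (OO Om) Om) (mapO (t.comp ((γ⁻¹ : E₂ ≃ₐ[F₂] E₂) : E₂ →+* E₂)) x)
      rw [root_mapO, map_zero, RingHom.ext_int ((algebraMap (OO Om) Om).comp
        (Int.castRingHom (OO Om))) (Int.castRingHom Om)] at h1
      exact h1.symm
    · exact ((minpoly.monic x.2).map _).ne_zero
  rw [hs'N _ hex, hctl s' (φ₁ ^ k) hS0N x hx]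
  exact keyn k x hx

omit [NumberField F₁] [Algebra F₁ Om] [Field F₂] [NumberField F₂] [Field E₂] [Algebra F₂ E₂]
  [Normal F₂ E₂] in
theorem exists_finset_range {F : Type*} [Field F] [NumberField F] (c : F →+* Om) :
    ∃ S : Finset Om, ∀ K : IntermediateField ℚ Om, (∀ x ∈ S, x ∈ K) → ∀ x, c x ∈ K := by
  classical
  let b := Module.finBasis ℚ F
  refine ⟨Finset.univ.image (fun i => c (b i)), fun K hK x => ?_⟩
  rw [← b.sum_repr x, map_sum]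
  refine sum_mem fun i _ => ?_
  rw [Algebra.smul_def, map_mul]
  refine mul_mem ?_ (hK _ (Finset.mem_image.2 ⟨i, Finset.mem_univ _, rfl⟩))
  have h1 : c (algebraMap ℚ F (b.repr x i)) = algebraMap ℚ Om (b.repr x i) := by simp
  rw [h1]
  exact K.algebraMap_mem _

/-- conjugation by `v` of an `F₁`-automorphism which is trivial on a normal `K₀ ⊇ F₁` -/
noncomputable def cj (K₀ : IntermediateField ℚ Om) [Normal ℚ K₀] (hK1 : ∀ x : F₁, algebraMap F₁ Om x ∈ K₀)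
    (v : Om ≃ₐ[ℚ] Om) (g : Om ≃ₐ[F₁] Om) (hg : ∀ x ∈ K₀, g x = x) : Om ≃ₐ[F₁] Om :=
  AlgEquiv.ofRingEquiv (f := ((v.toRingEquiv.trans g.toRingEquiv).trans v.symm.toRingEquiv)) (by
    intro x
    change v.symm (g (v (algebraMap F₁ Om x))) = _
    rw [hg _ (mem_of_normal' K₀ v (hK1 x)), AlgEquiv.symm_apply_apply])

omit [NumberField F₁] in
theorem cj_apply (K₀ : IntermediateField ℚ Om) [Normal ℚ K₀]
    (hK1 : ∀ x : F₁, algebraMap F₁ Om x ∈ K₀)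
    (v : Om ≃ₐ[ℚ] Om) (g : Om ≃ₐ[F₁] Om) (hg : ∀ x ∈ K₀, g x = x) (x : Om) :
    cj K₀ hK1 v g hg x = v.symm (g (v x)) := rfl

theorem cj_fix (K₀ : IntermediateField ℚ Om) [Normal ℚ K₀]
    (hK1 : ∀ x : F₁, algebraMap F₁ Om x ∈ K₀)
    (v : Om ≃ₐ[ℚ] Om) (g : Om ≃ₐ[F₁] Om) (hg : ∀ x ∈ K₀, g x = x) :
    ∀ x ∈ K₀, cj K₀ hK1 v g hg x = x := by
  intro x hx
  rw [cj_apply, hg _ (mem_of_normal' K₀ v hx), AlgEquiv.symm_apply_apply]

/-- the subgroup of the automorphisms trivial on `K₀` -/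
def HK (F₁ : Type*) [Field F₁] [Algebra F₁ Om] (K₀ : IntermediateField ℚ Om) :
    Subgroup (Om ≃ₐ[F₁] Om) where
  carrier := {g | ∀ x ∈ K₀, g x = x}
  one_mem' := by intro x _; rfl
  mul_mem' := by
    intro a b ha hb x hx
    rw [AlgEquiv.mul_apply, hb x hx, ha x hx]
  inv_mem' := by
    intro a ha x hx
    have h1 := ha x hx
    conv_lhs => rw [← h1]
    rw [← AlgEquiv.mul_apply, inv_mul_cancel, AlgEquiv.one_apply]

theorem HK_finiteIndex (K₀ : IntermediateField ℚ Om) [FiniteDimensional ℚ K₀] :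
    (HK F₁ K₀).FiniteIndex := by
  have : Finite (K₀ →ₐ[ℚ] Om) := inferInstance
  let f : (Om ≃ₐ[F₁] Om) → (K₀ →ₐ[ℚ] Om) := fun g =>
    ((g.restrictScalars ℚ : Om ≃ₐ[ℚ] Om) : Om →ₐ[ℚ] Om).comp K₀.val
  have hf : ∀ a b : Om ≃ₐ[F₁] Om, f a = f b → a⁻¹ * b ∈ HK F₁ K₀ := by
    intro a b hab x hx
    have h1 : a x = b x := congrArg (fun φ : K₀ →ₐ[ℚ] Om => φ ⟨x, hx⟩) hab
    rw [AlgEquiv.mul_apply, ← h1, ← AlgEquiv.mul_apply, inv_mul_cancel, AlgEquiv.one_apply]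
  have h2 : Finite ((Om ≃ₐ[F₁] Om) ⧸ HK F₁ K₀) := by
    apply Finite.of_injective (fun q : (Om ≃ₐ[F₁] Om) ⧸ HK F₁ K₀ => f q.out)
    intro q q' h
    have h3 := hf _ _ h
    rw [← QuotientGroup.eq] at h3
    simpa using h3
  exact Subgroup.finiteIndex_of_finite_quotient

/-- conjugation by `v` as an automorphism of `HK` -/
noncomputable def cjEquiv (K₀ : IntermediateField ℚ Om) [Normal ℚ K₀]
    (hK1 : ∀ x : F₁, algebraMap F₁ Om x ∈ K₀) (v : Om ≃ₐ[ℚ] Om) : HK F₁ K₀ ≃* HK F₁ K₀ where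
  toFun g := ⟨cj K₀ hK1 v g.1 g.2, cj_fix K₀ hK1 v g.1 g.2⟩
  invFun g := ⟨cj K₀ hK1 v.symm g.1 g.2, cj_fix K₀ hK1 v.symm g.1 g.2⟩
  left_inv g := by
    apply Subtype.ext
    apply AlgEquiv.ext
    intro x
    change v.symm.symm (v.symm (g.1 (v (v.symm x)))) = g.1 x
    simp
  right_inv g := by
    apply Subtype.ext
    apply AlgEquiv.ext
    intro x
    change v.symm (v.symm.symm (g.1 (v.symm (v x)))) = g.1 x
    simp
  map_mul' a b := by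
    apply Subtype.ext
    apply AlgEquiv.ext
    intro x
    change v.symm (a.1 (b.1 (v x))) = v.symm (a.1 (v (v.symm (b.1 (v x)))))
    simp

/-- **THEOREM U.** -/
theorem theoremU {PP : Set ℕ} (hsq : ∀ x : E₂, ∃ y, y ^ 2 = x)
    (α : (Om ≃ₐ[F₁] Om) →* (E₂ ≃ₐ[F₂] E₂))
    (hα : Continuous α) (hFD : FD PP) (N₀ : Finset Om) (hHU : HU PP (N₀ : Set Om) α) :
    ∃ j : E₂ →+* Om, ∀ (g : Om ≃ₐ[F₁] Om) (x : E₂), g (j x) = j (α g x) := by
  classical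
  have hc2 : CharZero E₂ := charZero_of_injective_algebraMap (algebraMap F₂ E₂).injective
  have hg2 : IsGalois F₂ E₂ := ⟨⟩
  have halg2 : Algebra.IsAlgebraic ℚ E₂ := Algebra.IsAlgebraic.trans ℚ F₂ E₂
  have hg1 : IsGalois F₁ Om := isGalois_of_isAlgClosed (fun x =>
    (IsFractionRing.isAlgebraic_iff ℤ ℚ Om).2 (Algebra.IsAlgebraic.isAlgebraic _))
  -- the level `K₀`
  obtain ⟨S1, hS1⟩ := exists_finset_range (algebraMap F₁ Om)
  have hex := fun c : F₂ →+* Om => exists_finset_range c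
  choose S2 hS2 using hex
  have : Fintype (F₂ →+* Om) := Fintype.ofFinite _
  obtain ⟨K₀, hK₀f, hK₀G, hK₀⟩ := exists_level ℚ (S1 ∪ Finset.univ.biUnion S2 ∪ N₀)
  have hK₀G' : IsGalois ℚ K₀ := by
    convert hK₀G
    exact Subsingleton.elim _ _
  have hK₀n : Normal ℚ K₀ := hK₀G'.to_normal
  have hK1 : ∀ x : F₁, algebraMap F₁ Om x ∈ K₀ := hS1 K₀ fun x hx =>
    hK₀ x (Finset.mem_union_left _ (Finset.mem_union_left _ hx))
  have hK2 : ∀ (c : F₂ →+* Om) (x : F₂), c x ∈ K₀ := fun c => hS2 c K₀ fun x hx =>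
    hK₀ x (Finset.mem_union_left _ (Finset.mem_union_right _
      (Finset.mem_biUnion.2 ⟨c, Finset.mem_univ _, hx⟩)))
  have hK3 : ∀ x ∈ N₀, x ∈ K₀ := fun x hx => hK₀ x (Finset.mem_union_right _ hx)
  have hv := fun c : F₁ →+* Om => exists_extend c
  choose v hv using hv
  refine exists_global_embedding_sub hsq (HK F₁ K₀) (HK_finiteIndex K₀)
    (I := F₁ →+* Om) (fun c => cjEquiv K₀ hK1 (v c)) ?_
  intro g T
  -- integral level
  have hmul : ∀ x : E₂, ∃ m : ℤ, m ≠ 0 ∧ IsIntegral ℤ ((m : E₂) * x) := by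
    intro x
    have halg : IsAlgebraic ℤ x :=
      (IsFractionRing.isAlgebraic_iff ℤ ℚ E₂).2 (Algebra.IsAlgebraic.isAlgebraic _)
    obtain ⟨a, ha, hint⟩ := halg.exists_integral_multiple
    exact ⟨a, ha, by rwa [zsmul_eq_mul] at hint⟩
  choose m hm hint using hmul
  let T1 : Finset (OO E₂) := T.image fun x => (⟨(m x : E₂) * x, hint x⟩ : OO E₂)
  obtain ⟨T', hT1, hT'⟩ := mem_closure_roots T1
  obtain ⟨w, e₀, he₀⟩ := pointwise_integral_U α hα hFD N₀ hHU K₀ hK1 hK2 hK3 T'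
    (fun σ x hx => hT' _ x hx) g.1 g.2
  let c : F₁ →+* Om := (w : Om →+* Om).comp (algebraMap F₁ Om)
  have hvc : ∀ x : F₁, v c (algebraMap F₁ Om x) = w (algebraMap F₁ Om x) := hv c
  have hh1 : ∀ x : F₁, w.symm (v c (algebraMap F₁ Om x)) = algebraMap F₁ Om x := by
    intro x
    rw [hvc, AlgEquiv.symm_apply_apply]
  let h₁ : Om ≃ₐ[F₁] Om := AlgEquiv.ofRingEquiv (f := ((v c).trans w.symm).toRingEquiv) hh1
  have hh₁ : ∀ x, h₁ x = w.symm (v c x) := fun x => rfl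
  set φg : Om ≃ₐ[F₁] Om := ((cjEquiv K₀ hK1 (v c) g : HK F₁ K₀) : Om ≃ₐ[F₁] Om) with hφg
  have hφg' : ∀ x, φg x = (v c).symm (g.1 (v c x)) := fun x => rfl
  have hinv : ∀ x, h₁⁻¹ (h₁ x) = x := fun x => by
    rw [← AlgEquiv.mul_apply, inv_mul_cancel, AlgEquiv.one_apply]
  have hinv' : ∀ x, h₁ (h₁⁻¹ x) = x := fun x => by
    rw [← AlgEquiv.mul_apply, mul_inv_cancel, AlgEquiv.one_apply]
  have hs' : ∀ x, (h₁ * φg * h₁⁻¹) x = w.symm (g.1 (w x)) := by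
    intro x
    obtain ⟨y, rfl⟩ : ∃ y, h₁ y = x := ⟨h₁⁻¹ x, hinv' x⟩
    rw [AlgEquiv.mul_apply, AlgEquiv.mul_apply, hinv, hh₁, hh₁, hφg', AlgEquiv.apply_symm_apply,
      AlgEquiv.apply_symm_apply]
  have h2 := he₀ (h₁ * φg * h₁⁻¹) hs'
  refine ⟨c, ((h₁⁻¹ : Om ≃ₐ[F₁] Om) : Om →+* Om).comp (e₀.comp ((α h₁ : E₂ ≃ₐ[F₂] E₂) : E₂ →+* E₂)),
    ?_⟩
  have h3 : ∀ x ∈ T', φg (h₁⁻¹ (e₀ (α h₁ x))) = h₁⁻¹ (e₀ (α h₁ (α φg x))) := by
    intro x hx
    have h4 := h2 (mapO (α h₁ : E₂ →+* E₂) x) (hT' _ x hx)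
    change (h₁ * φg * h₁⁻¹) (e₀ (α h₁ x)) = e₀ (α (h₁ * φg * h₁⁻¹) (α h₁ x)) at h4
    have h5 : α (h₁ * φg * h₁⁻¹) (α h₁ x) = α h₁ (α φg x) := by
      rw [← AlgEquiv.mul_apply, ← map_mul, ← AlgEquiv.mul_apply, ← map_mul]
      congr 2
      group
    rw [h5] at h4
    rw [← h4, AlgEquiv.mul_apply, AlgEquiv.mul_apply, hinv]
  intro x hx
  have h1 := h3 _ (hT1 (Finset.mem_image.2 ⟨x, hx, rfl⟩))
  simp only [map_mul, map_intCast] at h1
  have h2' : ((m x : ℤ) : Om) ≠ 0 := by exact_mod_cast hm x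
  exact mul_left_cancel₀ h2' h1

end main

end Crest.Agent.R018.TheoremUx245
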