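import Crest.Agent.R018.Core_74
import Crest.Agent.R018.TheoremU_245
import Crest.Agent.R018.Dens_925

/-!
# Row 18: the literal `Corex74.TheoremU` (helper245)
-/

set_option autoImplicit false

open NumberField Pointwise
open Crest.NumberTheoryR

namespace Crest.Agent.R018.CoreUx245

open Crest.Agent.R018.EndDefx924 Crest.Agent.R018.EndAx924
open Crest.Agent.R018.Placesx484 Crest.Agent.R018.Corex74
open Crest.Agent.R018.TheoremUx245 Crest.Agent.R018.EndAx245

/-! ### geometric places versus places -/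

section Bridge

variable {E : Type*} [Field E]

/-- a place over `q` comes from a geometric place -/
theorem exists_pl [CharZero E] (q : ℕ) [hq : Fact q.Prime] (P : Place E) (hP : P.rchar = q) :
    ∃ l : 𝓞 E →+* AlgebraicClosure (ZMod q), ∀ x : 𝓞 E, l x = 0 ↔ x ∈ P.ideal := by
  have hmax := P.isMaximal
  let _ : Field (𝓞 E ⧸ P.ideal) := Ideal.Quotient.field _
  have hq0 : ((q : ℕ) : 𝓞 E ⧸ P.ideal) = 0 := by
    have h1 : ((q : ℕ) : 𝓞 E) ∈ P.ideal := by rw [← hP]; exact P.rchar_mem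
    have h2 := (Ideal.Quotient.eq_zero_iff_mem (I := P.ideal)).2 h1
    simpa using h2
  have hchar : CharP (𝓞 E ⧸ P.ideal) q :=
    (CharP.charP_iff_prime_eq_zero hq.out).2 hq0
  let _ : Algebra (ZMod q) (𝓞 E ⧸ P.ideal) := ZMod.algebra _ q
  have halg : Algebra.IsAlgebraic (ZMod q) (𝓞 E ⧸ P.ideal) := by
    constructor
    intro y
    obtain ⟨x, rfl⟩ := Ideal.Quotient.mk_surjective y
    have h3 : IsIntegral ℤ x := NumberField.RingOfIntegers.isIntegral x
    have h4 : IsIntegral ℤ (Ideal.Quotient.mk P.ideal x) := h3.map (Ideal.Quotient.mkₐ ℤ P.ideal)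
    obtain ⟨f, hf, hf0⟩ := h4
    refine IsIntegral.isAlgebraic ⟨f.map (Int.castRingHom (ZMod q)), hf.map _, ?_⟩
    rw [Polynomial.eval₂_map]
    have h5 : (algebraMap (ZMod q) (𝓞 E ⧸ P.ideal)).comp (Int.castRingHom (ZMod q)) =
        algebraMap ℤ (𝓞 E ⧸ P.ideal) := RingHom.ext_int _ _
    rw [h5]
    exact hf0
  let i : (𝓞 E ⧸ P.ideal) →ₐ[ZMod q] AlgebraicClosure (ZMod q) := IsAlgClosed.lift
  refine ⟨(i : (𝓞 E ⧸ P.ideal) →+* AlgebraicClosure (ZMod q)).comp (Ideal.Quotient.mk P.ideal),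
    fun x => ?_⟩
  have h6 : i (Ideal.Quotient.mk P.ideal x) = 0 ↔ x ∈ P.ideal := by
    rw [map_eq_zero_iff i i.toRingHom.injective, Ideal.Quotient.eq_zero_iff_mem]
  exact h6

theorem isFrobAt_iff (q : ℕ) [hq : Fact q.Prime] (l : 𝓞 E →+* AlgebraicClosure (ZMod q))
    {F : Type*} [Field F] [Algebra F E] (g : E ≃ₐ[F] E) :
    IsFrobAt q (E := E) l (g : E →+* E) ↔ ∀ x : 𝓞 E, l (g • x - x ^ q) = 0 := by
  constructor
  · intro h x
    rw [map_sub, map_pow, sub_eq_zero]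
    exact h x
  · intro h x
    let x' : 𝓞 E := x
    have h1 := h x'
    rw [map_sub, map_pow, sub_eq_zero] at h1
    exact h1

theorem isFrob_of_act [CharZero E] (q : ℕ) [hq : Fact q.Prime] (P : Place E) (hP : P.rchar = q)
    {F : Type*} [Field F] [Algebra F E] (g : E ≃ₐ[F] E) (h : Act P g q) :
    IsFrob q (g : E →+* E) := by
  obtain ⟨l, hl⟩ := exists_pl q P hP
  exact ⟨l, (isFrobAt_iff q l g).2 fun x => (hl _).2 (h x)⟩

/-- the place below a geometric place -/
theorem exists_place [CharZero E] (q : ℕ) [hq : Fact q.Prime] (l' : 𝓞 E →+* AlgebraicClosure (ZMod q)) :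
    ∃ P : Place E, P.rchar = q ∧ ∀ x : 𝓞 E, l' x = 0 ↔ x ∈ P.ideal := by
  have hq' : ((q : ℕ) : 𝓞 E) ∈ RingHom.ker l' := by
    rw [RingHom.mem_ker, map_natCast]
    have h1 : ((q : ℕ) : AlgebraicClosure (ZMod q)) = 0 := by
      have := CharP.cast_eq_zero (AlgebraicClosure (ZMod q)) q
      exact this
    exact h1
  refine ⟨⟨RingHom.ker l', RingHom.ker_isPrime l', ?_⟩, ?_, fun x => ?_⟩
  · intro h0
    rw [h0, Ideal.mem_bot] at hq'
    have : (q : 𝓞 E) ≠ 0 := Nat.cast_ne_zero.2 hq.out.ne_zero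
    exact this hq'
  · exact (Place.rchar_eq_of_mem _ hq.out hq')
  · exact (RingHom.mem_ker).symm

theorem act_of_isFrob [CharZero E] (q : ℕ) [hq : Fact q.Prime] {F : Type*} [Field F] [Algebra F E]
    (g : E ≃ₐ[F] E) (h : IsFrob q (g : E →+* E)) : ∃ P : Place E, P.rchar = q ∧ Act P g q := by
  obtain ⟨l, hl⟩ := h
  obtain ⟨P, hP, hPl⟩ := exists_place q l
  exact ⟨P, hP, fun x => (hPl _).1 ((isFrobAt_iff q l g).1 hl x)⟩

end Bridge

section Acts

variable {E : Type*} [Field E] [CharZero E] {H : Type*} [Group H] [MulSemiringAction H E]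

theorem act_smul_eq (P : Place E) {g : H} {q : ℕ} (hq : 0 < q) (h : Act P g q) : g • P = P := by
  rw [Place.smul_eq_iff]
  intro x hx
  have h1 := P.ideal.add_mem (h x) (P.ideal.pow_mem_of_mem hx q hq)
  rwa [sub_add_cancel] at h1

theorem act_quot (P : Place E) {b f : H} {q : ℕ} (hq : 0 < q) (hb : Act P b q) (hf : Act P f q)
    (y : 𝓞 E) : (b⁻¹ * f) • y - y ∈ P.ideal := by
  have h1 : f • y - b • y ∈ P.ideal := by
    have := P.ideal.sub_mem (hf y) (hb y)
    rwa [sub_sub_sub_cancel_right] at this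
  have h2 : b⁻¹ • P = P := by
    rw [inv_smul_eq_iff]
    exact (act_smul_eq P hq hb).symm
  have h3 := (Place.smul_eq_iff P b⁻¹).1 h2 _ h1
  rwa [smul_sub, smul_smul, inv_smul_smul] at h3

omit [CharZero E] in
theorem act_conj (P : Place E) {f : H} {q : ℕ} (g : H) (h : Act P f q) :
    Act (g • P) (g * f * g⁻¹) q := by
  intro y
  have h1 := (Place.smul_mem_smul_ideal g P _).2 (h (g⁻¹ • y))
  rw [smul_sub, smul_pow', smul_inv_smul, smul_smul, smul_smul] at h1
  exact h1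

end Acts

/-! ### the Galois correspondence for `D.G` -/

theorem isGalois_Om : IsGalois ℚ Om := by
  have h1 : Algebra.IsAlgebraic ℚ Om := inferInstance
  infer_instance

section corr

variable (D : Dat)

/-- the field `F₁` -/
noncomputable abbrev F1f : IntermediateField ℚ Om := IntermediateField.fixedField D.G

theorem fixing_F1f : (F1f D).fixingSubgroup = D.G := by
  have : IsGalois ℚ Om := isGalois_Om
  have hcl : IsClosed (D.G : Set BB) := Subgroup.isClosed_of_isOpen _ D.isOpen_G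
  exact InfiniteGalois.fixingSubgroup_fixedField ⟨D.G, hcl⟩

theorem finite_F1f : FiniteDimensional ℚ (F1f D) := by
  have : IsGalois ℚ Om := isGalois_Om
  rw [← InfiniteGalois.isOpen_iff_finite, fixing_F1f]
  exact D.isOpen_G

theorem numberField_F1f : NumberField (F1f D) := by
  have h := finite_F1f D
  refine { to_charZero := inferInstance, to_finiteDimensional := ?_ }
  convert h

/-- `Gal(Om/F₁) → D.G` -/
noncomputable def toG : (Om ≃ₐ[F1f D] Om) →* D.G where
  toFun s := ⟨s.restrictScalars ℚ, by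
    rw [← fixing_F1f D, IntermediateField.mem_fixingSubgroup_iff]
    intro x hx
    exact s.commutes ⟨x, hx⟩⟩
  map_one' := rfl
  map_mul' _ _ := rfl

theorem toG_apply (s : Om ≃ₐ[F1f D] Om) (x : Om) : ((toG D s : D.G) : BB) x = s x := rfl

theorem toG_surj (g : D.G) : ∃ s : Om ≃ₐ[F1f D] Om, toG D s = g := by
  have hg : (g : BB) ∈ (F1f D).fixingSubgroup := by
    rw [fixing_F1f D]; exact g.2
  rw [IntermediateField.mem_fixingSubgroup_iff] at hg
  refine ⟨AlgEquiv.ofRingEquiv (f := (g : BB).toRingEquiv) fun x => hg x x.2, ?_⟩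
  apply Subtype.ext
  ext x
  rfl

theorem continuous_toG : Continuous (toG D) := by
  classical
  have : IsGalois ℚ Om := isGalois_Om
  have halg : Algebra.IsAlgebraic (F1f D) Om := Algebra.IsAlgebraic.tower_top (K := ℚ) (F1f D)
  let f : (Om ≃ₐ[F1f D] Om) →* BB := D.G.subtype.comp (toG D)
  have hf : Continuous f := by
    apply continuous_of_continuousAt_one
    intro U hU
    rw [map_one, krullTopology_mem_nhds_one_iff] at hU
    obtain ⟨L, hL, hLU⟩ := hU
    obtain ⟨T, -, hT⟩ := Densx925.exists_finset_fixing L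
    have hopen : IsOpen (⋂ x ∈ T, (MulAction.stabilizer (Om ≃ₐ[F1f D] Om) x :
        Set (Om ≃ₐ[F1f D] Om))) :=
      isOpen_biInter_finset fun x _ => stabilizer_isOpen_of_isIntegral x
    have hmem : (1 : Om ≃ₐ[F1f D] Om) ∈ ⋂ x ∈ T, (MulAction.stabilizer (Om ≃ₐ[F1f D] Om) x :
        Set (Om ≃ₐ[F1f D] Om)) := by
      simp only [Set.mem_iInter]
      intro x _
      exact one_mem _
    refine Filter.mem_map.2 (Filter.mem_of_superset (hopen.mem_nhds hmem)
      fun g hg => hLU (hT _ fun x hx => ?_))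
    simp only [Set.mem_iInter] at hg
    exact hg x hx
  exact hf.subtype_mk _

end corr

/-! ### the theorem -/

theorem exists_normal_open {F E : Type*} [Field F] [CharZero F] [Field E] [Algebra F E]
    [IsGalois F E] (T : Finset E) :
    ∃ V : Subgroup (E ≃ₐ[F] E), V.Normal ∧ IsOpen (V : Set (E ≃ₐ[F] E)) ∧
      ∀ v ∈ V, ∀ x ∈ T, v x = x := by
  classical
  obtain ⟨N, hN, hNG, hNT⟩ := EndBx924.exists_level F T
  have : Normal F N := hNG.to_normal
  refine ⟨N.fixingSubgroup, inferInstance, N.fixingSubgroup_isOpen, fun v hv x hx => ?_⟩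
  rw [IntermediateField.mem_fixingSubgroup_iff] at hv
  exact hv x (hNT x hx)

/-- `Sv` is closed under square roots -/
theorem sq_Sv : ∀ x : Sv, ∃ y : Sv, y ^ 2 = x := by
  intro x
  obtain ⟨y, hy⟩ := IsAlgClosed.exists_pow_nat_eq (x : Om) (n := 2) (by norm_num)
  have hmem : y ∈ Sv := by
    have h1 : ∀ E : SvFam, y ∈ E.1 := by
      intro E
      have hx : (x : Om) ∈ E.1 := (iInf_le (fun E : SvFam => E.1) E) x.2
      obtain ⟨z, hz⟩ := exists_sq_of_solvablyClosed E.2.2 ⟨(x : Om), hx⟩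
      have h2 : y ^ 2 = (z : Om) ^ 2 := by
        rw [hy]
        exact (congrArg (fun w : E.1 => (w : Om)) hz).symm
      rcases sq_eq_sq_iff_eq_or_eq_neg.1 h2 with h | h
      · rw [h]; exact z.2
      · rw [h]; exact neg_mem z.2
    have h3 : IntermediateField.adjoin ℚ {y} ≤ Sv := by
      unfold Sv
      refine le_iInf fun E => ?_
      rw [IntermediateField.adjoin_simple_le_iff]
      exact h1 E
    exact h3 (IntermediateField.mem_adjoin_simple_self ℚ y)
  exact ⟨⟨y, hmem⟩, Subtype.ext hy⟩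

theorem fdeg_eq_one (G : Subgroup BB) (P : Place Om) {g : BB} (hg : g ∈ G)
    (h : Act P g P.rchar) : fdeg G P = 1 := by
  have h1 : (1 : ℕ) ∈ {a | 0 < a ∧ ∃ g ∈ G, Act P g (P.rchar ^ a)} :=
    ⟨one_pos, g, hg, by rwa [pow_one]⟩
  refine le_antisymm (Nat.sInf_le h1) ?_
  exact (Nat.sInf_mem ⟨1, h1⟩).1

theorem hU_of_hypU (h2 : F2) (h3 : F3) (h5 : F5) (D : Dat) (hH : HypU D) :
    ∃ N₀ : Finset Om, HU (F₁ := F1f D) (F₂ := ℚ) (E₂ := Sv) Set.univ (N₀ : Set Om)
      (D.α.comp (toG D)) := by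
  classical
  have := finite_F1f D
  obtain ⟨N₀, -, hN₀⟩ := Densx925.exists_finset_fixing (F1f D)
  refine ⟨N₀, fun T => ?_⟩
  obtain ⟨V, hVn, hVo, hVT⟩ := exists_normal_open (F := ℚ) (E := Sv) T
  obtain ⟨B1, hB1⟩ := hH V hVn hVo
  obtain ⟨B2, hB2⟩ := h3 V hVo
  refine ⟨max B1 B2, fun q hq hqB _ hsplit β hβ => ?_⟩
  obtain ⟨P, Q, σ, φ, hPq, hQq, hσ, hφ, hmem⟩ := hB1 q hq.out ((le_max_left _ _).trans_lt hqB)
  -- the residue degree at `P` is one
  obtain ⟨τ, -, hτ⟩ := h2.2 P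
  have hτG : τ ∈ D.G := by
    rw [← fixing_F1f D]
    refine hN₀ τ fun x hx => ?_
    exact hsplit τ (isFrob_of_act q P hPq τ (by rwa [hPq] at hτ)) x hx
  have hf := fdeg_eq_one D.G P hτG hτ
  obtain ⟨hσG, hσa⟩ := hσ
  rw [hf, pow_one, hPq] at hσa
  rw [hf, pow_one] at hmem
  obtain ⟨s, hs⟩ := toG_surj D σ
  -- the place of `β`
  obtain ⟨Q', hQ'q, hβa⟩ := act_of_isFrob q β hβ
  obtain ⟨g, hg⟩ := h5.1 Q Q' (hQq.trans hQ'q.symm)
  have hconj : Act Q' (g * φ * g⁻¹) q := by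
    rw [← hg]
    exact act_conj Q g hφ
  have hin : ∀ y : 𝓞 Sv, (β⁻¹ * (g * φ * g⁻¹)) • y - y ∈ Q'.ideal :=
    act_quot Q' hq.out.pos hβa hconj
  have hinV := hB2 Q' (by rw [hQ'q]; exact (le_max_right _ _).trans_lt hqB) _ hin
  refine ⟨s, g⁻¹, ?_, fun x hx => ?_⟩
  · refine isFrob_of_act q P hPq s ?_
    intro y
    have h1 := hσa y
    rw [← hs] at h1
    exact h1
  · have h6 : (D.α.comp (toG D)) s = D.α σ := by
      rw [MonoidHom.comp_apply, hs]
    rw [h6]
    have h7 : φ x = D.α σ x := by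
      have := hVT _ hmem x hx
      rw [AlgEquiv.mul_apply] at this
      have h8 := congrArg (D.α σ) this
      rwa [← AlgEquiv.mul_apply, mul_inv_cancel, AlgEquiv.one_apply] at h8
    have h9 := hVT _ (hVn.conj_mem _ hinV g⁻¹) x hx
    have h10 : g⁻¹ * (β⁻¹ * (g * φ * g⁻¹)) * g⁻¹⁻¹ = g⁻¹ * β⁻¹ * g * φ := by group
    rw [h10] at h9
    rw [← h7, inv_inv]
    have h11 := congrArg (g⁻¹ * β * g) h9
    rw [← AlgEquiv.mul_apply] at h11
    have h12 : g⁻¹ * β * g * (g⁻¹ * β⁻¹ * g * φ) = φ := by group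
    rw [h12] at h11
    exact h11

theorem exists_extend_Sv (j : Sv →+* Om) : ∃ v : BB, ∀ x : Sv, v (x : Om) = j x := by
  have : Algebra.IsAlgebraic Sv Om := Algebra.IsAlgebraic.tower_top (K := ℚ) Sv
  obtain ⟨φ, hφ⟩ := IsAlgClosed.surjective_domRestrict_of_isAlgebraic (K := ℚ) (L := Sv) (M := Om)
    (E := Om) j.toRatAlgHom
  obtain ⟨v, hv⟩ := exists_algEquiv (φ : Om →+* Om)
  refine ⟨v, fun x => ?_⟩
  rw [hv]
  have := congrArg (fun f : Sv →ₐ[ℚ] Om => f x) hφ
  exact this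

theorem res_apply (v : BB) (x : Sv) : ((res v x : Sv) : Om) = v (x : Om) :=
  AlgEquiv.restrictNormal_commutes v Sv x

/-- an equivariant embedding gives `FT` -/
theorem ft_of_embedding (D : Dat) (j : Sv →+* Om)
    (hj : ∀ (g : D.G) (x : Sv), (g : BB) (j x) = j (D.α g x)) : FT D := by
  obtain ⟨v, hv⟩ := exists_extend_Sv j
  refine ⟨res v, fun g => ?_⟩
  apply AlgEquiv.ext
  intro x
  rw [AlgEquiv.mul_apply, AlgEquiv.mul_apply]
  apply (res v).injective
  rw [← AlgEquiv.mul_apply (res v) ((res v)⁻¹), mul_inv_cancel, AlgEquiv.one_apply]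
  apply Subtype.ext
  rw [res_apply, res_apply, res_apply, hv, hv]
  exact (hj g x).symm

theorem theoremU_holds (h2 : F2) (h3 : F3) (h5 : F5) : Corex74.TheoremU := by
  intro D _ hH
  have := numberField_F1f D
  obtain ⟨N₀, hN₀⟩ := hU_of_hypU h2 h3 h5 D hH
  obtain ⟨j, hj⟩ := theoremU (F₁ := F1f D) (F₂ := ℚ) (E₂ := Sv) sq_Sv
    (D.α.comp (toG D)) (D.cont.comp (continuous_toG D)) FDAdaptx389.fd_univ N₀ hN₀
  refine ft_of_embedding D j fun g x => ?_
  obtain ⟨s, rfl⟩ := toG_surj D g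
  exact hj s x

end Crest.Agent.R018.CoreUx245

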