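import Crest.Agent.R018.Core_74

/-!
# Row 18: wiring of THEOREM A (helper74)
-/

set_option autoImplicit false

namespace Crest.Agent.R018.CoreWx74

open Crest.Agent.R018.Corex74

theorem finiteIndex_of_open (G : Subgroup BB) (h : IsOpen (G : Set BB)) : G.FiniteIndex := by
  have : Finite (BB ⧸ G) := Subgroup.quotient_finite_of_isOpen G h
  exact Subgroup.finiteIndex_of_finite_quotient

/-- Theorem A from the targets -/
theorem theoremA (hD : Descent) (hCF : CF) (hCA : CA) (hU : TheoremU) : TheoremA := by
  have key : ∀ n : ℕ, ∀ D : Dat, D.G.index = n → FT D := by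
    intro n
    induction n using Nat.strong_induction_on with
    | _ n ih =>
      intro D hn
      by_cases hND : ND D
      · exact hU D (hCA D hND) (hCF D hND)
      · obtain ⟨D', hlt, hext⟩ := hD D hND
        have := finiteIndex_of_open D.G D.isOpen_G
        have h1 : D'.G.index < n := by
          rw [← hn]
          exact Subgroup.index_strictAnti hlt
        obtain ⟨t, ht⟩ := ih _ h1 D' rfl
        refine ⟨t, fun g => ?_⟩
        have h2 := ht ⟨(g : BB), hlt.le g.2⟩
        rw [hext (g : BB) g.2 (hlt.le g.2)] at h2
        exact h2
  exact fun D => key _ D rfl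

end Crest.Agent.R018.CoreWx74
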