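import Crest.Agent.R018.Step2Def_924

/-!
# Row 18, STEP 2, part A: the field `Qs` (helper924)

* `isSolvablyClosed_of_roots` : a field of characteristic zero with all roots of unity and all
  `n`-th roots is solvably closed;
* `Qs` is solvably closed and Galois over `ℚ`.
-/

set_option autoImplicit false

open Crest.NumberTheoryR Crest.Agent.R018.EndDefx924 Crest.Agent.R018.EndAx924 Polynomial

namespace Crest.Agent.R018.Step2x924

theorem mem_of_pow_mem {K L : Type*} [Field K] [Field L] [Algebra K L]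
    (h1 : ∀ n : ℕ, n ≠ 0 → ∃ ζ : K, IsPrimitiveRoot ζ n)
    (h2 : ∀ n : ℕ, n ≠ 0 → ∀ a : K, ∃ y, y ^ n = a) (n : ℕ) (hn : n ≠ 0) (x : L) (a : K)
    (hx : x ^ n = algebraMap K L a) : ∃ y : K, algebraMap K L y = x := by
  obtain ⟨ζ, hζ⟩ := h1 n hn
  obtain ⟨y, hy⟩ := h2 n hn a
  have hζ' : IsPrimitiveRoot (algebraMap K L ζ) n := hζ.map_of_injective (algebraMap K L).injective
  by_cases hy0 : y = 0
  · subst hy0
    refine ⟨0, ?_⟩
    rw [zero_pow hn] at hy
    rw [← hy, map_zero] at hx
    rw [map_zero, eq_zero_of_pow_eq_zero hx]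
  · have hy1 : algebraMap K L y ≠ 0 := by simpa using hy0
    have hx1 : (x / algebraMap K L y) ^ n = 1 := by
      rw [div_pow, hx, ← map_pow, hy]
      refine div_self ?_
      rw [← hy, map_pow]
      exact pow_ne_zero _ hy1
    have : NeZero n := ⟨hn⟩
    obtain ⟨i, -, hi⟩ := hζ'.eq_pow_of_pow_eq_one hx1
    refine ⟨ζ ^ i * y, ?_⟩
    rw [map_mul, map_pow, hi, div_mul_cancel₀ _ hy1]

theorem isSolvablyClosed_of_roots {K : Type*} [Field K] [CharZero K]
    (h1 : ∀ n : ℕ, n ≠ 0 → ∃ ζ : K, IsPrimitiveRoot ζ n)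
    (h2 : ∀ n : ℕ, n ≠ 0 → ∀ a : K, ∃ y, y ^ n = a) : IsSolvablyClosed K := by
  classical
  intro p hp
  by_contra hns
  have hgal : IsGalois K p.SplittingField := ⟨⟩
  have hp' : ∀ a b : (p.SplittingField ≃ₐ[K] p.SplittingField), a * b = b * a := hp
  have hne : (⊥ : Subgroup (p.SplittingField ≃ₐ[K] p.SplittingField)) ≠ ⊤ := by
    intro h
    apply hns
    have h3 : (⊥ : IntermediateField K p.SplittingField) = ⊤ := by
      rw [← IsGalois.fixedField_top, ← h, IntermediateField.fixedField_bot]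
    have h4 := congrArg IntermediateField.toSubalgebra h3
    rw [IntermediateField.bot_toSubalgebra, IntermediateField.top_toSubalgebra] at h4
    exact (Polynomial.IsSplittingField.splits_iff p.SplittingField p).2 h4.symm
  obtain ⟨H, hH, -⟩ := (eq_top_or_exists_le_coatom
    (⊥ : Subgroup (p.SplittingField ≃ₐ[K] p.SplittingField))).resolve_left hne
  have hHn : H.Normal := ⟨fun n hn g => by rw [hp' g n, mul_inv_cancel_right]; exact hn⟩
  obtain ⟨g, hg⟩ : ∃ g, g ∉ H := by
    by_contra hcon
    push Not at hcon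
    exact hH.1 (eq_top_iff.2 fun x _ => hcon x)
  let K' := IntermediateField.fixedField H
  have hK' : IsGalois K K' := inferInstance
  let r : (p.SplittingField ≃ₐ[K] p.SplittingField) →* (K' ≃ₐ[K] K') :=
    AlgEquiv.restrictNormalHom K'
  have hr : ∀ h ∈ H, r h = 1 := by
    intro h hh
    apply AlgEquiv.ext
    intro x
    apply Subtype.val_injective
    have h3 : ((r h x : K') : p.SplittingField) = h x :=
      AlgEquiv.restrictNormal_commutes h K' x
    rw [h3]
    exact x.2 ⟨h, hh⟩
  have hsup : H ⊔ Subgroup.zpowers g = ⊤ := by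
    apply hH.2
    refine lt_of_le_of_ne le_sup_left ?_
    intro h
    apply hg
    rw [h]
    exact (le_sup_right : Subgroup.zpowers g ≤ H ⊔ Subgroup.zpowers g)
      (Subgroup.mem_zpowers g)
  have hcyc : IsCyclic (K' ≃ₐ[K] K') := by
    refine ⟨r g, fun x => ?_⟩
    obtain ⟨y, rfl⟩ := AlgEquiv.restrictNormalHom_surjective (F := K) (K₁ := K')
      p.SplittingField x
    have hy : y ∈ H ⊔ Subgroup.zpowers g := by rw [hsup]; trivial
    have h3 : r y ∈ (H ⊔ Subgroup.zpowers g).map r := ⟨y, hy, rfl⟩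
    rw [Subgroup.map_sup, MonoidHom.map_zpowers] at h3
    have h4 : H.map r = ⊥ := by
      rw [Subgroup.map_eq_bot_iff]
      intro h hh
      exact hr h hh
    rw [h4, bot_sup_eq] at h3
    exact h3
  have hpos : Module.finrank K K' ≠ 0 := (Module.finrank_pos (R := K) (M := K')).ne'
  have hroot : (primitiveRoots (Module.finrank K K') K).Nonempty := by
    obtain ⟨ζ, hζ⟩ := h1 _ hpos
    exact ⟨ζ, (mem_primitiveRoots (Nat.pos_of_ne_zero hpos)).2 hζ⟩
  obtain ⟨α, ⟨a, ha⟩, hα⟩ := exists_root_adjoin_eq_top_of_isCyclic K K' hroot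
  obtain ⟨y, hy⟩ := mem_of_pow_mem h1 h2 _ hpos α a ha.symm
  have h5 : (⊥ : IntermediateField K K') = ⊤ := by
    rw [← hα, eq_comm, IntermediateField.adjoin_simple_eq_bot_iff, ← hy]
    exact IntermediateField.algebraMap_mem _ _
  have h6 : Module.finrank K K' = 1 := by
    rw [← IntermediateField.bot_eq_top_iff_finrank_eq_one (F := K) (E := K')]
    exact h5
  have h7 : K' = ⊥ := IntermediateField.finrank_eq_one_iff.1 h6
  have h8 : H = ⊤ := by
    have h9 : K'.fixingSubgroup = H := IntermediateField.fixingSubgroup_fixedField H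
    rw [← h9, h7, IntermediateField.fixingSubgroup_bot]
  exact hH.1 h8

/-! ### the field of elements solvable by radicals -/

theorem normal_rad (F E : Type*) [Field F] [Field E] [Algebra F E] [Normal F E] :
    Normal F (solvableByRad F E) := by
  rw [IntermediateField.normal_iff_forall_map_le]
  intro σ
  rw [IntermediateField.map_le_iff_le_comap]
  apply solvableByRad_le
  intro x n hn hx
  have h1 : σ x ^ n ∈ solvableByRad F E := by rw [← map_pow]; exact hx
  exact solvableByRad.rad_mem hn h1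

theorem isSolvablyClosed_rad (F E : Type*) [Field F] [CharZero F] [Field E] [Algebra F E]
    [IsAlgClosed E] : IsSolvablyClosed (solvableByRad F E) := by
  have : CharZero E := charZero_of_injective_algebraMap (algebraMap F E).injective
  apply isSolvablyClosed_of_roots
  · intro n hn
    have : NeZero n := ⟨hn⟩
    have : NeZero (n : E) := ⟨by exact_mod_cast hn⟩
    obtain ⟨ζ, hζ⟩ := IsAlgClosed.exists_root (cyclotomic n E)
      (by rw [degree_cyclotomic]; exact_mod_cast (Nat.totient_pos.2 (Nat.pos_of_ne_zero hn)).ne')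
    have hζ' : IsPrimitiveRoot ζ n := isRoot_cyclotomic_iff.1 hζ
    have hmem : ζ ∈ solvableByRad F E := by
      apply solvableByRad.rad_mem hn
      rw [hζ'.pow_eq_one]
      exact one_mem _
    exact ⟨⟨ζ, hmem⟩, (IsPrimitiveRoot.coe_submonoidClass_iff (M := E)
      (ζ := (⟨ζ, hmem⟩ : solvableByRad F E))).1 hζ'⟩
  · intro n hn a
    obtain ⟨y, hy⟩ := IsAlgClosed.exists_pow_nat_eq (a : E) (Nat.pos_of_ne_zero hn)
    refine ⟨⟨y, solvableByRad.rad_mem hn (by rw [hy]; exact a.2)⟩, ?_⟩
    exact Subtype.ext hy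

theorem qs_isSolvablyClosed : IsSolvablyClosed Qs := isSolvablyClosed_rad ℚ Om

instance qs_isGalois : IsGalois ℚ Qs := by
  have h1 : Normal ℚ Qs := by
    convert normal_rad ℚ Om
    exact Subsingleton.elim _ _
  exact ⟨⟩

end Crest.Agent.R018.Step2x924
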