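import Crest.Agent.R018.FTSub_925
import Crest.Agent.R018.Core_74
import Crest.Agent.R018.Step2A_924

/-!
# Row 18: `CycFT` of the frozen interface (helper925)

* `sv_isSolvablyClosed : IsSolvablyClosed Sv`
* `ft_of_embedding` : an equivariant embedding `Sv →+* Om` gives `FT`.
* `cycFT_of_locT : LocT → CycFT`
-/

set_option autoImplicit false

open NumberField Pointwise
open Crest.NumberTheoryR
open Crest.Agent.R018.EndDefx924 (Om)
open Crest.Agent.R018.Placesx484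
open Crest.Agent.R018.Corex74

namespace Crest.Agent.R018.CycFTx925

theorem mem_Sv (x : Om) : x ∈ Sv ↔ ∀ E : IntermediateField ℚ Om, Normal ℚ E →
    IsSolvablyClosed E → x ∈ E := by
  unfold Sv
  rw [← SetLike.mem_coe, IntermediateField.coe_iInf, Set.mem_iInter]
  constructor
  · intro h E h1 h2
    exact h ⟨E, h1, h2⟩
  · rintro h ⟨E, h1, h2⟩
    exact h E h1 h2

/-- `Sv` is closed under roots in `Om` -/
theorem root_mem_Sv {n : ℕ} (hn : n ≠ 0) {x : Om} (hx : x ^ n ∈ Sv) : x ∈ Sv := by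
  rw [mem_Sv] at hx ⊢
  intro E h1 h2
  haveI : CharZero E := inferInstance
  obtain ⟨y, hy⟩ := Kumx568.exists_pow_eq h2 n hn (⟨x ^ n, hx E h1 h2⟩ : E)
  obtain ⟨ζ, hζ⟩ := Kumx568.exists_primitiveRoot h2 n hn
  have hy' : (y : Om) ^ n = x ^ n := congrArg Subtype.val hy
  have hζ' : IsPrimitiveRoot (ζ : Om) n :=
    (IsPrimitiveRoot.coe_submonoidClass_iff (M := Om) (ζ := ζ)).2 hζ
  by_cases hy0 : (y : Om) = 0
  · rw [hy0, zero_pow hn] at hy'
    have : x = 0 := by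
      by_contra h
      exact pow_ne_zero n h hy'.symm
    rw [this]; exact zero_mem _
  · have hx1 : (x / y) ^ n = 1 := by
      rw [div_pow, ← hy', div_self (pow_ne_zero _ hy0)]
    haveI : NeZero n := ⟨hn⟩
    obtain ⟨i, -, hi⟩ := hζ'.eq_pow_of_pow_eq_one hx1
    have : x = (ζ : Om) ^ i * y := by rw [hi, div_mul_cancel₀ _ hy0]
    rw [this]
    exact mul_mem (pow_mem ζ.2 _) y.2

theorem sv_isSolvablyClosed : IsSolvablyClosed Sv := by
  apply Step2x924.isSolvablyClosed_of_roots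
  · intro n hn
    haveI : NeZero n := ⟨hn⟩
    haveI : NeZero (n : Om) := ⟨by exact_mod_cast hn⟩
    obtain ⟨ζ, hζ⟩ := HasEnoughRootsOfUnity.exists_primitiveRoot Om n
    have hmem : ζ ∈ Sv := by
      apply root_mem_Sv hn
      rw [hζ.pow_eq_one]; exact one_mem _
    exact ⟨⟨ζ, hmem⟩, (IsPrimitiveRoot.coe_submonoidClass_iff (M := Om)
      (ζ := (⟨ζ, hmem⟩ : Sv))).1 hζ⟩
  · intro n hn a
    obtain ⟨y, hy⟩ := IsAlgClosed.exists_pow_nat_eq (a : Om) (Nat.pos_of_ne_zero hn)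
    exact ⟨⟨y, root_mem_Sv hn (by rw [hy]; exact a.2)⟩, Subtype.ext hy⟩

theorem coe_res (g : BB) (x : Sv) : ((res g x : Sv) : Om) = g (x : Om) :=
  AlgEquiv.restrictNormal_commutes g Sv x

/-- an embedding of `Sv` in `Om` is an automorphism of `Sv` -/
theorem exists_aut (e : Sv →+* Om) : ∃ t : SG, ∀ x : Sv, ((t x : Sv) : Om) = e x := by
  let f : Sv →ₐ[ℚ] Om := e.toRatAlgHom
  refine ⟨(AlgHom.restrictNormal' f Sv), fun x => ?_⟩
  exact AlgHom.restrictNormal_commutes f Sv x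

theorem ft_of_embedding (D : Dat)
    (h : ∃ t : Sv →+* Om, ∀ (g : D.G) (x : Sv), (g : BB) (t x) = t (D.α g x)) : FT D := by
  obtain ⟨e, he⟩ := h
  obtain ⟨t, ht⟩ := exists_aut e
  refine ⟨t, fun g => ?_⟩
  apply AlgEquiv.ext
  intro x
  have h1 : res (g : BB) (t x) = t (D.α g x) := by
    apply Subtype.ext
    rw [coe_res, ht, ht]
    exact he g x
  rw [AlgEquiv.mul_apply, AlgEquiv.mul_apply, h1, ← AlgEquiv.mul_apply, inv_mul_cancel,
    AlgEquiv.one_apply]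

theorem embedding_of_ft (D : Dat) (h : FT D) :
    ∃ t : Sv →+* Om, ∀ (g : D.G) (x : Sv), (g : BB) (t x) = t (D.α g x) := by
  obtain ⟨t, ht⟩ := h
  refine ⟨(algebraMap Sv Om).comp (t : Sv →+* Sv), fun g x => ?_⟩
  change (g : BB) ((t x : Sv) : Om) = ((t (D.α g x) : Sv) : Om)
  rw [← coe_res, ht g, AlgEquiv.mul_apply, AlgEquiv.mul_apply, ← AlgEquiv.mul_apply t,
    mul_inv_cancel, AlgEquiv.one_apply]

theorem cycFT_of_locT (hloc : LocT) : CycFT := by
  intro D hcyc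
  apply ft_of_embedding
  refine FTSubx925.ft_of_cyc_sub sv_isSolvablyClosed D.G D.isOpen_G D.α D.cont {2} ?_ ?_
  · intro l hl hl2 s a hs ζ hζ
    have h1 := hcyc l hl (by simpa using hl2) s 1 ζ (by rwa [pow_one])
    apply Subtype.ext
    rw [h1, hs (ζ : Om) (by
      have := congrArg (algebraMap Sv Om) hζ
      simpa using this)]
    rfl
  · rintro r hr hr2 P hP ⟨s, hs, N, hN, hNo, hn⟩
    obtain ⟨Q, hQ, -⟩ := hloc D r hr hr2 P ⟨hP, s, hs, N, hN, hNo, hn⟩
    exact ⟨Q, hQ⟩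

end Crest.Agent.R018.CycFTx925
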