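import Crest.Agent.R018.DegThm_614
import Crest.Agent.R018.Core_74
import Crest.Agent.R018.RedA_49

/-!
# Row 18: `Deg1Thm` of the frozen interface (helper614)
-/

set_option autoImplicit false

noncomputable section

open NumberField Module IsDedekindDomain
open scoped Pointwise
open Crest.Agent.R018.Placesx484 Crest.Agent.R018.Placesx484.Place
  Crest.Agent.R018.WaldNFx614 Crest.Agent.R018.Corex74
open Crest.Agent.R018.EndDefx924 (Om)

namespace Crest.Agent.R018.Deg1Holdsx614

/-- almost all primes are unramified -/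
theorem exists_unram (F : Type*) [Field F] [NumberField F] :
    ∃ N : ℕ, ∀ p : ℕ, p.Prime → N < p → ∀ P : Ideal (𝓞 F), P.IsPrime → (p : 𝓞 F) ∈ P →
      (p : 𝓞 F) ∉ P ^ 2 := by
  refine ⟨(discr F).natAbs, fun p hp hN P hP hmem hmem2 => ?_⟩
  have hpI : Prime (p : ℤ) := Nat.prime_iff_prime_int.mp hp
  have hnd : ¬ (p : ℤ) ∣ discr F := by
    intro hd
    have h1 := Int.natAbs_dvd_natAbs.mpr hd
    rw [Int.natAbs_natCast] at h1
    exact absurd (Nat.le_of_dvd (Int.natAbs_pos.mpr (discr_ne_zero F)) h1) (not_le.mpr hN)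
  have hur := (NumberField.not_dvd_discr_iff_forall_mem F (𝓞 F) hpI).mp hnd P hP
    (by simpa using hmem)
  have h1 : P.ramificationIdx ℤ = 1 := Ideal.ramificationIdx_eq_one P ℤ
  have hlies : P.LiesOver (Ideal.span {(p : ℤ)}) :=
    (Ideal.liesOver_span_iff hP.ne_top hpI).mpr (by simpa using hmem)
  have hmap : (Ideal.span {(p : ℤ)}).map (algebraMap ℤ (𝓞 F)) = Ideal.span {(p : 𝓞 F)} := by
    rw [Ideal.map_span, Set.image_singleton]
    simp
  have hp0 : (p : 𝓞 F) ≠ 0 := by exact_mod_cast hp.ne_zero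
  have hne : (Ideal.span {(p : ℤ)}).map (algebraMap ℤ (𝓞 F)) ≠ ⊥ := by
    rw [hmap, Ne, Ideal.span_singleton_eq_bot]
    exact hp0
  have h2 := Ideal.IsDedekindDomain.ramificationIdx_eq_multiplicity (Ideal.span {(p : ℤ)}) P hne
  rw [h1] at h2
  have h3 : P ^ 2 ∣ (Ideal.span {(p : ℤ)}).map (algebraMap ℤ (𝓞 F)) := by
    rw [hmap, Ideal.dvd_span_singleton]
    exact hmem2
  have hfin : FiniteMultiplicity P ((Ideal.span {(p : ℤ)}).map (algebraMap ℤ (𝓞 F))) := by
    apply FiniteMultiplicity.of_prime_left _ hne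
    apply Ideal.prime_of_isPrime _ hP
    rintro rfl
    exact hp0 (by simpa using hmem)
  have h4 := hfin.le_multiplicity_of_pow_dvd h3
  omega

/-- A finite field in which `x ^ p = x` has at most `p` elements. -/
theorem card_eq_of_frob {k : Type*} [Field k] [Finite k] {p : ℕ} [hp : Fact p.Prime] [CharP k p]
    (h : ∀ x : k, x ^ p = x) : Nat.card k = p := by
  have hbij : Function.Bijective (ZMod.castHom (dvd_refl p) k) := by
    refine ⟨(ZMod.castHom (dvd_refl p) k).injective, fun x => ?_⟩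
    obtain ⟨n, hn⟩ := EndAx924.eq_intCast_of_pow (h x)
    exact ⟨(n : ZMod p), by rw [hn]; simp⟩
  rw [← Nat.card_congr (Equiv.ofBijective _ hbij), Nat.card_zmod]

/-- The prime of `F` below `P` has degree one if a `p`-Frobenius at `P` fixes `F`. -/
theorem absNorm_of_frob (F : IntermediateField ℚ Om) [NumberField F]
    (P : Place Om) (σ : BB) (hσF : ∀ x : F, σ (x : Om) = x) (hσ : Act P σ P.rchar) :
    Ideal.absNorm (P.res F).ideal = P.rchar := by
  have hmax : (P.res F).ideal.IsMaximal := (P.res F).isMaximal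
  let _ := Ideal.Quotient.field (P.res F).ideal
  have hfin : Finite (𝓞 F ⧸ (P.res F).ideal) := Place.finite_residue (P.res F)
  have hp : Fact P.rchar.Prime := ⟨P.rchar_prime⟩
  have hchar : CharP (𝓞 F ⧸ (P.res F).ideal) P.rchar := by
    constructor
    intro x
    rw [← rchar_res F P, ← natCast_mem_iff, ← map_natCast (Ideal.Quotient.mk (P.res F).ideal),
      Ideal.Quotient.eq_zero_iff_mem]
  rw [Ideal.absNorm_apply, Submodule.cardQuot_apply]
  refine card_eq_of_frob (fun x => ?_)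
  obtain ⟨y, rfl⟩ := Ideal.Quotient.mk_surjective x
  rw [← map_pow, Ideal.Quotient.eq, mem_res]
  have h1 := hσ (algebraMap (𝓞 F) (𝓞 Om) y)
  have h2 : σ • (algebraMap (𝓞 F) (𝓞 Om) y) = algebraMap (𝓞 F) (𝓞 Om) y := by
    apply NumberField.RingOfIntegers.coe_injective
    have h3 : algebraMap (𝓞 Om) Om (σ • algebraMap (𝓞 F) (𝓞 Om) y) =
        σ (algebraMap (𝓞 Om) Om (algebraMap (𝓞 F) (𝓞 Om) y)) := algebraMap.smul' _ _ Om
    rw [h3]
    exact hσF (y : F)
  rw [h2] at h1
  rw [map_sub, map_pow]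
  have h4 := (P.ideal).neg_mem h1
  rwa [neg_sub] at h4

theorem deg1_of_frob (F : IntermediateField ℚ Om) [NumberField F] (N : ℕ)
    (hN : ∀ p : ℕ, p.Prime → N < p → ∀ P : Ideal (𝓞 F), P.IsPrime → (p : 𝓞 F) ∈ P →
      (p : 𝓞 F) ∉ P ^ 2)
    (P : Place Om) (hP : N < P.rchar) (σ : BB) (hσF : ∀ x : F, σ (x : Om) = x)
    (hσ : Act P σ P.rchar) :
    Deg1 (⟨(P.res F).ideal, (P.res F).isPrime, (P.res F).ne_bot⟩ : HeightOneSpectrum (𝓞 F))
      P.rchar where
  prime := P.rchar_prime
  absNorm := absNorm_of_frob F P σ hσF hσ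
  unram := by
    apply hN P.rchar P.rchar_prime hP _ (P.res F).isPrime
    have := (P.res F).rchar_mem
    rwa [rchar_res] at this

/-- **`Deg1Thm` holds.** -/
theorem deg1Thm_holds : Deg1Thm := by
  intro G hG l hl hl2 lam hlam h
  let F : IntermediateField ℚ Om := IntermediateField.fixedField G
  have hfix : F.fixingSubgroup = G :=
    InfiniteGalois.fixingSubgroup_fixedField (⟨G, Subgroup.isClosed_of_isOpen G hG⟩ :
      ClosedSubgroup BB)
  have hfd : FiniteDimensional ℚ F := (InfiniteGalois.isOpen_iff_finite F).1 (by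
    change IsOpen (F.fixingSubgroup : Set BB)
    rw [hfix]
    exact hG)
  have hFn : NumberField F := ⟨⟩
  have hgal : IsGalois F Om := IsGalois.tower_top_intermediateField F
  -- the restriction of scalars
  let ρ₀ : (Om ≃ₐ[F] Om) →* BB := AlgEquiv.restrictScalarsHom ℚ
  have hρ₀ : ∀ g, ρ₀ g ∈ G := by
    intro g
    rw [← hfix]
    intro x
    exact g.commutes x
  have hρ₀c : Continuous ρ₀ := by
    apply Redx49.continuous_of_eval
    intro x
    exact Redx49.eval_mem_nhds (K := F) x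
  let ρ : (Om ≃ₐ[F] Om) →* G := ρ₀.codRestrict G hρ₀
  have hρc : Continuous ρ := hρ₀c.subtype_mk _
  have hρs : ∀ s : G, ∃ g, ρ g = s := by
    intro s
    have hs : (s : BB) ∈ F.fixingSubgroup := by rw [hfix]; exact s.2
    exact ⟨IntermediateField.fixingSubgroupEquiv F ⟨s, hs⟩, rfl⟩
  obtain ⟨N, hN⟩ := exists_unram F
  have key : lam.comp ρ = 1 := by
    refine DegThmx614.deg_one hl2 (fun n => ?_) (lam.comp ρ) (hlam.comp hρc) (fun B => ?_)
    · have : NeZero (l ^ n) := ⟨pow_ne_zero _ hl.out.ne_zero⟩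
      exact HasEnoughRootsOfUnity.exists_primitiveRoot Om (l ^ n)
    · obtain ⟨P, σ, hB, hf, ⟨hσG, hσ⟩, hσ1⟩ := h (max B N)
      rw [hf, pow_one] at hσ
      obtain ⟨g, hg⟩ := hρs σ
      have hσF : ∀ x : F, (σ : BB) (x : Om) = x := by
        intro x
        have hs : (σ : BB) ∈ F.fixingSubgroup := by rw [hfix]; exact σ.2
        exact hs x
      refine ⟨P.rchar, _, P, g, (le_max_left _ _).trans_lt hB,
        deg1_of_frob F N hN P ((le_max_right _ _).trans_lt hB) σ hσF hσ, rfl, ?_, ?_⟩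
      · intro x
        have h1 := hσ x
        have h2 : g • x = (σ : BB) • x := by
          rw [← hg]
          rfl
        rw [h2]
        exact h1
      · rw [MonoidHom.comp_apply, hg]
        exact hσ1
  ext s
  obtain ⟨g, rfl⟩ := hρs s
  have := DFunLike.congr_fun key g
  simpa using this

end Crest.Agent.R018.Deg1Holdsx614
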