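import Mathlib

/-!
# Row 18: finite cyclic layers of a character with open kernel (helper614)
-/

set_option autoImplicit false

noncomputable section

open Module

namespace Crest.Agent.R018.DegAx614

section Layer

variable {F E : Type*} [Field F] [Field E] [Algebra F E] [IsGalois F E]

/-- The field cut out by a homomorphism with open kernel to a finite cyclic group. -/
theorem exists_layer {C : Type*} [CommGroup C] [IsCyclic C] [Finite C]
    (χ : (E ≃ₐ[F] E) →* C) (hχ : IsOpen (χ.ker : Set (E ≃ₐ[F] E))) :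
    ∃ L : IntermediateField F E, ∃ _ : FiniteDimensional F L, ∃ _ : IsGalois F L,
      L.fixingSubgroup = χ.ker ∧ finrank F L = Nat.card χ.range ∧
      ∃ σ : L ≃ₐ[F] L, ∀ τ, τ ∈ Subgroup.zpowers σ := by
  let H : ClosedSubgroup (E ≃ₐ[F] E) := ⟨χ.ker, Subgroup.isClosed_of_isOpen _ hχ⟩
  have hfix : (IntermediateField.fixedField χ.ker).fixingSubgroup = χ.ker :=
    InfiniteGalois.fixingSubgroup_fixedField H
  obtain ⟨hfd, hgal⟩ := (InfiniteGalois.isOpen_and_normal_iff_finite_and_isGalois
    (IntermediateField.fixedField χ.ker)).1 (by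
      constructor
      · change IsOpen ((IntermediateField.fixedField χ.ker).fixingSubgroup : Set (E ≃ₐ[F] E))
        rw [hfix]
        exact hχ
      · rw [hfix]
        infer_instance)
  refine ⟨IntermediateField.fixedField χ.ker, hfd, hgal, hfix, ?_, ?_⟩
  all_goals
    set L := IntermediateField.fixedField χ.ker with hL
    have hker : (AlgEquiv.restrictNormalHom (F := F) (K₁ := E) L).ker = χ.ker := by
      rw [IntermediateField.restrictNormalHom_ker, hfix]
    have hsurj : Function.Surjective (AlgEquiv.restrictNormalHom (F := F) (K₁ := E) L) :=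
      AlgEquiv.restrictNormalHom_surjective E
    let e1 : (E ≃ₐ[F] E) ⧸ χ.ker ≃* χ.range := QuotientGroup.quotientKerEquivRange χ
    let e2 : (E ≃ₐ[F] E) ⧸ (AlgEquiv.restrictNormalHom (F := F) (K₁ := E) L).ker ≃* (L ≃ₐ[F] L) :=
      QuotientGroup.quotientKerEquivOfSurjective _ hsurj
    let e3 : (E ≃ₐ[F] E) ⧸ (AlgEquiv.restrictNormalHom (F := F) (K₁ := E) L).ker ≃*
        (E ≃ₐ[F] E) ⧸ χ.ker := QuotientGroup.quotientMulEquivOfEq hker
    let e : (L ≃ₐ[F] L) ≃* χ.range := (e2.symm.trans e3).trans e1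
  · rw [← IsGalois.card_aut_eq_finrank]
    exact Nat.card_congr e.toEquiv
  · have hc : IsCyclic (L ≃ₐ[F] L) := isCyclic_of_surjective e.symm e.symm.surjective
    exact hc.exists_generator

end Layer

section Padic

variable {l : ℕ} [hl : Fact l.Prime] {G : Type*} [Group G] [TopologicalSpace G]

/-- reduction of a `ℤ_l`-valued character modulo `l ^ n` -/
def red (n : ℕ) (lam : G →* Multiplicative ℤ_[l]) : G →* Multiplicative (ZMod (l ^ n)) :=
  (AddMonoidHom.toMultiplicative (PadicInt.toZModPow n).toAddMonoidHom).comp lam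

omit [TopologicalSpace G] in
theorem red_eq_one_iff (n : ℕ) (lam : G →* Multiplicative ℤ_[l]) (g : G) :
    red n lam g = 1 ↔ ‖Multiplicative.toAdd (lam g)‖ ≤ (l : ℝ) ^ (-n : ℤ) := by
  have h1 : red n lam g = 1 ↔ PadicInt.toZModPow n (Multiplicative.toAdd (lam g)) = 0 := by
    rfl
  rw [h1, PadicInt.norm_le_pow_iff_mem_span_pow, ← PadicInt.ker_toZModPow, RingHom.mem_ker]

theorem isOpen_ker_red (n : ℕ) (lam : G →* Multiplicative ℤ_[l]) (hlam : Continuous lam) :
    IsOpen ((red n lam).ker : Set G) := by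
  have h1 : ((red n lam).ker : Set G) =
      (fun g => Multiplicative.toAdd (lam g)) ⁻¹' (Metric.closedBall (0 : ℤ_[l]) ((l : ℝ) ^ (-n : ℤ))) := by
    ext g
    simp only [SetLike.mem_coe, MonoidHom.mem_ker, Set.mem_preimage, Metric.mem_closedBall,
      dist_zero_right]
    exact red_eq_one_iff n lam g
  rw [h1]
  have hl0 : (l : ℝ) ^ (-n : ℤ) ≠ 0 := zpow_ne_zero _ (by exact_mod_cast hl.out.ne_zero)
  exact (IsUltrametricDist.isOpen_closedBall (0 : ℤ_[l]) hl0).preimage
    (continuous_toAdd.comp hlam)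

omit [TopologicalSpace G] in
/-- if `lam g ≠ 1`, the order of the reductions tends to infinity -/
theorem card_range_red (lam : G →* Multiplicative ℤ_[l]) (g : G) (hg : lam g ≠ 1) (C : ℕ) :
    ∃ n : ℕ, C < Nat.card (red n lam).range := by
  set x : ℤ_[l] := Multiplicative.toAdd (lam g) with hx
  have hx0 : x ≠ 0 := fun h => hg (by
    have : lam g = Multiplicative.ofAdd x := rfl
    rw [this, h]; rfl)
  have hlim : Filter.Tendsto (fun n : ℕ => (l : ℝ) ^ (-n : ℤ)) Filter.atTop (nhds 0) := by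
    have h1 : (fun n : ℕ => (l : ℝ) ^ (-n : ℤ)) = fun n : ℕ => ((l : ℝ)⁻¹) ^ n := by
      funext n
      rw [zpow_neg, zpow_natCast, inv_pow]
    rw [h1]
    apply tendsto_pow_atTop_nhds_zero_of_lt_one
    · positivity
    · exact inv_lt_one_of_one_lt₀ (by exact_mod_cast hl.out.one_lt)
  have hev : ∀ᶠ n : ℕ in Filter.atTop, ∀ k ∈ Finset.range C,
      (l : ℝ) ^ (-n : ℤ) < ‖((k + 1 : ℕ) : ℤ_[l]) * x‖ := by
    rw [Filter.eventually_all_finset]
    intro k _
    have hpos : 0 < ‖((k + 1 : ℕ) : ℤ_[l]) * x‖ := by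
      rw [norm_pos_iff]
      exact mul_ne_zero (by exact_mod_cast Nat.succ_ne_zero k) hx0
    exact hlim.eventually_lt_const hpos
  obtain ⟨n, hn⟩ := hev.exists
  refine ⟨n, ?_⟩
  have hne : ∀ i j : ℕ, i < j → j ≤ C → red n lam (g ^ i) ≠ red n lam (g ^ j) := by
    intro i j hij hj h
    have h1 : red n lam (g ^ (j - i)) = 1 := by
      have h2 : g ^ j = g ^ (j - i) * g ^ i := by rw [← pow_add]; congr 1; omega
      rw [h2, map_mul] at h
      exact (mul_eq_right.1 h.symm)
    rw [red_eq_one_iff, map_pow, toAdd_pow, ← hx, nsmul_eq_mul] at h1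
    have h3 := hn (j - i - 1) (Finset.mem_range.2 (by omega))
    rw [show j - i - 1 + 1 = j - i by omega] at h3
    exact absurd h1 (not_le.2 h3)
  have hinj : Function.Injective (fun i : Fin (C + 1) =>
      (⟨red n lam (g ^ (i : ℕ)), ⟨_, rfl⟩⟩ : (red n lam).range)) := by
    intro i j h
    have h' : red n lam (g ^ (i : ℕ)) = red n lam (g ^ (j : ℕ)) := congrArg Subtype.val h
    rcases lt_trichotomy (i : ℕ) (j : ℕ) with h1 | h1 | h1
    · exact absurd h' (hne _ _ h1 (by omega))
    · exact Fin.ext h1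
    · exact absurd h'.symm (hne _ _ h1 (by omega))
  have : NeZero (l ^ n) := ⟨pow_ne_zero _ hl.out.ne_zero⟩
  have : Finite (Multiplicative (ZMod (l ^ n))) := inferInstance
  have := Nat.card_le_card_of_injective _ hinj
  rw [Nat.card_eq_fintype_card, Fintype.card_fin] at this
  exact this

omit [TopologicalSpace G] in
/-- the image of the reduction has `l`-power order -/
theorem card_range_red_dvd (lam : G →* Multiplicative ℤ_[l]) (n : ℕ) :
    Nat.card (red n lam).range ∣ l ^ n := by
  have h1 := Subgroup.card_subgroup_dvd_card (red n lam).range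
  have h2 : Nat.card (Multiplicative (ZMod (l ^ n))) = l ^ n := by
    rw [Nat.card_congr Multiplicative.toAdd, Nat.card_zmod]
  rwa [h2] at h1

omit [TopologicalSpace G] in
/-- a character killed by a nonzero integer, at `g`, is trivial at `g` -/
theorem eq_one_of_pow (lam : G →* Multiplicative ℤ_[l]) (g : G) (k : ℕ) (hk : k ≠ 0)
    (h : ∀ n : ℕ, red n lam g ^ k = 1) : lam g = 1 := by
  by_contra hg
  set x : ℤ_[l] := Multiplicative.toAdd (lam g) with hx
  have hx0 : x ≠ 0 := fun h => hg (by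
    have : lam g = Multiplicative.ofAdd x := rfl
    rw [this, h]; rfl)
  have h1 : ∀ n : ℕ, ‖(k : ℤ_[l]) * x‖ ≤ (l : ℝ) ^ (-n : ℤ) := by
    intro n
    have h2 := h n
    rw [← map_pow, red_eq_one_iff, map_pow, toAdd_pow, ← hx, nsmul_eq_mul] at h2
    exact h2
  have hlim : Filter.Tendsto (fun n : ℕ => (l : ℝ) ^ (-n : ℤ)) Filter.atTop (nhds 0) := by
    have h1 : (fun n : ℕ => (l : ℝ) ^ (-n : ℤ)) = fun n : ℕ => ((l : ℝ)⁻¹) ^ n := by
      funext n
      rw [zpow_neg, zpow_natCast, inv_pow]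
    rw [h1]
    apply tendsto_pow_atTop_nhds_zero_of_lt_one
    · positivity
    · exact inv_lt_one_of_one_lt₀ (by exact_mod_cast hl.out.one_lt)
  have h3 : ‖(k : ℤ_[l]) * x‖ ≤ 0 := ge_of_tendsto' hlim h1
  have h4 : (k : ℤ_[l]) * x = 0 := norm_le_zero_iff.1 h3
  exact mul_ne_zero (by exact_mod_cast hk) hx0 h4

end Padic

end Crest.Agent.R018.DegAx614
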