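import Crest.Agent.R018.DegA_614
import Crest.Agent.R018.Places3_484
import Crest.Agent.R018.TameP_31
import Crest.Agent.R018.TameC_31
import Crest.Agent.R018.FrobElem_389

/-!
# Row 18: `ℤ_l`-valued characters are unramified outside `l`; decomposition groups in the layers
(helper614)
-/

set_option autoImplicit false

noncomputable section

open NumberField Module
open scoped Pointwise
open Crest.Agent.R018.Placesx484 Crest.Agent.R018.Placesx484.Place Crest.Agent.R018.Tamex31
  Crest.Agent.R018.DegAx614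

namespace Crest.Agent.R018.DegBx614

theorem isAlgebraic_rat (F E : Type*) [Field F] [NumberField F] [Field E] [Algebra F E]
    [IsGalois F E] [CharZero E] : Algebra.IsAlgebraic ℚ E := Algebra.IsAlgebraic.trans ℚ F E

variable {F E : Type*} [Field F] [NumberField F] [Field E] [Algebra F E] [IsGalois F E]
  [CharZero E] {l : ℕ} [hl : Fact l.Prime]

/-- A continuous `ℤ_l`-valued character is trivial on the inertia groups outside `l`. -/
theorem inertia_trivial (hE : ∀ n : ℕ, ∃ ζ : E, IsPrimitiveRoot ζ (l ^ n))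
    (lam : (E ≃ₐ[F] E) →* Multiplicative ℤ_[l]) (hlam : Continuous lam) (P : Place E)
    (hP : P.rchar ≠ l) (x : E ≃ₐ[F] E) (hx : x ∈ P.ideal.inertia (E ≃ₐ[F] E)) : lam x = 1 := by
  have hE' := isAlgebraic_rat F E
  obtain ⟨φ, hφP, hφ⟩ := exists_frob (F := F) P
  obtain ⟨k, hk, hq⟩ := exists_qv_eq (F := F) P
  have hq1 : 1 < P.qv F := by
    rw [hq]
    exact Nat.one_lt_pow hk.ne' P.rchar_prime.one_lt
  refine eq_one_of_pow lam x (P.qv F - 1) (by omega) (fun n => ?_)
  obtain ⟨ζ, hζ⟩ := hE n
  have hdvd : ¬ P.rchar ∣ l ^ n := fun h =>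
    hP ((Nat.prime_dvd_prime_iff_eq P.rchar_prime hl.out).1 (P.rchar_prime.dvd_of_dvd_pow h))
  have hc : φ ζ = ζ ^ (P.qv F) := frob_root P hφ hdvd hζ.pow_eq_one
  have : NeZero (l ^ n) := ⟨pow_ne_zero _ hl.out.ne_zero⟩
  have hfin : Finite (Multiplicative (ZMod (l ^ n))) := inferInstance
  let V := inS F P.val
  let π : V →* Multiplicative (ZMod (l ^ n)) := (red n lam).comp V.subtype
  have hopen : OpenKer π := by
    have h1 := isOpen_ker_red n lam hlam
    obtain ⟨L, hLfin, hLsub⟩ := (krullTopology_mem_nhds_one_iff F E _).mp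
      (h1.mem_nhds (one_mem (red n lam).ker))
    refine ⟨L, hLfin, fun u hu => ?_⟩
    have h2 : (u : E ≃ₐ[F] E) ∈ (L.fixingSubgroup : Set (E ≃ₐ[F] E)) := by
      intro x
      exact hu x x.2
    exact hLsub h2
  have hcard : Nat.card (Multiplicative (ZMod (l ^ n))) ∣ l ^ n := by
    rw [Nat.card_congr Multiplicative.toAdd, Nat.card_zmod]
  have hs : φ ∈ decS F P.val := (mem_decS_val P φ).2 hφP
  have hxV : x ∈ V := (mem_inS_val P x).2 hx
  have key := conj_eq_pow (V := V) le_rfl (val_natCast_eq_one P hdvd) hζ hcard π hopen hs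
    (fun y hy => conj_mem_inS hs hy) hc ⟨x, hxV⟩
  have h1 : π ⟨φ * x * φ⁻¹, conj_mem_inS hs hxV⟩ = red n lam x := by
    change red n lam (φ * x * φ⁻¹) = _
    rw [map_mul, map_mul, map_inv, mul_comm (red n lam φ), mul_assoc, mul_inv_cancel, mul_one]
  have h2 : red n lam x = red n lam x ^ (P.qv F) := by
    rw [← h1]
    exact key.trans (by rw [h1]; rfl)
  have h3 : red n lam x ^ (P.qv F - 1) * red n lam x = 1 * red n lam x := by
    rw [← pow_succ, one_mul, show P.qv F - 1 + 1 = P.qv F by omega]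
    exact h2.symm
  exact mul_right_cancel h3

section Layer

variable (hE : ∀ n : ℕ, ∃ ζ : E, IsPrimitiveRoot ζ (l ^ n))
  (lam : (E ≃ₐ[F] E) →* Multiplicative ℤ_[l]) (hlam : Continuous lam) (n : ℕ)
  (L : IntermediateField F E) [FiniteDimensional F L] [IsGalois F L]
  (hL : L.fixingSubgroup = (red n lam).ker)

include hL in
/-- an automorphism in the kernel of `lam` restricts to the identity -/
theorem restrict_eq_one (s : E ≃ₐ[F] E) (hs : lam s = 1) (x : L) : s (x : E) = x := by
  have h1 : s ∈ L.fixingSubgroup := by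
    rw [hL, MonoidHom.mem_ker]
    change (AddMonoidHom.toMultiplicative (PadicInt.toZModPow n).toAddMonoidHom) (lam s) = 1
    rw [hs, map_one]
  exact h1 x

include hE hlam hL in
/-- the inertia groups outside `l` are trivial in the layers -/
theorem inertia_layer [NumberField L] (P : Place E) (hP : P.rchar ≠ l) (σ : L ≃ₐ[F] L)
    (hσ : σ ∈ (P.res L).ideal.inertia (L ≃ₐ[F] L)) : σ = 1 := by
  obtain ⟨τ, hτ, hτσ⟩ := exists_inertia_lift P σ hσ
  have h1 := inertia_trivial hE lam hlam P hP τ hτ
  ext x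
  have h2 := restrict_eq_one lam n L hL τ h1 x
  have h3 := hτσ x
  rw [IntermediateField.algebraMap_apply, IntermediateField.algebraMap_apply, h2] at h3
  rw [AlgEquiv.one_apply]
  exact h3.symm

end Layer

end Crest.Agent.R018.DegBx614
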