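import Mathlib

/-!
# Row 18: number of ideals of given norm (helper796)

* `aK K n` : number of ideals of `𝓞 K` of norm `n`
* `aK_mul` : multiplicativity for coprime arguments
* `aK_pow_le` : `aK K (p ^ e) ≤ (e + 1) ^ d`
-/

set_option autoImplicit false

open NumberField Ideal

namespace Crest.Agent.R018.DegOnex796

variable (K : Type*) [Field K] [NumberField K]

/-- number of integral ideals of norm `n` -/
noncomputable def aK (n : ℕ) : ℕ := Nat.card {I : Ideal (𝓞 K) // absNorm I = n}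

theorem aK_one : aK K 1 = 1 := by
  unfold aK
  rw [Nat.card_eq_one_iff_unique]
  refine ⟨⟨fun a b => ?_⟩, ⟨⟨⊤, absNorm_top⟩⟩⟩
  apply Subtype.ext
  rw [absNorm_eq_one_iff.mp a.2, absNorm_eq_one_iff.mp b.2]

variable {K}

omit [NumberField K] in
theorem key_mul {m n : ℕ} (hmn : m.Coprime n) (I : Ideal (𝓞 K)) (hI : ((m * n : ℕ) : 𝓞 K) ∈ I) :
    (I ⊔ span {(m : 𝓞 K)}) * (I ⊔ span {(n : 𝓞 K)}) = I := by
  apply le_antisymm
  · rw [Ideal.mul_le]
    intro r hr s hs
    rw [Submodule.mem_sup] at hr hs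
    obtain ⟨a, ha, b, hb, rfl⟩ := hr
    obtain ⟨c, hc, d, hd, rfl⟩ := hs
    rw [mem_span_singleton] at hb hd
    obtain ⟨b, rfl⟩ := hb
    obtain ⟨d, rfl⟩ := hd
    have h1 : (m : 𝓞 K) * b * ((n : 𝓞 K) * d) = b * d * ((m * n : ℕ) : 𝓞 K) := by
      push_cast; ring
    have e : (a + (m : 𝓞 K) * b) * (c + (n : 𝓞 K) * d)
        = (c + (n : 𝓞 K) * d) * a + ((m : 𝓞 K) * b) * c + b * d * ((m * n : ℕ) : 𝓞 K) := by
      push_cast; ring
    rw [e]
    exact I.add_mem (I.add_mem (I.mul_mem_left _ ha) (I.mul_mem_left _ hc)) (I.mul_mem_left _ hI)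
  · intro x hx
    have hb : (IsCoprime (m : ℤ) (n : ℤ)) := Nat.isCoprime_iff_coprime.mpr hmn
    obtain ⟨u, v, huv⟩ := hb
    have e : x = (m : 𝓞 K) * ((u : 𝓞 K) * x) + x * ((v : 𝓞 K) * (n : 𝓞 K)) := by
      have : ((u * m + v * n : ℤ) : 𝓞 K) = 1 := by rw [huv]; simp
      push_cast at this
      calc x = x * ((u : 𝓞 K) * m + v * n) := by rw [this, mul_one]
        _ = _ := by ring
    rw [e]
    refine Ideal.add_mem _ ?_ ?_
    · exact Ideal.mul_mem_mul (Ideal.mem_sup_right (mem_span_singleton_self _))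
        (Ideal.mem_sup_left (I.mul_mem_left _ hx))
    · exact Ideal.mul_mem_mul (Ideal.mem_sup_left hx)
        (Ideal.mem_sup_right (Ideal.mul_mem_left _ _ (mem_span_singleton_self _)))

omit [NumberField K] in
theorem key_inj {m n : ℕ} (hmn : m.Coprime n) (J J' : Ideal (𝓞 K))
    (hJ : (m : 𝓞 K) ∈ J) (hJ' : (n : 𝓞 K) ∈ J') :
    (J * J') ⊔ span {(m : 𝓞 K)} = J := by
  apply le_antisymm
  · refine sup_le Ideal.mul_le_left ?_
    rw [span_singleton_le_iff_mem]; exact hJ
  · intro x hx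
    have hb : (IsCoprime (m : ℤ) (n : ℤ)) := Nat.isCoprime_iff_coprime.mpr hmn
    obtain ⟨u, v, huv⟩ := hb
    have e : x = x * ((v : 𝓞 K) * (n : 𝓞 K)) + (x * u) * (m : 𝓞 K) := by
      have : ((u * m + v * n : ℤ) : 𝓞 K) = 1 := by rw [huv]; simp
      push_cast at this
      calc x = x * ((u : 𝓞 K) * m + v * n) := by rw [this, mul_one]
        _ = _ := by ring
    rw [e]
    refine Ideal.add_mem _ ?_ ?_
    · exact Ideal.mem_sup_left (Ideal.mul_mem_mul hx (J'.mul_mem_left _ hJ'))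
    · exact Ideal.mem_sup_right (Ideal.mul_mem_left _ _ (mem_span_singleton_self _))

theorem norm_sup_dvd (m : ℕ) (I : Ideal (𝓞 K)) :
    absNorm (I ⊔ span {(m : 𝓞 K)}) ∣ m ^ Module.finrank ℤ (𝓞 K) := by
  rw [← absNorm_span_natCast]
  exact absNorm_dvd_absNorm_of_le le_sup_right

variable (K)

theorem aK_mul {m n : ℕ} (hmn : m.Coprime n) : aK K (m * n) = aK K m * aK K n := by
  unfold aK
  rw [← Nat.card_prod]
  have key : ∀ I : Ideal (𝓞 K), absNorm I = m * n →
      absNorm (I ⊔ span {(m : 𝓞 K)}) = m ∧ absNorm (I ⊔ span {(n : 𝓞 K)}) = n := by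
    intro I hI
    have hmem : ((m * n : ℕ) : 𝓞 K) ∈ I := by rw [← hI]; exact absNorm_mem I
    have h1 := congrArg absNorm (key_mul hmn I hmem)
    rw [map_mul, hI] at h1
    have h2 := norm_sup_dvd m I
    have h3 := norm_sup_dvd n I
    set x := absNorm (I ⊔ span {(m : 𝓞 K)})
    set y := absNorm (I ⊔ span {(n : 𝓞 K)})
    set d := Module.finrank ℤ (𝓞 K)
    have cx : x.Coprime n := Nat.Coprime.coprime_dvd_left h2 (Nat.Coprime.pow_left _ hmn)
    have cy : y.Coprime m := Nat.Coprime.coprime_dvd_left h3 (Nat.Coprime.pow_left _ hmn.symm)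
    have hx : x ∣ m := cx.dvd_of_dvd_mul_right (by rw [← h1]; exact dvd_mul_right x y)
    have hy : y ∣ n := cy.dvd_of_dvd_mul_left (by rw [← h1]; exact dvd_mul_left y x)
    have hx' : m ∣ x := cy.symm.dvd_of_dvd_mul_right (by rw [h1]; exact dvd_mul_right m n)
    have hy' : n ∣ y := cx.symm.dvd_of_dvd_mul_left (by rw [h1]; exact dvd_mul_left n m)
    exact ⟨Nat.dvd_antisymm hx hx', Nat.dvd_antisymm hy hy'⟩
  refine Nat.card_congr
    { toFun := fun I => (⟨I.1 ⊔ span {(m : 𝓞 K)}, (key I.1 I.2).1⟩,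
        ⟨I.1 ⊔ span {(n : 𝓞 K)}, (key I.1 I.2).2⟩)
      invFun := fun J => ⟨J.1.1 * J.2.1, by rw [map_mul, J.1.2, J.2.2]⟩
      left_inv := fun I => Subtype.ext (key_mul hmn I.1
        (by have := absNorm_mem I.1; rwa [I.2] at this))
      right_inv := fun J => ?_ }
  have h1 : (m : 𝓞 K) ∈ J.1.1 := by
    have := absNorm_mem J.1.1; rwa [J.1.2] at this
  have h2 : (n : 𝓞 K) ∈ J.2.1 := by
    have := absNorm_mem J.2.1; rwa [J.2.2] at this
  refine Prod.ext (Subtype.ext (key_inj hmn _ _ h1 h2)) (Subtype.ext ?_)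
  show J.1.1 * J.2.1 ⊔ span {(n : 𝓞 K)} = J.2.1
  rw [mul_comm]
  exact key_inj hmn.symm _ _ h2 h1

open UniqueFactorizationMonoid

variable {K}

theorem pow_card_le (p : ℕ) (hp : p.Prime) {I : Ideal (𝓞 K)} {e : ℕ} (hI : absNorm I = p ^ e) :
    p ^ (Multiset.card (normalizedFactors I)) ≤ p ^ e := by
  have hI0 : I ≠ 0 := by
    rintro rfl
    rw [map_zero] at hI
    exact absurd hI.symm (pow_ne_zero _ hp.ne_zero)
  have h1 : (normalizedFactors I).prod = I := by
    rw [prod_normalizedFactors_eq hI0, normalize_eq]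
  have h2 : ((normalizedFactors I).map absNorm).prod = p ^ e := by
    rw [← hI]; conv_rhs => rw [← h1]
    rw [map_multiset_prod]
  rw [← h2]
  have h3 : ∀ x ∈ (normalizedFactors I).map absNorm, p ≤ x := by
    intro x hx
    rw [Multiset.mem_map] at hx
    obtain ⟨P, hP, rfl⟩ := hx
    have hd : absNorm P ∣ p ^ e := by
      rw [← hI]; exact absNorm_dvd_absNorm_of_le (Ideal.dvd_iff_le.mp (dvd_of_mem_normalizedFactors hP))
    obtain ⟨k, -, hk⟩ := (Nat.dvd_prime_pow hp).mp hd
    have hk0 : k ≠ 0 := by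
      rintro rfl
      rw [pow_zero, absNorm_eq_one_iff] at hk
      have := (prime_of_normalized_factor P hP).not_isUnit
      rw [hk] at this
      exact this (by rw [← one_eq_top]; exact isUnit_one)
    rw [hk]
    exact Nat.le_self_pow hk0 p
  have h4 := Multiset.pow_card_le_prod (s := (normalizedFactors I).map absNorm) (a := p) h3
  rwa [Multiset.card_map] at h4

theorem card_fac_le (p : ℕ) (hp : p.Prime) {I : Ideal (𝓞 K)} {e : ℕ} (hI : absNorm I = p ^ e) :
    Multiset.card (normalizedFactors I) ≤ e :=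
  (Nat.pow_le_pow_iff_right hp.one_lt).mp (pow_card_le p hp hI)

variable (K)

theorem aK_pow_le (p : ℕ) (hp : p.Prime) (e : ℕ) :
    aK K (p ^ e) ≤ (e + 1) ^ (Module.finrank ℤ (𝓞 K)) := by
  classical
  set d := Module.finrank ℤ (𝓞 K)
  set M := normalizedFactors (span {(p : 𝓞 K)})
  have hM : Multiset.card M ≤ d := card_fac_le p hp (absNorm_span_natCast p)
  have hp0 : (span {(p : 𝓞 K)}) ≠ 0 := by
    intro h
    have := absNorm_span_natCast (S := 𝓞 K) p
    rw [h, map_zero] at this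
    exact absurd this.symm (pow_ne_zero _ hp.ne_zero)
  let Φ : {I : Ideal (𝓞 K) // absNorm I = p ^ e} → (M.toFinset → Fin (e + 1)) := fun I P =>
    ⟨Multiset.count P.1 (normalizedFactors I.1), Nat.lt_succ_of_le
      ((Multiset.count_le_card _ _).trans (card_fac_le p hp I.2))⟩
  have hmem : ∀ I : {I : Ideal (𝓞 K) // absNorm I = p ^ e}, ∀ P ∈ normalizedFactors I.1,
      P ∈ M.toFinset := by
    intro I P hP
    rw [Multiset.mem_toFinset]
    have hprime := prime_of_normalized_factor P hP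
    have hd : absNorm P ∣ p ^ e := by
      have := I.2
      rw [← this]
      exact absNorm_dvd_absNorm_of_le (Ideal.dvd_iff_le.mp (dvd_of_mem_normalizedFactors hP))
    obtain ⟨k, -, hk⟩ := (Nat.dvd_prime_pow hp).mp hd
    have h1 : ((p ^ k : ℕ) : 𝓞 K) ∈ P := by rw [← hk]; exact absNorm_mem P
    push_cast at h1
    have hPP : P.IsPrime := Ideal.isPrime_of_prime hprime
    have h2 : (p : 𝓞 K) ∈ P := hPP.mem_of_pow_mem k h1
    rw [UniqueFactorizationMonoid.mem_normalizedFactors_iff hp0]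
    refine ⟨hprime, ?_⟩
    rw [Ideal.dvd_iff_le, span_singleton_le_iff_mem]
    exact h2
  have hinj : Function.Injective Φ := by
    intro I J hIJ
    have hI0 : ∀ I : {I : Ideal (𝓞 K) // absNorm I = p ^ e}, I.1 ≠ 0 := by
      intro I h
      have := I.2
      rw [h, map_zero] at this
      exact absurd this.symm (pow_ne_zero _ hp.ne_zero)
    have h1 : ∀ I : {I : Ideal (𝓞 K) // absNorm I = p ^ e},
        (normalizedFactors I.1).prod = I.1 := fun I => by
      rw [prod_normalizedFactors_eq (hI0 I), normalize_eq]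
    apply Subtype.ext
    rw [← h1 I, ← h1 J]
    congr 1
    ext P
    by_cases hP : P ∈ M.toFinset
    · have := congrFun hIJ ⟨P, hP⟩
      simpa [Φ] using this
    · rw [Multiset.count_eq_zero_of_notMem fun h => hP (hmem I P h),
        Multiset.count_eq_zero_of_notMem fun h => hP (hmem J P h)]
  calc aK K (p ^ e) ≤ Nat.card (M.toFinset → Fin (e + 1)) :=
        Nat.card_le_card_of_injective Φ hinj
    _ = (e + 1) ^ M.toFinset.card := by
        rw [Nat.card_fun, Nat.card_eq_fintype_card, Nat.card_eq_fintype_card, Fintype.card_fin,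
          Fintype.card_coe]
    _ ≤ (e + 1) ^ d := Nat.pow_le_pow_right (Nat.succ_pos _) ((Multiset.toFinset_card_le M).trans hM)

end Crest.Agent.R018.DegOnex796
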