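import Crest.Agent.R018.DegOneA_796

/-!
# Row 18: sum over degree one primes (helper796), real Dirichlet series of the Dedekind zeta function
-/

set_option autoImplicit false

open NumberField Ideal Filter Topology

namespace Crest.Agent.R018.DegOnex796

variable (K : Type*) [Field K] [NumberField K]

/-- general term of the real Dirichlet series -/
noncomputable def fs (s : ℝ) (n : ℕ) : ℝ := if n = 0 then 0 else (aK K n : ℝ) * (n : ℝ) ^ (-s)

theorem fs_zero (s : ℝ) : fs K s 0 = 0 := if_pos rfl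

theorem fs_ne {n : ℕ} (hn : n ≠ 0) (s : ℝ) : fs K s n = (aK K n : ℝ) * (n : ℝ) ^ (-s) :=
  if_neg hn

theorem fs_one (s : ℝ) : fs K s 1 = 1 := by
  rw [fs_ne K one_ne_zero, aK_one]; simp

theorem fs_nonneg (s : ℝ) (n : ℕ) : 0 ≤ fs K s n := by
  unfold fs; split_ifs <;> positivity

theorem fs_mul (s : ℝ) {m n : ℕ} (h : m.Coprime n) : fs K s (m * n) = fs K s m * fs K s n := by
  by_cases hm : m = 0
  · subst hm; simp [fs_zero]
  by_cases hn : n = 0
  · subst hn; simp [fs_zero]
  rw [fs_ne K (mul_ne_zero hm hn), fs_ne K hm, fs_ne K hn, aK_mul K h]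
  push_cast
  rw [Real.mul_rpow (Nat.cast_nonneg _) (Nat.cast_nonneg _)]
  ring

theorem fs_anti {s t : ℝ} (h : s ≤ t) (n : ℕ) : fs K t n ≤ fs K s n := by
  unfold fs
  split_ifs with hn
  · exact le_rfl
  · apply mul_le_mul_of_nonneg_left _ (Nat.cast_nonneg _)
    apply Real.rpow_le_rpow_of_exponent_le
    · exact_mod_cast Nat.one_le_iff_ne_zero.mpr hn
    · linarith

theorem term_eq (s : ℝ) (n : ℕ) :
    LSeries.term (fun n ↦ ((Nat.card {I : Ideal (𝓞 K) // absNorm I = n} : ℕ) : ℂ)) (s : ℂ) n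
      = ((fs K s n : ℝ) : ℂ) := by
  unfold fs
  split_ifs with hn
  · subst hn; simp
  · rw [LSeries.term_of_ne_zero hn]
    rw [← Complex.ofReal_natCast n, ← Complex.ofReal_cpow (Nat.cast_nonneg _)]
    rw [Real.rpow_neg (Nat.cast_nonneg _)]
    push_cast
    rw [div_eq_mul_inv]
    rfl

theorem tendsto_sum_div :
    Tendsto (fun n : ℕ ↦ (∑ k ∈ Finset.Icc 1 n,
      ((Nat.card {I : Ideal (𝓞 K) // absNorm I = k} : ℕ) : ℝ)) / n) atTop
      (𝓝 (dedekindZeta_residue K)) := by
  refine ((Ideal.tendsto_norm_le_div_atTop₀ K).comp tendsto_natCast_atTop_atTop).congr fun n ↦ ?_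
  simp only [Function.comp_apply, Nat.cast_le, ← Nat.cast_sum]
  congr
  rw [← add_left_inj 1, ← card_norm_le_eq_card_norm_le_add_one,
    show Finset.Icc 1 n = Finset.Ioc 0 n from Finset.Icc_succ_left_eq_Ioc _ _,
    show 1 = Nat.card {I : Ideal (𝓞 K) // absNorm I = 0} by simp [Ideal.absNorm_eq_zero_iff],
    Finset.sum_Ioc_add_eq_sum_Icc (n.zero_le),
    ← Finset.card_preimage_eq_sum_card_image_eq (fun k _ ↦ finite_setOfPred_absNorm_eq k)]
  simp [Set.coe_eq_subtype]

theorem summable_fs {s : ℝ} (hs : 1 < s) : Summable (fs K s) := by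
  have h := LSeriesSummable_of_sum_norm_bigO_and_nonneg (s := (s : ℂ)) (r := 1)
    (f := fun n ↦ ((Nat.card {I : Ideal (𝓞 K) // absNorm I = n} : ℕ) : ℝ)) ?_
    (fun _ => Nat.cast_nonneg _) zero_le_one (by simpa using hs)
  · have h2 : Summable (fun n => ((fs K s n : ℝ) : ℂ)) := by
      refine h.congr fun n => ?_
      rw [← term_eq K s n]
      simp only [Complex.ofReal_natCast]
    exact_mod_cast h2
  · have h := (tendsto_sum_div K).isBigO_one ℝ
    have h2 := h.mul (Asymptotics.isBigO_refl (fun n : ℕ => (n : ℝ)) atTop)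
    refine (h2.congr' ?_ ?_)
    · filter_upwards [eventually_ne_atTop 0] with n hn
      have : (n : ℝ) ≠ 0 := Nat.cast_ne_zero.mpr hn
      field_simp
    · filter_upwards with n
      simp

/-- the Dedekind zeta function as a real function -/
noncomputable def Zr (s : ℝ) : ℝ := ∑' n, fs K s n

theorem dedekindZeta_eq (s : ℝ) : dedekindZeta K (s : ℂ) = ((Zr K s : ℝ) : ℂ) := by
  unfold dedekindZeta Zr LSeries
  rw [Complex.ofReal_tsum]
  exact tsum_congr fun n => term_eq K s n

theorem tendsto_Zr :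
    Tendsto (fun s : ℝ ↦ (s - 1) * Zr K s) (𝓝[>] 1) (𝓝 (dedekindZeta_residue K)) := by
  have h := tendsto_sub_one_mul_dedekindZeta_nhdsGT K
  simp_rw [dedekindZeta_eq] at h
  have h2 := (Complex.continuous_re.tendsto _).comp h
  refine Tendsto.congr (fun s => ?_) h2
  simp [Function.comp]

theorem one_le_Zr {s : ℝ} (hs : 1 < s) : 1 ≤ Zr K s := by
  have := (summable_fs K hs).le_tsum 1 (fun n _ => fs_nonneg K s n)
  rwa [fs_one] at this

theorem Zr_anti {s t : ℝ} (hs : 1 < s) (h : s ≤ t) : Zr K t ≤ Zr K s :=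
  (summable_fs K (hs.trans_le h)).tsum_le_tsum (fs_anti K h) (summable_fs K hs)

/-- `log ζ_K(s) - log (1/(s-1))` is bounded on `(1, 2]` -/
theorem log_Zr_bdd : ∃ C : ℝ, ∀ s : ℝ, 1 < s → s ≤ 2 →
    |Real.log (Zr K s) - Real.log (1 / (s - 1))| ≤ C := by
  set ρ := dedekindZeta_residue K
  have hρ : 0 < ρ := dedekindZeta_residue_pos K
  have h := tendsto_Zr K
  have h1 : ∀ᶠ s in 𝓝[>] (1 : ℝ), (s - 1) * Zr K s ∈ Set.Ioo (ρ / 2) (2 * ρ) :=
    h (Ioo_mem_nhds (by linarith) (by linarith))
  rw [eventually_nhdsWithin_iff] at h1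
  obtain ⟨δ, hδ, h2⟩ := Metric.eventually_nhds_iff.mp h1
  set δ' := min δ 1 / 2
  have hδ' : 0 < δ' := by
    have : 0 < min δ 1 := lt_min hδ one_pos
    positivity
  have hδδ : δ' < δ := by
    have : min δ 1 ≤ δ := min_le_left _ _
    have : 0 < min δ 1 := lt_min hδ one_pos
    show min δ 1 / 2 < δ
    linarith
  have hδ1 : δ' < 1 := by
    have : min δ 1 ≤ 1 := min_le_right _ _
    show min δ 1 / 2 < 1
    linarith
  set a := min (ρ / 2) δ'
  set b := max (2 * ρ) (Zr K (1 + δ'))
  have ha : 0 < a := lt_min (by positivity) hδ'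
  refine ⟨max |Real.log a| |Real.log b|, fun s hs1 hs2 => ?_⟩
  have hZ : 0 < Zr K s := lt_of_lt_of_le one_pos (one_le_Zr K hs1)
  have hs0 : 0 < s - 1 := by linarith
  have key : (s - 1) * Zr K s ∈ Set.Icc a b := by
    by_cases hc : s < 1 + δ'
    · have := h2 (y := s) (by rw [Real.dist_eq, abs_lt]; constructor <;> linarith) hs1
      exact ⟨(min_le_left _ _).trans this.1.le, this.2.le.trans (le_max_left _ _)⟩
    · push Not at hc
      constructor
      · refine (min_le_right _ _).trans ?_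
        calc δ' ≤ s - 1 := by linarith
          _ = (s - 1) * 1 := (mul_one _).symm
          _ ≤ _ := mul_le_mul_of_nonneg_left (one_le_Zr K hs1) hs0.le
      · refine le_trans ?_ (le_max_right _ _)
        calc (s - 1) * Zr K s ≤ 1 * Zr K s :=
              mul_le_mul_of_nonneg_right (by linarith) hZ.le
          _ = Zr K s := one_mul _
          _ ≤ _ := Zr_anti K (by linarith) hc
  have e : Real.log (Zr K s) - Real.log (1 / (s - 1)) = Real.log ((s - 1) * Zr K s) := by
    rw [one_div, Real.log_inv, Real.log_mul hs0.ne' hZ.ne']; ring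
  rw [e]
  have hb1 : Real.log a ≤ Real.log ((s - 1) * Zr K s) := Real.log_le_log ha key.1
  have hb2 : Real.log ((s - 1) * Zr K s) ≤ Real.log b := Real.log_le_log (by positivity) key.2
  rw [abs_le]
  constructor
  · have : -|Real.log a| ≤ Real.log a := neg_abs_le _
    have := le_max_left |Real.log a| |Real.log b|
    linarith
  · have : Real.log b ≤ |Real.log b| := le_abs_self _
    have := le_max_right |Real.log a| |Real.log b|
    linarith

end Crest.Agent.R018.DegOnex796
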