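import Crest.Agent.R018.LogE_575

/-!
# Row 18, LEMMA LOG, block E, part 2 (helper575): the purely group theoretic assembly
-/

set_option autoImplicit false

noncomputable section

namespace Crest.Agent.R018.LogAsmx575

open Crest.Agent.R018.LogDefsx575

variable {M : Type*} [CommGroup M]

/-- group theoretic assembly of LEMMA LOG (helper476's form).
`U = U_S(L)`, `R = L_(l)^*`, `V` the congruence subgroup, `KR = K_(l)^*`, `UK = U_S(K)`. -/
theorem assembly (f g : M →* M) (hgf : ∀ x, g (f x) = 1) (U R V KR UK : Subgroup M)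
    (hUR : U ≤ R) (hUf : U.map f ≤ U) (n c C : ℕ)
    (hB0 : h0 f g U ≠ 0) (hB : h1 f g U = n * h0 f g U)
    (hC : (U.map f).relIndex ((g.ker ⊓ U) ⊓ (R.map f ⊔ V)) ≤ c)
    (hD : (R.map f ⊔ V).relIndex (R ⊓ V.comap g) = (R.map g ⊔ V).relIndex (KR ⊔ V))
    (hD0 : (R.map f ⊔ V).relIndex (R ⊓ V.comap g) ≠ 0)
    (hK : f.ker ⊓ U = UK)
    (hE : (UK ⊔ V).relIndex KR ≤ C) (hE0 : (UK ⊔ V).relIndex KR ≠ 0) :
    n ≤ c * C := by
  set F := U.map f with hF
  set A := g.ker ⊓ U with hA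
  have hFA : F ≤ A := by
    rintro _ ⟨x, hx, rfl⟩
    exact ⟨hgf x, hUf ⟨x, hx, rfl⟩⟩
  have hFR : F ≤ R.map f ⊔ V := (Subgroup.map_mono hUR).trans le_sup_left
  have e1 : F.relIndex (A ⊓ (R.map f ⊔ V)) * (A ⊓ (R.map f ⊔ V)).relIndex A = F.relIndex A :=
    Subgroup.relIndex_mul_relIndex _ _ _ (le_inf hFA hFR) inf_le_left
  have e2 : (A ⊓ (R.map f ⊔ V)).relIndex A = (R.map f ⊔ V).relIndex A := by
    rw [inf_comm, Subgroup.inf_relIndex_right]
  have e3 : (R.map f ⊔ V).relIndex A ≤ (R.map f ⊔ V).relIndex (R ⊓ V.comap g) := by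
    refine Subgroup.relIndex_le_of_le_right ?_ hD0
    rintro x ⟨hx, hx'⟩
    refine ⟨hUR hx', ?_⟩
    have : g x = 1 := hx
    show g x ∈ V
    rw [this]; exact one_mem _
  set W := R.map g ⊔ V with hW
  have hVW : V ≤ W := le_sup_right
  -- the index of `W` in `KR ⊔ V`
  have e4 : W.relIndex (KR ⊔ V) ≤ h0 f g U * C := by
    have hK0 : (U.map g).relIndex UK ≠ 0 := by rw [← hK]; exact hB0
    have a1 : W.relIndex (UK ⊔ W) = W.relIndex UK := Subgroup.relIndex_sup_right _ _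
    have a2 : W.relIndex UK ≤ (U.map g).relIndex UK :=
      Subgroup.relIndex_le_of_le_left ((Subgroup.map_mono hUR).trans le_sup_left) hK0
    have a2' : W.relIndex UK ≠ 0 := fun h => hK0 (Subgroup.relIndex_eq_zero_of_le_left
      ((Subgroup.map_mono hUR).trans le_sup_left) h)
    have a3 : (UK ⊔ W).relIndex (KR ⊔ (UK ⊔ W)) = (UK ⊔ W).relIndex KR :=
      Subgroup.relIndex_sup_right _ _
    have a4 : (UK ⊔ W).relIndex KR ≤ (UK ⊔ V).relIndex KR :=
      Subgroup.relIndex_le_of_le_left (sup_le_sup_left hVW _) hE0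
    have a4' : (UK ⊔ W).relIndex KR ≠ 0 := fun h => hE0 (Subgroup.relIndex_eq_zero_of_le_left
      (sup_le_sup_left hVW _) h)
    have a5 : W.relIndex (UK ⊔ W) * (UK ⊔ W).relIndex (KR ⊔ (UK ⊔ W))
        = W.relIndex (KR ⊔ (UK ⊔ W)) :=
      Subgroup.relIndex_mul_relIndex _ _ _ le_sup_right le_sup_right
    have a6 : W.relIndex (KR ⊔ (UK ⊔ W)) ≠ 0 := by
      rw [← a5, a1, a3]; exact mul_ne_zero a2' a4'
    calc W.relIndex (KR ⊔ V) ≤ W.relIndex (KR ⊔ (UK ⊔ W)) :=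
          Subgroup.relIndex_le_of_le_right
            (sup_le_sup_left (hVW.trans le_sup_right) _) a6
      _ = W.relIndex UK * (UK ⊔ W).relIndex KR := by rw [← a5, a1, a3]
      _ ≤ (U.map g).relIndex UK * (UK ⊔ V).relIndex KR := Nat.mul_le_mul a2 a4
      _ ≤ h0 f g U * C := by
          have : h0 f g U = (U.map g).relIndex UK := by rw [← hK]; rfl
          rw [this]
          exact Nat.mul_le_mul_left _ hE
  have h5 : n * h0 f g U ≤ (c * C) * h0 f g U := by
    calc n * h0 f g U = h1 f g U := hB.symm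
      _ = F.relIndex (A ⊓ (R.map f ⊔ V)) * (R.map f ⊔ V).relIndex A := by
          rw [← e2, e1]; rfl
      _ ≤ c * (R.map f ⊔ V).relIndex (R ⊓ V.comap g) := Nat.mul_le_mul hC e3
      _ = c * W.relIndex (KR ⊔ V) := by rw [hD]
      _ ≤ c * (h0 f g U * C) := Nat.mul_le_mul_left _ e4
      _ = (c * C) * h0 f g U := by ring
  exact Nat.le_of_mul_le_mul_right h5 (Nat.pos_of_ne_zero hB0)

end Crest.Agent.R018.LogAsmx575
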