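import Crest.Agent.R018.LogG_575
import Crest.Agent.R018.LogAsm_575

/-!
# Row 18, LEMMA LOG, final assembly (helper575), conditional form
-/

set_option autoImplicit false
set_option linter.unusedSectionVars false

noncomputable section

open scoped NumberField
open IsDedekindDomain

namespace Crest.Agent.R018.LogFinx575

open Crest.Agent.R018.LogDefsx575 Crest.Agent.R018.LogEx575 Crest.Agent.R018.LogFx575
  Crest.Agent.R018.LogGx575

variable {K L : Type*} [Field K] [NumberField K] [Field L] [NumberField L] [Algebra K L]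

/-- conditional form of the bound: `hB` = block B, `hC` = kernel form of block C, `hD` = block D. -/
theorem bound_of [IsGalois K L] (σ : L ≃ₐ[K] L) (hσ : ∀ τ, τ ∈ Subgroup.zpowers σ)
    {l : ℕ} (hl : l.Prime) (hodd : l ≠ 2) {S : Set (HeightOneSpectrum (𝓞 K))}
    (hS : Disjoint S (PA K l)) {j : ℕ} (hj : 1 ≤ j) (hF : Full K l S j)
    (hB0 : h0 (sg K σ) (nm K L) ((ov L S).unit L) ≠ 0)
    (hB : h1 (sg K σ) (nm K L) ((ov L S).unit L) =
      Module.finrank K L * h0 (sg K σ) (nm K L) ((ov L S).unit L))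
    (V : Subgroup Lˣ) (hVk : ∃ k, (Uk K l k).map (inc K L) ≤ V)
    (c : ℕ)
    (hC : (((ov L S).unit L).map (sg K σ)).relIndex
      (((nm K L).ker ⊓ (ov L S).unit L) ⊓ ((Rl L l).map (sg K σ) ⊔ V)) ≤ c)
    (hD : ((Rl L l).map (sg K σ) ⊔ V).relIndex (Rl L l ⊓ V.comap (nm K L)) =
      ((Rl L l).map (nm K L) ⊔ V).relIndex ((Rl K l).map (inc K L) ⊔ V))
    (hD0 : ((Rl L l).map (sg K σ) ⊔ V).relIndex (Rl L l ⊓ V.comap (nm K L)) ≠ 0) :
    Module.finrank K L ≤ c * (Uk K l j).relIndex (Rl K l) := by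
  obtain ⟨k, hk⟩ := hVk
  have h0' : ((Uk K l j).map (inc K L)).relIndex ((Rl K l).map (inc K L))
      = (Uk K l j).relIndex (Rl K l) :=
    Subgroup.relIndex_map_map_of_injective _ _ inc_injective
  have h1' : (Uk K l j).map (inc K L) ≤ (S.unit K).map (inc K L) ⊔ V := by
    refine (Subgroup.map_mono (Uk_le hl hodd hS hj hF k)).trans ?_
    rw [Subgroup.map_sup]
    exact sup_le_sup_left hk _
  have h2' := relIndex_Uk_ne_zero (K := K) hl.ne_zero j
  refine Crest.Agent.R018.LogAsmx575.assembly (sg K σ) (nm K L) (nm_sg σ) ((ov L S).unit L)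
    (Rl L l) V ((Rl K l).map (inc K L)) ((S.unit K).map (inc K L)) ?_ (map_sg_le σ S) _ _ _ hB0 hB
    hC hD hD0 (ker_inf_unit σ hσ S) ?_ ?_
  · exact unit_le_Rl (ov_disjoint hS)
  · rw [← h0']
    exact Subgroup.relIndex_le_of_le_left h1' (by rw [h0']; exact h2')
  · intro h
    apply h2'
    rw [← h0']
    exact Subgroup.relIndex_eq_zero_of_le_left h1' h

/-- existence statement delivered by block D (for a given generator `σ` and prime `l`). -/
def BlockD' (K L : Type*) [Field K] [NumberField K] [Field L] [NumberField L] [Algebra K L] :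
    Prop :=
  ∀ (_ : IsGalois K L) (σ : L ≃ₐ[K] L) (_ : ∀ τ, τ ∈ Subgroup.zpowers σ)
    (l : ℕ) (_ : l.Prime), ∃ V : Subgroup Lˣ, V ≤ Rl L l ∧
      (∃ k, (Uk K l k).map (inc K L) ≤ V) ∧
      (∀ x : Lˣ, sg K σ x ∈ V → ∃ a : Kˣ, ∃ v ∈ V, x = inc K L a * v) ∧
      ((Rl L l).map (sg K σ) ⊔ V).relIndex (Rl L l ⊓ V.comap (nm K L)) =
        ((Rl L l).map (nm K L) ⊔ V).relIndex ((Rl K l).map (inc K L) ⊔ V) ∧
      ((Rl L l).map (sg K σ) ⊔ V).relIndex (Rl L l ⊓ V.comap (nm K L)) ≠ 0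

/-- kernel form of block C -/
def BlockC' (K L : Type*) [Field K] [NumberField K] [Field L] [NumberField L] [Algebra K L] :
    Prop :=
  ∀ (_ : IsGalois K L) (σ : L ≃ₐ[K] L) (_ : ∀ τ, τ ∈ Subgroup.zpowers σ)
    (l : ℕ) (_ : l.Prime)
    (_ : ∀ v : HeightOneSpectrum (𝓞 K), v ∉ PA K l → v.asIdeal.ramificationIdxIn (𝓞 L) = 1)
    (S : Set (HeightOneSpectrum (𝓞 K))) (_ : Disjoint S (PA K l))
    (V : Subgroup Lˣ) (_ : V ≤ Rl L l)
    (_ : ∀ x : Lˣ, sg K σ x ∈ V → ∃ a : Kˣ, ∃ v ∈ V, x = inc K L a * v),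
    (((ov L S).unit L).map (sg K σ)).relIndex
      (((nm K L).ker ⊓ (ov L S).unit L) ⊓ ((Rl L l).map (sg K σ) ⊔ V))
      ≤ Nat.card (ClassGroup (𝓞 K))

/-- LEMMA LOG, finite form, from the three blocks. -/
theorem bound_of_blocks (hB : BlockB K L) (hC : BlockC' K L) (hD : BlockD' K L)
    (hG : IsGalois K L) (σ : L ≃ₐ[K] L) (hσ : ∀ τ, τ ∈ Subgroup.zpowers σ)
    (hodd' : Odd (Module.finrank K L))
    {l : ℕ} (hl : l.Prime) (hodd : l ≠ 2)
    (hur : ∀ v : HeightOneSpectrum (𝓞 K), v ∉ PA K l → v.asIdeal.ramificationIdxIn (𝓞 L) = 1)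
    {S : Set (HeightOneSpectrum (𝓞 K))} (hSf : S.Finite)
    (hS : Disjoint S (PA K l))
    (hsplit : ∀ v ∈ S, (v.asIdeal.primesOver (𝓞 L)).ncard = Module.finrank K L)
    {j : ℕ} (hj : 1 ≤ j) (hF : Full K l S j) :
    Module.finrank K L ≤ Nat.card (ClassGroup (𝓞 K)) * (Uk K l j).relIndex (Rl K l) := by
  obtain ⟨V, hV1, hV2, hV3, hV4, hV5⟩ := hD hG σ hσ l hl
  obtain ⟨hB0, hB1⟩ := hB hG σ hσ hodd' S hSf hsplit
  exact bound_of σ hσ hl hodd hS hj hF hB0 hB1 V hV2 _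
    (hC hG σ hσ l hl hur S hS V hV1 hV3) hV4 hV5

end Crest.Agent.R018.LogFinx575
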