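import Crest.Agent.R018.KerCl_793
import Crest.Agent.R018.LogFin_575

/-! Row 18, LEMMA LOG: `BlockC'` of LogFin_575 (kernel bound). -/

set_option autoImplicit false

namespace Crest.Agent.R018.KerClBx793

open IsDedekindDomain NumberField Crest.Agent.R018.LogDefsx575 Crest.Agent.R018.LogFinx575

theorem blockC' (K L : Type*) [Field K] [NumberField K] [Field L] [NumberField L] [Algebra K L] :
    BlockC' K L := by
  intro hG σ hσ l _ hur S _ V hV hD1
  exact (Crest.Agent.R018.KerClx793.kernel_bound σ hσ l hur S V hV hD1).1

end Crest.Agent.R018.KerClBx793
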