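import Crest.Agent.R018.HerbA_530

/-!
# Row 18, LEMMA LOG, block A4: free permutation modules of a cyclic group are acyclic (helper530)
-/

set_option autoImplicit false

noncomputable section

namespace Crest.Agent.R018.HerbPermx530

variable {X : Type*} (s : Equiv.Perm X) (n : ℕ)

/-- the translation action of a permutation on `X → ℤ`, written multiplicatively -/
def shiftP : Multiplicative (X → ℤ) →* Multiplicative (X → ℤ) :=
  AddMonoidHom.toMultiplicative
    { toFun := fun φ x => φ (s⁻¹ x)
      map_zero' := rfl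
      map_add' := fun _ _ => rfl }

/-- `φ ↦ s φ - φ` -/
def sgP : Multiplicative (X → ℤ) →* Multiplicative (X → ℤ) :=
  shiftP s / MonoidHom.id _

/-- `φ ↦ ∑_{i<n} sⁱ φ` -/
def nmP : Multiplicative (X → ℤ) →* Multiplicative (X → ℤ) :=
  AddMonoidHom.toMultiplicative
    { toFun := fun φ x => ∑ i ∈ Finset.range n, φ ((s⁻¹ ^ i) x)
      map_zero' := by ext x; simp
      map_add' := fun a b => by ext x; simp [Finset.sum_add_distrib] }

theorem sgP_apply (φ : Multiplicative (X → ℤ)) (x : X) :
    Multiplicative.toAdd (sgP s φ) x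
      = Multiplicative.toAdd φ (s⁻¹ x) - Multiplicative.toAdd φ x := rfl

theorem nmP_apply (φ : Multiplicative (X → ℤ)) (x : X) :
    Multiplicative.toAdd (nmP s n φ) x
      = ∑ i ∈ Finset.range n, Multiplicative.toAdd φ ((s⁻¹ ^ i) x) := rfl

/-- the action of `s` is free of order `n` -/
structure FreeOrd : Prop where
  pos : 0 < n
  pow : s ^ n = 1
  free : ∀ x : X, ∀ i : ℕ, 0 < i → i < n → (s ^ i) x ≠ x

variable {s n}

theorem inv_app (s : Equiv.Perm X) (x : X) : s⁻¹ (s x) = x := s.symm_apply_apply x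

theorem app_inv (s : Equiv.Perm X) (x : X) : s (s⁻¹ x) = x := s.apply_symm_apply x

/-- the orbit relation -/
def orel (s : Equiv.Perm X) : Setoid X := MulAction.orbitRel (Subgroup.zpowers s) X

theorem orel_iff (x y : X) : (orel s).r x y ↔ ∃ k : ℤ, (s ^ k) y = x := by
  constructor
  · rintro ⟨⟨_, ⟨k, rfl⟩⟩, h⟩
    exact ⟨k, h⟩
  · rintro ⟨k, h⟩
    exact ⟨⟨_, ⟨k, rfl⟩⟩, h⟩

/-- representative of the orbit -/
def rep (s : Equiv.Perm X) (x : X) : X := (Quotient.mk (orel s) x).out

theorem rep_rel (x : X) : ∃ k : ℤ, (s ^ k) (rep s x) = x := by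
  have : (orel s).r (rep s x) x := Quotient.mk_out (s := orel s) x
  exact (orel_iff _ _).1 ((orel s).symm' this)

theorem rep_congr {x y : X} (h : ∃ k : ℤ, (s ^ k) y = x) : rep s x = rep s y := by
  unfold rep
  have : Quotient.mk (orel s) x = Quotient.mk (orel s) y := Quotient.sound ((orel_iff _ _).2 h)
  rw [this]

theorem rep_s (x : X) : rep s (s x) = rep s x := rep_congr ⟨1, by simp⟩

theorem zpow_emod (hs : FreeOrd s n) (k : ℤ) : s ^ k = s ^ (k % n).toNat := by
  have h1 : (0 : ℤ) ≤ k % n := Int.emod_nonneg _ (by exact_mod_cast hs.pos.ne')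
  have h2 : s ^ k = s ^ (k % n) := by
    conv_lhs => rw [← Int.emod_add_mul_ediv k n]
    rw [zpow_add, zpow_mul, zpow_natCast, hs.pow, one_zpow, mul_one]
  rw [h2]
  conv_lhs => rw [← Int.toNat_of_nonneg h1]
  rw [zpow_natCast]

theorem exists_pos (hs : FreeOrd s n) (x : X) : ∃ i : ℕ, i < n ∧ (s ^ i) (rep s x) = x := by
  obtain ⟨k, hk⟩ := rep_rel (s := s) x
  refine ⟨(k % n).toNat, ?_, ?_⟩
  · have h1 : k % n < n := Int.emod_lt_of_pos _ (by exact_mod_cast hs.pos)
    have h0 : (0 : ℤ) ≤ k % n := Int.emod_nonneg _ (by exact_mod_cast hs.pos.ne')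
    omega
  · rw [← zpow_emod hs, hk]

theorem pos_unique (hs : FreeOrd s n) {y : X} {i j : ℕ} (hi : i < n) (hj : j < n)
    (h : (s ^ i) y = (s ^ j) y) : i = j := by
  wlog hij : i ≤ j generalizing i j
  · exact (this hj hi h.symm (by omega)).symm
  by_contra hne
  have h1 : (s ^ (j - i)) y = y := by
    have h2 : s ^ j = s ^ i * s ^ (j - i) := by rw [← pow_add]; congr 1; omega
    rw [h2, Equiv.Perm.mul_apply] at h
    exact ((s ^ i).injective h).symm
  exact hs.free y (j - i) (by omega) (by omega) h1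

/-- position of `x` in its orbit -/
def posn (hs : FreeOrd s n) (x : X) : ℕ := (exists_pos hs x).choose

theorem posn_lt (hs : FreeOrd s n) (x : X) : posn hs x < n := (exists_pos hs x).choose_spec.1

theorem posn_spec (hs : FreeOrd s n) (x : X) : (s ^ posn hs x) (rep s x) = x :=
  (exists_pos hs x).choose_spec.2

theorem posn_eq (hs : FreeOrd s n) {x : X} {i : ℕ} (hi : i < n) (h : (s ^ i) (rep s x) = x) :
    posn hs x = i :=
  pos_unique hs (y := rep s x) (posn_lt hs x) hi (by rw [posn_spec, h])

/-- the sum over the orbit -/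
theorem orbit_sum (hs : FreeOrd s n) (φ : X → ℤ) (x : X) :
    ∑ i ∈ Finset.range n, φ ((s⁻¹ ^ i) x) = ∑ i ∈ Finset.range n, φ ((s ^ i) (rep s x)) := by
  classical
  -- bijection i ↦ (p - i) mod n
  set p := posn hs x with hp
  have hpn : p < n := posn_lt hs x
  refine Finset.sum_bij (fun i _ => if i ≤ p then p - i else p + n - i) ?_ ?_ ?_ ?_
  · intro i hi
    rw [Finset.mem_range] at hi ⊢
    split_ifs <;> omega
  · intro i hi j hj h
    rw [Finset.mem_range] at hi hj
    split_ifs at h <;> omega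
  · intro j hj
    rw [Finset.mem_range] at hj
    refine ⟨if j ≤ p then p - j else p + n - j, ?_, ?_⟩
    · rw [Finset.mem_range]; split_ifs <;> omega
    · split_ifs <;> omega
  · intro i hi
    rw [Finset.mem_range] at hi
    congr 1
    have hx : (s ^ p) (rep s x) = x := posn_spec hs x
    conv_lhs => rw [← hx]
    split_ifs with h
    · rw [← Equiv.Perm.mul_apply]
      congr 1
      have : s ^ p = s ^ i * s ^ (p - i) := by rw [← pow_add]; congr 1; omega
      rw [this, inv_pow, inv_mul_cancel_left]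
    · rw [← Equiv.Perm.mul_apply]
      congr 1
      have h3 : s ^ (p + n) = s ^ p := by rw [pow_add, hs.pow, mul_one]
      have : s ^ p = s ^ i * s ^ (p + n - i) := by
        rw [← h3, ← pow_add]; congr 1; omega
      rw [this, inv_pow, inv_mul_cancel_left]

theorem sg_nm (hs : FreeOrd s n) (φ : Multiplicative (X → ℤ)) : sgP s (nmP s n φ) = 1 := by
  apply Multiplicative.toAdd.injective
  ext x
  rw [sgP_apply, nmP_apply, nmP_apply, orbit_sum hs, orbit_sum hs]
  have : rep s (s⁻¹ x) = rep s x := rep_congr ⟨-1, by simp⟩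
  rw [this, sub_self]
  rfl

theorem nm_sg (hs : FreeOrd s n) (φ : Multiplicative (X → ℤ)) : nmP s n (sgP s φ) = 1 := by
  apply Multiplicative.toAdd.injective
  ext x
  rw [nmP_apply]
  have h1 : ∀ i, Multiplicative.toAdd (sgP s φ) ((s⁻¹ ^ i) x) =
      Multiplicative.toAdd φ ((s⁻¹ ^ (i + 1)) x) - Multiplicative.toAdd φ ((s⁻¹ ^ i) x) := by
    intro i
    rw [sgP_apply, pow_succ', Equiv.Perm.mul_apply]
  rw [Finset.sum_congr rfl (fun i _ => h1 i),
    Finset.sum_range_sub (fun i => Multiplicative.toAdd φ ((s⁻¹ ^ i) x))]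
  have : s⁻¹ ^ n = 1 := by rw [inv_pow, hs.pow, inv_one]
  rw [this]
  simp

theorem ker_sgP (hs : FreeOrd s n) : (sgP s).ker = (nmP s n).range := by
  classical
  apply le_antisymm
  · intro φ hφ
    have h1 : ∀ x, Multiplicative.toAdd φ (s⁻¹ x) = Multiplicative.toAdd φ x := by
      intro x
      have h2 : sgP s φ = 1 := hφ
      have h3 := congrArg (fun ψ : Multiplicative (X → ℤ) => Multiplicative.toAdd ψ x) h2
      simp only [sgP_apply] at h3
      have h4 : Multiplicative.toAdd (1 : Multiplicative (X → ℤ)) x = 0 := rfl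
      rw [h4] at h3
      exact sub_eq_zero.1 h3
    have h5 : ∀ x, Multiplicative.toAdd φ (s x) = Multiplicative.toAdd φ x := by
      intro x
      have := h1 (s x)
      rw [inv_app] at this
      exact this.symm
    have h6 : ∀ (i : ℕ) x, Multiplicative.toAdd φ ((s ^ i) x) = Multiplicative.toAdd φ x := by
      intro i
      induction i with
      | zero => intro x; simp
      | succ i ih =>
        intro x
        rw [pow_succ, Equiv.Perm.mul_apply, ih, h5]
    refine ⟨Multiplicative.ofAdd (fun x => if posn hs x = 0 then Multiplicative.toAdd φ x else 0),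
      ?_⟩
    apply Multiplicative.toAdd.injective
    ext x
    rw [nmP_apply, orbit_sum hs]
    rw [Finset.sum_eq_single 0]
    · have h7 : posn hs (rep s x) = 0 := by
        apply posn_eq hs hs.pos
        have : rep s (rep s x) = rep s x := by
          obtain ⟨k, hk⟩ := rep_rel (s := s) x
          exact (rep_congr ⟨k, hk⟩).symm
        rw [this]; simp
      simp only [pow_zero, Equiv.Perm.coe_one, id_eq, toAdd_ofAdd, h7, if_true]
      conv_rhs => rw [← posn_spec hs x]
      rw [h6]
    · intro i hi hi0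
      rw [Finset.mem_range] at hi
      have h8 : posn hs ((s ^ i) (rep s x)) = i := by
        apply posn_eq hs hi
        have : rep s ((s ^ i) (rep s x)) = rep s x := by
          obtain ⟨k, hk⟩ := rep_rel (s := s) x
          have e1 : rep s ((s ^ i) (rep s x)) = rep s (rep s x) :=
            rep_congr ⟨(i : ℤ), by simp⟩
          rw [e1]
          exact (rep_congr ⟨k, hk⟩).symm
        rw [this]
      simp only [toAdd_ofAdd, h8, hi0, if_false]
    · intro h
      exact absurd (Finset.mem_range.2 hs.pos) h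
  · rintro _ ⟨φ, rfl⟩
    exact sg_nm hs φ

theorem posn_succ (hs : FreeOrd s n) (x : X) (h : posn hs (s⁻¹ x) + 1 < n) :
    posn hs x = posn hs (s⁻¹ x) + 1 := by
  apply posn_eq hs h
  have h1 := posn_spec hs (s⁻¹ x)
  have h2 : rep s (s⁻¹ x) = rep s x := rep_congr ⟨-1, by simp⟩
  rw [h2] at h1
  rw [pow_succ', Equiv.Perm.mul_apply, h1, app_inv]

theorem posn_last (hs : FreeOrd s n) (x : X) (h : posn hs (s⁻¹ x) + 1 = n) :
    posn hs x = 0 := by
  apply posn_eq hs hs.pos
  have h1 := posn_spec hs (s⁻¹ x)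
  have h2 : rep s (s⁻¹ x) = rep s x := rep_congr ⟨-1, by simp⟩
  rw [h2] at h1
  have h3 : (s ^ n) (rep s x) = x := by
    conv_lhs => rw [← h]
    rw [pow_succ', Equiv.Perm.mul_apply, h1, app_inv]
  rw [hs.pow] at h3
  rw [pow_zero]
  exact h3

theorem ker_nmP (hs : FreeOrd s n) : (nmP s n).ker = (sgP s).range := by
  classical
  apply le_antisymm
  · intro φ hφ
    have h1 : ∀ x, ∑ i ∈ Finset.range n, Multiplicative.toAdd φ ((s ^ i) (rep s x)) = 0 := by
      intro x
      have h2 : nmP s n φ = 1 := hφ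
      have h3 := congrArg (fun ψ : Multiplicative (X → ℤ) => Multiplicative.toAdd ψ x) h2
      simp only [nmP_apply] at h3
      rw [orbit_sum hs] at h3
      exact h3
    -- ψ (s^j r) = - ∑_{i ≤ j} φ (s^i r)
    refine ⟨Multiplicative.ofAdd (fun x =>
      - ∑ i ∈ Finset.range (posn hs x + 1), Multiplicative.toAdd φ ((s ^ i) (rep s x))), ?_⟩
    apply Multiplicative.toAdd.injective
    ext x
    rw [sgP_apply]
    simp only [toAdd_ofAdd]
    have h2 : rep s (s⁻¹ x) = rep s x := rep_congr ⟨-1, by simp⟩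
    rw [h2]
    rcases Nat.lt_or_ge (posn hs (s⁻¹ x) + 1) n with h | h
    · have h3 := posn_succ hs x h
      rw [h3, Finset.sum_range_succ _ (posn hs (s⁻¹ x) + 1)]
      have h4 : (s ^ (posn hs (s⁻¹ x) + 1)) (rep s x) = x := by
        rw [← h3]; exact posn_spec hs x
      rw [h4]
      ring
    · have h5 : posn hs (s⁻¹ x) + 1 = n := le_antisymm (posn_lt hs _) h
      have h6 := posn_last hs x h5
      rw [h6, h5, h1]
      have h4 : rep s x = x := by
        have := posn_spec hs x
        rw [h6] at this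
        exact this
      simp [h4]
  · rintro _ ⟨φ, rfl⟩
    exact nm_sg hs φ

end Crest.Agent.R018.HerbPermx530
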