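import Crest.Agent.R018.SLatB_824
import Crest.Agent.R018.HerbPerm_530

/-!
Row 18, LEMMA LOG, block B (helper824): the Herbrand quotient of the `S`-units is `1/n` for a cyclic
extension of odd degree in which every prime of `S` splits completely.
-/

set_option autoImplicit false

open NumberField NumberField.InfinitePlace NumberField.Units Module IsDedekindDomain
open scoped Pointwise

namespace Crest.Agent.R018.LogBx824

open Crest.Agent.R018.MinkUx824 Crest.Agent.R018.LogDefsx575
open Crest.Agent.R018.SLatx824 Crest.Agent.R018.SLatBx824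
open Crest.Agent.R018.HerbAx530 Crest.Agent.R018.HerbPermx530

attribute [local instance] actH actOv

section

variable {M T : Type*} [CommGroup M] [Fintype T]

/-- the homomorphism `ℤ^T → M` given by a family -/
def fam (z : T → M) : Multiplicative (T → ℤ) →* M where
  toFun φ := ∏ t, z t ^ Multiplicative.toAdd φ t
  map_one' := by
    apply Finset.prod_eq_one
    intro t _
    exact zpow_zero _
  map_mul' φ ψ := by
    rw [← Finset.prod_mul_distrib]
    refine Finset.prod_congr rfl fun t _ => ?_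
    rw [← zpow_add]
    rfl

theorem fam_apply (z : T → M) (φ : Multiplicative (T → ℤ)) :
    fam z φ = ∏ t, z t ^ Multiplicative.toAdd φ t := rfl

end

section

variable {G M T : Type*} [Group G] [CommGroup M] [MulDistribMulAction G M] [MulAction G T]

theorem toPerm_pow (σ : G) (i : ℕ) :
    (MulAction.toPerm σ : Equiv.Perm T) ^ i = MulAction.toPerm (σ ^ i) := by
  have := map_pow (MulAction.toPermHom G T) σ i
  exact this.symm

theorem toPerm_inv_pow (σ : G) (i : ℕ) (t : T) :
    ((MulAction.toPerm σ : Equiv.Perm T)⁻¹ ^ i) t = (σ ^ i)⁻¹ • t := by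
  rw [inv_pow, toPerm_pow]
  rfl

variable [Fintype T]

theorem fam_shift (z : T → M) (hz : ∀ (σ : G) t, z (σ • t) = σ • z t) (σ : G)
    (φ : Multiplicative (T → ℤ)) :
    fam z (shiftP (MulAction.toPerm σ) φ) = σ • fam z φ := by
  rw [fam_apply, fam_apply, ← prod_smul_inv z hz σ]
  rfl

theorem fam_nm (z : T → M) (hz : ∀ (σ : G) t, z (σ • t) = σ • z t) (σ : G) (n : ℕ)
    (φ : Multiplicative (T → ℤ)) :
    fam z (nmP (MulAction.toPerm σ) n φ) = ∏ i ∈ Finset.range n, σ ^ i • fam z φ := by
  classical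
  have h1 : ∀ i, σ ^ i • fam z φ = ∏ t, z t ^ Multiplicative.toAdd φ ((σ ^ i)⁻¹ • t) := by
    intro i
    rw [prod_smul_inv z hz (σ ^ i), fam_apply]
  simp_rw [h1]
  rw [Finset.prod_comm, fam_apply]
  refine Finset.prod_congr rfl fun t _ => ?_
  rw [nmP_apply]
  simp_rw [toPerm_inv_pow]
  have h3 : ∀ s : Finset ℕ, z t ^ (∑ i ∈ s, Multiplicative.toAdd φ ((σ ^ i)⁻¹ • t)) =
      ∏ i ∈ s, z t ^ Multiplicative.toAdd φ ((σ ^ i)⁻¹ • t) := by
    intro s
    induction s using Finset.induction_on with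
    | empty => simp
    | insert a s ha ih => rw [Finset.sum_insert ha, Finset.prod_insert ha, zpow_add, ih]
  exact h3 _

end

section Main

variable {K L : Type*} [Field K] [NumberField K] [Field L] [NumberField L] [Algebra K L]
  [IsGalois K L]

theorem nm_eq_prod_range (σ : L ≃ₐ[K] L) (hσ : ∀ τ, τ ∈ Subgroup.zpowers σ) (x : Lˣ) :
    nm K L x = ∏ i ∈ Finset.range (finrank K L), σ ^ i • x := by
  classical
  have h0 : orderOf σ = finrank K L := by
    rw [← IsGalois.card_aut_eq_finrank, orderOf_eq_card_of_forall_mem_zpowers hσ]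
  rw [nm_apply, ← IsCyclic.image_range_orderOf hσ, Finset.prod_image, h0]
  intro i hi j hj hij
  exact pow_injOn_Iio_orderOf (by simpa using hi) (by simpa using hj) hij

theorem freeOrd {T : Type*} [MulAction (L ≃ₐ[K] L) T]
    (hfree : ∀ (σ : L ≃ₐ[K] L) (t : T), σ • t = t → σ = 1)
    (σ : L ≃ₐ[K] L) (hσ : ∀ τ, τ ∈ Subgroup.zpowers σ) :
    FreeOrd (MulAction.toPerm σ : Equiv.Perm T) (finrank K L) := by
  have h0 : orderOf σ = finrank K L := by
    rw [← IsGalois.card_aut_eq_finrank, orderOf_eq_card_of_forall_mem_zpowers hσ]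
  refine ⟨finrank_pos, ?_, ?_⟩
  · rw [toPerm_pow, ← h0, pow_orderOf_eq_one]
    ext t
    simp
  · intro x i hi hi' h
    rw [toPerm_pow] at h
    have h1 := hfree (σ ^ i) x h
    have h2 := orderOf_dvd_of_pow_eq_one h1
    rw [h0] at h2
    exact absurd (Nat.le_of_dvd hi h2) (by omega)

end Main

/-- **BLOCK B** -/
theorem blockB (K L : Type*) [Field K] [NumberField K] [Field L] [NumberField L] [Algebra K L] :
    BlockB K L := by
  classical
  intro hG σ hσ hodd S hS hs
  have hft : Fintype (ov L S) := (ov_finite S hS hs).fintype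
  obtain ⟨z, hz1, hz2, hz3, hz4, hz5⟩ := exists_lattice hodd S hS hs
  have hfo : FreeOrd (MulAction.toPerm σ : Equiv.Perm (InfinitePlace L ⊕ ov L S)) (finrank K L) :=
    freeOrd hz5 σ hσ
  set s : Equiv.Perm (InfinitePlace L ⊕ ov L S) := MulAction.toPerm σ with hs'
  have hf : ∀ φ, fam z (sgP s φ) = sg K σ (fam z φ) := by
    intro φ
    rw [sg_apply, ← fam_shift z hz1 σ φ, ← map_div]
    rfl
  have hg : ∀ φ, fam z (nmP s (finrank K L) φ) = nm K L (fam z φ) := by
    intro φ
    rw [nm_eq_prod_range σ hσ]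
    exact fam_nm z hz1 σ _ φ
  set d : Multiplicative (InfinitePlace L ⊕ ov L S → ℤ) :=
    Multiplicative.ofAdd (Sum.elim (fun _ => 1) (fun _ => 0)) with hd
  have hdz : ∀ (k : ℤ) t, Multiplicative.toAdd (d ^ k) t = k * Sum.elim (fun _ => 1) (fun _ => 0) t := by
    intro k t
    rw [toAdd_zpow]
    simp [hd]
  obtain ⟨w0⟩ : Nonempty (InfinitePlace L) := inferInstance
  have hker : (fam z).ker = Subgroup.zpowers d := by
    ext φ
    rw [MonoidHom.mem_ker, fam_apply, hz3, Subgroup.mem_zpowers_iff]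
    constructor
    · rintro ⟨h1, h2⟩
      refine ⟨Multiplicative.toAdd φ (.inl w0), ?_⟩
      apply Multiplicative.toAdd.injective
      funext t
      rw [hdz]
      rcases t with w | q
      · simp only [Sum.elim_inl, mul_one]
        exact h1 w0 w
      · simp only [Sum.elim_inr, mul_zero]
        exact (h2 q).symm
    · rintro ⟨k, rfl⟩
      refine ⟨fun w w' => ?_, fun q => ?_⟩
      · rw [hdz, hdz]; rfl
      · rw [hdz]; simp
  have hd' : ∀ k : ℤ, d ^ k = 1 → k = 0 := by
    intro k hk
    have h1 := hdz k (.inl w0)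
    rw [hk] at h1
    simpa using h1.symm
  have hdinv : ∀ (τ : L ≃ₐ[K] L) (t : InfinitePlace L ⊕ ov L S),
      Multiplicative.toAdd d (τ • t) = Multiplicative.toAdd d t := by
    rintro τ (w | q) <;> rfl
  have hfd : sgP s d = 1 := by
    apply Multiplicative.toAdd.injective
    funext t
    rw [sgP_apply]
    have : s⁻¹ t = σ⁻¹ • t := rfl
    rw [this, hdinv, sub_self]
    rfl
  have hgd : nmP s (finrank K L) d = d ^ (finrank K L) := by
    apply Multiplicative.toAdd.injective
    funext t
    rw [nmP_apply]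
    simp_rw [hs', toPerm_inv_pow, hdinv]
    rw [toAdd_pow]
    simp
  obtain ⟨h1, h2⟩ := h_range_of_cyclic (fam z) hf hg (ker_sgP hfo) (ker_nmP hfo) d (finrank K L)
    finrank_pos.ne' hker hd' hfd hgd
  have hfg : ∀ x, sg K σ (nm K L x) = 1 := by
    intro x
    rw [sg_apply, nm_apply, Finset.smul_prod']
    rw [div_eq_one]
    have := Equiv.prod_comp (Equiv.mulLeft σ) (fun τ : L ≃ₐ[K] L => τ • x)
    rw [← this]
    refine Finset.prod_congr rfl fun τ _ => ?_
    rw [Equiv.coe_mulLeft, mul_smul]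
  have hgf : ∀ x, nm K L (sg K σ x) = 1 := by
    intro x
    rw [sg_apply, map_div, div_eq_one, nm_apply, nm_apply]
    have := Equiv.prod_comp (Equiv.mulRight σ) (fun τ : L ≃ₐ[K] L => τ • x)
    rw [← this]
    refine Finset.prod_congr rfl fun τ _ => ?_
    rw [Equiv.coe_mulRight, mul_smul]
  have hle : (fam z).range ≤ (ov L S).unit L := by
    rintro _ ⟨φ, rfl⟩
    rw [fam_apply]
    exact prod_mem fun t _ => zpow_mem (hz2 t) _
  have hidx : (fam z).range.relIndex ((ov L S).unit L) ≠ 0 := by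
    apply hz4
    intro t
    refine ⟨Multiplicative.ofAdd (Pi.single t 1), ?_⟩
    rw [fam_apply, Finset.prod_eq_single t]
    · simp
    · intro t' _ ht'
      simp [Pi.single_eq_of_ne ht']
    · simp
  have hA : Stab (sg K σ) (nm K L) (fam z).range := stab_range (fam z) hf hg
  have hB : Stab (sg K σ) (nm K L) ((ov L S).unit L) := stab_unit S σ
  have h3 := h0_mul_h1 hfg hgf hA hB hle hidx
  have h4 := (h0_ne_zero_iff hfg hA hB hle hidx).mp (by rw [h1]; exact one_ne_zero)
  refine ⟨h4, ?_⟩
  rw [h1, h2, one_mul] at h3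
  rw [h3, mul_comm]

end Crest.Agent.R018.LogBx824
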