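import Crest.Agent.R018.SemiLocE_476
import Crest.Agent.R018.LogFin_575

/-!
Row 18, block D (helper476), part 6: block D in the literal form `LogFinx575.BlockD'`.
-/

set_option autoImplicit false
set_option linter.unusedSectionVars false

open scoped NumberField
open IsDedekindDomain

namespace Crest.Agent.R018.SemiLocx476

open Crest.Agent.R018.LogDefsx575

section
variable {l : ℕ} [hl : Fact l.Prime] {K L : Type*} [Field K] [NumberField K] [Field L]
  [NumberField L] [Algebra K L]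

theorem inc_mem_Rl_iff {a : Kˣ} : inc K L a ∈ Rl L l ↔ a ∈ Rl K l := by
  have e1 : ((inc K L a : Lˣ) : L) = algebraMap K L a := rfl
  have e2 : (((inc K L a)⁻¹ : Lˣ) : L) = algebraMap K L ((a⁻¹ : Kˣ) : K) := by
    rw [← map_inv]; rfl
  rw [mem_Rl_iff, mem_Rl_iff, e1, e2, map_mem_iff, map_mem_iff]

theorem inc_mem_Uk {a : Kˣ} {k : ℕ} (hk : 1 ≤ k) (ha : a ∈ Uk K l k) :
    inc K L a ∈ Uk L l k := by
  obtain ⟨b, hb, h⟩ := (mem_Uk_iff hk).1 ha
  refine (mem_Uk_iff hk).2 ⟨algebraMap K L b, (map_mem_iff _).2 hb, ?_⟩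
  have e1 : ((inc K L a : Lˣ) : L) = algebraMap K L a := rfl
  rw [e1, h]
  simp

theorem sg_inc' (σ : L ≃ₐ[K] L) (a : Kˣ) : sg K σ (inc K L a) = 1 := by
  ext
  rw [sg_apply]
  have e1 : ((inc K L a : Lˣ) : L) = algebraMap K L a := rfl
  rw [e1, AlgEquiv.commutes, div_self, Units.val_one]
  rw [← e1]
  exact (inc K L a).ne_zero

end

/-- BLOCK D of LEMMA LOG, literal form. -/
theorem blockD' (K L : Type*) [Field K] [NumberField K] [Field L] [NumberField L] [Algebra K L] :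
    Crest.Agent.R018.LogFinx575.BlockD' K L := by
  intro hG σ hσ l hl
  have : Fact l.Prime := ⟨hl⟩
  obtain ⟨V, hVR, -, hV, ⟨k1, hk1, hk⟩, hD1, hD2, hD3⟩ := blockD l K L σ hσ
  have key : Rl L l ⊓ V.comap (sg K σ) = (Rl K l).map (inc K L) ⊔ V := by
    apply le_antisymm
    · intro x hxx
      obtain ⟨hx, hx'⟩ := Subgroup.mem_inf.1 hxx
      obtain ⟨a, v, hv, rfl⟩ := hD1 x hx'
      have ha : inc K L a ∈ Rl L l := by
        have := mul_mem hx (inv_mem (hVR hv))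
        rwa [mul_inv_cancel_right] at this
      exact Subgroup.mul_mem_sup ⟨a, inc_mem_Rl_iff.1 ha, rfl⟩ hv
    · refine sup_le ?_ (le_inf hVR (Subgroup.map_le_iff_le_comap.1 (stab_sg hV σ)))
      rintro _ ⟨a, ha, rfl⟩
      refine ⟨inc_mem_Rl_iff.2 ha, ?_⟩
      show sg K σ (inc K L a) ∈ V
      rw [sg_inc']
      exact one_mem _
  refine ⟨V, hVR, ⟨k1, ?_⟩, hD1, ?_, hD3⟩
  · rintro _ ⟨a, ha, rfl⟩
    exact hk (inc_mem_Uk hk1 ha)
  · rw [hD2, key]

end Crest.Agent.R018.SemiLocx476
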