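import Mathlib

/-!
# Row 18, l-adic Waldschmidt block, W3: the number field part (helper614)

* `liouville`: a nonzero algebraic integer divisible by `l ^ T` has a conjugate of size `≥ l ^ T`;
* `norm_eq_prod`: the norm as a product over the embeddings into a large enough number field;
* `hInd`: multiplicative independence of the conjugates of generators of powers of unramified
  degree one primes with distinct residue characteristics.
-/

set_option autoImplicit false

noncomputable section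

open scoped NumberField
open IsDedekindDomain Module

namespace Crest.Agent.R018.WaldNFx614

section Liouville

variable {K : Type*} [Field K] [NumberField K]

theorem norm_eq_prod_complex (x : K) :
    ((Algebra.norm ℚ x : ℚ) : ℂ) = ∏ φ : K →+* ℂ, φ x := by
  have h := Algebra.norm_eq_prod_embeddings ℚ ℂ x
  rw [eq_ratCast] at h
  rw [h]
  exact (Fintype.prod_equiv (RingHom.equivRatAlgHom K ℂ) _ _
    (fun _ => by simp [RingHom.equivRatAlgHom_apply])).symm

theorem abs_norm_le {x : K} {B : ℝ} (hB : ∀ φ : K →+* ℂ, ‖φ x‖ ≤ B) :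
    |((Algebra.norm ℚ x : ℚ) : ℝ)| ≤ B ^ finrank ℚ K := by
  have h := norm_eq_prod_complex x
  have h2 : |((Algebra.norm ℚ x : ℚ) : ℝ)| = ∏ φ : K →+* ℂ, ‖φ x‖ := by
    rw [← norm_prod, ← h, ← Real.norm_eq_abs, ← Complex.norm_real, Complex.ofReal_ratCast]
  rw [h2]
  calc ∏ φ : K →+* ℂ, ‖φ x‖ ≤ ∏ _φ : K →+* ℂ, B :=
        Finset.prod_le_prod (fun _ _ => norm_nonneg _) (fun φ _ => hB φ)
    _ = B ^ finrank ℚ K := by
        rw [Finset.prod_const, Finset.card_univ, NumberField.Embeddings.card]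

theorem one_le_abs_norm {β : 𝓞 K} (hβ : β ≠ 0) :
    (1 : ℝ) ≤ |((Algebra.norm ℚ (β : K) : ℚ) : ℝ)| := by
  have h0 : Algebra.norm ℤ β ≠ 0 := by
    rwa [Ne, Algebra.norm_eq_zero_iff]
  have h1 : (1 : ℤ) ≤ |Algebra.norm ℤ β| := Int.one_le_abs h0
  have h2 : ((Algebra.norm ℤ β : ℤ) : ℚ) = Algebra.norm ℚ (β : K) :=
    Algebra.coe_norm_int β
  rw [← h2]
  push_cast
  exact_mod_cast h1

/-- Liouville inequality at a finite place, in the form of a divisibility. -/
theorem liouville (l T : ℕ) (α : 𝓞 K) (hα : α ≠ 0) (hdiv : (l : 𝓞 K) ^ T ∣ α) (B : ℝ)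
    (hB : ∀ φ : K →+* ℂ, ‖φ (α : K)‖ ≤ B) : (l : ℝ) ^ T ≤ B := by
  obtain ⟨β, rfl⟩ := hdiv
  have hβ : β ≠ 0 := right_ne_zero_of_mul hα
  have hB0 : 0 ≤ B := by
    obtain ⟨φ⟩ : Nonempty (K →+* ℂ) := inferInstance
    exact (norm_nonneg _).trans (hB φ)
  have hn : finrank ℚ K ≠ 0 := finrank_pos.ne'
  have h1 := abs_norm_le hB
  have h2 := one_le_abs_norm hβ
  have h3 : Algebra.norm ℚ (((l : 𝓞 K) ^ T * β : 𝓞 K) : K) =
      ((l : ℚ) ^ T) ^ finrank ℚ K * Algebra.norm ℚ (β : K) := by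
    have : (((l : 𝓞 K) ^ T * β : 𝓞 K) : K) = algebraMap ℚ K ((l : ℚ) ^ T) * (β : K) := by
      simp
    rw [this, map_mul, Algebra.norm_algebraMap]
  rw [h3] at h1
  have h4 : ((l : ℝ) ^ T) ^ finrank ℚ K ≤ B ^ finrank ℚ K := by
    refine le_trans ?_ h1
    push_cast
    rw [abs_mul, abs_of_nonneg (by positivity : (0 : ℝ) ≤ ((l : ℝ) ^ T) ^ finrank ℚ K)]
    exact le_mul_of_one_le_right (by positivity) h2
  exact le_of_pow_le_pow_left₀ hn hB0 h4

end Liouville

section Split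

variable {F K : Type*} [Field F] [NumberField F] [Field K] [NumberField K]

/-- The norm as a product over the embeddings into a number field which is large enough. -/
theorem norm_eq_prod (hK : Fintype.card (F →+* K) = finrank ℚ F) (x : F) :
    ((Algebra.norm ℚ x : ℚ) : K) = ∏ σ : F →+* K, σ x := by
  obtain ⟨ψ⟩ : Nonempty (K →+* ℂ) := inferInstance
  have hinj : Function.Injective (fun σ : F →+* K => ψ.comp σ) := by
    intro σ τ h
    ext x
    exact ψ.injective (by simpa using RingHom.congr_fun h x)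
  have hbij : Function.Bijective (fun σ : F →+* K => ψ.comp σ) := by
    rw [Fintype.bijective_iff_injective_and_card]
    exact ⟨hinj, by rw [hK, NumberField.Embeddings.card]⟩
  apply ψ.injective
  rw [map_prod, map_ratCast, norm_eq_prod_complex x]
  exact (Fintype.prod_bijective _ hbij _ _ (fun _ => rfl)).symm

omit [NumberField K] in
/-- Existence of a prime over a given one along an embedding. -/
theorem exists_over (σ : F →+* K) (w : HeightOneSpectrum (𝓞 F)) :
    ∃ Q : HeightOneSpectrum (𝓞 K), ∀ a : 𝓞 F,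
      (NumberField.RingOfIntegers.mapRingHom σ a ∈ Q.asIdeal ↔ a ∈ w.asIdeal) := by
  let _ : Algebra F K := σ.toAlgebra
  have := w.isMaximal
  obtain ⟨Q, hQ, hQw⟩ := Ideal.exists_maximal_ideal_liesOver_of_isIntegral (S := 𝓞 K) w.asIdeal
  have hcomap : ∀ a : 𝓞 F, (algebraMap (𝓞 F) (𝓞 K) a ∈ Q ↔ a ∈ w.asIdeal) := by
    intro a
    rw [hQw.over]
    rfl
  have hne : Q ≠ ⊥ := by
    rintro rfl
    apply w.ne_bot
    rw [eq_bot_iff]
    intro a ha
    have := (hcomap a).2 ha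
    rw [Ideal.mem_bot] at this ⊢
    have hinj : Function.Injective (algebraMap (𝓞 F) (𝓞 K)) := FaithfulSMul.algebraMap_injective _ _
    exact hinj (by rw [this, map_zero])
  exact ⟨⟨Q, hQ.isPrime, hne⟩, hcomap⟩

variable (σ₀ : F →+* K) (w : HeightOneSpectrum (𝓞 F)) (Q : HeightOneSpectrum (𝓞 K))

/-- a unit at `w` goes to a unit at `Q`, for `Q` over `w` along `σ₀` -/
theorem unit_at (hQ : ∀ a : 𝓞 F,
      (NumberField.RingOfIntegers.mapRingHom σ₀ a ∈ Q.asIdeal ↔ a ∈ w.asIdeal))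
    (x : F) (hx : w.valuation F x = 1) : Q.valuation K (σ₀ x) = 1 := by
  have h1 : ∀ a : 𝓞 F, a ∉ w.asIdeal → Q.valuation K (σ₀ (a : F)) = 1 := by
    intro a ha
    have := (HeightOneSpectrum.valuation_eq_one_iff_notMem (v := Q) (K := K)
      (r := NumberField.RingOfIntegers.mapRingHom σ₀ a)).2 (fun h => ha ((hQ a).1 h))
    exact this
  obtain ⟨n, d, hnd⟩ := w.exists_primeCompl_mul_eq_of_integer x hx.le
  have hd : (d : 𝓞 F) ∉ w.asIdeal := d.2
  have hn : n ∉ w.asIdeal := by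
    intro hn
    have h2 := congrArg (w.valuation F) hnd
    rw [map_mul, hx, one_mul] at h2
    have h3 : w.valuation F (algebraMap (𝓞 F) F n) < 1 :=
      (w.valuation_lt_one_iff_mem n).2 hn
    have h4 : w.valuation F (algebraMap (𝓞 F) F d) = 1 :=
      (HeightOneSpectrum.valuation_eq_one_iff_notMem (v := w) (K := F)).2 hd
    rw [← h2, h4] at h3
    exact lt_irrefl _ h3
  have h5 := congrArg (fun z => Q.valuation K (σ₀ z)) hnd
  simp only [map_mul] at h5
  have h6 := h1 _ hd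
  have h7 := h1 _ hn
  change Q.valuation K (σ₀ x) * Q.valuation K (σ₀ ((d : 𝓞 F) : F)) =
    Q.valuation K (σ₀ (n : F)) at h5
  rwa [h6, h7, mul_one] at h5

end Split

section Deg1

variable {F K : Type*} [Field F] [NumberField F] [Field K] [NumberField K]

/-- an unramified prime of absolute degree one, over the rational prime `p` -/
structure Deg1 (w : HeightOneSpectrum (𝓞 F)) (p : ℕ) : Prop where
  prime : p.Prime
  absNorm : Ideal.absNorm w.asIdeal = p
  unram : (p : 𝓞 F) ∉ w.asIdeal ^ 2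

theorem Deg1.mem {w : HeightOneSpectrum (𝓞 F)} {p : ℕ} (h : Deg1 w p) :
    (p : 𝓞 F) ∈ w.asIdeal := by
  have := Ideal.absNorm_mem w.asIdeal
  rwa [h.absNorm] at this

theorem intVal_eq (w : HeightOneSpectrum (𝓞 F)) (r : 𝓞 F) (n : ℕ) (h1 : r ∈ w.asIdeal ^ n)
    (h2 : r ∉ w.asIdeal ^ (n + 1)) : w.intValuation r = WithZero.exp (-(n : ℤ)) := by
  have hr : r ≠ 0 := by
    rintro rfl
    exact h2 (zero_mem _)
  have e1 := (w.intValuation_le_pow_iff_mem r n).2 h1
  have e2 := mt (w.intValuation_le_pow_iff_mem r (n + 1)).1 h2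
  rw [w.intValuation_eq_exp_neg_multiplicity hr] at e1 e2 ⊢
  rw [WithZero.exp_le_exp] at e1 e2
  rw [WithZero.exp_inj]
  push_cast at e2
  omega

/-- the generator of `w ^ h` and `p ^ h` have the same valuation at `w` -/
theorem val_gen (w : HeightOneSpectrum (𝓞 F)) (p : ℕ) (hw : Deg1 w p) (h : ℕ) (y : 𝓞 F)
    (hy : Ideal.span {y} = w.asIdeal ^ h) :
    w.valuation F ((y : F) / (p : F) ^ h) = 1 := by
  have h1 : w.intValuation (p : 𝓞 F) = WithZero.exp (-(1 : ℕ) : ℤ) :=
    intVal_eq w _ 1 (by simpa using hw.mem) hw.unram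
  have h2 : w.intValuation y = WithZero.exp (-(h : ℤ)) := by
    refine intVal_eq w _ h (by rw [← hy]; exact Ideal.mem_span_singleton_self y) ?_
    intro hmem
    have h3 : w.asIdeal ^ h ≤ w.asIdeal ^ (h + 1) := by
      rw [← hy, Ideal.span_singleton_le_iff_mem]
      exact hmem
    exact absurd (Ideal.pow_right_strictAnti w.asIdeal w.ne_bot w.isPrime.ne_top
      (Nat.lt_succ_self h)) (not_lt_of_ge h3)
  have h3 : w.valuation F (y : F) = WithZero.exp (-(h : ℤ)) := by
    rw [← h2]; exact w.valuation_of_algebraMap y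
  have h4 : w.valuation F (p : F) = WithZero.exp (-(1 : ℕ) : ℤ) := by
    rw [← h1, ← w.valuation_of_algebraMap (K := F)]; simp
  rw [map_div₀, map_pow, h3, h4, ← WithZero.exp_nsmul]
  simp

theorem norm_gen (w : HeightOneSpectrum (𝓞 F)) (p : ℕ) (hw : Deg1 w p) (h : ℕ) (y : 𝓞 F)
    (hy : Ideal.span {y} = w.asIdeal ^ h) : (Algebra.norm ℤ y).natAbs = p ^ h := by
  have := congrArg Ideal.absNorm hy
  rwa [Ideal.absNorm_span_singleton, map_pow, hw.absNorm] at this

theorem prod_val (hK : Fintype.card (F →+* K) = finrank ℚ F) (Q : HeightOneSpectrum (𝓞 K))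
    (w : HeightOneSpectrum (𝓞 F)) (p : ℕ) (hw : Deg1 w p) (h : ℕ) (y : 𝓞 F)
    (hy : Ideal.span {y} = w.asIdeal ^ h) :
    ∏ σ : F →+* K, Q.valuation K (σ (y : F)) = Q.valuation K (p : K) ^ h := by
  rw [← map_prod, ← norm_eq_prod hK, ← map_pow]
  have h1 : ((Algebra.norm ℤ y : ℤ) : ℚ) = Algebra.norm ℚ (y : F) := Algebra.coe_norm_int y
  rw [← h1]
  rcases Int.natAbs_eq (Algebra.norm ℤ y) with h2 | h2
  · rw [h2, norm_gen w p hw h y hy]; push_cast; rfl
  · rw [h2, norm_gen w p hw h y hy]; push_cast; rw [Valuation.map_neg]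

omit [NumberField F] in
theorem val_le_one (Q : HeightOneSpectrum (𝓞 K)) (σ : F →+* K) (y : 𝓞 F) :
    Q.valuation K (σ (y : F)) ≤ 1 :=
  Q.valuation_le_one (NumberField.RingOfIntegers.mapRingHom σ y)

/-- **Multiplicative independence.** -/
theorem hInd (hK : Fintype.card (F →+* K) = finrank ℚ F) (n : ℕ)
    (w : Fin n → HeightOneSpectrum (𝓞 F)) (p : Fin n → ℕ) (hp : Function.Injective p)
    (hw : ∀ j, Deg1 (w j) (p j)) (h : Fin n → ℕ) (hh : ∀ j, h j ≠ 0) (y : Fin n → 𝓞 F)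
    (hy : ∀ j, Ideal.span {y j} = (w j).asIdeal ^ h j)
    (m : (F →+* K) → ℤ) (t : Fin n → ℤ) (hm : m ≠ 0) (ht : t ≠ 0) :
    ∏ σ : F →+* K, ∏ j, (σ (y j : F)) ^ (m σ * t j) ≠ 1 := by
  obtain ⟨σ₀, hσ₀⟩ := Function.ne_iff.1 hm
  obtain ⟨j₀, hj₀⟩ := Function.ne_iff.1 ht
  obtain ⟨Q, hQ⟩ := exists_over σ₀ (w j₀)
  have hval := prod_val hK Q
  set V := Q.valuation K with hV
  -- the valuation of `p j₀`
  have hpQ : NumberField.RingOfIntegers.mapRingHom σ₀ ((p j₀ : ℕ) : 𝓞 F) ∈ Q.asIdeal :=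
    (hQ _).2 (hw j₀).mem
  rw [map_natCast] at hpQ
  have hp0 : V (p j₀ : K) < 1 := by
    have := (Q.valuation_lt_one_iff_mem (K := K) ((p j₀ : ℕ) : 𝓞 K)).2 hpQ
    simpa using this
  have hp0' : V (p j₀ : K) ≠ 0 := by
    rw [Valuation.ne_zero_iff]
    exact_mod_cast (hw j₀).prime.ne_zero
  have hself : V (σ₀ (y j₀ : F)) = V (p j₀ : K) ^ h j₀ := by
    have h1 := unit_at σ₀ (w j₀) Q hQ _ (val_gen (w j₀) (p j₀) (hw j₀) (h j₀) (y j₀) (hy j₀))
    rw [map_div₀, map_div₀, map_pow, map_pow, map_natCast] at h1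
    rw [div_eq_one_iff_eq (pow_ne_zero _ hp0')] at h1
    exact h1
  -- other primes
  have hother : ∀ j, j ≠ j₀ → ∀ σ : F →+* K, V (σ (y j : F)) = 1 := by
    intro j hj
    have h1 : V (p j : K) = 1 := by
      have hnot : ((p j : ℕ) : 𝓞 K) ∉ Q.asIdeal := by
        intro hmem
        have hcop : Nat.Coprime (p j) (p j₀) :=
          (Nat.coprime_primes (hw j).prime (hw j₀).prime).2 (fun e => hj (hp e))
        have hI : IsCoprime ((p j : ℕ) : 𝓞 K) ((p j₀ : ℕ) : 𝓞 K) := by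
          have := (Nat.isCoprime_iff_coprime.2 hcop).map (Int.castRingHom (𝓞 K))
          simpa using this
        obtain ⟨a, b, hab⟩ := hI
        apply Q.isPrime.ne_top
        rw [Ideal.eq_top_iff_one, ← hab]
        exact Ideal.add_mem _ (Ideal.mul_mem_left _ _ hmem) (Ideal.mul_mem_left _ _ hpQ)
      have := (HeightOneSpectrum.valuation_eq_one_iff_notMem (v := Q) (K := K)).2 hnot
      simpa using this
    have h2 := hval (w j) (p j) (hw j) (h j) (y j) (hy j)
    rw [h1, one_pow] at h2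
    have h3 := (Finset.prod_eq_one_iff_of_le_one' (fun σ _ => val_le_one Q σ (y j))).1 h2
    exact fun σ => h3 σ (Finset.mem_univ _)
  -- the prime `w j₀` along the other embeddings
  have hsame : ∀ σ : F →+* K, σ ≠ σ₀ → V (σ (y j₀ : F)) = 1 := by
    have h2 := hval (w j₀) (p j₀) (hw j₀) (h j₀) (y j₀) (hy j₀)
    classical
    rw [← Finset.mul_prod_erase _ _ (Finset.mem_univ σ₀), hself] at h2
    have h3 : ∏ σ ∈ Finset.univ.erase σ₀, V (σ (y j₀ : F)) = 1 :=
      mul_left_cancel₀ (pow_ne_zero _ hp0') (by rw [h2, mul_one])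
    have h4 := (Finset.prod_eq_one_iff_of_le_one' (fun σ _ => val_le_one Q σ (y j₀))).1 h3
    exact fun σ hσ => h4 σ (Finset.mem_erase.2 ⟨hσ, Finset.mem_univ _⟩)
  intro hone
  have h1 := congrArg V hone
  rw [map_one, map_prod] at h1
  simp_rw [map_prod, map_zpow₀] at h1
  rw [Finset.prod_eq_single σ₀ (fun σ _ hσ => ?_) (fun hmem => absurd (Finset.mem_univ _) hmem)] at h1
  · rw [Finset.prod_eq_single j₀ (fun j _ hj => by rw [hother j hj, one_zpow])
      (fun hmem => absurd (Finset.mem_univ _) hmem)] at h1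
    rw [hself, ← zpow_natCast, ← zpow_mul,
      zpow_eq_one_iff_right₀ (zero_le) hp0.ne] at h1
    have h2 : (h j₀ : ℤ) ≠ 0 := by exact_mod_cast hh j₀
    exact mul_ne_zero h2 (mul_ne_zero hσ₀ hj₀) h1
  · refine Finset.prod_eq_one (fun j _ => ?_)
    by_cases hj : j = j₀
    · rw [hj, hsame σ hσ, one_zpow]
    · rw [hother j hj, one_zpow]

/-- the same in the unit group -/
theorem hInd_units (hK : Fintype.card (F →+* K) = finrank ℚ F) (n : ℕ)
    (w : Fin n → HeightOneSpectrum (𝓞 F)) (p : Fin n → ℕ) (hp : Function.Injective p)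
    (hw : ∀ j, Deg1 (w j) (p j)) (h : Fin n → ℕ) (hh : ∀ j, h j ≠ 0) (y : Fin n → 𝓞 F)
    (hy : ∀ j, Ideal.span {y j} = (w j).asIdeal ^ h j)
    (x : (F →+* K) → Fin n → Kˣ) (hx : ∀ σ j, (x σ j : K) = σ (y j : F))
    (m : (F →+* K) → ℤ) (t : Fin n → ℤ) (hm : m ≠ 0) (ht : t ≠ 0) :
    ∏ σ : F →+* K, ∏ j, (x σ j) ^ (m σ * t j) ≠ 1 := by
  intro hone
  apply hInd hK n w p hp hw h hh y hy m t hm ht
  have h1 := congrArg (fun u : Kˣ => (u : K)) hone
  simp only [Units.val_one, Units.coe_prod] at h1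
  rw [← h1]
  refine Finset.prod_congr rfl (fun σ _ => Finset.prod_congr rfl (fun j _ => ?_))
  rw [← hx, Units.val_zpow_eq_zpow_val]

theorem exists_big (F : Type*) [Field F] [NumberField F] :
    ∃ (K : IntermediateField ℚ (AlgebraicClosure F)) (_ : NumberField K),
      Fintype.card (F →+* K) = finrank ℚ F := by
  let K := IntermediateField.normalClosure ℚ F (AlgebraicClosure F)
  have : FiniteDimensional ℚ K := normalClosure.is_finiteDimensional ℚ F (AlgebraicClosure F)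
  have hK : NumberField K := ⟨⟩
  refine ⟨K, hK, ?_⟩
  rw [← AlgHom.card ℚ F (AlgebraicClosure F)]
  exact Fintype.card_congr ((RingHom.equivRatAlgHom F K).trans
    (normalClosure.algHomEquiv ℚ F (AlgebraicClosure F)))

end Deg1

end Crest.Agent.R018.WaldNFx614
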