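import Crest.Agent.R018.WThm_410
import Crest.Agent.R018.Bridge_275
import Crest.Agent.R018.WaldNF_614

/-!
# Row 18, l-adic Waldschmidt block: final form for degree one primes (helper614)

`full_of_deg1`: if `S` contains unramified primes of absolute degree one over arbitrarily large
rational primes, then finitely many of them already have `S`-units which are full at all high
levels at `l`.
-/

set_option autoImplicit false

noncomputable section

open scoped NumberField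
open IsDedekindDomain Module Crest.Agent.R018.LogDefsx575 Crest.Agent.R018.WaldNFx614

namespace Crest.Agent.R018.WaldFinx614

variable {F : Type*} [Field F] [NumberField F]

theorem exists_principal (w : HeightOneSpectrum (𝓞 F)) :
    ∃ (h : ℕ) (z : 𝓞 F), h ≠ 0 ∧ Ideal.span {z} = w.asIdeal ^ h := by
  have hw0 : w.asIdeal ∈ nonZeroDivisors (Ideal (𝓞 F)) := mem_nonZeroDivisors_of_ne_zero w.ne_bot
  have h1 : (ClassGroup.mk0 ⟨w.asIdeal, hw0⟩) ^ Nat.card (ClassGroup (𝓞 F)) = 1 :=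
    pow_card_eq_one'
  rw [← map_pow, ClassGroup.mk0_eq_one_iff] at h1
  obtain ⟨z, hz⟩ := h1.principal
  refine ⟨Nat.card (ClassGroup (𝓞 F)), z, Nat.card_pos.ne', ?_⟩
  rw [SubmonoidClass.coe_pow] at hz
  exact hz.symm

theorem exists_gen (l : ℕ) (hl : l ≠ 0) (w : HeightOneSpectrum (𝓞 F))
    (hw : (l : 𝓞 F) ∉ w.asIdeal) :
    ∃ (h : ℕ) (y : 𝓞 F), h ≠ 0 ∧ Ideal.span {y} = w.asIdeal ^ h ∧ (l : 𝓞 F) ^ 2 ∣ y - 1 := by
  obtain ⟨h, z, hh, hz⟩ := exists_principal w
  have hcop : IsCoprime w.asIdeal (Ideal.span {(l : 𝓞 F)}) := by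
    rw [Ideal.isCoprime_iff_sup_eq]
    have hlt : w.asIdeal < w.asIdeal ⊔ Ideal.span {(l : 𝓞 F)} := by
      refine lt_of_le_of_ne le_sup_left (fun e => hw ?_)
      rw [e]
      exact Ideal.mem_sup_right (Ideal.mem_span_singleton_self _)
    exact w.isMaximal.1.2 _ hlt
  have hcop2 : IsCoprime z ((l : 𝓞 F) ^ 2) := by
    rw [← Ideal.isCoprime_span_singleton_iff, hz, ← Ideal.span_singleton_pow]
    exact hcop.pow
  obtain ⟨a, b, hab⟩ := hcop2
  have hne : Ideal.span {(l : 𝓞 F) ^ 2} ≠ ⊥ := by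
    rw [Ne, Ideal.span_singleton_eq_bot]
    exact pow_ne_zero _ (by exact_mod_cast hl)
  have hfin : Finite (𝓞 F ⧸ Ideal.span {(l : 𝓞 F) ^ 2}) :=
    Ideal.finiteQuotientOfFreeOfNeBot _ hne
  let mk := Ideal.Quotient.mk (Ideal.span {(l : 𝓞 F) ^ 2})
  have hmk : mk ((l : 𝓞 F) ^ 2) = 0 :=
    Ideal.Quotient.eq_zero_iff_mem.2 (Ideal.mem_span_singleton_self _)
  have hu : mk z * mk a = 1 := by
    have := congrArg mk hab
    rw [map_add, map_mul, map_mul, hmk, mul_zero, add_zero, map_one] at this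
    rw [mul_comm]
    exact this
  let u : (𝓞 F ⧸ Ideal.span {(l : 𝓞 F) ^ 2})ˣ := Units.mkOfMulEqOne _ _ hu
  have hk : Nat.card (𝓞 F ⧸ Ideal.span {(l : 𝓞 F) ^ 2})ˣ ≠ 0 := Nat.card_pos.ne'
  have h1 : u ^ Nat.card (𝓞 F ⧸ Ideal.span {(l : 𝓞 F) ^ 2})ˣ = 1 := pow_card_eq_one'
  have h2 : mk (z ^ Nat.card (𝓞 F ⧸ Ideal.span {(l : 𝓞 F) ^ 2})ˣ - 1) = 0 := by
    have := congrArg Units.val h1
    rw [Units.val_pow_eq_pow_val, Units.val_one] at this
    rw [map_sub, map_pow, map_one, sub_eq_zero]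
    exact this
  refine ⟨h * Nat.card (𝓞 F ⧸ Ideal.span {(l : 𝓞 F) ^ 2})ˣ,
    z ^ Nat.card (𝓞 F ⧸ Ideal.span {(l : 𝓞 F) ^ 2})ˣ, mul_ne_zero hh hk, ?_, ?_⟩
  · rw [← Ideal.span_singleton_pow, hz, pow_mul]
  · rw [← Ideal.mem_span_singleton]
    exact Ideal.Quotient.eq_zero_iff_mem.1 h2

/-- a generator of a power of `w` is a `T`-unit if `w ∈ T` -/
theorem mem_unit (T : Set (HeightOneSpectrum (𝓞 F))) (w : HeightOneSpectrum (𝓞 F)) (hw : w ∈ T)
    (h : ℕ) (y : 𝓞 F) (hy : Ideal.span {y} = w.asIdeal ^ h) :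
    ∃ x ∈ T.unit F, ((x : Fˣ) : F) = (y : F) := by
  have hy0 : y ≠ 0 := by
    rintro rfl
    have h1 : w.asIdeal ^ h = ⊥ := by rw [← hy]; simp
    exact pow_ne_zero h w.ne_bot h1
  have hy0' : (y : F) ≠ 0 := by simpa using hy0
  refine ⟨Units.mk0 (y : F) hy0', fun v hv => ?_, rfl⟩
  refine (HeightOneSpectrum.valuation_eq_one_iff_notMem (v := v) (K := F)).2 (fun hmem => hv ?_)
  have h1 : w.asIdeal ^ h ≤ v.asIdeal := by
    rw [← hy, Ideal.span_singleton_le_iff_mem]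
    exact hmem
  have h2 : w.asIdeal ≤ v.asIdeal := by
    rcases eq_or_ne h 0 with rfl | hh
    · rw [pow_zero, Ideal.one_eq_top] at h1
      exact absurd (top_le_iff.1 h1) v.isPrime.ne_top
    · exact (v.isPrime.pow_le_iff hh).1 h1
  have h3 : w = v := HeightOneSpectrum.ext (w.isMaximal.eq_of_le v.isPrime.ne_top h2)
  rw [← h3]
  exact hw

/-- **Final form of the l-adic Waldschmidt block.** -/
theorem full_of_deg1 (l : ℕ) [hl : Fact l.Prime] (S : Set (HeightOneSpectrum (𝓞 F)))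
    (hS : ∀ B : ℕ, ∃ w ∈ S, ∃ p, B < p ∧ Deg1 w p) :
    ∃ T ⊆ S, T.Finite ∧ Disjoint T (PA F l) ∧ ∃ j0, ∀ j ≥ j0, Full F l T j := by
  choose w hwS p hp hw using hS
  -- the sequence of primes
  let b : ℕ → ℕ := fun n => Nat.rec l (fun _ x => p x) n
  have hb : ∀ n, b (n + 1) = p (b n) := fun n => rfl
  have hmono : StrictMono (fun n => p (b n)) := by
    apply strictMono_nat_of_lt_succ
    intro n
    have := hp (b (n + 1))
    rw [hb] at this ⊢
    exact this
  have hbl : ∀ n, l ≤ b n := by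
    intro n
    induction n with
    | zero => exact le_rfl
    | succ n ih => rw [hb]; exact ih.trans (hp _).le
  have hlw : ∀ n, (l : 𝓞 F) ∉ (w (b n)).asIdeal := by
    intro n hmem
    have h1 := (hw (b n)).mem
    have hne : l ≠ p (b n) := ((hbl n).trans_lt (hp _)).ne
    have hcop : Nat.Coprime l (p (b n)) := (Nat.coprime_primes hl.out (hw (b n)).prime).2 hne
    have hI : IsCoprime (l : 𝓞 F) ((p (b n) : ℕ) : 𝓞 F) := by
      have := (Nat.isCoprime_iff_coprime.2 hcop).map (Int.castRingHom (𝓞 F))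
      simpa using this
    obtain ⟨c, d, hcd⟩ := hI
    apply (w (b n)).isPrime.ne_top
    rw [Ideal.eq_top_iff_one, ← hcd]
    exact Ideal.add_mem _ (Ideal.mul_mem_left _ _ hmem) (Ideal.mul_mem_left _ _ h1)
  choose h y hh hy hyl using fun n => exists_gen l hl.out.ne_zero (w (b n)) (hlw n)
  have hy0 : ∀ j, y j ≠ 0 := by
    intro j hj
    have h1 : (w (b j)).asIdeal ^ h j = ⊥ := by rw [← hy, hj]; simp
    exact pow_ne_zero (h j) (w (b j)).ne_bot h1
  obtain ⟨K, hKn, hK⟩ := exists_big F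
  have hne : Nonempty (F →+* K) := by
    rw [← Fintype.card_pos_iff, hK]
    exact finrank_pos
  obtain ⟨n, e0, hW⟩ := WThm410.thmW_emb F K l hl.out.two_le y hy0 (fun n m t hm ht =>
    hInd hK n (fun j => w (b j)) (fun j => p (b j))
      (fun i j hij => Fin.ext (hmono.injective hij)) (fun j => hw (b j)) (fun j => h j)
      (fun j => hh j) (fun j => y j) (fun j => hy j) m t hm ht)
  refine ⟨(fun j => w (b j)) '' (Set.Iio n), ?_, (Set.finite_Iio n).image _, ?_, max 2 e0, ?_⟩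
  · rintro _ ⟨j, _, rfl⟩
    exact hwS _
  · rw [Set.disjoint_left]
    rintro _ ⟨j, _, rfl⟩
    exact hlw j
  · intro j hj
    have hj2 : 2 ≤ j := (le_max_left _ _).trans hj
    have hje : e0 ≤ j + 1 := ((le_max_right _ _).trans hj).trans (Nat.le_succ j)
    refine Bridgex275.full_of_W4 l y n e0 ?_ (fun j _ => hyl j) _ (fun j hj => ?_) j hj2 hje
    · intro e he r hr η hη a
      exact hW e he r (by rw [hK]; exact hr) η hη a
    · exact mem_unit _ (w (b j)) (Set.mem_image_of_mem (fun j => w (b j)) hj) (h j) (y j) (hy j)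

end Crest.Agent.R018.WaldFinx614
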