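import Crest.Agent.R018.DegB_614
import Crest.Agent.R018.LogFin_575
import Crest.Agent.R018.KerClB_793
import Crest.Agent.R018.SemiLocF_476
import Crest.Agent.R018.LogB_824
import Crest.Agent.R018.WaldFin_614

/-!
# Row 18: the degree one theorem (helper614)

A continuous `ℤ_l`-valued character (`l` odd) of the Galois group of a number field which is
trivial on Frobenius elements at infinitely many unramified primes of absolute degree one is
trivial.
-/

set_option autoImplicit false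

noncomputable section

open NumberField Module IsDedekindDomain
open scoped Pointwise
open Crest.Agent.R018.Placesx484 Crest.Agent.R018.Placesx484.Place Crest.Agent.R018.Tamex31
  Crest.Agent.R018.DegAx614 Crest.Agent.R018.DegBx614 Crest.Agent.R018.WaldNFx614
  Crest.Agent.R018.LogDefsx575

namespace Crest.Agent.R018.DegThmx614

section Layer

variable {F E : Type*} [Field F] [NumberField F] [Field E] [Algebra F E] [IsGalois F E]
  [CharZero E] {l : ℕ} [hl : Fact l.Prime]

variable (hE : ∀ n : ℕ, ∃ ζ : E, IsPrimitiveRoot ζ (l ^ n))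
  (lam : (E ≃ₐ[F] E) →* Multiplicative ℤ_[l]) (hlam : Continuous lam) (n : ℕ)
  (L : IntermediateField F E) [FiniteDimensional F L] [IsGalois F L]
  (hL : L.fixingSubgroup = (red n lam).ker)

theorem rchar_ne (v : HeightOneSpectrum (𝓞 F)) (hv : v ∉ PA F l) (P : Place E)
    (hP : (P.res F).ideal = v.asIdeal) : P.rchar ≠ l := by
  intro h
  apply hv
  have h1 : (P.res F).rchar = l := by rw [rchar_res, h]
  have h2 := (P.res F).rchar_mem
  rw [h1, hP] at h2
  exact h2

theorem liesOver [NumberField L] (v : HeightOneSpectrum (𝓞 F)) (P : Place E)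
    (hP : (P.res F).ideal = v.asIdeal) : (P.res L).ideal.LiesOver v.asIdeal := by
  constructor
  have h1 := congrArg Place.ideal (res_res F L P)
  rw [hP] at h1
  rw [← h1]
  rfl

include hE hlam hL in
theorem ramIn_layer [NumberField L] (v : HeightOneSpectrum (𝓞 F)) (hv : v ∉ PA F l) :
    v.asIdeal.ramificationIdxIn (𝓞 L) = 1 := by
  obtain ⟨P, hP⟩ := exists_res_eq (E := E) F (⟨v.asIdeal, v.isPrime, v.ne_bot⟩ : Place F)
  have hP' : (P.res F).ideal = v.asIdeal := by rw [hP]
  have hQv := liesOver L v P hP'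
  have hperf := FrobCountx389.perfect_residue v.asIdeal v.ne_bot
  rw [← Ideal.card_inertia_eq_ramificationIdxIn (G := L ≃ₐ[F] L) v.asIdeal (P.res L).ideal]
  have h1 : (P.res L).ideal.inertia (L ≃ₐ[F] L) = ⊥ := by
    rw [eq_bot_iff]
    intro σ hσ
    rw [Subgroup.mem_bot]
    exact inertia_layer hE lam hlam n L hL P (rchar_ne v hv P hP') σ hσ
  rw [h1]
  exact Subgroup.card_bot

include hE hlam hL in
theorem ncard_layer [NumberField L] (w : HeightOneSpectrum (𝓞 F)) (hw : w ∉ PA F l) (p : ℕ)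
    (hwp : Deg1 w p) (P : Place E) (hP : (P.res F).ideal = w.asIdeal) (s : E ≃ₐ[F] E)
    (hs : ∀ x : 𝓞 E, s • x - x ^ p ∈ P.ideal) (hs1 : lam s = 1) :
    (w.asIdeal.primesOver (𝓞 L)).ncard = finrank F L := by
  have hQv := liesOver L w P hP
  have hram : (P.res L).ideal.ramificationIdx (𝓞 F) = 1 := by
    rw [← Ideal.ramificationIdxIn_eq_ramificationIdx w.asIdeal (P.res L).ideal (L ≃ₐ[F] L)]
    exact ramIn_layer hE lam hlam n L hL w hw
  have hunder : (P.res L).ideal.under (𝓞 F) = w.asIdeal := hQv.over.symm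
  have hstab : MulAction.stabilizer (L ≃ₐ[F] L) (P.res L).ideal = ⊥ := by
    rw [← FrobElemx389.zpowers_frob (P.res L).ideal (P.res L).ne_bot hram 1 ?_, Subgroup.zpowers_one_eq_bot]
    intro x
    rw [hunder, hwp.absNorm, one_smul, mem_res]
    have h1 := hs (algebraMap (𝓞 L) (𝓞 E) x)
    have h2 : s • (algebraMap (𝓞 L) (𝓞 E) x) = algebraMap (𝓞 L) (𝓞 E) x := by
      apply NumberField.RingOfIntegers.coe_injective
      have h3 : algebraMap (𝓞 E) E (s • algebraMap (𝓞 L) (𝓞 E) x) =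
          s (algebraMap (𝓞 E) E (algebraMap (𝓞 L) (𝓞 E) x)) := algebraMap.smul' _ _ E
      rw [h3]
      exact restrict_eq_one lam n L hL s hs1 (x : L)
    rw [h2] at h1
    rw [map_sub, map_pow]
    exact h1
  rw [← Algebra.IsInvariant.orbit_eq_primesOver (𝓞 F) (𝓞 L) (L ≃ₐ[F] L) w.asIdeal (P.res L).ideal]
  rw [← MulAction.index_stabilizer, hstab, Subgroup.index_bot]
  exact IsGalois.card_aut_eq_finrank F L

end Layer

/-- **Degree one theorem.** -/
theorem deg_one {F E : Type*} [Field F] [NumberField F] [Field E] [Algebra F E] [IsGalois F E]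
    [CharZero E] {l : ℕ} [hl : Fact l.Prime] (hl2 : l ≠ 2)
    (hE : ∀ n : ℕ, ∃ ζ : E, IsPrimitiveRoot ζ (l ^ n))
    (lam : (E ≃ₐ[F] E) →* Multiplicative ℤ_[l]) (hlam : Continuous lam)
    (h : ∀ B : ℕ, ∃ (p : ℕ) (w : HeightOneSpectrum (𝓞 F)) (P : Place E) (s : E ≃ₐ[F] E),
      B < p ∧ Deg1 w p ∧ (P.res F).ideal = w.asIdeal ∧
      (∀ x : 𝓞 E, s • x - x ^ p ∈ P.ideal) ∧ lam s = 1) : lam = 1 := by
  by_contra hne
  obtain ⟨g, hg⟩ : ∃ g, lam g ≠ 1 := by
    by_contra hall
    push Not at hall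
    exact hne (MonoidHom.ext hall)
  let S : Set (HeightOneSpectrum (𝓞 F)) := {w | ∃ (p : ℕ) (P : Place E) (s : E ≃ₐ[F] E),
    Deg1 w p ∧ (P.res F).ideal = w.asIdeal ∧ (∀ x : 𝓞 E, s • x - x ^ p ∈ P.ideal) ∧ lam s = 1}
  obtain ⟨T, hTS, hTf, hTd, j0, hfull⟩ := WaldFinx614.full_of_deg1 l S (fun B => by
    obtain ⟨p, w, P, s, hp, hw, hP, hs, hs1⟩ := h B
    exact ⟨w, ⟨p, P, s, hw, hP, hs, hs1⟩, p, hp, hw⟩)
  set j := max j0 1 with hj
  obtain ⟨n, hn⟩ := card_range_red lam g hg
    (Nat.card (ClassGroup (𝓞 F)) * (Uk F l j).relIndex (Rl F l))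
  have : NeZero (l ^ n) := ⟨pow_ne_zero _ hl.out.ne_zero⟩
  have hfin : Finite (Multiplicative (ZMod (l ^ n))) := inferInstance
  obtain ⟨L, hfd, hgal, hL, hrank, σ, hσ⟩ := exists_layer (red n lam) (isOpen_ker_red n lam hlam)
  have hLn : NumberField L := NumberField.of_module_finite F L
  have hodd : Odd (finrank F L) := by
    rw [hrank]
    exact (hl.out.odd_of_ne_two hl2).pow.of_dvd_nat (card_range_red_dvd lam n)
  have hb := LogFinx575.bound_of_blocks (LogBx824.blockB F L) (KerClBx793.blockC' F L)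
    (SemiLocx476.blockD' F L) hgal σ hσ hodd hl.out hl2
    (fun v hv => ramIn_layer hE lam hlam n L hL v hv) hTf hTd (fun v hv => by
      obtain ⟨p, P, s, hw, hP, hs, hs1⟩ := hTS hv
      exact ncard_layer hE lam hlam n L hL v (Set.disjoint_left.1 hTd hv) p hw P hP s hs hs1)
    (le_max_right j0 1) (hfull j (le_max_left _ _))
  rw [hrank] at hb
  exact absurd hb (not_le.2 hn)

end Crest.Agent.R018.DegThmx614
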