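import Mathlib
import Crest.Agent.R018.EndA_245

/-!
# Row 18, end game, part A, surjectivity-side form (helper245)

`exists_global_embedding_sub`: the version of the end game needed by THEOREM U of the CORE text:
`H ≤ Gal(Ω/F₁)` of finite index, `φ i : H ≃* H` a finite family of automorphisms (conjugations by
elements of `Gal(Ω/ℚ)`), and for every `g ∈ H` ONE of the `φ i g` is pointwise good (at every
finite level).  Then there is a global embedding `j`.
-/

set_option autoImplicit false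

namespace Crest.Agent.R018.EndA2x245

open Crest.Agent.R018.EndAx245
open scoped Pointwise

section unique

variable {F₁ F₂ Ω E₂ : Type*} [Field F₁] [NumberField F₁] [Field F₂] [NumberField F₂] [Field Ω]
  [Field E₂] [Algebra F₁ Ω] [Algebra F₂ E₂]
  {α : (Ω ≃ₐ[F₁] Ω) →* (E₂ ≃ₐ[F₂] E₂)} {K : IntermediateField F₂ E₂}

/-- **existence** (B. H. Neumann), general form: a subgroup `H` of finite index, finitely many
group automorphisms `φ i` of `H` of which one makes `g` pointwise good: some `C(e)` has finite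
index in the whole group. -/
theorem exists_finiteIndex_sub [FiniteDimensional F₂ K] [Normal F₂ K]
    (H : Subgroup (Ω ≃ₐ[F₁] Ω)) (hH : H.FiniteIndex)
    {I : Type*} [Finite I] (φ : I → (H ≃* H))
    (hpt : ∀ g : H, ∃ i, ∃ e : E₂ →+* Ω, ∀ x,
      (φ i g : Ω ≃ₐ[F₁] Ω) (e x) = e (α (φ i g : Ω ≃ₐ[F₁] Ω) x)) :
    ∃ e : E₂ →+* Ω, (C α K e).FiniteIndex := by
  classical
  have hKn : NumberField K := NumberField.of_module_finite F₂ K
  have hchar : CharZero Ω := charZero_of_injective_algebraMap (algebraMap F₁ Ω).injective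
  let U : I → Subgroup H := fun i =>
    ((((AlgEquiv.restrictNormalHom K).comp α).comp H.subtype).comp (φ i).toMonoidHom).ker
  have hUf : ∀ i, (U i).FiniteIndex := fun i => Subgroup.finiteIndex_ker _
  have hU : ∀ i, ∀ g ∈ U i, ∀ x ∈ K, α (φ i g : Ω ≃ₐ[F₁] Ω) x = x := by
    intro i g hg x hx
    rw [MonoidHom.mem_ker, MonoidHom.comp_apply, MonoidHom.comp_apply, MonoidHom.comp_apply] at hg
    have h1 := AlgEquiv.restrictNormal_commutes (α (φ i g : Ω ≃ₐ[F₁] Ω)) K ⟨x, hx⟩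
    have h2 : (α (φ i g : Ω ≃ₐ[F₁] Ω)).restrictNormal K = 1 := hg
    rw [h2] at h1
    exact h1.symm
  let U' : Subgroup H := ⨅ i, U i
  have hU'f : U'.FiniteIndex := Subgroup.finiteIndex_iInf hUf
  have hQ : Finite (H ⧸ U') := inferInstance
  let T := {f : K →+* Ω // ∃ e : E₂ →+* Ω, e.comp (algebraMap K E₂) = f}
  have hT : Finite T := inferInstance
  let ext : T → (E₂ →+* Ω) := fun f => f.2.choose
  have hext : ∀ f : T, (ext f).comp (algebraMap K E₂) = f.1 := fun f => f.2.choose_spec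
  have : Fintype ((H ⧸ U') × (I × T)) := Fintype.ofFinite _
  have hcov : ⋃ i ∈ (Finset.univ : Finset ((H ⧸ U') × (I × T))),
      (i.1.out : H) • ((((C α K (ext i.2.2)).comap H.subtype).comap (φ i.2.1).toMonoidHom :
        Subgroup H) : Set H) = Set.univ := by
    rw [Set.eq_univ_iff_forall]
    intro g
    set q : H ⧸ U' := QuotientGroup.mk g with hq
    have hu : q.out⁻¹ * g ∈ U' := by
      rw [← QuotientGroup.eq, QuotientGroup.out_eq']
    obtain ⟨i, e, he⟩ := hpt (q.out⁻¹ * g)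
    have hui : q.out⁻¹ * g ∈ U i := (Subgroup.mem_iInf.mp hu) i
    have heC : (φ i (q.out⁻¹ * g) : Ω ≃ₐ[F₁] Ω) ∈ C α K e := ⟨hU i _ hui, fun t _ => he t⟩
    let f : T := ⟨e.comp (algebraMap K E₂), e, rfl⟩
    have hfe : ∀ x ∈ K, e x = ext f x := by
      intro x hx
      have := congrArg (fun φ : K →+* Ω => φ ⟨x, hx⟩) (hext f)
      exact this.symm
    rw [C_congr hfe] at heC
    simp only [Set.mem_iUnion, Finset.mem_univ, exists_true_left]
    refine ⟨(q, (i, f)), ?_⟩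
    rw [mem_leftCoset_iff]
    exact heC
  obtain ⟨i, -, hi⟩ := Subgroup.exists_finiteIndex_of_leftCoset_cover hcov
  refine ⟨ext i.2.2, ⟨?_⟩⟩
  have h1 := hi.index_ne_zero
  rw [Subgroup.index_comap_of_surjective _ (φ i.2.1).surjective] at h1
  -- `(C.comap H.subtype).index ≠ 0` means `C.relIndex H ≠ 0`
  have h2 : (C α K (ext i.2.2)).relIndex H ≠ 0 := h1
  have h3 := Subgroup.relIndex_mul_index (inf_le_right : C α K (ext i.2.2) ⊓ H ≤ H)
  rw [Subgroup.inf_relIndex_right] at h3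
  have h4 : (C α K (ext i.2.2) ⊓ H).index ≠ 0 := by
    rw [← h3]; exact mul_ne_zero h2 hH.index_ne_zero
  intro h5
  apply h4
  have h6 := Subgroup.relIndex_mul_index (inf_le_left : C α K (ext i.2.2) ⊓ H ≤ C α K (ext i.2.2))
  rw [h5, mul_zero] at h6
  exact h6.symm

end unique

section main

variable {F₁ F₂ Ω E₂ : Type*} [Field F₁] [NumberField F₁] [Field F₂] [NumberField F₂] [Field Ω]
  [Field E₂] [Algebra F₁ Ω] [Algebra F₂ E₂] [IsGalois F₁ Ω] [IsGalois F₂ E₂]
  {α : (Ω ≃ₐ[F₁] Ω) →* (E₂ ≃ₐ[F₂] E₂)}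

/-- from "some `C(e)` of finite index for every finite normal `K`" to the global embedding -/
theorem exists_global_of_finiteIndex (hsq : ∀ x : E₂, ∃ y, y ^ 2 = x)
    (hfi : ∀ K : IntermediateField F₂ E₂, FiniteDimensional F₂ K → Normal F₂ K →
      ∃ e : E₂ →+* Ω, (C α K e).FiniteIndex) :
    ∃ e : E₂ →+* Ω, ∀ (g : Ω ≃ₐ[F₁] Ω) (x : E₂), g (e x) = e (α g x) := by
  classical
  -- local data
  have hex : ∀ x : E₂, ∃ z : Ω, ∀ K : IntermediateField F₂ E₂, FiniteDimensional F₂ K →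
      Normal F₂ K → x ∈ K → ∀ e : E₂ →+* Ω, (C α K e).FiniteIndex → e x = z := by
    intro x
    obtain ⟨K₀, hK₀, hK₀', hx, -⟩ := exists_normal_mem (F₂ := F₂) x x
    obtain ⟨e₀, he₀⟩ := hfi K₀ hK₀ hK₀'
    refine ⟨e₀ x, ?_⟩
    intro K hK hK' hxK e he
    -- compare on `K ⊓ K₀`
    have h1 : (C α (K ⊓ K₀) e).FiniteIndex :=
      Subgroup.finiteIndex_of_le (C_mono inf_le_left e)
    have h2 : (C α (K ⊓ K₀) e₀).FiniteIndex :=
      Subgroup.finiteIndex_of_le (C_mono inf_le_right e₀)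
    have h3 : FiniteDimensional F₂ ↥(K ⊓ K₀) :=
      FiniteDimensional.of_injective (IntermediateField.inclusion inf_le_left).toLinearMap
        (IntermediateField.inclusion_injective inf_le_left)
    exact eqOn_of_finiteIndex hsq h1 h2 x ⟨hxK, hx⟩
  choose j hj using hex
  -- for any finite normal `K` there is `e` with `j = e` on `K`
  have hloc : ∀ K : IntermediateField F₂ E₂, FiniteDimensional F₂ K → Normal F₂ K →
      ∃ e : E₂ →+* Ω, (∀ x ∈ K, j x = e x) ∧ ∀ g : Ω ≃ₐ[F₁] Ω, ∀ x ∈ K, g (e x) = e (α g x) := by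
    intro K hK hK'
    obtain ⟨e, he⟩ := hfi K hK hK'
    exact ⟨e, fun x hx => (hj x K hK hK' hx e he).symm, equivariant_of_finiteIndex hsq he⟩
  have hone : j 1 = 1 := by
    obtain ⟨K, hK, hK', -, -⟩ := exists_normal_mem (F₂ := F₂) (1 : E₂) 1
    obtain ⟨e, he, -⟩ := hloc K hK hK'
    rw [he _ K.one_mem, map_one]
  have hzero : j 0 = 0 := by
    obtain ⟨K, hK, hK', -, -⟩ := exists_normal_mem (F₂ := F₂) (1 : E₂) 1
    obtain ⟨e, he, -⟩ := hloc K hK hK'
    rw [he _ K.zero_mem, map_zero]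
  have hmul : ∀ x y, j (x * y) = j x * j y := by
    intro x y
    obtain ⟨K, hK, hK', hx, hy⟩ := exists_normal_mem (F₂ := F₂) x y
    obtain ⟨e, he, -⟩ := hloc K hK hK'
    rw [he _ (K.mul_mem hx hy), he _ hx, he _ hy, map_mul]
  have hadd : ∀ x y, j (x + y) = j x + j y := by
    intro x y
    obtain ⟨K, hK, hK', hx, hy⟩ := exists_normal_mem (F₂ := F₂) x y
    obtain ⟨e, he, -⟩ := hloc K hK hK'
    rw [he _ (K.add_mem hx hy), he _ hx, he _ hy, map_add]
  refine ⟨⟨⟨⟨j, hone⟩, hmul⟩, hzero, hadd⟩, ?_⟩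
  intro g x
  obtain ⟨K, hK, hK', hx, -⟩ := exists_normal_mem (F₂ := F₂) x x
  obtain ⟨e, he, he'⟩ := hloc K hK hK'
  change g (j x) = j (α g x)
  rw [he _ hx, he _ (mem_of_normal _ hx)]
  exact he' g x hx

omit [NumberField F₁] [IsGalois F₁ Ω] in
/-- compactness with a finite choice -/
theorem pointwise_of_finite_choice {I : Type*} [Finite I] [CharZero Ω]
    (ψ : I → (Ω ≃ₐ[F₁] Ω))
    (h : ∀ T : Finset E₂, ∃ i, ∃ e : E₂ →+* Ω, ∀ x ∈ T, (ψ i) (e x) = e (α (ψ i) x)) :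
    ∃ i, ∃ e : E₂ →+* Ω, ∀ x, (ψ i) (e x) = e (α (ψ i) x) := by
  classical
  by_contra hcon
  push Not at hcon
  have h1 : ∀ i, ∃ T : Finset E₂, ∀ e : E₂ →+* Ω, ∃ x ∈ T, (ψ i) (e x) ≠ e (α (ψ i) x) := by
    intro i
    by_contra h2
    push Not at h2
    obtain ⟨e, he⟩ := pointwise_of_finite (fun x => isAlgebraic_int (F := F₂) x) (ψ i)
      (α (ψ i)) h2
    obtain ⟨x, hx⟩ := hcon i e
    exact hx (he x)
  choose T hT using h1
  have : Fintype I := Fintype.ofFinite I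
  obtain ⟨i, e, he⟩ := h (Finset.univ.biUnion T)
  obtain ⟨x, hx, hx'⟩ := hT i e
  exact hx' (he x (Finset.mem_biUnion.mpr ⟨i, Finset.mem_univ i, hx⟩))

/-- **Part A of the end game, surjectivity-side form, finite level input.** -/
theorem exists_global_embedding_sub (hsq : ∀ x : E₂, ∃ y, y ^ 2 = x)
    (H : Subgroup (Ω ≃ₐ[F₁] Ω)) (hH : H.FiniteIndex)
    {I : Type*} [Finite I] (φ : I → (H ≃* H))
    (hpt : ∀ (g : H) (T : Finset E₂), ∃ i, ∃ e : E₂ →+* Ω, ∀ x ∈ T,
      (φ i g : Ω ≃ₐ[F₁] Ω) (e x) = e (α (φ i g : Ω ≃ₐ[F₁] Ω) x)) :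
    ∃ e : E₂ →+* Ω, ∀ (g : Ω ≃ₐ[F₁] Ω) (x : E₂), g (e x) = e (α g x) := by
  have hc : CharZero Ω := charZero_of_injective_algebraMap (algebraMap F₁ Ω).injective
  refine exists_global_of_finiteIndex hsq fun K hK hK' => ?_
  exact exists_finiteIndex_sub H hH φ fun g =>
    pointwise_of_finite_choice (fun i => (φ i g : Ω ≃ₐ[F₁] Ω)) (hpt g)

end main

end Crest.Agent.R018.EndA2x245
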