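import Mathlib
import Crest.Agent.R018.ConsDef_933
import Crest.Agent.R018.Places3_484
import Crest.Agent.R018.Frobenius_389

/-!
# Row 18: `FDE E`, Frobenius density over `ℚ` for places of an infinite Galois extension `E / ℚ`
-/

set_option autoImplicit false
set_option linter.unusedSectionVars false

open NumberField Ideal MulAction
open scoped Pointwise
open Crest.Agent.R018.Placesx484 Crest.Agent.R018.ConsDefx933

namespace Crest.Agent.R018.FDEx389

noncomputable section

variable {E : Type} [Field E] [CharZero E] [IsGalois ℚ E]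

/-- the fixed field of an open normal subgroup is a finite Galois extension and the subgroup is
recovered from it -/
theorem fixedField_facts (N : Subgroup (E ≃ₐ[ℚ] E)) [hN : N.Normal]
    (ho : IsOpen (N : Set (E ≃ₐ[ℚ] E))) :
    (IntermediateField.fixedField N).fixingSubgroup = N ∧
    FiniteDimensional ℚ (IntermediateField.fixedField N) ∧
    IsGalois ℚ (IntermediateField.fixedField N) := by
  have hcl : IsClosed (N : Set (E ≃ₐ[ℚ] E)) := Subgroup.isClosed_of_isOpen N ho
  have h1 : (IntermediateField.fixedField N).fixingSubgroup = N :=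
    InfiniteGalois.fixingSubgroup_fixedField ⟨N, hcl⟩
  refine ⟨h1, ?_, ?_⟩
  · rw [← InfiniteGalois.isOpen_iff_finite]
    change IsOpen ((IntermediateField.fixedField N).fixingSubgroup : Set (E ≃ₐ[ℚ] E))
    rw [h1]; exact ho
  · have h2 := (InfiniteGalois.normal_iff_isGalois (IntermediateField.fixedField N)).mp
      (by rw [h1]; exact hN)
    have e : (DivisionRing.toRatAlgebra : Algebra ℚ (IntermediateField.fixedField N)) =
      IntermediateField.algebra' _ := Subsingleton.elim _ _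
    rw [e]
    exact h2

theorem qv_rat (P : Place E) : P.qv ℚ = P.rchar := by
  have hp := P.rchar_prime
  have : Fact P.rchar.Prime := ⟨hp⟩
  have hq : (P.res ℚ).rchar = P.rchar := Place.rchar_res ℚ P
  rw [Place.qv_def]
  have : (P.res ℚ).ideal.IsPrime := inferInstance
  have hmem : (P.rchar : 𝓞 ℚ) ∈ (P.res ℚ).ideal := by
    have := (P.res ℚ).rchar_mem
    rwa [hq] at this
  have hmax : (P.res ℚ).ideal.IsMaximal := (P.res ℚ).isMaximal
  let e : 𝓞 ℚ ≃+* ℤ := Rat.ringOfIntegersEquiv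
  have hI : (P.res ℚ).ideal = Ideal.span {(P.rchar : 𝓞 ℚ)} := by
    have hpr : Prime (P.rchar : 𝓞 ℚ) := by
      have h2 : Prime (P.rchar : ℤ) := Nat.prime_iff_prime_int.mp hp
      have h3 : e (P.rchar : 𝓞 ℚ) = (P.rchar : ℤ) := map_natCast e _
      rw [← h3] at h2
      exact (MulEquiv.prime_iff (e : 𝓞 ℚ ≃* ℤ)).mp h2
    have hp0 : (Ideal.span {(P.rchar : 𝓞 ℚ)}) ≠ ⊥ := by
      rw [Ne, Ideal.span_singleton_eq_bot]; exact hpr.ne_zero
    have hpm : (Ideal.span {(P.rchar : 𝓞 ℚ)}).IsPrime :=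
      (Ideal.span_singleton_prime hpr.ne_zero).mpr hpr
    have hmx : (Ideal.span {(P.rchar : 𝓞 ℚ)}).IsMaximal := Ideal.IsPrime.isMaximal hpm hp0
    exact (hmx.eq_of_le hmax.ne_top (by rwa [Ideal.span_singleton_le_iff_mem])).symm
  have h4 : absNorm (P.res ℚ).ideal = P.rchar := by
    rw [hI, Ideal.absNorm_span_natCast]
    have : Module.finrank ℤ (𝓞 ℚ) = 1 := by
      rw [NumberField.RingOfIntegers.rank, Module.finrank_self]
    rw [this, pow_one]
  rw [← h4]
  rfl

theorem exists_frobQ (Q : Place E) : ∃ F : E ≃ₐ[ℚ] E, F • Q = Q ∧ FrobQ Q F := by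
  obtain ⟨F, h1, h2⟩ := Place.exists_frob (F := ℚ) Q
  refine ⟨F, h1, fun x => ?_⟩
  have := h2 x
  rwa [qv_rat] at this

/-- **FDE** -/
theorem fde (E : Type) [Field E] [CharZero E] [IsGalois ℚ E] : FDE E := by
  intro N _ ho g B0
  obtain ⟨hfix, hfin, hgal⟩ := fixedField_facts N ho
  set K := IntermediateField.fixedField N with hK
  have : NumberField K := {
    to_charZero := inferInstance
    to_finiteDimensional := hfin }
  let σ : Gal(K/ℚ) := AlgEquiv.restrictNormalHom K g
  obtain ⟨p, hp, hpB, hur, P, hP, hP0, hmem, hnorm, hst, -⟩ :=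
    Crest.Agent.R018.Frobeniusx389.exists_frob σ B0
  obtain ⟨Q, hQ⟩ := Place.exists_res_eq (E := E) K (⟨P, hP, hP0⟩ : Place K)
  have hQP : Q.ideal.comap (algebraMap (𝓞 K) (𝓞 E)) = P := congrArg Place.ideal hQ
  have hQp : Q.rchar = p := by
    rw [← Place.rchar_res K Q, hQ]
    exact Place.rchar_eq_of_mem _ hp hmem
  obtain ⟨F, -, hF⟩ := exists_frobQ Q
  let ψ : Gal(K/ℚ) := AlgEquiv.restrictNormalHom K F
  have hψ : ∀ x : 𝓞 K, ψ • x - x ^ p ∈ P := by
    intro x
    have h1 := hF (algebraMap (𝓞 K) (𝓞 E) x)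
    rw [hQp] at h1
    rw [← hQP, Ideal.mem_comap, map_sub, map_pow]
    have h2 : algebraMap (𝓞 K) (𝓞 E) (ψ • x) = F • algebraMap (𝓞 K) (𝓞 E) x := by
      apply NumberField.RingOfIntegers.coe_injective
      exact AlgEquiv.restrictNormal_commutes F K (x : K)
    rw [h2]
    exact h1
  have hz : Subgroup.zpowers ψ = Subgroup.zpowers σ := by
    rw [Crest.Agent.R018.FrobElemx389.zpowers_frob P hP0 (hur P hP hP0 hmem) ψ
      (by rw [hnorm]; exact hψ), hst]
  have hker : ∀ f : E ≃ₐ[ℚ] E, AlgEquiv.restrictNormalHom K f = 1 → f ∈ N := by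
    intro f hf
    rw [← hfix, IntermediateField.mem_fixingSubgroup_iff]
    intro x hx
    have h1 : (((AlgEquiv.restrictNormalHom K f) ⟨x, hx⟩ : K) : E) = f x :=
      AlgEquiv.restrictNormal_commutes f K ⟨x, hx⟩
    rw [← h1, hf]
    rfl
  refine ⟨Q, F, by rw [hQp]; exact hpB, hF, ?_, ?_⟩
  · have h1 : ψ ∈ Submonoid.powers σ := by
      rw [mem_powers_iff_mem_zpowers, ← hz]
      exact Subgroup.mem_zpowers ψ
    obtain ⟨k, hk⟩ := h1
    refine ⟨k, hker _ ?_⟩
    rw [map_mul, map_pow, map_inv, inv_pow]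
    change (σ ^ k)⁻¹ * ψ = 1
    rw [← hk]
    exact inv_mul_cancel _
  · have h1 : σ ∈ Submonoid.powers ψ := by
      rw [mem_powers_iff_mem_zpowers, hz]
      exact Subgroup.mem_zpowers σ
    obtain ⟨k, hk⟩ := h1
    refine ⟨k, hker _ ?_⟩
    rw [map_mul, map_pow, map_inv, inv_pow]
    change (ψ ^ k)⁻¹ * σ = 1
    rw [← hk]
    exact inv_mul_cancel _

end

end Crest.Agent.R018.FDEx389
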