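import Mathlib
import Crest.Agent.R018.Core_74
import Crest.Agent.R018.FDE_389

/-!
# Row 18: the literals F1, F8 (and F2) of `Core_74`
-/

set_option autoImplicit false
set_option linter.unusedSectionVars false

open NumberField
open scoped Pointwise
open Crest.Agent.R018.Placesx484 Crest.Agent.R018.Corex74
open Crest.Agent.R018.EndDefx924 (Om)

namespace Crest.Agent.R018.F1x389

section act

variable {E H : Type*} [Field E] [Group H] [MulSemiringAction H E]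

theorem act_mul (P : Place E) {g h : H} {a b : ℕ} (hg : Act P g a) (hh : Act P h b) :
    Act P (g * h) (a * b) := by
  intro x
  have h1 := hg (h • x)
  have h2 := hh x
  have h3 : (h • x) ^ a - (x ^ b) ^ a ∈ P.ideal :=
    Ideal.mem_of_dvd _ (sub_dvd_pow_sub_pow (h • x) (x ^ b) a) h2
  have h4 := P.ideal.add_mem h1 h3
  rw [sub_add_sub_cancel, ← pow_mul, mul_comm b a] at h4
  rw [mul_smul]
  exact h4

theorem act_one (P : Place E) : Act P (1 : H) 1 := by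
  intro x
  rw [one_smul, pow_one, sub_self]
  exact P.ideal.zero_mem

theorem act_pow (P : Place E) {g : H} {a : ℕ} (hg : Act P g a) (n : ℕ) :
    Act P (g ^ n) (a ^ n) := by
  induction n with
  | zero => simpa using act_one P
  | succ n ih => rw [pow_succ, pow_succ]; exact act_mul P ih hg

/-- cancellation: `g` acts as the power `b * c`, `h` as the power `b`, then `g h⁻¹` acts as the
power `c` -/
theorem act_div (P : Place E) {g h : H} {b c : ℕ} (hg : Act P g (b * c)) (hh : Act P h b) :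
    Act P (g * h⁻¹) c := by
  intro y
  have h1 := hg (h⁻¹ • y)
  have h2 := hh (h⁻¹ • y)
  rw [smul_inv_smul] at h2
  have h3 : y ^ c - ((h⁻¹ • y) ^ b) ^ c ∈ P.ideal :=
    Ideal.mem_of_dvd _ (sub_dvd_pow_sub_pow y ((h⁻¹ • y) ^ b) c) h2
  have h4 := P.ideal.sub_mem h1 h3
  rw [mul_smul]
  rw [pow_mul] at h4
  have e : g • h⁻¹ • y - ((h⁻¹ • y) ^ b) ^ c - (y ^ c - ((h⁻¹ • y) ^ b) ^ c) =
      g • h⁻¹ • y - y ^ c := by ring
  rwa [e] at h4

end act

theorem f2_holds : F2 := by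
  refine ⟨fun Q => ?_, fun P => ?_⟩
  · obtain ⟨F, h1, h2⟩ := FDEx389.exists_frobQ Q
    exact ⟨F, h1, h2⟩
  · obtain ⟨F, h1, h2⟩ := FDEx389.exists_frobQ P
    exact ⟨F, h1, h2⟩

theorem f1_holds : F1 := by
  intro G hG P
  -- a Frobenius over `ℚ`
  obtain ⟨φ, -, hφ⟩ := f2_holds.2 P
  have hfin : G.FiniteIndex := by
    have : CompactSpace BB := inferInstance
    have : Finite (BB ⧸ G) := G.quotient_finite_of_isOpen hG
    exact G.finiteIndex_of_finite_quotient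
  have hpow : ∃ n : ℕ, 0 < n ∧ n ≤ G.index ∧ φ ^ n ∈ G := by
    obtain ⟨n, h1, h2, h3⟩ := Subgroup.exists_pow_mem_of_index_ne_zero (H := G)
      hfin.index_ne_zero φ
    exact ⟨n, h1, h2, h3⟩
  obtain ⟨n, hn0, hn, hnG⟩ := hpow
  have hmem : n ∈ {a | 0 < a ∧ ∃ g ∈ G, Act P g (P.rchar ^ a)} :=
    ⟨hn0, φ ^ n, hnG, act_pow P hφ n⟩
  have hne : {a | 0 < a ∧ ∃ g ∈ G, Act P g (P.rchar ^ a)}.Nonempty := ⟨n, hmem⟩
  obtain ⟨hpos, σ, hσG, hσ⟩ := Nat.sInf_mem hne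
  refine ⟨hpos, (Nat.sInf_le hmem).trans hn, ⟨σ, hσG, hσ⟩, ?_⟩
  intro g hg a ha hga
  change Act P σ (P.rchar ^ fdeg G P) at hσ
  rw [Nat.dvd_iff_mod_eq_zero]
  by_contra hr
  have hr0 : 0 < a % fdeg G P := Nat.pos_of_ne_zero hr
  have hlt : a % fdeg G P < fdeg G P := Nat.mod_lt _ hpos
  have h1 := act_pow P hσ (a / fdeg G P)
  have h2 : Act P (g * (σ ^ (a / fdeg G P))⁻¹) (P.rchar ^ (a % fdeg G P)) := by
    refine act_div P ?_ h1
    rw [← pow_mul, ← pow_add, Nat.div_add_mod]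
    exact hga
  have h3 : fdeg G P ≤ a % fdeg G P :=
    Nat.sInf_le ⟨hr0, _, G.mul_mem hg (G.inv_mem (G.pow_mem hσG _)), h2⟩
  omega

theorem f8_holds : F8 := by
  intro V hV hVo s B
  obtain ⟨Q, φ, h1, h2, ⟨k, hk⟩, ⟨j, hj⟩⟩ := FDEx389.fde Sv V hVo s B
  refine ⟨Q, φ, h1, h2, ⟨k, ?_⟩, ⟨j, ?_⟩⟩
  · rw [← inv_pow]; exact hk
  · rw [← inv_pow]; exact hj

end Crest.Agent.R018.F1x389
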