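import Crest.Agent.R018.NUCore_275
import Crest.Agent.R018.TameP_31

/-!
# Row 18, library fact F4 (helper275): decomposition group = ⟨Frobenius⟩ · inertia at finite level
-/

set_option autoImplicit false

open NumberField Pointwise
open Crest.NumberTheoryR
open Crest.Agent.R018.EndDefx924 (Om)
open Crest.Agent.R018.Placesx484
open Crest.Agent.R018.Corex74

namespace Crest.Agent.R018.F4x275

/-- an automorphism of a finite field of characteristic `q` is a power of the Frobenius -/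
theorem exists_frob_pow {k : Type*} [Field k] [Finite k] (q : ℕ) [hq : Fact q.Prime] [CharP k q]
    (f : k ≃+* k) : ∃ j : ℕ, ∀ x, f x = x ^ q ^ j := by
  classical
  let _ : Algebra (ZMod q) k := ZMod.algebra k q
  let f' : k ≃ₐ[ZMod q] k := AlgEquiv.ofRingEquiv (f := f) (fun r => by
    have : (f : k →+* k).comp (algebraMap (ZMod q) k) = algebraMap (ZMod q) k :=
      Subsingleton.elim _ _
    exact RingHom.congr_fun this r)
  obtain ⟨j, hj⟩ := (FiniteField.bijective_frobeniusAlgEquivOfAlgebraic_pow (ZMod q) k).2 f'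
  refine ⟨j, fun x => ?_⟩
  have h1 : f x = (FiniteField.frobeniusAlgEquivOfAlgebraic (ZMod q) k ^ (j : ℕ)) x := by
    have : f' x = f x := rfl
    rw [← this, ← hj]
  rw [h1, AlgEquiv.coe_pow, FiniteField.coe_frobeniusAlgEquivOfAlgebraic_iterate, ZMod.card]

section main

variable {E : Type*} [Field E] [CharZero E] [IsGalois ℚ E]

/-- **F4**, general form: `E/ℚ` Galois, `V` open normal containing the inertia group at `Q`; then the
decomposition group at `Q` is generated modulo `V` by any Frobenius lift. -/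
theorem exists_pow_mem (V : Subgroup (E ≃ₐ[ℚ] E)) (hVn : V.Normal)
    (hVo : IsOpen (V : Set (E ≃ₐ[ℚ] E))) (Q : Place E)
    (hI : ∀ g : E ≃ₐ[ℚ] E, (∀ y : 𝓞 E, g • y - y ∈ Q.ideal) → g ∈ V) (φ : E ≃ₐ[ℚ] E)
    (hφ : ∀ y : 𝓞 E, φ • y - y ^ Q.rchar ∈ Q.ideal) (g : E ≃ₐ[ℚ] E) (hg : g • Q = Q) :
    ∃ j : ℕ, (φ ^ j)⁻¹ * g ∈ V := by
  classical
  have hq : Fact Q.rchar.Prime := ⟨Q.rchar_prime⟩
  have hVc : IsClosed (V : Set (E ≃ₐ[ℚ] E)) := Subgroup.isClosed_of_isOpen _ hVo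
  let H : ClosedSubgroup (E ≃ₐ[ℚ] E) := ⟨V, hVc⟩
  let L : IntermediateField ℚ E := IntermediateField.fixedField V
  have hfix : L.fixingSubgroup = V := InfiniteGalois.fixingSubgroup_fixedField H
  have hLfin : FiniteDimensional ℚ L := by
    rw [← InfiniteGalois.isOpen_iff_finite, hfix]; exact hVo
  have hLn : NumberField L := NumberField.of_module_finite ℚ L
  have hLgal : IsGalois ℚ L := by
    have h1 : @IsGalois ℚ _ L _ L.algebra' := by
      rw [← InfiniteGalois.normal_iff_isGalois, hfix]; exact hVn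
    rw [Subsingleton.elim (DivisionRing.toRatAlgebra : Algebra ℚ L) L.algebra']
    exact h1
  have hLnor : Normal ℚ L := hLgal.to_normal
  -- the residue field of `L`
  set R : Place L := Q.res L with hR
  have hRmax : R.ideal.IsMaximal := R.isMaximal
  let _ : Field (𝓞 L ⧸ R.ideal) := Ideal.Quotient.field R.ideal
  have hRfin : Finite (𝓞 L ⧸ R.ideal) := Placesx484.Place.finite_residue R
  have hchar : CharP (𝓞 L ⧸ R.ideal) Q.rchar := by
    constructor
    intro x
    rw [← Placesx484.Place.natCast_mem_iff, ← map_natCast (Ideal.Quotient.mk R.ideal),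
      Ideal.Quotient.eq_zero_iff_mem, hR, Placesx484.Place.mem_res, map_natCast]
  -- restriction of automorphisms to `L`
  have hrestr : ∀ (h : E ≃ₐ[ℚ] E) (x : 𝓞 L),
      algebraMap (𝓞 L) (𝓞 E) (h.restrictNormal L • x) = h • algebraMap (𝓞 L) (𝓞 E) x := by
    intro h x
    apply NumberField.RingOfIntegers.coe_injective
    have h1 : algebraMap (𝓞 E) E (h • algebraMap (𝓞 L) (𝓞 E) x)
        = h (algebraMap L E (algebraMap (𝓞 L) L x)) := algebraMap.smul' _ _ E
    have h2 : algebraMap (𝓞 L) L (h.restrictNormal L • x)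
        = h.restrictNormal L (algebraMap (𝓞 L) L x) := algebraMap.smul' _ _ L
    have h3 : algebraMap (𝓞 E) E (algebraMap (𝓞 L) (𝓞 E) (h.restrictNormal L • x))
        = algebraMap L E (algebraMap (𝓞 L) L (h.restrictNormal L • x)) := rfl
    rw [h1, h3, h2]
    exact AlgEquiv.restrictNormal_commutes h L _
  have hmemR : ∀ x : 𝓞 L, x ∈ R.ideal ↔ algebraMap (𝓞 L) (𝓞 E) x ∈ Q.ideal := fun x =>
    Placesx484.Place.mem_res L Q x
  -- stabilizers
  have hstab : ∀ h : E ≃ₐ[ℚ] E, h • Q = Q → ∀ y : 𝓞 E, h • y ∈ Q.ideal ↔ y ∈ Q.ideal := by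
    intro h hh y
    conv_lhs => rw [← hh]
    rw [Placesx484.Place.mem_smul_ideal, inv_smul_smul]
  have hφQ : φ • Q = Q := LCMainx925.frob_stab Q φ Q.rchar hq.out.ne_zero hφ
  -- `g` acts on the residue field of `L`
  let σ : L ≃ₐ[ℚ] L := g.restrictNormal L
  have hσR : Ideal.map (MulSemiringAction.toRingEquiv (L ≃ₐ[ℚ] L) (𝓞 L) σ : 𝓞 L →+* 𝓞 L) R.ideal
      = R.ideal := by
    apply le_antisymm
    · rw [Ideal.map_le_iff_le_comap]
      intro x hx
      rw [Ideal.mem_comap]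
      change σ • x ∈ R.ideal
      rw [hmemR] at hx ⊢
      rw [hrestr, hstab g hg]
      exact hx
    · intro x hx
      have h1 : x = σ • (σ⁻¹ • x) := by rw [smul_inv_smul]
      rw [h1]
      refine Ideal.mem_map_of_mem
        (MulSemiringAction.toRingEquiv (L ≃ₐ[ℚ] L) (𝓞 L) σ : 𝓞 L →+* 𝓞 L) ?_
      rw [hmemR] at hx ⊢
      rw [← hstab g hg, ← hrestr, smul_inv_smul]
      exact hx
  let f : (𝓞 L ⧸ R.ideal) ≃+* (𝓞 L ⧸ R.ideal) :=
    Ideal.quotientEquiv R.ideal R.ideal (MulSemiringAction.toRingEquiv (L ≃ₐ[ℚ] L) (𝓞 L) σ)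
      hσR.symm
  obtain ⟨j, hj⟩ := exists_frob_pow Q.rchar f
  refine ⟨j, ?_⟩
  -- `g y ≡ y^(q^j)`
  have hgy : ∀ y : 𝓞 L, g • algebraMap (𝓞 L) (𝓞 E) y
      - (algebraMap (𝓞 L) (𝓞 E) y) ^ Q.rchar ^ j ∈ Q.ideal := by
    intro y
    have h1 := hj (Ideal.Quotient.mk R.ideal y)
    have h2 : f (Ideal.Quotient.mk R.ideal y) = Ideal.Quotient.mk R.ideal (σ • y) := rfl
    rw [h2, ← map_pow, Ideal.Quotient.eq, hmemR, map_sub, map_pow, hrestr] at h1
    exact h1
  have hφjQ : ∀ j : ℕ, φ ^ j • Q = Q := by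
    intro j
    induction j with
    | zero => simp
    | succ j ih => rw [pow_succ, mul_smul, hφQ, ih]
  have hφy : ∀ (j : ℕ) (y : 𝓞 E), φ ^ j • y - y ^ Q.rchar ^ j ∈ Q.ideal := by
    intro j
    induction j with
    | zero => intro y; simp
    | succ j ih =>
      intro y
      have h1 := ih (φ • y)
      have h2 : (φ • y) ^ Q.rchar ^ j - (y ^ Q.rchar) ^ Q.rchar ^ j ∈ Q.ideal := by
        have h3 : φ • y - y ^ Q.rchar ∣ (φ • y) ^ Q.rchar ^ j - (y ^ Q.rchar) ^ Q.rchar ^ j :=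
          sub_dvd_pow_sub_pow _ _ _
        exact Ideal.mem_of_dvd _ h3 (hφ y)
      have h4 : φ ^ (j + 1) • y - y ^ Q.rchar ^ (j + 1)
          = (φ ^ j • φ • y - (φ • y) ^ Q.rchar ^ j)
            + ((φ • y) ^ Q.rchar ^ j - (y ^ Q.rchar) ^ Q.rchar ^ j) := by
        rw [pow_succ φ j, mul_smul, ← pow_mul, pow_succ' Q.rchar j]
        ring
      rw [h4]
      exact Ideal.add_mem _ h1 h2
  set h := (φ ^ j)⁻¹ * g with hh
  have hin : ∀ y : 𝓞 L, h.restrictNormal L • y - y ∈ R.ideal := by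
    intro y
    rw [hmemR, map_sub, hrestr]
    have h1 : φ ^ j • (h • algebraMap (𝓞 L) (𝓞 E) y - algebraMap (𝓞 L) (𝓞 E) y) ∈ Q.ideal := by
      rw [smul_sub, hh, ← mul_smul, mul_inv_cancel_left]
      have h2 := Ideal.sub_mem _ (hgy y) (hφy j (algebraMap (𝓞 L) (𝓞 E) y))
      have h3 : g • algebraMap (𝓞 L) (𝓞 E) y - φ ^ j • algebraMap (𝓞 L) (𝓞 E) y
        = (g • algebraMap (𝓞 L) (𝓞 E) y - (algebraMap (𝓞 L) (𝓞 E) y) ^ Q.rchar ^ j)
          - (φ ^ j • algebraMap (𝓞 L) (𝓞 E) y - (algebraMap (𝓞 L) (𝓞 E) y) ^ Q.rchar ^ j) := by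
        ring
      rw [h3]
      exact h2
    rwa [hstab _ (hφjQ j)] at h1
  obtain ⟨τ, hτ, hτ2⟩ := Tamex31.exists_inertia_lift (F := ℚ) Q (h.restrictNormal L) hin
  have hτV : τ ∈ V := hI τ hτ
  have hres : ∀ x : L, h (algebraMap L E x) = algebraMap L E x := by
    intro x
    have h1 := hτ2 x
    have h2 : τ (algebraMap L E x) = algebraMap L E x := by
      rw [← hfix] at hτV
      exact (IntermediateField.mem_fixingSubgroup_iff _ _).1 hτV _ x.2
    rw [h2] at h1
    exact (AlgEquiv.restrictNormal_commutes h L x).symm.trans h1.symm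
  rw [← hfix, IntermediateField.mem_fixingSubgroup_iff]
  intro x hx
  exact hres ⟨x, hx⟩

end main

/-- **F4** of the frozen interface -/
theorem f4_holds : F4 := by
  intro V hVn hVo Q hI φ hφ g hg
  exact exists_pow_mem V hVn hVo Q hI φ hφ g hg

end Crest.Agent.R018.F4x275
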