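import Crest.Agent.R018.Core_74

/-!
# Row 18: `F5` and `F6` of `Core_74` (helper791)
-/

set_option autoImplicit false

open NumberField Pointwise
open Crest.NumberTheoryR

namespace Crest.Agent.R018.F56x791

open Crest.Agent.R018.EndDefx924 (Om)
open Crest.Agent.R018.Placesx484
open Crest.Agent.R018.Corex74

/-- two places of `ℚ` with the same residue characteristic are equal -/
theorem rat_place_eq (I J : Place ℚ) (h : I.rchar = J.rchar) : I = J := by
  apply Place.ext_of_ideal_le
  intro x hx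
  obtain ⟨n, rfl⟩ : ∃ n : ℤ, (n : 𝓞 ℚ) = x :=
    ⟨Rat.ringOfIntegersEquiv x, by
      apply Rat.ringOfIntegersEquiv.injective
      rw [map_intCast]
      rfl⟩
  have key : ∀ K : Place ℚ, ((n : ℤ) : 𝓞 ℚ) ∈ K.ideal ↔ K.rchar ∣ n.natAbs := by
    intro K
    rw [← K.natCast_mem_iff]
    rcases Int.natAbs_eq n with h1 | h1
    · conv_lhs => rw [h1]
      rw [Int.cast_natCast]
    · conv_lhs => rw [h1]
      rw [Int.cast_neg, Int.cast_natCast, neg_mem_iff]
  rw [key] at hx ⊢
  rwa [← h]

theorem exists_smul {E : Type*} [Field E] [CharZero E] [IsGalois ℚ E] (P Q : Place E)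
    (h : P.rchar = Q.rchar) : ∃ g : E ≃ₐ[ℚ] E, g • P = Q := by
  apply Place.exists_smul_eq_of_res_eq
  apply rat_place_eq
  rw [Place.rchar_res, Place.rchar_res, h]

theorem F5_holds : F5 := ⟨fun Q Q' h => exists_smul Q Q' h, fun P P' h => exists_smul P P' h⟩

theorem F6_holds : F6 := by
  intro D l P Q s
  constructor
  · rintro ⟨h1, x, hx, N, hN, hNo, hdvd⟩
    refine ⟨by rw [Place.rchar_smul]; exact h1, s * x * s⁻¹, ?_, N, hN, hNo, ?_⟩
    · intro y
      have h2 := (Place.smul_mem_smul_ideal (s : BB) P ((x : BB) • ((s : BB)⁻¹ • y) - (s : BB)⁻¹ • y)).2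
        (hx _)
      rw [smul_sub, smul_inv_smul] at h2
      have h3 : ((s * x * s⁻¹ : D.G) : BB) • y = (s : BB) • (x : BB) • (s : BB)⁻¹ • y := by
        rw [Subgroup.coe_mul, Subgroup.coe_mul, mul_smul, mul_smul]
        rfl
      rw [h3]
      exact h2
    · intro n hn
      apply hdvd n
      rw [map_mul, map_mul, map_inv, conj_pow] at hn
      have := hN.conj_mem _ hn (D.α s)⁻¹
      have h4 : (D.α s)⁻¹ * (D.α s * D.α x ^ n * (D.α s)⁻¹) * (D.α s)⁻¹⁻¹ = D.α x ^ n := by group
      rwa [h4] at this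
  · intro h d hd
    have h1 : ((s⁻¹ * d * s : D.G) : BB) • P = P := by
      rw [Subgroup.coe_mul, Subgroup.coe_mul, mul_smul, mul_smul, hd]
      exact inv_smul_smul (s : BB) P
    have h2 := h _ h1
    rw [map_mul, map_mul, map_inv, mul_smul, mul_smul, inv_smul_eq_iff] at h2
    exact h2

end Crest.Agent.R018.F56x791
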