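import Mathlib
import Crest.Agent.R018.TameD_31

set_option autoImplicit false

/-!
Tame facts, part E (helper31): homomorphisms from inertia groups to finite `ℓ`-groups: equivariance
under the decomposition group, and detection by the action on the `ℓ^n`-th roots of one element.
-/

namespace Crest.Agent.R018.Tamex31

variable {F E : Type*} [Field F] [Field E] [Algebra F E]

theorem val_dvd_eq_one {A : ValuationSubring E} {a N : ℕ} (h : a ∣ N)
    (hN : A.valuation (N : E) = 1) : A.valuation (a : E) = 1 := by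
  obtain ⟨d, rfl⟩ := h
  have h1 : A.valuation (a : E) * A.valuation (d : E) = 1 := by
    rw [← map_mul, ← Nat.cast_mul, hN]
  have h2 : A.valuation (a : E) ≤ 1 := (A.valuation_le_one_iff _).mpr (natCast_mem A a)
  have h3 : A.valuation (d : E) ≤ 1 := (A.valuation_le_one_iff _).mpr (natCast_mem A d)
  refine le_antisymm h2 ?_
  calc (1 : A.ValueGroup) = A.valuation (a : E) * A.valuation (d : E) := h1.symm
    _ ≤ A.valuation (a : E) * 1 := mul_le_mul_right h3 _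
    _ = A.valuation (a : E) := mul_one _

theorem val_pow_natCast_eq_one {A : ValuationSubring E} {l : ℕ} (h : A.valuation (l : E) = 1)
    (n : ℕ) : A.valuation ((l ^ n : ℕ) : E) = 1 := by
  rw [Nat.cast_pow, map_pow, h, one_pow]

/-- (LF2, abelian form) characters of inertia are equivariant under the decomposition group. -/
theorem char_conj [IsGalois F E] {A : ValuationSubring E}
    {V : Subgroup (E ≃ₐ[F] E)} (hV : V ≤ inS F A) {N : ℕ} (hN : A.valuation (N : E) = 1)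
    {χ : V →* Eˣ} (hχ : OpenKer χ) (hχN : ∀ x, χ x ^ N = 1)
    {s : E ≃ₐ[F] E} (hs : s ∈ decS F A) (hsV : ∀ x ∈ V, s * x * s⁻¹ ∈ V) (x : V) :
    ((χ ⟨s * x * s⁻¹, hsV x x.2⟩ : Eˣ) : E) = s (χ x : E) := by
  have hχroot : ∀ y : V, ((χ y : Eˣ) : E) ^ N = 1 := by
    intro y
    rw [← Units.val_pow_eq_pow_val, hχN, Units.val_one]
  have hfix : ∀ y z : V, (y : E ≃ₐ[F] E) (χ z : E) = χ z :=
    fun y z => in_fix_root (hV y.2) hN (hχroot z)
  obtain ⟨y, hy0, hy⟩ := exists_resolvent χ hχ hfix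
  have hsi : s⁻¹ ∈ decS F A := (decS F A).inv_mem hs
  have hval : A.valuation (s⁻¹ y / y) = 1 := by
    rw [map_div₀, dec_val_eq hsi, div_self]
    simpa using hy0
  let x' : V := ⟨s * x * s⁻¹, hsV x x.2⟩
  have hsx : s⁻¹ * (x' : E ≃ₐ[F] E) = (x : E ≃ₐ[F] E) * s⁻¹ := by
    simp only [x']
    group
  have h1 : (x : E ≃ₐ[F] E) (s⁻¹ y) = s⁻¹ (χ x' : E) * s⁻¹ y := by
    rw [← AlgEquiv.mul_apply, ← hsx, AlgEquiv.mul_apply, hy x', map_mul]
  have h2 : (x : E ≃ₐ[F] E) (s⁻¹ y / y) = (s⁻¹ (χ x' : E) / (χ x : E)) * (s⁻¹ y / y) := by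
    rw [map_div₀, h1, hy x]
    field_simp
  have h3 := in_unit (hV x.2) hval
  have hu0 : s⁻¹ y / y ≠ 0 := by
    intro h0
    rw [h0] at hval
    simp at hval
  rw [h2, mul_div_assoc, div_self hu0, mul_one] at h3
  have h4 : (s⁻¹ (χ x' : E) / (χ x : E)) ^ N = 1 := by
    rw [div_pow, ← map_pow, hχroot, hχroot, map_one, div_one]
  have h5 := root_eq_one hN h4 h3
  rw [div_eq_one_iff_eq (χ x).ne_zero] at h5
  change (χ x' : E) = s (χ x : E)
  rw [← h5, ← AlgEquiv.mul_apply]; simp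

/-- (LF2) homomorphisms from inertia to a finite `ℓ`-group -/
theorem conj_pgroup [IsGalois F E] {A : ValuationSubring E} (hA : RankOne A)
    {V : Subgroup (E ≃ₐ[F] E)} (hV : V ≤ inS F A) {l : ℕ} [hl : Fact l.Prime]
    (hlA : A.valuation (l : E) = 1) {n : ℕ} {ζ : E} (hζ : IsPrimitiveRoot ζ (l ^ n))
    {ω : E} (hω : IsPrimitiveRoot ω l) {H : Type*} [Group H] [Finite H] (hH : IsPGroup l H)
    (hHn : Nat.card H ∣ l ^ n) (π : V →* H) (hπ : OpenKer π)
    {s : E ≃ₐ[F] E} (hs : s ∈ decS F A) (hsV : ∀ x ∈ V, s * x * s⁻¹ ∈ V) {c : ℕ}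
    (hc : s ζ = ζ ^ c) (x : V) : π ⟨s * x * s⁻¹, hsV x x.2⟩ = π x ^ c := by
  let π' : V →* π.range := π.rangeRestrict
  have hπ' : OpenKer π' := by
    obtain ⟨L, hL, h⟩ := hπ
    exact ⟨L, hL, fun u hu => Subtype.ext (h u hu)⟩
  have hcyc : IsCyclic π.range :=
    isCyclic_of_inertia hA hV hlA hω (hH.to_subgroup π.range) π' hπ' π.rangeRestrict_surjective
  have hcard : Nat.card π.range ∣ l ^ n := (Subgroup.card_subgroup_dvd_card _).trans hHn
  have h1 := conj_eq_pow hV (val_pow_natCast_eq_one hlA n) hζ hcard π' hπ' hs hsV hc x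
  exact congrArg Subtype.val h1

/-- (LF3) an element of an inertia group which fixes the `ℓ`-power roots of one element of
nontrivial value is killed by all homomorphisms to `ℓ`-groups. -/
theorem pgroup_eq_one [IsGalois F E] {A : ValuationSubring E} (hA : RankOne A)
    {V : Subgroup (E ≃ₐ[F] E)} (hV : V ≤ inS F A) {l : ℕ} [hl : Fact l.Prime]
    (hlA : A.valuation (l : E) = 1) (hζ : ∀ n : ℕ, ∃ ζ : E, IsPrimitiveRoot ζ (l ^ n))
    {ϖ : E} (hϖ0 : ϖ ≠ 0) (hϖ : A.valuation ϖ ≠ 1) (hroot : ∀ n : ℕ, ∃ z : E, z ^ (l ^ n) = ϖ)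
    {H : Type*} [Group H] [Finite H] (hH : IsPGroup l H) (π : V →* H) (hπ : OpenKer π) (x : V)
    (hx : ∀ (n : ℕ) (z : E), z ^ (l ^ n) = ϖ → (x : E ≃ₐ[F] E) z = z) : π x = 1 := by
  obtain ⟨ω, hω⟩ := hζ 1
  rw [pow_one] at hω
  have hπ' : OpenKer π.rangeRestrict := by
    obtain ⟨L, hL, h⟩ := hπ
    exact ⟨L, hL, fun u hu => Subtype.ext (h u hu)⟩
  have hcyc : IsCyclic π.range :=
    isCyclic_of_inertia hA hV hlA hω (hH.to_subgroup π.range) π.rangeRestrict hπ'
      π.rangeRestrict_surjective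
  obtain ⟨a, ha⟩ := IsPGroup.iff_card.mp (hH.to_subgroup π.range)
  obtain ⟨ζ, hζa⟩ := hζ a
  have hla0 : l ^ a ≠ 0 := pow_ne_zero _ hl.out.ne_zero
  have : NeZero (l ^ a) := ⟨hla0⟩
  have hcardZ : Nat.card (rootsOfUnity (l ^ a) E) = l ^ a := hζa.card_rootsOfUnity
  have : IsCyclic (rootsOfUnity (l ^ a) E) := rootsOfUnity.isCyclic E (l ^ a)
  let e : π.range ≃* rootsOfUnity (l ^ a) E := mulEquivOfCyclicCardEq (by rw [hcardZ, ha])
  let χ : V →* Eˣ := ((rootsOfUnity (l ^ a) E).subtype.comp e.toMonoidHom).comp π.rangeRestrict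
  have hlaA : A.valuation ((l ^ a : ℕ) : E) = 1 := val_pow_natCast_eq_one hlA a
  have hχa : ∀ y, χ y ^ (l ^ a) = 1 := fun y => (mem_rootsOfUnity _ _).mp (e (π.rangeRestrict y)).2
  have hχroot : ∀ y : V, ((χ y : Eˣ) : E) ^ (l ^ a) = 1 := by
    intro y
    rw [← Units.val_pow_eq_pow_val, hχa, Units.val_one]
  have hfix : ∀ y z : V, (y : E ≃ₐ[F] E) (χ z : E) = χ z :=
    fun y z => in_fix_root (hV y.2) hlaA (hχroot z)
  obtain ⟨y, hy0, hy⟩ := exists_resolvent χ (hπ'.comp _) hfix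
  -- the values of `y` and `ϖ` are commensurable
  obtain ⟨m, k, hmk, hval⟩ := hA y ϖ hy0 hϖ0
  have hm : m ≠ 0 := by
    rintro rfl
    rw [zpow_zero, one_mul] at hval
    rcases hmk with h | h
    · exact h rfl
    · exact hϖ (val_zpow_eq_one h hval)
  -- write m = l ^ s * b with b prime to l
  obtain ⟨s, b, hb, hmb⟩ : ∃ (s : ℕ) (b : ℤ), ¬ ((l : ℤ) ∣ b) ∧ m = (l : ℤ) ^ s * b := by
    have hfin : FiniteMultiplicity (l : ℤ) m := by
      rw [Int.finiteMultiplicity_iff]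
      exact ⟨by simpa using hl.out.one_lt.ne', hm⟩
    obtain ⟨b, hb1, hb2⟩ := hfin.exists_eq_pow_mul_and_not_dvd
    exact ⟨_, b, hb2, hb1⟩
  obtain ⟨z, hz⟩ := hroot s
  have hz0 : z ≠ 0 := by
    rintro rfl
    rw [zero_pow (pow_ne_zero _ hl.out.ne_zero)] at hz
    exact hϖ0 hz.symm
  have hu : A.valuation (y ^ b * z ^ k) = 1 := by
    refine val_pow_eq_one (k := l ^ s) (pow_ne_zero _ hl.out.ne_zero) ?_
    have h1 : (y ^ b * z ^ k) ^ (l ^ s) = y ^ m * ϖ ^ k := by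
      rw [mul_pow, ← hz, hmb]
      congr 1
      · rw [← zpow_natCast, ← zpow_mul]
        congr 1
        push_cast
        ring
      · rw [← zpow_natCast, ← zpow_natCast, ← zpow_mul, ← zpow_mul, mul_comm]
    rw [h1]
    exact hval
  have hxz : (x : E ≃ₐ[F] E) z = z := hx s z hz
  have h3 := in_unit (hV x.2) hu
  have hu0 : y ^ b * z ^ k ≠ 0 := mul_ne_zero (zpow_ne_zero _ hy0) (zpow_ne_zero _ hz0)
  have h4 : (x : E ≃ₐ[F] E) (y ^ b * z ^ k) = (χ x : E) ^ b * (y ^ b * z ^ k) := by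
    rw [map_mul, map_zpow₀, map_zpow₀, hxz, hy, mul_zpow]
    ring
  rw [h4, mul_div_assoc, div_self hu0, mul_one] at h3
  have h5 : ((χ x : E) ^ b) ^ (l ^ a) = 1 := by
    rw [← zpow_natCast, ← zpow_mul, mul_comm, zpow_mul, zpow_natCast, hχroot, one_zpow]
  have h6 := root_eq_one hlaA h5 h3
  -- so χ x = 1
  have h7 : IsCoprime ((l : ℤ) ^ a) b :=
    (((Nat.prime_iff_prime_int.mp hl.out).coprime_iff_not_dvd).mpr hb).pow_left
  obtain ⟨c, d, hcd⟩ := h7
  have h8 : (χ x : E) = 1 := by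
    have h9 : (χ x : E) ^ (c * (l : ℤ) ^ a + d * b) = χ x := by rw [hcd, zpow_one]
    have h10 : (χ x : E) ^ ((l : ℤ) ^ a) = 1 := by
      have := hχroot x
      rw [← zpow_natCast] at this
      push_cast at this
      exact this
    rw [← h9, zpow_add₀ (χ x).ne_zero, mul_comm c, mul_comm d, zpow_mul, zpow_mul, h10, h6,
      one_zpow, one_zpow, one_mul]
  have h11 : e (π.rangeRestrict x) = 1 := by
    apply Subtype.ext
    apply Units.ext
    exact h8
  have h12 : π.rangeRestrict x = 1 := e.injective (by rw [h11, map_one])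
  exact congrArg Subtype.val h12

end Crest.Agent.R018.Tamex31
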