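import Crest.Agent.R018.Core_74
import Crest.Agent.R018.TameE_31
import Crest.Agent.R018.TameP_31
import Crest.Agent.R018.DegA_614
import Crest.Agent.R018.Kum_568

/-!
# Row 18, fact F7 (helper575): inertia at places of residue characteristic `≠ l` dies in `ℤ_l`
-/

set_option autoImplicit false

open NumberField Pointwise
open Crest.NumberTheoryR

namespace Crest.Agent.R018.F7x575

open Crest.Agent.R018.EndDefx924 (Om)
open Crest.Agent.R018.Placesx484 Crest.Agent.R018.Placesx484.Place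
open Crest.Agent.R018.Corex74 Crest.Agent.R018.Tamex31

/-- all roots of unity are in `Sv` -/
theorem exists_primitiveRoot_Sv (n : ℕ) (hn : n ≠ 0) : ∃ ζ : Sv, IsPrimitiveRoot ζ n := by
  have hne : NeZero n := ⟨hn⟩
  have hne' : NeZero (n : Om) := ⟨Nat.cast_ne_zero.mpr hn⟩
  obtain ⟨ζ, hζ⟩ := HasEnoughRootsOfUnity.exists_primitiveRoot Om n
  have hmem : ζ ∈ Sv := by
    unfold Sv
    suffices h : ∀ E : SvFam, ζ ∈ E.1 by
      simpa [← SetLike.mem_coe, IntermediateField.coe_iInf] using h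
    intro E
    obtain ⟨η, hη⟩ := Crest.Agent.R018.Kumx568.exists_primitiveRoot (E := E.1) E.2.2 n hn
    have hη' : IsPrimitiveRoot (η : Om) n :=
      hη.map_of_injective (f := algebraMap E.1 Om) (algebraMap E.1 Om).injective
    obtain ⟨i, -, hi⟩ := hη'.eq_pow_of_pow_eq_one hζ.pow_eq_one
    rw [← hi]
    exact pow_mem η.2 i
  refine ⟨⟨ζ, hmem⟩, ?_⟩
  refine IsPrimitiveRoot.of_map_of_injective (f := algebraMap Sv Om) ?_ (algebraMap Sv Om).injective
  exact hζ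

/-- reduction modulo `l ^ n` has open kernel in the sense of helper31 -/
theorem openKer_red {V : Subgroup SG} {l : ℕ} [Fact l.Prime] (ψ : V →* Multiplicative ℤ_[l])
    (hψ : Continuous ψ) (n : ℕ) : OpenKer (Crest.Agent.R018.DegAx614.red n ψ) := by
  have h1 := Crest.Agent.R018.DegAx614.isOpen_ker_red n ψ hψ
  rw [isOpen_induced_iff] at h1
  obtain ⟨t, ht, htU⟩ := h1
  have h1t : (1 : SG) ∈ t := by
    have : (1 : V) ∈ Subtype.val ⁻¹' t := by
      rw [htU]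
      exact one_mem (Crest.Agent.R018.DegAx614.red n ψ).ker
    simpa using this
  obtain ⟨L, hLfin, hLsub⟩ := (krullTopology_mem_nhds_one_iff ℚ Sv t).mp (ht.mem_nhds h1t)
  refine ⟨L, hLfin, fun u hu => ?_⟩
  have h2 : (u : SG) ∈ (L.fixingSubgroup : Set SG) := by
    intro x
    exact hu x x.2
  have h3 : u ∈ ((Crest.Agent.R018.DegAx614.red n ψ).ker : Set V) := by
    rw [← htU]
    exact hLsub h2
  exact h3

/-- **F7** -/
theorem f7_holds : F7 := by
  intro V hV l hl ψ hψ Q hQ g hg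
  have hlp : l.Prime := hl.out
  -- a Frobenius lift in `V`
  obtain ⟨φ, hφQ, hφ⟩ := exists_frob (F := ℚ) Q
  have hq := one_lt_qv (F := ℚ) Q
  set q := Q.qv ℚ with hqdef
  have hfin : Finite (SG ⧸ V) := Subgroup.quotient_finite_of_isOpen V hV
  have hidx : V.index ≠ 0 := Subgroup.index_ne_zero_of_finite
  obtain ⟨m, hm0, -, hmV⟩ := Subgroup.exists_pow_mem_of_index_ne_zero hidx φ
  -- the group `I = V ⊓ inertia`
  let I : Subgroup SG := V ⊓ inS ℚ Q.val
  have hIV : I ≤ V := inf_le_left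
  have hII : I ≤ inS ℚ Q.val := inf_le_right
  have hginS : (g : SG) ∈ inS ℚ Q.val := (mem_inS_val Q (g : SG)).2 (fun y => hg y)
  have hgI : (g : SG) ∈ I := ⟨g.2, hginS⟩
  have hφdec : φ ∈ decS ℚ Q.val := (mem_decS_val Q φ).2 hφQ
  have hs : φ ^ m ∈ decS ℚ Q.val := pow_mem hφdec m
  have hsI : ∀ x ∈ I, φ ^ m * x * (φ ^ m)⁻¹ ∈ I := by
    rintro x ⟨hx1, hx2⟩
    refine Subgroup.mem_inf.2 ⟨V.mul_mem (V.mul_mem hmV hx1) (V.inv_mem hmV), ?_⟩
    replace hx2 : x ∈ inS ℚ Q.val := hx2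
    rw [mem_inS_val] at hx2 ⊢
    have hst : φ ^ m • Q = Q := (mem_decS_val Q (φ ^ m)).1 hs
    intro y
    have h1 := hx2 ((φ ^ m)⁻¹ • y)
    have h2 : (φ ^ m * x * (φ ^ m)⁻¹) • y - y =
        φ ^ m • (x • ((φ ^ m)⁻¹ • y) - (φ ^ m)⁻¹ • y) := by
      rw [smul_sub, smul_inv_smul, mul_smul, mul_smul]
    rw [h2]
    have h3 := (Place.smul_mem_smul_ideal (φ ^ m) Q
      (x • ((φ ^ m)⁻¹ • y) - (φ ^ m)⁻¹ • y)).2 h1
    rwa [hst] at h3
  have hlA : Q.val.valuation ((l : ℕ) : Sv) = 1 := val_prime_eq_one Q hlp hQ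
  -- the key relation modulo `l ^ n`
  have key : ∀ n : ℕ, Crest.Agent.R018.DegAx614.red n ψ (g ^ (q ^ m - 1)) = 1 := by
    intro n
    obtain ⟨ζ, hζ⟩ := exists_primitiveRoot_Sv (l ^ n) (pow_ne_zero _ hlp.ne_zero)
    obtain ⟨ω, hω⟩ := exists_primitiveRoot_Sv l hlp.ne_zero
    have hφζ : ∀ η : Sv, η ^ (l ^ n) = 1 → φ η = η ^ q := by
      intro η hη
      have hnd : ¬ Q.rchar ∣ l ^ n := fun hd =>
        hQ ((Nat.prime_dvd_prime_iff_eq Q.rchar_prime hlp).1 (Q.rchar_prime.dvd_of_dvd_pow hd))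
      exact frob_root Q (g := φ) (q := q) hφ hnd hη
    have hsζ : ∀ k : ℕ, (φ ^ k) ζ = ζ ^ (q ^ k) := by
      intro k
      induction k with
      | zero => simp
      | succ k ih =>
        rw [pow_succ, AlgEquiv.mul_apply, hφζ ζ hζ.pow_eq_one, map_pow, ih, ← pow_mul, ← pow_succ]
    have hcard : Nat.card (Multiplicative (ZMod (l ^ n))) = l ^ n := by
      rw [Nat.card_congr Multiplicative.toAdd, Nat.card_zmod]
    have : NeZero (l ^ n) := ⟨pow_ne_zero _ hlp.ne_zero⟩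
    have hfinH : Finite (Multiplicative (ZMod (l ^ n))) := by
      exact Finite.of_equiv _ (Multiplicative.ofAdd (α := ZMod (l ^ n)))
    let π : I →* Multiplicative (ZMod (l ^ n)) :=
      (Crest.Agent.R018.DegAx614.red n ψ).comp (Subgroup.inclusion hIV)
    have hπ : OpenKer π := (openKer_red ψ hψ n).restrict hIV
    have h1 := conj_pgroup (F := ℚ) (rankOne Q) hII hlA hζ hω (IsPGroup.of_card hcard)
      (by rw [hcard]) π hπ hs hsI (hsζ m) ⟨g, hgI⟩
    have h2 : π ⟨φ ^ m * g * (φ ^ m)⁻¹, hsI g hgI⟩ = π ⟨g, hgI⟩ := by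
      have h3 : Subgroup.inclusion hIV ⟨φ ^ m * g * (φ ^ m)⁻¹, hsI g hgI⟩
          = (⟨φ ^ m, hmV⟩ : V) * g * (⟨φ ^ m, hmV⟩ : V)⁻¹ := rfl
      show Crest.Agent.R018.DegAx614.red n ψ (Subgroup.inclusion hIV _) = _
      rw [h3, map_mul, map_mul, map_inv, mul_comm, inv_mul_cancel_left]
      rfl
    rw [h2] at h1
    have h4 : π ⟨g, hgI⟩ = Crest.Agent.R018.DegAx614.red n ψ g := rfl
    rw [h4] at h1
    rw [map_pow]
    have h5 : Crest.Agent.R018.DegAx614.red n ψ g * Crest.Agent.R018.DegAx614.red n ψ g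
        ^ (q ^ m - 1) = Crest.Agent.R018.DegAx614.red n ψ g := by
      rw [← pow_succ', Nat.sub_add_cancel (Nat.one_le_pow _ _ (by omega)), ← h1]
    exact mul_eq_left.1 h5
  -- conclusion
  have h6 : Multiplicative.toAdd (ψ (g ^ (q ^ m - 1))) = 0 := by
    rw [← PadicInt.ext_of_toZModPow]
    intro n
    rw [map_zero]
    exact key n
  rw [map_pow, toAdd_pow, nsmul_eq_mul] at h6
  have h7 : ((q ^ m - 1 : ℕ) : ℤ_[l]) ≠ 0 := by
    rw [Nat.cast_ne_zero]
    have : 1 < q ^ m := Nat.one_lt_pow hm0.ne' hq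
    omega
  have h8 : Multiplicative.toAdd (ψ g) = 0 := (mul_eq_zero.1 h6).resolve_left h7
  exact Multiplicative.toAdd.injective h8

end Crest.Agent.R018.F7x575
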