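import Crest.Agent.R018.Core_74
import Crest.Agent.R018.SetupA_678

/-!
# Row 18: F9 and F10 of Core_74 (helper530)
-/

set_option autoImplicit false

open NumberField Pointwise

namespace Crest.Agent.R018.F9x530

open Crest.Agent.R018.Placesx484
open Crest.Agent.R018.Corex74

section General

variable {E : Type*} [Field E] [CharZero E] [IsGalois ℚ E]

/-- `Gen` for an arbitrary Galois extension of `ℚ` -/
def GenE (V : Subgroup (E ≃ₐ[ℚ] E)) (x : E) : Prop :=
  x ≠ 0 ∧ (∀ v ∈ V, v x = x) ∧ (∀ γ : E ≃ₐ[ℚ] E, γ x = x → γ ∈ V) ∧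
    ∀ T : Finset E, T.Nonempty → (∀ y ∈ T, ∃ γ : E ≃ₐ[ℚ] E, y = γ x) →
      ¬ ∃ z : E, (∀ v ∈ V, v z = z) ∧ z ^ 2 = ∏ y ∈ T, y

theorem exists_gen (V : Subgroup (E ≃ₐ[ℚ] E)) (hVn : V.Normal) (hV : IsOpen (V : Set (E ≃ₐ[ℚ] E)))
    (n M : ℕ) (hM : M ≠ 0) :
    ∃ x : Fin n → 𝓞 E, (∀ i, (M : 𝓞 E) ∣ x i - 1) ∧
      ∀ J : Finset (Fin n), J.Nonempty → GenE V (∏ j ∈ J, (x j : E)) := by
  classical
  set F : IntermediateField ℚ E := IntermediateField.fixedField V with hF
  have hfix : F.fixingSubgroup = V :=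
    InfiniteGalois.fixingSubgroup_fixedField (⟨V, Subgroup.isClosed_of_isOpen V hV⟩ :
      ClosedSubgroup (E ≃ₐ[ℚ] E))
  have hfd0 : FiniteDimensional ℚ F := (InfiniteGalois.isOpen_iff_finite F).1 (by
    change IsOpen (F.fixingSubgroup : Set (E ≃ₐ[ℚ] E))
    rw [hfix]
    exact hV)
  have hg0 : @IsGalois ℚ _ F _ F.algebra' := (InfiniteGalois.normal_iff_isGalois F).1 (by
    rw [hfix]; exact hVn)
  have ealg : (DivisionRing.toRatAlgebra : Algebra ℚ F) = F.algebra' := Subsingleton.elim _ _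
  have hfd1 : @FiniteDimensional ℚ F _ _ (@Algebra.toModule _ _ _ _ F.algebra') := hfd0
  have hfd2 : @FiniteDimensional ℚ F _ _ (@Algebra.toModule _ _ _ _ DivisionRing.toRatAlgebra) := by
    rw [ealg]; exact hfd1
  have hFn : NumberField F := { to_charZero := inferInstance, to_finiteDimensional := hfd2 }
  have hgal : @IsGalois ℚ _ F _ DivisionRing.toRatAlgebra := by
    rw [ealg]; exact hg0
  obtain ⟨x, hx1, hx0, hind⟩ := SetupAx678.exists_indep (F := F) n M hM
  have hVF : ∀ y : E, y ∈ F ↔ ∀ v ∈ V, v y = y := by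
    intro y
    rw [hF, IntermediateField.mem_fixedField_iff]
  have hmem : ∀ (γ : E ≃ₐ[ℚ] E) (y : E), y ∈ F → γ y ∈ F := by
    intro γ y hy
    rw [hVF] at hy ⊢
    intro v hv
    have h1 := hy (γ⁻¹ * v * γ) (by simpa using hVn.conj_mem v hv γ⁻¹)
    have h2 : γ ((γ⁻¹ * v * γ) y) = v (γ y) := by
      rw [← AlgEquiv.mul_apply, ← AlgEquiv.mul_apply]
      congr 1
      group
    rw [← h2, h1]
  have hres : ∀ γ : E ≃ₐ[ℚ] E, ∃ δ : Gal(F/ℚ), ∀ y : F, ((δ y : F) : E) = γ (y : E) := by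
    intro γ
    let e : F ≃+* F :=
      { toFun := fun y => ⟨γ y, hmem γ y y.2⟩
        invFun := fun y => ⟨γ.symm y, hmem γ.symm y y.2⟩
        left_inv := fun y => by ext; simp
        right_inv := fun y => by ext; simp
        map_mul' := fun a b => by ext; simp
        map_add' := fun a b => by ext; simp }
    exact ⟨AlgEquiv.ofRingEquiv (f := e) (fun r => by simp), fun y => rfl⟩
  choose δ hδ using hres
  -- the elements in `𝓞 E`
  let X : Fin n → 𝓞 E := fun i => RingOfIntegers.mapRingHom (algebraMap F E) (x i)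
  have hXc : ∀ i, (X i : E) = ((x i : F) : E) := fun i => rfl
  refine ⟨X, fun i => ?_, fun J hJ => ?_⟩
  · have h := map_dvd (RingOfIntegers.mapRingHom (algebraMap F E)) (hx1 i)
    simpa using h
  have hprod : (∏ j ∈ J, (X j : E)) = ((∏ j ∈ J, (x j : F) : F) : E) := by
    push_cast
    rfl
  rw [hprod]
  set Y : F := ∏ j ∈ J, (x j : F) with hY
  have hact : ∀ g : Gal(F/ℚ), ∏ j ∈ J, ((g • x j : 𝓞 F) : F) = g Y := by
    intro g
    rw [hY, map_prod]
    rfl
  have hYne : Y ≠ 0 := by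
    rw [hY, Finset.prod_ne_zero_iff]
    intro j _
    have := hx0 j
    exact fun h => this (by exact_mod_cast RingOfIntegers.coe_eq_zero_iff.1 h)
  refine ⟨by exact_mod_cast hYne, fun v hv => (hVF _).1 Y.2 v hv, fun γ hγ => ?_, fun T hT hTy => ?_⟩
  · by_contra hne
    have hδ1 : δ γ ≠ 1 := by
      intro h1
      apply hne
      rw [← hfix, IntermediateField.mem_fixingSubgroup_iff]
      intro y hy
      have := hδ γ ⟨y, hy⟩
      rw [h1] at this
      exact this.symm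
    have hfixY : (δ γ) Y = Y := by
      apply Subtype.ext
      rw [hδ γ Y]
      exact hγ
    apply hind (({1, δ γ} : Finset Gal(F/ℚ)) ×ˢ J)
    · obtain ⟨j, hj⟩ := hJ
      exact ⟨(1, j), by simp [hj]⟩
    · rw [Finset.prod_product, Finset.prod_pair (Ne.symm hδ1)]
      simp only [hact]
      rw [hfixY]
      exact ⟨Y, rfl⟩
  · rintro ⟨z, hzV, hz⟩
    have hzF : z ∈ F := (hVF z).2 hzV
    choose! γ hγ using hTy
    have hinj : Set.InjOn (fun y => δ (γ y)) (T : Set E) := by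
      intro a ha b hb hab
      have h1 := hδ (γ a) Y
      have h2 := hδ (γ b) Y
      have hab' : δ (γ a) = δ (γ b) := hab
      rw [hab', h2] at h1
      rw [hγ a ha, hγ b hb, h1]
    apply hind ((T.image (fun y => δ (γ y))) ×ˢ J)
    · obtain ⟨j, hj⟩ := hJ
      obtain ⟨y, hy⟩ := hT
      exact ⟨(δ (γ y), j), by simp only [Finset.mem_product]; exact ⟨Finset.mem_image_of_mem _ hy, hj⟩⟩
    · rw [Finset.prod_product, Finset.prod_image (fun a ha b hb h => hinj ha hb h)]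
      simp only [hact]
      refine ⟨⟨z, hzF⟩, ?_⟩
      apply Subtype.ext
      have h3 : ((∏ y ∈ T, (δ (γ y)) Y : F) : E) = ∏ y ∈ T, y := by
        push_cast
        refine Finset.prod_congr rfl fun y hy => ?_
        rw [hδ]
        exact (hγ y hy).symm
      rw [h3, ← hz, sq]
      rfl

end General

theorem F9_holds : F9 := by
  intro V hVn hV
  obtain ⟨x, -, hx⟩ := exists_gen (E := Sv) V hVn hV 2 1 one_ne_zero
  refine ⟨x 0, x 1, ?_, ?_, ?_⟩
  · have := hx {0} ⟨0, by simp⟩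
    simpa [GenE, Gen] using this
  · have := hx {1} ⟨1, by simp⟩
    simpa [GenE, Gen] using this
  · have := hx {0, 1} ⟨0, by simp⟩
    rw [Finset.prod_pair (by decide)] at this
    exact this

theorem F10_holds : F10 := by
  intro V hVn hV q hq hq2 _
  obtain ⟨x, hx1, hx⟩ := exists_gen (E := Sv) V hVn hV 1 q hq.ne_zero
  have hG : Gen V (x 0 : Sv) := by
    have := hx {0} ⟨0, by simp⟩
    rw [Finset.prod_singleton] at this
    exact this
  refine ⟨x 0, hG, fun Q hQ g hg hgQ => ⟨hg, fun γ z hz => ?_⟩⟩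
  -- `g` fixes `γ x`
  have hfix : g (γ (x 0 : Sv)) = γ (x 0 : Sv) := by
    have h1 := hG.2.1 (γ⁻¹ * g * γ) (by simpa using hVn.conj_mem g hg γ⁻¹)
    have h2 : γ ((γ⁻¹ * g * γ) (x 0 : Sv)) = g (γ (x 0 : Sv)) := by
      rw [← AlgEquiv.mul_apply, ← AlgEquiv.mul_apply]
      congr 1
      group
    rw [← h2, h1]
  have hsq : (g z) ^ 2 = z ^ 2 := by rw [← map_pow, hz, hfix]
  rcases sq_eq_sq_iff_eq_or_eq_neg.1 hsq with h | h
  · exact h
  exfalso
  -- the square root is an algebraic integer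
  have hzi : IsIntegral ℤ z := by
    have h0 : IsIntegral ℤ (z ^ 2) := by
      rw [hz]
      exact ((x 0).2).map γ
    exact IsIntegral.of_pow (n := 2) two_pos h0
  let zI : 𝓞 Sv := ⟨z, hzi⟩
  have hzz : zI * zI = γ • (x 0) := by
    apply RingOfIntegers.ext
    change z * z = γ (x 0 : Sv)
    rw [← hz, sq]
  have hd : (q : 𝓞 Sv) ∣ zI * zI - 1 := by
    obtain ⟨c, hc⟩ := hx1 0
    refine ⟨γ • c, ?_⟩
    rw [hzz]
    have h3 : γ • (x 0 - 1) = γ • ((q : 𝓞 Sv) * c) := by rw [hc]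
    rw [smul_sub, smul_one, smul_mul'] at h3
    rw [h3]
    congr 1
    exact map_natCast (MulSemiringAction.toRingHom SG (𝓞 Sv) γ) q
  have hqQ : (q : 𝓞 Sv) ∈ Q.ideal := hQ ▸ Q.rchar_mem
  have hmem : (zI - 1) * (zI + 1) ∈ Q.ideal := by
    obtain ⟨c, hc⟩ := hd
    have : (zI - 1) * (zI + 1) = q * c := by rw [← hc]; ring
    rw [this]
    exact Ideal.mul_mem_right _ _ hqQ
  have hgz : g • zI = - zI := by
    apply RingOfIntegers.ext
    change g z = -z
    exact h
  have hgm : ∀ y : 𝓞 Sv, y ∈ Q.ideal → g • y ∈ Q.ideal := by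
    intro y hy
    have h4 : g • y ∈ (g • Q).ideal := Ideal.smul_mem_pointwise_smul g y _ hy
    rwa [hgQ] at h4
  have h2 : ((2 : ℕ) : 𝓞 Sv) ∈ Q.ideal := by
    rcases Q.isPrime.mem_or_mem hmem with h5 | h5
    · have h6 := hgm _ h5
      rw [smul_sub, smul_one, hgz] at h6
      have h7 : ((2 : ℕ) : 𝓞 Sv) = - ((zI - 1) + (-zI - 1)) := by push_cast; ring
      rw [h7]
      exact Ideal.neg_mem_iff _ |>.2 (Ideal.add_mem _ h5 h6)
    · have h6 := hgm _ h5
      rw [smul_add, smul_one, hgz] at h6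
      have h7 : ((2 : ℕ) : 𝓞 Sv) = (zI + 1) + (-zI + 1) := by push_cast; ring
      rw [h7]
      exact Ideal.add_mem _ h5 h6
  have h8 := (Q.natCast_mem_iff 2).1 h2
  rw [hQ] at h8
  exact hq2 ((Nat.prime_dvd_prime_iff_eq hq Nat.prime_two).1 h8)

end Crest.Agent.R018.F9x530
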