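import Mathlib
import Crest.Agent.R018.FDAdapt_389

/-!
# Row 18: Frobenius density along sets of primes with sparse complement
-/

set_option autoImplicit false
set_option linter.unusedSectionVars false

open NumberField Ideal MulAction
open scoped Pointwise
open Crest.Agent.R018.EndDefx924
open Crest.Agent.R018.FrobCountx389 Crest.Agent.R018.FrobDensityx389

namespace Crest.Agent.R018.FDSparsex389

theorem logD_of_summable {a : ℕ → ℝ} (h : Summable (fun p : Nat.Primes => |a p| / ((p : ℕ) : ℝ))) :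
    LogD a 0 := by
  have hle : ∀ s : ℝ, 1 ≤ s → ∀ p : Nat.Primes,
      |a p * ((p : ℕ) : ℝ) ^ (-s)| ≤ |a p| / ((p : ℕ) : ℝ) := by
    intro s hs p
    have hp1 : (1 : ℝ) ≤ ((p : ℕ) : ℝ) := by exact_mod_cast p.2.one_lt.le
    rw [abs_mul, div_eq_mul_inv]
    refine mul_le_mul_of_nonneg_left ?_ (abs_nonneg _)
    rw [abs_of_nonneg (by positivity), ← Real.rpow_neg_one]
    exact Real.rpow_le_rpow_of_exponent_le hp1 (by linarith)
  refine ⟨fun s hs => Summable.of_abs (Summable.of_nonneg_of_le (fun _ => abs_nonneg _)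
    (hle s hs.le) h), ∑' p : Nat.Primes, |a p| / ((p : ℕ) : ℝ), fun s hs _ => ?_⟩
  rw [zero_mul, sub_zero, Z]
  have h1 : Summable (fun p : Nat.Primes => |a p * ((p : ℕ) : ℝ) ^ (-s)|) :=
    Summable.of_nonneg_of_le (fun _ => abs_nonneg _) (hle s hs.le) h
  have h2 : |∑' p : Nat.Primes, a p * ((p : ℕ) : ℝ) ^ (-s)| ≤
      ∑' p : Nat.Primes, |a p * ((p : ℕ) : ℝ) ^ (-s)| := by
    have := norm_tsum_le_tsum_norm (f := fun p : Nat.Primes => a p * ((p : ℕ) : ℝ) ^ (-s))
      (by simpa only [Real.norm_eq_abs] using h1)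
    simpa only [Real.norm_eq_abs] using this
  exact h2.trans (h1.tsum_le_tsum (hle s hs.le) h)

theorem logD_absurd {a : ℕ → ℝ} {c : ℝ} (hc : 0 < c) (ha : LogD a c) (h0 : LogD a 0) : False := by
  have h1 : LogD (fun p => a p + (-1) * a p) (c + (-1) * 0) := ha.add (h0.smul (-1))
  have h2 : (fun p => a p + (-1) * a p) = fun _ => (0 : ℝ) := by
    funext p; ring
  rw [h2, mul_zero, add_zero] at h1
  obtain ⟨p, -, -, hp⟩ := h1.frequently hc 0
  exact hp rfl

theorem frequently_sparse {a : ℕ → ℝ} {c : ℝ} (hc : 0 < c) (ha : LogD a c) (N : ℕ) (M : ℝ)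
    (hM : ∀ p : ℕ, p.Prime → N < p → |a p| ≤ M) (PP : Set ℕ)
    (hPP : Summable (fun p : {p : Nat.Primes // (p : ℕ) ∉ PP} => (1 : ℝ) / ((p : Nat.Primes) : ℕ))) :
    ∃ p : ℕ, p.Prime ∧ N < p ∧ p ∈ PP ∧ a p ≠ 0 := by
  classical
  by_contra hcon
  push Not at hcon
  refine logD_absurd hc ha (logD_of_summable ?_)
  have h1 : Summable (fun p : Nat.Primes => Set.indicator {p : Nat.Primes | (p : ℕ) ∉ PP}
      (fun p : Nat.Primes => (1 : ℝ) / ((p : Nat.Primes) : ℕ)) p) :=
    summable_subtype_iff_indicator.mp hPP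
  have h2 := h1.mul_left M
  have hfin : ({p : Nat.Primes | (p : ℕ) ≤ N} : Set Nat.Primes).Finite := by
    refine Set.Finite.of_finite_image ((Set.finite_Iic N).subset ?_)
      (f := fun p : Nat.Primes => (p : ℕ)) (Subtype.val_injective.injOn)
    rintro _ ⟨p, hp, rfl⟩
    exact hp
  have h3 : Summable (fun p : Nat.Primes => if (p : ℕ) ≤ N then |a p| / ((p : ℕ) : ℝ) else 0) := by
    refine summable_of_ne_finset_zero (s := hfin.toFinset) fun p hp => ?_
    have : ¬ (p : ℕ) ≤ N := by simpa using hp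
    rw [if_neg this]
  refine Summable.of_nonneg_of_le (fun p => by positivity) (fun p => ?_) (h2.add h3)
  have hM0 : ∀ p : Nat.Primes, 0 ≤ M * Set.indicator {p : Nat.Primes | (p : ℕ) ∉ PP}
      (fun p : Nat.Primes => (1 : ℝ) / ((p : Nat.Primes) : ℕ)) p ∨ (p : ℕ) ≤ N := by
    intro p
    by_cases hp : (p : ℕ) ≤ N
    · exact Or.inr hp
    · left
      have : 0 ≤ M := (abs_nonneg _).trans (hM p p.2 (not_le.mp hp))
      exact mul_nonneg this (Set.indicator_nonneg (fun _ _ => by positivity) _)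
  by_cases hp : (p : ℕ) ≤ N
  · rw [if_pos hp]
    by_cases hM' : 0 ≤ M
    · have : 0 ≤ M * Set.indicator {p : Nat.Primes | (p : ℕ) ∉ PP}
        (fun p : Nat.Primes => (1 : ℝ) / ((p : Nat.Primes) : ℕ)) p :=
        mul_nonneg hM' (Set.indicator_nonneg (fun _ _ => by positivity) _)
      linarith
    · exfalso
      obtain ⟨q, hq, hq2⟩ := Nat.exists_infinite_primes (N + 1)
      have := (abs_nonneg _).trans (hM q hq2 (by omega))
      exact hM' this
  · rw [if_neg hp, add_zero]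
    have hp' : N < (p : ℕ) := not_le.mp hp
    by_cases hmem : (p : ℕ) ∈ PP
    · rw [hcon p p.2 hp' hmem, Set.indicator_of_notMem (by simpa using hmem)]
      simp
    · rw [Set.indicator_of_mem (by simpa using hmem)]
      rw [div_eq_mul_one_div]
      exact mul_le_mul_of_nonneg_right (hM p p.2 hp') (by positivity)

section

variable {F L : Type*} [Field F] [NumberField F] [Field L] [NumberField L] [Algebra F L]
  [IsGalois F L]

/-- boundedness of the number of primes with given decomposition group -/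
theorem b_bounded (U : Subgroup Gal(L/F)) : ∃ (N : ℕ) (M : ℝ), ∀ p : ℕ, p.Prime → N < p →
    |(Nat.card U : ℝ) * (b F L Gal(L/F) U p : ℝ)| ≤ M := by
  classical
  have hfin : Finite (Subgroup Gal(L/F)) := inferInstance
  have := Fintype.ofFinite (Subgroup Gal(L/F))
  obtain ⟨N, hN⟩ := unr_of_large (F := F) (L := L)
  refine ⟨N, (Nat.card (⊤ : Subgroup Gal(L/F)) : ℝ) * ((1 + 1) ^ (Module.finrank ℤ (𝓞 F)) : ℕ),
    fun p hp hpN => ?_⟩
  have : IsGaloisGroup (⊤ : Subgroup Gal(L/F)) F L := inferInstance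
  have hcount := count' (F := F) (M := F) (L := L) Gal(L/F) ⊤ hp (hN p hp hpN)
  have h1 : Nat.card U * b F L Gal(L/F) U p ≤ Nat.card (⊤ : Subgroup Gal(L/F)) *
      (Y_finite (M := F) p).toFinset.card := by
    rw [← hcount]
    exact Finset.single_le_sum (f := fun D : Subgroup Gal(L/F) =>
      Nat.card D * b F L Gal(L/F) D p) (fun _ _ => Nat.zero_le _) (by simp)
  have h2 : (Y_finite (M := F) p).toFinset.card ≤ (1 + 1) ^ (Module.finrank ℤ (𝓞 F)) := by
    have h3 := Crest.Agent.R018.DegOnex796.aK_pow_le F p hp 1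
    rw [pow_one] at h3
    refine le_trans (le_of_eq ?_) h3
    rw [← Set.ncard_eq_toFinset_card _ (Y_finite p)]
    rfl
  have h4 := h1.trans (Nat.mul_le_mul_left _ h2)
  rw [abs_of_nonneg (by positivity)]
  exact_mod_cast h4

/-- Frobenius density along a set of primes with sparse complement -/
theorem exists_frob_sparse (PP : Set ℕ)
    (hPP : Summable (fun p : {p : Nat.Primes // (p : ℕ) ∉ PP} => (1 : ℝ) / ((p : Nat.Primes) : ℕ)))
    (σ : Gal(L/F)) (N : ℕ) :
    ∃ p : ℕ, p.Prime ∧ N < p ∧ p ∈ PP ∧ Unr F L p ∧ ∃ P : Ideal (𝓞 L), P.IsPrime ∧ P ≠ ⊥ ∧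
      (p : 𝓞 L) ∈ P ∧ absNorm (P.under (𝓞 F)) = p ∧
      stabilizer Gal(L/F) P = Subgroup.zpowers σ := by
  obtain ⟨N', hN'⟩ := unr_of_large (F := F) (L := L)
  obtain ⟨N'', M, hM⟩ := b_bounded (F := F) (L := L) (Subgroup.zpowers σ)
  have hpos : (0 : ℝ) < (gen (Subgroup.zpowers σ) : ℝ) := by exact_mod_cast gen_pos σ
  obtain ⟨p, hp, hpN, hpP, hne⟩ := frequently_sparse hpos
    (Crest.Agent.R018.Frobeniusx389.frob_density (Subgroup.zpowers σ)) (max N (max N' N'')) M
    (fun p hp h => hM p hp (by omega)) PP hPP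
  have hur := hN' p hp (by omega)
  have hb : b F L Gal(L/F) (Subgroup.zpowers σ) p ≠ 0 := by
    intro h
    simp only [h, Nat.cast_zero, mul_zero, ne_eq, not_true_eq_false] at hne
  obtain ⟨P, hP⟩ := Set.nonempty_of_ncard_ne_zero hb
  exact ⟨p, hp, by omega, hpP, hur, P, hP.1.1, ne_bot_of_mem_X hp hP.1, mem_of_mem_X hP.1,
    hP.1.2, hP.2⟩

end

open Crest.Agent.R018.FDAdaptx389

theorem fd_of_exists (PP : Set ℕ) (H : ∀ (N : IntermediateField ℚ Om) [NumberField N]
    [IsGalois ℚ N] (σ : Gal(N/ℚ)) (B : ℕ), ∃ p : ℕ, p.Prime ∧ B < p ∧ p ∈ PP ∧ Unr ℚ N p ∧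
      ∃ P : Ideal (𝓞 N), P.IsPrime ∧ P ≠ ⊥ ∧
      (p : 𝓞 N) ∈ P ∧ absNorm (P.under (𝓞 ℚ)) = p ∧
      stabilizer Gal(N/ℚ) P = Subgroup.zpowers σ) : FD PP := by
  intro N _ _ s B
  have : NumberField N := {
    to_charZero := inferInstance
    to_finiteDimensional := inferInstance }
  let σ : Gal(N/ℚ) := AlgEquiv.restrictNormalHom N s
  obtain ⟨p, hp, hpB, hpP, hur, P, hP, hP0, hmem, hnorm, hst⟩ := H N σ B
  have hpf : Fact p.Prime := ⟨hp⟩
  obtain ⟨Q, hQ, hQP⟩ := exists_above N P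
  have hpQ : (p : OO Om) ∈ Q := by
    have : (p : 𝓞 N) ∈ Q.comap (iN N) := by rw [hQP]; exact hmem
    simpa using this
  obtain ⟨l, g, hker, hfrob⟩ := exists_frob_lift p Q hpQ
  let ψ : Gal(N/ℚ) := AlgEquiv.restrictNormalHom N g
  have hψ : ∀ x : 𝓞 N, ψ • x - x ^ p ∈ P := by
    intro x
    rw [← hQP, Ideal.mem_comap, ← hker, RingHom.mem_ker, map_sub, map_sub, map_pow, map_pow,
      sub_eq_zero, ← hfrob]
    congr 1
    ext
    exact AlgEquiv.restrictNormal_commutes g N (x : N)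
  have hz : Subgroup.zpowers ψ = Subgroup.zpowers σ := by
    rw [Crest.Agent.R018.FrobElemx389.zpowers_frob P hP0 (hur P hP hP0 hmem) ψ
      (by rw [hnorm]; exact hψ), hst]
  refine ⟨p, hpf, hpB, hpP, l, g, hfrob, ?_, ?_⟩
  · have h1 : σ ∈ Submonoid.powers ψ := by
      rw [mem_powers_iff_mem_zpowers, hz]
      exact Subgroup.mem_zpowers σ
    obtain ⟨k, hk⟩ := h1
    refine ⟨k, fun x hx => ?_⟩
    have h2 : ((σ ⟨x, hx⟩ : N) : Om) = s x := AlgEquiv.restrictNormal_commutes s N ⟨x, hx⟩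
    have h3 : (AlgEquiv.restrictNormalHom N (g ^ k)) = ψ ^ k := map_pow _ _ _
    have h4 : (((AlgEquiv.restrictNormalHom N (g ^ k)) ⟨x, hx⟩ : N) : Om) = (g ^ k) x :=
      AlgEquiv.restrictNormal_commutes (g ^ k) N ⟨x, hx⟩
    rw [← h2, ← h4, h3]
    exact congrArg (fun f : Gal(N/ℚ) => ((f ⟨x, hx⟩ : N) : Om)) hk.symm
  · have h1 : ψ ∈ Submonoid.powers σ := by
      rw [mem_powers_iff_mem_zpowers, ← hz]
      exact Subgroup.mem_zpowers ψ
    obtain ⟨k, hk⟩ := h1
    refine ⟨k, fun x hx => ?_⟩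
    have h2 : ((ψ ⟨x, hx⟩ : N) : Om) = g x := AlgEquiv.restrictNormal_commutes g N ⟨x, hx⟩
    have h3 : (AlgEquiv.restrictNormalHom N (s ^ k)) = σ ^ k := map_pow _ _ _
    have h4 : (((AlgEquiv.restrictNormalHom N (s ^ k)) ⟨x, hx⟩ : N) : Om) = (s ^ k) x :=
      AlgEquiv.restrictNormal_commutes (s ^ k) N ⟨x, hx⟩
    rw [← h2, ← h4, h3]
    exact congrArg (fun f : Gal(N/ℚ) => ((f ⟨x, hx⟩ : N) : Om)) hk.symm

/-- **Frobenius density over `ℚ` along a set of primes whose complement is sparse** -/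
theorem fd_sparse (PP : Set ℕ)
    (hPP : Summable (fun p : {p : Nat.Primes // (p : ℕ) ∉ PP} =>
      (1 : ℝ) / ((p : Nat.Primes) : ℕ))) : FD PP :=
  fd_of_exists PP fun N _ _ σ B => exists_frob_sparse PP hPP σ B

theorem summable_two_pow_add_one : Summable (fun n : ℕ =>
    Set.indicator (Set.range fun a : ℕ => 2 ^ a + 1) (fun n : ℕ => (1 : ℝ) / (n : ℝ)) n) := by
  have hinj : Function.Injective (fun a : ℕ => 2 ^ a + 1) := by
    intro a b h
    have h' : 2 ^ a + 1 = 2 ^ b + 1 := h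
    exact Nat.pow_right_injective le_rfl (by simpa using h')
  rw [← hinj.summable_iff (fun x hx => Set.indicator_of_notMem hx _)]
  have hgeo : Summable (fun a : ℕ => ((1 : ℝ) / 2) ^ a) := summable_geometric_two
  refine Summable.of_nonneg_of_le (fun a => ?_) (fun a => ?_) hgeo
  · simp only [Function.comp_apply]
    rw [Set.indicator_of_mem (Set.mem_range_self a)]
    positivity
  · simp only [Function.comp_apply]
    rw [Set.indicator_of_mem (Set.mem_range_self a)]
    rw [one_div_pow]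
    apply one_div_le_one_div_of_le (by positivity)
    push_cast
    linarith

theorem eq_two_pow {n : ℕ} (hn : n ≠ 0) (h : ∀ r : ℕ, r.Prime → r ≠ 2 → ¬ r ∣ n) :
    ∃ a, n = 2 ^ a := by
  have h1 : ∀ {r : ℕ}, r.Prime → r ∣ n → r = 2 := by
    intro r hr hrn
    by_contra h2
    exact h r hr h2 hrn
  exact ⟨_, Nat.eq_prime_pow_of_unique_prime_dvd hn h1⟩

/-- Frobenius density along the primes `p > B` such that `p - 1` is not a power of `2` -/
theorem fd_not_fermat (B : ℕ) :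
    FD {p | B < p ∧ ∃ r : ℕ, r.Prime ∧ r ≠ 2 ∧ r ∣ p - 1} := by
  apply fd_sparse
  refine (summable_subtype_iff_indicator
    (f := fun p : Nat.Primes => (1 : ℝ) / ((p : Nat.Primes) : ℕ))
    (s := {p : Nat.Primes | (p : ℕ) ∉ {p | B < p ∧ ∃ r : ℕ, r.Prime ∧ r ≠ 2 ∧
      r ∣ p - 1}})).mpr ?_
  have h1 : Summable (fun p : Nat.Primes => Set.indicator (Set.range fun a : ℕ => 2 ^ a + 1)
      (fun n : ℕ => (1 : ℝ) / (n : ℝ)) (p : ℕ)) :=
    summable_two_pow_add_one.comp_injective Nat.Primes.coe_nat_injective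
  have hfin : ({p : Nat.Primes | (p : ℕ) ≤ B} : Set Nat.Primes).Finite := by
    refine Set.Finite.of_finite_image ((Set.finite_Iic B).subset ?_)
      (f := fun p : Nat.Primes => (p : ℕ)) (Subtype.val_injective.injOn)
    rintro _ ⟨p, hp, rfl⟩
    exact hp
  have h2 : Summable (fun p : Nat.Primes => if (p : ℕ) ≤ B then (1 : ℝ) / ((p : ℕ) : ℝ) else 0) := by
    refine summable_of_ne_finset_zero (s := hfin.toFinset) fun p hp => ?_
    have : ¬ (p : ℕ) ≤ B := by simpa using hp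
    rw [if_neg this]
  refine Summable.of_nonneg_of_le (fun p => Set.indicator_nonneg (fun _ _ => by positivity) _)
    (fun p => ?_) (h1.add h2)
  by_cases hB : (p : ℕ) ≤ B
  · rw [if_pos hB]
    have h3 : 0 ≤ Set.indicator (Set.range fun a : ℕ => 2 ^ a + 1)
        (fun n : ℕ => (1 : ℝ) / (n : ℝ)) (p : ℕ) :=
      Set.indicator_nonneg (fun _ _ => by positivity) _
    refine le_trans (Set.indicator_le_self' (fun _ _ => by positivity) p) ?_
    linarith
  · rw [if_neg hB, add_zero]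
    by_cases hmem : p ∈ {p : Nat.Primes | (p : ℕ) ∉ {p | B < p ∧ ∃ r : ℕ, r.Prime ∧ r ≠ 2 ∧
        r ∣ p - 1}}
    · rw [Set.indicator_of_mem hmem]
      have h4 : ∀ r : ℕ, r.Prime → r ≠ 2 → ¬ r ∣ (p : ℕ) - 1 := by
        intro r hr hr2 hd
        exact hmem ⟨not_le.mp hB, r, hr, hr2, hd⟩
      have hp1 := p.2.one_lt
      obtain ⟨a, ha⟩ := eq_two_pow (n := (p : ℕ) - 1) (by omega) h4
      have h5 : (p : ℕ) ∈ Set.range fun a : ℕ => 2 ^ a + 1 := ⟨a, by simp only; omega⟩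
      rw [Set.indicator_of_mem h5]
    · rw [Set.indicator_of_notMem hmem]
      exact Set.indicator_nonneg (fun _ _ => by positivity) _

end Crest.Agent.R018.FDSparsex389
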