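import Crest.Agent.R018.Dens_925
import Crest.Agent.R018.RedA_49

/-!
# Row 18: `ft_of_cyc` for open subgroups of `Gal(Om/ℚ)` (helper925)

* `exists_transfer` : an open subgroup `G₁ ≤ Gal(Om/ℚ)` is `Gal(Om/F₁)` for a number field
  `F₁ ⊆ Om`, and homomorphisms `α` on `G₁` become homomorphisms on `Om ≃ₐ[F₁] Om`.
* `ft_of_cyc_sub`, `ft_of_dec_sub`.
-/

set_option autoImplicit false

open NumberField
open scoped Pointwise Topology
open Crest.Agent.R018.Placesx484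
open Crest.Agent.R018.EndDefx924

namespace Crest.Agent.R018.FTSubx925

open Crest.Agent.R018.EndAx924

/-- `G₁ = Gal(Om/F₁)` -/
theorem exists_transfer {H : Type*} [Group H] [TopologicalSpace H]
    (G₁ : Subgroup (Om ≃ₐ[ℚ] Om)) (hG : IsOpen (G₁ : Set (Om ≃ₐ[ℚ] Om)))
    (α : G₁ →* H) (hα : Continuous α) :
    ∃ (F₁ : IntermediateField ℚ Om) (_ : NumberField F₁)
      (i : (Om ≃ₐ[F₁] Om) →* G₁) (j : G₁ → (Om ≃ₐ[F₁] Om)),
      (∀ g, j (i g) = g) ∧ (∀ g, i (j g) = g) ∧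
      (∀ (g : Om ≃ₐ[F₁] Om) (x : Om), (i g : Om ≃ₐ[ℚ] Om) x = g x) ∧ Continuous (α.comp i) := by
  have hclosed : IsClosed (G₁ : Set (Om ≃ₐ[ℚ] Om)) := Subgroup.isClosed_of_isOpen _ hG
  let K : ClosedSubgroup (Om ≃ₐ[ℚ] Om) := ⟨G₁, hclosed⟩
  let F₁ : IntermediateField ℚ Om := IntermediateField.fixedField K.1
  have hfix : F₁.fixingSubgroup = G₁ := InfiniteGalois.fixingSubgroup_fixedField K
  have hfin : FiniteDimensional ℚ F₁ := by
    rw [← InfiniteGalois.isOpen_iff_finite]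
    change IsOpen (F₁.fixingSubgroup : Set (Om ≃ₐ[ℚ] Om))
    rw [hfix]; exact hG
  haveI hnf : NumberField F₁ := NumberField.of_module_finite ℚ F₁
  let e : F₁.fixingSubgroup ≃* (Om ≃ₐ[F₁] Om) := IntermediateField.fixingSubgroupEquiv F₁
  let c : F₁.fixingSubgroup ≃* G₁ := MulEquiv.subgroupCongr hfix
  have hcont : Continuous (e.symm : (Om ≃ₐ[F₁] Om) → F₁.fixingSubgroup) := by
    rw [Topology.IsEmbedding.subtypeVal.continuous_iff]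
    haveI : IsGalois F₁ Om := LCEndx925.isGalois_Om F₁
    let f : (Om ≃ₐ[F₁] Om) →* (Om ≃ₐ[ℚ] Om) := (Subgroup.subtype _).comp e.symm.toMonoidHom
    have hf : Continuous f := by
      apply Redx49.continuous_of_eval
      intro x
      have h1 := Redx49.eval_mem_nhds (K := F₁) x
      refine Filter.mem_of_superset h1 ?_
      intro g hg
      exact hg
    exact hf
  have hcont2 : Continuous (c : F₁.fixingSubgroup → G₁) := by
    rw [Topology.IsEmbedding.subtypeVal.continuous_iff]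
    exact continuous_subtype_val
  refine ⟨F₁, hnf, (c.toMonoidHom).comp e.symm.toMonoidHom, fun g => e (c.symm g), ?_, ?_, ?_, ?_⟩
  · intro g
    change e (c.symm (c (e.symm g))) = g
    rw [MulEquiv.symm_apply_apply, MulEquiv.apply_symm_apply]
  · intro g
    change c (e.symm (e (c.symm g))) = g
    rw [MulEquiv.symm_apply_apply, MulEquiv.apply_symm_apply]
  · intro g x
    rfl
  · exact hα.comp (hcont2.comp hcont)

/-- **weak cyclotomic compatibility + local correspondence ⟹ field theoretic**, for open subgroups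
of `Gal(Om/ℚ)`. -/
theorem ft_of_cyc_sub {F E : Type*} [Field F] [NumberField F] [Field E] [Algebra F E]
    [IsGalois F E] (hsc : Crest.NumberTheoryR.IsSolvablyClosed E)
    (G₁ : Subgroup (Om ≃ₐ[ℚ] Om)) (hG : IsOpen (G₁ : Set (Om ≃ₐ[ℚ] Om)))
    (α : G₁ →* (E ≃ₐ[F] E)) (hα : Continuous α) (S : Finset ℕ)
    (cyc : ∀ l : ℕ, l.Prime → l ∉ S → ∀ (s : G₁) (a : ℕ),
      (∀ ζ : Om, ζ ^ l = 1 → (s : Om ≃ₐ[ℚ] Om) ζ = ζ ^ a) → ∀ ζ : E, ζ ^ l = 1 → α s ζ = ζ ^ a)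
    (loc : ∀ r : ℕ, r.Prime → r ≠ 2 → ∀ P : Place Om, P.rchar ≠ r →
      (∃ s : G₁, (∀ x : 𝓞 Om, (s : Om ≃ₐ[ℚ] Om) • x - x ∈ P.ideal) ∧
        ∃ N : Subgroup (E ≃ₐ[F] E), N.Normal ∧ IsOpen (N : Set (E ≃ₐ[F] E)) ∧
          ∀ n : ℕ, (α s) ^ n ∈ N → r ∣ n) →
      ∃ Q : Place E, ∀ d : G₁, (d : Om ≃ₐ[ℚ] Om) • P = P → α d • Q = Q) :
    ∃ t : E →+* Om, ∀ (g : G₁) (x : E), (g : Om ≃ₐ[ℚ] Om) (t x) = t (α g x) := by
  obtain ⟨F₁, hnf, i, j, hji, hij, hi, hcont⟩ := exists_transfer G₁ hG α hα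
  have hsm : ∀ (g : Om ≃ₐ[F₁] Om) (x : 𝓞 Om), (i g : Om ≃ₐ[ℚ] Om) • x = g • x := by
    intro g x
    apply NumberField.RingOfIntegers.coe_injective
    have h1 := LCMainx925.coe_smul_int (i g : Om ≃ₐ[ℚ] Om) x
    have h2 := LCMainx925.coe_smul_int g x
    exact h1.trans ((hi g _).trans h2.symm)
  have hsP : ∀ (g : Om ≃ₐ[F₁] Om) (P : Place Om), (i g : Om ≃ₐ[ℚ] Om) • P = g • P := by
    intro g P
    apply Place.ext
    ext x
    rw [Place.mem_smul_ideal, Place.mem_smul_ideal]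
    have h3 := hsm g⁻¹ x
    rw [map_inv] at h3
    have h4 : ((i g : G₁)⁻¹ : G₁) = ((i g)⁻¹ : G₁) := rfl
    have h5 : ((i g : Om ≃ₐ[ℚ] Om))⁻¹ • x = g⁻¹ • x := h3
    rw [h5]
  have hcyc' : ∀ l : ℕ, l.Prime → l ∉ S → ∀ (s : Om ≃ₐ[F₁] Om) (a : ℕ),
      (∀ ζ : Om, ζ ^ l = 1 → s ζ = ζ ^ a) → ∀ ζ : E, ζ ^ l = 1 → (α.comp i) s ζ = ζ ^ a := by
    intro l hl hlS s a hs
    exact cyc l hl hlS (i s) a (fun ζ hζ => (hi s ζ).trans (hs ζ hζ))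
  have hloc' : ∀ r : ℕ, r.Prime → r ≠ 2 → ∀ P : Place Om, P.rchar ≠ r →
      (∃ s : Om ≃ₐ[F₁] Om, (∀ x : 𝓞 Om, s • x - x ∈ P.ideal) ∧
        ∃ N : Subgroup (E ≃ₐ[F] E), N.Normal ∧ IsOpen (N : Set (E ≃ₐ[F] E)) ∧
          ∀ n : ℕ, ((α.comp i) s) ^ n ∈ N → r ∣ n) →
      ∃ Q : Place E, ∀ d : Om ≃ₐ[F₁] Om, d • P = P → (α.comp i) d • Q = Q := by
    rintro r hr hr2 P hP ⟨s, hs, N, hN, hNo, hn⟩
    obtain ⟨Q, hQ⟩ := loc r hr hr2 P hP ⟨i s, fun x => by rw [hsm]; exact hs x, N, hN, hNo, hn⟩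
    exact ⟨Q, fun d hd => hQ (i d) (by rw [hsP]; exact hd)⟩
  obtain ⟨t, ht⟩ := FTx925.ft_of_cyc hsc (α.comp i) hcont S hcyc' hloc'
  refine ⟨t, fun g x => ?_⟩
  have h1 := ht (j g) x
  rw [← hi, hij] at h1
  rw [h1, MonoidHom.comp_apply, hij]

end Crest.Agent.R018.FTSubx925
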