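import Crest.Agent.R018.LCEnd_925
import Crest.Agent.R018.EndB_924
import Crest.Agent.R018.EndA_245
import Crest.Agent.R018.FDSparse_389
import Crest.Agent.R018.Kum_568

/-!
# Row 18: weak cyclotomic compatibility + local correspondence imply the conclusion (helper925)
-/

set_option autoImplicit false

open NumberField
open scoped Pointwise Topology
open Crest.Agent.R018.Placesx484
open Crest.Agent.R018.EndDefx924

namespace Crest.Agent.R018.FTx925

/-- weak cyclotomic compatibility (one level `μ_l` for almost all primes `l`) and the local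
correspondence imply that `α` comes from an embedding of fields. -/
theorem ft_of_cyc {F₁ F₂ E₂ : Type*} [Field F₁] [NumberField F₁] [Algebra F₁ Om] [Field F₂]
    [NumberField F₂] [Field E₂] [Algebra F₂ E₂] [IsGalois F₂ E₂]
    (hsc : Crest.NumberTheoryR.IsSolvablyClosed E₂)
    (α : (Om ≃ₐ[F₁] Om) →* (E₂ ≃ₐ[F₂] E₂)) (hα : Continuous α) (S : Finset ℕ)
    (cyc : ∀ l : ℕ, l.Prime → l ∉ S → ∀ (s : Om ≃ₐ[F₁] Om) (a : ℕ),
      (∀ ζ : Om, ζ ^ l = 1 → s ζ = ζ ^ a) → ∀ ζ : E₂, ζ ^ l = 1 → α s ζ = ζ ^ a)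
    (loc : ∀ r : ℕ, r.Prime → r ≠ 2 → ∀ P : Place Om, P.rchar ≠ r →
      (∃ s : Om ≃ₐ[F₁] Om, (∀ x : 𝓞 Om, s • x - x ∈ P.ideal) ∧
        ∃ N : Subgroup (E₂ ≃ₐ[F₂] E₂), N.Normal ∧ IsOpen (N : Set (E₂ ≃ₐ[F₂] E₂)) ∧
          ∀ n : ℕ, (α s) ^ n ∈ N → r ∣ n) →
      ∃ Q : Place E₂, ∀ d : Om ≃ₐ[F₁] Om, d • P = P → α d • Q = Q) :
    ∃ e : E₂ →+* Om, ∀ (g : Om ≃ₐ[F₁] Om) (x : E₂), g (e x) = e (α g x) := by
  haveI : IsGalois F₁ Om := LCEndx925.isGalois_Om F₁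
  haveI : CharZero E₂ := charZero_of_injective_algebraMap (algebraMap F₂ E₂).injective
  have hroot₂ : ∀ l : ℕ, l.Prime → ∃ ζ : E₂, IsPrimitiveRoot ζ l := fun l hl =>
    Crest.Agent.R018.Kumx568.exists_primitiveRoot hsc l hl.ne_zero
  obtain ⟨B, hB⟩ := LCEndx925.lc α S hroot₂ cyc loc
  exact Crest.Agent.R018.EndAx245.exists_global_embedding_of_finite
    (Crest.Agent.R018.EndAx245.exists_sq_of_solvablyClosed hsc)
    (fun g T => EndBx924.pointwise α hα (FDSparsex389.fd_not_fermat B) hB g T)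

end Crest.Agent.R018.FTx925
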