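import Crest.Agent.R018.GDef_791

/-!
# Row 18, LEMMA G: the conjugation action and the eigenspaces (helper791)
-/

set_option autoImplicit false

noncomputable section

namespace Crest.Agent.R018.GActx791

open Crest.Agent.R018.GDefx791

section act

variable {G : Type*} [Group G] {R : Type*} [CommRing R] (N : Subgroup G) [N.Normal]

theorem act_apply (g : G) (φ : N → R) (u : N) :
    act R N g φ u = φ (MulAut.conjNormal g⁻¹ u) := rfl

theorem act_one (φ : N → R) : act R N 1 φ = φ := by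
  funext u
  rw [act_apply]
  congr 1
  simp

theorem act_mul (g h : G) (φ : N → R) : act R N (g * h) φ = act R N g (act R N h φ) := by
  funext u
  rw [act_apply, act_apply, act_apply, mul_inv_rev, map_mul]
  rfl

theorem act_inv_act (g : G) (φ : N → R) : act R N g⁻¹ (act R N g φ) = φ := by
  rw [← act_mul, inv_mul_cancel, act_one]

theorem act_act_inv (g : G) (φ : N → R) : act R N g (act R N g⁻¹ φ) = φ := by
  rw [← act_mul, mul_inv_cancel, act_one]

theorem act_injective (g : G) : Function.Injective (act R N g) := fun φ ψ h => by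
  rw [← act_inv_act N g φ, h, act_inv_act]

theorem act_pow_eq (g : G) (φ : N → R) (h : act R N g φ = φ) (n : ℕ) : act R N (g ^ n) φ = φ := by
  induction n with
  | zero => rw [pow_zero, act_one]
  | succ n ih => rw [pow_succ, act_mul, h, ih]

end act

section V

variable {G : Type*} [Group G] [TopologicalSpace G] (l : ℕ) [Fact l.Prime] (N : Subgroup G)

variable {l N}

theorem V.map_mul {φ : N → ℤ_[l]} (h : φ ∈ V l N) (u v : N) : φ (u * v) = φ u + φ v := h.2 u v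

theorem V.map_one {φ : N → ℤ_[l]} (h : φ ∈ V l N) : φ 1 = 0 := by
  have := h.2 1 1
  rw [mul_one] at this
  exact left_eq_add.1 this

theorem V.map_pow {φ : N → ℤ_[l]} (h : φ ∈ V l N) (u : N) (n : ℕ) : φ (u ^ n) = n * φ u := by
  induction n with
  | zero => simp [V.map_one h]
  | succ n ih => rw [pow_succ, h.2, ih]; push_cast; ring

theorem V.map_inv {φ : N → ℤ_[l]} (h : φ ∈ V l N) (u : N) : φ u⁻¹ = - φ u := by
  have := h.2 u u⁻¹
  rw [mul_inv_cancel, V.map_one h] at this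
  exact (neg_eq_of_add_eq_zero_right this.symm).symm

theorem V.map_eq_zero_of_pow {φ : N → ℤ_[l]} (h : φ ∈ V l N) (u : N) (n : ℕ) (hn : 0 < n)
    (h0 : φ (u ^ n) = 0) : φ u = 0 := by
  rw [V.map_pow h] at h0
  rcases mul_eq_zero.1 h0 with h1 | h1
  · exact absurd (Nat.cast_eq_zero.1 h1) hn.ne'
  · exact h1

variable [N.Normal]

/-- an element of `N` acts trivially -/
theorem act_of_mem {φ : N → ℤ_[l]} (h : φ ∈ V l N) (g : G) (hg : g ∈ N) :
    act ℤ_[l] N g φ = φ := by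
  funext u
  rw [act_apply]
  have h1 : (MulAut.conjNormal g⁻¹ u : N) = (⟨g, hg⟩ : N)⁻¹ * u * ⟨g, hg⟩ := by
    apply Subtype.ext
    simp
  rw [h1, h.2, h.2, V.map_inv h]
  ring

theorem continuous_conjNormal [IsTopologicalGroup G] (g : G) :
    Continuous (fun u : N => (MulAut.conjNormal g u : N)) := by
  have h1 : (fun u : N => ((MulAut.conjNormal g u : N) : G)) = fun u : N => g * (u : G) * g⁻¹ := by
    funext u; exact MulAut.conjNormal_apply g u
  have h2 : Continuous fun u : N => g * (u : G) * g⁻¹ := by fun_prop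
  rw [← h1] at h2
  exact continuous_induced_rng.2 h2

theorem act_mem_V [IsTopologicalGroup G] {φ : N → ℤ_[l]} (h : φ ∈ V l N) (g : G) :
    act ℤ_[l] N g φ ∈ V l N := by
  refine ⟨h.1.comp (continuous_conjNormal g⁻¹), fun u v => ?_⟩
  rw [act_apply, _root_.map_mul, h.2]
  rfl

end V

section Eig

variable {G : Type*} [Group G] [TopologicalSpace G] {l : ℕ} [Fact l.Prime]
  {U21 U2 : Subgroup G} [U21.Normal] [U2.Normal] {χ : U21 →* ℤˣ}

theorem Eig.mem_V {γ : G} {φ : U2 → ℤ_[l]} (h : φ ∈ Eig l U21 U2 χ γ) : φ ∈ V l U2 := h.1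

theorem Eig.act {γ : G} {φ : U2 → ℤ_[l]} (h : φ ∈ Eig l U21 U2 χ γ) (a : U21) :
    act ℤ_[l] U2 (a : G) φ = (((χ (MulAut.conjNormal γ⁻¹ a) : ℤˣ) : ℤ) : ℤ_[l]) • φ := h.2 a

/-- `g` maps the eigenspace of `χ^γ` to the eigenspace of `χ^(g γ)` -/
theorem act_mem_Eig [IsTopologicalGroup G] {γ : G} {φ : U2 → ℤ_[l]}
    (h : φ ∈ Eig l U21 U2 χ γ) (g : G) : GDefx791.act ℤ_[l] U2 g φ ∈ Eig l U21 U2 χ (g * γ) := by
  refine ⟨act_mem_V h.1 g, fun a => ?_⟩
  have h1 : (a : G) * g = g * ((MulAut.conjNormal g⁻¹ a : U21) : G) := by simp [mul_assoc]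
  rw [← act_mul, h1, act_mul, h.2, map_smul, mul_inv_rev, _root_.map_mul]
  rfl

omit [TopologicalSpace G] in
theorem chi_conj_mem (a u : U21) : χ (MulAut.conjNormal (u : G)⁻¹ a) = χ a := by
  have h1 : (MulAut.conjNormal (u : G)⁻¹ a : U21) = u⁻¹ * a * u := by
    apply Subtype.ext
    simp
  rw [h1, map_mul, map_mul, map_inv, mul_comm, ← mul_assoc, mul_inv_cancel, one_mul]

theorem Eig_congr {γ γ' : G} (h : γ⁻¹ * γ' ∈ U21) :
    Eig l U21 U2 χ γ = Eig l U21 U2 χ γ' := by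
  have h1 : ∀ a : U21, χ (MulAut.conjNormal γ'⁻¹ a) = χ (MulAut.conjNormal γ⁻¹ a) := by
    intro a
    have h2 : γ'⁻¹ = (γ⁻¹ * γ')⁻¹ * γ⁻¹ := by group
    have h3 := chi_conj_mem (χ := χ) (MulAut.conjNormal γ⁻¹ a) ⟨_, h⟩
    rw [← h3, h2, _root_.map_mul]
    rfl
  ext φ
  constructor
  · rintro ⟨h2, h3⟩
    exact ⟨h2, fun a => by rw [h3, h1]⟩
  · rintro ⟨h2, h3⟩
    exact ⟨h2, fun a => by rw [h3, h1]⟩

omit [TopologicalSpace G] in
/-- two conjugates of `χ` over distinct cosets are distinct -/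
theorem exists_chi_ne (hχ : TrivStab U21 χ) {γ γ' : G} (h : γ⁻¹ * γ' ∉ U21) :
    ∃ a : U21, χ (MulAut.conjNormal γ⁻¹ a) ≠ χ (MulAut.conjNormal γ'⁻¹ a) := by
  by_contra hcon
  push Not at hcon
  apply h
  apply hχ
  intro b
  have h1 := hcon (MulAut.conjNormal γ b)
  have h2 : (MulAut.conjNormal γ⁻¹ (MulAut.conjNormal γ b) : U21) = b := by
    rw [← MulAut.mul_apply, ← _root_.map_mul, inv_mul_cancel, _root_.map_one]; rfl
  have h3 : (MulAut.conjNormal γ'⁻¹ (MulAut.conjNormal γ b) : U21)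
      = MulAut.conjNormal (γ⁻¹ * γ')⁻¹ b := by
    rw [← MulAut.mul_apply, ← _root_.map_mul]
    congr 2
    group
  rw [h2, h3] at h1
  exact h1.symm

theorem two_ne {ε ε' : ℤˣ} (h : ε ≠ ε') : (((ε : ℤ) : ℤ_[l]) - ((ε' : ℤ) : ℤ_[l])) ≠ 0 := by
  rw [sub_ne_zero]
  intro h1
  apply h
  apply Units.ext
  exact_mod_cast h1

/-- **independence** of the eigenspaces over distinct cosets -/
theorem eig_indep (hχ : TrivStab U21 χ) {ι : Type*} (s : Finset ι) (γ : ι → G)
    (hγ : ∀ i ∈ s, ∀ j ∈ s, (γ i)⁻¹ * γ j ∈ U21 → i = j) (ψ : ι → (U2 → ℤ_[l]))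
    (hψ : ∀ i ∈ s, ψ i ∈ Eig l U21 U2 χ (γ i)) (hsum : ∑ i ∈ s, ψ i = 0) :
    ∀ i ∈ s, ψ i = 0 := by
  classical
  induction s using Finset.induction_on generalizing ψ with
  | empty => simp
  | insert j s hj ih =>
    rw [Finset.sum_insert hj] at hsum
    have key : ∀ i ∈ s, ψ i = 0 := by
      intro i hi
      have hne : (γ i)⁻¹ * γ j ∉ U21 := fun h1 => by
        have := hγ i (Finset.mem_insert_of_mem hi) j (Finset.mem_insert_self _ _) h1
        exact hj (this ▸ hi)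
      obtain ⟨a, ha⟩ := exists_chi_ne hχ hne
      let c : ι → ℤ_[l] := fun i => (((χ (MulAut.conjNormal (γ i)⁻¹ a) : ℤˣ) : ℤ) : ℤ_[l])
      have h1 : ∑ i ∈ s, (c i - c j) • ψ i = 0 := by
        have h2 := congrArg (GDefx791.act ℤ_[l] U2 (a : G)) hsum
        rw [map_add, map_sum, map_zero, (hψ j (Finset.mem_insert_self _ _)).2 a] at h2
        have h3 : ∑ i ∈ s, GDefx791.act ℤ_[l] U2 (a : G) (ψ i) = ∑ i ∈ s, c i • ψ i :=
          Finset.sum_congr rfl (fun i hi => (hψ i (Finset.mem_insert_of_mem hi)).2 a)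
        rw [h3] at h2
        have h4 : c j • ψ j + c j • ∑ i ∈ s, ψ i = 0 := by rw [← smul_add, hsum, smul_zero]
        have h5 : ∑ i ∈ s, (c i - c j) • ψ i = (c j • ψ j + ∑ i ∈ s, c i • ψ i)
            - (c j • ψ j + c j • ∑ i ∈ s, ψ i) := by
          rw [Finset.smul_sum, add_sub_add_left_eq_sub, ← Finset.sum_sub_distrib]
          exact Finset.sum_congr rfl (fun i _ => sub_smul _ _ _)
        rw [h5, h4, sub_zero]
        exact h2
      have h2 := ih (fun i hi j hj => hγ i (Finset.mem_insert_of_mem hi) j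
        (Finset.mem_insert_of_mem hj)) (fun i => (c i - c j) • ψ i)
        (fun i hi => Submodule.smul_mem _ _ (hψ i (Finset.mem_insert_of_mem hi))) h1 i hi
      exact (smul_eq_zero.1 h2).resolve_left (two_ne ha)
    intro i hi
    rcases Finset.mem_insert.1 hi with rfl | hi
    · rw [Finset.sum_eq_zero key, add_zero] at hsum
      exact hsum
    · exact key i hi

/-- every element of `W` is a finite sum of eigenvectors over distinct cosets -/
theorem exists_decomp {φ : U2 → ℤ_[l]} (hφ : φ ∈ W l U21 U2 χ) :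
    ∃ (s : Finset (G ⧸ U21)) (ψ : G ⧸ U21 → (U2 → ℤ_[l])),
      (∀ q, ψ q ∈ Eig l U21 U2 χ q.out) ∧ φ = ∑ q ∈ s, ψ q := by
  classical
  have h1 : W l U21 U2 χ = ⨆ q : G ⧸ U21, Eig l U21 U2 χ q.out := by
    apply le_antisymm
    · apply iSup_le
      intro γ
      refine le_trans (le_of_eq ?_) (le_iSup (fun q : G ⧸ U21 => Eig l U21 U2 χ q.out) (γ : G ⧸ U21))
      apply Eig_congr
      rw [← QuotientGroup.eq]
      exact (QuotientGroup.out_eq' _).symm
    · exact iSup_le fun q => le_iSup (fun γ : G => Eig l U21 U2 χ γ) q.out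
  rw [h1, Submodule.mem_iSup_iff_exists_finsupp] at hφ
  obtain ⟨f, hf, hs⟩ := hφ
  exact ⟨f.support, f, hf, hs.symm⟩

theorem W_le_V : W l U21 U2 χ ≤ V l U2 := iSup_le fun _ _ h => h.1

theorem act_mem_W [IsTopologicalGroup G] {φ : U2 → ℤ_[l]} (h : φ ∈ W l U21 U2 χ) (g : G) :
    GDefx791.act ℤ_[l] U2 g φ ∈ W l U21 U2 χ := by
  have h1 : W l U21 U2 χ ≤ (W l U21 U2 χ).comap (GDefx791.act ℤ_[l] U2 g) := by
    apply iSup_le
    intro γ φ hφ
    exact Submodule.mem_iSup_of_mem (g * γ) (act_mem_Eig hφ g)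
  exact h1 h

/-- **`W^H = 0`** if `H` is normalized by `U21` and is not contained in `U21`. -/
theorem eq_zero_of_fixed (hχ : TrivStab U21 χ) (H : Set G) (hmul : ∀ x ∈ H, ∀ y ∈ H, x * y ∈ H)
    (hinv : ∀ x ∈ H, x⁻¹ ∈ H) (hnorm : ∀ x ∈ H, ∀ a ∈ U21, a * x * a⁻¹ ∈ H)
    (κ : G) (hκ : κ ∈ H) (hκU : κ ∉ U21) {w : U2 → ℤ_[l]} (hw : w ∈ W l U21 U2 χ)
    (hfix : ∀ x ∈ H, GDefx791.act ℤ_[l] U2 x w = w) : w = 0 := by
  obtain ⟨s, ψ, hψ, rfl⟩ := exists_decomp hw
  have hdist : ∀ q ∈ s, ∀ q' ∈ s, (q.out)⁻¹ * q'.out ∈ U21 → q = q' := by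
    intro q _ q' _ h
    rw [← QuotientGroup.eq, QuotientGroup.out_eq', QuotientGroup.out_eq'] at h
    exact h
  apply Finset.sum_eq_zero
  intro q hq
  by_contra hne
  -- the commutators
  have hc : ∀ a : U21, χ (MulAut.conjNormal (q.out)⁻¹ (MulAut.conjNormal κ a * a⁻¹)) = 1 := by
    intro a
    have hcH : κ * (a : G) * κ⁻¹ * (a : G)⁻¹ ∈ H := by
      have h1 := hmul κ hκ _ (hnorm _ (hinv κ hκ) a a.2)
      simpa [mul_assoc] using h1
    have h2 := hfix _ hcH
    have hcoe : κ * (a : G) * κ⁻¹ * (a : G)⁻¹ = ((MulAut.conjNormal κ a * a⁻¹ : U21) : G) := by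
      simp
    rw [hcoe, map_sum] at h2
    have h3 : ∑ q ∈ s, ((((χ (MulAut.conjNormal (q.out)⁻¹ (MulAut.conjNormal κ a * a⁻¹)) : ℤˣ) : ℤ)
        : ℤ_[l]) - 1) • ψ q = 0 := by
      have h4 : ∀ q ∈ s, GDefx791.act ℤ_[l] U2 ((MulAut.conjNormal κ a * a⁻¹ : U21) : G) (ψ q)
          = (((χ (MulAut.conjNormal (q.out)⁻¹ (MulAut.conjNormal κ a * a⁻¹)) : ℤˣ) : ℤ)
        : ℤ_[l]) • ψ q := fun q _ => (hψ q).2 _
      rw [Finset.sum_congr rfl h4] at h2
      simp only [sub_smul, one_smul, Finset.sum_sub_distrib]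
      rw [h2, sub_self]
    have h5 := eig_indep hχ s (fun q => q.out) hdist _
      (fun q _ => Submodule.smul_mem _ _ (hψ q)) h3 q hq
    rcases smul_eq_zero.1 h5 with h6 | h6
    · by_contra h7
      exact two_ne (l := l) h7 (by simpa using h6)
    · exact absurd h6 hne
  have h1 : (q.out)⁻¹ * κ * q.out ∈ U21 := by
    apply hχ
    intro b
    have h2 := hc (MulAut.conjNormal (κ⁻¹ * q.out) b)
    rw [_root_.map_mul, _root_.map_mul] at h2
    have h3 : MulAut.conjNormal (q.out)⁻¹ (MulAut.conjNormal κ (MulAut.conjNormal (κ⁻¹ * q.out) b))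
        = b := by
      rw [← MulAut.mul_apply, ← MulAut.mul_apply, ← _root_.map_mul, ← _root_.map_mul]
      have : (q.out)⁻¹ * κ * (κ⁻¹ * q.out) = (1 : G) := by group
      rw [this, _root_.map_one]; rfl
    have h4 : MulAut.conjNormal (q.out)⁻¹ (MulAut.conjNormal (κ⁻¹ * q.out) b)⁻¹
        = (MulAut.conjNormal ((q.out)⁻¹ * κ * q.out)⁻¹ b)⁻¹ := by
      rw [map_inv]
      congr 1
      rw [← MulAut.mul_apply, ← _root_.map_mul]
      congr 2
      group
    rw [h3, h4, map_inv] at h2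
    exact (mul_inv_eq_one.1 h2).symm
  apply hκU
  have h2 := (inferInstance : U21.Normal).conj_mem _ h1 q.out
  simpa [mul_assoc] using h2

end Eig

end Crest.Agent.R018.GActx791
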