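import Crest.Agent.R018.GAct_791

/-!
# Row 18, LEMMA G: the group theoretic part (helper791)
-/

set_option autoImplicit false

noncomputable section

namespace Crest.Agent.R018.GLemAx791

open Crest.Agent.R018.GDefx791 Crest.Agent.R018.GActx791

section alg

variable {G : Type*} [Group G] (R : Type*) [CommRing R] (N : Subgroup G) [N.Normal]

/-- `κ - 1` -/
def dd (κ : G) : (N → R) →ₗ[R] (N → R) := act R N κ - LinearMap.id

/-- `(κ n - 1) ⋯ (κ 1 - 1)` -/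
def PP (κ : ℕ → G) : ℕ → (N → R) →ₗ[R] (N → R)
  | 0 => LinearMap.id
  | n + 1 => (dd R N (κ (n + 1))).comp (PP κ n)

theorem dd_apply (κ : G) (b : N → R) : dd R N κ b = act R N κ b - b := rfl

theorem PP_zero (κ : ℕ → G) (b : N → R) : PP R N κ 0 b = b := rfl

theorem PP_succ (κ : ℕ → G) (n : ℕ) (b : N → R) :
    PP R N κ (n + 1) b = act R N (κ (n + 1)) (PP R N κ n b) - PP R N κ n b := rfl

theorem PP_congr (κ κ' : ℕ → G) (n : ℕ) (h : ∀ i, i ≤ n → κ i = κ' i) (b : N → R) :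
    PP R N κ n b = PP R N κ' n b := by
  induction n with
  | zero => rfl
  | succ n ih =>
    rw [PP_succ, PP_succ, ih (fun i hi => h i (hi.trans (Nat.le_succ n))), h (n + 1) le_rfl]

theorem PP_inv (κ : ℕ → G) (H : Set G) (n : ℕ)
    (hH : ∀ j, 1 ≤ j → j ≤ n → ∀ x ∈ H, (κ j)⁻¹ * x * κ j ∈ H) (b : N → R)
    (hb : ∀ x ∈ H, act R N x b = b) : ∀ x ∈ H, act R N x (PP R N κ n b) = PP R N κ n b := by
  induction n with
  | zero => exact hb
  | succ n ih =>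
    intro x hx
    have h1 := ih (fun j h1 h2 => hH j h1 (h2.trans (Nat.le_succ n)))
    rw [PP_succ, map_sub, h1 x hx, ← act_mul]
    have h2 : x * κ (n + 1) = κ (n + 1) * ((κ (n + 1))⁻¹ * x * κ (n + 1)) := by group
    rw [h2, act_mul, h1 _ (hH (n + 1) (Nat.le_add_left 1 n) le_rfl x hx)]

theorem PP_killed (κ : ℕ → G) (H : Set G) (i n : ℕ) (hi : 1 ≤ i) (hin : i ≤ n)
    (hκ : κ i ∈ H) (hH : ∀ j, 1 ≤ j → j < i → ∀ x ∈ H, (κ j)⁻¹ * x * κ j ∈ H) (b : N → R)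
    (hb : ∀ x ∈ H, act R N x b = b) : PP R N κ n b = 0 := by
  induction n, hin using Nat.le_induction with
  | base =>
    obtain ⟨m, rfl⟩ : ∃ m, i = m + 1 := ⟨i - 1, by omega⟩
    rw [PP_succ, PP_inv R N κ H m (fun j h1 h2 => hH j h1 (Nat.lt_succ_of_le h2)) b hb _ hκ,
      sub_self]
  | succ n _ ih => rw [PP_succ, ih, map_zero, sub_self]

/-- periodic sums -/
theorem sum_period {M : Type*} [AddCommGroup M] (F : ℕ → M) (f m : ℕ)
    (hF : ∀ i, F (i + f) = F i) :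
    ∑ i ∈ Finset.range (f * m), F i = m • ∑ i ∈ Finset.range f, F i := by
  induction m with
  | zero => simp
  | succ m ih =>
    rw [Nat.mul_succ, Finset.sum_range_add, ih, succ_nsmul]
    congr 1
    apply Finset.sum_congr rfl
    intro j _
    have h1 : ∀ m : ℕ, F (f * m + j) = F j := by
      intro m
      induction m with
      | zero => simp
      | succ m ih =>
        rw [← ih, ← hF (f * m + j)]
        congr 1
        ring
    exact h1 m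

end alg

section T

variable {G : Type*} [Group G] {G₂ : Type*} [Group G₂] (R : Type*) [CommRing R]
  (G1 : Subgroup G) (α : G1 →* G₂) (N : Subgroup G) (hN : N ≤ G1)
  (U2 : Subgroup G₂) (hNU : ∀ (n : G) (h : n ∈ N), α ⟨n, hN h⟩ ∈ U2)

/-- pull back along `α` -/
def T : (U2 → R) →ₗ[R] (N → R) where
  toFun φ := fun n => φ ⟨α ⟨n, hN n.2⟩, hNU n n.2⟩
  map_add' _ _ := rfl
  map_smul' _ _ := rfl

theorem T_apply (φ : U2 → R) (n : N) :
    T R G1 α N hN U2 hNU φ n = φ ⟨α ⟨n, hN n.2⟩, hNU n n.2⟩ := rfl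

theorem act_T [N.Normal] [U2.Normal] (h : G1) (φ : U2 → R) :
    act R N (h : G) (T R G1 α N hN U2 hNU φ) = T R G1 α N hN U2 hNU (act R U2 (α h) φ) := by
  funext n
  rw [act_apply, T_apply, T_apply, act_apply]
  congr 1
  apply Subtype.ext
  have h1 : (⟨((MulAut.conjNormal (h : G)⁻¹ n : N) : G), hN (MulAut.conjNormal (h : G)⁻¹ n : N).2⟩
      : G1) = h⁻¹ * ⟨n, hN n.2⟩ * h := by
    apply Subtype.ext
    simp
  have h2 : ((MulAut.conjNormal (α h)⁻¹ (⟨α ⟨n, hN n.2⟩, hNU n n.2⟩ : U2) : U2) : G₂)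
      = (α h)⁻¹ * α ⟨n, hN n.2⟩ * α h := by simp
  rw [h2, ← map_inv, ← map_mul, ← map_mul]
  exact congrArg α h1

theorem T_PP [N.Normal] [U2.Normal] (κ : ℕ → G1) (n : ℕ) (φ : U2 → R) :
    PP R N (fun i => (κ i : G)) n (T R G1 α N hN U2 hNU φ) =
      T R G1 α N hN U2 hNU (PP R U2 (fun i => α (κ i)) n φ) := by
  induction n with
  | zero => rfl
  | succ n ih => rw [PP_succ, PP_succ, ih, act_T, map_sub]

variable [TopologicalSpace G] [TopologicalSpace G₂] {l : ℕ} [Fact l.Prime]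

theorem T_mem_V (hα : Continuous α) {φ : U2 → ℤ_[l]} (hφ : φ ∈ V l U2) :
    T ℤ_[l] G1 α N hN U2 hNU φ ∈ V l N := by
  constructor
  · have h1 : Continuous fun n : N => (⟨α ⟨n, hN n.2⟩, hNU n n.2⟩ : U2) :=
      Continuous.subtype_mk (hα.comp (Continuous.subtype_mk continuous_subtype_val _)) _
    exact hφ.1.comp h1
  · intro u v
    rw [T_apply, T_apply, T_apply, ← hφ.2]
    congr 1
    apply Subtype.ext
    change α _ = α _ * α _
    rw [← map_mul]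
    rfl

omit [TopologicalSpace G] in
theorem T_eq_zero (hfin : N.index ≠ 0) (hfin2 : α.range.index ≠ 0) {φ : U2 → ℤ_[l]}
    (hφ : φ ∈ V l U2) (h0 : T ℤ_[l] G1 α N hN U2 hNU φ = 0) : φ = 0 := by
  funext u
  obtain ⟨m, hm, _, ⟨g, hg⟩⟩ := Subgroup.exists_pow_mem_of_index_ne_zero hfin2 (u : G₂)
  obtain ⟨n, hn, _, hn2⟩ := Subgroup.exists_pow_mem_of_index_ne_zero hfin (g : G)
  apply V.map_eq_zero_of_pow hφ u (m * n) (Nat.mul_pos hm hn)
  have h1 := congrFun h0 ⟨(g : G) ^ n, hn2⟩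
  rw [T_apply] at h1
  refine Eq.trans ?_ h1
  congr 1
  apply Subtype.ext
  change (u : G₂) ^ (m * n) = α ⟨(g : G) ^ n, _⟩
  rw [pow_mul, ← hg, ← map_pow]
  rfl

end T

section main

variable {G : Type*} [Group G] {G₂ : Type*} [Group G₂] [TopologicalSpace G₂]
  [IsTopologicalGroup G₂] {l : ℕ} [Fact l.Prime]
  (G1 : Subgroup G) (α : G1 →* G₂)

/-- the image under `α` of `b (K ⊓ N1) b⁻¹` -/
def HH (b : G) : Set G₂ :=
  {y | ∃ (k : G) (hk : k ∈ G1.normalCore), α ⟨k, G1.normalCore_le hk⟩ = 1 ∧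
    α ⟨b * k * b⁻¹, conj_core G1 hk b⟩ = y}

omit [TopologicalSpace G₂] [IsTopologicalGroup G₂] in
theorem HH_mul (b : G) (x : G₂) (hx : x ∈ HH G1 α b) (y : G₂) (hy : y ∈ HH G1 α b) :
    x * y ∈ HH G1 α b := by
  obtain ⟨k, hk, h1, rfl⟩ := hx
  obtain ⟨k', hk', h1', rfl⟩ := hy
  refine ⟨k * k', mul_mem hk hk', ?_, ?_⟩
  · have : (⟨k * k', G1.normalCore_le (mul_mem hk hk')⟩ : G1)
      = ⟨k, G1.normalCore_le hk⟩ * ⟨k', G1.normalCore_le hk'⟩ := rfl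
    rw [this, map_mul, h1, h1', one_mul]
  · rw [← map_mul]
    congr 1
    apply Subtype.ext
    change b * (k * k') * b⁻¹ = (b * k * b⁻¹) * (b * k' * b⁻¹)
    group

omit [TopologicalSpace G₂] [IsTopologicalGroup G₂] in
theorem HH_inv (b : G) (x : G₂) (hx : x ∈ HH G1 α b) : x⁻¹ ∈ HH G1 α b := by
  obtain ⟨k, hk, h1, rfl⟩ := hx
  refine ⟨k⁻¹, inv_mem hk, ?_, ?_⟩
  · have : (⟨k⁻¹, G1.normalCore_le (inv_mem hk)⟩ : G1) = (⟨k, G1.normalCore_le hk⟩)⁻¹ := rfl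
    rw [this, map_inv, h1, inv_one]
  · rw [← map_inv]
    congr 1
    apply Subtype.ext
    change b * k⁻¹ * b⁻¹ = (b * k * b⁻¹)⁻¹
    group

omit [TopologicalSpace G₂] [IsTopologicalGroup G₂] in
theorem HH_conj (b n : G) (hn : n ∈ G1.normalCore) (x : G₂) (hx : x ∈ HH G1 α b) :
    α ⟨n, G1.normalCore_le hn⟩ * x * (α ⟨n, G1.normalCore_le hn⟩)⁻¹ ∈ HH G1 α b := by
  obtain ⟨k, hk, h1, rfl⟩ := hx
  have hn' : b⁻¹ * n * b ∈ G1.normalCore := by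
    have := (inferInstance : G1.normalCore.Normal).conj_mem n hn b⁻¹
    simpa using this
  have hk' : (b⁻¹ * n * b) * k * (b⁻¹ * n * b)⁻¹ ∈ G1.normalCore :=
    mul_mem (mul_mem hn' hk) (inv_mem hn')
  refine ⟨_, hk', ?_, ?_⟩
  · have : (⟨(b⁻¹ * n * b) * k * (b⁻¹ * n * b)⁻¹, G1.normalCore_le hk'⟩ : G1)
      = ⟨b⁻¹ * n * b, G1.normalCore_le hn'⟩ * ⟨k, G1.normalCore_le hk⟩ *
        (⟨b⁻¹ * n * b, G1.normalCore_le hn'⟩)⁻¹ := rfl
    rw [this, map_mul, map_mul, map_inv, h1, mul_one, mul_inv_cancel]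
  · rw [← map_inv, ← map_mul, ← map_mul]
    congr 1
    apply Subtype.ext
    change b * ((b⁻¹ * n * b) * k * (b⁻¹ * n * b)⁻¹) * b⁻¹ = n * (b * k * b⁻¹) * n⁻¹
    group

variable {U21 U2 : Subgroup G₂} [U21.Normal] [U2.Normal] {χ : U21 →* ℤˣ}

omit [IsTopologicalGroup G₂] in
/-- one step of the choice of the `κ`'s -/
theorem exists_move (hgood : Good G1 α U21) (hχ : TrivStab U21 χ) (b : G) (hb : b ∉ G1)
    {w : U2 → ℤ_[l]} (hw : w ∈ W l U21 U2 χ) (hw0 : w ≠ 0) :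
    ∃ (k : G) (hk : k ∈ G1.normalCore), α ⟨k, G1.normalCore_le hk⟩ = 1 ∧
      act ℤ_[l] U2 (α ⟨b * k * b⁻¹, conj_core G1 hk b⟩) w ≠ w := by
  by_contra hcon
  push Not at hcon
  obtain ⟨k, hk, h1, h2⟩ := hgood.1 b hb
  apply hw0
  refine eq_zero_of_fixed hχ (HH G1 α b) (HH_mul G1 α b) (HH_inv G1 α b) ?_ _
    ⟨k, hk, h1, rfl⟩ h2 hw ?_
  · intro x hx a ha
    obtain ⟨n, hn, rfl⟩ := hgood.2 a ha
    exact HH_conj G1 α b n hn x hx
  · rintro x ⟨k, hk, h3, rfl⟩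
    exact hcon k hk h3

/-- choice of `κ 1, …, κ (f - 1)` -/
theorem exists_kappa (hgood : Good G1 α U21) (hχ : TrivStab U21 χ) (g1 : G) (f : ℕ)
    (hf : ∀ j, 0 < j → j < f → g1 ^ j ∉ G1)
    {φ : U2 → ℤ_[l]} (hφ : φ ∈ W l U21 U2 χ) (hφ0 : φ ≠ 0) (n : ℕ) (hn : n < f) :
    ∃ κ : ℕ → G1, (∀ i, 1 ≤ i → i ≤ n → ∃ (k : G) (hk : k ∈ G1.normalCore),
      α ⟨k, G1.normalCore_le hk⟩ = 1 ∧ (κ i : G) = g1 ^ i * k * (g1 ^ i)⁻¹) ∧
      PP ℤ_[l] U2 (fun i => α (κ i)) n φ ∈ W l U21 U2 χ ∧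
      PP ℤ_[l] U2 (fun i => α (κ i)) n φ ≠ 0 := by
  induction n with
  | zero => exact ⟨fun _ => 1, fun i h1 h2 => absurd h2 (by omega), hφ, hφ0⟩
  | succ n ih =>
    obtain ⟨κ, hκ, hW, h0⟩ := ih (by omega)
    obtain ⟨k, hk, h1, h2⟩ := exists_move G1 α hgood hχ (g1 ^ (n + 1))
      (hf (n + 1) (by omega) hn) hW h0
    let κ' : ℕ → G1 := fun i => if i ≤ n then κ i
      else ⟨g1 ^ (n + 1) * k * (g1 ^ (n + 1))⁻¹, conj_core G1 hk _⟩
    have hκ' : ∀ i, i ≤ n → κ' i = κ i := fun i hi => if_pos hi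
    have hκ'' : κ' (n + 1) = ⟨g1 ^ (n + 1) * k * (g1 ^ (n + 1))⁻¹, conj_core G1 hk _⟩ :=
      if_neg (by omega)
    have hPP : PP ℤ_[l] U2 (fun i => α (κ' i)) n φ = PP ℤ_[l] U2 (fun i => α (κ i)) n φ :=
      PP_congr _ _ _ _ _ (fun i hi => by rw [hκ' i hi]) φ
    refine ⟨κ', ?_, ?_, ?_⟩
    · intro i hi1 hi2
      rcases Nat.lt_or_ge n i with h3 | h3
      · obtain rfl : i = n + 1 := by omega
        exact ⟨k, hk, h1, by rw [hκ'']⟩
      · rw [hκ' i h3]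
        exact hκ i hi1 h3
    · rw [PP_succ, hPP]
      exact sub_mem (act_mem_W hW _) hW
    · rw [PP_succ, hPP]
      simp only [hκ'']
      exact sub_ne_zero.2 h2

/-- **LEMMA G, group theoretic core.** -/
theorem core (N : Subgroup G) [N.Normal] (hN : N ≤ G1)
    (hNU : ∀ (n : G) (h : n ∈ N), α ⟨n, hN h⟩ ∈ U2) (hfin : N.index ≠ 0)
    (hfin2 : α.range.index ≠ 0)
    (hgood : Good G1 α U21) (hχ : TrivStab U21 χ) (g1 : G) (f : ℕ) (hf0 : 0 < f)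
    (hf : ∀ j, 0 < j → j < f → g1 ^ j ∉ G1)
    {φ : U2 → ℤ_[l]} (hφ : φ ∈ W l U21 U2 χ) (hφ0 : φ ≠ 0)
    (hinv : act ℤ_[l] N (g1 ^ f) (T ℤ_[l] G1 α N hN U2 hNU φ) = T ℤ_[l] G1 α N hN U2 hNU φ)
    (m : ℕ) (hm : 0 < m)
    (hsum : ∑ i ∈ Finset.range (f * m), act ℤ_[l] N (g1 ^ i) (T ℤ_[l] G1 α N hN U2 hNU φ) = 0) :
    False := by
  set a := T ℤ_[l] G1 α N hN U2 hNU φ with ha
  have h1 : ∑ i ∈ Finset.range f, act ℤ_[l] N (g1 ^ i) a = 0 := by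
    have h2 := sum_period (fun i => act ℤ_[l] N (g1 ^ i) a) f m (fun i => by
      change act ℤ_[l] N (g1 ^ (i + f)) a = act ℤ_[l] N (g1 ^ i) a
      rw [pow_add, act_mul, hinv])
    rw [h2] at hsum
    rcases smul_eq_zero.1 hsum with h3 | h3
    · omega
    · exact h3
  obtain ⟨f', rfl⟩ : ∃ f', f = f' + 1 := ⟨f - 1, by omega⟩
  obtain ⟨κ, hκ, hW, h0⟩ := exists_kappa G1 α hgood hχ g1 (f' + 1) hf hφ hφ0 f' (Nat.lt_succ_self _)
  apply h0
  apply T_eq_zero G1 α N hN U2 hNU hfin hfin2 (W_le_V hW)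
  rw [← T_PP, ← ha]
  -- kill all the terms with `i ≥ 1`
  have h2 : ∀ i, 1 ≤ i → i ≤ f' → PP ℤ_[l] N (fun i => (κ i : G)) f' (act ℤ_[l] N (g1 ^ i) a) = 0 := by
    intro i hi1 hi2
    refine PP_killed ℤ_[l] N (fun i => (κ i : G))
      {x | ∃ (k : G) (hk : k ∈ G1.normalCore), α ⟨k, G1.normalCore_le hk⟩ = 1 ∧
        x = g1 ^ i * k * (g1 ^ i)⁻¹} i f' hi1 hi2 (hκ i hi1 hi2) ?_ _ ?_
    · rintro j hj1 hj2 x ⟨k, hk, h3, rfl⟩
      obtain ⟨k', hk', _, h4⟩ := hκ j hj1 (by omega)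
      have hκc : (κ j : G) ∈ G1.normalCore := by
        rw [h4]
        exact (inferInstance : G1.normalCore.Normal).conj_mem _ hk' _
      have hn' : (g1 ^ i)⁻¹ * (κ j : G)⁻¹ * g1 ^ i ∈ G1.normalCore := by
        have := (inferInstance : G1.normalCore.Normal).conj_mem _ (inv_mem hκc) (g1 ^ i)⁻¹
        simpa using this
      refine ⟨((g1 ^ i)⁻¹ * (κ j : G)⁻¹ * g1 ^ i) * k * ((g1 ^ i)⁻¹ * (κ j : G)⁻¹ * g1 ^ i)⁻¹,
        mul_mem (mul_mem hn' hk) (inv_mem hn'), ?_, ?_⟩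
      · have h5 : (⟨_, G1.normalCore_le (mul_mem (mul_mem hn' hk) (inv_mem hn'))⟩ : G1)
          = ⟨_, G1.normalCore_le hn'⟩ * ⟨k, G1.normalCore_le hk⟩ *
            (⟨_, G1.normalCore_le hn'⟩)⁻¹ := rfl
        rw [h5, map_mul, map_mul, map_inv, h3, mul_one, mul_inv_cancel]
      · group
    · rintro x ⟨k, hk, h3, rfl⟩
      rw [← act_mul]
      have h4 : g1 ^ i * k * (g1 ^ i)⁻¹ * g1 ^ i = g1 ^ i * k := by group
      rw [h4, act_mul]
      congr 1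
      have h5 := act_T ℤ_[l] G1 α N hN U2 hNU ⟨k, G1.normalCore_le hk⟩ φ
      rw [h3, act_one] at h5
      exact h5
  have h3 := congrArg (PP ℤ_[l] N (fun i => (κ i : G)) f') h1
  rw [map_sum, map_zero, Finset.sum_range_succ'] at h3
  have h4 : ∑ i ∈ Finset.range f', PP ℤ_[l] N (fun i => (κ i : G)) f'
      (act ℤ_[l] N (g1 ^ (i + 1)) a) = 0 := by
    apply Finset.sum_eq_zero
    intro i hi
    exact h2 (i + 1) (by omega) (by have := Finset.mem_range.1 hi; omega)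
  rw [h4, zero_add, pow_zero, act_one] at h3
  exact h3

end main

end Crest.Agent.R018.GLemAx791
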