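import Crest.Agent.R018.GLemA_791
import Crest.Agent.R018.Core_74
import Crest.Agent.R018.CoreF2_755
import Crest.Agent.R018.TgtT_656

/-!
# Row 18, LEMMA G: arithmetic assembly (helper791)

`lemmaG_gen : V3 l → LemmaG l G1 α` (interface `GDef_791`).
-/

set_option autoImplicit false

noncomputable section

open NumberField Pointwise

namespace Crest.Agent.R018.GLemx791

open Crest.Agent.R018.GDefx791 Crest.Agent.R018.GActx791 Crest.Agent.R018.GLemAx791
open Crest.Agent.R018.Placesx484 Crest.Agent.R018.TgtTx656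
open Crest.Agent.R018.EndDefx924 (Om)

theorem rchar_eq (S : Place Om) {p : ℕ} (hp : p.Prime) (h : (p : 𝓞 Om) ∈ S.ideal) : S.rchar = p :=
  (S.rchar_eq_of_mem hp h)

theorem exists_root (l : ℕ) [Fact l.Prime] (n : ℕ) : ∃ ζ : Om, IsPrimitiveRoot ζ (l ^ n) := by
  have : NeZero ((l ^ n : ℕ) : Om) := ⟨by
    exact_mod_cast pow_ne_zero n (Fact.out : l.Prime).ne_zero⟩
  exact HasEnoughRootsOfUnity.exists_primitiveRoot Om (l ^ n)

/-- two elements acting as the same power modulo `S` differ by inertia -/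
theorem inertia_of_pow (S : Place Om) {σ τ : B} {q : ℕ} (hq : q ≠ 0)
    (hσ : ∀ x : 𝓞 Om, σ • x - x ^ q ∈ S.ideal) (hτ : ∀ x : 𝓞 Om, τ • x - x ^ q ∈ S.ideal) :
    ∀ x : 𝓞 Om, (σ⁻¹ * τ) • x - x ∈ S.ideal := by
  intro x
  have hS := frob_stab S hq hσ
  have h1 : τ • x - σ • x ∈ S.ideal := by
    have := S.ideal.sub_mem (hτ x) (hσ x)
    rwa [sub_sub_sub_cancel_right] at this
  have h2 : (σ⁻¹ * τ) • x - x = σ⁻¹ • (τ • x - σ • x) := by
    rw [smul_sub, mul_smul, inv_smul_smul]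
  rw [h2]
  have h3 : σ⁻¹ • S = S := by rw [inv_smul_eq_iff, hS]
  have h4 := S.smul_mem_smul_ideal σ⁻¹ (x := τ • x - σ • x)
  rw [h3] at h4
  exact h4.2 h1

/-- pigeonhole -/
theorem exists_class {C : Type*} [Finite C] (P : C → ℕ → Prop)
    (hmono : ∀ c b b', b ≤ b' → P c b' → P c b) (h : ∀ b, ∃ c, P c b) : ∃ c, ∀ b, P c b := by
  classical
  by_contra hcon
  push Not at hcon
  choose f hf using hcon
  have := Fintype.ofFinite C
  obtain ⟨c, hc⟩ := h (Finset.univ.sup f)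
  exact hf c (hmono c _ _ (Finset.le_sup (Finset.mem_univ c)) hc)

variable {G₂ : Type*} [Group G₂] [TopologicalSpace G₂] [IsTopologicalGroup G₂] [CompactSpace G₂]

/-- **LEMMA G** for an arbitrary profinite target. -/
theorem lemmaG_gen (l : ℕ) [hl : Fact l.Prime] (hV3 : V3 l) (G1 : Subgroup B)
    (hG1 : IsOpen (G1 : Set B)) (α : G1 →* G₂) (hα : Continuous α)
    (hop : IsOpen (α.range : Set G₂)) : LemmaG l G1 α := by
  intro U21 U2 _ _ hU21 hU2 hgood χ hχ φ hφ hφ0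
  by_contra hcon
  push Not at hcon
  -- the level
  obtain ⟨N, hNn, hNo, hN, hNU⟩ : ∃ N : Subgroup B, N.Normal ∧ IsOpen (N : Set B) ∧
      ∃ hN : N ≤ G1, ∀ (n : B) (h : n ∈ N), α ⟨n, hN h⟩ ∈ U2 := by
    have hopen : IsOpen (Subtype.val '' (α ⁻¹' (U2 : Set G₂)) : Set B) :=
      hG1.isOpenMap_subtype_val _ (hU2.preimage hα)
    have h1 : (1 : B) ∈ (Subtype.val '' (α ⁻¹' (U2 : Set G₂)) : Set B) :=
      ⟨1, by simp [U2.one_mem], rfl⟩
    obtain ⟨N, hN⟩ := ProfiniteGrp.exist_openNormalSubgroup_sub_open_nhds_of_one hopen h1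
    refine ⟨N.toSubgroup, inferInstance, N.isOpen', ?_, ?_⟩
    · intro x hx
      obtain ⟨y, _, rfl⟩ := hN hx
      exact y.2
    · intro n hn
      obtain ⟨y, hy, h2⟩ := hN hn
      have : (⟨n, by rw [← h2]; exact y.2⟩ : G1) = y := Subtype.ext h2.symm
      change α ⟨n, _⟩ ∈ U2
      rw [this]
      exact hy
  have hNfin : Finite (B ⧸ N) := N.quotient_finite_of_isOpen hNo
  have hidx : N.index ≠ 0 := (Subgroup.finiteIndex_of_finite_quotient (H := N)).index_ne_zero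
  have hfin2 : α.range.index ≠ 0 := by
    have h1 : Finite (G₂ ⧸ α.range) := α.range.quotient_finite_of_isOpen hop
    exact (Subgroup.finiteIndex_of_finite_quotient (H := α.range)).index_ne_zero
  have hφV : φ ∈ V l U2 := W_le_V hφ
  set a := T ℤ_[l] G1 α N hN U2 hNU φ with ha
  have haV : a ∈ V l N := T_mem_V G1 α N hN U2 hNU hα hφV
  obtain ⟨B1, hB1⟩ := unram (F := ℚ) (E := Om) N hNo
  -- the data
  let Q : B ⧸ N → ℕ → Prop := fun c B0 => ∃ (p : ℕ) (S : Place Om) (F : B) (k : ℕ) (σ : B)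
    (hσ : IsFrobLift G1 S p k σ), B0 < p ∧ B1 < p ∧ l < p ∧ p.Prime ∧ (p : 𝓞 Om) ∈ S.ideal ∧
      (∀ x : 𝓞 Om, F • x - x ^ p ∈ S.ideal) ∧ (F : B ⧸ N) = c ∧
      act ℤ_[l] U2 (α ⟨σ, hσ.1⟩) φ = φ ∧
      ∃ m, 0 < m ∧ ∃ h : (α ⟨σ, hσ.1⟩) ^ m ∈ U2, φ ⟨_, h⟩ = 0
  obtain ⟨c, hc⟩ : ∃ c, ∀ B0, Q c B0 := by
    apply exists_class
    · rintro c b b' hb ⟨p, S, F, k, σ, hσ, h1, h2⟩
      exact ⟨p, S, F, k, σ, hσ, hb.trans_lt h1, h2⟩
    · intro b
      obtain ⟨p, hp, hpp, S, hS, k, σ, hσ, h1, m, hm, h2, h3⟩ := hcon (max b (max B1 l))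
      have hrc := rchar_eq S hpp hS
      obtain ⟨F, hF1, hF2⟩ := CoreF2x755.exists_frob_rat S
      rw [hrc] at hF2
      exact ⟨(F : B ⧸ N), p, S, F, k, σ, hσ, (le_max_left _ _).trans_lt hp,
        ((le_max_left _ _).trans (le_max_right _ _)).trans_lt hp,
        ((le_max_right _ _).trans (le_max_right _ _)).trans_lt hp, hpp, hS, hF2, rfl, h1, m, hm,
        h2, h3⟩
  set g1 : B := c.out with hg1
  have hg1c : (g1 : B ⧸ N) = c := QuotientGroup.out_eq' c
  -- `f`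
  have hex : ∃ j, 0 < j ∧ g1 ^ j ∈ G1 := by
    obtain ⟨n, hn, _, hn2⟩ := Subgroup.exists_pow_mem_of_index_ne_zero hidx g1
    exact ⟨n, hn, hN hn2⟩
  classical
  set f := Nat.find hex with hf
  obtain ⟨hf0, hfG⟩ := Nat.find_spec hex
  rw [← hf] at hf0 hfG
  have hfmin : ∀ j, 0 < j → j < f → g1 ^ j ∉ G1 := fun j h1 h2 h3 => Nat.find_min hex h2 ⟨h1, h3⟩
  have hn : g1 ^ N.index ∈ N := N.pow_index_mem g1
  obtain ⟨m, hm⟩ : f ∣ N.index := by
    rw [Nat.dvd_iff_mod_eq_zero]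
    by_contra hr
    have h1 := Nat.mod_lt N.index hf0
    apply hfmin (N.index % f) (Nat.pos_of_ne_zero hr) h1
    have h2 : g1 ^ (N.index % f) = ((g1 ^ f) ^ (N.index / f))⁻¹ * g1 ^ N.index := by
      conv_rhs => rw [← Nat.div_add_mod N.index f]
      rw [pow_add, pow_mul, ← mul_assoc]
      have : f * (N.index / f) / f = N.index / f := by
        rw [Nat.mul_div_cancel_left _ hf0]
      rw [Nat.div_add_mod]
      group
    rw [h2]
    exact mul_mem (inv_mem (pow_mem hfG _)) (hN hn)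
  have hm0 : 0 < m := by
    rcases Nat.eq_zero_or_pos m with h | h
    · rw [h, mul_zero] at hm
      exact absurd hm hidx
    · exact h
  -- facts about the data
  have hcong : ∀ F : B, (F : B ⧸ N) = c → ∀ j : ℕ, (F ^ j)⁻¹ * g1 ^ j ∈ N := by
    intro F hF j
    rw [← QuotientGroup.eq, QuotientGroup.mk_pow, QuotientGroup.mk_pow, hF, hg1c]
  have hkf : ∀ (p : ℕ) (S : Place Om) (F : B) (k : ℕ) (σ : B) (hσ : IsFrobLift G1 S p k σ),
      B1 < p → p.Prime → (p : 𝓞 Om) ∈ S.ideal → (∀ x : 𝓞 Om, F • x - x ^ p ∈ S.ideal) →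
      (F : B ⧸ N) = c → k = f ∧ (∀ j : ℕ, (σ ^ j)⁻¹ * F ^ (k * j) ∈ N) ∧
        (∀ j : ℕ, ∀ x : 𝓞 Om, ((σ ^ j)⁻¹ * F ^ (k * j)) • x - x ∈ S.ideal) := by
    intro p S F k σ hσ hpB hpp hS hF hFc
    have hrc := rchar_eq S hpp hS
    have hin : ∀ j : ℕ, ∀ x : 𝓞 Om, ((σ ^ j)⁻¹ * F ^ (k * j)) • x - x ∈ S.ideal := by
      intro j
      refine inertia_of_pow S (q := p ^ (k * j)) (pow_ne_zero _ hpp.ne_zero) ?_
        (frob_pow_aux S hF (k * j))
      intro x
      have := frob_pow_aux S (q := p ^ k) hσ.2.2.1 j x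
      rwa [← pow_mul] at this
    have hinN : ∀ j : ℕ, (σ ^ j)⁻¹ * F ^ (k * j) ∈ N := fun j =>
      hB1 S (by rw [hrc]; exact hpB) (hin j)
    refine ⟨?_, hinN, hin⟩
    have h1 : F ^ k ∈ G1 := by
      have h2 := hN (hinN 1)
      rw [pow_one, mul_one] at h2
      have h3 := mul_mem hσ.1 h2
      rwa [mul_inv_cancel_left] at h3
    have h4 : ∀ j, F ^ j ∈ G1 ↔ g1 ^ j ∈ G1 := by
      intro j
      have h5 := hN (hcong F hFc j)
      constructor
      · intro h6
        have := mul_mem h6 h5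
        rwa [mul_inv_cancel_left] at this
      · intro h6
        have := mul_mem h6 (inv_mem h5)
        rwa [mul_inv_rev, inv_inv, mul_inv_cancel_left] at this
    apply le_antisymm
    · by_contra hlt
      push Not at hlt
      exact hσ.2.2.2 f hf0 hlt (F ^ f) ((h4 f).2 hfG) (frob_pow_aux S hF f)
    · exact Nat.find_min' hex ⟨hσ.2.1, (h4 k).1 h1⟩
  -- invariance
  have hinv : act ℤ_[l] N (g1 ^ f) a = a := by
    obtain ⟨p, S, F, k, σ, hσ, _, h2, _, h4, h5, h6, h7, h8, _⟩ := hc 0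
    obtain ⟨hkf', h9, _⟩ := hkf p S F k σ hσ h2 h4 h5 h6 h7
    have h10 : g1 ^ f = σ * ((σ⁻¹ * F ^ f) * ((F ^ f)⁻¹ * g1 ^ f)) := by group
    have h11 := h9 1
    rw [pow_one, mul_one, hkf'] at h11
    rw [h10, act_mul, act_of_mem haV _ (mul_mem h11 (hcong F h7 f))]
    have h12 := act_T ℤ_[l] G1 α N hN U2 hNU ⟨σ, hσ.1⟩ φ
    rw [h8] at h12
    exact h12
  -- the sum
  have hsum : ∑ i ∈ Finset.range (f * m), act ℤ_[l] N (g1 ^ i) a = 0 := by
    let A : N →* Multiplicative ℤ_[l] :=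
      { toFun := fun n => Multiplicative.ofAdd (a n)
        map_one' := by rw [V.map_one haV]; rfl
        map_mul' := fun u v => by rw [haV.2]; rfl }
    have hA : Continuous A := haV.1
    have h1 := hV3 N hNo A hA g1 N.index (Nat.pos_of_ne_zero hidx) hn (fun B0 => by
      obtain ⟨p, S, F, k, σ, hσ, h1, h2, h3, h4, h5, h6, h7, h8, m0, hm0', h9, h10⟩ := hc B0
      obtain ⟨hkf', h11, h12⟩ := hkf p S F k σ hσ h2 h4 h5 h6 h7
      refine ⟨p, h1, h4, S, F, h5, h6, ?_, ?_⟩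
      · rw [← QuotientGroup.eq, hg1c, h7]
      · have hkm : N.index = k * m := by rw [hm, hkf']
        have hFN : F ^ N.index ∈ N := N.pow_index_mem F
        refine ⟨hFN, ?_⟩
        have hσN : σ ^ m ∈ N := by
          have h13 := mul_mem hFN (inv_mem (h11 m))
          rw [← hkm] at h13
          have h14 : F ^ N.index * ((σ ^ m)⁻¹ * F ^ N.index)⁻¹ = σ ^ m := by group
          rwa [h14] at h13
        have hi := h11 m
        rw [← hkm] at hi
        have h15 : a ⟨_, hi⟩ = 0 := by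
          refine inert S (l := l) ?_ (exists_root l) N hNo haV.1 haV.2 ⟨_, hi⟩ ?_
          · rw [rchar_eq S h4 h5]; exact h3.ne'
          · intro x
            have := h12 m x
            rw [← hkm] at this
            exact this
        have h16 : a ⟨_, hσN⟩ = 0 := by
          have h17 : a ⟨_, hσN⟩ = φ ⟨(α ⟨σ, hσ.1⟩) ^ m, by
              have := hNU _ hσN
              rw [← map_pow]
              exact this⟩ := by
            rw [ha, T_apply]
            congr 1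
            apply Subtype.ext
            change α ⟨σ ^ m, _⟩ = (α ⟨σ, hσ.1⟩) ^ m
            rw [← map_pow]
            rfl
          rw [h17]
          apply V.map_eq_zero_of_pow hφV _ m0 hm0'
          have h18 := V.map_pow hφV ⟨_, h9⟩ m
          rw [h10, mul_zero] at h18
          rw [← h18]
          congr 1
          apply Subtype.ext
          change ((α ⟨σ, hσ.1⟩) ^ m) ^ m0 = ((α ⟨σ, hσ.1⟩) ^ m0) ^ m
          rw [← pow_mul, ← pow_mul, mul_comm]
        have h19 : (⟨F ^ N.index, hFN⟩ : N) = ⟨_, hσN⟩ * ⟨_, hi⟩ := by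
          apply Subtype.ext
          change F ^ N.index = σ ^ m * ((σ ^ m)⁻¹ * F ^ N.index)
          group
        change Multiplicative.ofAdd (a ⟨F ^ N.index, hFN⟩) = 1
        rw [h19, haV.2, h15, h16, add_zero]
        rfl)
    rw [← hm]
    funext x
    have h2 := h1 x
    rw [Finset.sum_apply]
    have h3 : Multiplicative.toAdd (∏ i ∈ Finset.range N.index,
        A (MulAut.conjNormal (g1 ^ i)⁻¹ x)) = 0 := by rw [h2]; rfl
    rw [toAdd_prod] at h3
    exact h3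
  exact core G1 α N hN hNU hidx hfin2 hgood hχ g1 f hf0 hfmin hφ hφ0 hinv m hm0 hsum

end Crest.Agent.R018.GLemx791
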