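import Crest.Agent.R018.V3G_793
import Crest.Agent.R018.GDef_791
import Crest.Agent.R018.WaldNF_614
import Crest.Agent.R018.DegThm_614
import Crest.Agent.R018.EndA_924

/-!
Row 18, PROP TR (`GDefx791.V3 l`) from the degree-one theorem (helper793).
-/

set_option autoImplicit false

namespace Crest.Agent.R018.V3x793

open IsDedekindDomain NumberField Crest.Agent.R018.EndDefx924 Crest.Agent.R018.Placesx484
  Crest.Agent.R018.GDefx791 Crest.Agent.R018.WaldNFx614 Crest.Agent.R018.V3Gx793
  Crest.Agent.R018.EndAx924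

/-! ### the restriction of scalars -/

section restrict

variable {k K : Type*} [Field k] [Field K] [Algebra k K]

/-- restriction of scalars as a homomorphism -/
def resHom (F : IntermediateField k K) : (K ≃ₐ[F] K) →* (K ≃ₐ[k] K) where
  toFun σ := σ.restrictScalars k
  map_one' := rfl
  map_mul' _ _ := rfl

@[simp] theorem resHom_apply (F : IntermediateField k K) (σ : K ≃ₐ[F] K) (x : K) :
    resHom F σ x = σ x := rfl

theorem continuous_resHom [Algebra.IsIntegral k K] (F : IntermediateField k K)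
    [FiniteDimensional k F] : Continuous (resHom F) := by
  apply continuous_of_continuousAt_one
  rw [ContinuousAt, map_one]
  intro s hs
  obtain ⟨E', hE', hs'⟩ := (krullTopology_mem_nhds_one_iff k K s).1 hs
  rw [Filter.mem_map, krullTopology_mem_nhds_one_iff]
  have hle : F ≤ F ⊔ E' := le_sup_left
  refine ⟨IntermediateField.extendScalars hle, ?_, ?_⟩
  · have h1 : FiniteDimensional k (F ⊔ E' : IntermediateField k K) :=
      IntermediateField.finiteDimensional_sup F E'
    have h2 : FiniteDimensional k (IntermediateField.extendScalars hle) := h1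
    exact FiniteDimensional.right k F _
  · intro σ hσ
    apply hs'
    rw [SetLike.mem_coe, IntermediateField.mem_fixingSubgroup_iff] at hσ ⊢
    intro x hx
    have h1 : x ∈ IntermediateField.extendScalars hle := by
      rw [IntermediateField.mem_extendScalars]
      exact (le_sup_right : E' ≤ F ⊔ E') hx
    exact hσ x h1

end restrict

section prime

variable {F : Type*} [Field F] [NumberField F]

/-- the height one prime of a place of a number field -/
def toHOS (P : Place F) : HeightOneSpectrum (𝓞 F) := ⟨P.ideal, P.isPrime, P.ne_bot⟩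

theorem absNorm_eq (w : HeightOneSpectrum (𝓞 F)) (p : ℕ) (hp : p.Prime)
    (hpw : (p : 𝓞 F) ∈ w.asIdeal) (h : ∀ x : 𝓞 F, x - x ^ p ∈ w.asIdeal) :
    Ideal.absNorm w.asIdeal = p := by
  classical
  have hmax := w.isMaximal
  let : Field (𝓞 F ⧸ w.asIdeal) := Ideal.Quotient.field w.asIdeal
  have hfin : Finite (𝓞 F ⧸ w.asIdeal) := Ideal.finiteQuotientOfFreeOfNeBot w.asIdeal w.ne_bot
  have : Fintype (𝓞 F ⧸ w.asIdeal) := Fintype.ofFinite _
  have h1 : Ideal.absNorm w.asIdeal = Nat.card (𝓞 F ⧸ w.asIdeal) := by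
    rw [Ideal.absNorm_apply, Submodule.cardQuot_apply]
  rw [h1]
  apply le_antisymm
  · have hroot : ∀ x : 𝓞 F ⧸ w.asIdeal, x ^ p - x = 0 := by
      intro x
      obtain ⟨y, rfl⟩ := Ideal.Quotient.mk_surjective x
      have h2 := Ideal.Quotient.eq_zero_iff_mem.2 (h y)
      rw [map_sub, map_pow] at h2
      rw [sub_eq_zero] at h2 ⊢
      exact h2.symm
    have h3 : (Finset.univ : Finset (𝓞 F ⧸ w.asIdeal)) ⊆
        (Polynomial.X ^ p - Polynomial.X : Polynomial (𝓞 F ⧸ w.asIdeal)).roots.toFinset := by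
      intro x _
      rw [Multiset.mem_toFinset, Polynomial.mem_roots
        (FiniteField.X_pow_card_sub_X_ne_zero _ hp.one_lt)]
      simpa using hroot x
    have h4 := Finset.card_le_card h3
    rw [Finset.card_univ, ← Nat.card_eq_fintype_card] at h4
    refine h4.trans ((Multiset.toFinset_card_le _).trans ((Polynomial.card_roots' _).trans ?_))
    rw [FiniteField.X_pow_card_sub_X_natDegree_eq _ hp.one_lt]
  · have hp0 : ((p : ℕ) : 𝓞 F ⧸ w.asIdeal) = 0 := by
      have := Ideal.Quotient.eq_zero_iff_mem.2 hpw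
      simpa using this
    have h5 : addOrderOf (1 : 𝓞 F ⧸ w.asIdeal) = p := by
      have := Fact.mk hp
      apply addOrderOf_eq_prime _ one_ne_zero
      rw [nsmul_one]
      exact hp0
    have h6 : p ∣ Nat.card (𝓞 F ⧸ w.asIdeal) := by
      rw [← h5]; exact addOrderOf_dvd_natCard _
    exact Nat.le_of_dvd Nat.card_pos h6

theorem unram_of_not_dvd (w : HeightOneSpectrum (𝓞 F)) (p : ℕ) (hp : p.Prime)
    (hpw : (p : 𝓞 F) ∈ w.asIdeal) (hd : ¬ (p : ℤ) ∣ discr F) : (p : 𝓞 F) ∉ w.asIdeal ^ 2 := by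
  intro h3
  have hcop : IsCoprime (p : ℤ) (discr F) :=
    (Nat.prime_iff_prime_int.mp hp).coprime_iff_not_dvd.2 hd
  obtain ⟨a, b, hab⟩ := hcop
  set P := w.asIdeal with hP
  have hPp : P.IsPrime := w.isPrime
  have hmapspan : (Ideal.span {(p : ℤ)}).map (algebraMap ℤ (𝓞 F)) =
      Ideal.span {((p : ℤ) : 𝓞 F)} := by
    rw [Ideal.map_span, Set.image_singleton]; simp
  have hdvd : P ^ 2 ∣ (Ideal.span {(p : ℤ)}).map (algebraMap ℤ (𝓞 F)) := by
    rw [hmapspan, Ideal.dvd_span_singleton]; simpa using h3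
  have hspne : Ideal.span {(p : ℤ)} ≠ ⊥ := by
    simpa using hp.ne_zero
  have : (Ideal.span {(p : ℤ)}).IsMaximal :=
    PrincipalIdealRing.isMaximal_of_irreducible (Nat.prime_iff_prime_int.mp hp).irreducible
  have hd2 : P ∣ differentIdeal ℤ (𝓞 F) := by
    have := pow_sub_one_dvd_differentIdeal ℤ P 2 hspne hdvd
    simpa using this
  have hdmem : ((discr F : ℤ) : 𝓞 F) ∈ P :=
    (Ideal.dvd_iff_le.mp hd2) (discr_mem_differentIdeal F (𝓞 F))
  apply hPp.ne_top
  rw [Ideal.eq_top_iff_one]
  have h1 : (1 : 𝓞 F) = (a : 𝓞 F) * (p : 𝓞 F) + (b : 𝓞 F) * ((discr F : ℤ) : 𝓞 F) := by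
    have := congrArg (fun z : ℤ => (z : 𝓞 F)) hab
    push_cast at this
    exact this.symm
  rw [h1]
  exact P.add_mem (P.mul_mem_left _ hpw) (P.mul_mem_left _ hdmem)

theorem deg1_of (P : Place F) (p : ℕ) (hp : p.Prime) (hpw : (p : 𝓞 F) ∈ P.ideal)
    (h : ∀ x : 𝓞 F, x - x ^ p ∈ P.ideal) (hd : (discr F).natAbs < p) : Deg1 (toHOS P) p where
  prime := hp
  absNorm := absNorm_eq (toHOS P) p hp hpw h
  unram := by
    refine unram_of_not_dvd (toHOS P) p hp hpw ?_
    intro hdv
    have h1 := Int.natAbs_dvd_natAbs.mpr hdv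
    rw [Int.natAbs_natCast] at h1
    exact absurd (Nat.le_of_dvd (Int.natAbs_pos.mpr (discr_ne_zero F)) h1) (not_le.mpr hd)

end prime


/-! ### PROP TR -/

theorem mult_torsionfree (l : ℕ) [Fact l.Prime] (x : Multiplicative ℤ_[l]) (n : ℕ) (hn : 0 < n)
    (h : x ^ n = 1) : x = 1 := by
  have h1 : n • (Multiplicative.toAdd x) = 0 := by
    rw [← toAdd_pow, h]; rfl
  rw [nsmul_eq_mul] at h1
  rcases mul_eq_zero.1 h1 with h2 | h2
  · exact absurd h2 (by exact_mod_cast hn.ne')
  · exact Multiplicative.toAdd.injective h2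

theorem exists_primroot (n : ℕ) (hn : n ≠ 0) : ∃ ζ : Om, IsPrimitiveRoot ζ n := by
  have : NeZero (n : Om) := ⟨by exact_mod_cast hn⟩
  exact HasEnoughRootsOfUnity.exists_primitiveRoot Om n

theorem v3 (l : ℕ) [hl : Fact l.Prime] (hl2 : l ≠ 2) : V3 l := by
  intro N hNn hNo a ha g1 n hn hg1n hfrob x
  -- the group `H` generated by `N` and `g1`
  set H : Subgroup B := N ⊔ Subgroup.zpowers g1 with hHdef
  have hNH : N ≤ H := le_sup_left
  have hg1H : g1 ∈ H := (le_sup_right : Subgroup.zpowers g1 ≤ H) (Subgroup.mem_zpowers g1)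
  have hHmem : ∀ h ∈ H, ∃ k : ℤ, (g1 ^ k)⁻¹ * h ∈ N := by
    intro h hh
    rw [hHdef, sup_comm, Subgroup.mem_sup_of_normal_right] at hh
    obtain ⟨y, ⟨k, rfl⟩, z, hz, rfl⟩ := hh
    refine ⟨k, ?_⟩
    simpa using hz
  have hHo : IsOpen (H : Set B) := Subgroup.isOpen_mono hNH hNo
  have hHc : IsClosed (H : Set B) := Subgroup.isClosed_of_isOpen H hHo
  -- the fixed field
  let F : IntermediateField ℚ Om := IntermediateField.fixedField H
  have hFfix : F.fixingSubgroup = H :=
    InfiniteGalois.fixingSubgroup_fixedField (⟨H, hHc⟩ : ClosedSubgroup B)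
  have hFfd : FiniteDimensional ℚ F := by
    rw [← InfiniteGalois.isOpen_iff_finite]
    change IsOpen ((F.fixingSubgroup : Subgroup B) : Set B)
    rw [hFfix]
    exact hHo
  have hNF : NumberField F := { to_charZero := inferInstance, to_finiteDimensional := hFfd }
  -- finite index
  have hfi : (N.subgroupOf H).FiniteIndex := by
    have h1 : Finite (B ⧸ N) := Subgroup.quotient_finite_of_isOpen N hNo
    have h2 : N.FiniteIndex := Subgroup.finiteIndex_of_finite_quotient
    infer_instance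
  have hNHo : IsOpen ((N.subgroupOf H : Subgroup H) : Set H) := hNo.preimage continuous_subtype_val
  have hac : Continuous (aH H a) := by
    refine ha.comp ?_
    refine Continuous.subtype_mk ?_ _
    exact continuous_subtype_val.comp continuous_subtype_val
  have htc : Continuous (MonoidHom.transfer (aH H a)) := Verx568.continuous_transfer _ hNHo hac
  -- the homomorphism `ρ : Gal(Om/F) → H`
  have hmem : ∀ σ : Om ≃ₐ[F] Om, resHom F σ ∈ H := by
    intro σ
    rw [← hFfix, IntermediateField.mem_fixingSubgroup_iff]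
    intro y hy
    exact σ.commutes ⟨y, hy⟩
  let ρ : (Om ≃ₐ[F] Om) →* H := (resHom F).codRestrict H hmem
  have hρ : Continuous ρ := Continuous.subtype_mk (continuous_resHom F) _
  have hρs : ∀ h : H, ∃ σ : Om ≃ₐ[F] Om, ρ σ = h := by
    intro h
    have h1 : (h : B) ∈ F.fixingSubgroup := by rw [hFfix]; exact h.2
    refine ⟨IntermediateField.fixingSubgroupEquiv F ⟨h, h1⟩, ?_⟩
    apply Subtype.ext
    ext y
    rfl
  let lam : (Om ≃ₐ[F] Om) →* Multiplicative ℤ_[l] := (MonoidHom.transfer (aH H a)).comp ρ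
  have hlamc : Continuous lam := htc.comp hρ
  have hG : IsGalois F Om := inferInstance
  have hlam1 : lam = 1 := by
    refine DegThmx614.deg_one hl2 (fun m => exists_primroot _ (pow_ne_zero _ hl.out.ne_zero)) lam
      hlamc ?_
    intro B0
    obtain ⟨p, hpB, hp, S, F0, hpS, hF0, hF0N, hF0n, haF0⟩ :=
      hfrob (max B0 (discr F).natAbs)
    have hF0H : F0 ∈ H := by
      have h1 : F0 = g1 * (g1⁻¹ * F0) := by group
      rw [h1]
      exact H.mul_mem hg1H (hNH hF0N)
    obtain ⟨s, hs⟩ := hρs ⟨F0, hF0H⟩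
    have hsF0 : ∀ y : Om, s y = F0 y := by
      intro y
      have h1 : ((ρ s : H) : B) = F0 := by rw [hs]
      have h2 : ((ρ s : H) : B) y = s y := rfl
      rw [← h2, h1]
    have hsF0' : ∀ y : 𝓞 Om, s • y = F0 • y := by
      intro y
      apply NumberField.RingOfIntegers.ext
      exact hsF0 y
    refine ⟨p, toHOS (S.res F), S, s, lt_of_le_of_lt (le_max_left _ _) hpB, ?_, rfl, ?_, ?_⟩
    · refine deg1_of (S.res F) p hp ?_ ?_ (lt_of_le_of_lt (le_max_right _ _) hpB)
      · rw [Place.mem_res]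
        simpa using hpS
      · intro y
        rw [Place.mem_res, map_sub, map_pow]
        have h1 := hF0 (algebraMap (𝓞 F) (𝓞 Om) y)
        rw [← hsF0'] at h1
        have h2 : s • (algebraMap (𝓞 F) (𝓞 Om) y) = algebraMap (𝓞 F) (𝓞 Om) y := by
          apply NumberField.RingOfIntegers.ext
          exact s.commutes y
        rwa [h2] at h1
    · intro y
      rw [hsF0']
      exact hF0 y
    · change MonoidHom.transfer (aH H a) (ρ s) = 1
      rw [hs]
      exact transfer_frob hHmem a (mult_torsionfree l) F0 hF0H hF0N n hn hF0n haF0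
  -- conclusion
  obtain ⟨x, hx⟩ := x
  have h1 : MonoidHom.transfer (aH H a) ⟨x, hNH hx⟩ = 1 := by
    obtain ⟨σ, hσ⟩ := hρs ⟨x, hNH hx⟩
    rw [← hσ]
    exact DFunLike.congr_fun hlam1 σ
  have h2 := prod_eq_one hNH hg1H hHmem a n hn hg1n x hx h1
  rw [← h2]
  rfl

end Crest.Agent.R018.V3x793
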