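import Crest.Agent.R018.GLem_791
import Crest.Agent.R018.V3_793

/-!
# Row 18: the literal `Core_74.LemmaG` (helper791)
-/

set_option autoImplicit false

noncomputable section

open NumberField Pointwise
open Crest.NumberTheoryR

namespace Crest.Agent.R018.GLitx791

open Crest.Agent.R018.EndDefx924 (Om)
open Crest.Agent.R018.Placesx484
open Crest.Agent.R018.Corex74

/-- every element of `Sv` is a square in `Sv` (needed only for conjugates of `x`) -/
def HasSqrt (x : Sv) : Prop := ∀ γ : SG, ∃ z : Sv, z ^ 2 = γ x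

theorem neg_ne {z : Sv} (h : z ≠ 0) : -z ≠ z := by
  intro h1
  apply h
  have h2 : (2 : Sv) * z = 0 := by linear_combination -h1
  rcases mul_eq_zero.1 h2 with h3 | h3
  · exact absurd h3 two_ne_zero
  · exact h3

section chi

variable {V : Subgroup SG} {x : Sv} (hx : Gen V x) (z : Sv) (hz : z ^ 2 = x)

include hx hz in
theorem root_ne_zero : z ≠ 0 := by
  rintro rfl
  apply hx.1
  rw [← hz]
  simp

include hx hz in
theorem root_cases (a : V) : (a : SG) z = z ∨ (a : SG) z = -z := by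
  have h1 : ((a : SG) z) ^ 2 = z ^ 2 := by
    rw [← map_pow, hz]
    exact hx.2.1 a a.2
  exact sq_eq_sq_iff_eq_or_eq_neg.1 h1

open Classical in
/-- the quadratic character of `√x` -/
def chi : V →* ℤˣ where
  toFun a := if (a : SG) z = z then 1 else -1
  map_one' := by simp
  map_mul' := by
    intro a b
    have h0 := neg_ne (root_ne_zero hx z hz)
    have hcoe : ((a * b : V) : SG) z = (a : SG) ((b : SG) z) := rfl
    rw [hcoe]
    rcases root_cases hx z hz a with ha | ha <;> rcases root_cases hx z hz b with hb | hb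
    · rw [hb, ha]; simp
    · rw [hb, map_neg, ha]; simp [h0]
    · rw [hb, ha]; simp [h0]
    · rw [hb, map_neg, ha]; simp [h0]

theorem chi_eq_one_iff (a : V) : chi hx z hz a = 1 ↔ (a : SG) z = z := by
  unfold chi
  simp only [MonoidHom.coe_mk, OneHom.coe_mk]
  constructor
  · intro h
    by_contra h1
    rw [if_neg h1] at h
    exact absurd h (by decide)
  · intro h
    rw [if_pos h]

theorem chi_eq_neg_one_iff (a : V) : chi hx z hz a = -1 ↔ (a : SG) z = -z := by
  have h0 := neg_ne (root_ne_zero hx z hz)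
  unfold chi
  simp only [MonoidHom.coe_mk, OneHom.coe_mk]
  constructor
  · intro h
    rcases root_cases hx z hz a with h1 | h1
    · rw [if_pos h1] at h
      exact absurd h (by decide)
    · exact h1
  · intro h
    rw [if_neg (by rw [h]; exact h0)]

theorem trivStab [V.Normal] : GDefx791.TrivStab V (chi hx z hz) := by
  intro g hg
  by_contra hgV
  -- `z * g z` is fixed by `V`
  have hne : g x ≠ x := fun h => hgV (hx.2.2.1 g h)
  have hfix : ∀ v ∈ V, v (z * g z) = z * g z := by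
    intro v hv
    have h1 := hg ⟨v, hv⟩
    have hcoe : ((MulAut.conjNormal g⁻¹ (⟨v, hv⟩ : V) : V) : SG) = g⁻¹ * v * g := by simp
    have hvg : v (g z) = g (((MulAut.conjNormal g⁻¹ (⟨v, hv⟩ : V) : V) : SG) z) := by
      rw [hcoe, AlgEquiv.mul_apply, AlgEquiv.mul_apply, ← AlgEquiv.mul_apply g, mul_inv_cancel]
      rfl
    rw [map_mul, hvg]
    rcases root_cases hx z hz ⟨v, hv⟩ with h2 | h2
    · have h3 : chi hx z hz (MulAut.conjNormal g⁻¹ (⟨v, hv⟩ : V)) = 1 := by
        rw [h1]; exact (chi_eq_one_iff hx z hz _).2 h2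
      rw [(chi_eq_one_iff hx z hz _).1 h3]
      change v z = z at h2
      rw [h2]
    · have h3 : chi hx z hz (MulAut.conjNormal g⁻¹ (⟨v, hv⟩ : V)) = -1 := by
        rw [h1]; exact (chi_eq_neg_one_iff hx z hz _).2 h2
      rw [(chi_eq_neg_one_iff hx z hz _).1 h3]
      change v z = -z at h2
      rw [h2, map_neg, neg_mul_neg]
  classical
  apply hx.2.2.2 {x, g x} ⟨x, Finset.mem_insert_self _ _⟩
  · intro y hy
    rw [Finset.mem_insert, Finset.mem_singleton] at hy
    rcases hy with rfl | rfl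
    · exact ⟨1, rfl⟩
    · exact ⟨g, rfl⟩
  · refine ⟨z * g z, hfix, ?_⟩
    rw [Finset.prod_insert (by rw [Finset.mem_singleton]; exact hne.symm), Finset.prod_singleton,
      mul_pow, hz, ← map_pow, hz]

end chi

section probe

variable {V : Subgroup SG} [V.Normal] {x : Sv} {l : ℕ} [Fact l.Prime]

instance : (V2 V x).Normal := V2_normal V x

theorem conj_coe (γ : SG) (n : V2 V x) (h : γ⁻¹ * (n : SG) * γ ∈ V2 V x) :
    (⟨γ⁻¹ * n * γ, h⟩ : V2 V x) = MulAut.conjNormal γ⁻¹ n := by
  apply Subtype.ext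
  simp

theorem act_eq (γ : SG) (f : V2 V x → ℤ_[l]) : act γ f = GDefx791.act ℤ_[l] (V2 V x) γ f := by
  funext n
  change f _ = f _
  rw [conj_coe]

/-- the probe as an additive function -/
def fn (p : Probe V x l) : V2 V x → ℤ_[l] := fun n => Multiplicative.toAdd (p.ψ n)

theorem tr_eq (p : Probe V x l) (γ : SG) : tr p γ = GDefx791.act ℤ_[l] (V2 V x) γ (fn p) := by
  funext n
  change Multiplicative.toAdd (p.ψ _) = Multiplicative.toAdd (p.ψ _)
  rw [conj_coe]

theorem fn_mem_V (p : Probe V x l) : fn p ∈ GDefx791.V l (V2 V x) := by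
  refine ⟨p.cont, fun u v => ?_⟩
  change Multiplicative.toAdd (p.ψ (u * v)) = _
  rw [map_mul]
  rfl

theorem fn_mem_Eig (hx : Gen V x) (z : Sv) (hz : z ^ 2 = x) (p : Probe V x l) :
    fn p ∈ GDefx791.Eig l V (V2 V x) (chi hx z hz) 1 := by
  refine ⟨fn_mem_V p, fun a => ?_⟩
  have h1 : (MulAut.conjNormal (1 : SG)⁻¹ a : V) = a := by
    rw [inv_one, map_one]; rfl
  rw [h1]
  have hz0 := root_ne_zero hx z hz
  have hroot : ∀ w : Sv, w ^ 2 = x → w = z ∨ w = -z := fun w hw =>
    sq_eq_sq_iff_eq_or_eq_neg.1 (by rw [hw, hz])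
  rcases root_cases hx z hz a with h2 | h2
  · rw [(chi_eq_one_iff hx z hz a).2 h2]
    have h3 := p.eig_pos a a.2 (fun w hw => by
      rcases hroot w hw with rfl | rfl
      · exact h2
      · rw [map_neg, h2])
    funext n
    have h4 := h3 n
    rw [conj_coe] at h4
    change Multiplicative.toAdd (p.ψ _) = _
    rw [h4]
    simp [fn]
  · rw [(chi_eq_neg_one_iff hx z hz a).2 h2]
    have h3 := p.eig_neg a a.2 (fun w hw => by
      rcases hroot w hw with rfl | rfl
      · exact h2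
      · rw [map_neg, h2])
    funext n
    have h4 := h3 n
    rw [conj_coe] at h4
    change Multiplicative.toAdd (p.ψ _) = _
    rw [h4]
    simp [fn]

theorem span_le_W (hx : Gen V x) (z : Sv) (hz : z ^ 2 = x) (p : Probe V x l) :
    Submodule.span ℤ_[l] (Set.range (tr p)) ≤ GDefx791.W l V (V2 V x) (chi hx z hz) := by
  rw [Submodule.span_le]
  rintro _ ⟨γ, rfl⟩
  rw [tr_eq]
  have h1 := GActx791.act_mem_Eig (fn_mem_Eig hx z hz p) γ
  exact Submodule.mem_iSup_of_mem (γ * 1) h1

end probe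

/-- `V₂(x)` is open -/
theorem isOpen_V2 {V : Subgroup SG} (hV : IsOpen (V : Set SG)) (x : Sv) :
    IsOpen (V2 V x : Set SG) := by
  classical
  -- the finitely many square roots of the conjugates of `x`
  have hint : ∀ y : Sv, IsIntegral ℚ y := fun y => Algebra.IsIntegral.isIntegral y
  let p : Polynomial ℚ := (minpoly ℚ x).comp (Polynomial.X ^ 2)
  have hp : p ≠ 0 := by
    have h1 : (minpoly ℚ x).Monic := minpoly.monic (hint x)
    exact (h1.comp (Polynomial.monic_X_pow 2) (by simp)).ne_zero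
  let T : Set Sv := p.rootSet Sv
  have hT : T.Finite := p.rootSet_finite Sv
  let L : IntermediateField ℚ Sv := IntermediateField.adjoin ℚ T
  have hL : FiniteDimensional ℚ L :=
    IntermediateField.finiteDimensional_adjoin (fun y _ => hint y) (S := T) |> fun h => by
      exact h
  have hLo : IsOpen (L.fixingSubgroup : Set SG) := L.fixingSubgroup_isOpen
  have hle : V ⊓ L.fixingSubgroup ≤ V2 V x := by
    rintro g ⟨hgV, hgL⟩
    refine ⟨hgV, fun γ z hz => ?_⟩
    have hzT : z ∈ T := by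
      rw [Polynomial.mem_rootSet]
      refine ⟨hp, ?_⟩
      change Polynomial.aeval z ((minpoly ℚ x).comp (Polynomial.X ^ 2)) = 0
      rw [Polynomial.aeval_comp, map_pow, Polynomial.aeval_X, hz]
      have : Polynomial.aeval (γ x) (minpoly ℚ x) = γ (Polynomial.aeval x (minpoly ℚ x)) :=
        Polynomial.aeval_algHom_apply (γ : Sv →ₐ[ℚ] Sv) x _
      rw [this, minpoly.aeval, map_zero]
    exact hgL ⟨z, IntermediateField.subset_adjoin ℚ T hzT⟩
  exact Subgroup.isOpen_mono hle (hV.inter hLo)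

/-- the literal from square roots -/
theorem lemmaG_of_sqrt (hsq : ∀ x : Sv, ∃ z : Sv, z ^ 2 = x) : LemmaG := by
  intro D V _ hV hND hsurj x hx l _ hl2 p φ hφ hφ0 g hg
  obtain ⟨z, hz⟩ := hsq x
  have hgood : GDefx791.Good D.G D.α V := by
    refine ⟨fun b hb => ?_, fun u hu => ?_⟩
    · obtain ⟨k, hk, h1, h2⟩ := hND b hb
      exact ⟨k, hk, h1, h2⟩
    · obtain ⟨k, hk, h1⟩ := hsurj u hu
      exact ⟨k, hk, h1⟩
  have hrange : IsOpen (D.α.range : Set SG) := by
    rw [MonoidHom.coe_range]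
    exact D.open_range
  have hG := GLemx791.lemmaG_gen l (V3x793.v3 l hl2) D.G D.isOpen_G D.α D.cont hrange
  obtain ⟨B0, hB0⟩ := hG V (V2 V x) hV (isOpen_V2 hV x) hgood (chi hx z hz) (trivStab hx z hz) φ
    (span_le_W hx z hz p hφ) hφ0
  refine ⟨B0, fun P hP σ hσ hσg k hk hk0 => ?_⟩
  -- the residue degree is attained
  have hne : ({a | 0 < a ∧ ∃ g ∈ D.G, Act P g (P.rchar ^ a)} : Set ℕ).Nonempty := by
    obtain ⟨F, hF1, hF2⟩ := CoreF2x755.exists_frob_rat P
    have hfin : Finite (BB ⧸ D.G) := D.G.quotient_finite_of_isOpen D.isOpen_G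
    have hidx : D.G.index ≠ 0 := (Subgroup.finiteIndex_of_finite_quotient (H := D.G)).index_ne_zero
    obtain ⟨n, hn, _, hn2⟩ := Subgroup.exists_pow_mem_of_index_ne_zero hidx F
    exact ⟨n, hn, F ^ n, hn2, TgtTx656.frob_pow_aux P hF2 n⟩
  have hlift : GDefx791.IsFrobLift D.G P P.rchar (fdeg D.G P) (σ : BB) := by
    refine ⟨σ.2, (Nat.sInf_mem hne).1, hσ.2, ?_⟩
    intro j hj hj2 τ hτ hact
    exact Nat.notMem_of_lt_sInf hj2 ⟨hj, τ, hτ, hact⟩
  have hφV : φ ∈ GDefx791.V l (V2 V x) := GActx791.W_le_V (span_le_W hx z hz p hφ)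
  have hact : GDefx791.act ℤ_[l] (V2 V x) (D.α ⟨(σ : BB), hlift.1⟩) φ = φ := by
    have h1 : g = D.α σ * ((D.α σ)⁻¹ * g) := by group
    rw [act_eq, h1, GActx791.act_mul, GActx791.act_of_mem hφV _ hσg] at hg
    exact hg
  exact hB0 P.rchar hP P.rchar_prime P P.rchar_mem (fdeg D.G P) (σ : BB) hlift hact k hk0 hk

end Crest.Agent.R018.GLitx791
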