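import Crest.Agent.R018.GDef_791
import Crest.Agent.R018.Desc_820

/-!
# Row 18 (helper820): (ND) at a finite level, abstract form (`Good` of `GDef_791`)
-/

set_option autoImplicit false

namespace Crest.Agent.R018.Goodx820

open Crest.Agent.R018.GDefx791 Crest.Agent.R018.Descx820

variable {B S : Type*} [Group B] [TopologicalSpace B] [IsTopologicalGroup B] [CompactSpace B]
  [Group S] [TopologicalSpace S] [IsTopologicalGroup S] [CompactSpace S] [T2Space S]
  [TotallyDisconnectedSpace S]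

/-- (ND) implies: inside every open `V'` there is an open normal good `U`. -/
theorem exists_good (G : Subgroup B) (hG : IsOpen (G : Set B)) (α : G →* S) (hα : Continuous α)
    (hr : IsOpen (Set.range α)) (hnd : Crest.Agent.R018.GDefx791.ND G α)
    (V' : Set S) (hV' : IsOpen V') (h1V' : (1 : S) ∈ V') :
    ∃ U : Subgroup S, U.Normal ∧ IsOpen (U : Set S) ∧ (U : Set S) ⊆ V' ∧ Good G α U := by
  classical
  have hfin : Finite (B ⧸ G) := Subgroup.quotient_finite_of_isOpen G hG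
  have hrep : ∀ q : B ⧸ G, ∃ s : S, s ≠ 1 ∧ (q.out ∉ G → ∃ (k : B) (hk : k ∈ G.normalCore),
      α ⟨k, G.normalCore_le hk⟩ = 1 ∧ α ⟨q.out * k * q.out⁻¹, conj_core G hk q.out⟩ = s) ∨
      q.out ∈ G := by
    intro q
    by_cases hq : q.out ∈ G
    · exact ⟨1, Or.inr hq⟩
    · obtain ⟨k, hk, hk1, hk2⟩ := hnd q.out hq
      exact ⟨_, Or.inl ⟨hk2, fun _ => ⟨k, hk, hk1, rfl⟩⟩⟩
  choose s hs using hrep
  have hNo : IsOpen {t : S | ∃ (k : B) (hk : k ∈ G.normalCore), α ⟨k, G.normalCore_le hk⟩ = t} := by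
    have h := isOpen_range_of_le (isOpen_normalCore hG) (G.normalCore_le) α hα hr
    convert h using 1
    ext s
    constructor
    · rintro ⟨k, hk, rfl⟩
      exact ⟨⟨k, hk⟩, rfl⟩
    · rintro ⟨k, rfl⟩
      exact ⟨k, k.2, rfl⟩
  let W : Set S := V' ∩ {t : S | ∃ (k : B) (hk : k ∈ G.normalCore),
    α ⟨k, G.normalCore_le hk⟩ = t} ∩ ⋂ q ∈ {q : B ⧸ G | q.out ∉ G}, {s q}ᶜ
  have hWo : IsOpen W := by
    refine (hV'.inter hNo).inter ?_
    refine Set.Finite.isOpen_biInter (Set.toFinite _) fun q _ => isOpen_compl_singleton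
  have hW1 : (1 : S) ∈ W := by
    refine ⟨⟨h1V', 1, G.normalCore.one_mem, map_one α⟩, ?_⟩
    simp only [Set.mem_iInter]
    intro q hq
    rcases hs q with h | h
    · exact fun h' => h.1 h'.symm
    · exact absurd h hq
  obtain ⟨V, hV⟩ := ProfiniteGrp.exist_openNormalSubgroup_sub_open_nhds_of_one hWo hW1
  refine ⟨V.toSubgroup, V.isNormal', V.isOpen', fun v hv => (hV hv).1.1, ?_,
    fun v hv => (hV hv).1.2⟩
  intro b hb
  set q : B ⧸ G := QuotientGroup.mk b with hq
  have hh : q.out⁻¹ * b ∈ G := by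
    rw [← QuotientGroup.eq, QuotientGroup.out_eq']
  have hqo : q.out ∉ G := by
    intro h
    apply hb
    have := G.mul_mem h hh
    simpa using this
  have hsq := (hs q).resolve_right hqo
  obtain ⟨k, hk, hk1, hk2⟩ := hsq.2 hqo
  set h : B := q.out⁻¹ * b with hhdef
  have hbq : b = q.out * h := by rw [hhdef]; group
  have hk' : h⁻¹ * k * h ∈ G.normalCore := by
    have := core_conj G hk h⁻¹
    simpa using this
  refine ⟨h⁻¹ * k * h, hk', ?_, ?_⟩
  · have e : α ⟨h⁻¹ * k * h, G.normalCore_le hk'⟩ =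
        (α ⟨h, hh⟩)⁻¹ * α ⟨k, G.normalCore_le hk⟩ * α ⟨h, hh⟩ := by
      rw [← map_inv, ← map_mul, ← map_mul]
      rfl
    rw [e, hk1]
    group
  · intro hmem
    have e : b * (h⁻¹ * k * h) * b⁻¹ = q.out * k * q.out⁻¹ := by
      rw [hbq]; group
    have e2 : α ⟨b * (h⁻¹ * k * h) * b⁻¹, conj_core G hk' b⟩ = s q := by
      rw [← hk2]
      congr 1
      exact Subtype.ext e
    have h3 := (hV hmem).2
    rw [e2] at h3
    simp only [Set.mem_iInter] at h3
    exact h3 q hqo rfl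

end Crest.Agent.R018.Goodx820
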