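import Crest.Agent.R018.LogDefs_575

/-!
# Row 18, LEMMA LOG, block A: abstract Herbrand numbers (helper530)
-/

set_option autoImplicit false

noncomputable section

open Crest.Agent.R018.LogDefsx575

namespace Crest.Agent.R018.HerbAx530

section Index

variable {G G' : Type*} [CommGroup G] [CommGroup G']

/-- Lang's index lemma. -/
theorem relIndex_eq_mul (f : G →* G') {A B : Subgroup G} (h : A ≤ B) :
    A.relIndex B = (A.map f).relIndex (B.map f) * (f.ker ⊓ A).relIndex (f.ker ⊓ B) := by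
  have h1 : (A.map f).relIndex (B.map f) = (A ⊔ f.ker).relIndex B := by
    rw [Subgroup.relIndex_map_map]
    have : B ⊔ f.ker = B ⊔ (A ⊔ f.ker) := by
      rw [← sup_assoc, sup_eq_left.mpr h]
    rw [this, Subgroup.relIndex_sup_right]
  have h2 : (A ⊔ f.ker).relIndex B = ((A ⊔ f.ker) ⊓ B).relIndex B := by
    rw [Subgroup.inf_relIndex_right]
  have h3 : (A ⊔ f.ker) ⊓ B = A ⊔ (f.ker ⊓ B) := by
    rw [sup_inf_assoc_of_le _ h]
  have h4 : A.relIndex (A ⊔ (f.ker ⊓ B)) = (f.ker ⊓ A).relIndex (f.ker ⊓ B) := by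
    rw [sup_comm, Subgroup.relIndex_sup_right]
    have : f.ker ⊓ A = A ⊓ (f.ker ⊓ B) := by
      apply le_antisymm
      · exact le_inf inf_le_right (le_inf inf_le_left (inf_le_right.trans h))
      · exact le_inf (inf_le_right.trans inf_le_left) inf_le_left
    rw [this, Subgroup.inf_relIndex_right]
  have h5 : A.relIndex B = A.relIndex (A ⊔ (f.ker ⊓ B)) * (A ⊔ (f.ker ⊓ B)).relIndex B := by
    rw [Subgroup.relIndex_mul_relIndex _ _ _ le_sup_left (sup_le h inf_le_right)]
  rw [h5, h4, h1, h2, h3, mul_comm]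

end Index

section Herbrand

variable {M : Type*} [CommGroup M] {f g : M →* M}

/-- `(1)`: `[ker f ∩ B : g A]` in two ways. -/
theorem h0_mul (hfg : ∀ x, f (g x) = 1) {A B : Subgroup M} (hA : Stab f g A) (hB : Stab f g B)
    (h : A ≤ B) :
    (A.map g).relIndex (B.map g) * h0 f g B = h0 f g A * (f.ker ⊓ A).relIndex (f.ker ⊓ B) := by
  have hker : ∀ C : Subgroup M, Stab f g C → C.map g ≤ f.ker ⊓ C := by
    intro C hC
    refine le_inf ?_ hC.mapg
    rintro _ ⟨x, _, rfl⟩
    exact hfg x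
  unfold h0
  rw [Subgroup.relIndex_mul_relIndex _ _ _ (Subgroup.map_mono h) (hker B hB),
    Subgroup.relIndex_mul_relIndex _ _ _ (hker A hA) (inf_le_inf_left _ h)]

theorem h1_mul (hgf : ∀ x, g (f x) = 1) {A B : Subgroup M} (hA : Stab f g A) (hB : Stab f g B)
    (h : A ≤ B) :
    (A.map f).relIndex (B.map f) * h1 f g B = h1 f g A * (g.ker ⊓ A).relIndex (g.ker ⊓ B) :=
  h0_mul (f := g) (g := f) hgf ⟨hA.mapg, hA.mapf⟩ ⟨hB.mapg, hB.mapf⟩ h

variable (hfg : ∀ x, f (g x) = 1) (hgf : ∀ x, g (f x) = 1)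

include hfg in
theorem h0_ne_zero_iff {A B : Subgroup M} (hA : Stab f g A) (hB : Stab f g B)
    (h : A ≤ B) (hi : A.relIndex B ≠ 0) : h0 f g A ≠ 0 ↔ h0 f g B ≠ 0 := by
  have h1 := h0_mul hfg hA hB h
  have h2 := relIndex_eq_mul g h
  have h3 := relIndex_eq_mul f h
  rw [h2] at hi
  have hi2 := hi
  rw [← h2, h3] at hi2
  have e1 := left_ne_zero_of_mul hi
  have e2 := right_ne_zero_of_mul hi2
  constructor
  · intro h0A h0B
    rw [h0B, mul_zero] at h1
    exact (mul_ne_zero h0A e2) h1.symm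
  · intro h0B h0A
    rw [h0A, zero_mul] at h1
    exact (mul_ne_zero e1 h0B) h1

include hgf in
theorem h1_ne_zero_iff {A B : Subgroup M} (hA : Stab f g A) (hB : Stab f g B)
    (h : A ≤ B) (hi : A.relIndex B ≠ 0) : h1 f g A ≠ 0 ↔ h1 f g B ≠ 0 :=
  h0_ne_zero_iff (f := g) (g := f) hgf ⟨hA.mapg, hA.mapf⟩ ⟨hB.mapg, hB.mapf⟩ h hi

include hfg hgf in
/-- invariance of the Herbrand quotient under finite index -/
theorem h0_mul_h1 {A B : Subgroup M} (hA : Stab f g A) (hB : Stab f g B)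
    (h : A ≤ B) (hi : A.relIndex B ≠ 0) : h0 f g A * h1 f g B = h0 f g B * h1 f g A := by
  have e1 := h0_mul hfg hA hB h
  have e2 := h1_mul hgf hA hB h
  have e3 := relIndex_eq_mul g h
  have e4 := relIndex_eq_mul f h
  set a := (A.map g).relIndex (B.map g)
  set b := (A.map f).relIndex (B.map f)
  set c := (f.ker ⊓ A).relIndex (f.ker ⊓ B)
  set d := (g.ker ⊓ A).relIndex (g.ker ⊓ B)
  have e5 : (A.relIndex B) * (h0 f g A * h1 f g B) = (A.relIndex B) * (h0 f g B * h1 f g A) := by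
    calc (A.relIndex B) * (h0 f g A * h1 f g B) = (h0 f g A * c) * (b * h1 f g B) := by
          rw [e4]; ring
      _ = (a * h0 f g B) * (h1 f g A * d) := by rw [e1, e2]
      _ = (A.relIndex B) * (h0 f g B * h1 f g A) := by rw [e3]; ring
  exact Nat.eq_of_mul_eq_mul_left (Nat.pos_of_ne_zero hi) e5

theorem stab_bot : Stab f g (⊥ : Subgroup M) := ⟨by simp, by simp⟩

theorem h0_bot : h0 f g (⊥ : Subgroup M) = 1 := by
  simp [h0]

theorem h1_bot : h1 f g (⊥ : Subgroup M) = 1 := by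
  simp [h1]

include hfg hgf in
/-- finite modules have Herbrand quotient one -/
theorem h0_eq_h1_of_finite {B : Subgroup M} (hB : Stab f g B) (hf : Finite B) :
    h0 f g B = h1 f g B ∧ h0 f g B ≠ 0 := by
  have hi : (⊥ : Subgroup M).relIndex B ≠ 0 := by
    rw [Subgroup.relIndex_bot_left]
    exact Nat.card_pos.ne'
  have h := h0_mul_h1 hfg hgf stab_bot hB bot_le hi
  rw [h0_bot, h1_bot, one_mul, mul_one] at h
  refine ⟨h.symm, ?_⟩
  exact (h0_ne_zero_iff hfg stab_bot hB bot_le hi).1 (by rw [h0_bot]; exact one_ne_zero)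

end Herbrand

section Acyclic

variable {M P : Type*} [CommGroup M] [CommGroup P] {f g : M →* M} {f' g' : P →* P}
  (π : P →* M)

theorem stab_range (hf : ∀ x, π (f' x) = f (π x)) (hg : ∀ x, π (g' x) = g (π x)) :
    Stab f g π.range where
  mapf := by
    rintro _ ⟨_, ⟨x, rfl⟩, rfl⟩
    exact ⟨f' x, hf x⟩
  mapg := by
    rintro _ ⟨_, ⟨x, rfl⟩, rfl⟩
    exact ⟨g' x, hg x⟩

theorem stab_ker (hf : ∀ x, π (f' x) = f (π x)) (hg : ∀ x, π (g' x) = g (π x)) :
    Stab f' g' π.ker where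
  mapf := by
    rintro _ ⟨x, hx, rfl⟩
    have hx' : π x = 1 := hx
    show π (f' x) = 1
    rw [hf, hx', map_one]
  mapg := by
    rintro _ ⟨x, hx, rfl⟩
    have hx' : π x = 1 := hx
    show π (g' x) = 1
    rw [hg, hx', map_one]

/-- image of an acyclic module: `h0` is `h1` of the kernel -/
theorem h0_range (hf : ∀ x, π (f' x) = f (π x)) (hg : ∀ x, π (g' x) = g (π x))
    (a0 : f'.ker = g'.range) (a1 : g'.ker = f'.range) :
    h0 f g π.range = h1 f' g' π.ker := by
  have hfg' : ∀ x, f' (g' x) = 1 := fun x => by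
    have : g' x ∈ f'.ker := by rw [a0]; exact ⟨x, rfl⟩
    exact this
  have hgf' : ∀ x, g' (f' x) = 1 := fun x => by
    have : f' x ∈ g'.ker := by rw [a1]; exact ⟨x, rfl⟩
    exact this
  -- X = {p : f' p ∈ ker π}
  set X : Subgroup P := π.ker.comap f' with hX
  set Y : Subgroup P := g'.range ⊔ π.ker with hY
  have hYX : Y ≤ X := by
    refine sup_le ?_ ?_
    · rintro _ ⟨x, rfl⟩
      show π (f' (g' x)) = 1
      rw [hfg', map_one]
    · exact Subgroup.map_le_iff_le_comap.1 (stab_ker π hf hg).mapf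
  have hkX : π.ker ≤ X := le_sup_right.trans hYX
  have e1 : X.map π = f.ker ⊓ π.range := by
    apply le_antisymm
    · rintro _ ⟨x, hx, rfl⟩
      refine ⟨?_, ⟨x, rfl⟩⟩
      have : π (f' x) = 1 := hx
      show f (π x) = 1
      rw [← hf, this]
    · rintro _ ⟨hx, ⟨x, rfl⟩⟩
      refine ⟨x, ?_, rfl⟩
      show π (f' x) = 1
      rw [hf]
      exact hx
  have e2 : Y.map π = π.range.map g := by
    rw [hY, Subgroup.map_sup]
    have : π.ker.map π = ⊥ := by
      rw [eq_bot_iff]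
      rintro _ ⟨x, hx, rfl⟩
      exact hx
    rw [this, sup_bot_eq]
    apply le_antisymm
    · rintro _ ⟨_, ⟨x, rfl⟩, rfl⟩
      exact ⟨π x, ⟨x, rfl⟩, (hg x).symm⟩
    · rintro _ ⟨_, ⟨x, rfl⟩, rfl⟩
      exact ⟨g' x, ⟨x, rfl⟩, hg x⟩
  have e3 : h0 f g π.range = Y.relIndex X := by
    unfold h0
    rw [← e2, ← e1, Subgroup.relIndex_map_map, sup_eq_left.mpr (le_sup_right : π.ker ≤ Y),
      sup_eq_left.mpr hkX]
  have e4 : X.map f' = g'.ker ⊓ π.ker := by
    apply le_antisymm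
    · rintro _ ⟨x, hx, rfl⟩
      exact ⟨hgf' x, hx⟩
    · rintro y ⟨hy, hy'⟩
      have : y ∈ f'.range := by rw [← a1]; exact hy
      obtain ⟨x, rfl⟩ := this
      exact ⟨x, hy', rfl⟩
  have e5 : Y.map f' = π.ker.map f' := by
    rw [hY, Subgroup.map_sup]
    have : g'.range.map f' = ⊥ := by
      rw [eq_bot_iff]
      rintro _ ⟨_, ⟨x, rfl⟩, rfl⟩
      exact hfg' x
    rw [this, bot_sup_eq]
  have e6 : (f'.ker ⊓ Y).relIndex (f'.ker ⊓ X) = 1 := by
    rw [Subgroup.relIndex_eq_one]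
    refine le_inf inf_le_left ?_
    refine inf_le_left.trans ?_
    rw [a0]
    exact le_sup_left
  rw [e3, relIndex_eq_mul f' hYX, e6, mul_one, e4, e5]
  rfl

theorem h1_range (hf : ∀ x, π (f' x) = f (π x)) (hg : ∀ x, π (g' x) = g (π x))
    (a0 : f'.ker = g'.range) (a1 : g'.ker = f'.range) :
    h1 f g π.range = h0 f' g' π.ker :=
  h0_range (f := g) (g := f) (f' := g') (g' := f') π hg hf a1 a0

/-- kernel `D` infinite cyclic, `f'` trivial and `g'` the `n`-th power on `D` -/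
theorem h_range_of_cyclic (hf : ∀ x, π (f' x) = f (π x)) (hg : ∀ x, π (g' x) = g (π x))
    (a0 : f'.ker = g'.range) (a1 : g'.ker = f'.range) (d : P) (n : ℕ) (hn : n ≠ 0)
    (hd : π.ker = Subgroup.zpowers d) (hd' : ∀ k : ℤ, d ^ k = 1 → k = 0)
    (hfd : f' d = 1) (hgd : g' d = d ^ n) :
    h0 f g π.range = 1 ∧ h1 f g π.range = n := by
  constructor
  · rw [h0_range π hf hg a0 a1]
    unfold h1
    rw [Subgroup.relIndex_eq_one, hd]
    rintro _ ⟨hx, ⟨k, rfl⟩⟩
    have hx' : g' (d ^ k) = 1 := hx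
    rw [map_zpow, hgd, ← zpow_natCast, ← zpow_mul] at hx'
    have := hd' _ hx'
    have hk : k = 0 := by
      rcases mul_eq_zero.1 this with h | h
      · exact absurd (by exact_mod_cast h) hn
      · exact h
    subst hk
    simp
  · rw [h1_range π hf hg a0 a1]
    unfold h0
    have e1 : f'.ker ⊓ π.ker = Subgroup.zpowers d := by
      rw [hd]
      refine inf_eq_right.2 ?_
      rw [Subgroup.zpowers_le]
      exact hfd
    have e2 : π.ker.map g' = Subgroup.zpowers (d ^ n) := by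
      rw [hd, MonoidHom.map_zpowers, hgd]
    rw [e1, e2]
    -- transport to ℤ
    let φ : Multiplicative ℤ →* P := zpowersHom P d
    have hφ : ∀ k : ℤ, φ (Multiplicative.ofAdd k) = d ^ k := fun k => rfl
    have hφi : Function.Injective φ := by
      rw [injective_iff_map_eq_one]
      intro a ha
      have : d ^ (Multiplicative.toAdd a) = 1 := ha
      have := hd' _ this
      exact Multiplicative.toAdd.injective this
    have m1 : (⊤ : Subgroup (Multiplicative ℤ)).map φ = Subgroup.zpowers d := by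
      ext y
      constructor
      · rintro ⟨x, -, rfl⟩
        exact ⟨Multiplicative.toAdd x, rfl⟩
      · rintro ⟨k, rfl⟩
        exact ⟨Multiplicative.ofAdd k, trivial, rfl⟩
    have m2 : (Subgroup.zpowers (Multiplicative.ofAdd (n : ℤ))).map φ
        = Subgroup.zpowers (d ^ n) := by
      rw [MonoidHom.map_zpowers, hφ, zpow_natCast]
    rw [← m1, ← m2, Subgroup.relIndex_map_map_of_injective _ _ hφi, Subgroup.relIndex_top_right]
    have := Int.index_zmultiples (n : ℤ)
    rw [Int.natAbs_natCast] at this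
    refine Eq.trans ?_ this
    rfl

end Acyclic

end Crest.Agent.R018.HerbAx530
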