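import Mathlib

/-!
Row 18, Kummer theory for infinite Galois extensions: every continuous character of order `l` of
`Gal(E/K)` (`μ_l ⊂ K`) is the Kummer character of an element `z ∈ E` with `z^l ∈ K`; the pull back
of Kummer classes along a continuous surjection `α : Gal(E₁/K₁) → Gal(E₂/K₂)`.
-/

set_option autoImplicit false

namespace Crest.Agent.R018.Kummerx380

open scoped Classical in
/-- Every continuous character `χ : Gal(E/K) → ℤ/l` is a Kummer character. -/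
theorem exists_kummer_gen {K E : Type*} [Field K] [Field E] [Algebra K E] [IsGalois K E]
    (l : ℕ) [Fact l.Prime] (ζ : K) (hζ : IsPrimitiveRoot ζ l)
    (χ : Gal(E/K) →* Multiplicative (ZMod l)) (hχ : IsOpen (χ.ker : Set Gal(E/K))) :
    ∃ z : E, z ≠ 0 ∧ z ^ l ∈ Set.range (algebraMap K E) ∧
      ∀ g : Gal(E/K), g z = algebraMap K E ζ ^ (Multiplicative.toAdd (χ g)).val * z := by
  have hl : l.Prime := Fact.out
  have hl0 : 0 < l := hl.pos
  by_cases htriv : ∀ g, χ g = 1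
  · refine ⟨1, one_ne_zero, ⟨1, by simp⟩, fun g => ?_⟩
    rw [htriv g]; simp
  push Not at htriv
  obtain ⟨g1, hg1⟩ := htriv
  -- an element with `χ g0 = 1` (additively)
  obtain ⟨g0, hg0⟩ : ∃ g0, χ g0 = Multiplicative.ofAdd (1 : ZMod l) := by
    have h1 : Multiplicative.toAdd (χ g1) ≠ 0 := by
      intro h; apply hg1
      rw [← ofAdd_toAdd (χ g1), h, ofAdd_zero]
    refine ⟨g1 ^ (Multiplicative.toAdd (χ g1))⁻¹.val, ?_⟩
    rw [map_pow]
    apply Multiplicative.toAdd.injective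
    rw [toAdd_pow, toAdd_ofAdd, nsmul_eq_mul, ZMod.natCast_val, ZMod.cast_id', id_eq,
      inv_mul_cancel₀ h1]
  have hg0pow : ∀ i : ℕ, Multiplicative.toAdd (χ (g0 ^ i)) = (i : ZMod l) := by
    intro i
    rw [map_pow, hg0, toAdd_pow, toAdd_ofAdd, nsmul_eq_mul, mul_one]
  -- the fixed field of the kernel
  let N : ClosedSubgroup Gal(E/K) := ⟨χ.ker, Subgroup.isClosed_of_isOpen _ hχ⟩
  let M : IntermediateField K E := IntermediateField.fixedField N.toSubgroup
  have hM : M.fixingSubgroup = χ.ker := InfiniteGalois.fixingSubgroup_fixedField N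
  -- elements of `M` are fixed by the kernel
  have hfixM : ∀ g : Gal(E/K), χ g = 1 → ∀ x : M, g (x : E) = x := by
    intro g hg x
    exact x.2 ⟨g, hg⟩
  have hMstable : ∀ (h : Gal(E/K)) (g : Gal(E/K)), χ g = 1 → ∀ x : M, g (h (x : E)) = h x := by
    intro h g hg x
    have h1 : χ (h⁻¹ * g * h) = 1 := by
      rw [map_mul, map_mul, hg, mul_one, ← map_mul, inv_mul_cancel, map_one]
    have h2 := hfixM _ h1 x
    have h3 : h (((h⁻¹ * g * h : Gal(E/K)) : E → E) (x : E)) = g (h (x : E)) := by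
      change h ((h⁻¹ * g * h : Gal(E/K)) (x : E)) = g (h (x : E))
      rw [← AlgEquiv.mul_apply, ← mul_assoc, ← mul_assoc, mul_inv_cancel, one_mul,
        AlgEquiv.mul_apply]
    rw [← h3, h2]
  -- the characters `g0^i` restricted to `M`
  let f : Fin l → (M →* E) := fun i =>
    ((g0 ^ (i : ℕ) : Gal(E/K)) : E →* E).comp (algebraMap M E : M →* E)
  have hf : Function.Injective f := by
    have key : ∀ i j : Fin l, (i : ℕ) ≤ j → f i = f j → i = j := by
      intro i j hle hij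
      have h1 : g0 ^ ((j : ℕ) - (i : ℕ)) ∈ M.fixingSubgroup := by
        rw [IntermediateField.mem_fixingSubgroup_iff]
        intro x hx
        have h2 := DFunLike.congr_fun hij (⟨x, hx⟩ : M)
        simp only [f, MonoidHom.comp_apply, MonoidHom.coe_coe] at h2
        have h3 : (g0 ^ (i : ℕ)) ((g0 ^ ((j : ℕ) - (i : ℕ))) x) = (g0 ^ (j : ℕ)) x := by
          rw [← AlgEquiv.mul_apply, ← pow_add, Nat.add_sub_cancel' hle]
        have h4 : (g0 ^ (i : ℕ)) ((g0 ^ ((j : ℕ) - (i : ℕ))) x) = (g0 ^ (i : ℕ)) x := by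
          rw [h3]; exact h2.symm
        exact (g0 ^ (i : ℕ)).injective h4
      rw [hM] at h1
      have h5 : ((((j : ℕ) - (i : ℕ) : ℕ)) : ZMod l) = 0 := by
        rw [← hg0pow, MonoidHom.mem_ker.1 h1]; rfl
      rw [ZMod.natCast_eq_zero_iff] at h5
      have h6 : (j : ℕ) - (i : ℕ) = 0 :=
        Nat.eq_zero_of_dvd_of_lt h5 (lt_of_le_of_lt (Nat.sub_le _ _) j.2)
      apply Fin.ext; omega
    intro i j hij
    rcases le_total (i : ℕ) (j : ℕ) with h | h
    · exact key i j h hij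
    · exact (key j i h hij.symm).symm
  have hlin : LinearIndependent E (fun i : Fin l => (f i : M → E)) :=
    (linearIndependent_monoidHom M E).comp f hf
  -- the resolvent is non zero somewhere
  set z1 : E := algebraMap K E ζ with hz1
  have hz1l : z1 ^ l = 1 := by rw [hz1, ← map_pow, hζ.pow_eq_one, map_one]
  have hz10 : z1 ≠ 0 := by
    intro h
    rw [h, zero_pow hl.ne_zero] at hz1l
    exact zero_ne_one hz1l
  have hex : ∃ θ : M, ∑ i : Fin l, (z1⁻¹) ^ (i : ℕ) * (g0 ^ (i : ℕ)) (θ : E) ≠ 0 := by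
    by_contra hcon
    push Not at hcon
    have h1 := Fintype.linearIndependent_iff.1 hlin (fun i => (z1⁻¹) ^ (i : ℕ)) (by
      funext θ
      have := hcon θ
      rw [Finset.sum_apply]
      simpa [f, Pi.smul_apply, smul_eq_mul] using this) ⟨0, hl0⟩
    simp at h1
  obtain ⟨θ, hθ⟩ := hex
  set z : E := ∑ i : Fin l, (z1⁻¹) ^ (i : ℕ) * (g0 ^ (i : ℕ)) (θ : E) with hz
  have hz' : z = ∑ i ∈ Finset.range l, (z1⁻¹) ^ i * (g0 ^ i) (θ : E) := by
    rw [hz, Finset.sum_range]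
  have hgz1 : ∀ g : Gal(E/K), g z1 = z1 := fun g => by rw [hz1, AlgEquiv.commutes]
  -- `g0 z = ζ z`
  have hg0z : g0 z = z1 * z := by
    have h1 : g0 z = ∑ i ∈ Finset.range l, (z1⁻¹) ^ i * (g0 ^ (i + 1)) (θ : E) := by
      rw [hz', map_sum]
      refine Finset.sum_congr rfl fun i _ => ?_
      rw [map_mul, map_pow, map_inv₀, hgz1, pow_succ' g0, AlgEquiv.mul_apply]
    have h2 : z1 * z = ∑ i ∈ Finset.range l, z1 * ((z1⁻¹) ^ i * (g0 ^ i) (θ : E)) := by
      rw [hz', Finset.mul_sum]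
    have h3 : ∀ i : ℕ, (z1⁻¹) ^ i * (g0 ^ (i + 1)) (θ : E) =
        z1 * ((z1⁻¹) ^ (i + 1) * (g0 ^ (i + 1)) (θ : E)) := by
      intro i
      rw [pow_succ (z1⁻¹), ← mul_assoc, ← mul_assoc, mul_comm z1, mul_assoc ((z1⁻¹) ^ i),
        mul_inv_cancel₀ hz10, mul_one]
    rw [h1, h2, Finset.sum_congr rfl (fun i _ => h3 i)]
    have h4 := Finset.sum_range_succ' (fun i => z1 * ((z1⁻¹) ^ i * (g0 ^ i) (θ : E))) l
    have h5 := Finset.sum_range_succ (fun i => z1 * ((z1⁻¹) ^ i * (g0 ^ i) (θ : E))) l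
    have h6 : (z1⁻¹) ^ l * (g0 ^ l) (θ : E) = (z1⁻¹) ^ 0 * (g0 ^ 0) (θ : E) := by
      have h7 : χ (g0 ^ l) = 1 := by
        apply Multiplicative.toAdd.injective
        rw [hg0pow]; simp
      rw [hfixM _ h7 θ, inv_pow, hz1l]
      simp
    rw [h5, h6] at h4
    exact (add_right_cancel h4).symm
  have hker : ∀ g : Gal(E/K), χ g = 1 → g z = z := by
    intro g hg
    rw [hz', map_sum]
    refine Finset.sum_congr rfl fun i _ => ?_
    rw [map_mul, map_pow, map_inv₀, hgz1, hMstable _ g hg θ]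
  have hg0iz : ∀ i : ℕ, (g0 ^ i) z = z1 ^ i * z := by
    intro i
    induction i with
    | zero => simp
    | succ i ih =>
      rw [pow_succ', AlgEquiv.mul_apply, ih, map_mul, map_pow, hgz1, hg0z, pow_succ]
      ring
  have hall : ∀ g : Gal(E/K), g z = z1 ^ (Multiplicative.toAdd (χ g)).val * z := by
    intro g
    have h1 : χ ((g0 ^ (Multiplicative.toAdd (χ g)).val)⁻¹ * g) = 1 := by
      rw [map_mul, map_inv]
      apply Multiplicative.toAdd.injective
      rw [toAdd_mul, toAdd_inv, hg0pow, ZMod.natCast_val, ZMod.cast_id', id_eq, toAdd_one,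
        neg_add_cancel]
    have h2 := hker _ h1
    have h3 : g z = (g0 ^ (Multiplicative.toAdd (χ g)).val)
        (((g0 ^ (Multiplicative.toAdd (χ g)).val)⁻¹ * g) z) := by
      rw [← AlgEquiv.mul_apply, mul_inv_cancel_left]
    rw [h3, h2, hg0iz]
  refine ⟨z, hθ, ?_, hall⟩
  rw [InfiniteGalois.mem_range_algebraMap_iff_fixed]
  intro g
  rw [map_pow, hall, mul_pow, ← pow_mul, mul_comm _ l, pow_mul, hz1l, one_pow, one_mul]

/-- A root of unity of order dividing `l` in `E` is a power of the given primitive root. -/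
theorem exists_pow_of_root {K E : Type*} [Field K] [Field E] [Algebra K E] (l : ℕ) [NeZero l]
    (ζ : K) (hζ : IsPrimitiveRoot ζ l) (u : E) (hu : u ^ l = 1) :
    ∃ i : ℕ, i < l ∧ u = algebraMap K E ζ ^ i := by
  have h1 : IsPrimitiveRoot (algebraMap K E ζ) l := hζ.map_of_injective (algebraMap K E).injective
  obtain ⟨i, hi, h⟩ := h1.eq_pow_of_pow_eq_one hu
  exact ⟨i, hi, h.symm⟩

theorem cast_eq_of_pow_eq {E : Type*} [Field E] {l : ℕ} {ζ : E} (hE : IsPrimitiveRoot ζ l)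
    (h0 : ζ ≠ 0) (i j : ℕ) (h : ζ ^ i = ζ ^ j) : (i : ZMod l) = (j : ZMod l) := by
  have key : ∀ i j : ℕ, i ≤ j → ζ ^ i = ζ ^ j → (i : ZMod l) = (j : ZMod l) := by
    intro i j hij h
    have h1 : ζ ^ (j - i) = 1 := by
      have h2 : ζ ^ i * ζ ^ (j - i) = ζ ^ i * 1 := by
        rw [← pow_add, Nat.add_sub_cancel' hij, mul_one, h]
      exact mul_left_cancel₀ (pow_ne_zero _ h0) h2
    have h3 := (hE.pow_eq_one_iff_dvd _).1 h1
    rw [ZMod.natCast_eq_natCast_iff]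
    exact (Nat.modEq_iff_dvd' hij).2 h3
  rcases le_total i j with hij | hij
  · exact key i j hij h
  · exact (key j i hij h.symm).symm

/-- The Kummer character of `y ∈ E`, `y^l ∈ K`, `μ_l ⊂ K`. -/
theorem exists_kummer_char {K E : Type*} [Field K] [Field E] [Algebra K E] [Algebra.IsIntegral K E]
    (l : ℕ) [Fact l.Prime] (ζ : K) (hζ : IsPrimitiveRoot ζ l) (y : E) (hy0 : y ≠ 0)
    (hy : y ^ l ∈ Set.range (algebraMap K E)) :
    ∃ κ : Gal(E/K) →* Multiplicative (ZMod l),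
      IsOpen (κ.ker : Set Gal(E/K)) ∧
      (∀ g, g y = algebraMap K E ζ ^ (Multiplicative.toAdd (κ g)).val * y) ∧
      (∀ g, κ g = 1 ↔ g y = y) := by
  classical
  have hl : l.Prime := Fact.out
  have hE : IsPrimitiveRoot (algebraMap K E ζ) l := hζ.map_of_injective (algebraMap K E).injective
  have hE0 : algebraMap K E ζ ≠ 0 := hE.ne_zero hl.ne_zero
  have hex : ∀ g : Gal(E/K), ∃ i : ℕ, i < l ∧ g y = algebraMap K E ζ ^ i * y := by
    intro g
    obtain ⟨a, ha⟩ := hy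
    obtain ⟨i, hi, h⟩ := exists_pow_of_root l ζ hζ (g y / y) (by
      rw [div_pow, ← map_pow, ← ha, AlgEquiv.commutes]
      exact div_self (by rw [ha]; exact pow_ne_zero _ hy0))
    exact ⟨i, hi, by rw [← h, div_mul_cancel₀ _ hy0]⟩
  choose n hn hgn using hex
  have huniq : ∀ i j : ℕ, algebraMap K E ζ ^ i * y = algebraMap K E ζ ^ j * y →
      (i : ZMod l) = (j : ZMod l) := by
    intro i j h
    exact cast_eq_of_pow_eq hE hE0 i j (mul_right_cancel₀ hy0 h)
  have hmul : ∀ g h : Gal(E/K), ((n (g * h) : ℕ) : ZMod l) = n g + n h := by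
    intro g h
    rw [← Nat.cast_add]
    apply huniq
    rw [← hgn, AlgEquiv.mul_apply, hgn h, map_mul, map_pow, AlgEquiv.commutes, hgn g, pow_add]
    ring
  let κ : Gal(E/K) →* Multiplicative (ZMod l) :=
    { toFun := fun g => Multiplicative.ofAdd ((n g : ℕ) : ZMod l)
      map_one' := by
        have h1 := hmul 1 1
        rw [mul_one] at h1
        have h2 : ((n 1 : ℕ) : ZMod l) = 0 := by
          have h3 : ((n 1 : ℕ) : ZMod l) + 0 = n 1 + n 1 := by rw [add_zero]; exact h1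
          exact (add_left_cancel h3).symm
        rw [h2]; rfl
      map_mul' := fun g h => by rw [hmul, ofAdd_add] }
  have hval : ∀ g, (Multiplicative.toAdd (κ g)).val = n g := by
    intro g
    change (((n g : ℕ) : ZMod l)).val = n g
    rw [ZMod.val_natCast, Nat.mod_eq_of_lt (hn g)]
  have hfix : ∀ g, κ g = 1 ↔ g y = y := by
    intro g
    constructor
    · intro h
      have h1 : n g = 0 := by rw [← hval, h]; simp
      rw [hgn g, h1, pow_zero, one_mul]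
    · intro h
      have h1 : ((n g : ℕ) : ZMod l) = ((0 : ℕ) : ZMod l) := by
        apply huniq
        rw [← hgn, h]; simp
      apply Multiplicative.toAdd.injective
      change ((n g : ℕ) : ZMod l) = 0
      rw [h1]; simp
  refine ⟨κ, ?_, fun g => by rw [hval, ← hgn], hfix⟩
  have h1 : (κ.ker : Set Gal(E/K)) = (MulAction.stabilizer Gal(E/K) y : Set Gal(E/K)) := by
    ext g
    rw [SetLike.mem_coe, MonoidHom.mem_ker, hfix, SetLike.mem_coe, MulAction.mem_stabilizer_iff]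
    rfl
  rw [h1]
  exact stabilizer_isOpen_of_isIntegral y

/-- **Pull back of Kummer classes.**  `α : Gal(E₁/K₁) → Gal(E₂/K₂)` continuous, `μ_l` in both base
fields.  For `y ∈ E₂` with `y^l ∈ K₂` there is `z ∈ E₁`, `z^l ∈ K₁`, with "the same" Kummer
character. -/
theorem exists_pullback {K₁ E₁ K₂ E₂ : Type*} [Field K₁] [Field E₁] [Algebra K₁ E₁] [IsGalois K₁ E₁]
    [Field K₂] [Field E₂] [Algebra K₂ E₂] [Algebra.IsIntegral K₂ E₂]
    (α : Gal(E₁/K₁) →* Gal(E₂/K₂)) (hα : Continuous α) (l : ℕ) [Fact l.Prime]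
    (ζ₁ : K₁) (hζ₁ : IsPrimitiveRoot ζ₁ l) (ζ₂ : K₂) (hζ₂ : IsPrimitiveRoot ζ₂ l)
    (y : E₂) (hy0 : y ≠ 0) (hy : y ^ l ∈ Set.range (algebraMap K₂ E₂)) :
    ∃ z : E₁, z ≠ 0 ∧ z ^ l ∈ Set.range (algebraMap K₁ E₁) ∧
      (∀ g : Gal(E₁/K₁), ∃ i : ℕ, i < l ∧ α g y = algebraMap K₂ E₂ ζ₂ ^ i * y ∧
        g z = algebraMap K₁ E₁ ζ₁ ^ i * z) := by
  obtain ⟨κ, hκo, hκ, -⟩ := exists_kummer_char l ζ₂ hζ₂ y hy0 hy
  obtain ⟨z, hz0, hz, hzg⟩ := exists_kummer_gen l ζ₁ hζ₁ (κ.comp α) (by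
    have : ((κ.comp α).ker : Set Gal(E₁/K₁)) = α ⁻¹' (κ.ker : Set Gal(E₂/K₂)) := by
      ext g; simp [MonoidHom.mem_ker]
    rw [this]
    exact hκo.preimage hα)
  refine ⟨z, hz0, hz, fun g => ⟨(Multiplicative.toAdd (κ (α g))).val, ZMod.val_lt _, hκ _, hzg g⟩⟩

/-- Injectivity of the pull back modulo `l`-th powers. -/
theorem pullback_inj {K₁ E₁ K₂ E₂ : Type*} [Field K₁] [Field E₁] [Algebra K₁ E₁]
    [Field K₂] [Field E₂] [Algebra K₂ E₂] [IsGalois K₂ E₂]
    (α : Gal(E₁/K₁) →* Gal(E₂/K₂)) (hs : Function.Surjective α) (l : ℕ) [Fact l.Prime]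
    (ζ₁ : K₁) (hζ₁ : IsPrimitiveRoot ζ₁ l) (ζ₂ : K₂)
    (y y' : E₂) (hy0' : y' ≠ 0) (z z' : E₁) (hz0 : z ≠ 0) (hz0' : z' ≠ 0)
    (h : ∀ g : Gal(E₁/K₁), ∃ i : ℕ, i < l ∧ α g y = algebraMap K₂ E₂ ζ₂ ^ i * y ∧
        g z = algebraMap K₁ E₁ ζ₁ ^ i * z)
    (h' : ∀ g : Gal(E₁/K₁), ∃ i : ℕ, i < l ∧ α g y' = algebraMap K₂ E₂ ζ₂ ^ i * y' ∧
        g z' = algebraMap K₁ E₁ ζ₁ ^ i * z')
    (w : K₁) (hw : z ^ l = z' ^ l * algebraMap K₁ E₁ w ^ l) :
    ∃ b : K₂, y = y' * algebraMap K₂ E₂ b := by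
  have hl : l.Prime := Fact.out
  have : NeZero l := ⟨hl.ne_zero⟩
  have hE : IsPrimitiveRoot (algebraMap K₁ E₁ ζ₁) l :=
    hζ₁.map_of_injective (algebraMap K₁ E₁).injective
  have hw0 : algebraMap K₁ E₁ w ≠ 0 := by
    intro h0
    rw [h0, zero_pow hl.ne_zero, mul_zero] at hw
    exact hz0 (pow_eq_zero_iff hl.ne_zero |>.1 hw)
  obtain ⟨k, -, hk⟩ := exists_pow_of_root l ζ₁ hζ₁ (z / (z' * algebraMap K₁ E₁ w)) (by
    rw [div_pow, mul_pow, hw]
    exact div_self (mul_ne_zero (pow_ne_zero _ hz0') (pow_ne_zero _ hw0)))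
  have hzz : z = algebraMap K₁ E₁ ζ₁ ^ k * (z' * algebraMap K₁ E₁ w) := by
    rw [← hk, div_mul_cancel₀]
    exact mul_ne_zero hz0' hw0
  -- `y / y'` is fixed by everything
  have hfix : ∀ τ : Gal(E₂/K₂), τ (y / y') = y / y' := by
    intro τ
    obtain ⟨g, rfl⟩ := hs τ
    obtain ⟨i, hi, hiy, hiz⟩ := h g
    obtain ⟨j, hj, hjy, hjz⟩ := h' g
    have h1 : g z = algebraMap K₁ E₁ ζ₁ ^ j * z := by
      conv_lhs => rw [hzz]
      rw [map_mul, map_mul, map_pow, AlgEquiv.commutes, AlgEquiv.commutes, hjz]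
      conv_rhs => rw [hzz]
      ring
    have h2 : algebraMap K₁ E₁ ζ₁ ^ i = algebraMap K₁ E₁ ζ₁ ^ j := by
      rw [hiz] at h1
      exact mul_right_cancel₀ hz0 h1
    have hij : i = j := hE.pow_inj hi hj h2
    rw [map_div₀, hiy, hjy, hij]
    have h3 : algebraMap K₂ E₂ ζ₂ ^ j ≠ 0 := by
      intro h0
      rw [h0, zero_mul] at hjy
      exact hy0' ((map_eq_zero _).1 hjy)
    exact mul_div_mul_left _ _ h3
  obtain ⟨b, hb⟩ := (InfiniteGalois.mem_range_algebraMap_iff_fixed (y / y')).2 hfix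
  exact ⟨b, by rw [hb, mul_div_cancel₀]; exact hy0'⟩

end Crest.Agent.R018.Kummerx380
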