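import Mathlib

/-!
Row 18, Kummer / S-unit finiteness.
`K(S,n)` is finite: the classes in `Kˣ/(Kˣ)^n` of elements with order divisible by `n` outside a
finite set `S` of primes.
-/

set_option autoImplicit false

namespace Crest.Agent.R018.Selmerx380

open IsDedekindDomain FractionalIdeal
open scoped nonZeroDivisors

section general

variable {R : Type*} [CommRing R] [IsDedekindDomain R] {K : Type*} [Field K] [Algebra R K]
  [IsFractionRing R K]

variable (R) in
/-- The `v`-adic order of a nonzero element of the fraction field. -/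
noncomputable def ord (v : HeightOneSpectrum R) (x : Kˣ) : ℤ :=
  FractionalIdeal.count K v (spanSingleton R⁰ (x : K))

variable (v : HeightOneSpectrum R)

theorem span_ne_zero (x : Kˣ) : spanSingleton R⁰ (x : K) ≠ 0 := by
  rw [spanSingleton_ne_zero_iff]; exact x.ne_zero

theorem ord_mul (x y : Kˣ) : ord R v (x * y) = ord R v x + ord R v y := by
  unfold ord
  rw [Units.val_mul, ← spanSingleton_mul_spanSingleton,
    count_mul K v (span_ne_zero x) (span_ne_zero y)]

theorem ord_one : ord R v (1 : Kˣ) = 0 := by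
  unfold ord
  rw [Units.val_one, spanSingleton_one, count_one]

theorem ord_inv (x : Kˣ) : ord R v x⁻¹ = - ord R v x := by
  have := ord_mul v x x⁻¹
  rw [mul_inv_cancel, ord_one] at this
  omega

theorem ord_pow (x : Kˣ) (n : ℕ) : ord R v (x ^ n) = n * ord R v x := by
  induction n with
  | zero => simp [ord_one]
  | succ n ih => rw [pow_succ, ord_mul, ih]; push_cast; ring

theorem ord_div (x y : Kˣ) : ord R v (x / y) = ord R v x - ord R v y := by
  rw [div_eq_mul_inv, ord_mul, ord_inv]; ring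

theorem ord_finite (x : Kˣ) : ∀ᶠ v : HeightOneSpectrum R in Filter.cofinite, ord R v x = 0 :=
  finite_factors _

open WithZero in
theorem valuation_eq_exp (x : Kˣ) : v.valuation K (x : K) = exp (-(ord R v x)) := by
  obtain ⟨r, s, hrs⟩ := IsLocalization.exists_mk'_eq R⁰ (x : K)
  have hs : (s : R) ≠ 0 := nonZeroDivisors.ne_zero s.2
  have hr : r ≠ 0 := by
    rintro rfl
    rw [IsLocalization.mk'_zero] at hrs
    exact x.ne_zero hrs.symm
  have h1 : spanSingleton R⁰ (x : K) =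
      spanSingleton R⁰ ((algebraMap R K) s)⁻¹ * ((Ideal.span {r} : Ideal R) : FractionalIdeal R⁰ K) := by
    rw [coeIdeal_span_singleton, spanSingleton_mul_spanSingleton, ← hrs, IsFractionRing.mk'_eq_div,
      div_eq_mul_inv, mul_comm]
  unfold ord
  rw [count_well_defined K v (span_ne_zero x) h1, ← hrs, HeightOneSpectrum.valuation_of_mk',
    HeightOneSpectrum.intValuation_if_neg v hr, HeightOneSpectrum.intValuation_if_neg v hs,
    ← exp_sub]
  congr 1
  ring

theorem exists_ord_eq_one : ∃ π : Kˣ, ord R v π = 1 := by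
  obtain ⟨π, hπ⟩ := v.valuation_exists_uniformizer K
  have h0 : π ≠ 0 := by
    rintro rfl
    rw [map_zero] at hπ
    exact absurd hπ.symm (WithZero.exp_ne_zero)
  refine ⟨Units.mk0 π h0, ?_⟩
  have h1 := valuation_eq_exp v (Units.mk0 π h0)
  rw [Units.val_mk0, hπ, WithZero.exp_inj] at h1
  omega

theorem exists_unit_of_ord_eq_zero (x : Kˣ) (h : ∀ v : HeightOneSpectrum R, ord R v x = 0) :
    ∃ u : Rˣ, Units.map (algebraMap R K).toMonoidHom u = x := by
  have h1 : spanSingleton R⁰ (x : K) = 1 := by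
    rw [← finprod_heightOneSpectrum_factorization' K (span_ne_zero (R := R) x)]
    have : ∀ v : HeightOneSpectrum R,
        (v.asIdeal : FractionalIdeal R⁰ K) ^ (count K v (spanSingleton R⁰ (x : K))) = 1 := by
      intro v
      have := h v
      unfold ord at this
      rw [this, zpow_zero]
    simp_rw [this]
    exact finprod_one
  have h2 : spanSingleton R⁰ ((x⁻¹ : Kˣ) : K) = 1 := by
    have h3 : spanSingleton R⁰ (x : K) * spanSingleton R⁰ ((x⁻¹ : Kˣ) : K) = 1 := by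
      rw [spanSingleton_mul_spanSingleton, Units.mul_inv, spanSingleton_one]
    rwa [h1, one_mul] at h3
  have hx : (x : K) ∈ (1 : FractionalIdeal R⁰ K) := by
    rw [← h1]; exact mem_spanSingleton_self _ _
  have hy : ((x⁻¹ : Kˣ) : K) ∈ (1 : FractionalIdeal R⁰ K) := by
    rw [← h2]; exact mem_spanSingleton_self _ _
  obtain ⟨a, ha⟩ := (mem_one_iff _).1 hx
  obtain ⟨b, hb⟩ := (mem_one_iff _).1 hy
  have hab : a * b = 1 := by
    apply IsFractionRing.injective R K
    rw [map_mul, ha, hb, map_one, Units.mul_inv]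
  refine ⟨⟨a, b, hab, by rw [mul_comm]; exact hab⟩, ?_⟩
  ext
  simpa using ha

/-- the ideal `∏ v^(ord v x / n)` as a unit -/
noncomputable def rootIdeal (n : ℕ) (x : Kˣ) : FractionalIdeal R⁰ K :=
  ∏ᶠ v : HeightOneSpectrum R, (v.asIdeal : FractionalIdeal R⁰ K) ^ (ord R v x / n)

theorem count_rootIdeal (n : ℕ) (x : Kˣ) :
    count K v (rootIdeal (R := R) n x) = ord R v x / n := by
  unfold rootIdeal
  rw [count_finprod]
  filter_upwards [ord_finite (R := R) x] with v hv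
  rw [hv]; simp

theorem rootIdeal_ne_zero (n : ℕ) (x : Kˣ) : rootIdeal (R := R) n x ≠ 0 := by
  unfold rootIdeal
  apply finprod_induction (p := fun I : FractionalIdeal R⁰ K => I ≠ 0)
  · exact one_ne_zero
  · exact fun a b ha hb => mul_ne_zero ha hb
  · intro v
    exact zpow_ne_zero _ (coeIdeal_ne_zero.mpr v.ne_bot)

theorem selmer_finite [Finite (ClassGroup R)] (n : ℕ) (hn : 0 < n)
    (hU : ∃ T : Set Rˣ, T.Finite ∧ ∀ u : Rˣ, ∃ t ∈ T, ∃ w : Rˣ, u = t * w ^ n)
    (S : Set (HeightOneSpectrum R)) (hS : S.Finite) :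
    ∃ T : Set Kˣ, T.Finite ∧ ∀ x : Kˣ, (∀ v, v ∉ S → (n : ℤ) ∣ ord R v x) →
      ∃ t ∈ T, ∃ y : Kˣ, x = t * y ^ n := by
  classical
  obtain ⟨TU, hTU, hTU'⟩ := hU
  have : Finite S := hS
  -- invariants
  let A := {x : Kˣ // ∀ v, v ∉ S → (n : ℤ) ∣ ord R v x}
  have hpos : (0 : ℤ) < n := by exact_mod_cast hn
  let Φ : A → (S → Fin n) × ClassGroup R := fun x =>
    (fun v => ⟨(ord R (v : HeightOneSpectrum R) x.1 % (n : ℤ)).toNat, by
      have h1 := Int.emod_lt_of_pos (ord R (v : HeightOneSpectrum R) x.1) hpos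
      have h2 := Int.emod_nonneg (ord R (v : HeightOneSpectrum R) x.1) hpos.ne'
      omega⟩,
     ClassGroup.mk K (Units.mk0 (rootIdeal (R := R) n x.1) (rootIdeal_ne_zero n x.1)))
  have hfin : (Set.range Φ).Finite := Set.toFinite _
  -- choose representatives
  let T0 : Set Kˣ := (fun p : (S → Fin n) × ClassGroup R =>
      if h : ∃ x : A, Φ x = p then (h.choose : A).1 else 1) '' Set.univ
  have hT0 : T0.Finite := Set.Finite.image _ Set.finite_univ
  refine ⟨Set.image2 (fun a b => a * b) T0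
    ((fun u : Rˣ => Units.map (algebraMap R K).toMonoidHom u) '' TU),
    Set.Finite.image2 _ hT0 (hTU.image _), ?_⟩
  intro x hx
  have hex : ∃ z : A, Φ z = Φ ⟨x, hx⟩ := ⟨⟨x, hx⟩, rfl⟩
  set z : A := hex.choose with hz
  have hzΦ : Φ z = Φ ⟨x, hx⟩ := hex.choose_spec
  have hzT : z.1 ∈ T0 := by
    refine ⟨Φ ⟨x, hx⟩, Set.mem_univ _, ?_⟩
    simp only [hex, dif_pos]
    rfl
  have hres : ∀ v : HeightOneSpectrum R, ord R v z.1 % (n : ℤ) = ord R v x % (n : ℤ) := by
    intro v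
    by_cases hv : v ∈ S
    · have h1 := congrArg (fun p => (p.1 ⟨v, hv⟩ : Fin n).1) hzΦ
      simp only [Φ] at h1
      have h2 := Int.emod_nonneg (ord R v z.1) hpos.ne'
      have h3 := Int.emod_nonneg (ord R v x) hpos.ne'
      omega
    · rw [Int.emod_eq_zero_of_dvd (z.2 v hv), Int.emod_eq_zero_of_dvd (hx v hv)]
  have hcl : ClassGroup.mk K (Units.mk0 (rootIdeal (R := R) n z.1) (rootIdeal_ne_zero n z.1)) =
      ClassGroup.mk K (Units.mk0 (rootIdeal (R := R) n x) (rootIdeal_ne_zero n x)) :=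
    congrArg Prod.snd hzΦ
  -- principal quotient
  have hpr : ∃ c : Kˣ, rootIdeal (R := R) n x = spanSingleton R⁰ (c : K) * rootIdeal (R := R) n z.1 := by
    have h1 : ClassGroup.mk K (Units.mk0 (rootIdeal (R := R) n x) (rootIdeal_ne_zero n x) *
        (Units.mk0 (rootIdeal (R := R) n z.1) (rootIdeal_ne_zero n z.1))⁻¹) = 1 := by
      rw [map_mul, map_inv, hcl, mul_inv_cancel]
    rw [ClassGroup.mk_eq_one_iff] at h1
    obtain ⟨c, hc⟩ := (isPrincipal_iff _).1 h1
    have hc0 : c ≠ 0 := by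
      rintro rfl
      rw [spanSingleton_zero] at hc
      exact (Units.ne_zero _) hc
    refine ⟨Units.mk0 c hc0, ?_⟩
    rw [Units.val_mk0, ← hc]
    simp [rootIdeal_ne_zero (R := R) n z.1]
  obtain ⟨c, hc⟩ := hpr
  have hordc : ∀ v : HeightOneSpectrum R, ord R v c = ord R v x / n - ord R v z.1 / n := by
    intro v
    have h1 := congrArg (count K v) hc
    rw [count_rootIdeal, count_mul K v (span_ne_zero c) (rootIdeal_ne_zero n z.1),
      count_rootIdeal] at h1
    unfold ord at h1 ⊢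
    omega
  obtain ⟨u, hu⟩ := exists_unit_of_ord_eq_zero (R := R) (x / (z.1 * c ^ n)) (by
    intro v
    rw [ord_div, ord_mul, ord_pow, hordc]
    have h1 := hres v
    have h2 := Int.mul_ediv_add_emod (ord R v x) n
    have h3 := Int.mul_ediv_add_emod (ord R v z.1) n
    linarith [mul_sub (n : ℤ) (ord R v x / n) (ord R v z.1 / n)])
  obtain ⟨t, ht, w, hw⟩ := hTU' u
  refine ⟨z.1 * Units.map (algebraMap R K).toMonoidHom t,
    Set.mem_image2_of_mem hzT ⟨t, ht, rfl⟩, c * Units.map (algebraMap R K).toMonoidHom w, ?_⟩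
  have h5 : x = (x / (z.1 * c ^ n)) * (z.1 * c ^ n) := by rw [div_mul_cancel]
  rw [h5, ← hu, hw, map_mul, map_pow, mul_pow]
  rw [mul_mul_mul_comm, ← mul_assoc, ← mul_assoc]
  ac_rfl
end general

section numberfield

open NumberField

theorem exists_finite_units_mod_pow {G : Type*} [CommGroup G] [Group.FG G] (n : ℕ) (hn : 0 < n) :
    ∃ T : Set G, T.Finite ∧ ∀ u : G, ∃ t ∈ T, ∃ w : G, u = t * w ^ n := by
  have hfin : Finite (G ⧸ (powMonoidHom n : G →* G).range) := by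
    apply CommGroup.finite_of_fg_isMulTorsion
    intro q
    obtain ⟨g, rfl⟩ := QuotientGroup.mk_surjective q
    rw [isOfFinOrder_iff_pow_eq_one]
    refine ⟨n, hn, ?_⟩
    rw [← QuotientGroup.mk_pow, QuotientGroup.eq_one_iff]
    exact ⟨g, rfl⟩
  refine ⟨Set.range (fun q : G ⧸ (powMonoidHom n : G →* G).range => q.out), Set.finite_range _, ?_⟩
  intro u
  refine ⟨_, ⟨(u : G ⧸ (powMonoidHom n : G →* G).range), rfl⟩, ?_⟩
  obtain ⟨⟨_, ⟨w, rfl⟩⟩, hw⟩ := QuotientGroup.mk_out_eq_mul (powMonoidHom n : G →* G).range u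
  refine ⟨w⁻¹, ?_⟩
  simp only [] at hw ⊢
  rw [hw]
  simp

/-- **Finiteness of the Selmer group `K(S,n)`**, in terms of representatives. -/
theorem numberField_selmer_finite (K : Type*) [Field K] [NumberField K] (n : ℕ) (hn : 0 < n)
    (S : Set (HeightOneSpectrum (𝓞 K))) (hS : S.Finite) :
    ∃ T : Set Kˣ, T.Finite ∧ ∀ x : Kˣ, (∀ v, v ∉ S → (n : ℤ) ∣ ord (𝓞 K) v x) →
      ∃ t ∈ T, ∃ y : Kˣ, x = t * y ^ n := by
  have : Group.FG (𝓞 K)ˣ := Group.fg_iff_monoid_fg.2 inferInstance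
  exact selmer_finite n hn (exists_finite_units_mod_pow n hn) S hS

/-- Two primes in the same ideal class differ by a principal ideal. -/
theorem exists_ord_of_class_eq {R : Type*} [CommRing R] [IsDedekindDomain R] (K : Type*) [Field K]
    [Algebra R K] [IsFractionRing R K] (w w0 : HeightOneSpectrum R)
    (h : ClassGroup.mk K (Units.mk0 (w.asIdeal : FractionalIdeal R⁰ K)
        (coeIdeal_ne_zero.mpr w.ne_bot)) =
      ClassGroup.mk K (Units.mk0 (w0.asIdeal : FractionalIdeal R⁰ K)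
        (coeIdeal_ne_zero.mpr w0.ne_bot))) :
    ∃ x : Kˣ, ∀ v : HeightOneSpectrum R, ord R v x =
      count K v (w.asIdeal : FractionalIdeal R⁰ K) -
        count K v (w0.asIdeal : FractionalIdeal R⁰ K) := by
  have h1 : ClassGroup.mk K (Units.mk0 (w.asIdeal : FractionalIdeal R⁰ K)
        (coeIdeal_ne_zero.mpr w.ne_bot) *
      (Units.mk0 (w0.asIdeal : FractionalIdeal R⁰ K) (coeIdeal_ne_zero.mpr w0.ne_bot))⁻¹) = 1 := by
    rw [map_mul, map_inv, h, mul_inv_cancel]
  rw [ClassGroup.mk_eq_one_iff] at h1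
  obtain ⟨c, hc⟩ := (isPrincipal_iff _).1 h1
  have hc0 : c ≠ 0 := by
    rintro rfl
    rw [spanSingleton_zero] at hc
    exact (Units.ne_zero _) hc
  refine ⟨Units.mk0 c hc0, fun v => ?_⟩
  unfold ord
  rw [Units.val_mk0, ← hc, Units.val_mul, Units.val_inv_eq_inv_val, Units.val_mk0, Units.val_mk0,
    count_mul K v (coeIdeal_ne_zero.mpr w.ne_bot) (inv_ne_zero (coeIdeal_ne_zero.mpr w0.ne_bot)),
    count_inv]
  ring

/-- **The hitting lemma.**  `Φ` is an injective "homomorphism" on classes modulo `l`-th powers from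
`K₂` to `K₁`, and away from a finite set `S₁` of primes of `K₁` the order of `Φ x` at `v` is
`c v * ord (φ v) x` modulo `l`.  Then all but finitely many primes `w` of `K₂` are hit by a prime
`v ∉ S₁` with `φ v = w` and `c v ≠ 0`. -/
theorem hitting (K₁ K₂ : Type*) [Field K₁] [NumberField K₁] [Field K₂] [NumberField K₂]
    (l : ℕ) (hl : 1 < l) (Φ : K₂ˣ → K₁ˣ)
    (hΦ : ∀ x y : K₂ˣ, (∃ z : K₁ˣ, Φ x = Φ y * z ^ l) → ∃ z : K₂ˣ, x = y * z ^ l)
    (S₁ : Set (HeightOneSpectrum (𝓞 K₁))) (hS₁ : S₁.Finite)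
    (φ : HeightOneSpectrum (𝓞 K₁) → HeightOneSpectrum (𝓞 K₂))
    (c : HeightOneSpectrum (𝓞 K₁) → ZMod l)
    (hord : ∀ v, v ∉ S₁ → ∀ x : K₂ˣ, ((ord (𝓞 K₁) v (Φ x) : ℤ) : ZMod l) =
      c v * ((ord (𝓞 K₂) (φ v) x : ℤ) : ZMod l)) :
    {w : HeightOneSpectrum (𝓞 K₂) | ∀ v, v ∉ S₁ → φ v = w → c v = 0}.Finite := by
  classical
  set B := {w : HeightOneSpectrum (𝓞 K₂) | ∀ v, v ∉ S₁ → φ v = w → c v = 0} with hB
  by_contra hinf
  have hinf : B.Infinite := hinf
  have : Infinite B := hinf.to_subtype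
  -- ideal class of a prime
  let cl : HeightOneSpectrum (𝓞 K₂) → ClassGroup (𝓞 K₂) := fun w =>
    ClassGroup.mk K₂ (Units.mk0 (w.asIdeal : FractionalIdeal (𝓞 K₂)⁰ K₂)
        (coeIdeal_ne_zero.mpr w.ne_bot))
  obtain ⟨C, hC⟩ := Finite.exists_infinite_fiber (fun w : B => cl w)
  have hCinf : Set.Infinite ((fun w : B => cl w) ⁻¹' {C}) := Set.infinite_coe_iff.1 hC
  obtain ⟨w0, hw0⟩ := hCinf.nonempty
  -- element attached to a prime of the class
  have hx : ∀ w : ((fun w : B => cl w) ⁻¹' {C} : Set B), ∃ x : K₂ˣ,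
      ∀ v : HeightOneSpectrum (𝓞 K₂), ord (𝓞 K₂) v x =
      count K₂ v ((w : B).1.asIdeal : FractionalIdeal (𝓞 K₂)⁰ K₂) -
        count K₂ v (w0.1.asIdeal : FractionalIdeal (𝓞 K₂)⁰ K₂) := by
    intro w
    apply exists_ord_of_class_eq
    have h1 : cl (w : B).1 = C := w.2
    have h2 : cl w0.1 = C := hw0
    exact h1.trans h2.symm
  choose X hX using hx
  -- the images lie in a finite set of classes
  obtain ⟨T, hT, hT'⟩ := numberField_selmer_finite K₁ l (by omega) S₁ hS₁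
  have hsel : ∀ w : ((fun w : B => cl w) ⁻¹' {C} : Set B), ∃ t ∈ T, ∃ y : K₁ˣ,
      Φ (X w) = t * y ^ l := by
    intro w
    apply hT'
    intro v hv
    rw [← ZMod.intCast_zmod_eq_zero_iff_dvd, hord v hv]
    by_cases h1 : φ v = (w : B).1
    · rw [(w : B).2 v hv h1, zero_mul]
    · by_cases h2 : φ v = w0.1
      · rw [w0.2 v hv h2, zero_mul]
      · rw [hX, count_maximal_coprime K₂ _ (Ne.symm h1), count_maximal_coprime K₂ _ (Ne.symm h2)]
        simp
  choose t ht y hy using hsel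
  have : Finite T := hT
  have : Infinite ((fun w : B => cl w) ⁻¹' {C} : Set B) := hC
  obtain ⟨w1, w2, hne, heq⟩ := Finite.exists_ne_map_eq_of_infinite
    (fun w : ((fun w : B => cl w) ⁻¹' {C} : Set B) => (⟨t w, ht w⟩ : T))
  have heq' : t w1 = t w2 := congrArg Subtype.val heq
  obtain ⟨z, hz⟩ := hΦ (X w1) (X w2) ⟨y w1 * (y w2)⁻¹, by
    rw [hy w1, hy w2, heq', mul_pow, inv_pow, mul_assoc, mul_comm ((y w1)^l), ← mul_assoc (y w2 ^ l),
      mul_inv_cancel, one_mul]⟩
  have hne' : (w1 : B).1 ≠ (w2 : B).1 := fun h => hne (Subtype.ext (Subtype.ext h))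
  have h3 := congrArg (ord (𝓞 K₂) (w1 : B).1) hz
  rw [ord_mul, ord_pow, hX, hX, count_self, count_maximal_coprime K₂ _ hne'.symm] at h3
  have h4 : (l : ℤ) * ord (𝓞 K₂) (w1 : B).1 z = 1 := by linarith
  have h5 : (l : ℤ) ∣ 1 := ⟨_, h4.symm⟩
  have h6 := Int.le_of_dvd one_pos h5
  omega

/-- finiteness of fibres in the hitting lemma -/
theorem fibre_finite (K₁ K₂ : Type*) [Field K₁] [NumberField K₁] [Field K₂] [NumberField K₂]
    (l : ℕ) (hl : l.Prime) (Φ : K₂ˣ → K₁ˣ)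
    (S₁ : Set (HeightOneSpectrum (𝓞 K₁)))
    (φ : HeightOneSpectrum (𝓞 K₁) → HeightOneSpectrum (𝓞 K₂))
    (c : HeightOneSpectrum (𝓞 K₁) → ZMod l)
    (hord : ∀ v, v ∉ S₁ → ∀ x : K₂ˣ, ((ord (𝓞 K₁) v (Φ x) : ℤ) : ZMod l) =
      c v * ((ord (𝓞 K₂) (φ v) x : ℤ) : ZMod l))
    (w : HeightOneSpectrum (𝓞 K₂)) :
    {v | v ∉ S₁ ∧ φ v = w ∧ c v ≠ 0}.Finite := by
  have : Fact l.Prime := ⟨hl⟩
  -- an element of order one at `w`
  obtain ⟨π, hπ⟩ : ∃ π : K₂ˣ, ord (𝓞 K₂) w π = 1 := exists_ord_eq_one w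
  have h1 := ord_finite (R := 𝓞 K₁) (Φ π)
  refine Set.Finite.subset h1 ?_
  rintro v ⟨hv, hw, hc⟩ h0
  have h2 := hord v hv π
  rw [hw, hπ] at h2
  have h3 : ord (𝓞 K₁) v (Φ π) = 0 := h0
  rw [h3] at h2
  apply hc
  simpa using h2.symm

end numberfield

end Crest.Agent.R018.Selmerx380
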