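import Mathlib
import Crest.Agent.R018.Selmer_380
import Crest.Agent.R018.Kummer_380

/-!
Row 18: inertia acts on `l`-th roots through the tame character; the order of a pulled back Kummer
class at `v`.
-/

set_option autoImplicit false

namespace Crest.Agent.R018.Ramx380

open IsDedekindDomain NumberField Selmerx380

section valuation

variable {E : Type*} [Field E]

/-- The inertia condition for a ring automorphism `σ` at a valuation ring `O`. -/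
def InInertia (O : ValuationSubring E) (σ : E → E) : Prop :=
  ∀ a : E, O.valuation a ≤ 1 → O.valuation (σ a - a) < 1

theorem root_eq_one_of_close (O : ValuationSubring E) (l : ℕ) (hlp : l.Prime)
    (hl : O.valuation (l : E) = 1) (u : E) (hu : u ^ l = 1) (h : O.valuation (u - 1) < 1) :
    u = 1 := by
  by_contra hne
  have hprim : IsPrimitiveRoot u l := by
    rw [← orderOf_eq_prime hu hne (hp := ⟨hlp⟩)]
    exact IsPrimitiveRoot.orderOf u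
  have hgeom : ∑ i ∈ Finset.range l, u ^ i = 0 := hprim.geom_sum_eq_zero hlp.one_lt
  -- `l = - Σ (u^i - 1)`
  have hu1 : O.valuation u = 1 := by
    have h1 : O.valuation u ^ l = 1 := by rw [← map_pow, hu, map_one]
    exact (pow_eq_one_iff_left hlp.ne_zero).1 h1
  have h2 : ∀ i : ℕ, O.valuation (u ^ i - 1) < 1 := by
    intro i
    induction i with
    | zero => simp
    | succ i ih =>
      have h3 : u ^ (i + 1) - 1 = u ^ i * (u - 1) + (u ^ i - 1) := by ring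
      rw [h3]
      refine lt_of_le_of_lt (O.valuation.map_add _ _) (max_lt ?_ ih)
      rw [map_mul, map_pow, hu1, one_pow, one_mul]
      exact h
  have h4 : (l : E) = - ∑ i ∈ Finset.range l, (u ^ i - 1) := by
    rw [Finset.sum_sub_distrib, hgeom]
    simp
  have h5 : O.valuation (l : E) < 1 := by
    rw [h4, Valuation.map_neg]
    exact O.valuation.map_sum_lt one_ne_zero (fun i _ => h2 i)
  rw [hl] at h5
  exact lt_irrefl _ h5

/-- Inertia fixes every `P`-unit `u` with `σ(u)^l = u^l`, `l` prime to `P`. -/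
theorem inertia_fixes_unit (O : ValuationSubring E) (σ : E ≃+* E) (hσ : InInertia O σ)
    (l : ℕ) (hlp : l.Prime) (hl : O.valuation (l : E) = 1) (u : E) (hu : O.valuation u = 1)
    (h : σ u ^ l = u ^ l) : σ u = u := by
  have hu0 : u ≠ 0 := by
    rintro rfl
    rw [map_zero] at hu
    exact zero_ne_one hu
  have h1 : (σ u / u) ^ l = 1 := by
    rw [div_pow, h, div_self (pow_ne_zero _ hu0)]
  have h2 : O.valuation (σ u / u - 1) < 1 := by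
    have h3 : σ u / u - 1 = (σ u - u) / u := by field_simp
    rw [h3, map_div₀, hu, div_one]
    exact hσ u hu.le
  have h4 := root_eq_one_of_close O l hlp hl _ h1 h2
  rwa [div_eq_one_iff_eq hu0] at h4

/-- **Tame formula.** `σ` in the inertia group; `π^l`, `z^l` fixed by `σ`, and `z^l = π^{lm} ε` with
`ε` a unit: then `σ z * π^m = (σ π)^m * z` (i.e. `σ z / z = (σ π / π)^m`). -/
theorem tame_formula (O : ValuationSubring E) (σ : E ≃+* E) (hσ : InInertia O σ)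
    (l : ℕ) (hlp : l.Prime) (hl : O.valuation (l : E) = 1) (π z : E) (hπ0 : π ≠ 0)
    (hπ : σ π ^ l = π ^ l) (hz : σ z ^ l = z ^ l) (m : ℤ)
    (hval : O.valuation (z ^ l / (π ^ l) ^ m) = 1) :
    σ z = (σ π / π) ^ m * z := by
  have hu : O.valuation (z / π ^ m) = 1 := by
    have h1 : O.valuation (z / π ^ m) ^ l = 1 := by
      rw [← map_pow, div_pow, ← zpow_natCast (π ^ m), ← zpow_mul, mul_comm m, zpow_mul,
        zpow_natCast, hval]
    exact (pow_eq_one_iff_left hlp.ne_zero).1 h1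
  have h2 := inertia_fixes_unit O σ hσ l hlp hl (z / π ^ m) hu (by
    rw [map_div₀, map_zpow₀, div_pow, div_pow, hz, ← zpow_natCast (σ π ^ m), ← zpow_mul,
      mul_comm m, zpow_mul, zpow_natCast, hπ, ← zpow_natCast (π ^ m), ← zpow_mul (π), mul_comm m,
      zpow_mul π, zpow_natCast])
  rw [map_div₀, map_zpow₀] at h2
  have h3 : σ π ≠ 0 := by
    intro h; exact hπ0 ((map_eq_zero σ).1 h)
  have h4 : π ^ m ≠ 0 := zpow_ne_zero _ hπ0
  have h5 : σ π ^ m ≠ 0 := zpow_ne_zero _ h3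
  rw [div_eq_div_iff h5 h4] at h2
  rw [div_zpow, div_mul_eq_mul_div, eq_div_iff h4, h2, mul_comm]

end valuation

section kummer

theorem cast_eq_of_zpow_eq {E : Type*} [Field E] {l : ℕ} {ζ : E} (hE : IsPrimitiveRoot ζ l)
    (h0 : ζ ≠ 0) (i j : ℤ) (h : ζ ^ i = ζ ^ j) : (i : ZMod l) = (j : ZMod l) := by
  have h1 : ζ ^ (i - j) = 1 := by
    rw [zpow_sub₀ h0, h, div_self (zpow_ne_zero _ h0)]
  have h2 := (hE.zpow_eq_one_iff_dvd _).1 h1
  have h3 : ((i - j : ℤ) : ZMod l) = 0 := (ZMod.intCast_zmod_eq_zero_iff_dvd _ _).2 h2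
  rw [Int.cast_sub, sub_eq_zero] at h3
  exact h3

/-- `O` lies over the prime `v` of `K`, in the weak form used here. -/
def Over {K E : Type*} [Field K] [NumberField K] [Field E] [Algebra K E]
    (O : ValuationSubring E) (v : HeightOneSpectrum (𝓞 K)) : Prop :=
  ∀ a : Kˣ, ord (𝓞 K) v a = 0 → O.valuation (algebraMap K E (a : K)) = 1

/-- the action of inertia on an `l`-th root `z` of `a ∈ K`, in terms of its action on an `l`-th
root of a uniformizer -/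
theorem inertia_root {K E : Type*} [Field K] [NumberField K] [Field E] [Algebra K E]
    (O : ValuationSubring E) (v : HeightOneSpectrum (𝓞 K)) (hO : Over O v)
    (l : ℕ) (hlp : l.Prime) (hl : O.valuation (l : E) = 1)
    (τ : E ≃ₐ[K] E) (hτ : InInertia O τ) (ζ : K) (hζ : IsPrimitiveRoot ζ l)
    (π z : E) (ϖ a : Kˣ) (hπ : π ^ l = algebraMap K E (ϖ : K)) (hz : z ^ l = algebraMap K E (a : K))
    (hϖ : ord (𝓞 K) v ϖ = 1) (j : ℤ) (hj : τ π = algebraMap K E ζ ^ j * π) :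
    τ z = algebraMap K E ζ ^ (j * ord (𝓞 K) v a) * z := by
  have hπ0 : π ≠ 0 := by
    rintro rfl
    rw [zero_pow hlp.ne_zero] at hπ
    exact ϖ.ne_zero ((map_eq_zero _).1 hπ.symm)
  have h1 := tame_formula O (τ : E ≃+* E) hτ l hlp hl π z hπ0
    (by change τ π ^ l = π ^ l; rw [← map_pow, hπ, AlgEquiv.commutes])
    (by change τ z ^ l = z ^ l; rw [← map_pow, hz, AlgEquiv.commutes]) (ord (𝓞 K) v a) (by
      have h2 := hO (a / ϖ ^ (ord (𝓞 K) v a)) (by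
        have h3 : ∀ n : ℤ, ord (𝓞 K) v (ϖ ^ n) = n := by
          intro n
          obtain ⟨m, rfl | rfl⟩ := n.eq_nat_or_neg
          · rw [zpow_natCast, ord_pow, hϖ, mul_one]
          · rw [zpow_neg, zpow_natCast, ord_inv, ord_pow, hϖ, mul_one]
        rw [ord_div, h3, sub_self])
      rw [hπ, hz]
      rw [Units.val_div_eq_div_val, Units.val_zpow_eq_zpow_val, map_div₀, map_zpow₀] at h2
      exact h2)
  change τ z = (τ π / π) ^ (ord (𝓞 K) v a) * z at h1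
  rw [h1, hj, mul_div_cancel_right₀ _ hπ0, zpow_mul]

/-- **Order of the pulled back class at `v`.** -/
theorem ord_pullback {K₁ E₁ K₂ E₂ : Type*} [Field K₁] [NumberField K₁] [Field E₁] [Algebra K₁ E₁]
    [Field K₂] [NumberField K₂] [Field E₂] [Algebra K₂ E₂]
    (l : ℕ) (hlp : l.Prime) (ζ₁ : K₁) (hζ₁ : IsPrimitiveRoot ζ₁ l) (ζ₂ : K₂)
    (hζ₂ : IsPrimitiveRoot ζ₂ l)
    (O₁ : ValuationSubring E₁) (v : HeightOneSpectrum (𝓞 K₁)) (hO₁ : Over O₁ v)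
    (hl₁ : O₁.valuation (l : E₁) = 1)
    (O₂ : ValuationSubring E₂) (w : HeightOneSpectrum (𝓞 K₂)) (hO₂ : Over O₂ w)
    (hl₂ : O₂.valuation (l : E₂) = 1)
    (τ : E₁ ≃ₐ[K₁] E₁) (hτ : InInertia O₁ τ) (τ' : E₂ ≃ₐ[K₂] E₂) (hτ' : InInertia O₂ τ')
    (π₁ : E₁) (ϖ₁ : K₁ˣ) (hπ₁ : π₁ ^ l = algebraMap K₁ E₁ (ϖ₁ : K₁)) (hϖ₁ : ord (𝓞 K₁) v ϖ₁ = 1)
    (j : ℤ) (hj : τ π₁ = algebraMap K₁ E₁ ζ₁ ^ j * π₁)
    (π₂ : E₂) (ϖ₂ : K₂ˣ) (hπ₂ : π₂ ^ l = algebraMap K₂ E₂ (ϖ₂ : K₂)) (hϖ₂ : ord (𝓞 K₂) w ϖ₂ = 1)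
    (c : ℤ) (hc : τ' π₂ = algebraMap K₂ E₂ ζ₂ ^ c * π₂)
    (x : K₂ˣ) (y : E₂) (hy : y ^ l = algebraMap K₂ E₂ (x : K₂))
    (a : K₁ˣ) (z : E₁) (hz : z ^ l = algebraMap K₁ E₁ (a : K₁))
    (hpb : ∃ i : ℕ, i < l ∧ τ' y = algebraMap K₂ E₂ ζ₂ ^ i * y ∧ τ z = algebraMap K₁ E₁ ζ₁ ^ i * z) :
    ((j * ord (𝓞 K₁) v a : ℤ) : ZMod l) = ((c * ord (𝓞 K₂) w x : ℤ) : ZMod l) := by
  have hE₁ : IsPrimitiveRoot (algebraMap K₁ E₁ ζ₁) l :=
    hζ₁.map_of_injective (algebraMap K₁ E₁).injective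
  have hE₂ : IsPrimitiveRoot (algebraMap K₂ E₂ ζ₂) l :=
    hζ₂.map_of_injective (algebraMap K₂ E₂).injective
  have hy0 : y ≠ 0 := by
    rintro rfl
    rw [zero_pow hlp.ne_zero] at hy
    exact x.ne_zero ((map_eq_zero _).1 hy.symm)
  have hz0 : z ≠ 0 := by
    rintro rfl
    rw [zero_pow hlp.ne_zero] at hz
    exact a.ne_zero ((map_eq_zero _).1 hz.symm)
  obtain ⟨i, -, hi₂, hi₁⟩ := hpb
  have h1 := inertia_root O₁ v hO₁ l hlp hl₁ τ hτ ζ₁ hζ₁ π₁ z ϖ₁ a hπ₁ hz hϖ₁ j hj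
  have h2 := inertia_root O₂ w hO₂ l hlp hl₂ τ' hτ' ζ₂ hζ₂ π₂ y ϖ₂ x hπ₂ hy hϖ₂ c hc
  rw [hi₁, ← zpow_natCast] at h1
  rw [hi₂, ← zpow_natCast] at h2
  have h3 := cast_eq_of_zpow_eq hE₁ (hE₁.ne_zero hlp.ne_zero) _ _ (mul_right_cancel₀ hz0 h1)
  have h4 := cast_eq_of_zpow_eq hE₂ (hE₂.ne_zero hlp.ne_zero) _ _ (mul_right_cancel₀ hy0 h2)
  rw [← h3, ← h4]

/-- If some `τ ∈ I_P` moves the `l`-th root of a uniformizer and `α(τ)` fixes `y`, then the pulled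
back class has order divisible by `l` at `v`. -/
theorem ord_pullback_zero {K₁ E₁ : Type*} [Field K₁] [NumberField K₁] [Field E₁] [Algebra K₁ E₁]
    (l : ℕ) (hlp : l.Prime) (ζ₁ : K₁) (hζ₁ : IsPrimitiveRoot ζ₁ l)
    (O₁ : ValuationSubring E₁) (v : HeightOneSpectrum (𝓞 K₁)) (hO₁ : Over O₁ v)
    (hl₁ : O₁.valuation (l : E₁) = 1)
    (τ : E₁ ≃ₐ[K₁] E₁) (hτ : InInertia O₁ τ)
    (π₁ : E₁) (ϖ₁ : K₁ˣ) (hπ₁ : π₁ ^ l = algebraMap K₁ E₁ (ϖ₁ : K₁)) (hϖ₁ : ord (𝓞 K₁) v ϖ₁ = 1)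
    (hj : τ π₁ ≠ π₁)
    (a : K₁ˣ) (z : E₁) (hz : z ^ l = algebraMap K₁ E₁ (a : K₁)) (hfix : τ z = z) :
    (l : ℤ) ∣ ord (𝓞 K₁) v a := by
  have hE₁ : IsPrimitiveRoot (algebraMap K₁ E₁ ζ₁) l :=
    hζ₁.map_of_injective (algebraMap K₁ E₁).injective
  have hE0 := hE₁.ne_zero hlp.ne_zero
  have : NeZero l := ⟨hlp.ne_zero⟩
  have hπ0 : π₁ ≠ 0 := by
    rintro rfl
    rw [zero_pow hlp.ne_zero] at hπ₁
    exact ϖ₁.ne_zero ((map_eq_zero _).1 hπ₁.symm)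
  have hz0 : z ≠ 0 := by
    rintro rfl
    rw [zero_pow hlp.ne_zero] at hz
    exact a.ne_zero ((map_eq_zero _).1 hz.symm)
  obtain ⟨j, -, hj'⟩ := Kummerx380.exists_pow_of_root (E := E₁) l ζ₁ hζ₁ (τ π₁ / π₁) (by
    rw [div_pow, ← map_pow, hπ₁, AlgEquiv.commutes]
    exact div_self (by rw [← hπ₁]; exact pow_ne_zero _ hπ0))
  have hj'' : τ π₁ = algebraMap K₁ E₁ ζ₁ ^ (j : ℤ) * π₁ := by
    rw [zpow_natCast, ← hj', div_mul_cancel₀ _ hπ0]
  have h1 := inertia_root O₁ v hO₁ l hlp hl₁ τ hτ ζ₁ hζ₁ π₁ z ϖ₁ a hπ₁ hz hϖ₁ j hj''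
  rw [hfix] at h1
  have h2 : algebraMap K₁ E₁ ζ₁ ^ ((j : ℤ) * ord (𝓞 K₁) v a) = 1 := by
    have h3 : algebraMap K₁ E₁ ζ₁ ^ ((j : ℤ) * ord (𝓞 K₁) v a) * z = 1 * z := by
      rw [← h1, one_mul]
    exact mul_right_cancel₀ hz0 h3
  have h4 := (hE₁.zpow_eq_one_iff_dvd _).1 h2
  have h5 : ¬ (l : ℤ) ∣ (j : ℤ) := by
    intro hdvd
    apply hj
    obtain ⟨k, hk⟩ := hdvd
    rw [hj'', hk, zpow_mul, zpow_natCast, hE₁.pow_eq_one, one_zpow, one_mul]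
  exact (((Nat.prime_iff_prime_int.1 hlp).dvd_mul).1 h4).resolve_left h5

end kummer

end Crest.Agent.R018.Ramx380
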