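import Mathlib
import Crest.Agent.R018.Selmer_380
import Crest.Agent.R018.Kummer_380
import Crest.Agent.R018.Ram_380
import Crest.Agent.R018.Places_484

/-!
Row 18: **the Kummer hitting theorem**.  `α : Gal(E₁/K₁) → Gal(E₂/K₂)` continuous and onto,
`μ_l` in both base fields; local correspondence at every `v ∤ l` as hypothesis.  Then all but
finitely many primes `w` of `K₂` are hit by a prime `v ∤ l` of `K₁` with `α(I_v)` acting
nontrivially on some `l`-th root.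
-/

set_option autoImplicit false

namespace Crest.Agent.R018.Hitx380

open IsDedekindDomain NumberField Selmerx380 Ramx380 Placesx484

theorem over_of_res {K E : Type*} [Field K] [NumberField K] [Field E] [CharZero E]
    [Algebra.IsAlgebraic ℚ E] [Algebra K E] (P : Place E) (v : HeightOneSpectrum (𝓞 K))
    (h : (P.res K).ideal = v.asIdeal) : Over P.val v := by
  intro a ha
  have hv : (⟨(P.res K).ideal, (P.res K).isPrime, (P.res K).ne_bot⟩ : HeightOneSpectrum (𝓞 K)) = v :=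
    HeightOneSpectrum.ext h
  have key : ∀ b : Kˣ, ord (𝓞 K) v b = 0 → P.v (algebraMap K E (b : K)) ≤ 1 := by
    intro b hb
    rw [← Place.v_res_le_one_iff, Place.numberField_val_iff, hv, valuation_eq_exp, hb, neg_zero,
      WithZero.exp_zero]
  have h1 := key a ha
  have h2 := key a⁻¹ (by rw [ord_inv, ha, neg_zero])
  have h3 : P.v (algebraMap K E (a : K)) * P.v (algebraMap K E ((a⁻¹ : Kˣ) : K)) = 1 := by
    rw [← map_mul, ← map_mul, Units.mul_inv, map_one, map_one]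
  apply le_antisymm h1
  calc (1 : P.val.ValueGroup) = _ := h3.symm
    _ ≤ P.v (algebraMap K E (a : K)) * 1 := by gcongr
    _ = _ := mul_one _

/-- `v` hits `w`: some `τ` in the inertia group of a place above `v` is mapped into the inertia
group of a place above `w` and moves an `l`-th root. -/
def HitAt {K₁ E₁ K₂ E₂ : Type*} [Field K₁] [NumberField K₁] [Field E₁] [CharZero E₁]
    [Algebra.IsAlgebraic ℚ E₁] [Algebra K₁ E₁]
    [Field K₂] [NumberField K₂] [Field E₂] [CharZero E₂] [Algebra.IsAlgebraic ℚ E₂] [Algebra K₂ E₂]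
    (α : Gal(E₁/K₁) →* Gal(E₂/K₂)) (l : ℕ) (v : HeightOneSpectrum (𝓞 K₁))
    (w : HeightOneSpectrum (𝓞 K₂)) : Prop :=
  ∃ (P : Place E₁) (Q : Place E₂) (τ : Gal(E₁/K₁)), (P.res K₁).ideal = v.asIdeal ∧
    (Q.res K₂).ideal = w.asIdeal ∧ InInertia P.val τ ∧ InInertia Q.val (α τ) ∧
    ∃ y : E₂, y ^ l ∈ Set.range (algebraMap K₂ E₂) ∧ α τ y ≠ y

/-- The local hypothesis at `v`. -/
def LocAt {K₁ E₁ K₂ E₂ : Type*} [Field K₁] [NumberField K₁] [Field E₁] [CharZero E₁]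
    [Algebra.IsAlgebraic ℚ E₁] [Algebra K₁ E₁]
    [Field K₂] [NumberField K₂] [Field E₂] [CharZero E₂] [Algebra.IsAlgebraic ℚ E₂] [Algebra K₂ E₂]
    (α : Gal(E₁/K₁) →* Gal(E₂/K₂)) (l : ℕ) (v : HeightOneSpectrum (𝓞 K₁)) : Prop :=
  ∃ (P : Place E₁) (τ : Gal(E₁/K₁)), (P.res K₁).ideal = v.asIdeal ∧ InInertia P.val τ ∧
    (∃ (π : E₁) (ϖ : K₁ˣ), π ^ l = algebraMap K₁ E₁ (ϖ : K₁) ∧ ord (𝓞 K₁) v ϖ = 1 ∧ τ π ≠ π) ∧
    ((∀ y : E₂, y ^ l ∈ Set.range (algebraMap K₂ E₂) → α τ y = y) ∨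
      ∃ Q : Place E₂, (l : 𝓞 E₂) ∉ Q.ideal ∧ InInertia Q.val (α τ))

theorem valuation_natCast_eq_one {E : Type*} [Field E] [CharZero E] [Algebra.IsAlgebraic ℚ E]
    (P : Place E) (l : ℕ) (h : (l : 𝓞 E) ∉ P.ideal) : P.val.valuation (l : E) = 1 := by
  have h1 := P.v_int_le_one (l : 𝓞 E)
  have h2 := (P.v_int_lt_one_iff (l : 𝓞 E)).not.2 h
  rw [map_natCast] at h1 h2
  exact le_antisymm h1 (not_lt.1 h2)

/-- **The Kummer hitting theorem.** -/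
theorem hit {K₁ E₁ K₂ E₂ : Type*} [Field K₁] [NumberField K₁] [Field E₁] [CharZero E₁]
    [Algebra.IsAlgebraic ℚ E₁] [Algebra K₁ E₁] [IsGalois K₁ E₁]
    [Field K₂] [NumberField K₂] [Field E₂] [CharZero E₂] [Algebra.IsAlgebraic ℚ E₂] [Algebra K₂ E₂]
    [IsGalois K₂ E₂]
    (α : Gal(E₁/K₁) →* Gal(E₂/K₂)) (hα : Continuous α) (hs : Function.Surjective α)
    (l : ℕ) [Fact l.Prime] (ζ₁ : K₁) (hζ₁ : IsPrimitiveRoot ζ₁ l) (ζ₂ : K₂)
    (hζ₂ : IsPrimitiveRoot ζ₂ l)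
    (hroot : ∀ x : K₂, ∃ y : E₂, y ^ l = algebraMap K₂ E₂ x)
    (hloc : ∀ v : HeightOneSpectrum (𝓞 K₁), (l : 𝓞 K₁) ∉ v.asIdeal → LocAt α l v) :
    {w : HeightOneSpectrum (𝓞 K₂) | ¬ ∃ v : HeightOneSpectrum (𝓞 K₁), (l : 𝓞 K₁) ∉ v.asIdeal ∧
      HitAt α l v w}.Finite := by
  classical
  have hlp : l.Prime := Fact.out
  have hNe : NeZero l := ⟨hlp.ne_zero⟩
  have hE₁ : IsPrimitiveRoot (algebraMap K₁ E₁ ζ₁) l :=
    hζ₁.map_of_injective (algebraMap K₁ E₁).injective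
  have hE₂ : IsPrimitiveRoot (algebraMap K₂ E₂ ζ₂) l :=
    hζ₂.map_of_injective (algebraMap K₂ E₂).injective
  -- the primes above `l`
  set S₁ : Set (HeightOneSpectrum (𝓞 K₁)) := {v | (l : 𝓞 K₁) ∈ v.asIdeal} with hS₁
  have hS₁fin : S₁.Finite := by
    have hl0 : (l : K₁) ≠ 0 := by exact_mod_cast hlp.ne_zero
    have h1 := ord_finite (R := 𝓞 K₁) (Units.mk0 (l : K₁) hl0)
    refine Set.Finite.subset h1 ?_
    intro v hv h0
    have h2 := valuation_eq_exp v (Units.mk0 (l : K₁) hl0)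
    rw [h0, neg_zero, WithZero.exp_zero, Units.val_mk0] at h2
    have h3 := (v.valuation_lt_one_iff_mem (K := K₁) (l : 𝓞 K₁)).2 hv
    have h4 : (algebraMap (𝓞 K₁) K₁ (l : 𝓞 K₁)) = (l : K₁) := map_natCast _ _
    have h5 : v.valuation K₁ (l : K₁) < 1 := by rw [← h4]; exact h3
    rw [h2] at h5
    exact lt_irrefl _ h5
  -- Kummer data
  have hdata : ∀ x : K₂ˣ, ∃ (y : E₂) (z : E₁) (a : K₁ˣ), y ^ l = algebraMap K₂ E₂ (x : K₂) ∧
      z ≠ 0 ∧ y ≠ 0 ∧ z ^ l = algebraMap K₁ E₁ (a : K₁) ∧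
      (∀ g : Gal(E₁/K₁), ∃ i : ℕ, i < l ∧ α g y = algebraMap K₂ E₂ ζ₂ ^ i * y ∧
        g z = algebraMap K₁ E₁ ζ₁ ^ i * z) := by
    intro x
    obtain ⟨y, hy⟩ := hroot x
    have hy0 : y ≠ 0 := by
      rintro rfl
      rw [zero_pow hlp.ne_zero] at hy
      exact x.ne_zero ((map_eq_zero _).1 hy.symm)
    obtain ⟨z, hz0, ⟨a, ha⟩, hz⟩ := Kummerx380.exists_pullback α hα l ζ₁ hζ₁ ζ₂ hζ₂ y hy0
      ⟨x, hy.symm⟩
    have ha0 : a ≠ 0 := by
      rintro rfl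
      rw [map_zero] at ha
      exact hz0 ((pow_eq_zero_iff hlp.ne_zero).1 ha.symm)
    exact ⟨y, z, Units.mk0 a ha0, hy, hz0, hy0, by rw [Units.val_mk0, ha], hz⟩
  choose y z Φ hy hz0 hy0 hz hg using hdata
  have hw0 : ∀ w : HeightOneSpectrum (𝓞 K₂), True := fun _ => trivial
  by_cases hne : Nonempty (HeightOneSpectrum (𝓞 K₂))
  swap
  · rw [not_nonempty_iff] at hne
    exact Set.toFinite _
  obtain ⟨w0⟩ := hne
  have key : ∀ v : HeightOneSpectrum (𝓞 K₁), ∃ (w : HeightOneSpectrum (𝓞 K₂)) (c : ZMod l),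
      v ∉ S₁ → ((∀ x : K₂ˣ, ((ord (𝓞 K₁) v (Φ x) : ℤ) : ZMod l) =
        c * ((ord (𝓞 K₂) w x : ℤ) : ZMod l)) ∧ (c ≠ 0 → HitAt α l v w)) := by
    intro v
    by_cases hv : v ∈ S₁
    · exact ⟨w0, 0, fun h => absurd hv h⟩
    obtain ⟨P, τ, hPv, hτ, ⟨π₁, ϖ₁, hπ₁, hϖ₁, hmove⟩, hcase⟩ := hloc v hv
    have hlP : (l : 𝓞 E₁) ∉ P.ideal := by
      intro hmem
      apply hv
      change (l : 𝓞 K₁) ∈ v.asIdeal
      rw [← hPv, Place.mem_res, map_natCast]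
      exact hmem
    have hl₁ := valuation_natCast_eq_one P l hlP
    have hO₁ := over_of_res P v hPv
    have hπ0 : π₁ ≠ 0 := by
      rintro rfl
      rw [zero_pow hlp.ne_zero] at hπ₁
      exact ϖ₁.ne_zero ((map_eq_zero _).1 hπ₁.symm)
    rcases hcase with htriv | ⟨Q, hlQ, hτQ⟩
    · refine ⟨w0, 0, fun _ => ⟨fun x => ?_, fun h => absurd rfl h⟩⟩
      have h1 : τ (z x) = z x := by
        obtain ⟨i, hi, hiy, hiz⟩ := hg x τ
        rw [htriv (y x) ⟨x, (hy x).symm⟩] at hiy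
        have h2 : algebraMap K₂ E₂ ζ₂ ^ i = 1 := by
          have h3 : algebraMap K₂ E₂ ζ₂ ^ i * y x = 1 * y x := by rw [← hiy, one_mul]
          exact mul_right_cancel₀ (hy0 x) h3
        have h4 := (hE₂.pow_eq_one_iff_dvd _).1 h2
        have h5 : i = 0 := Nat.eq_zero_of_dvd_of_lt h4 hi
        rw [hiz, h5, pow_zero, one_mul]
      have h2 := ord_pullback_zero l hlp ζ₁ hζ₁ P.val v hO₁ hl₁ τ hτ π₁ ϖ₁ hπ₁ hϖ₁ hmove (Φ x)
        (z x) (hz x) h1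
      rw [(ZMod.intCast_zmod_eq_zero_iff_dvd _ _).2 h2, zero_mul]
    · let w : HeightOneSpectrum (𝓞 K₂) :=
        ⟨(Q.res K₂).ideal, (Q.res K₂).isPrime, (Q.res K₂).ne_bot⟩
      have hQw : (Q.res K₂).ideal = w.asIdeal := rfl
      have hl₂ := valuation_natCast_eq_one Q l hlQ
      have hO₂ := over_of_res Q w hQw
      obtain ⟨ϖ₂, hϖ₂⟩ := exists_ord_eq_one (K := K₂) w
      obtain ⟨π₂, hπ₂⟩ := hroot ϖ₂
      have hπ20 : π₂ ≠ 0 := by
        rintro rfl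
        rw [zero_pow hlp.ne_zero] at hπ₂
        exact ϖ₂.ne_zero ((map_eq_zero _).1 hπ₂.symm)
      obtain ⟨j, -, hj⟩ := Kummerx380.exists_pow_of_root (E := E₁) l ζ₁ hζ₁ (τ π₁ / π₁) (by
        rw [div_pow, ← map_pow, hπ₁, AlgEquiv.commutes]
        exact div_self (by rw [← hπ₁]; exact pow_ne_zero _ hπ0))
      obtain ⟨c, -, hc⟩ := Kummerx380.exists_pow_of_root (E := E₂) l ζ₂ hζ₂ (α τ π₂ / π₂) (by
        rw [div_pow, ← map_pow, hπ₂, AlgEquiv.commutes]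
        exact div_self (by rw [← hπ₂]; exact pow_ne_zero _ hπ20))
      have hj' : τ π₁ = algebraMap K₁ E₁ ζ₁ ^ (j : ℤ) * π₁ := by
        rw [zpow_natCast, ← hj, div_mul_cancel₀ _ hπ0]
      have hc' : α τ π₂ = algebraMap K₂ E₂ ζ₂ ^ (c : ℤ) * π₂ := by
        rw [zpow_natCast, ← hc, div_mul_cancel₀ _ hπ20]
      have hj0 : ((j : ℤ) : ZMod l) ≠ 0 := by
        intro h0
        obtain ⟨k, hk⟩ := (ZMod.intCast_zmod_eq_zero_iff_dvd _ _).1 h0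
        apply hmove
        rw [hj', hk, zpow_mul, zpow_natCast, hE₁.pow_eq_one, one_zpow, one_mul]
      refine ⟨w, ((c : ℤ) : ZMod l) / ((j : ℤ) : ZMod l), fun _ => ⟨fun x => ?_, fun hc0 => ?_⟩⟩
      · have h1 := ord_pullback l hlp ζ₁ hζ₁ ζ₂ hζ₂ P.val v hO₁ hl₁ Q.val w hO₂ hl₂ τ hτ (α τ) hτQ
          π₁ ϖ₁ hπ₁ hϖ₁ j hj' π₂ ϖ₂ hπ₂ hϖ₂ c hc' x (y x) (hy x) (Φ x) (z x) (hz x) (hg x τ)
        rw [Int.cast_mul, Int.cast_mul] at h1
        rw [div_mul_eq_mul_div, eq_div_iff hj0, mul_comm, h1]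
      · refine ⟨P, Q, τ, hPv, hQw, hτ, hτQ, π₂, ⟨ϖ₂, hπ₂.symm⟩, fun hfix => hc0 ?_⟩
        have h1 : algebraMap K₂ E₂ ζ₂ ^ (c : ℤ) = 1 := by
          have h3 : algebraMap K₂ E₂ ζ₂ ^ (c : ℤ) * π₂ = 1 * π₂ := by
            rw [← hc', hfix, one_mul]
          exact mul_right_cancel₀ hπ20 h3
        have h2 := (hE₂.zpow_eq_one_iff_dvd _).1 h1
        rw [(ZMod.intCast_zmod_eq_zero_iff_dvd _ _).2 h2, zero_div]
  choose φ c hkey using key
  have hmain := hitting K₁ K₂ l hlp.one_lt Φ (by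
    rintro x x' ⟨w, hw⟩
    obtain ⟨b, hb⟩ := Kummerx380.pullback_inj α hs l ζ₁ hζ₁ ζ₂ (y x) (y x') (hy0 x') (z x) (z x')
      (hz0 x) (hz0 x') (hg x) (hg x') (w : K₁) (by
        rw [hz, hz, hw, Units.val_mul, Units.val_pow_eq_pow_val, map_mul, map_pow])
    have hb0 : b ≠ 0 := by
      rintro rfl
      rw [map_zero, mul_zero] at hb
      exact hy0 x hb
    refine ⟨Units.mk0 b hb0, Units.ext ?_⟩
    apply (algebraMap K₂ E₂).injective
    rw [Units.val_mul, Units.val_pow_eq_pow_val, Units.val_mk0, map_mul, map_pow, ← hy x, ← hy x',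
      hb, mul_pow]) S₁ hS₁fin φ c (fun v hv => (hkey v hv).1)
  refine hmain.subset ?_
  intro w hw v hv hφ
  by_contra hc
  exact hw ⟨v, hv, hφ ▸ (hkey v hv).2 hc⟩

end Crest.Agent.R018.Hitx380
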