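import Mathlib
import Crest.Agent.R018.Hit_380

/-!
Row 18: the Kummer hitting theorem, form with an arbitrary relation `R` between places (helper380).
In the local hypothesis only "`α τ` fixes the `l`-th roots of `Q`-units" is needed.
-/

set_option autoImplicit false

namespace Crest.Agent.R018.Hit2x380

open IsDedekindDomain NumberField Selmerx380 Ramx380 Placesx484 Hitx380

theorem fix_formula {K E : Type*} [Field K] [NumberField K] [Field E] [CharZero E]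
    [Algebra.IsAlgebraic ℚ E] [Algebra K E] (l : ℕ) (hl : l ≠ 0) (g : Gal(E/K)) (Q : Place E)
    (hfix : ∀ y : E, y ^ l ∈ Set.range (algebraMap K E) → Q.v y = 1 → g y = y)
    (w : HeightOneSpectrum (𝓞 K)) (hw : (Q.res K).ideal = w.asIdeal) (ζ : K)
    (π : E) (ϖ : Kˣ) (hπ : π ^ l = algebraMap K E (ϖ : K)) (hϖ : ord (𝓞 K) w ϖ = 1) (c : ℤ)
    (hc : g π = algebraMap K E ζ ^ c * π) (x : Kˣ) (y : E) (hy : y ^ l = algebraMap K E (x : K)) :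
    g y = algebraMap K E ζ ^ (c * ord (𝓞 K) w x) * y := by
  have hπ0 : π ≠ 0 := by
    rintro rfl
    rw [zero_pow hl] at hπ
    exact ϖ.ne_zero ((map_eq_zero _).1 hπ.symm)
  set m := ord (𝓞 K) w x with hm
  have hord : ∀ n : ℤ, ord (𝓞 K) w (ϖ ^ n) = n := by
    intro n
    obtain ⟨m, rfl | rfl⟩ := n.eq_nat_or_neg
    · rw [zpow_natCast, ord_pow, hϖ, mul_one]
    · rw [zpow_neg, zpow_natCast, ord_inv, ord_pow, hϖ, mul_one]
  have h0 : ord (𝓞 K) w (x / ϖ ^ m) = 0 := by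
    rw [ord_div, hord, ← hm, sub_self]
  have hu : (y / π ^ m) ^ l = algebraMap K E ((x / ϖ ^ m : Kˣ) : K) := by
    rw [div_pow, hy, ← zpow_natCast, ← zpow_mul, mul_comm m, zpow_mul, zpow_natCast, hπ,
      Units.val_div_eq_div_val, map_div₀, Units.val_zpow_eq_zpow_val, map_zpow₀]
  have h1 : Q.v ((y / π ^ m) ^ l) = 1 := by
    rw [hu]
    exact over_of_res Q w hw _ h0
  have h2 : Q.v (y / π ^ m) = 1 := by
    rw [map_pow] at h1
    exact (pow_eq_one_iff_of_nonneg zero_le hl).mp h1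
  have h3 := hfix _ ⟨_, hu.symm⟩ h2
  rw [map_div₀, map_zpow₀] at h3
  have h4 : g π ≠ 0 := by simpa using hπ0
  have h5 : π ^ m ≠ 0 := zpow_ne_zero _ hπ0
  have h6 : g π ^ m ≠ 0 := zpow_ne_zero _ h4
  rw [div_eq_div_iff h6 h5] at h3
  have h7 : g y = (g π / π) ^ m * y := by
    rw [div_zpow, div_mul_eq_mul_div, eq_div_iff h5, h3, mul_comm]
  rw [h7, hc, mul_div_cancel_right₀ _ hπ0, zpow_mul]

/-- The local hypothesis at `v`. -/
def LocAt2 {K₁ E₁ K₂ E₂ : Type*} [Field K₁] [NumberField K₁] [Field E₁] [CharZero E₁]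
    [Algebra.IsAlgebraic ℚ E₁] [Algebra K₁ E₁]
    [Field K₂] [NumberField K₂] [Field E₂] [CharZero E₂] [Algebra.IsAlgebraic ℚ E₂] [Algebra K₂ E₂]
    (α : Gal(E₁/K₁) →* Gal(E₂/K₂)) (l : ℕ) (R : Place E₁ → Place E₂ → Prop)
    (v : HeightOneSpectrum (𝓞 K₁)) : Prop :=
  ∃ (P : Place E₁) (τ : Gal(E₁/K₁)), (P.res K₁).ideal = v.asIdeal ∧ InInertia P.val τ ∧
    (∃ (π : E₁) (ϖ : K₁ˣ), π ^ l = algebraMap K₁ E₁ (ϖ : K₁) ∧ ord (𝓞 K₁) v ϖ = 1 ∧ τ π ≠ π) ∧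
    ((∀ y : E₂, y ^ l ∈ Set.range (algebraMap K₂ E₂) → α τ y = y) ∨
      ∃ Q : Place E₂, R P Q ∧
        ∀ y : E₂, y ^ l ∈ Set.range (algebraMap K₂ E₂) → Q.v y = 1 → α τ y = y)

/-- **The Kummer hitting theorem**, relation form. -/
theorem hit2 {K₁ E₁ K₂ E₂ : Type*} [Field K₁] [NumberField K₁] [Field E₁] [CharZero E₁]
    [Algebra.IsAlgebraic ℚ E₁] [Algebra K₁ E₁] [IsGalois K₁ E₁]
    [Field K₂] [NumberField K₂] [Field E₂] [CharZero E₂] [Algebra.IsAlgebraic ℚ E₂] [Algebra K₂ E₂]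
    [IsGalois K₂ E₂]
    (α : Gal(E₁/K₁) →* Gal(E₂/K₂)) (hα : Continuous α) (hs : Function.Surjective α)
    (l : ℕ) [Fact l.Prime] (ζ₁ : K₁) (hζ₁ : IsPrimitiveRoot ζ₁ l) (ζ₂ : K₂)
    (hζ₂ : IsPrimitiveRoot ζ₂ l)
    (hroot : ∀ x : K₂, ∃ y : E₂, y ^ l = algebraMap K₂ E₂ x)
    (R : Place E₁ → Place E₂ → Prop)
    (hloc : ∀ v : HeightOneSpectrum (𝓞 K₁), (l : 𝓞 K₁) ∉ v.asIdeal → LocAt2 α l R v) :
    {w : HeightOneSpectrum (𝓞 K₂) | ¬ ∃ (P : Place E₁) (Q : Place E₂),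
      (Q.res K₂).ideal = w.asIdeal ∧ R P Q}.Finite := by
  classical
  have hlp : l.Prime := Fact.out
  have hNe : NeZero l := ⟨hlp.ne_zero⟩
  have hE₁ : IsPrimitiveRoot (algebraMap K₁ E₁ ζ₁) l :=
    hζ₁.map_of_injective (algebraMap K₁ E₁).injective
  have hE₂ : IsPrimitiveRoot (algebraMap K₂ E₂ ζ₂) l :=
    hζ₂.map_of_injective (algebraMap K₂ E₂).injective
  -- the primes above `l`
  set S₁ : Set (HeightOneSpectrum (𝓞 K₁)) := {v | (l : 𝓞 K₁) ∈ v.asIdeal} with hS₁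
  have hS₁fin : S₁.Finite := by
    have hl0 : (l : K₁) ≠ 0 := by exact_mod_cast hlp.ne_zero
    have h1 := ord_finite (R := 𝓞 K₁) (Units.mk0 (l : K₁) hl0)
    refine Set.Finite.subset h1 ?_
    intro v hv h0
    have h2 := valuation_eq_exp v (Units.mk0 (l : K₁) hl0)
    rw [h0, neg_zero, WithZero.exp_zero, Units.val_mk0] at h2
    have h3 := (v.valuation_lt_one_iff_mem (K := K₁) (l : 𝓞 K₁)).2 hv
    have h4 : (algebraMap (𝓞 K₁) K₁ (l : 𝓞 K₁)) = (l : K₁) := map_natCast _ _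
    have h5 : v.valuation K₁ (l : K₁) < 1 := by rw [← h4]; exact h3
    rw [h2] at h5
    exact lt_irrefl _ h5
  -- Kummer data
  have hdata : ∀ x : K₂ˣ, ∃ (y : E₂) (z : E₁) (a : K₁ˣ), y ^ l = algebraMap K₂ E₂ (x : K₂) ∧
      z ≠ 0 ∧ y ≠ 0 ∧ z ^ l = algebraMap K₁ E₁ (a : K₁) ∧
      (∀ g : Gal(E₁/K₁), ∃ i : ℕ, i < l ∧ α g y = algebraMap K₂ E₂ ζ₂ ^ i * y ∧
        g z = algebraMap K₁ E₁ ζ₁ ^ i * z) := by
    intro x
    obtain ⟨y, hy⟩ := hroot x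
    have hy0 : y ≠ 0 := by
      rintro rfl
      rw [zero_pow hlp.ne_zero] at hy
      exact x.ne_zero ((map_eq_zero _).1 hy.symm)
    obtain ⟨z, hz0, ⟨a, ha⟩, hz⟩ := Kummerx380.exists_pullback α hα l ζ₁ hζ₁ ζ₂ hζ₂ y hy0
      ⟨x, hy.symm⟩
    have ha0 : a ≠ 0 := by
      rintro rfl
      rw [map_zero] at ha
      exact hz0 ((pow_eq_zero_iff hlp.ne_zero).1 ha.symm)
    exact ⟨y, z, Units.mk0 a ha0, hy, hz0, hy0, by rw [Units.val_mk0, ha], hz⟩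
  choose y z Φ hy hz0 hy0 hz hg using hdata
  by_cases hne : Nonempty (HeightOneSpectrum (𝓞 K₂))
  swap
  · rw [not_nonempty_iff] at hne
    exact Set.toFinite _
  obtain ⟨w0⟩ := hne
  have key : ∀ v : HeightOneSpectrum (𝓞 K₁), ∃ (w : HeightOneSpectrum (𝓞 K₂)) (c : ZMod l),
      v ∉ S₁ → ((∀ x : K₂ˣ, ((ord (𝓞 K₁) v (Φ x) : ℤ) : ZMod l) =
        c * ((ord (𝓞 K₂) w x : ℤ) : ZMod l)) ∧ (c ≠ 0 → ∃ (P : Place E₁) (Q : Place E₂),
          (Q.res K₂).ideal = w.asIdeal ∧ R P Q)) := by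
    intro v
    by_cases hv : v ∈ S₁
    · exact ⟨w0, 0, fun h => absurd hv h⟩
    obtain ⟨P, τ, hPv, hτ, ⟨π₁, ϖ₁, hπ₁, hϖ₁, hmove⟩, hcase⟩ := hloc v hv
    have hlP : (l : 𝓞 E₁) ∉ P.ideal := by
      intro hmem
      apply hv
      change (l : 𝓞 K₁) ∈ v.asIdeal
      rw [← hPv, Place.mem_res, map_natCast]
      exact hmem
    have hl₁ := valuation_natCast_eq_one P l hlP
    have hO₁ := over_of_res P v hPv
    have hπ0 : π₁ ≠ 0 := by
      rintro rfl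
      rw [zero_pow hlp.ne_zero] at hπ₁
      exact ϖ₁.ne_zero ((map_eq_zero _).1 hπ₁.symm)
    rcases hcase with htriv | ⟨Q, hR, hfixQ⟩
    · refine ⟨w0, 0, fun _ => ⟨fun x => ?_, fun h => absurd rfl h⟩⟩
      have h1 : τ (z x) = z x := by
        obtain ⟨i, hi, hiy, hiz⟩ := hg x τ
        rw [htriv (y x) ⟨x, (hy x).symm⟩] at hiy
        have h2 : algebraMap K₂ E₂ ζ₂ ^ i = 1 := by
          have h3 : algebraMap K₂ E₂ ζ₂ ^ i * y x = 1 * y x := by rw [← hiy, one_mul]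
          exact mul_right_cancel₀ (hy0 x) h3
        have h4 := (hE₂.pow_eq_one_iff_dvd _).1 h2
        have h5 : i = 0 := Nat.eq_zero_of_dvd_of_lt h4 hi
        rw [hiz, h5, pow_zero, one_mul]
      have h2 := ord_pullback_zero l hlp ζ₁ hζ₁ P.val v hO₁ hl₁ τ hτ π₁ ϖ₁ hπ₁ hϖ₁ hmove (Φ x)
        (z x) (hz x) h1
      rw [(ZMod.intCast_zmod_eq_zero_iff_dvd _ _).2 h2, zero_mul]
    · let w : HeightOneSpectrum (𝓞 K₂) :=
        ⟨(Q.res K₂).ideal, (Q.res K₂).isPrime, (Q.res K₂).ne_bot⟩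
      have hQw : (Q.res K₂).ideal = w.asIdeal := rfl
      obtain ⟨ϖ₂, hϖ₂⟩ := exists_ord_eq_one (K := K₂) w
      obtain ⟨π₂, hπ₂⟩ := hroot ϖ₂
      have hπ20 : π₂ ≠ 0 := by
        rintro rfl
        rw [zero_pow hlp.ne_zero] at hπ₂
        exact ϖ₂.ne_zero ((map_eq_zero _).1 hπ₂.symm)
      obtain ⟨j, -, hj⟩ := Kummerx380.exists_pow_of_root (E := E₁) l ζ₁ hζ₁ (τ π₁ / π₁) (by
        rw [div_pow, ← map_pow, hπ₁, AlgEquiv.commutes]
        exact div_self (by rw [← hπ₁]; exact pow_ne_zero _ hπ0))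
      obtain ⟨c, -, hc⟩ := Kummerx380.exists_pow_of_root (E := E₂) l ζ₂ hζ₂ (α τ π₂ / π₂) (by
        rw [div_pow, ← map_pow, hπ₂, AlgEquiv.commutes]
        exact div_self (by rw [← hπ₂]; exact pow_ne_zero _ hπ20))
      have hj' : τ π₁ = algebraMap K₁ E₁ ζ₁ ^ (j : ℤ) * π₁ := by
        rw [zpow_natCast, ← hj, div_mul_cancel₀ _ hπ0]
      have hc' : α τ π₂ = algebraMap K₂ E₂ ζ₂ ^ (c : ℤ) * π₂ := by
        rw [zpow_natCast, ← hc, div_mul_cancel₀ _ hπ20]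
      have hj0 : ((j : ℤ) : ZMod l) ≠ 0 := by
        intro h0
        obtain ⟨k, hk⟩ := (ZMod.intCast_zmod_eq_zero_iff_dvd _ _).1 h0
        apply hmove
        rw [hj', hk, zpow_mul, zpow_natCast, hE₁.pow_eq_one, one_zpow, one_mul]
      refine ⟨w, ((c : ℤ) : ZMod l) / ((j : ℤ) : ZMod l), fun _ => ⟨fun x => ?_, fun _ =>
        ⟨P, Q, hQw, hR⟩⟩⟩
      have h1 := inertia_root P.val v hO₁ l hlp hl₁ τ hτ ζ₁ hζ₁ π₁ (z x) ϖ₁ (Φ x) hπ₁ (hz x) hϖ₁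
        j hj'
      have h2 := fix_formula l hlp.ne_zero (α τ) Q hfixQ w hQw ζ₂ π₂ ϖ₂ hπ₂ hϖ₂ c hc' x (y x) (hy x)
      obtain ⟨i, -, hi₂, hi₁⟩ := hg x τ
      rw [hi₁, ← zpow_natCast] at h1
      rw [hi₂, ← zpow_natCast] at h2
      have h3 := cast_eq_of_zpow_eq hE₁ (hE₁.ne_zero hlp.ne_zero) _ _
        (mul_right_cancel₀ (hz0 x) h1)
      have h4 := cast_eq_of_zpow_eq hE₂ (hE₂.ne_zero hlp.ne_zero) _ _
        (mul_right_cancel₀ (hy0 x) h2)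
      rw [h3] at h4
      rw [Int.cast_mul, Int.cast_mul] at h4
      rw [div_mul_eq_mul_div, eq_div_iff hj0, mul_comm, h4]
  choose φ c hkey using key
  have hmain := hitting K₁ K₂ l hlp.one_lt Φ (by
    rintro x x' ⟨w, hw⟩
    obtain ⟨b, hb⟩ := Kummerx380.pullback_inj α hs l ζ₁ hζ₁ ζ₂ (y x) (y x') (hy0 x') (z x) (z x')
      (hz0 x) (hz0 x') (hg x) (hg x') (w : K₁) (by
        rw [hz, hz, hw, Units.val_mul, Units.val_pow_eq_pow_val, map_mul, map_pow])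
    have hb0 : b ≠ 0 := by
      rintro rfl
      rw [map_zero, mul_zero] at hb
      exact hy0 x hb
    refine ⟨Units.mk0 b hb0, Units.ext ?_⟩
    apply (algebraMap K₂ E₂).injective
    rw [Units.val_mul, Units.val_pow_eq_pow_val, Units.val_mk0, map_mul, map_pow, ← hy x, ← hy x',
      hb, mul_pow]) S₁ hS₁fin φ c (fun v hv => (hkey v hv).1)
  refine hmain.subset ?_
  intro w hw v hv hφ
  by_contra hc
  exact hw (hφ ▸ (hkey v hv).2 hc)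

end Crest.Agent.R018.Hit2x380
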