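import Mathlib

/-!
Euler product for sums over nonzero ideals of a Dedekind domain, in `ENNReal`.
-/

set_option autoImplicit false

open IsDedekindDomain
open scoped ENNReal

namespace Crest.Agent.R018.IdealEulerx389

variable {R : Type*} [CommRing R] [IsDedekindDomain R]

/-- ideals whose prime factors all lie in `T` -/
def Supp (T : Finset (HeightOneSpectrum R)) : Set (Ideal R) :=
  {I | I ≠ ⊥ ∧ ∀ p : HeightOneSpectrum R, p.asIdeal ∣ I → p ∈ T}

theorem supp_empty : Supp (∅ : Finset (HeightOneSpectrum R)) = {1} := by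
  ext I
  simp only [Supp, Finset.notMem_empty, imp_false, Set.mem_ofPred_eq, Set.mem_singleton_iff]
  constructor
  · rintro ⟨h0, h⟩
    by_contra h1
    have h1' : I ≠ ⊤ := by simpa [Ideal.one_eq_top] using h1
    obtain ⟨M, hM, hle⟩ := Ideal.exists_le_maximal I h1'
    have hM0 : M ≠ ⊥ := by
      rintro rfl
      exact h0 (le_bot_iff.mp hle)
    exact h ⟨M, hM.isPrime, hM0⟩ (Ideal.dvd_iff_le.mpr hle)
  · rintro rfl
    refine ⟨by simp [Ideal.one_eq_top], fun p hp => ?_⟩
    have := p.isPrime.ne_top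
    rw [Ideal.dvd_iff_le, Ideal.one_eq_top, top_le_iff] at hp
    exact this hp

theorem prime_of (p : HeightOneSpectrum R) : Prime p.asIdeal :=
  Ideal.prime_of_isPrime p.ne_bot p.isPrime

theorem dvd_pow_mul_imp {p q : HeightOneSpectrum R} {k : ℕ} {I : Ideal R}
    (h : q.asIdeal ∣ p.asIdeal ^ k * I) : q = p ∨ q.asIdeal ∣ I := by
  rcases (prime_of q).dvd_or_dvd h with h | h
  · left
    have h2 := (prime_of q).dvd_of_dvd_pow h
    ext1
    exact ((prime_of q).dvd_prime_iff_associated (prime_of p)).mp h2 |>.eq_of_normalized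
      (by simp) (by simp)
  · right; exact h

/-- the bijection `ℕ × Supp T ≃ Supp (insert p T)` for `p ∉ T` -/
theorem bij (T : Finset (HeightOneSpectrum R)) (p : HeightOneSpectrum R) (hp : p ∉ T)
    [DecidableEq (HeightOneSpectrum R)] :
    Set.BijOn (fun x : ℕ × Ideal R => p.asIdeal ^ x.1 * x.2) (Set.univ ×ˢ Supp T)
      (Supp (insert p T)) := by
  refine ⟨?_, ?_, ?_⟩
  · rintro ⟨k, I⟩ ⟨-, hI⟩
    refine ⟨?_, fun q hq => ?_⟩
    · exact mul_ne_zero (pow_ne_zero _ p.ne_bot) hI.1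
    · rcases dvd_pow_mul_imp hq with h | h
      · simp [h]
      · exact Finset.mem_insert_of_mem (hI.2 q h)
  · rintro ⟨k, I⟩ ⟨-, hI⟩ ⟨m, J⟩ ⟨-, hJ⟩ h
    simp only at h hI hJ
    have key : ∀ (k m : ℕ) (I J : Ideal R), I ∈ Supp T → J ∈ Supp T → k ≤ m →
        p.asIdeal ^ k * I = p.asIdeal ^ m * J → k = m ∧ I = J := by
      intro k m I J hI hJ hkm h
      obtain ⟨d, rfl⟩ := Nat.exists_eq_add_of_le hkm
      rw [pow_add, mul_assoc] at h
      have h2 := mul_left_cancel₀ (pow_ne_zero k p.ne_bot) h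
      rcases Nat.eq_zero_or_pos d with hd | hd
      · subst hd
        simpa using h2
      · exfalso
        apply hp
        apply hI.2
        rw [h2]
        exact dvd_mul_of_dvd_left (dvd_pow_self _ hd.ne') _
    rcases le_total k m with hkm | hkm
    · obtain ⟨h1, h2⟩ := key k m I J hI hJ hkm h
      rw [h1, h2]
    · obtain ⟨h1, h2⟩ := key m k J I hJ hI hkm h.symm
      rw [h1, h2]
  · rintro I ⟨hI0, hI⟩
    obtain ⟨n, J, hJ, rfl⟩ := WfDvdMonoid.max_power_factor hI0 (prime_of p).irreducible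
    refine ⟨(n, J), ⟨Set.mem_univ _, ?_, ?_⟩, rfl⟩
    · rintro rfl
      exact hI0 (by simp)
    · intro q hq
      have := hI q (dvd_mul_of_dvd_right hq _)
      rcases Finset.mem_insert.mp this with h | h
      · subst h; exact absurd hq hJ
      · exact h

variable (g : Ideal R →* ℝ≥0∞)

theorem tsum_supp (T : Finset (HeightOneSpectrum R)) :
    ∑' I : Supp T, g I = ∏ p ∈ T, (1 - g p.asIdeal)⁻¹ := by
  classical
  induction T using Finset.induction_on with
  | empty =>
    rw [supp_empty, Finset.prod_empty, tsum_fintype]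
    simp only [Finset.univ_unique, Finset.sum_singleton]
    exact (congrArg (fun x : ({1} : Set (Ideal R)) => g x.1)
      (Set.default_coe_singleton (1 : Ideal R))).trans (map_one g)
  | insert p T hp ih =>
    rw [Finset.prod_insert hp, ← ih, ← ENNReal.tsum_geometric, ← ENNReal.tsum_mul_right]
    simp_rw [← ENNReal.tsum_mul_left]
    rw [← ENNReal.tsum_prod (f := fun (k : ℕ) (I : Supp T) => g p.asIdeal ^ k * g I)]
    have hb := bij T p hp
    let e : ℕ × Supp T → Supp (insert p T) := fun x =>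
      ⟨p.asIdeal ^ x.1 * (x.2 : Ideal R), hb.mapsTo (x := (x.1, (x.2 : Ideal R)))
        ⟨Set.mem_univ _, x.2.2⟩⟩
    have he : Function.Bijective e := by
      constructor
      · rintro ⟨k, I, hI⟩ ⟨m, J, hJ⟩ h
        have h' : p.asIdeal ^ k * I = p.asIdeal ^ m * J := congrArg Subtype.val h
        have hkI : ((k, I) : ℕ × Ideal R) ∈ (Set.univ ×ˢ Supp T : Set (ℕ × Ideal R)) :=
          ⟨Set.mem_univ _, hI⟩
        have hmJ : ((m, J) : ℕ × Ideal R) ∈ (Set.univ ×ˢ Supp T : Set (ℕ × Ideal R)) :=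
          ⟨Set.mem_univ _, hJ⟩
        have this : ((k, I) : ℕ × Ideal R) = (m, J) := hb.injOn hkI hmJ h'
        have h1 : k = m := congrArg Prod.fst this
        have h2 : I = J := congrArg Prod.snd this
        subst h1 h2
        rfl
      · rintro ⟨I, hI⟩
        obtain ⟨⟨k, J⟩, ⟨-, hJ⟩, h⟩ := hb.surjOn hI
        exact ⟨(k, ⟨J, hJ⟩), Subtype.ext h⟩
    rw [← (Equiv.ofBijective e he).tsum_eq]
    refine tsum_congr fun x => ?_
    simp [e]

theorem prod_le_tsum (T : Finset (HeightOneSpectrum R)) :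
    ∏ p ∈ T, (1 - g p.asIdeal)⁻¹ ≤ ∑' I : {I : Ideal R // I ≠ ⊥}, g I := by
  rw [← tsum_supp]
  exact ENNReal.tsum_comp_le_tsum_of_injective
    (f := fun I : Supp T => (⟨I.1, I.2.1⟩ : {I : Ideal R // I ≠ ⊥}))
    (by rintro ⟨I, hI⟩ ⟨J, hJ⟩ h; simpa using h) (fun I => g I)

theorem tsum_le_of_prod_le {B : ℝ≥0∞}
    (h : ∀ T : Finset (HeightOneSpectrum R), ∏ p ∈ T, (1 - g p.asIdeal)⁻¹ ≤ B) :
    ∑' I : {I : Ideal R // I ≠ ⊥}, g I ≤ B := by
  classical
  rw [ENNReal.tsum_eq_iSup_sum]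
  refine iSup_le fun F => ?_
  let T : Finset (HeightOneSpectrum R) := F.attach.biUnion fun I =>
    (Ideal.finite_factors (R := R) (I := I.1.1) I.1.2).toFinset
  have hT : ∀ I ∈ F, (I : Ideal R) ∈ Supp T := by
    intro I hI
    refine ⟨I.2, fun q hq => ?_⟩
    rw [Finset.mem_biUnion]
    exact ⟨⟨I, hI⟩, Finset.mem_attach _ _, by simpa using hq⟩
  calc ∑ I ∈ F, g I = ∑ I ∈ F.attach, g I.1.1 := (Finset.sum_attach F (fun I => g I.1)).symm
    _ = ∑ J ∈ F.attach.image (fun I => (⟨I.1.1, hT I.1 I.2⟩ : Supp T)), g J := by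
        rw [Finset.sum_image]
        rintro ⟨⟨I, _⟩, _⟩ _ ⟨⟨J, _⟩, _⟩ _ h
        simpa using h
    _ ≤ ∑' J : Supp T, g J := ENNReal.sum_le_tsum _
    _ = _ := tsum_supp g T
    _ ≤ B := h T

end Crest.Agent.R018.IdealEulerx389
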