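import Crest.Agent.R018.Rig3_931

/-!
# Row 18: `1 - x ∈ ⟨x⟩ M^{×l}` from a rank bound (helper931)

`G` a group acting on a field `E` closed under `l`-th roots, `V` a subgroup, `M = E^V`.
-/

set_option autoImplicit false

open Finset

namespace Crest.Agent.R018.Rig4x931

open Crest.Agent.R018.Rig3x931

variable {G E : Type*} [Group G] [Field E] [MulSemiringAction G E]

/-- `x` is fixed by the subgroup `V` -/
def Fx (V : Subgroup G) (x : E) : Prop := ∀ g ∈ V, g • x = x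

theorem Fx.mul {V : Subgroup G} {x y : E} (hx : Fx V x) (hy : Fx V y) : Fx V (x * y) :=
  fun g hg => by rw [smul_mul', hx g hg, hy g hg]

theorem Fx.inv {V : Subgroup G} {x : E} (hx : Fx V x) : Fx V x⁻¹ :=
  fun g hg => by rw [smul_inv'', hx g hg]

theorem Fx.pow {V : Subgroup G} {x : E} (hx : Fx V x) (n : ℕ) : Fx V (x ^ n) :=
  fun g hg => by rw [smul_pow', hx g hg]

theorem fx_one {V : Subgroup G} : Fx V (1 : E) := fun g _ => smul_one g

theorem smul_zpow' (g : G) (x : E) (n : ℤ) : g • x ^ n = (g • x) ^ n :=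
  map_zpow₀ (MulSemiringAction.toRingHom G E g) x n

theorem Fx.zpow {V : Subgroup G} {x : E} (hx : Fx V x) (n : ℤ) : Fx V (x ^ n) :=
  fun g hg => by rw [smul_zpow', hx g hg]

theorem Fx.sub {V : Subgroup G} {x y : E} (hx : Fx V x) (hy : Fx V y) : Fx V (x - y) :=
  fun g hg => by rw [smul_sub, hx g hg, hy g hg]

theorem Fx.add {V : Subgroup G} {x y : E} (hx : Fx V x) (hy : Fx V y) : Fx V (x + y) :=
  fun g hg => by rw [smul_add, hx g hg, hy g hg]

theorem Fx.mono {V V' : Subgroup G} (h : V' ≤ V) {x : E} (hx : Fx V x) : Fx V' x :=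
  fun g hg => hx g (h hg)

/-- any three `V`-fixed elements satisfy a nontrivial relation modulo `l`-th powers of `V`-fixed
elements: the Kummer group of `E^V` has rank at most two -/
def RankLE (E : Type*) [Field E] [MulSemiringAction G E] (l : ℕ) (V : Subgroup G) : Prop :=
  ∀ b : Fin 3 → E, (∀ i, b i ≠ 0) → (∀ i, Fx V (b i)) →
    ∃ e : Fin 3 → ℤ, (∃ i, ¬ (l : ℤ) ∣ e i) ∧ ∃ z : E, Fx V z ∧ z ^ l = ∏ i, b i ^ e i

/-- the units fixed by `V` -/
def U (E : Type*) [Field E] [MulSemiringAction G E] (V : Subgroup G) : Subgroup Eˣ where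
  carrier := {u | Fx V (u : E)}
  mul_mem' := fun {a b} ha hb => by
    have := Fx.mul (V := V) ha hb
    simpa using this
  one_mem' := by
    have := fx_one (E := E) (V := V)
    simpa using this
  inv_mem' := fun {a} ha => by
    have := Fx.inv (V := V) ha
    simpa using this

theorem mem_U {V : Subgroup G} {u : Eˣ} : u ∈ U E V ↔ Fx V (u : E) := Iff.rfl

/-- action of a normalizing element -/
def act (V : Subgroup G) (s : G) (hs : ∀ g ∈ V, s⁻¹ * g * s ∈ V) : U E V →* U E V where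
  toFun := fun u => ⟨Units.map (MulSemiringAction.toRingHom G E s).toMonoidHom u.1, by
    intro g hg
    have h := u.2 _ (hs g hg)
    have e : g * s = s * (s⁻¹ * g * s) := by group
    show g • (s • ((u.1 : Eˣ) : E)) = s • ((u.1 : Eˣ) : E)
    rw [← mul_smul, e, mul_smul, h]⟩
  map_one' := by ext; simp
  map_mul' := fun a b => by ext; simp

theorem act_coe (V : Subgroup G) (s : G) (hs : ∀ g ∈ V, s⁻¹ * g * s ∈ V) (u : U E V) :
    (((act V s hs u).1 : Eˣ) : E) = s • ((u.1 : Eˣ) : E) := rfl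

/-- **norms of a cyclic extension of degree `l` are `l`-th powers upstairs** -/
theorem norm_pow {l : ℕ} [hl : Fact l.Prime] (hl3 : 3 ≤ l) (V : Subgroup G) (s : G)
    (hs : ∀ g ∈ V, s⁻¹ * g * s ∈ V) (hsl : s ^ l ∈ V) (hrank : RankLE E l V)
    (y : E) (hy0 : y ≠ 0) (hy : Fx V y) :
    ∃ z, Fx V z ∧ z ^ l = ∏ i ∈ range l, (s ^ i) • y := by
  classical
  let R : Subgroup (U E V) := (powMonoidHom l : U E V →* U E V).range
  have hR : R ≤ R.comap (act V s hs) := by
    rintro _ ⟨u, rfl⟩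
    refine ⟨act V s hs u, ?_⟩
    simp
  let f : (U E V ⧸ R) →* (U E V ⧸ R) := QuotientGroup.map R R (act V s hs) hR
  have hf1 : ∀ u : U E V, f (QuotientGroup.mk u) = QuotientGroup.mk (act V s hs u) := fun u => rfl
  have hfi : ∀ (i : ℕ) (u : U E V), f^[i] (QuotientGroup.mk u) =
      QuotientGroup.mk (((act V s hs) ^[i]) u) := by
    intro i
    induction i with
    | zero => intro u; simp
    | succ i ih =>
      intro u
      rw [Function.iterate_succ_apply, hf1, ih, Function.iterate_succ_apply]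
  have hcoe : ∀ (i : ℕ) (u : U E V), (((((act V s hs) ^[i]) u).1 : Eˣ) : E) =
      (s ^ i) • ((u.1 : Eˣ) : E) := by
    intro i
    induction i with
    | zero => intro u; simp
    | succ i ih =>
      intro u
      rw [Function.iterate_succ_apply', act_coe, ih, ← mul_smul, pow_succ']
  have hexp : ∀ w : U E V ⧸ R, w ^ l = 1 := by
    intro w
    obtain ⟨u, rfl⟩ := QuotientGroup.mk_surjective w
    rw [← QuotientGroup.mk_pow, QuotientGroup.eq_one_iff]
    exact ⟨u, rfl⟩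
  have hfl : ∀ w, f^[l] w = w := by
    intro w
    obtain ⟨u, rfl⟩ := QuotientGroup.mk_surjective w
    rw [hfi]
    congr 1
    apply Subtype.ext
    apply Units.ext
    rw [hcoe]
    exact u.2 _ hsl
  have hdep : ∀ w : Fin 3 → (U E V ⧸ R), ∃ e : Fin 3 → ℤ, (∃ i, ¬ (l : ℤ) ∣ e i) ∧
      ∏ i, w i ^ e i = 1 := by
    intro w
    choose u hu using fun i => QuotientGroup.mk_surjective (w i)
    obtain ⟨e, hi, z, hz, hzl⟩ := hrank (fun i => (((u i).1 : Eˣ) : E))
      (fun i => Units.ne_zero _) (fun i => (u i).2)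
    refine ⟨e, hi, ?_⟩
    have hz0 : z ≠ 0 := by
      intro h
      rw [h, zero_pow hl.out.ne_zero] at hzl
      have : ∏ i, (((u i).1 : Eˣ) : E) ^ e i ≠ 0 :=
        Finset.prod_ne_zero_iff.mpr fun i _ => zpow_ne_zero _ (Units.ne_zero _)
      exact this hzl.symm
    have hprod : (∏ i, (u i) ^ e i : U E V) ∈ R := by
      refine ⟨⟨Units.mk0 z hz0, hz⟩, ?_⟩
      apply Subtype.ext
      apply Units.ext
      simp only [powMonoidHom_apply, Subgroup.coe_pow, Units.val_pow_eq_pow_val, Units.val_mk0]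
      rw [hzl]
      simp [Units.coe_prod]
    have h2 : (QuotientGroup.mk' R) (∏ i, (u i) ^ e i) = 1 := by
      rw [QuotientGroup.mk'_apply, QuotientGroup.eq_one_iff]
      exact hprod
    rw [map_prod] at h2
    rw [← h2]
    refine Finset.prod_congr rfl fun i _ => ?_
    rw [map_zpow, QuotientGroup.mk'_apply, hu]
  let y' : U E V := ⟨Units.mk0 y hy0, hy⟩
  have h1 := mul_version hl3 hexp f hfl hdep (QuotientGroup.mk y')
  simp only [hfi] at h1
  have h2 : (QuotientGroup.mk' R) (∏ i ∈ range l, ((act V s hs) ^[i]) y') = 1 := by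
    rw [map_prod]
    exact h1
  rw [QuotientGroup.mk'_apply, QuotientGroup.eq_one_iff] at h2
  obtain ⟨z, hz⟩ := h2
  refine ⟨((z.1 : Eˣ) : E), z.2, ?_⟩
  have h3 := congrArg (fun u : U E V => ((u.1 : Eˣ) : E)) hz
  simp only [powMonoidHom_apply, Subgroup.coe_pow, Units.val_pow_eq_pow_val] at h3
  rw [h3]
  rw [Subgroup.val_finsetProd, Units.coe_prod]
  exact Finset.prod_congr rfl fun i _ => hcoe i y'

/-- the stabilizer of `θ` in `V` -/
def St (V : Subgroup G) (θ : E) : Subgroup G := V ⊓ MulAction.stabilizer G θ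

theorem mem_St {V : Subgroup G} {θ : E} {g : G} : g ∈ St V θ ↔ g ∈ V ∧ g • θ = θ := by
  rw [St, Subgroup.mem_inf, MulAction.mem_stabilizer_iff]

/-- Kummer theory for one element: `g θ = ζ ^ i θ` -/
theorem exists_smul_eq {l : ℕ} [hl : Fact l.Prime] {V : Subgroup G} {ζ : E}
    (hζ : IsPrimitiveRoot ζ l) {x θ : E} (hθ : θ ^ l = x) (hx : Fx V x) (hθ0 : θ ≠ 0)
    {g : G} (hg : g ∈ V) : ∃ i : ℕ, i < l ∧ g • θ = ζ ^ i * θ := by
  have h1 : (g • θ / θ) ^ l = 1 := by
    rw [div_pow, ← smul_pow', hθ, hx g hg, ← hθ, div_self (pow_ne_zero _ hθ0)]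
  haveI : NeZero l := ⟨hl.out.ne_zero⟩
  obtain ⟨i, hi, h⟩ := hζ.eq_pow_of_pow_eq_one h1
  refine ⟨i, hi, ?_⟩
  rw [h, div_mul_cancel₀ _ hθ0]

theorem pow_smul_eq {ω θ : E} {s : G} (hω : s • ω = ω) (h : s • θ = ω * θ) (n : ℕ) :
    (s ^ n) • θ = ω ^ n * θ := by
  induction n with
  | zero => simp
  | succ n ih =>
    rw [pow_succ', mul_smul, ih, smul_mul', smul_pow', hω, h]
    ring

/-- **`1 - x ∈ ⟨x⟩ M^{×l}`** when the Kummer group of `M(x^(1/l))` has rank at most two. -/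
theorem one_sub_mem {l : ℕ} [hl : Fact l.Prime] (hl3 : 3 ≤ l) (V : Subgroup G) {ζ : E}
    (hζ : IsPrimitiveRoot ζ l) (hζV : Fx V ζ) {x θ : E} (hθ : θ ^ l = x) (hx : Fx V x)
    (hθV : ¬ Fx V θ) (hrank : RankLE E l (St V θ)) :
    ∃ k : ℤ, ∃ m : E, Fx V m ∧ m ^ l = (1 - x) * x ^ k := by
  haveI : NeZero l := ⟨hl.out.ne_zero⟩
  have hθ0 : θ ≠ 0 := by
    rintro rfl
    exact hθV fun g _ => smul_zero g
  have hx0 : x ≠ 0 := by
    rw [← hθ]
    exact pow_ne_zero _ hθ0
  have hx1 : x ≠ 1 := by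
    rintro rfl
    obtain ⟨i, _, h⟩ := hζ.eq_pow_of_pow_eq_one hθ
    rw [← h] at hθV
    exact hθV (hζV.pow i)
  have hnf : ∃ s ∈ V, s • θ ≠ θ := by
    by_contra hcon
    push Not at hcon
    exact hθV hcon
  obtain ⟨s, hsV, hsθ⟩ := hnf
  obtain ⟨i, hil, hi⟩ := exists_smul_eq hζ hθ hx hθ0 hsV
  have hi0 : i ≠ 0 := by
    rintro rfl
    rw [pow_zero, one_mul] at hi
    exact hsθ hi
  set ω : E := ζ ^ i with hωdef
  have hω : IsPrimitiveRoot ω l :=
    hζ.pow_of_coprime i ((Nat.coprime_comm.mp (hl.out.coprime_iff_not_dvd.mpr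
      (Nat.not_dvd_of_pos_of_lt (Nat.pos_of_ne_zero hi0) hil))))
  have hωV : Fx V ω := hζV.pow i
  have hsω : s • ω = ω := hωV s hsV
  -- `s` normalizes the stabilizer
  have hs : ∀ g ∈ St V θ, s⁻¹ * g * s ∈ St V θ := by
    intro g hg
    rw [mem_St] at hg ⊢
    refine ⟨V.mul_mem (V.mul_mem (V.inv_mem hsV) hg.1) hsV, ?_⟩
    rw [mul_smul, mul_smul, hi, smul_mul', hωV g hg.1, hg.2, ← hi, inv_smul_smul]
  have hsl : s ^ l ∈ St V θ := by
    rw [mem_St]
    refine ⟨V.pow_mem hsV l, ?_⟩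
    rw [pow_smul_eq hsω hi, hω.pow_eq_one, one_mul]
  -- every element of `V` is a power of `s` times an element of the stabilizer
  have hgen : ∀ g ∈ V, ∃ n : ℕ, ∃ h ∈ St V θ, g = s ^ n * h := by
    intro g hg
    obtain ⟨j, -, hj⟩ := exists_smul_eq hω hθ hx hθ0 hg
    refine ⟨j, (s ^ j)⁻¹ * g, ?_, by group⟩
    rw [mem_St]
    refine ⟨V.mul_mem (V.inv_mem (V.pow_mem hsV j)) hg, ?_⟩
    rw [mul_smul, hj, ← pow_smul_eq hsω hi, inv_smul_smul]
  have hfix : ∀ m : E, Fx (St V θ) m → s • m = m → Fx V m := by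
    intro m hm hsm g hg
    obtain ⟨n, h, hh, rfl⟩ := hgen g hg
    rw [mul_smul, hm h hh]
    have : (s ^ n) • m = m := by
      have := pow_smul_eq (s := s) (ω := (1 : E)) (θ := m) (smul_one s) (by rw [hsm, one_mul]) n
      simpa using this
    exact this
  have hθ1 : (1 : E) - θ ≠ 0 := by
    intro h
    apply hx1
    rw [← hθ, ← sub_eq_zero.mp h, one_pow]
  have hStV : St V θ ≤ V := fun g hg => (mem_St.mp hg).1
  have hyfix : Fx (St V θ) (1 - θ) := by
    refine Fx.sub fx_one ?_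
    intro g hg
    exact (mem_St.mp hg).2
  obtain ⟨z, hz, hzl⟩ := norm_pow hl3 (St V θ) s hs hsl hrank (1 - θ) hθ1 hyfix
  have hprod : ∏ i ∈ range l, (s ^ i) • (1 - θ) = 1 - x := by
    have h1 : ∏ i ∈ range l, (s ^ i) • (1 - θ) = ∏ i ∈ range l, (1 - ω ^ i * θ) := by
      refine Finset.prod_congr rfl fun i _ => ?_
      rw [smul_sub, smul_one, pow_smul_eq hsω hi]
    rw [h1]
    have h2 := congrArg (Polynomial.eval (1 : E)) (X_pow_sub_C_eq_prod hω hl.out.pos hθ)
    simp only [Polynomial.eval_sub, Polynomial.eval_pow, Polynomial.eval_X, Polynomial.eval_C,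
      one_pow, Polynomial.eval_prod] at h2
    exact h2.symm
  rw [hprod] at hzl
  have hz0 : z ≠ 0 := by
    rintro rfl
    rw [zero_pow hl.out.ne_zero] at hzl
    exact hx1 (sub_eq_zero.mp hzl.symm).symm
  have h1x : Fx V (1 - x) := Fx.sub fx_one hx
  obtain ⟨j, -, hj⟩ := exists_smul_eq hω hzl h1x hz0 hsV
  refine ⟨-(j : ℤ), z * θ ^ (-(j : ℤ)), ?_, ?_⟩
  · apply hfix
    · refine hz.mul (Fx.zpow ?_ _)
      intro g hg
      exact (mem_St.mp hg).2
    · rw [smul_mul', smul_zpow', hj, hi, mul_zpow, zpow_neg, zpow_natCast]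
      have : ω ^ j ≠ 0 := pow_ne_zero _ (hω.ne_zero hl.out.ne_zero)
      field_simp
  · rw [mul_pow, hzl, ← hθ, ← zpow_natCast (θ ^ (-(j : ℤ))) l, ← zpow_mul, ← zpow_natCast θ l,
      ← zpow_mul, mul_comm (-(j : ℤ)) (l : ℤ)]

end Crest.Agent.R018.Rig4x931
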