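import Crest.Agent.R018.Places3_484
import Crest.Agent.R018.TameC_31
import Crest.Agent.R018.Rig4_931

/-!
# Local correspondence, group side A: pulled back Kummer characters, rank at most two
(row 18, helper484)
-/

set_option autoImplicit false

namespace Crest.Agent.R018.LCAx484

open Crest.Agent.R018.Tamex31
open Crest.Agent.R018.Rig4x931

/-- linear algebra: three characters, pairwise dependent on `I`, those trivial on `I` pairwise
dependent, are dependent. -/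
theorem rank_core {U C : Type*} [Group U] [CommGroup C] {l : ℕ} (hl : l.Prime)
    (π : Fin 3 → (U →* C)) (I : Set U)
    (hI : ∀ i j, ∃ m k : ℤ, IsCoprime m k ∧ ∀ u ∈ I, π i u ^ m * π j u ^ k = 1)
    (hU : ∀ e f : Fin 3 → ℤ, (∀ u ∈ I, ∏ i, π i u ^ e i = 1) → (∀ u ∈ I, ∏ i, π i u ^ f i = 1) →
      ∃ m k : ℤ, IsCoprime m k ∧ ∀ u, (∏ i, π i u ^ e i) ^ m * (∏ i, π i u ^ f i) ^ k = 1) :
    ∃ e : Fin 3 → ℤ, (∃ i, ¬ (l : ℤ) ∣ e i) ∧ ∀ u, ∏ i, π i u ^ e i = 1 := by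
  have hlp : Prime (l : ℤ) := Nat.prime_iff_prime_int.1 hl
  have hco : ∀ m k : ℤ, IsCoprime m k → (l : ℤ) ∣ m → (l : ℤ) ∣ k → False := by
    intro m k h h1 h2
    exact hlp.not_unit (h.isUnit_of_dvd' h1 h2)
  obtain ⟨m, k, hmk, h01⟩ := hI 0 1
  by_cases hk : (l : ℤ) ∣ k
  · have hm : ¬ (l : ℤ) ∣ m := fun h => hco m k hmk h hk
    obtain ⟨m', k', hmk', h12⟩ := hI 1 2
    obtain ⟨a, b, hab, h⟩ := hU ![m, k, 0] ![0, m', k'] (by
      intro u hu
      simpa [Fin.prod_univ_three] using h01 u hu) (by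
      intro u hu
      simpa [Fin.prod_univ_three] using h12 u hu)
    refine ⟨![a * m, a * k + b * m', b * k'], ?_, ?_⟩
    · by_contra hcon
      push Not at hcon
      have e0 := hcon 0
      have e1 := hcon 1
      have e2 := hcon 2
      simp only [Matrix.cons_val_zero, Matrix.cons_val_one, Matrix.cons_val_two,
        Matrix.head_cons, Matrix.tail_cons, Matrix.cons_val] at e0 e1 e2
      have ha : (l : ℤ) ∣ a := (hlp.dvd_or_dvd e0).resolve_right hm
      have hb : ¬ (l : ℤ) ∣ b := fun h => hco a b hab ha h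
      have hk' : (l : ℤ) ∣ k' := (hlp.dvd_or_dvd e2).resolve_left hb
      have hm' : (l : ℤ) ∣ b * m' := (dvd_add_right (Dvd.dvd.mul_right ha k)).1 e1
      exact hco m' k' hmk' ((hlp.dvd_or_dvd hm').resolve_left hb) hk'
    · intro u
      have := h u
      simp only [Fin.prod_univ_three, Matrix.cons_val_zero, Matrix.cons_val_one,
        Matrix.cons_val_two, Matrix.head_cons, Matrix.tail_cons, Matrix.cons_val, zpow_zero,
        mul_one, one_mul] at this ⊢
      rw [mul_zpow, mul_zpow, ← zpow_mul, ← zpow_mul, ← zpow_mul, ← zpow_mul] at this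
      rw [zpow_add, mul_comm a m, mul_comm a k, mul_comm b m', mul_comm b k', ← this]
      simp only [mul_assoc]
  · obtain ⟨m', k', hmk', h02⟩ := hI 0 2
    obtain ⟨a, b, hab, h⟩ := hU ![m, k, 0] ![m', 0, k'] (by
      intro u hu
      simpa [Fin.prod_univ_three] using h01 u hu) (by
      intro u hu
      simpa [Fin.prod_univ_three] using h02 u hu)
    refine ⟨![a * m + b * m', a * k, b * k'], ?_, ?_⟩
    · by_contra hcon
      push Not at hcon
      have e0 := hcon 0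
      have e1 := hcon 1
      have e2 := hcon 2
      simp only [Matrix.cons_val_zero, Matrix.cons_val_one, Matrix.cons_val_two,
        Matrix.head_cons, Matrix.tail_cons, Matrix.cons_val] at e0 e1 e2
      have ha : (l : ℤ) ∣ a := (hlp.dvd_or_dvd e1).resolve_right hk
      have hb : ¬ (l : ℤ) ∣ b := fun h => hco a b hab ha h
      have hk' : (l : ℤ) ∣ k' := (hlp.dvd_or_dvd e2).resolve_left hb
      have hm' : (l : ℤ) ∣ b * m' := (dvd_add_right (Dvd.dvd.mul_right ha m)).1 e0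
      exact hco m' k' hmk' ((hlp.dvd_or_dvd hm').resolve_left hb) hk'
    · intro u
      have := h u
      simp only [Fin.prod_univ_three, Matrix.cons_val_zero, Matrix.cons_val_one,
        Matrix.cons_val_two, Matrix.head_cons, Matrix.tail_cons, Matrix.cons_val, zpow_zero,
        mul_one, one_mul] at this ⊢
      rw [mul_zpow, mul_zpow, ← zpow_mul, ← zpow_mul, ← zpow_mul, ← zpow_mul] at this
      rw [zpow_add, mul_comm a m, mul_comm a k, mul_comm b m', mul_comm b k', ← this]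
      simp only [mul_assoc]
      congr 1
      rw [mul_left_comm]

section Kap

variable {F₁ E₁ F₂ E₂ : Type*} [Field F₁] [Field E₁] [Algebra F₁ E₁] [Field F₂] [Field E₂]
  [Algebra F₂ E₂]

/-- Data for the Kummer character of `y` on `U` (pulled back along `α`) at level `N`. -/
structure KData (α : (E₁ ≃ₐ[F₁] E₁) →* (E₂ ≃ₐ[F₂] E₂)) (U : Subgroup (E₁ ≃ₐ[F₁] E₁)) (N : ℕ)
    (y : E₂) : Prop where
  ne_zero : y ≠ 0
  fix : ∀ u ∈ U, α u (y ^ N) = y ^ N
  root : ∀ u ∈ U, ∀ z : E₂, z ^ N = 1 → α u z = z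

variable {α : (E₁ ≃ₐ[F₁] E₁) →* (E₂ ≃ₐ[F₂] E₂)} {U : Subgroup (E₁ ≃ₐ[F₁] E₁)} {N : ℕ} [NeZero N]
  {y : E₂}

theorem KData.mono {U' : Subgroup (E₁ ≃ₐ[F₁] E₁)} (h : KData α U N y) (hU : U' ≤ U) :
    KData α U' N y := ⟨h.ne_zero, fun u hu => h.fix u (hU hu), fun u hu => h.root u (hU hu)⟩

theorem KData.pow_eq_one (h : KData α U N y) {u : E₁ ≃ₐ[F₁] E₁} (hu : u ∈ U) :
    (α u y / y) ^ N = 1 := by
  rw [div_pow, ← map_pow, h.fix u hu, div_self (pow_ne_zero _ h.ne_zero)]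

/-- the Kummer character -/
noncomputable def KData.kap (h : KData α U N y) : U →* rootsOfUnity N E₂ where
  toFun u := rootsOfUnity.mkOfPowEq (α u y / y) (h.pow_eq_one u.2)
  map_one' := by
    ext
    simp [div_self h.ne_zero]
  map_mul' u v := by
    ext
    have h1 : α u (α v y / y) = α v y / y := h.root u u.2 _ (h.pow_eq_one v.2)
    rw [map_div₀] at h1
    have hy : α u y ≠ 0 := by simpa using h.ne_zero
    simp only [Subgroup.coe_mul, map_mul, AlgEquiv.mul_apply, rootsOfUnity.val_mkOfPowEq_coe,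
      Units.val_mul]
    have hy0 := h.ne_zero
    rw [div_eq_div_iff hy hy0] at h1
    field_simp
    linear_combination h1

theorem KData.kap_spec (h : KData α U N y) (u : U) :
    α (u : E₁ ≃ₐ[F₁] E₁) y = ((h.kap u : E₂ˣ) : E₂) * y := by
  have hy0 := h.ne_zero
  change _ = ((rootsOfUnity.mkOfPowEq (α u y / y) (h.pow_eq_one u.2) : E₂ˣ) : E₂) * y
  rw [rootsOfUnity.val_mkOfPowEq_coe]
  field_simp

theorem KData.kap_eq_one_iff (h : KData α U N y) (u : U) :
    h.kap u = 1 ↔ α (u : E₁ ≃ₐ[F₁] E₁) y = y := by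
  rw [h.kap_spec u]
  constructor
  · intro h1; rw [h1]; simp
  · intro h1
    have h2 : ((h.kap u : E₂ˣ) : E₂) = 1 := by
      have := mul_right_cancel₀ h.ne_zero (h1.trans (one_mul y).symm)
      exact this
    apply Subtype.ext
    apply Units.ext
    simpa using h2

theorem KData.openKer [Algebra.IsIntegral F₂ E₂] (h : KData α U N y) (hα : Continuous α) :
    OpenKer h.kap := by
  have h1 : IsOpen (MulAction.stabilizer (E₂ ≃ₐ[F₂] E₂) y : Set (E₂ ≃ₐ[F₂] E₂)) :=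
    stabilizer_isOpen_of_isIntegral y
  have h2 : (α ⁻¹' (MulAction.stabilizer (E₂ ≃ₐ[F₂] E₂) y : Set (E₂ ≃ₐ[F₂] E₂))) ∈
      nhds (1 : E₁ ≃ₐ[F₁] E₁) := by
    apply (h1.preimage hα).mem_nhds
    change α 1 ∈ MulAction.stabilizer (E₂ ≃ₐ[F₂] E₂) y
    rw [map_one]
    exact Subgroup.one_mem _
  rw [krullTopology_mem_nhds_one_iff] at h2
  obtain ⟨L, hL, hL'⟩ := h2
  refine ⟨L, hL, fun u hu => ?_⟩
  rw [h.kap_eq_one_iff]
  have h3 : (u : E₁ ≃ₐ[F₁] E₁) ∈ (L.fixingSubgroup : Set (E₁ ≃ₐ[F₁] E₁)) := by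
    intro x
    exact hu x x.2
  exact MulAction.mem_stabilizer_iff.1 (hL' h3)

end Kap

section Rank

variable {F₁ E₁ F₂ E₂ : Type*} [Field F₁] [Field E₁] [Algebra F₁ E₁] [Field F₂] [Field E₂]
  [Algebra F₂ E₂]

/-- unramified characters of `U` of order `l` are pairwise dependent -/
def UnrDep (A : ValuationSubring E₁) (l : ℕ) (U : Subgroup (E₁ ≃ₐ[F₁] E₁)) : Prop :=
  ∀ π₁ π₂ : U →* Multiplicative (ZMod l), OpenKer π₁ → OpenKer π₂ →
    (∀ u : U, (u : E₁ ≃ₐ[F₁] E₁) ∈ inS F₁ A → π₁ u = 1 ∧ π₂ u = 1) →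
    ∃ m k : ℤ, IsCoprime m k ∧ ∀ u, π₁ u ^ m * π₂ u ^ k = 1

/-- any two characters of a group of inertia elements are dependent -/
theorem dep_inertia [IsGalois F₁ E₁] {A : ValuationSubring E₁} (hA : RankOne A)
    {V : Subgroup (E₁ ≃ₐ[F₁] E₁)} (hV : V ≤ inS F₁ A) {N : ℕ} [NeZero N]
    (hN : A.valuation (N : E₁) = 1) {ζ : E₁} (hζ : IsPrimitiveRoot ζ N)
    {C : Type*} [CommGroup C] [Finite C] [IsCyclic C] (hC : Nat.card C = N) (π₁ π₂ : V →* C)
    (h₁ : OpenKer π₁) (h₂ : OpenKer π₂) :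
    ∃ m k : ℤ, IsCoprime m k ∧ ∀ x, π₁ x ^ m * π₂ x ^ k = 1 := by
  have hcard : Nat.card (rootsOfUnity N E₁) = N := hζ.card_rootsOfUnity
  have : IsCyclic (rootsOfUnity N E₁) := rootsOfUnity.isCyclic E₁ N
  let e : C ≃* rootsOfUnity N E₁ := mulEquivOfCyclicCardEq (by rw [hcard, hC])
  let φ : C →* E₁ˣ := (rootsOfUnity N E₁).subtype.comp e.toMonoidHom
  have hφ : Function.Injective φ := Subtype.val_injective.comp e.injective
  have hpow : ∀ c : C, φ c ^ N = 1 := fun c => (mem_rootsOfUnity N _).mp (e c).2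
  obtain ⟨m, k, hmk, h⟩ := char_dependent hA hV hN (χ₁ := φ.comp π₁) (χ₂ := φ.comp π₂)
    (h₁.comp _) (h₂.comp _) (fun x => hpow _) (fun x => hpow _)
  refine ⟨m, k, hmk, fun x => hφ ?_⟩
  rw [map_mul, map_zpow, map_zpow, map_one]
  exact h x

theorem openKer_mul {C : Type*} [CommGroup C] {U : Subgroup (E₁ ≃ₐ[F₁] E₁)} {π₁ π₂ : U →* C}
    (h₁ : OpenKer π₁) (h₂ : OpenKer π₂) : OpenKer (π₁ * π₂) := by
  obtain ⟨L₁, hL₁, h1⟩ := h₁
  obtain ⟨L₂, hL₂, h2⟩ := h₂
  refine ⟨L₁ ⊔ L₂, inferInstance, fun u hu => ?_⟩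
  rw [MonoidHom.mul_apply, h1 u (fun x hx => hu x (le_sup_left (a := L₁) hx)),
    h2 u (fun x hx => hu x (le_sup_right (a := L₁) hx)), one_mul]

theorem openKer_zpow {C : Type*} [CommGroup C] {U : Subgroup (E₁ ≃ₐ[F₁] E₁)} {π₁ : U →* C}
    (h₁ : OpenKer π₁) (n : ℤ) : OpenKer (π₁ ^ n) := by
  obtain ⟨L₁, hL₁, h1⟩ := h₁
  refine ⟨L₁, hL₁, fun u hu => ?_⟩
  rw [MonoidHom.zpow_apply, h1 u hu, one_zpow]

/-- the Kummer rank of the fixed field of `α(U)`, `U` inside a tame decomposition group, is at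
most two. -/
theorem rankLE [IsGalois F₁ E₁] [Algebra.IsIntegral F₂ E₂]
    {α : (E₁ ≃ₐ[F₁] E₁) →* (E₂ ≃ₐ[F₂] E₂)} (hα : Continuous α)
    {A : ValuationSubring E₁} (hA : RankOne A) {l : ℕ} [hl : Fact l.Prime]
    (hlA : A.valuation (l : E₁) = 1) {ζ₁ : E₁} (hζ₁ : IsPrimitiveRoot ζ₁ l)
    {ζ₂ : E₂} (hζ₂ : IsPrimitiveRoot ζ₂ l) (hroot : ∀ y : E₂, ∃ z, z ^ l = y)
    {U : Subgroup (E₁ ≃ₐ[F₁] E₁)} (hμ : ∀ u ∈ U, ∀ z : E₂, z ^ l = 1 → α u z = z)
    (hunr : UnrDep A l U) : RankLE E₂ l (U.map α) := by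
  intro b hb0 hbV
  choose β hβ using fun i => hroot (b i)
  have hl0 : l ≠ 0 := hl.out.ne_zero
  haveI : NeZero l := ⟨hl0⟩
  have hβ0 : ∀ i, β i ≠ 0 := by
    intro i h
    apply hb0 i
    rw [← hβ i, h, zero_pow hl0]
  have hK : ∀ i, KData α U l (β i) := by
    intro i
    refine ⟨hβ0 i, fun u hu => ?_, hμ⟩
    rw [hβ i]
    exact hbV i (α u) (Subgroup.mem_map_of_mem α hu)
  have hcard : Nat.card (rootsOfUnity l E₂) = l := hζ₂.card_rootsOfUnity
  have hcyc : IsCyclic (rootsOfUnity l E₂) := rootsOfUnity.isCyclic E₂ l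
  let e : rootsOfUnity l E₂ ≃* Multiplicative (ZMod l) :=
    mulEquivOfCyclicCardEq (by rw [hcard]; simp)
  let π : Fin 3 → (U →* Multiplicative (ZMod l)) := fun i => e.toMonoidHom.comp (hK i).kap
  have hπo : ∀ i, OpenKer (π i) := fun i => ((hK i).openKer hα).comp _
  obtain ⟨f, hf, h⟩ := rank_core hl.out π {u : U | (u : E₁ ≃ₐ[F₁] E₁) ∈ inS F₁ A} (by
    intro i j
    have hV : U ⊓ inS F₁ A ≤ inS F₁ A := inf_le_right
    obtain ⟨m, k, hmk, h⟩ := dep_inertia hA hV hlA hζ₁ (C := Multiplicative (ZMod l)) (by simp)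
      ((π i).comp (Subgroup.inclusion inf_le_left)) ((π j).comp (Subgroup.inclusion inf_le_left))
      ((hπo i).restrict inf_le_left) ((hπo j).restrict inf_le_left)
    exact ⟨m, k, hmk, fun u hu => h ⟨u.1, u.2, hu⟩⟩) (by
    intro e₁ e₂ h₁ h₂
    have := hunr (∏ i, π i ^ e₁ i) (∏ i, π i ^ e₂ i) (by
      rw [Fin.prod_univ_three]
      exact openKer_mul (openKer_mul (openKer_zpow (hπo 0) _) (openKer_zpow (hπo 1) _))
        (openKer_zpow (hπo 2) _)) (by
      rw [Fin.prod_univ_three]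
      exact openKer_mul (openKer_mul (openKer_zpow (hπo 0) _) (openKer_zpow (hπo 1) _))
        (openKer_zpow (hπo 2) _)) (by
      intro u hu
      constructor
      · have := h₁ u hu
        rw [← this]
        simp [Fin.prod_univ_three]
      · have := h₂ u hu
        rw [← this]
        simp [Fin.prod_univ_three])
    obtain ⟨m, k, hmk, h⟩ := this
    refine ⟨m, k, hmk, fun u => ?_⟩
    have := h u
    simpa [Fin.prod_univ_three] using this)
  refine ⟨f, hf, ∏ i, β i ^ f i, ?_, ?_⟩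
  · rintro g ⟨u, hu, rfl⟩
    have h1 := h ⟨u, hu⟩
    have h2 : ∏ i, ((hK i).kap ⟨u, hu⟩) ^ f i = 1 := by
      apply e.injective
      rw [map_prod, map_one, ← h1]
      refine Finset.prod_congr rfl fun i _ => ?_
      rw [map_zpow]; rfl
    change α u (∏ i, β i ^ f i) = _
    rw [map_prod]
    have h3 : ∀ i, α u (β i ^ f i) =
        (((((hK i).kap ⟨u, hu⟩) ^ f i : rootsOfUnity l E₂) : E₂ˣ) : E₂) * β i ^ f i := by
      intro i
      rw [map_zpow₀, show α u (β i) = _ from (hK i).kap_spec ⟨u, hu⟩, mul_zpow]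
      simp
    rw [Finset.prod_congr rfl fun i _ => h3 i, Finset.prod_mul_distrib]
    have h4 : ∏ i, (((((hK i).kap ⟨u, hu⟩) ^ f i : rootsOfUnity l E₂) : E₂ˣ) : E₂) = 1 := by
      have := congrArg (fun z : rootsOfUnity l E₂ => ((z : E₂ˣ) : E₂)) h2
      simpa using this
    rw [h4, one_mul]
  · rw [← Finset.prod_pow]
    refine Finset.prod_congr rfl fun i _ => ?_
    rw [← hβ i, ← zpow_natCast, ← zpow_natCast, ← zpow_mul, ← zpow_mul, mul_comm]

end Rank

end Crest.Agent.R018.LCAx484
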