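import Crest.Agent.R018.LCA_484
import Crest.Agent.R018.TameD_31
import Crest.Agent.R018.TameP_31

/-!
# Local correspondence, group side B: cyclotomic compatibility, rank at least two
(row 18, helper484)
-/

set_option autoImplicit false

open NumberField Pointwise

namespace Crest.Agent.R018.LCBx484

open Crest.Agent.R018.Placesx484
open Crest.Agent.R018.Placesx484.Place
open Crest.Agent.R018.Tamex31
open Crest.Agent.R018.Rig4x931
open Crest.Agent.R018.LCAx484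

/-- lifting the exponent, in the form used below -/
theorem lte_aux {l : ℕ} (hl : l.Prime) (hl2 : l ≠ 2) {a : ℤ} (ha : (l : ℤ) ∣ a - 1) {N k j : ℕ}
    (hN : ¬ l ^ (k + 1) ∣ N) (h : (l : ℤ) ^ (j + k) ∣ a ^ N - 1) : (l : ℤ) ^ j ∣ a - 1 := by
  have hla : ¬ (l : ℤ) ∣ a := by
    intro h1
    have h2 : (l : ℤ) ∣ 1 := by
      have := dvd_sub h1 ha
      simpa using this
    exact (Nat.prime_iff_prime_int.1 hl).not_unit (isUnit_of_dvd_one h2)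
  have h1 := Int.emultiplicity_pow_sub_pow hl (hl.odd_of_ne_two hl2) (x := a) (y := 1)
    (by simpa using ha) hla N
  rw [one_pow] at h1
  rw [pow_dvd_iff_le_emultiplicity] at h ⊢
  rw [h1] at h
  have h2 : emultiplicity l N ≤ k := by
    have : emultiplicity l N < (k + 1 : ℕ) := emultiplicity_lt_iff_not_dvd.2 hN
    exact Order.le_of_lt_add_one (by exact_mod_cast this)
  have h3 : ((j + k : ℕ) : ℕ∞) ≤ emultiplicity (l : ℤ) (a - 1) + k :=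
    h.trans (by gcongr)
  push_cast at h3
  exact (ENat.add_le_add_iff_right (ENat.coe_ne_top k)).1 h3

theorem prim_pow_mod {M : Type*} [CommMonoid M] {ζ : M} {k i j : ℕ} (h : IsPrimitiveRoot ζ k)
    (hk : 0 < k) (H : ζ ^ i = ζ ^ j) : i % k = j % k := by
  apply h.pow_inj (Nat.mod_lt _ hk) (Nat.mod_lt _ hk)
  have h1 : ∀ m, ζ ^ (m % k) = ζ ^ m := fun m => by
    conv_lhs => rw [h.eq_orderOf, pow_mod_orderOf]
  rw [h1, h1, H]

section

variable {F₁ E₁ F₂ E₂ : Type*} [Field F₁] [Field E₁] [Algebra F₁ E₁] [Field F₂] [Field E₂]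
  [Algebra F₂ E₂] [IsGalois F₁ E₁]
  {α : (E₁ ≃ₐ[F₁] E₁) →* (E₂ ≃ₐ[F₂] E₂)} {A : ValuationSubring E₁}

theorem card_ker_unitsMap {l n : ℕ} (hl : l.Prime) (hn : 0 < n) :
    Nat.card (ZMod.unitsMap (dvd_pow_self l hn.ne')).ker ∣ l ^ n := by
  haveI : Fact l.Prime := ⟨hl⟩
  haveI : NeZero (l ^ n) := ⟨pow_ne_zero _ hl.ne_zero⟩
  haveI : NeZero l := ⟨hl.ne_zero⟩
  have h1 := Subgroup.card_mul_index (ZMod.unitsMap (dvd_pow_self l hn.ne')).ker
  rw [Subgroup.index_ker, MonoidHom.range_eq_top.2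
    (ZMod.unitsMap_surjective (dvd_pow_self l hn.ne')), Subgroup.card_top] at h1
  have h2 : Nat.card (ZMod (l ^ n))ˣ = l ^ (n - 1) * (l - 1) := by
    rw [Nat.card_eq_fintype_card, ZMod.card_units_eq_totient, Nat.totient_prime_pow hl hn]
  have h3 : Nat.card (ZMod l)ˣ = l - 1 := by
    rw [Nat.card_eq_fintype_card, ZMod.card_units_eq_totient, Nat.totient_prime hl]
  rw [h2, h3] at h1
  have h4 : 0 < l - 1 := by have := hl.two_le; omega
  have h5 := Nat.eq_of_mul_eq_mul_right h4 h1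
  rw [h5]
  exact pow_dvd_pow _ (Nat.sub_le _ _)

/-- (B1) inertia acts trivially, through `α`, on the `l`-power roots of unity -/
theorem cyc_inertia [Algebra.IsIntegral F₂ E₂] (hα : Continuous α) {l : ℕ} (hl : l.Prime)
    (hl2 : l ≠ 2) (hlA : A.valuation (l : E₁) = 1)
    (hr₁ : ∀ n, ∃ ζ : E₁, IsPrimitiveRoot ζ (l ^ n))
    (hr₂ : ∀ n, ∃ ζ : E₂, IsPrimitiveRoot ζ (l ^ n))
    {U : Subgroup (E₁ ≃ₐ[F₁] E₁)} (hUA : U ≤ decS F₁ A)
    (hμ : ∀ u ∈ U, ∀ z : E₂, z ^ l = 1 → α u z = z)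
    {s : E₁ ≃ₐ[F₁] E₁} (hs : s ∈ U) {c : ℕ} (hc : 2 ≤ c)
    (hsc : ∀ n, ∀ ζ : E₁, ζ ^ (l ^ n) = 1 → s ζ = ζ ^ c)
    {x : E₁ ≃ₐ[F₁] E₁} (hx : x ∈ U) (hxI : x ∈ inS F₁ A) (j : ℕ) (z : E₂)
    (hz : z ^ (l ^ j) = 1) : α x z = z := by
  haveI : Fact l.Prime := ⟨hl⟩
  -- the exponent
  obtain ⟨k, hk⟩ : ∃ k : ℕ, ¬ l ^ (k + 1) ∣ (c - 1) := by
    refine ⟨c, fun h => ?_⟩
    have h1 := Nat.le_of_dvd (by omega) h
    have h2 : c < l ^ c := Nat.lt_pow_self hl.one_lt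
    have h3 : l ^ c ≤ l ^ (c + 1) := Nat.pow_le_pow_right hl.pos (by omega)
    omega
  set n := j + k + 1 with hn
  have hn0 : 0 < n := by omega
  haveI : NeZero (l ^ n) := ⟨pow_ne_zero _ hl.ne_zero⟩
  haveI : NeZero l := ⟨hl.ne_zero⟩
  obtain ⟨ζ₁, hζ₁⟩ := hr₁ n
  obtain ⟨ζ₂, hζ₂⟩ := hr₂ n
  let V : Subgroup (E₁ ≃ₐ[F₁] E₁) := U ⊓ inS F₁ A
  have hdvd : l ∣ l ^ n := dvd_pow_self l hn0.ne'
  -- the cyclotomic action
  let a : (E₁ ≃ₐ[F₁] E₁) →* (ZMod (l ^ n))ˣ := (hζ₂.autToPow F₂).comp α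
  have ha : ∀ g, ζ₂ ^ ((a g : (ZMod (l ^ n))ˣ) : ZMod (l ^ n)).val = α g ζ₂ :=
    fun g => hζ₂.autToPow_spec F₂ (α g)
  have hamem : ∀ v : V, a v ∈ (ZMod.unitsMap hdvd).ker := by
    intro v
    rw [MonoidHom.mem_ker]
    -- action on `ζ₂ ^ (l ^ (n-1))` is trivial
    have h1 : (ζ₂ ^ (l ^ (n - 1))) ^ l = 1 := by
      rw [← pow_mul, ← pow_succ, Nat.sub_add_cancel hn0, hζ₂.pow_eq_one]
    have h2 := hμ v v.2.1 _ h1
    rw [map_pow, ← ha, ← pow_mul, mul_comm, pow_mul] at h2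
    have hprim : IsPrimitiveRoot (ζ₂ ^ (l ^ (n - 1))) l :=
      hζ₂.pow (pow_pos hl.pos _) (by rw [← pow_succ, Nat.sub_add_cancel hn0])
    have h3 : (ζ₂ ^ (l ^ (n - 1))) ^ ((a v : (ZMod (l ^ n))ˣ) : ZMod (l ^ n)).val =
        (ζ₂ ^ (l ^ (n - 1))) ^ 1 := by rw [h2, pow_one]
    have h4 := prim_pow_mod hprim hl.pos h3
    ext
    rw [ZMod.unitsMap_def, Units.coe_map]
    change ZMod.castHom hdvd (ZMod l) ((a v : (ZMod (l ^ n))ˣ) : ZMod (l ^ n)) = 1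
    rw [← ZMod.natCast_zmod_val ((a v : (ZMod (l ^ n))ˣ) : ZMod (l ^ n)), map_natCast]
    have h5 : ((((a v : (ZMod (l ^ n))ˣ) : ZMod (l ^ n)).val : ℕ) : ZMod l) = ((1 : ℕ) : ZMod l) :=
      (ZMod.natCast_eq_natCast_iff _ _ _).2 h4
    rw [h5, Nat.cast_one]
  let π : V →* (ZMod.unitsMap hdvd).ker := (a.comp V.subtype).codRestrict _ hamem
  have hπ : OpenKer π := by
    have h1 : IsOpen (MulAction.stabilizer (E₂ ≃ₐ[F₂] E₂) ζ₂ : Set (E₂ ≃ₐ[F₂] E₂)) :=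
      stabilizer_isOpen_of_isIntegral ζ₂
    have h2 : (α ⁻¹' (MulAction.stabilizer (E₂ ≃ₐ[F₂] E₂) ζ₂ : Set (E₂ ≃ₐ[F₂] E₂))) ∈
        nhds (1 : E₁ ≃ₐ[F₁] E₁) := by
      apply (h1.preimage hα).mem_nhds
      change α 1 ∈ MulAction.stabilizer (E₂ ≃ₐ[F₂] E₂) ζ₂
      rw [map_one]
      exact Subgroup.one_mem _
    rw [krullTopology_mem_nhds_one_iff] at h2
    obtain ⟨L, hL, hL'⟩ := h2
    refine ⟨L, hL, fun u hu => ?_⟩
    have h3 : (u : E₁ ≃ₐ[F₁] E₁) ∈ (L.fixingSubgroup : Set (E₁ ≃ₐ[F₁] E₁)) := by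
      intro x
      exact hu x x.2
    have h4 : α (u : E₁ ≃ₐ[F₁] E₁) ζ₂ = ζ₂ := MulAction.mem_stabilizer_iff.1 (hL' h3)
    apply Subtype.ext
    change a u = 1
    have h5 := ha u
    rw [h4] at h5
    have h6 : ((a u : (ZMod (l ^ n))ˣ) : ZMod (l ^ n)).val = 1 % (l ^ n) := by
      have := prim_pow_mod hζ₂ (pow_pos hl.pos _) (h5.trans (pow_one ζ₂).symm)
      rwa [Nat.mod_eq_of_lt (ZMod.val_lt _)] at this
    ext
    rw [Units.val_one]
    apply ZMod.val_injective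
    rw [h6, ZMod.val_one_eq_one_mod]
  have hcyc : IsCyclic (ZMod (l ^ n))ˣ := ZMod.isCyclic_units_of_prime_pow l hl hl2 n
  have hN : A.valuation ((l ^ n : ℕ) : E₁) = 1 := by
    rw [Nat.cast_pow, map_pow, hlA, one_pow]
  have hsV : ∀ y ∈ V, s * y * s⁻¹ ∈ V := fun y hy =>
    ⟨U.mul_mem (U.mul_mem hs hy.1) (U.inv_mem hs), conj_mem_inS (hUA hs) hy.2⟩
  have key := conj_eq_pow (inf_le_right : V ≤ inS F₁ A) hN hζ₁
    (card_ker_unitsMap hl hn0) π hπ (hUA hs) hsV (hsc n ζ₁ hζ₁.pow_eq_one) ⟨x, hx, hxI⟩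
  have key2 : a (s * x * s⁻¹) = a x ^ c := congrArg Subtype.val key
  have key3 : a x ^ (c - 1) = 1 := by
    rw [map_mul, map_mul, map_inv, mul_inv_cancel_comm] at key2
    have h1 : a x ^ (c - 1) * a x = 1 * a x := by
      rw [← pow_succ, Nat.sub_add_cancel (by omega), ← key2, one_mul]
    exact mul_right_cancel h1
  set b : ℕ := ((a x : (ZMod (l ^ n))ˣ) : ZMod (l ^ n)).val with hb
  have hbcast : ((b : ℕ) : ZMod (l ^ n)) = ((a x : (ZMod (l ^ n))ˣ) : ZMod (l ^ n)) :=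
    ZMod.natCast_zmod_val _
  have h1 : ((l : ℤ) ^ n) ∣ (b : ℤ) ^ (c - 1) - 1 := by
    have h2 : (((b : ℤ) ^ (c - 1) - 1 : ℤ) : ZMod (l ^ n)) = 0 := by
      push_cast
      rw [hbcast, ← Units.val_pow_eq_pow_val, key3, Units.val_one, sub_self]
    have := (ZMod.intCast_zmod_eq_zero_iff_dvd _ _).1 h2
    exact_mod_cast this
  have h2 : (l : ℤ) ∣ (b : ℤ) - 1 := by
    have h3 := hamem ⟨x, hx, hxI⟩
    rw [MonoidHom.mem_ker] at h3
    have h4 := congrArg (fun u : (ZMod l)ˣ => (u : ZMod l)) h3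
    simp only [ZMod.unitsMap_def, Units.coe_map, Units.val_one] at h4
    change ZMod.castHom hdvd (ZMod l) ((a x : (ZMod (l ^ n))ˣ) : ZMod (l ^ n)) = 1 at h4
    rw [← hbcast, map_natCast] at h4
    have h5 : (((b : ℤ) - 1 : ℤ) : ZMod l) = 0 := by
      push_cast; rw [h4, sub_self]
    exact (ZMod.intCast_zmod_eq_zero_iff_dvd _ _).1 h5
  have h3 : (l : ℤ) ^ (j + 1) ∣ (b : ℤ) - 1 := by
    apply lte_aux hl hl2 h2 hk
    have : j + 1 + k = n := by omega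
    rw [this]; exact h1
  -- conclusion
  have hbz : ∀ w : E₂, w ^ (l ^ n) = 1 → α x w = w ^ b := by
    intro w hw
    obtain ⟨i, _, hi⟩ := hζ₂.eq_pow_of_pow_eq_one hw
    rw [← hi, map_pow, ← ha, ← hb, ← pow_mul, ← pow_mul, mul_comm]
  have hzn : z ^ (l ^ n) = 1 := by
    have : l ^ n = l ^ j * l ^ (k + 1) := by rw [← pow_add]; congr 1
    rw [this, pow_mul, hz, one_pow]
  rw [hbz z hzn]
  have h4 : (l : ℤ) ^ j ∣ (b : ℤ) - 1 := (pow_dvd_pow _ (Nat.le_succ j)).trans h3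
  have hb1 : 1 ≤ b := by
    by_contra hcon
    have hb0 : b = 0 := by omega
    rw [hb0] at h2
    have h5 : (l : ℤ) ∣ 1 := by simpa using h2
    exact (Nat.prime_iff_prime_int.1 hl).not_isUnit (isUnit_of_dvd_one h5)
  have h5 : l ^ j ∣ b - 1 := by
    have : ((l ^ j : ℕ) : ℤ) ∣ ((b - 1 : ℕ) : ℤ) := by
      rw [Nat.cast_sub hb1]; push_cast; exact h4
    exact_mod_cast this
  obtain ⟨t, ht⟩ := h5
  have hbt : b = l ^ j * t + 1 := by omega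
  rw [hbt, pow_succ, pow_mul, hz, one_pow, one_mul]

/-- (B2) cyclotomic compatibility on a group with a ramified Kummer element -/
theorem cyc_compat [Algebra.IsIntegral F₂ E₂] (hα : Continuous α) {l : ℕ} (hl : l.Prime)
    (hlA : A.valuation (l : E₁) = 1)
    {U : Subgroup (E₁ ≃ₐ[F₁] E₁)} (hUA : U ≤ decS F₁ A) {n : ℕ}
    {ζ₁ : E₁} (hζ₁ : IsPrimitiveRoot ζ₁ (l ^ n)) {ζ₂ : E₂} (hζ₂ : IsPrimitiveRoot ζ₂ (l ^ n))
    (hμ : ∀ u ∈ U, u ∈ inS F₁ A → ∀ z : E₂, z ^ (l ^ n) = 1 → α u z = z)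
    {y : E₂} (hy0 : y ≠ 0) (hy : ∀ u ∈ U, α u (y ^ (l ^ n)) = y ^ (l ^ n))
    {x : E₁ ≃ₐ[F₁] E₁} (hx : x ∈ U) (hxI : x ∈ inS F₁ A) {m : ℕ}
    (hxy : α x (y ^ (l ^ m)) ≠ y ^ (l ^ m))
    {s : E₁ ≃ₐ[F₁] E₁} (hs : s ∈ U) {c : ℕ} (hsc : s ζ₁ = ζ₁ ^ c) (z : E₂)
    (hz : z ^ (l ^ (m + 1)) = 1) : α s z = z ^ c := by
  haveI : Fact l.Prime := ⟨hl⟩
  haveI : NeZero (l ^ n) := ⟨pow_ne_zero _ hl.ne_zero⟩
  haveI : NeZero l := ⟨hl.ne_zero⟩
  let V : Subgroup (E₁ ≃ₐ[F₁] E₁) := U ⊓ inS F₁ A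
  have hK : KData α V (l ^ n) y := ⟨hy0, fun u hu => hy u hu.1, fun u hu => hμ u hu.1 hu.2⟩
  have hcyc : IsCyclic (rootsOfUnity (l ^ n) E₂) := rootsOfUnity.isCyclic E₂ (l ^ n)
  have hcard : Nat.card (rootsOfUnity (l ^ n) E₂) = l ^ n := hζ₂.card_rootsOfUnity
  have hN : A.valuation ((l ^ n : ℕ) : E₁) = 1 := by
    rw [Nat.cast_pow, map_pow, hlA, one_pow]
  have hsV : ∀ y ∈ V, s * y * s⁻¹ ∈ V := fun y hy =>
    ⟨U.mul_mem (U.mul_mem hs hy.1) (U.inv_mem hs), conj_mem_inS (hUA hs) hy.2⟩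
  have key := conj_eq_pow (inf_le_right : V ≤ inS F₁ A) hN hζ₁ (by rw [hcard])
    hK.kap (hK.openKer hα) (hUA hs) hsV hsc ⟨x, hx, hxI⟩
  set κ : E₂ := ((hK.kap ⟨x, hx, hxI⟩ : E₂ˣ) : E₂) with hκ
  have hκy : α x y = κ * y := hK.kap_spec ⟨x, hx, hxI⟩
  have hκn : κ ^ (l ^ n) = 1 := by
    have := (mem_rootsOfUnity (l ^ n) _).1 (hK.kap ⟨x, hx, hxI⟩).2
    rw [hκ, ← Units.val_pow_eq_pow_val, this, Units.val_one]
  have h1 : α (s * x * s⁻¹) y = κ ^ c * y := by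
    have := hK.kap_spec ⟨s * x * s⁻¹, hsV x ⟨hx, hxI⟩⟩
    rw [key] at this
    simpa [hκ] using this
  -- direct computation
  set w := α s⁻¹ y with hw
  have hsw : α s w = y := by
    rw [hw, ← AlgEquiv.mul_apply, ← map_mul, mul_inv_cancel, map_one, AlgEquiv.one_apply]
  have hwn : w ^ (l ^ n) = y ^ (l ^ n) := by
    rw [hw, ← map_pow, hy _ (U.inv_mem hs)]
  set η := w / y with hη
  have hηn : η ^ (l ^ n) = 1 := by
    rw [hη, div_pow, hwn, div_self (pow_ne_zero _ hy0)]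
  have hwη : w = η * y := by rw [hη]; field_simp
  have h2 : α (s * x * s⁻¹) y = α s κ * y := by
    rw [map_mul, map_mul, AlgEquiv.mul_apply, AlgEquiv.mul_apply, ← hw, hwη, map_mul,
      hμ x hx hxI η hηn, hκy]
    have : η * (κ * y) = κ * w := by rw [hwη]; ring
    rw [this, map_mul, hsw]
  have h3 : α s κ = κ ^ c := mul_right_cancel₀ hy0 (h2.symm.trans h1)
  -- `κ` is primitive of high order
  have hκ1 : κ ^ (l ^ m) ≠ 1 := by
    intro h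
    apply hxy
    rw [map_pow, hκy, mul_pow, h, one_mul]
  obtain ⟨k, _, hk⟩ := (Nat.dvd_prime_pow hl).1 (orderOf_dvd_of_pow_eq_one hκn)
  have hmk : m + 1 ≤ k := by
    by_contra hcon
    apply hκ1
    rw [← orderOf_dvd_iff_pow_eq_one, hk]
    exact pow_dvd_pow _ (by omega)
  have hprim : IsPrimitiveRoot κ (l ^ k) := by
    rw [← hk]; exact IsPrimitiveRoot.orderOf κ
  have hzk : z ^ (l ^ k) = 1 := by
    obtain ⟨r, rfl⟩ := Nat.exists_eq_add_of_le hmk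
    rw [pow_add, pow_mul, hz, one_pow]
  haveI : NeZero (l ^ k) := ⟨pow_ne_zero _ hl.ne_zero⟩
  obtain ⟨i, _, hi⟩ := hprim.eq_pow_of_pow_eq_one hzk
  rw [← hi, map_pow, h3, ← pow_mul, ← pow_mul, mul_comm]

/-- the Kummer group of the fixed field of `V` has rank at least two -/
def RankGE {G : Type*} [Group G] (E : Type*) [Field E] [MulSemiringAction G E] (l : ℕ)
    (V : Subgroup G) : Prop :=
  ∃ b c : E, b ≠ 0 ∧ c ≠ 0 ∧ Fx V b ∧ Fx V c ∧
    ∀ m n : ℤ, (∃ z, Fx V z ∧ z ^ l = b ^ m * c ^ n) → (l : ℤ) ∣ m ∧ (l : ℤ) ∣ n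

theorem exists_pow_root {K : Type*} [Field K] {l : ℕ} (h : ∀ y : K, ∃ z, z ^ l = y) (n : ℕ)
    (y : K) : ∃ z, z ^ (l ^ n) = y := by
  induction n generalizing y with
  | zero => exact ⟨y, by rw [pow_zero, pow_one]⟩
  | succ n ih =>
    obtain ⟨w, hw⟩ := h y
    obtain ⟨z, hz⟩ := ih w
    exact ⟨z, by rw [pow_succ, pow_mul, hz, hw]⟩

theorem coprime_pow_ne_one {K : Type*} [Field K] {l n : ℕ} (hl : l.Prime) {κ : K}
    (h1 : κ ^ (l ^ n) = 1) (hκ : κ ≠ 1) {k : ℤ} (hk : ¬ (l : ℤ) ∣ k) : κ ^ k ≠ 1 := by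
  intro h
  apply hκ
  have hκ0 : κ ≠ 0 := by
    rintro rfl
    rw [zero_pow (pow_ne_zero _ hl.ne_zero)] at h1
    exact zero_ne_one h1
  have hco : IsCoprime ((l : ℤ) ^ n) k :=
    IsCoprime.pow_left ((Prime.coprime_iff_not_dvd (Nat.prime_iff_prime_int.1 hl)).2 hk)
  obtain ⟨a, b, hab⟩ := hco
  have : κ ^ (a * (l : ℤ) ^ n + b * k) = 1 := by
    rw [zpow_add₀ hκ0, mul_comm a, mul_comm b, zpow_mul, zpow_mul, h, one_zpow, mul_one]
    have : κ ^ ((l : ℤ) ^ n) = 1 := by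
      have h2 : ((l : ℤ) ^ n) = ((l ^ n : ℕ) : ℤ) := by push_cast; rfl
      rw [h2, zpow_natCast, h1]
    rw [this, one_zpow]
  rwa [hab, zpow_one] at this

/-- (B3) rank at least two from a ramified Kummer element of some level -/
theorem rankGE [Algebra.IsIntegral F₂ E₂] (hα : Continuous α) {l : ℕ} (hl : l.Prime)
    (hl2 : l ≠ 2) (hlA : A.valuation (l : E₁) = 1)
    (hr₁ : ∀ n, ∃ ζ : E₁, IsPrimitiveRoot ζ (l ^ n))
    (hr₂ : ∀ n, ∃ ζ : E₂, IsPrimitiveRoot ζ (l ^ n))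
    (hroot : ∀ y : E₂, ∃ z, z ^ l = y)
    {U : Subgroup (E₁ ≃ₐ[F₁] E₁)} (hUA : U ≤ decS F₁ A)
    (hμ : ∀ u ∈ U, ∀ z : E₂, z ^ l = 1 → α u z = z)
    {s : E₁ ≃ₐ[F₁] E₁} (hs : s ∈ U) {c : ℕ} (hc : 2 ≤ c)
    (hsc : ∀ n, ∀ ζ : E₁, ζ ^ (l ^ n) = 1 → s ζ = ζ ^ c)
    (hunr : UnrDep A l U)
    {x : E₁ ≃ₐ[F₁] E₁} (hx : x ∈ U) (hxI : x ∈ inS F₁ A) {n : ℕ} {y : E₂} (hy0 : y ≠ 0)
    (hy : ∀ u ∈ U, α u (y ^ (l ^ n)) = y ^ (l ^ n)) (hxy : α x y ≠ y) :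
    RankGE E₂ l (U.map α) := by
  haveI : Fact l.Prime := ⟨hl⟩
  haveI : NeZero l := ⟨hl.ne_zero⟩
  have hI : ∀ u ∈ U, u ∈ inS F₁ A → ∀ j, ∀ z : E₂, z ^ (l ^ j) = 1 → α u z = z :=
    fun u hu huI j z hz => cyc_inertia hα hl hl2 hlA hr₁ hr₂ hUA hμ hs hc hsc hu huI j z hz
  -- `s` acts as `c` on all `l`-power roots of unity of `E₂`
  have hsz : ∀ j, ∀ z : E₂, z ^ (l ^ j) = 1 → α s z = z ^ c := by
    intro j z hz
    obtain ⟨Y, hY⟩ := exists_pow_root hroot j y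
    obtain ⟨ζ₁, hζ₁⟩ := hr₁ (n + j)
    obtain ⟨ζ₂, hζ₂⟩ := hr₂ (n + j)
    have hY0 : Y ≠ 0 := by
      rintro rfl
      rw [zero_pow (pow_ne_zero _ hl.ne_zero)] at hY
      exact hy0 hY.symm
    refine cyc_compat hα hl hlA hUA (n := n + j) hζ₁ hζ₂ (fun u hu huI => hI u hu huI _) hY0 ?_
      hx hxI (m := j) ?_ hs (hsc _ _ hζ₁.pow_eq_one) z ?_
    · intro u hu
      have : Y ^ (l ^ (n + j)) = y ^ (l ^ n) := by
        rw [pow_add, mul_comm, pow_mul, hY]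
      rw [this]; exact hy u hu
    · rw [hY]; exact hxy
    · rw [pow_succ, pow_mul, hz, one_pow]
  -- the level `k`
  have hex : ∃ j, ∃ u ∈ U, ∃ z : E₂, z ^ (l ^ j) = 1 ∧ α u z ≠ z := by
    obtain ⟨ζ, hζ⟩ := hr₂ c
    refine ⟨c, s, hs, ζ, hζ.pow_eq_one, fun h => ?_⟩
    have h1 := hsz c ζ hζ.pow_eq_one
    rw [h] at h1
    have h2 := prim_pow_mod hζ (pow_pos hl.pos _) ((pow_one ζ).trans h1)
    have h3 : c < l ^ c := Nat.lt_pow_self hl.one_lt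
    rw [Nat.mod_eq_of_lt (by omega), Nat.mod_eq_of_lt h3] at h2
    omega
  classical
  obtain ⟨u₀, hu₀, z₀, hz₀, hu₀z₀⟩ := Nat.find_spec hex
  set J := Nat.find hex with hJ
  have hJmin : ∀ j < J, ∀ u ∈ U, ∀ z : E₂, z ^ (l ^ j) = 1 → α u z = z := by
    intro j hj u hu z hz
    by_contra hcon
    exact Nat.find_min hex hj ⟨u, hu, z, hz, hcon⟩
  have hJ1 : 2 ≤ J := by
    by_contra hcon
    have : J = 0 ∨ J = 1 := by omega
    rcases this with h | h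
    · rw [h, pow_zero, pow_one] at hz₀
      apply hu₀z₀
      rw [hz₀, map_one]
    · rw [h, pow_one] at hz₀
      exact hu₀z₀ (hμ u₀ hu₀ z₀ hz₀)
  obtain ⟨γ, hγ⟩ := hr₂ J
  haveI : NeZero (l ^ J) := ⟨pow_ne_zero _ hl.ne_zero⟩
  have hγ0 : γ ≠ 0 := hγ.ne_zero (pow_ne_zero _ hl.ne_zero)
  have hγu : α u₀ γ ≠ γ := by
    intro h
    apply hu₀z₀
    obtain ⟨i, _, hi⟩ := hγ.eq_pow_of_pow_eq_one hz₀
    rw [← hi, map_pow, h]
  have hγl : ∀ u ∈ U, α u (γ ^ l) = γ ^ l := by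
    intro u hu
    apply hJmin (J - 1) (by omega) u hu
    rw [← pow_mul, ← pow_succ', Nat.sub_add_cancel (by omega), hγ.pow_eq_one]
  have hKγ : KData α U l γ := ⟨hγ0, hγl, hμ⟩
  -- the ramified element of level one
  obtain ⟨e, -⟩ : ∃ _e : rootsOfUnity l E₂ ≃* Multiplicative (ZMod l), True := by
    obtain ⟨ζ, hζ⟩ := hr₂ 1
    rw [pow_one] at hζ
    have hcard : Nat.card (rootsOfUnity l E₂) = l := hζ.card_rootsOfUnity
    have hcyc : IsCyclic (rootsOfUnity l E₂) := rootsOfUnity.isCyclic E₂ l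
    exact ⟨mulEquivOfCyclicCardEq (by rw [hcard]; simp), trivial⟩
  have hstep : ∀ n : ℕ, ∀ y : E₂, y ≠ 0 → (∀ u ∈ U, α u (y ^ (l ^ n)) = y ^ (l ^ n)) →
      α x y ≠ y → ∃ β : E₂, β ≠ 0 ∧ (∀ u ∈ U, α u (β ^ l) = β ^ l) ∧
        ∃ x' ∈ U, x' ∈ inS F₁ A ∧ α x' β ≠ β := by
    intro n
    induction n with
    | zero =>
      intro y _ hy hxy
      exact absurd (by simpa using hy x hx) hxy
    | succ n ih =>
      intro y hy0 hy hxy
      by_cases hram : ∃ x' ∈ U, x' ∈ inS F₁ A ∧ α x' (y ^ (l ^ n)) ≠ y ^ (l ^ n)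
      · refine ⟨y ^ (l ^ n), pow_ne_zero _ hy0, ?_, hram⟩
        intro u hu
        rw [← pow_mul, ← pow_succ]; exact hy u hu
      · push Not at hram
        have hKb : KData α U l (y ^ (l ^ n)) := ⟨pow_ne_zero _ hy0, fun u hu => by
          rw [← pow_mul, ← pow_succ]; exact hy u hu, hμ⟩
        obtain ⟨m, k, hmk, hdep⟩ := hunr (e.toMonoidHom.comp hKγ.kap) (e.toMonoidHom.comp hKb.kap)
          ((hKγ.openKer hα).comp _) ((hKb.openKer hα).comp _) (by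
            intro u hu
            constructor
            · have : hKγ.kap u = 1 := (hKγ.kap_eq_one_iff u).2
                (hI u u.2 hu J γ hγ.pow_eq_one)
              simp [this]
            · have : hKb.kap u = 1 := (hKb.kap_eq_one_iff u).2 (hram u u.2 hu)
              simp [this])
        have hdep' : ∀ u : U, hKγ.kap u ^ m * hKb.kap u ^ k = 1 := by
          intro u
          apply e.injective
          rw [map_mul, map_zpow, map_zpow, map_one]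
          exact hdep u
        have hroot1 : ∀ ω : rootsOfUnity l E₂, ω ^ (l : ℤ) = 1 := by
          intro ω
          rw [zpow_natCast]
          exact Subtype.ext ((mem_rootsOfUnity l _).1 ω.2)
        have hk : ¬ (l : ℤ) ∣ k := by
          rintro ⟨k', rfl⟩
          have h1 := hdep' ⟨u₀, hu₀⟩
          rw [zpow_mul, hroot1, one_zpow, mul_one] at h1
          have h2 : hKγ.kap ⟨u₀, hu₀⟩ = 1 := by
            have hco : IsCoprime m (l : ℤ) := hmk.of_mul_right_left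
            obtain ⟨a, b, hab⟩ := hco
            calc hKγ.kap ⟨u₀, hu₀⟩ = (hKγ.kap ⟨u₀, hu₀⟩) ^ (a * m + b * l) := by
                  rw [hab, zpow_one]
              _ = 1 := by
                  rw [zpow_add, mul_comm a, zpow_mul, h1, one_zpow, one_mul, mul_comm b,
                    zpow_mul, hroot1, one_zpow]
          exact hγu ((hKγ.kap_eq_one_iff _).1 h2)
        obtain ⟨Γ, hΓ⟩ := exists_pow_root hroot n γ
        have hΓ0 : Γ ≠ 0 := by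
          rintro rfl
          rw [zero_pow (pow_ne_zero _ hl.ne_zero)] at hΓ
          exact hγ0 hΓ.symm
        have hΓ1 : Γ ^ (l ^ (n + J)) = 1 := by rw [pow_add, pow_mul, hΓ, hγ.pow_eq_one]
        have hy1 : (y ^ k * Γ ^ m) ^ (l ^ n) = (y ^ (l ^ n)) ^ k * γ ^ m := by
          rw [mul_pow, ← zpow_natCast, ← zpow_natCast, ← zpow_mul, ← zpow_mul, mul_comm k,
            mul_comm m, zpow_mul, zpow_mul, zpow_natCast, zpow_natCast, hΓ]
        refine ih (y ^ k * Γ ^ m) (mul_ne_zero (zpow_ne_zero _ hy0) (zpow_ne_zero _ hΓ0)) ?_ ?_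
        · intro u hu
          rw [hy1, map_mul, map_zpow₀, map_zpow₀,
            show α u (y ^ (l ^ n)) = _ from hKb.kap_spec ⟨u, hu⟩,
            show α u γ = _ from hKγ.kap_spec ⟨u, hu⟩, mul_zpow, mul_zpow]
          have h1 := congrArg (fun z : rootsOfUnity l E₂ => ((z : E₂ˣ) : E₂)) (hdep' ⟨u, hu⟩)
          simp only [Subgroup.coe_mul, Subgroup.coe_zpow, Units.val_mul, Units.val_zpow_eq_zpow_val,
            Subgroup.coe_one, Units.val_one] at h1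
          linear_combination (y ^ (l ^ n)) ^ k * γ ^ m * h1
        · intro h
          rw [map_mul, map_zpow₀, map_zpow₀, hI x hx hxI (n + J) Γ hΓ1] at h
          have h1 : (α x y) ^ k = y ^ k := mul_right_cancel₀ (zpow_ne_zero _ hΓ0) h
          have h2 : (α x y / y) ^ k = 1 := by
            rw [div_zpow, h1, div_self (zpow_ne_zero _ hy0)]
          have h3 : (α x y / y) ^ (l ^ (n + 1)) = 1 := by
            rw [div_pow, ← map_pow, hy x hx, div_self (pow_ne_zero _ hy0)]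
          refine coprime_pow_ne_one hl h3 ?_ hk h2
          intro h4
          exact hxy ((div_eq_one_iff_eq hy0).1 h4)
  obtain ⟨β, hβ0, hβ, x', hx', hx'I, hx'β⟩ := hstep n y hy0 hy hxy
  have hfx : ∀ w : E₂, (∀ u ∈ U, α u w = w) → Fx (U.map α) w := by
    rintro w hw g ⟨u, hu, rfl⟩
    exact hw u hu
  refine ⟨β ^ l, γ ^ l, pow_ne_zero _ hβ0, pow_ne_zero _ hγ0, hfx _ hβ, hfx _ hγl, ?_⟩
  rintro m k ⟨z, hz, hzl⟩
  have hzU : ∀ u ∈ U, α u z = z := fun u hu => hz (α u) (Subgroup.mem_map_of_mem α hu)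
  have hz0 : z ≠ 0 := by
    rintro rfl
    rw [zero_pow hl.ne_zero] at hzl
    exact mul_ne_zero (zpow_ne_zero _ (pow_ne_zero _ hβ0)) (zpow_ne_zero _ (pow_ne_zero _ hγ0))
      hzl.symm
  have hω : (β ^ m * γ ^ k / z) ^ l = 1 := by
    rw [div_pow, hzl, mul_pow, ← zpow_natCast, ← zpow_natCast (γ ^ k), ← zpow_mul, ← zpow_mul,
      mul_comm m, mul_comm k, zpow_mul, zpow_mul, zpow_natCast, zpow_natCast]
    exact div_self (mul_ne_zero (zpow_ne_zero _ (pow_ne_zero _ hβ0))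
      (zpow_ne_zero _ (pow_ne_zero _ hγ0)))
  have hprod : ∀ u ∈ U, α u (β ^ m * γ ^ k) = β ^ m * γ ^ k := by
    intro u hu
    have h1 := hμ u hu _ hω
    rw [map_div₀, hzU u hu, div_left_inj' hz0] at h1
    exact h1
  have hrel : ∀ u ∈ U, (α u β / β) ^ m * (α u γ / γ) ^ k = 1 := by
    intro u hu
    have h1 := hprod u hu
    rw [map_mul, map_zpow₀, map_zpow₀] at h1
    rw [div_zpow, div_zpow, div_mul_div_comm, h1]
    exact div_self (mul_ne_zero (zpow_ne_zero _ hβ0) (zpow_ne_zero _ hγ0))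
  have hm : (l : ℤ) ∣ m := by
    by_contra hcon
    have h1 := hrel x' hx'
    rw [hI x' hx' hx'I J γ hγ.pow_eq_one, div_self hγ0, one_zpow, mul_one] at h1
    have h3 : (α x' β / β) ^ (l ^ 1) = 1 := by
      rw [pow_one, div_pow, ← map_pow, hβ x' hx', div_self (pow_ne_zero _ hβ0)]
    refine coprime_pow_ne_one hl h3 ?_ hcon h1
    intro h4
    exact hx'β ((div_eq_one_iff_eq hβ0).1 h4)
  refine ⟨hm, ?_⟩
  by_contra hcon
  obtain ⟨m', rfl⟩ := hm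
  have h1 := hrel u₀ hu₀
  have h2 : (α u₀ β / β) ^ (l : ℤ) = 1 := by
    rw [zpow_natCast, div_pow, ← map_pow, hβ u₀ hu₀, div_self (pow_ne_zero _ hβ0)]
  rw [zpow_mul, h2, one_zpow, one_mul] at h1
  have h3 : (α u₀ γ / γ) ^ (l ^ 1) = 1 := by
    rw [pow_one, div_pow, ← map_pow, hγl u₀ hu₀, div_self (pow_ne_zero _ hγ0)]
  refine coprime_pow_ne_one hl h3 ?_ hcon h1
  intro h4
  exact hγu ((div_eq_one_iff_eq hγ0).1 h4)

/-- unramified characters of closed subgroups of a decomposition group are dependent -/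
theorem unrDep_of_closed {p : ℕ} [Fact p.Prime] (hA : TorsRes p A) {l : ℕ} (hl : l.Prime)
    {U : Subgroup (E₁ ≃ₐ[F₁] E₁)} (hUc : IsClosed (U : Set (E₁ ≃ₐ[F₁] E₁)))
    (hUA : U ≤ decS F₁ A) : UnrDep A l U := by
  intro π₁ π₂ h₁ h₂ hI
  haveI : Fact l.Prime := ⟨hl⟩
  by_cases hne : π₁ = 1
  · exact ⟨1, 0, isCoprime_one_left, fun u => by simp [hne]⟩
  · obtain ⟨k, hk⟩ := unram_powers hA hUc hUA (Z := Multiplicative (ZMod l)) (l := l)
      (by simp) h₁ h₂ (fun u hu => (hI u hu).1) (fun u hu => (hI u hu).2) hne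
    refine ⟨k, -1, isCoprime_one_right.neg_right, fun u => ?_⟩
    rw [hk, MonoidHom.zpow_apply, zpow_neg_one, mul_inv_cancel]

end

end Crest.Agent.R018.LCBx484
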