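import Crest.Agent.R018.Rig7_931
import Crest.Agent.R018.Places2_484

/-!
# Row 18: the place fixed by a group with rank two Kummer theory everywhere (helper931)
-/

set_option autoImplicit false

open Finset

namespace Crest.Agent.R018.Rig8x931

open Crest.Agent.R018.Rig4x931 Crest.Agent.R018.Rig6x931 Crest.Agent.R018.Rig7x931
open Crest.Agent.R018.Placesx484

section

variable {Δ E : Type*} [Group Δ] [Field E] [MulSemiringAction Δ E]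

/-- two independent Kummer classes, two element form -/
def Two (E : Type*) [Field E] [MulSemiringAction Δ E] (l : ℕ) (V : Subgroup Δ) : Prop :=
  ∃ b c : E, b ≠ 0 ∧ c ≠ 0 ∧ Fx V b ∧ Fx V c ∧
    ∀ m n : ℤ, (∃ z, Fx V z ∧ z ^ l = b ^ m * c ^ n) → (l : ℤ) ∣ m ∧ (l : ℤ) ∣ n

theorem Two.rankGE {l : ℕ} [hl : Fact l.Prime] {V : Subgroup Δ} (h : Two E l V) :
    RankGE E l V := by
  obtain ⟨b, c, hb0, hc0, hb, hc, h⟩ := h
  refine rankGE_of_two ![b, c] ?_ ?_ ?_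
  · intro i
    fin_cases i
    · exact hb0
    · exact hc0
  · intro i
    fin_cases i
    · exact hb
    · exact hc
  · intro e z hz hzl
    exact h _ _ ⟨z, hz, hzl⟩

variable [CharZero E] [Algebra.IsAlgebraic ℚ E]

theorem exists_place' {l : ℕ} [hl : Fact l.Prime]
    (hl3 : 3 ≤ l) (hroot : ∀ x : E, ∃ θ, θ ^ l = x) {ζ : E} (hζ : IsPrimitiveRoot ζ l)
    (hζΔ : ∀ g : Δ, g • ζ = ζ) {𝒱 : Set (Subgroup Δ)} (hF : Fam E l 𝒱) :
    ∃ Q : Place E, Q.v (l : E) = 1 ∧ (∀ g : Δ, g • Q = Q) ∧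
      ∀ V ∈ 𝒱, Good l (Q.val.comap (K E V).subtype) := by
  obtain ⟨A, hA, hAl, hinv, hgood⟩ := exists_glued hl3 hroot hζ hζΔ hF
  refine ⟨Place.ofVal A hA, ?_, ?_, ?_⟩
  · show (Place.ofVal A hA).val.valuation (l : E) = 1
    rw [Place.val_ofVal]
    exact hAl
  · intro g
    apply Place.ext_of_val
    ext x
    rw [Place.mem_smul_val, Place.val_ofVal]
    constructor
    · intro h
      have := hinv g _ h
      rwa [smul_inv_smul] at this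
    · exact hinv g⁻¹ x
  · intro V hV
    rw [Place.val_ofVal]
    exact hgood V hV

end

/-! ### subgroups of an ambient group -/

section sub

variable {G E : Type*} [Group G] [Field E] [MulSemiringAction G E]

theorem fx_subgroupOf (V₀ N : Subgroup G) (x : E) : Fx (N.subgroupOf V₀) x ↔ Fx (V₀ ⊓ N) x := by
  constructor
  · intro h g hg
    exact h ⟨g, hg.1⟩ (Subgroup.mem_subgroupOf.mpr hg.2)
  · intro h g hg
    exact h (g : G) ⟨g.2, Subgroup.mem_subgroupOf.mp hg⟩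

theorem fx_St_subgroupOf (V₀ N : Subgroup G) (θ x : E) :
    Fx (St (N.subgroupOf V₀) θ) x ↔ Fx (St (V₀ ⊓ N) θ) x := by
  constructor
  · intro h g hg
    rw [mem_St] at hg
    exact h ⟨g, hg.1.1⟩ (mem_St.mpr ⟨Subgroup.mem_subgroupOf.mpr hg.1.2, hg.2⟩)
  · intro h g hg
    rw [mem_St] at hg
    exact h (g : G) (mem_St.mpr ⟨⟨g.2, Subgroup.mem_subgroupOf.mp hg.1⟩, hg.2⟩)

/-- **the local correspondence, rigid part.**  `V₀` a subgroup of `G`, `𝒩` a family of normal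
subgroups of `G` closed under intersections such that every element of `E` is fixed by a member.
If for all `N ∈ 𝒩` the group `V₀ ⊓ N` has two independent Kummer classes and all its subgroups
`Stab(θ)`, `θ ^ l` fixed and `θ` not fixed by `V₀ ⊓ N`, have at most two, then `V₀` fixes a place
`Q` of `E` not above `l`. -/
theorem exists_place {l : ℕ} [hl : Fact l.Prime] [CharZero E] [Algebra.IsAlgebraic ℚ E]
    (hl3 : 3 ≤ l) (hroot : ∀ x : E, ∃ θ, θ ^ l = x) {ζ : E} (hζ : IsPrimitiveRoot ζ l)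
    (V₀ : Subgroup G) (hζV : Fx V₀ ζ) (𝒩 : Set (Subgroup G))
    (hnormal : ∀ N ∈ 𝒩, N.Normal)
    (hinf : ∀ N ∈ 𝒩, ∀ N' ∈ 𝒩, N ⊓ N' ∈ 𝒩)
    (hcover : ∀ x : E, ∃ N ∈ 𝒩, Fx (V₀ ⊓ N) x)
    (hge : ∀ N ∈ 𝒩, ∃ b c : E, b ≠ 0 ∧ c ≠ 0 ∧ Fx (V₀ ⊓ N) b ∧ Fx (V₀ ⊓ N) c ∧
      ∀ m n : ℤ, (∃ z, Fx (V₀ ⊓ N) z ∧ z ^ l = b ^ m * c ^ n) → (l : ℤ) ∣ m ∧ (l : ℤ) ∣ n)
    (hle : ∀ N ∈ 𝒩, ∀ θ : E, Fx (V₀ ⊓ N) (θ ^ l) → ¬ Fx (V₀ ⊓ N) θ →
      RankLE E l (St (V₀ ⊓ N) θ)) :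
    ∃ Q : Place E, Q.v (l : E) = 1 ∧ Q.rchar ≠ l ∧ (∀ g ∈ V₀, g • Q = Q) ∧
      ∀ N ∈ 𝒩, ∀ x : E, Fx (V₀ ⊓ N) x → Q.v (x - 1) < 1 → ∃ t, Fx (V₀ ⊓ N) t ∧ t ^ l = x := by
  have hF : Fam E l {V : Subgroup V₀ | ∃ N ∈ 𝒩, V = N.subgroupOf V₀} := by
    refine ⟨?_, ?_, ?_, ?_, ?_⟩
    · rintro _ ⟨N, hN, rfl⟩
      haveI := hnormal N hN
      infer_instance
    · rintro _ ⟨N, hN, rfl⟩ _ ⟨N', hN', rfl⟩
      exact ⟨N ⊓ N', hinf N hN N' hN', rfl⟩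
    · intro x
      obtain ⟨N, hN, h⟩ := hcover x
      exact ⟨_, ⟨N, hN, rfl⟩, (fx_subgroupOf V₀ N x).mpr h⟩
    · rintro _ ⟨N, hN, rfl⟩
      apply Two.rankGE
      obtain ⟨b, c, hb0, hc0, hb, hc, h⟩ := hge N hN
      refine ⟨b, c, hb0, hc0, (fx_subgroupOf V₀ N b).mpr hb, (fx_subgroupOf V₀ N c).mpr hc, ?_⟩
      rintro m n ⟨z, hz, hzl⟩
      exact h m n ⟨z, (fx_subgroupOf V₀ N z).mp hz, hzl⟩
    · rintro _ ⟨N, hN, rfl⟩ θ hθ hθ' b hb0 hb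
      obtain ⟨e, he, z, hz, hzl⟩ := hle N hN θ ((fx_subgroupOf V₀ N _).mp hθ)
        (fun h => hθ' ((fx_subgroupOf V₀ N _).mpr h)) b hb0
        (fun i => (fx_St_subgroupOf V₀ N θ _).mp (hb i))
      exact ⟨e, he, z, (fx_St_subgroupOf V₀ N θ _).mpr hz, hzl⟩
  obtain ⟨Q, hQl, hQ, hgood⟩ := exists_place' hl3 hroot hζ (Δ := V₀)
    (fun g => hζV g g.2) hF
  refine ⟨Q, hQl, ?_, fun g hg => hQ ⟨g, hg⟩, ?_⟩
  · intro h
    rw [Place.v_natCast_eq_one_iff] at hQl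
    exact hQl (by rw [h])
  · intro N hN x hx hx1
    have h1 := hgood _ ⟨N, hN, rfl⟩
    obtain ⟨t, ht⟩ := h1.one_units ⟨x, (fx_subgroupOf V₀ N x).mpr hx⟩ (by
      rw [comap_lt]
      exact hx1)
    refine ⟨t, (fx_subgroupOf V₀ N _).mp t.2, ?_⟩
    have := congrArg (fun z : K E (N.subgroupOf V₀) => (z : E)) ht
    simpa using this

end sub

end Crest.Agent.R018.Rig8x931
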