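import Crest.Agent.R018.LCB_484
import Crest.Agent.R018.Rig8_931

/-!
# Local correspondence, part C: the theorem (row 18, helper484)
-/

set_option autoImplicit false

open NumberField Pointwise

namespace Crest.Agent.R018.LCCx484

open Crest.Agent.R018.Placesx484
open Crest.Agent.R018.Placesx484.Place
open Crest.Agent.R018.Tamex31
open Crest.Agent.R018.Rig4x931
open Crest.Agent.R018.LCAx484
open Crest.Agent.R018.LCBx484

section

variable {F₁ E₁ F₂ E₂ : Type*} [Field F₁] [Field E₁] [Algebra F₁ E₁] [Field F₂] [Field E₂]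
  [Algebra F₂ E₂] [IsGalois F₁ E₁]
  {α : (E₁ ≃ₐ[F₁] E₁) →* (E₂ ≃ₐ[F₂] E₂)} {A : ValuationSubring E₁}

/-- the two basic Kummer elements -/
theorem exists_basis [Algebra.IsIntegral F₂ E₂] (hα : Continuous α) {l : ℕ} (hl : l.Prime)
    (hl2 : l ≠ 2) (hlA : A.valuation (l : E₁) = 1)
    (hr₁ : ∀ n, ∃ ζ : E₁, IsPrimitiveRoot ζ (l ^ n))
    (hr₂ : ∀ n, ∃ ζ : E₂, IsPrimitiveRoot ζ (l ^ n))
    (hroot : ∀ y : E₂, ∃ z, z ^ l = y)
    {U : Subgroup (E₁ ≃ₐ[F₁] E₁)} (hUA : U ≤ decS F₁ A)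
    (hμ : ∀ u ∈ U, ∀ z : E₂, z ^ l = 1 → α u z = z)
    {s : E₁ ≃ₐ[F₁] E₁} (hs : s ∈ U) {c : ℕ} (hc : 2 ≤ c)
    (hsc : ∀ n, ∀ ζ : E₁, ζ ^ (l ^ n) = 1 → s ζ = ζ ^ c)
    (hunr : UnrDep A l U)
    {x : E₁ ≃ₐ[F₁] E₁} (hx : x ∈ U) (hxI : x ∈ inS F₁ A) {n : ℕ} {y : E₂} (hy0 : y ≠ 0)
    (hy : ∀ u ∈ U, α u (y ^ (l ^ n)) = y ^ (l ^ n)) (hxy : α x y ≠ y) :
    ∃ β γ : E₂, β ≠ 0 ∧ (∀ u ∈ U, α u (β ^ l) = β ^ l) ∧
      (∃ x' ∈ U, x' ∈ inS F₁ A ∧ α x' β ≠ β) ∧ (∀ u ∈ U, α u (γ ^ l) = γ ^ l) ∧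
      (∃ J, 0 < J ∧ γ ^ (l ^ J) = 1) ∧ (∃ u₀ ∈ U, α u₀ γ ≠ γ) := by
  haveI : Fact l.Prime := ⟨hl⟩
  haveI : NeZero l := ⟨hl.ne_zero⟩
  have hI : ∀ u ∈ U, u ∈ inS F₁ A → ∀ j, ∀ z : E₂, z ^ (l ^ j) = 1 → α u z = z :=
    fun u hu huI j z hz => cyc_inertia hα hl hl2 hlA hr₁ hr₂ hUA hμ hs hc hsc hu huI j z hz
  -- `s` acts as `c` on all `l`-power roots of unity of `E₂`
  have hsz : ∀ j, ∀ z : E₂, z ^ (l ^ j) = 1 → α s z = z ^ c := by
    intro j z hz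
    obtain ⟨Y, hY⟩ := exists_pow_root hroot j y
    obtain ⟨ζ₁, hζ₁⟩ := hr₁ (n + j)
    obtain ⟨ζ₂, hζ₂⟩ := hr₂ (n + j)
    have hY0 : Y ≠ 0 := by
      rintro rfl
      rw [zero_pow (pow_ne_zero _ hl.ne_zero)] at hY
      exact hy0 hY.symm
    refine cyc_compat hα hl hlA hUA (n := n + j) hζ₁ hζ₂ (fun u hu huI => hI u hu huI _) hY0 ?_
      hx hxI (m := j) ?_ hs (hsc _ _ hζ₁.pow_eq_one) z ?_
    · intro u hu
      have : Y ^ (l ^ (n + j)) = y ^ (l ^ n) := by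
        rw [pow_add, mul_comm, pow_mul, hY]
      rw [this]; exact hy u hu
    · rw [hY]; exact hxy
    · rw [pow_succ, pow_mul, hz, one_pow]
  -- the level `k`
  have hex : ∃ j, ∃ u ∈ U, ∃ z : E₂, z ^ (l ^ j) = 1 ∧ α u z ≠ z := by
    obtain ⟨ζ, hζ⟩ := hr₂ c
    refine ⟨c, s, hs, ζ, hζ.pow_eq_one, fun h => ?_⟩
    have h1 := hsz c ζ hζ.pow_eq_one
    rw [h] at h1
    have h2 := prim_pow_mod hζ (pow_pos hl.pos _) ((pow_one ζ).trans h1)
    have h3 : c < l ^ c := Nat.lt_pow_self hl.one_lt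
    rw [Nat.mod_eq_of_lt (by omega), Nat.mod_eq_of_lt h3] at h2
    omega
  classical
  obtain ⟨u₀, hu₀, z₀, hz₀, hu₀z₀⟩ := Nat.find_spec hex
  set J := Nat.find hex with hJ
  have hJmin : ∀ j < J, ∀ u ∈ U, ∀ z : E₂, z ^ (l ^ j) = 1 → α u z = z := by
    intro j hj u hu z hz
    by_contra hcon
    exact Nat.find_min hex hj ⟨u, hu, z, hz, hcon⟩
  have hJ1 : 2 ≤ J := by
    by_contra hcon
    have : J = 0 ∨ J = 1 := by omega
    rcases this with h | h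
    · rw [h, pow_zero, pow_one] at hz₀
      apply hu₀z₀
      rw [hz₀, map_one]
    · rw [h, pow_one] at hz₀
      exact hu₀z₀ (hμ u₀ hu₀ z₀ hz₀)
  obtain ⟨γ, hγ⟩ := hr₂ J
  haveI : NeZero (l ^ J) := ⟨pow_ne_zero _ hl.ne_zero⟩
  have hγ0 : γ ≠ 0 := hγ.ne_zero (pow_ne_zero _ hl.ne_zero)
  have hγu : α u₀ γ ≠ γ := by
    intro h
    apply hu₀z₀
    obtain ⟨i, _, hi⟩ := hγ.eq_pow_of_pow_eq_one hz₀
    rw [← hi, map_pow, h]
  have hγl : ∀ u ∈ U, α u (γ ^ l) = γ ^ l := by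
    intro u hu
    apply hJmin (J - 1) (by omega) u hu
    rw [← pow_mul, ← pow_succ', Nat.sub_add_cancel (by omega), hγ.pow_eq_one]
  have hKγ : KData α U l γ := ⟨hγ0, hγl, hμ⟩
  -- the ramified element of level one
  obtain ⟨e, -⟩ : ∃ _e : rootsOfUnity l E₂ ≃* Multiplicative (ZMod l), True := by
    obtain ⟨ζ, hζ⟩ := hr₂ 1
    rw [pow_one] at hζ
    have hcard : Nat.card (rootsOfUnity l E₂) = l := hζ.card_rootsOfUnity
    have hcyc : IsCyclic (rootsOfUnity l E₂) := rootsOfUnity.isCyclic E₂ l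
    exact ⟨mulEquivOfCyclicCardEq (by rw [hcard]; simp), trivial⟩
  have hstep : ∀ n : ℕ, ∀ y : E₂, y ≠ 0 → (∀ u ∈ U, α u (y ^ (l ^ n)) = y ^ (l ^ n)) →
      α x y ≠ y → ∃ β : E₂, β ≠ 0 ∧ (∀ u ∈ U, α u (β ^ l) = β ^ l) ∧
        ∃ x' ∈ U, x' ∈ inS F₁ A ∧ α x' β ≠ β := by
    intro n
    induction n with
    | zero =>
      intro y _ hy hxy
      exact absurd (by simpa using hy x hx) hxy
    | succ n ih =>
      intro y hy0 hy hxy
      by_cases hram : ∃ x' ∈ U, x' ∈ inS F₁ A ∧ α x' (y ^ (l ^ n)) ≠ y ^ (l ^ n)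
      · refine ⟨y ^ (l ^ n), pow_ne_zero _ hy0, ?_, hram⟩
        intro u hu
        rw [← pow_mul, ← pow_succ]; exact hy u hu
      · push Not at hram
        have hKb : KData α U l (y ^ (l ^ n)) := ⟨pow_ne_zero _ hy0, fun u hu => by
          rw [← pow_mul, ← pow_succ]; exact hy u hu, hμ⟩
        obtain ⟨m, k, hmk, hdep⟩ := hunr (e.toMonoidHom.comp hKγ.kap) (e.toMonoidHom.comp hKb.kap)
          ((hKγ.openKer hα).comp _) ((hKb.openKer hα).comp _) (by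
            intro u hu
            constructor
            · have : hKγ.kap u = 1 := (hKγ.kap_eq_one_iff u).2
                (hI u u.2 hu J γ hγ.pow_eq_one)
              simp [this]
            · have : hKb.kap u = 1 := (hKb.kap_eq_one_iff u).2 (hram u u.2 hu)
              simp [this])
        have hdep' : ∀ u : U, hKγ.kap u ^ m * hKb.kap u ^ k = 1 := by
          intro u
          apply e.injective
          rw [map_mul, map_zpow, map_zpow, map_one]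
          exact hdep u
        have hroot1 : ∀ ω : rootsOfUnity l E₂, ω ^ (l : ℤ) = 1 := by
          intro ω
          rw [zpow_natCast]
          exact Subtype.ext ((mem_rootsOfUnity l _).1 ω.2)
        have hk : ¬ (l : ℤ) ∣ k := by
          rintro ⟨k', rfl⟩
          have h1 := hdep' ⟨u₀, hu₀⟩
          rw [zpow_mul, hroot1, one_zpow, mul_one] at h1
          have h2 : hKγ.kap ⟨u₀, hu₀⟩ = 1 := by
            have hco : IsCoprime m (l : ℤ) := hmk.of_mul_right_left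
            obtain ⟨a, b, hab⟩ := hco
            calc hKγ.kap ⟨u₀, hu₀⟩ = (hKγ.kap ⟨u₀, hu₀⟩) ^ (a * m + b * l) := by
                  rw [hab, zpow_one]
              _ = 1 := by
                  rw [zpow_add, mul_comm a, zpow_mul, h1, one_zpow, one_mul, mul_comm b,
                    zpow_mul, hroot1, one_zpow]
          exact hγu ((hKγ.kap_eq_one_iff _).1 h2)
        obtain ⟨Γ, hΓ⟩ := exists_pow_root hroot n γ
        have hΓ0 : Γ ≠ 0 := by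
          rintro rfl
          rw [zero_pow (pow_ne_zero _ hl.ne_zero)] at hΓ
          exact hγ0 hΓ.symm
        have hΓ1 : Γ ^ (l ^ (n + J)) = 1 := by rw [pow_add, pow_mul, hΓ, hγ.pow_eq_one]
        have hy1 : (y ^ k * Γ ^ m) ^ (l ^ n) = (y ^ (l ^ n)) ^ k * γ ^ m := by
          rw [mul_pow, ← zpow_natCast, ← zpow_natCast, ← zpow_mul, ← zpow_mul, mul_comm k,
            mul_comm m, zpow_mul, zpow_mul, zpow_natCast, zpow_natCast, hΓ]
        refine ih (y ^ k * Γ ^ m) (mul_ne_zero (zpow_ne_zero _ hy0) (zpow_ne_zero _ hΓ0)) ?_ ?_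
        · intro u hu
          rw [hy1, map_mul, map_zpow₀, map_zpow₀,
            show α u (y ^ (l ^ n)) = _ from hKb.kap_spec ⟨u, hu⟩,
            show α u γ = _ from hKγ.kap_spec ⟨u, hu⟩, mul_zpow, mul_zpow]
          have h1 := congrArg (fun z : rootsOfUnity l E₂ => ((z : E₂ˣ) : E₂)) (hdep' ⟨u, hu⟩)
          simp only [Subgroup.coe_mul, Subgroup.coe_zpow, Units.val_mul, Units.val_zpow_eq_zpow_val,
            Subgroup.coe_one, Units.val_one] at h1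
          linear_combination (y ^ (l ^ n)) ^ k * γ ^ m * h1
        · intro h
          rw [map_mul, map_zpow₀, map_zpow₀, hI x hx hxI (n + J) Γ hΓ1] at h
          have h1 : (α x y) ^ k = y ^ k := mul_right_cancel₀ (zpow_ne_zero _ hΓ0) h
          have h2 : (α x y / y) ^ k = 1 := by
            rw [div_zpow, h1, div_self (zpow_ne_zero _ hy0)]
          have h3 : (α x y / y) ^ (l ^ (n + 1)) = 1 := by
            rw [div_pow, ← map_pow, hy x hx, div_self (pow_ne_zero _ hy0)]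
          refine coprime_pow_ne_one hl h3 ?_ hk h2
          intro h4
          exact hxy ((div_eq_one_iff_eq hy0).1 h4)
  obtain ⟨β, hβ0, hβ, hx'⟩ := hstep n y hy0 hy hxy
  exact ⟨β, γ, hβ0, hβ, hx', hγl, ⟨J, by omega, hγ.pow_eq_one⟩, u₀, hu₀, hγu⟩

/-- Kummer roots of units of the fixed field are not moved by the inertia of the source. -/
theorem unit_fixed [Algebra.IsIntegral F₂ E₂] {l : ℕ} (hl : l.Prime)
    {B : ValuationSubring E₂} (hlB : B.valuation (l : E₂) = 1)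
    (hr₂ : ∃ ζ : E₂, IsPrimitiveRoot ζ l) (hroot : ∀ y : E₂, ∃ z, z ^ l = y)
    {U : Subgroup (E₁ ≃ₐ[F₁] E₁)}
    (hμ : ∀ u ∈ U, ∀ z : E₂, z ^ l = 1 → α u z = z)
    (hI : ∀ u ∈ U, u ∈ inS F₁ A → ∀ j, ∀ z : E₂, z ^ (l ^ j) = 1 → α u z = z)
    (hunr : UnrDep B l (U.map α))
    {γ : E₂} (hγl : ∀ u ∈ U, α u (γ ^ l) = γ ^ l) {J : ℕ} (hJ : γ ^ (l ^ J) = 1)
    {u₀ : E₁ ≃ₐ[F₁] E₁} (hu₀ : u₀ ∈ U) (hγu : α u₀ γ ≠ γ)
    (n : ℕ) (η : E₂) (hη : B.valuation η = 1)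
    (hηU : ∀ u ∈ U, α u (η ^ (l ^ n)) = η ^ (l ^ n)) {x : E₁ ≃ₐ[F₁] E₁} (hx : x ∈ U)
    (hxI : x ∈ inS F₁ A) : α x η = η := by
  haveI : Fact l.Prime := ⟨hl⟩
  haveI : NeZero l := ⟨hl.ne_zero⟩
  haveI : Algebra.IsAlgebraic F₂ E₂ := inferInstance
  have hγ0 : γ ≠ 0 := by
    rintro rfl
    rw [zero_pow (pow_ne_zero _ hl.ne_zero)] at hJ
    exact zero_ne_one hJ
  obtain ⟨e, -⟩ : ∃ _e : rootsOfUnity l E₂ ≃* Multiplicative (ZMod l), True := by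
    obtain ⟨ζ, hζ⟩ := hr₂
    have hcard : Nat.card (rootsOfUnity l E₂) = l := hζ.card_rootsOfUnity
    have hcyc : IsCyclic (rootsOfUnity l E₂) := rootsOfUnity.isCyclic E₂ l
    exact ⟨mulEquivOfCyclicCardEq (by rw [hcard]; simp), trivial⟩
  have hVμ : ∀ g ∈ U.map α, ∀ z : E₂, z ^ l = 1 → (MonoidHom.id _) g z = z := by
    rintro g ⟨u, hu, rfl⟩ z hz
    exact hμ u hu z hz
  have hγV : ∀ g ∈ U.map α, (MonoidHom.id (E₂ ≃ₐ[F₂] E₂)) g (γ ^ l) = γ ^ l := by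
    rintro g ⟨u, hu, rfl⟩
    exact hγl u hu
  have hKγ : KData (MonoidHom.id (E₂ ≃ₐ[F₂] E₂)) (U.map α) l γ := ⟨hγ0, hγV, hVμ⟩
  -- a unit whose `l`-th power is fixed is not moved by the inertia of the target
  have hin : ∀ w : E₂, B.valuation w = 1 → (∀ u ∈ U, α u (w ^ l) = w ^ l) →
      ∀ g ∈ U.map α, g ∈ inS F₂ B → g w = w := by
    rintro w hw hwl g ⟨u, hu, rfl⟩ hg
    have hw0 : w ≠ 0 := by rintro rfl; simp at hw
    have h1 := in_unit hg hw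
    have h2 : (α u w / w) ^ l = 1 := by
      rw [div_pow, ← map_pow, hwl u hu, div_self (pow_ne_zero _ hw0)]
    have h3 := root_eq_one hlB h2 h1
    exact (div_eq_one_iff_eq hw0).1 h3
  have hvγ : B.valuation γ = 1 := by
    have h1 : B.valuation γ ^ (l ^ J) = 1 := by rw [← map_pow, hJ, map_one]
    exact (pow_eq_one_iff_of_nonneg zero_le (pow_ne_zero _ hl.ne_zero)).mp h1
  induction n generalizing η with
  | zero => simpa using hηU x hx
  | succ n ih =>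
    have hη0 : η ≠ 0 := by rintro rfl; simp at hη
    set θ := η ^ (l ^ n) with hθ
    have hθ0 : θ ≠ 0 := pow_ne_zero _ hη0
    have hθl : ∀ u ∈ U, α u (θ ^ l) = θ ^ l := by
      intro u hu
      rw [hθ, ← pow_mul, ← pow_succ]; exact hηU u hu
    have hθv : B.valuation θ = 1 := by rw [hθ, map_pow, hη, one_pow]
    have hKθ : KData (MonoidHom.id (E₂ ≃ₐ[F₂] E₂)) (U.map α) l θ := ⟨hθ0, by
      rintro g ⟨u, hu, rfl⟩; exact hθl u hu, hVμ⟩
    obtain ⟨m, k, hmk, hdep⟩ := hunr (e.toMonoidHom.comp hKγ.kap) (e.toMonoidHom.comp hKθ.kap)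
      ((hKγ.openKer continuous_id).comp _) ((hKθ.openKer continuous_id).comp _) (by
        intro u hu
        constructor
        · have : hKγ.kap u = 1 := (hKγ.kap_eq_one_iff u).2 (hin γ hvγ hγl u u.2 hu)
          simp [this]
        · have : hKθ.kap u = 1 := (hKθ.kap_eq_one_iff u).2 (hin θ hθv hθl u u.2 hu)
          simp [this])
    have hdep' : ∀ u : U.map α, hKγ.kap u ^ m * hKθ.kap u ^ k = 1 := by
      intro u
      apply e.injective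
      rw [map_mul, map_zpow, map_zpow, map_one]
      exact hdep u
    have hroot1 : ∀ ω : rootsOfUnity l E₂, ω ^ (l : ℤ) = 1 := by
      intro ω
      rw [zpow_natCast]
      exact Subtype.ext ((mem_rootsOfUnity l _).1 ω.2)
    have hmem : ∀ u ∈ U, α u ∈ U.map α := fun u hu => Subgroup.mem_map_of_mem α hu
    have hk : ¬ (l : ℤ) ∣ k := by
      rintro ⟨k', rfl⟩
      have h1 := hdep' ⟨α u₀, hmem u₀ hu₀⟩
      rw [zpow_mul, hroot1, one_zpow, mul_one] at h1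
      have h2 : hKγ.kap ⟨α u₀, hmem u₀ hu₀⟩ = 1 := by
        have hco : IsCoprime m (l : ℤ) := hmk.of_mul_right_left
        obtain ⟨a, b, hab⟩ := hco
        calc hKγ.kap ⟨α u₀, hmem u₀ hu₀⟩ = (hKγ.kap ⟨α u₀, hmem u₀ hu₀⟩) ^ (a * m + b * l) := by
              rw [hab, zpow_one]
          _ = 1 := by
              rw [zpow_add, mul_comm a, zpow_mul, h1, one_zpow, one_mul, mul_comm b,
                zpow_mul, hroot1, one_zpow]
      exact hγu ((hKγ.kap_eq_one_iff _).1 h2)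
    obtain ⟨Γ, hΓ⟩ := exists_pow_root hroot n γ
    have hΓ0 : Γ ≠ 0 := by
      rintro rfl
      rw [zero_pow (pow_ne_zero _ hl.ne_zero)] at hΓ
      exact hγ0 hΓ.symm
    have hΓ1 : Γ ^ (l ^ (n + J)) = 1 := by rw [pow_add, pow_mul, hΓ, hJ]
    have hvΓ : B.valuation Γ = 1 := by
      have h1 : B.valuation Γ ^ (l ^ (n + J)) = 1 := by rw [← map_pow, hΓ1, map_one]
      exact (pow_eq_one_iff_of_nonneg zero_le (pow_ne_zero _ hl.ne_zero)).mp h1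
    have hy1 : (η ^ k * Γ ^ m) ^ (l ^ n) = θ ^ k * γ ^ m := by
      rw [mul_pow, ← zpow_natCast, ← zpow_natCast, ← zpow_mul, ← zpow_mul, mul_comm k,
        mul_comm m, zpow_mul, zpow_mul, zpow_natCast, zpow_natCast, hΓ]
    have h := ih (η ^ k * Γ ^ m) (by
      rw [map_mul, map_zpow₀, map_zpow₀, hη, hvΓ, one_zpow, one_zpow, one_mul]) (by
      intro u hu
      rw [hy1, map_mul, map_zpow₀, map_zpow₀,
        show α u θ = _ from hKθ.kap_spec ⟨α u, hmem u hu⟩,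
        show α u γ = _ from hKγ.kap_spec ⟨α u, hmem u hu⟩, mul_zpow, mul_zpow]
      have h1 := congrArg (fun z : rootsOfUnity l E₂ => ((z : E₂ˣ) : E₂))
        (hdep' ⟨α u, hmem u hu⟩)
      simp only [Subgroup.coe_mul, Subgroup.coe_zpow, Units.val_mul, Units.val_zpow_eq_zpow_val,
        Subgroup.coe_one, Units.val_one] at h1
      linear_combination θ ^ k * γ ^ m * h1)
    rw [map_mul, map_zpow₀, map_zpow₀, hI x hx hxI (n + J) Γ hΓ1] at h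
    have h1 : (α x η) ^ k = η ^ k := mul_right_cancel₀ (zpow_ne_zero _ hΓ0) h
    have h2 : (α x η / η) ^ k = 1 := by
      rw [div_zpow, h1, div_self (zpow_ne_zero _ hη0)]
    have h3 : (α x η / η) ^ (l ^ (n + 1)) = 1 := by
      rw [div_pow, ← map_pow, hηU x hx, div_self (pow_ne_zero _ hη0)]
    by_contra hcon
    exact coprime_pow_ne_one hl h3 (fun h4 => hcon ((div_eq_one_iff_eq hη0).1 h4)) hk h2

/-- cyclotomic compatibility for elements `d` of the decomposition group normalising `U`. -/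
theorem cyc_dec [Algebra.IsIntegral F₂ E₂] (hα : Continuous α) {l : ℕ} (hl : l.Prime)
    (hlA : A.valuation (l : E₁) = 1)
    {B : ValuationSubring E₂} (hlB : B.valuation (l : E₂) = 1)
    (hr₂ : ∀ n, ∃ ζ : E₂, IsPrimitiveRoot ζ (l ^ n)) (hroot : ∀ y : E₂, ∃ z, z ^ l = y)
    {U : Subgroup (E₁ ≃ₐ[F₁] E₁)}
    (hμ : ∀ u ∈ U, ∀ z : E₂, z ^ l = 1 → α u z = z)
    (hI : ∀ u ∈ U, u ∈ inS F₁ A → ∀ j, ∀ z : E₂, z ^ (l ^ j) = 1 → α u z = z)
    (hunr : UnrDep B l (U.map α))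
    {γ : E₂} (hγl : ∀ u ∈ U, α u (γ ^ l) = γ ^ l) {J : ℕ} (hJ : γ ^ (l ^ J) = 1)
    {u₀ : E₁ ≃ₐ[F₁] E₁} (hu₀ : u₀ ∈ U) (hγu : α u₀ γ ≠ γ)
    {β : E₂} (hβ0 : β ≠ 0) (hβ : ∀ u ∈ U, α u (β ^ l) = β ^ l)
    {x : E₁ ≃ₐ[F₁] E₁} (hx : x ∈ U) (hxI : x ∈ inS F₁ A) (hxβ : α x β ≠ β)
    {d : E₁ ≃ₐ[F₁] E₁} (hd : d ∈ decS F₁ A) (hdB : α d ∈ decS F₂ B)
    (hdU : ∀ u ∈ U, d * u * d⁻¹ ∈ U) {n : ℕ}
    {ζ₁ : E₁} (hζ₁ : IsPrimitiveRoot ζ₁ (l ^ (n + 1))) {c : ℕ} (hdc : d ζ₁ = ζ₁ ^ c) (z : E₂)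
    (hz : z ^ (l ^ (n + 1)) = 1) : α d z = z ^ c := by
  haveI : Fact l.Prime := ⟨hl⟩
  haveI : NeZero (l ^ (n + 1)) := ⟨pow_ne_zero _ hl.ne_zero⟩
  haveI : NeZero l := ⟨hl.ne_zero⟩
  haveI : Algebra.IsAlgebraic F₂ E₂ := inferInstance
  obtain ⟨y, hyβ⟩ := exists_pow_root hroot n β
  have hy0 : y ≠ 0 := by
    rintro rfl
    rw [zero_pow (pow_ne_zero _ hl.ne_zero)] at hyβ
    exact hβ0 hyβ.symm
  have hy : ∀ u ∈ U, α u (y ^ (l ^ (n + 1))) = y ^ (l ^ (n + 1)) := by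
    intro u hu
    rw [pow_succ, pow_mul, hyβ]; exact hβ u hu
  let V : Subgroup (E₁ ≃ₐ[F₁] E₁) := U ⊓ inS F₁ A
  have hK : KData α V (l ^ (n + 1)) y :=
    ⟨hy0, fun u hu => hy u hu.1, fun u hu => hI u hu.1 hu.2 (n + 1)⟩
  have hcyc : IsCyclic (rootsOfUnity (l ^ (n + 1)) E₂) := rootsOfUnity.isCyclic E₂ (l ^ (n + 1))
  obtain ⟨ζ₂, hζ₂⟩ := hr₂ (n + 1)
  obtain ⟨ζl, hζl⟩ := hr₂ 1
  rw [pow_one] at hζl
  have hcard : Nat.card (rootsOfUnity (l ^ (n + 1)) E₂) = l ^ (n + 1) := hζ₂.card_rootsOfUnity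
  have hN : A.valuation ((l ^ (n + 1) : ℕ) : E₁) = 1 := by
    rw [Nat.cast_pow, map_pow, hlA, one_pow]
  have hsV : ∀ y ∈ V, d * y * d⁻¹ ∈ V := fun y hy => ⟨hdU y hy.1, conj_mem_inS hd hy.2⟩
  have key := conj_eq_pow (inf_le_right : V ≤ inS F₁ A) hN hζ₁ (by rw [hcard])
    hK.kap (hK.openKer hα) hd hsV hdc ⟨x, hx, hxI⟩
  set κ : E₂ := ((hK.kap ⟨x, hx, hxI⟩ : E₂ˣ) : E₂) with hκ
  have hκy : α x y = κ * y := hK.kap_spec ⟨x, hx, hxI⟩
  have hκn : κ ^ (l ^ (n + 1)) = 1 := by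
    have := (mem_rootsOfUnity (l ^ (n + 1)) _).1 (hK.kap ⟨x, hx, hxI⟩).2
    rw [hκ, ← Units.val_pow_eq_pow_val, this, Units.val_one]
  have h1 : α (d * x * d⁻¹) y = κ ^ c * y := by
    have := hK.kap_spec ⟨d * x * d⁻¹, hsV x ⟨hx, hxI⟩⟩
    rw [key] at this
    simpa [hκ] using this
  -- direct computation
  set w := α d⁻¹ y with hw
  have hsw : α d w = y := by
    rw [hw, ← AlgEquiv.mul_apply, ← map_mul, mul_inv_cancel, map_one, AlgEquiv.one_apply]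
  set η := w / y with hη
  have hwη : w = η * y := by rw [hη]; field_simp
  have hvη : B.valuation η = 1 := by
    have hd' : α d⁻¹ ∈ decS F₂ B := by rw [map_inv]; exact (decS F₂ B).inv_mem hdB
    rw [hη, map_div₀, hw, dec_val_eq hd', div_self]
    simpa using hy0
  have hηU : ∀ u ∈ U, α u (η ^ (l ^ (n + 1))) = η ^ (l ^ (n + 1)) := by
    intro u hu
    rw [hη, div_pow, map_div₀, hy u hu]
    congr 1
    have h2 : α u (w ^ (l ^ (n + 1))) = α d⁻¹ (α (d * u * d⁻¹) (y ^ (l ^ (n + 1)))) := by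
      rw [hw, ← map_pow, ← AlgEquiv.mul_apply, ← AlgEquiv.mul_apply, ← map_mul, ← map_mul]
      congr 2
      group
    rw [h2, hy _ (hdU u hu), hw, map_pow]
  have hxη : α x η = η := unit_fixed hl hlB ⟨ζl, hζl⟩ hroot hμ hI hunr hγl hJ hu₀ hγu (n + 1) η
    hvη hηU hx hxI
  have h2 : α (d * x * d⁻¹) y = α d κ * y := by
    rw [map_mul, map_mul, AlgEquiv.mul_apply, AlgEquiv.mul_apply, ← hw, hwη, map_mul,
      hxη, hκy]
    have : η * (κ * y) = κ * w := by rw [hwη]; ring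
    rw [this, map_mul, hsw]
  have h3 : α d κ = κ ^ c := mul_right_cancel₀ hy0 (h2.symm.trans h1)
  have hκ1 : κ ^ (l ^ n) ≠ 1 := by
    intro h
    apply hxβ
    rw [← hyβ, map_pow, hκy, mul_pow, h, one_mul]
  have hprim : IsPrimitiveRoot κ (l ^ (n + 1)) := by
    have h4 : orderOf κ = l ^ (n + 1) := orderOf_eq_prime_pow hκ1 hκn
    rw [← h4]; exact IsPrimitiveRoot.orderOf κ
  obtain ⟨i, _, hi⟩ := hprim.eq_pow_of_pow_eq_one hz
  rw [← hi, map_pow, h3, ← pow_mul, ← pow_mul, mul_comm]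

end

end Crest.Agent.R018.LCCx484
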