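import Crest.Agent.R018.LCC_484
import Crest.Agent.R018.LocDef_31

/-!
# Local correspondence, part D: the Kummer element and the levels (row 18, helper484)
-/

set_option autoImplicit false

open NumberField Pointwise

namespace Crest.Agent.R018.LCDx484

open Crest.Agent.R018.Placesx484
open Crest.Agent.R018.Placesx484.Place
open Crest.Agent.R018.Tamex31
open Crest.Agent.R018.Rig4x931
open Crest.Agent.R018.LCAx484
open Crest.Agent.R018.LCBx484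
open Crest.Agent.R018.LCCx484

section basics

variable {F E : Type*} [Field F] [Field E] [Algebra F E]

/-- the elements acting trivially on the `l`-th roots of unity -/
def muFix (F E : Type*) [Field F] [Field E] [Algebra F E] (l : ℕ) : Subgroup (E ≃ₐ[F] E) where
  carrier := {g | ∀ z : E, z ^ l = 1 → g z = z}
  mul_mem' := by
    intro a b ha hb z hz
    rw [AlgEquiv.mul_apply, hb z hz, ha z hz]
  one_mem' := fun z _ => rfl
  inv_mem' := by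
    intro a ha z hz
    have h1 := ha z hz
    conv_lhs => rw [← h1]
    rw [← AlgEquiv.mul_apply, inv_mul_cancel, AlgEquiv.one_apply]

theorem mem_muFix {l : ℕ} {g : E ≃ₐ[F] E} : g ∈ muFix F E l ↔ ∀ z : E, z ^ l = 1 → g z = z :=
  Iff.rfl

theorem isOpen_muFix [Algebra.IsIntegral F E] {l : ℕ} [NeZero l] {ζ : E}
    (hζ : IsPrimitiveRoot ζ l) : IsOpen (muFix F E l : Set (E ≃ₐ[F] E)) := by
  have h1 : muFix F E l = MulAction.stabilizer (E ≃ₐ[F] E) ζ := by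
    ext g
    rw [mem_muFix, MulAction.mem_stabilizer_iff]
    constructor
    · intro h
      exact h ζ hζ.pow_eq_one
    · intro h z hz
      obtain ⟨i, _, hi⟩ := hζ.eq_pow_of_pow_eq_one hz
      rw [← hi, map_pow]
      exact congrArg (· ^ i) h
  rw [h1]
  exact stabilizer_isOpen_of_isIntegral ζ

/-- an open subgroup contains an open normal one -/
theorem exists_normal_le [IsGalois F E] {W : Subgroup (E ≃ₐ[F] E)}
    (hW : IsOpen (W : Set (E ≃ₐ[F] E))) :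
    ∃ N : Subgroup (E ≃ₐ[F] E), N.Normal ∧ IsOpen (N : Set (E ≃ₐ[F] E)) ∧ N ≤ W := by
  obtain ⟨N, hN⟩ := ProfiniteGrp.exist_openNormalSubgroup_sub_open_nhds_of_one hW
    (Subgroup.one_mem _)
  exact ⟨N.toSubgroup, inferInstance, N.isOpen', hN⟩

theorem pow_mem_of_isOpen [IsGalois F E] {W : Subgroup (E ≃ₐ[F] E)}
    (hW : IsOpen (W : Set (E ≃ₐ[F] E))) (g : E ≃ₐ[F] E) : ∃ n : ℕ, 0 < n ∧ g ^ n ∈ W := by
  have : Finite ((E ≃ₐ[F] E) ⧸ W) := Subgroup.quotient_finite_of_isOpen W hW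
  have h := Subgroup.finiteIndex_of_finite_quotient (H := W)
  obtain ⟨n, hn, -, h1⟩ := Subgroup.exists_pow_mem_of_index_ne_zero (H := W) h.index_ne_zero g
  exact ⟨n, hn, h1⟩

/-- Lagrange resolvents -/
theorem exists_lagrange {l : ℕ} (hl : l.Prime) (hl0 : (l : E) ≠ 0) {ζ : E}
    (hζ : IsPrimitiveRoot ζ l) {σ : E ≃ₐ[F] E} (hσζ : σ ζ = ζ) {θ : E} (hθl : (σ ^ l) θ = θ)
    (hθ : σ θ ≠ θ) : ∃ β : E, β ≠ 0 ∧ σ β ≠ β ∧ σ (β ^ l) = β ^ l := by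
  classical
  have hζ0 : ζ ≠ 0 := hζ.ne_zero hl.ne_zero
  let B : ℕ → E := fun j => ∑ i ∈ Finset.range l, (ζ⁻¹ ^ j) ^ i * (σ ^ i) θ
  have hB : ∀ j, σ (B j) = ζ ^ j * B j := by
    intro j
    have h1 : σ (B j) = ∑ i ∈ Finset.range l, (ζ⁻¹ ^ j) ^ i * (σ ^ (i + 1)) θ := by
      rw [map_sum]
      refine Finset.sum_congr rfl fun i _ => ?_
      rw [map_mul, map_pow, map_pow, map_inv₀, hσζ, pow_succ', AlgEquiv.mul_apply]
    have h2 : ζ ^ j * B j = ∑ i ∈ Finset.range l, ζ ^ j * ((ζ⁻¹ ^ j) ^ i * (σ ^ i) θ) := by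
      rw [Finset.mul_sum]
    have h3 : ∀ i, (ζ⁻¹ ^ j) ^ i * (σ ^ (i + 1)) θ =
        ζ ^ j * ((ζ⁻¹ ^ j) ^ (i + 1) * (σ ^ (i + 1)) θ) := by
      intro i
      rw [pow_succ (ζ⁻¹ ^ j)]
      have : ζ ^ j * ζ⁻¹ ^ j = 1 := by rw [← mul_pow, mul_inv_cancel₀ hζ0, one_pow]
      linear_combination (-(ζ⁻¹ ^ j) ^ i * (σ ^ (i + 1)) θ) * this
    rw [h1, h2, Finset.sum_congr rfl fun i _ => h3 i]
    have h4 := Finset.sum_range_succ (fun i => ζ ^ j * ((ζ⁻¹ ^ j) ^ i * (σ ^ i) θ)) l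
    have h5 := Finset.sum_range_succ' (fun i => ζ ^ j * ((ζ⁻¹ ^ j) ^ i * (σ ^ i) θ)) l
    rw [h4] at h5
    have h6 : ζ ^ j * ((ζ⁻¹ ^ j) ^ l * (σ ^ l) θ) = ζ ^ j * ((ζ⁻¹ ^ j) ^ 0 * (σ ^ 0) θ) := by
      rw [hθl, ← pow_mul, mul_comm j l, pow_mul, inv_pow, hζ.pow_eq_one, inv_one, one_pow,
        pow_zero, pow_zero, AlgEquiv.one_apply]
    rw [h6] at h5
    exact (add_right_cancel h5).symm
  have hsum : ∑ j ∈ Finset.range l, B j = l * θ := by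
    simp only [B]
    rw [Finset.sum_comm]
    have h1 : ∀ i ∈ Finset.range l, ∑ j ∈ Finset.range l, (ζ⁻¹ ^ j) ^ i * (σ ^ i) θ =
        if i = 0 then (l : E) * θ else 0 := by
      intro i hi
      rw [← Finset.sum_mul]
      split_ifs with h0
      · subst h0
        simp
      · have h2 : ∑ j ∈ Finset.range l, (ζ⁻¹ ^ j) ^ i = 0 := by
          have h3 : ∀ j, (ζ⁻¹ ^ j) ^ i = (ζ⁻¹ ^ i) ^ j := fun j => by
            rw [← pow_mul, ← pow_mul, mul_comm]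
          rw [Finset.sum_congr rfl fun j _ => h3 j]
          have h4 : (ζ⁻¹ ^ i) ^ l = 1 := by
            rw [← pow_mul, mul_comm, pow_mul, inv_pow, hζ.pow_eq_one, inv_one, one_pow]
          have h5 : ζ⁻¹ ^ i ≠ 1 := by
            rw [inv_pow, Ne, inv_eq_one]
            exact hζ.pow_ne_one_of_pos_of_lt h0 (Finset.mem_range.1 hi)
          have h6 := geom_sum_mul (ζ⁻¹ ^ i) l
          rw [h4, sub_self] at h6
          rcases mul_eq_zero.1 h6 with h7 | h7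
          · exact h7
          · exact absurd (sub_eq_zero.1 h7) h5
        rw [h2, zero_mul]
    rw [Finset.sum_congr rfl h1, Finset.sum_ite_eq' (Finset.range l) 0,
      if_pos (Finset.mem_range.2 hl.pos)]
  by_contra hcon
  push Not at hcon
  have hzero : ∀ j ∈ Finset.range l, j ≠ 0 → B j = 0 := by
    intro j hj hj0
    by_contra hBj
    have h1 : ζ ^ j ≠ 1 := hζ.pow_ne_one_of_pos_of_lt hj0 (Finset.mem_range.1 hj)
    refine hcon (B j) hBj ?_ ?_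
    · rw [hB j]
      intro h2
      exact h1 (mul_right_cancel₀ hBj (h2.trans (one_mul _).symm))
    · rw [map_pow, hB j, mul_pow, ← pow_mul, mul_comm j l, pow_mul, hζ.pow_eq_one, one_pow,
        one_mul]
  have h1 : ∑ j ∈ Finset.range l, B j = B 0 :=
    Finset.sum_eq_single_of_mem 0 (Finset.mem_range.2 hl.pos) hzero
  rw [hsum] at h1
  apply hθ
  have h2 := hB 0
  rw [pow_zero, one_mul, ← h1, map_mul, map_natCast] at h2
  exact mul_left_cancel₀ hl0 h2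

end basics

section choice

variable {F₁ E₁ F₂ E₂ : Type*} [Field F₁] [Field E₁] [Algebra F₁ E₁] [Field F₂] [Field E₂]
  [Algebra F₂ E₂] [IsGalois F₂ E₂]
  {α : (E₁ ≃ₐ[F₁] E₁) →* (E₂ ≃ₐ[F₂] E₂)}

/-- the Kummer element: some power of `x` has an image acting nontrivially on an `l`-th root of a
fixed element. -/
theorem exists_kummer [CharZero E₂] {l : ℕ} (hl : l.Prime) (_hl2 : l ≠ 2) {ζ : E₂}
    (hζ : IsPrimitiveRoot ζ l) (x : E₁ ≃ₐ[F₁] E₁) {N : Subgroup (E₂ ≃ₐ[F₂] E₂)}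
    (hNo : IsOpen (N : Set (E₂ ≃ₐ[F₂] E₂))) (hN : ∀ n : ℕ, (α x) ^ n ∈ N → l ∣ n) :
    ∃ (e : ℕ) (β : E₂), β ≠ 0 ∧ α (x ^ e) ∈ muFix F₂ E₂ l ∧ α (x ^ e) β ≠ β ∧
      α (x ^ e) (β ^ l) = β ^ l := by
  classical
  have : NeZero l := ⟨hl.ne_zero⟩
  have : Fact l.Prime := ⟨hl⟩
  set C := muFix F₂ E₂ l with hC
  have hCo : IsOpen (C : Set (E₂ ≃ₐ[F₂] E₂)) := isOpen_muFix hζ
  -- the `l - 1`-th power acts trivially on the `l`-th roots of unity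
  have hx1 : α (x ^ (l - 1)) ∈ C := by
    let a : (E₂ ≃ₐ[F₂] E₂) →* (ZMod l)ˣ := hζ.autToPow F₂
    have ha : a (α x ^ (l - 1)) = 1 := by
      rw [map_pow]
      have := ZMod.units_pow_card_sub_one_eq_one l (a (α x))
      exact this
    have h1 := hζ.autToPow_spec F₂ (α x ^ (l - 1))
    rw [show hζ.autToPow F₂ (α x ^ (l - 1)) = 1 from ha] at h1
    have h2 : ((1 : (ZMod l)ˣ) : ZMod l).val = 1 := by
      rw [Units.val_one, ZMod.val_one_eq_one_mod, Nat.mod_eq_of_lt hl.one_lt]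
    rw [h2, pow_one] at h1
    rw [hC, mem_muFix, map_pow]
    intro z hz
    obtain ⟨i, _, hi⟩ := hζ.eq_pow_of_pow_eq_one hz
    rw [← hi, map_pow, ← h1]
  set N₁ := N ⊓ C with hN₁
  have hN₁o : IsOpen (N₁ : Set (E₂ ≃ₐ[F₂] E₂)) := hNo.inter hCo
  have hex : ∃ r : ℕ, 0 < r ∧ (α (x ^ (l - 1))) ^ r ∈ N₁ := pow_mem_of_isOpen hN₁o _
  obtain ⟨hr0, hr⟩ := Nat.find_spec hex
  set r := Nat.find hex with hrdef
  have hl1 : 0 < l - 1 := by have := hl.two_le; omega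
  have hdvd : l ∣ r := by
    have h1 : (α x) ^ ((l - 1) * r) ∈ N := by
      have := hr.1
      rwa [← map_pow, ← pow_mul, map_pow] at this
    rcases hl.dvd_mul.1 (hN _ h1) with h2 | h2
    · exact absurd (Nat.le_of_dvd hl1 h2) (by omega)
    · exact h2
  obtain ⟨r', hr'⟩ := hdvd
  have hr'0 : 0 < r' := by
    rcases Nat.eq_zero_or_pos r' with h | h
    · rw [h, mul_zero] at hr'; omega
    · exact h
  have hlt : r' < r := by
    rw [hr']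
    exact lt_mul_of_one_lt_left hr'0 hl.one_lt
  have hnot : (α (x ^ (l - 1))) ^ r' ∉ N₁ := fun h => Nat.find_min hex hlt ⟨hr'0, h⟩
  set σ := (α (x ^ (l - 1))) ^ r' with hσ
  have hσl : σ ^ l ∈ N₁ := by
    rw [hσ, ← pow_mul, mul_comm, ← hr']
    exact hr
  have hσC : σ ∈ C := C.pow_mem hx1 _
  -- an element of the fixed field moved by `σ`
  have hfix : ∃ θ : E₂, (∀ g ∈ N₁, g θ = θ) ∧ σ θ ≠ θ := by
    by_contra hcon
    push Not at hcon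
    apply hnot
    have hcl : IsClosed (N₁ : Set (E₂ ≃ₐ[F₂] E₂)) := Subgroup.isClosed_of_isOpen N₁ hN₁o
    have h1 := InfiniteGalois.fixingSubgroup_fixedField (⟨N₁, hcl⟩ : ClosedSubgroup (E₂ ≃ₐ[F₂] E₂))
    change (IntermediateField.fixedField N₁).fixingSubgroup = N₁ at h1
    rw [← h1]
    rw [IntermediateField.mem_fixingSubgroup_iff]
    intro y hy
    exact hcon y (fun g hg => hy ⟨g, hg⟩)
  obtain ⟨θ, hθN, hθ⟩ := hfix
  obtain ⟨β, hβ0, hβ, hβl⟩ := exists_lagrange hl (Nat.cast_ne_zero.2 hl.ne_zero) hζ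
    (hσC ζ hζ.pow_eq_one) (hθN _ hσl) hθ
  have hσe : α (x ^ ((l - 1) * r')) = σ := by rw [pow_mul, map_pow]
  refine ⟨(l - 1) * r', β, hβ0, ?_, ?_, ?_⟩
  · rw [hσe]; exact hσC
  · rw [hσe]; exact hβ
  · rw [hσe]; exact hβl

end choice

section level

variable {F₁ E₁ F₂ E₂ : Type*} [Field F₁] [Field E₁] [Algebra F₁ E₁] [Field F₂] [Field E₂]
  [Algebra F₂ E₂]

/-- the elements of the decomposition group of `P` whose image fixes the `l`-th roots of unity and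
`β ^ l`. -/
def DG (α : (E₁ ≃ₐ[F₁] E₁) →* (E₂ ≃ₐ[F₂] E₂)) (l : ℕ) (P : Place E₁) (β : E₂) :
    Subgroup (E₁ ≃ₐ[F₁] E₁) :=
  MulAction.stabilizer (E₁ ≃ₐ[F₁] E₁) P ⊓
    (muFix F₂ E₂ l ⊓ MulAction.stabilizer (E₂ ≃ₐ[F₂] E₂) (β ^ l)).comap α

variable {α : (E₁ ≃ₐ[F₁] E₁) →* (E₂ ≃ₐ[F₂] E₂)} {l : ℕ} {P : Place E₁} {β : E₂}

theorem mem_DG {u : E₁ ≃ₐ[F₁] E₁} : u ∈ DG α l P β ↔ u • P = P ∧
    (∀ z : E₂, z ^ l = 1 → α u z = z) ∧ α u (β ^ l) = β ^ l := Iff.rfl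

variable [NumberField F₁] [CharZero E₁] [Algebra.IsAlgebraic ℚ E₁] [IsGalois F₁ E₁]
  [IsGalois F₂ E₂]

omit [NumberField F₁] [Algebra.IsAlgebraic ℚ E₁] in
theorem isClosed_stab (P : Place E₁) :
    IsClosed (MulAction.stabilizer (E₁ ≃ₐ[F₁] E₁) P : Set (E₁ ≃ₐ[F₁] E₁)) :=
  Place.isClosed_stabilizer P

theorem isOpen_WW (hl : l.Prime) {ζ : E₂} (hζ : IsPrimitiveRoot ζ l) :
    IsOpen ((muFix F₂ E₂ l ⊓ MulAction.stabilizer (E₂ ≃ₐ[F₂] E₂) (β ^ l) :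
      Subgroup (E₂ ≃ₐ[F₂] E₂)) : Set (E₂ ≃ₐ[F₂] E₂)) := by
  have : NeZero l := ⟨hl.ne_zero⟩
  exact (isOpen_muFix hζ).inter (stabilizer_isOpen_of_isIntegral _)

/-- every level contains a Frobenius like element and a ramified Kummer element -/
theorem level (hα : Continuous α) (hl : l.Prime) (hl2 : l ≠ 2) (hP : P.rchar ≠ l)
    (hr₁ : ∀ n, ∃ ζ : E₁, IsPrimitiveRoot ζ (l ^ n))
    (hr₂ : ∀ n, ∃ ζ : E₂, IsPrimitiveRoot ζ (l ^ n))
    (hroot : ∀ y : E₂, ∃ z, z ^ l = y)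
    {x : E₁ ≃ₐ[F₁] E₁} (hxI : x ∈ P.ideal.inertia (E₁ ≃ₐ[F₁] E₁)) (hβ0 : β ≠ 0)
    (hxμ : α x ∈ muFix F₂ E₂ l) (hxβ : α x β ≠ β) (hxβl : α x (β ^ l) = β ^ l)
    {N : Subgroup (E₂ ≃ₐ[F₂] E₂)} (hN : IsOpen (N : Set (E₂ ≃ₐ[F₂] E₂))) :
    ∃ s ∈ DG α l P β ⊓ N.comap α, ∃ c : ℕ, 2 ≤ c ∧
      (∀ n, ∀ ζ : E₁, ζ ^ (l ^ n) = 1 → s ζ = ζ ^ c) ∧
      ∃ x' ∈ DG α l P β ⊓ N.comap α, x' ∈ inS F₁ P.val ∧ ∃ (n : ℕ) (y : E₂), y ≠ 0 ∧
        (∀ u ∈ DG α l P β ⊓ N.comap α, α u (y ^ (l ^ n)) = y ^ (l ^ n)) ∧ α x' y ≠ y := by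
  have : NeZero l := ⟨hl.ne_zero⟩
  have : Fact l.Prime := ⟨hl⟩
  obtain ⟨ζl, hζl⟩ := hr₂ 1
  rw [pow_one] at hζl
  have hlA := val_prime_eq_one P hl hP
  have hPl : ∀ n, ¬ P.rchar ∣ l ^ n := fun n h =>
    hP ((Nat.prime_dvd_prime_iff_eq P.rchar_prime hl).1 (P.rchar_prime.dvd_of_dvd_pow h))
  -- Frobenius
  obtain ⟨φ, hφP, hφ⟩ := exists_frob (F := F₁) P
  have hq := one_lt_qv (F := F₁) P
  set q := P.qv F₁ with hqdef
  have hφζ : ∀ m n, ∀ ζ : E₁, ζ ^ (l ^ n) = 1 → (φ ^ m) ζ = ζ ^ (q ^ m) := by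
    intro m
    induction m with
    | zero => intro n ζ _; simp
    | succ m ih =>
      intro n ζ hζ
      have h1 : φ ζ = ζ ^ q := frob_root P hφ (hPl n) hζ
      rw [pow_succ, AlgEquiv.mul_apply, h1, map_pow, ih n ζ hζ, ← pow_mul, ← pow_succ]
  have hWo := isOpen_WW (F₂ := F₂) (β := β) hl hζl
  -- both elements have powers in the level
  have hpow : ∀ g : E₁ ≃ₐ[F₁] E₁, g • P = P → ∀ M : Subgroup (E₂ ≃ₐ[F₂] E₂),
      IsOpen (M : Set (E₂ ≃ₐ[F₂] E₂)) → ∃ m : ℕ, 0 < m ∧ g ^ m ∈ DG α l P β ⊓ M.comap α := by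
    intro g hg M hM
    obtain ⟨m, hm, h1⟩ := pow_mem_of_isOpen (W := (muFix F₂ E₂ l ⊓
      MulAction.stabilizer (E₂ ≃ₐ[F₂] E₂) (β ^ l)) ⊓ M) (hWo.inter hM) (α g)
    have h2 : α (g ^ m) ∈ (muFix F₂ E₂ l ⊓ MulAction.stabilizer (E₂ ≃ₐ[F₂] E₂) (β ^ l)) ⊓ M := by
      rw [map_pow]; exact h1
    exact ⟨m, hm, ⟨(MulAction.stabilizer (E₁ ≃ₐ[F₁] E₁) P).pow_mem hg m, h2.1⟩, h2.2⟩
  have hxP : x • P = P := smul_eq_of_mem_inertia P hxI
  have hxI' : x ∈ inS F₁ P.val := (mem_inS_val P x).2 hxI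
  have hxD : x ∈ DG α l P β := mem_DG.2 ⟨hxP, hxμ, hxβl⟩
  have hDdec : DG α l P β ≤ decS F₁ P.val := fun u hu => (mem_decS_val P u).2 (mem_DG.1 hu).1
  -- inertia acts trivially on `l`-power roots of unity through `α`
  obtain ⟨m₀, hm₀, hφm₀⟩ := hpow φ hφP ⊤ isOpen_univ
  have hI : ∀ j, ∀ z : E₂, z ^ (l ^ j) = 1 → α x z = z := by
    intro j z hz
    exact cyc_inertia (A := P.val) hα hl hl2 hlA hr₁ hr₂ hDdec (fun u hu => (mem_DG.1 hu).2.1)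
      hφm₀.1 (c := q ^ m₀) (lt_of_lt_of_le hq (Nat.le_self_pow hm₀.ne' q))
      (fun n ζ hζ => hφζ m₀ n ζ hζ) hxD hxI' j z hz
  obtain ⟨m, hm, hφm⟩ := hpow φ hφP N hN
  obtain ⟨m', hm', hxm'⟩ := hpow x hxP N hN
  refine ⟨φ ^ m, hφm, q ^ m, lt_of_lt_of_le hq (Nat.le_self_pow hm.ne' q),
    fun n ζ hζ => hφζ m n ζ hζ, x ^ m', hxm', (inS F₁ P.val).pow_mem hxI' m', ?_⟩
  obtain ⟨y, hy⟩ := exists_pow_root hroot m' β
  have hy0 : y ≠ 0 := by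
    rintro rfl
    rw [zero_pow (pow_ne_zero _ hl.ne_zero)] at hy
    exact hβ0 hy.symm
  have hyl : y ^ (l ^ (m' + 1)) = β ^ l := by rw [pow_succ, pow_mul, hy]
  refine ⟨m' + 1, y, hy0, ?_, ?_⟩
  · intro u hu
    rw [hyl]
    exact (mem_DG.1 hu.1).2.2
  · set κ := α x y / y with hκ
    have hκy : α x y = κ * y := by rw [hκ, div_mul_cancel₀ _ hy0]
    have hκ1 : κ ^ (l ^ (m' + 1)) = 1 := by
      rw [hκ, div_pow, ← map_pow, hyl, hxβl, div_self (pow_ne_zero _ hβ0)]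
    have hκ2 : κ ^ (l ^ m') ≠ 1 := by
      intro h
      apply hxβ
      rw [← hy, map_pow, hκy, mul_pow, h, one_mul]
    have hord : orderOf κ = l ^ (m' + 1) := orderOf_eq_prime_pow hκ2 hκ1
    have hpow' : ∀ j : ℕ, α (x ^ j) y = κ ^ j * y := by
      intro j
      induction j with
      | zero => simp
      | succ j ih =>
        have h1 : α x (κ ^ j) = κ ^ j := by rw [map_pow, hI _ κ hκ1]
        rw [pow_succ', map_mul, AlgEquiv.mul_apply, ih, map_mul, h1, hκy, pow_succ, mul_assoc]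
    rw [hpow']
    intro h
    have h1 : κ ^ m' = 1 := mul_right_cancel₀ hy0 (h.trans (one_mul y).symm)
    have h2 := orderOf_dvd_of_pow_eq_one h1
    rw [hord] at h2
    have h3 := Nat.le_of_dvd hm' h2
    have h4 : m' < l ^ m' := Nat.lt_pow_self hl.one_lt
    have h5 : l ^ m' ≤ l ^ (m' + 1) := Nat.pow_le_pow_right hl.pos (by omega)
    omega

end level

end Crest.Agent.R018.LCDx484
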