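import Crest.Agent.R018.LCD_484

/-!
# Local correspondence, part E: the theorem (row 18, helper484)
-/

set_option autoImplicit false

open NumberField Pointwise

namespace Crest.Agent.R018.LCEx484

open Crest.Agent.R018.Placesx484
open Crest.Agent.R018.Placesx484.Place
open Crest.Agent.R018.Tamex31
open Crest.Agent.R018.Rig4x931
open Crest.Agent.R018.LCAx484
open Crest.Agent.R018.LCBx484
open Crest.Agent.R018.LCCx484
open Crest.Agent.R018.LCDx484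

section uniq

variable {F E : Type*} [Field F] [Field E] [CharZero E] [Algebra.IsAlgebraic ℚ E] [Algebra F E]
  [IsGalois F E]

omit [CharZero E] [Algebra.IsAlgebraic ℚ E] in
theorem isClosed_map {F₁ E₁ : Type*} [Field F₁] [Field E₁] [Algebra F₁ E₁] [IsGalois F₁ E₁]
    {α : (E₁ ≃ₐ[F₁] E₁) →* (E ≃ₐ[F] E)} (hα : Continuous α) {U : Subgroup (E₁ ≃ₐ[F₁] E₁)}
    (hU : IsClosed (U : Set (E₁ ≃ₐ[F₁] E₁))) : IsClosed (U.map α : Set (E ≃ₐ[F] E)) := by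
  rw [Subgroup.coe_map]
  exact (hU.isCompact.image hα).isClosed

/-- a closed group whose fixed field has a nontrivial Kummer class fixes at most one place -/
theorem place_unique {V : Subgroup (E ≃ₐ[F] E)} (hV : IsClosed (V : Set (E ≃ₐ[F] E))) {l : ℕ}
    (hl : l.Prime) {ζ : E} (hζ : IsPrimitiveRoot ζ l) (hroot : ∀ y : E, ∃ z, z ^ l = y)
    (hge : RankGE E l V) {Q Q' : Place E} (hQ : ∀ g ∈ V, g • Q = Q)
    (hQ' : ∀ g ∈ V, g • Q' = Q') : Q = Q' := by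
  by_contra hne
  let M := IntermediateField.fixedField V
  have hMV : M.fixingSubgroup = V :=
    InfiniteGalois.fixingSubgroup_fixedField (⟨V, hV⟩ : ClosedSubgroup (E ≃ₐ[F] E))
  have hmem : ∀ g : E ≃ₐ[M] E, (g.restrictScalars F) ∈ V := by
    intro g
    rw [← hMV, IntermediateField.mem_fixingSubgroup_iff]
    intro x hx
    exact g.commutes ⟨x, hx⟩
  have hfx : ∀ R : Place E, (∀ g ∈ V, g • R = R) → ∀ g : E ≃ₐ[M] E, g • R = R := by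
    intro R hR g
    have h1 := hR _ (hmem g)
    exact h1
  have h1 : CharZero M := inferInstance
  have h2 : Algebra.IsAlgebraic ℚ M := ⟨fun x =>
    (isAlgebraic_algebraMap_iff (algebraMap M E).injective).1
      (Algebra.IsAlgebraic.isAlgebraic (algebraMap M E x))⟩
  obtain ⟨b, c, hb0, hc0, hb, hc, h⟩ := hge
  have hbM : b ∈ M := fun g => hb g g.2
  obtain ⟨z, hz⟩ := fkSchmidt (M := M) Q Q' hne (hfx Q hQ) (hfx Q' hQ') hl hζ hroot ⟨b, hbM⟩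
  have h3 := (h 1 0 ⟨z, fun g hg => z.2 ⟨g, hg⟩, by
    have := congrArg (fun t : M => (t : E)) hz
    simpa using this⟩).1
  have h4 : (l : ℤ) ∣ 1 := h3
  exact (Nat.prime_iff_prime_int.1 hl).not_isUnit (isUnit_of_dvd_one h4)

end uniq

section main

variable {F₁ E₁ F₂ E₂ : Type*} [Field F₁] [NumberField F₁] [Field E₁] [CharZero E₁]
  [Algebra.IsAlgebraic ℚ E₁] [Algebra F₁ E₁] [IsGalois F₁ E₁] [Field F₂] [Field E₂] [CharZero E₂]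
  [Algebra.IsAlgebraic ℚ E₂] [Algebra F₂ E₂] [IsGalois F₂ E₂]
  {α : (E₁ ≃ₐ[F₁] E₁) →* (E₂ ≃ₐ[F₂] E₂)}

/-- **The local correspondence at `l`.** -/
theorem main (hα : Continuous α) {l : ℕ} (hl : l.Prime) (hl2 : l ≠ 2)
    (hr₁ : ∀ n, ∃ ζ : E₁, IsPrimitiveRoot ζ (l ^ n))
    (hr₂ : ∀ n, ∃ ζ : E₂, IsPrimitiveRoot ζ (l ^ n))
    (hroot : ∀ y : E₂, ∃ z, z ^ l = y) (P : Place E₁) (hP : P.rchar ≠ l)
    {x : E₁ ≃ₐ[F₁] E₁} (hx : x ∈ P.ideal.inertia (E₁ ≃ₐ[F₁] E₁))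
    {N : Subgroup (E₂ ≃ₐ[F₂] E₂)} (hNo : IsOpen (N : Set (E₂ ≃ₐ[F₂] E₂)))
    (hN : ∀ n : ℕ, (α x) ^ n ∈ N → l ∣ n) :
    ∃ Q : Place E₂, Q.rchar ≠ l ∧ (∀ d : E₁ ≃ₐ[F₁] E₁, d • P = P → α d • Q = Q) ∧
      (∀ Q' : Place E₂, (∀ d : E₁ ≃ₐ[F₁] E₁, d • P = P → α d • Q' = Q') → Q' = Q) ∧
      ∀ d : E₁ ≃ₐ[F₁] E₁, d • P = P → ∀ n c : ℕ,
        (∀ ζ : E₁, ζ ^ (l ^ n) = 1 → d ζ = ζ ^ c) → ∀ z : E₂, z ^ (l ^ n) = 1 → α d z = z ^ c := by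
  have hlf : Fact l.Prime := ⟨hl⟩
  have : Fact P.rchar.Prime := ⟨P.rchar_prime⟩
  obtain ⟨ζl, hζl⟩ := hr₂ 1
  rw [pow_one] at hζl
  obtain ⟨ζl₁, hζl₁⟩ := hr₁ 1
  rw [pow_one] at hζl₁
  obtain ⟨e, β, hβ0, hμe, hmove, hfixl⟩ := exists_kummer hl hl2 hζl x hNo hN
  have hx₀ : x ^ e ∈ P.ideal.inertia (E₁ ≃ₐ[F₁] E₁) := Subgroup.pow_mem _ hx e
  have hlA := val_prime_eq_one P hl hP
  have hDdec : DG α l P β ≤ decS F₁ P.val := fun u hu => (mem_decS_val P u).2 (mem_DG.1 hu).1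
  have hDμ : ∀ u ∈ DG α l P β, ∀ z : E₂, z ^ l = 1 → α u z = z := fun u hu => (mem_DG.1 hu).2.1
  have hDcl : IsClosed (DG α l P β : Set (E₁ ≃ₐ[F₁] E₁)) := by
    have h1 : IsClosed (((muFix F₂ E₂ l ⊓ MulAction.stabilizer (E₂ ≃ₐ[F₂] E₂) (β ^ l) :
      Subgroup (E₂ ≃ₐ[F₂] E₂)) : Set (E₂ ≃ₐ[F₂] E₂))) :=
      Subgroup.isClosed_of_isOpen _ (isOpen_WW hl hζl)
    exact (isClosed_stab P).inter (h1.preimage hα)
  have hUcl : ∀ K : Subgroup (E₂ ≃ₐ[F₂] E₂), IsOpen (K : Set (E₂ ≃ₐ[F₂] E₂)) →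
      IsClosed ((DG α l P β ⊓ K.comap α : Subgroup (E₁ ≃ₐ[F₁] E₁)) : Set (E₁ ≃ₐ[F₁] E₁)) :=
    fun K hK => hDcl.inter ((Subgroup.isClosed_of_isOpen K hK).preimage hα)
  have hunr : ∀ K : Subgroup (E₂ ≃ₐ[F₂] E₂), IsOpen (K : Set (E₂ ≃ₐ[F₂] E₂)) →
      UnrDep P.val l (DG α l P β ⊓ K.comap α) := fun K hK =>
    unrDep_of_closed (torsRes P) hl (hUcl K hK) (inf_le_left.trans hDdec)
  have hlev : ∀ K : Subgroup (E₂ ≃ₐ[F₂] E₂), IsOpen (K : Set (E₂ ≃ₐ[F₂] E₂)) → _ := fun K hK =>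
    level hα hl hl2 hP hr₁ hr₂ hroot hx₀ hβ0 hμe hmove hfixl hK
  have hge : ∀ K : Subgroup (E₂ ≃ₐ[F₂] E₂), IsOpen (K : Set (E₂ ≃ₐ[F₂] E₂)) →
      RankGE E₂ l ((DG α l P β ⊓ K.comap α).map α) := by
    intro K hK
    obtain ⟨s, hs, c, hc, hsc, x', hx', hx'I, n, y, hy0, hy, hxy⟩ := hlev K hK
    exact rankGE (A := P.val) hα hl hl2 hlA hr₁ hr₂ hroot (inf_le_left.trans hDdec)
      (fun u hu => hDμ u hu.1) hs hc hsc (hunr K hK) hx' hx'I hy0 hy hxy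
  have hmap : ∀ K : Subgroup (E₂ ≃ₐ[F₂] E₂),
      (DG α l P β).map α ⊓ K = (DG α l P β ⊓ K.comap α).map α := by
    intro K
    ext g
    constructor
    · rintro ⟨⟨u, hu, rfl⟩, hK⟩
      exact ⟨u, ⟨hu, hK⟩, rfl⟩
    · rintro ⟨u, hu, rfl⟩
      exact ⟨⟨u, hu.1, rfl⟩, hu.2⟩
  have hl3 : 3 ≤ l := by
    have := hl.two_le
    omega
  -- the place fixed by `α(D)`
  obtain ⟨Q, -, hQr, hQ, -⟩ := Rig8x931.exists_place (l := l) (G := E₂ ≃ₐ[F₂] E₂) (E := E₂) hl3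
    hroot hζl ((DG α l P β).map α) (by
      rintro g ⟨u, hu, rfl⟩
      exact hDμ u hu ζl hζl.pow_eq_one)
    {K : Subgroup (E₂ ≃ₐ[F₂] E₂) | K.Normal ∧ IsOpen (K : Set (E₂ ≃ₐ[F₂] E₂))}
    (fun K hK => hK.1) (by
      rintro K ⟨hK, hKo⟩ K' ⟨hK', hKo'⟩
      exact ⟨inferInstance, hKo.inter hKo'⟩) (by
      intro y
      obtain ⟨K, hK, hKo, hKy⟩ := exists_normal_le
        (stabilizer_isOpen_of_isIntegral (K := F₂) y)
      exact ⟨K, ⟨hK, hKo⟩, fun g hg => hKy hg.2⟩) (by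
      rintro K ⟨hK, hKo⟩
      rw [hmap]
      exact hge K hKo) (by
      rintro K ⟨hK, hKo⟩ θ hθ hθ'
      have hθo : IsOpen ((K ⊓ MulAction.stabilizer (E₂ ≃ₐ[F₂] E₂) θ :
          Subgroup (E₂ ≃ₐ[F₂] E₂)) : Set (E₂ ≃ₐ[F₂] E₂)) :=
        hKo.inter (stabilizer_isOpen_of_isIntegral θ)
      have h1 : St ((DG α l P β).map α ⊓ K) θ =
          (DG α l P β ⊓ (K ⊓ MulAction.stabilizer (E₂ ≃ₐ[F₂] E₂) θ).comap α).map α := by
        rw [← hmap]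
        ext g
        rw [mem_St]
        constructor
        · rintro ⟨h1, h2⟩
          exact ⟨h1.1, h1.2, h2⟩
        · rintro ⟨h1, h2, h3⟩
          exact ⟨⟨h1, h2⟩, h3⟩
      rw [h1]
      exact rankLE hα (rankOne P) hlA hζl₁ hζl hroot (fun u hu => hDμ u hu.1)
        (hunr _ hθo))
  -- the normal level
  obtain ⟨N₁, hN₁, hN₁o, hN₁le⟩ := exists_normal_le (isOpen_WW (F₂ := F₂) (β := β) hl hζl)
  set U : Subgroup (E₁ ≃ₐ[F₁] E₁) := DG α l P β ⊓ N₁.comap α with hU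
  have hUmem : ∀ u, u ∈ U ↔ u • P = P ∧ α u ∈ N₁ := by
    intro u
    constructor
    · rintro ⟨h1, h2⟩
      exact ⟨(mem_DG.1 h1).1, h2⟩
    · rintro ⟨h1, h2⟩
      exact ⟨⟨h1, hN₁le h2⟩, h2⟩
  have hUconj : ∀ d : E₁ ≃ₐ[F₁] E₁, d • P = P → ∀ u ∈ U, d * u * d⁻¹ ∈ U := by
    intro d hd u hu
    rw [hUmem] at hu ⊢
    have hd' : d⁻¹ • P = P := by rw [inv_smul_eq_iff, hd]
    refine ⟨by rw [mul_smul, mul_smul, hd', hu.1, hd], ?_⟩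
    rw [map_mul, map_mul, map_inv]
    exact hN₁.conj_mem _ hu.2 _
  have hVcl : IsClosed (U.map α : Set (E₂ ≃ₐ[F₂] E₂)) := isClosed_map hα (hUcl N₁ hN₁o)
  have huniq : ∀ R R' : Place E₂, (∀ g ∈ U.map α, g • R = R) → (∀ g ∈ U.map α, g • R' = R') →
      R = R' := fun R R' hR hR' => place_unique hVcl hl hζl hroot (hge N₁ hN₁o) hR hR'
  have hUQ : ∀ g ∈ U.map α, g • Q = Q := by
    rintro g ⟨u, hu, rfl⟩
    exact hQ _ ⟨u, hu.1, rfl⟩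
  have hgoes : ∀ d : E₁ ≃ₐ[F₁] E₁, d • P = P → α d • Q = Q := by
    intro d hd
    symm
    apply huniq Q (α d • Q) hUQ
    rintro g ⟨u, hu, rfl⟩
    have hd' : d⁻¹ • P = P := by rw [inv_smul_eq_iff, hd]
    have h1 := hUQ (α (d⁻¹ * u * d⁻¹⁻¹)) ⟨_, hUconj _ hd' u hu, rfl⟩
    rw [inv_inv, map_mul, map_mul, map_inv, mul_smul, mul_smul, inv_smul_eq_iff] at h1
    exact h1
  refine ⟨Q, hQr, hgoes, ?_, ?_⟩
  · intro Q' hQ'
    apply huniq Q' Q ?_ hUQ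
    rintro g ⟨u, hu, rfl⟩
    exact hQ' u ((hUmem u).1 hu).1
  · intro d hd n c hdc z hz
    rcases n with _ | n
    · rw [pow_zero, pow_one] at hz
      rw [hz, map_one, one_pow]
    obtain ⟨s, hs, c', hc', hsc, x', hx', hx'I, m, y, hy0, hy, hxy⟩ := hlev N₁ hN₁o
    have hUdec : U ≤ decS F₁ P.val := inf_le_left.trans hDdec
    have hUμ : ∀ u ∈ U, ∀ z : E₂, z ^ l = 1 → α u z = z := fun u hu => hDμ u hu.1
    obtain ⟨β', γ, hβ'0, hβ', ⟨x'', hx'', hx''I, hx''β⟩, hγl, ⟨J, hJ, hJγ⟩, u₀, hu₀, hγu⟩ :=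
      exists_basis (A := P.val) hα hl hl2 hlA hr₁ hr₂ hroot hUdec hUμ hs hc' hsc (hunr N₁ hN₁o)
        hx' hx'I hy0 hy hxy
    have hI : ∀ u ∈ U, u ∈ inS F₁ P.val → ∀ j, ∀ z : E₂, z ^ (l ^ j) = 1 → α u z = z :=
      fun u hu huI j z hz => cyc_inertia (A := P.val) hα hl hl2 hlA hr₁ hr₂ hUdec hUμ hs hc' hsc
        hu huI j z hz
    have : Fact Q.rchar.Prime := ⟨Q.rchar_prime⟩
    have hunrQ : UnrDep Q.val l (U.map α) :=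
      unrDep_of_closed (torsRes Q) hl hVcl (fun g hg => (mem_decS_val Q g).2 (hUQ g hg))
    obtain ⟨ζ₁, hζ₁⟩ := hr₁ (n + 1)
    exact cyc_dec (A := P.val) (B := Q.val) hα hl hlA (val_prime_eq_one Q hl hQr) hr₂ hroot hUμ hI
      hunrQ hγl hJγ hu₀ hγu hβ'0 hβ' hx'' hx''I hx''β ((mem_decS_val P d).2 hd)
      ((mem_decS_val Q _).2 (hgoes d hd)) (hUconj d hd) hζ₁ (hdc ζ₁ hζ₁.pow_eq_one) z hz

end main

end Crest.Agent.R018.LCEx484
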