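import Crest.Agent.R018.LCMain_925
import Crest.Agent.R018.EndDef_924

/-!
# Row 18: BLOCK LC in the form used by the end game (helper925)

* `lc` : [weak cyclotomic compatibility] + [local correspondence] ⟹ `EndDefx924.LC`.
-/

set_option autoImplicit false

open NumberField Ideal
open scoped Pointwise Topology
open Crest.Agent.R018.Placesx484
open Crest.Agent.R018.LCMainx925
open Crest.Agent.R018.EndDefx924

namespace Crest.Agent.R018.LCEndx925

/-- the two rings of algebraic integers -/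
def toOO (E : Type*) [Field E] : 𝓞 E ≃+* OO E := RingEquiv.refl (integralClosure ℤ E)

theorem coe_toOO {E : Type*} [Field E] (x : 𝓞 E) : ((toOO E x : OO E) : E) = algebraMap (𝓞 E) E x :=
  rfl

theorem toOO_smul {F E : Type*} [Field F] [Field E] [Algebra F E] (g : E ≃ₐ[F] E) (x : 𝓞 E) :
    toOO E (g • x) = mapO (g : E →+* E) (toOO E x) := by
  apply Subtype.ext
  rw [coe_toOO, coe_smul_int, coe_mapO, coe_toOO]
  rfl

/-- the place attached to a geometric place -/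
noncomputable def placeOf {E : Type*} [Field E] [CharZero E] (p : ℕ) [hp : Fact p.Prime]
    (l : Pl p E) : Place E where
  ideal := RingHom.ker (l.comp (toOO E : 𝓞 E →+* OO E))
  isPrime := RingHom.ker_isPrime _
  ne_bot := by
    intro h
    have h1 : (p : 𝓞 E) ∈ RingHom.ker (l.comp (toOO E : 𝓞 E →+* OO E)) := by
      rw [RingHom.mem_ker, map_natCast, ← map_natCast (algebraMap (ZMod p) _), ZMod.natCast_self,
        map_zero]
    rw [h, Ideal.mem_bot] at h1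
    exact hp.out.ne_zero (by exact_mod_cast h1)

theorem mem_placeOf {E : Type*} [Field E] [CharZero E] (p : ℕ) [hp : Fact p.Prime]
    (l : Pl p E) (x : 𝓞 E) : x ∈ (placeOf p l).ideal ↔ l (toOO E x) = 0 := by
  change x ∈ RingHom.ker (l.comp (toOO E : 𝓞 E →+* OO E)) ↔ _
  rw [RingHom.mem_ker]
  rfl

theorem natCast_mem_placeOf {E : Type*} [Field E] [CharZero E] (p : ℕ) [hp : Fact p.Prime]
    (l : Pl p E) : (p : 𝓞 E) ∈ (placeOf p l).ideal := by
  rw [mem_placeOf, map_natCast, map_natCast, ← map_natCast (algebraMap (ZMod p) _),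
    ZMod.natCast_self, map_zero]

/-- every place above `p` comes from a geometric place -/
theorem exists_geom {E : Type*} [Field E] [CharZero E] (p : ℕ) [hp : Fact p.Prime]
    (Q : Place E) (hQ : (p : 𝓞 E) ∈ Q.ideal) :
    ∃ l : Pl p E, ∀ x : 𝓞 E, x ∈ Q.ideal → l (toOO E x) = 0 := by
  haveI := Q.isMaximal
  letI : Field (𝓞 E ⧸ Q.ideal) := Ideal.Quotient.field Q.ideal
  have hQp : Q.rchar = p := Q.rchar_eq_of_mem hp.out hQ
  haveI : CharP (𝓞 E ⧸ Q.ideal) p := hQp ▸ LCPlx925.charP_residue Q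
  letI : Algebra (ZMod p) (𝓞 E ⧸ Q.ideal) := ZMod.algebra _ p
  haveI : Algebra.IsAlgebraic (ZMod p) (𝓞 E ⧸ Q.ideal) := by
    haveI : Algebra.IsIntegral (ZMod p) (𝓞 E ⧸ Q.ideal) := by
      constructor
      intro y
      obtain ⟨x, rfl⟩ := Ideal.Quotient.mk_surjective y
      have h1 : IsIntegral ℤ x := NumberField.RingOfIntegers.isIntegral x
      have h2 : IsIntegral ℤ (Ideal.Quotient.mk Q.ideal x) :=
        h1.map (Ideal.Quotient.mkₐ ℤ Q.ideal)
      exact h2.tower_top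
    infer_instance
  let f : 𝓞 E ⧸ Q.ideal →ₐ[ZMod p] AlgebraicClosure (ZMod p) := IsAlgClosed.lift
  refine ⟨(f : 𝓞 E ⧸ Q.ideal →+* AlgebraicClosure (ZMod p)).comp
    ((Ideal.Quotient.mk Q.ideal).comp ((toOO E).symm : OO E →+* 𝓞 E)), ?_⟩
  intro x hx
  have h1 : Ideal.Quotient.mk Q.ideal x = 0 := Ideal.Quotient.eq_zero_iff_mem.2 hx
  change f (Ideal.Quotient.mk Q.ideal ((toOO E).symm (toOO E x))) = 0
  rw [RingEquiv.symm_apply_apply, h1, map_zero]

theorem isAlgebraic_of (F Ω : Type*) [Field F] [CharZero F] [Field Ω] [Algebra F Ω]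
    (inst : Algebra ℚ Ω) (h : Algebra.IsAlgebraic ℚ Ω) : Algebra.IsAlgebraic F Ω := by
  haveI : IsScalarTower ℚ F Ω := by
    apply IsScalarTower.of_algebraMap_eq
    intro x
    exact RingHom.congr_fun (Subsingleton.elim (algebraMap ℚ Ω)
      ((algebraMap F Ω).comp (algebraMap ℚ F))) x
  exact Algebra.IsAlgebraic.tower_top (K := ℚ) F

theorem isGalois_Om (F : Type*) [Field F] [CharZero F] [Algebra F Om] : IsGalois F Om := by
  haveI : Algebra.IsAlgebraic F Om :=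
    isAlgebraic_of F Om _ (AlgebraicClosure.isAlgebraic ℚ)
  haveI : IsAlgClosure F Om := ⟨inferInstance, inferInstance⟩
  infer_instance

/-- **BLOCK LC**, final form. -/
theorem lc {F₁ F₂ E₂ : Type*} [Field F₁] [NumberField F₁] [Algebra F₁ Om] [Field F₂] [Field E₂]
    [CharZero E₂] [Algebra F₂ E₂] [IsGalois F₂ E₂]
    (α : (Om ≃ₐ[F₁] Om) →* (E₂ ≃ₐ[F₂] E₂)) (S : Finset ℕ)
    (hroot₂ : ∀ l : ℕ, l.Prime → ∃ ζ : E₂, IsPrimitiveRoot ζ l)
    (cyc : ∀ l : ℕ, l.Prime → l ∉ S → ∀ (s : Om ≃ₐ[F₁] Om) (a : ℕ),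
      (∀ ζ : Om, ζ ^ l = 1 → s ζ = ζ ^ a) → ∀ ζ : E₂, ζ ^ l = 1 → α s ζ = ζ ^ a)
    (loc : ∀ r : ℕ, r.Prime → r ≠ 2 → ∀ P : Place Om, P.rchar ≠ r →
      (∃ s : Om ≃ₐ[F₁] Om, (∀ x : 𝓞 Om, s • x - x ∈ P.ideal) ∧
        ∃ N : Subgroup (E₂ ≃ₐ[F₂] E₂), N.Normal ∧ IsOpen (N : Set (E₂ ≃ₐ[F₂] E₂)) ∧
          ∀ n : ℕ, (α s) ^ n ∈ N → r ∣ n) →
      ∃ Q : Place E₂, ∀ d : Om ≃ₐ[F₁] Om, d • P = P → α d • Q = Q) :
    ∃ B : ℕ, LC {p : ℕ | B < p ∧ ∃ r : ℕ, r.Prime ∧ r ≠ 2 ∧ r ∣ p - 1} α := by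
  haveI : IsGalois F₁ Om := isGalois_Om F₁
  refine ⟨max (S.sup id) (discr F₁).natAbs, ?_⟩
  intro p hp hpPP g hg
  obtain ⟨hB, r, hr, hr2, hrp⟩ := hpPP
  have hpS : p ∉ S := by
    intro h
    have h1 : p ≤ S.sup id := Finset.le_sup (f := id) h
    have h2 := lt_of_le_of_lt (le_max_left (S.sup id) (discr F₁).natAbs) hB
    omega
  have hd : ¬ (p : ℤ) ∣ discr F₁ := by
    intro h
    have h1 := Int.natAbs_dvd_natAbs.mpr h
    rw [Int.natAbs_natCast] at h1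
    have h2 := Nat.le_of_dvd (Int.natAbs_pos.mpr (discr_ne_zero F₁)) h1
    have h3 := lt_of_le_of_lt (le_max_right (S.sup id) (discr F₁).natAbs) hB
    omega
  obtain ⟨l, hl⟩ := hg
  have hP := natCast_mem_placeOf p l
  have hPp : (placeOf p l).rchar = p := (placeOf p l).rchar_eq_of_mem hp.out hP
  have hr1 : p ≠ r := by
    have := hp.out.one_lt
    have h1 := Nat.le_of_dvd (by omega) hrp
    omega
  have hroot₁ : ∀ l : ℕ, l.Prime → ∃ ζ : Om, IsPrimitiveRoot ζ l := by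
    intro l hl
    haveI : NeZero (l : Om) := ⟨by exact_mod_cast hl.ne_zero⟩
    exact HasEnoughRootsOfUnity.exists_primitiveRoot Om l
  obtain ⟨Q, hQ, -, hQ2⟩ := main α S hroot₁ hroot₂ cyc p hpS hd r hr hrp (placeOf p l) hP
    (loc r hr hr2 _ (by rw [hPp]; exact hr1))
  have hfrob : ∀ x : 𝓞 Om, g • x - x ^ p ∈ (placeOf p l).ideal := by
    intro x
    rw [mem_placeOf, map_sub, map_sub, toOO_smul, map_pow, map_pow, sub_eq_zero]
    exact hl _
  have h2 := hQ2 g hfrob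
  obtain ⟨l', hl'⟩ := exists_geom p Q hQ
  refine ⟨l', ?_⟩
  intro y
  obtain ⟨x, rfl⟩ := (toOO E₂).surjective y
  have h3 := hl' _ (h2 x)
  rw [map_sub, map_sub, toOO_smul, map_pow, map_pow, sub_eq_zero] at h3
  exact h3

end Crest.Agent.R018.LCEndx925
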