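import Crest.Agent.R018.Step2B_924
import Crest.Agent.R018.FT_925

/-!
# Row 18, STEP 2, part C: `TheoremA` and the local correspondence `LOC` imply the core form of S0024
(helper924)
-/

set_option autoImplicit false

open Crest.NumberTheoryR Crest.Agent.R018.EndDefx924 NumberField
open Crest.Agent.R018.Placesx484
open scoped Pointwise

universe u₁ u₂ v₂

namespace Crest.Agent.R018.Step2x924

/-- **Local correspondence** (931, 484, 31), as consumed by `FTx925.ft_of_cyc`: for every odd prime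
`r` and every place `P ∤ r` of `Om` such that some inertia element has an image whose order in some
finite quotient is divisible by `r`, the image of the decomposition group of `P` is contained in a
decomposition group. -/
def LOC : Prop :=
  ∀ (F₁ : Type u₁) (F₂ : Type u₂) (E₂ : Type v₂) [Field F₁] [NumberField F₁] [Field F₂]
    [NumberField F₂] [Field E₂] [Algebra F₂ E₂] [IsGalois F₂ E₂] [Algebra F₁ Om],
    IsSolvablyClosed E₂ →
    ∀ α : (Om ≃ₐ[F₁] Om) →* (E₂ ≃ₐ[F₂] E₂), Continuous α → Function.Surjective α →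
      ∀ r : ℕ, r.Prime → r ≠ 2 → ∀ P : Place Om, P.rchar ≠ r →
        (∃ s : Om ≃ₐ[F₁] Om, (∀ x : 𝓞 Om, s • x - x ∈ P.ideal) ∧
          ∃ N : Subgroup (E₂ ≃ₐ[F₂] E₂), N.Normal ∧ IsOpen (N : Set (E₂ ≃ₐ[F₂] E₂)) ∧
            ∀ n : ℕ, (α s) ^ n ∈ N → r ∣ n) →
        ∃ Q : Place E₂, ∀ d : Om ≃ₐ[F₁] Om, d • P = P → α d • Q = Q

/-- **STEP 2**: Theorem A for `E = Qs` and the local correspondence give the core form. -/
theorem coreForm_of_qs (hA : ∀ G₁ : Subgroup (Om ≃ₐ[ℚ] Om),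
      IsOpen (G₁ : Set (Om ≃ₐ[ℚ] Om)) → TheoremAFor Qs G₁)
    (hloc : LOC.{u₁, u₂, v₂}) : Crest.Agent.R018.Redx49.CoreForm.{u₁, u₂, v₂} := by
  intro F₁ F₂ E₂ _ _ _ _ _ _ _ _ hsc α hα hs
  refine Crest.Agent.R018.FTx925.ft_of_cyc hsc α hα ∅ ?_ (hloc F₁ F₂ E₂ hsc α hα hs)
  intro l hl _ s a hsa ζ hζ
  exact cyc_of_theoremA hA hsc α hα hs l hl.ne_zero s a hsa ζ hζ

theorem coreForm_of_theoremA (hA : TheoremA) (hloc : LOC.{u₁, u₂, v₂}) :
    Crest.Agent.R018.Redx49.CoreForm.{u₁, u₂, v₂} :=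
  coreForm_of_qs (hA Qs qs_isSolvablyClosed) hloc

universe v₁

/-- **The statement S0024** from `TheoremA` and `LOC`. -/
theorem s0024_of (hA : TheoremA) (hloc : LOC.{u₁, v₂, v₂})
    (F₁ : Type u₁) (F₂ : Type u₂) (E₁ : Type v₁) (E₂ : Type v₂) [Field F₁] [NumberField F₁]
    [Field F₂] [NumberField F₂] [Field E₁] [Algebra F₁ E₁] [IsGalois F₁ E₁] [Field E₂]
    [Algebra F₂ E₂] [IsGalois F₂ E₂] (h₂ : IsSolvablyClosed E₂)
    (α : (E₁ ≃ₐ[F₁] E₁) →* (E₂ ≃ₐ[F₂] E₂)) (hα : Continuous α) (hopen : IsOpen (Set.range α)) :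
    ∃ j : E₂ →+* E₁, ∀ g : E₁ ≃ₐ[F₁] E₁, ∀ x : E₂, g (j x) = j (α g x) :=
  Crest.Agent.R018.Redx49.of_coreForm (coreForm_of_theoremA hA hloc) F₁ F₂ E₁ E₂ h₂ α hα hopen

end Crest.Agent.R018.Step2x924
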