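import Crest.Agent.R018.LCE_484
import Crest.Agent.R018.FTSub_925
import Crest.Agent.R018.Step2C_924
import Crest.Agent.R018.HeartDef_74

/-!
# Local correspondence, part F: `Loc`, `TLoc`, `LOC` (row 18, helper484)
-/

set_option autoImplicit false

open NumberField Pointwise
open Crest.NumberTheoryR

universe u₁ u₂ v₂

namespace Crest.Agent.R018.LCFx484

open Crest.Agent.R018.Placesx484
open Crest.Agent.R018.Placesx484.Place
open Crest.Agent.R018.LocDefx31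
open Crest.Agent.R018.EndDefx924

section gal

variable {F₁ E₁ F₂ E₂ : Type*} [Field F₁] [NumberField F₁] [Field E₁] [CharZero E₁]
  [Algebra.IsAlgebraic ℚ E₁] [Algebra F₁ E₁] [IsGalois F₁ E₁] [Field F₂] [Field E₂] [CharZero E₂]
  [Algebra.IsAlgebraic ℚ E₂] [Algebra F₂ E₂] [IsGalois F₂ E₂]
  {α : (E₁ ≃ₐ[F₁] E₁) →* (E₂ ≃ₐ[F₂] E₂)}

/-- `Loc` for homomorphisms between Galois groups -/
theorem loc_gal (hα : Continuous α) (hsc : IsSolvablyClosed E₂) {l : ℕ} (hl : l.Prime)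
    (hl2 : l ≠ 2) (hr₁ : ∀ n, ∃ ζ : E₁, IsPrimitiveRoot ζ (l ^ n)) : Loc E₁ E₂ α l := by
  rintro P ⟨hPl, x, hx, N, -, hNo, hN⟩
  have hP : P.rchar ≠ l := by
    rw [Place.natCast_mem_iff] at hPl
    rintro rfl
    exact hPl dvd_rfl
  obtain ⟨Q, hQ, hgoes, huniq, hcyc⟩ := LCEx484.main hα hl hl2 hr₁
    (fun n => Crest.Agent.R018.Kumx568.exists_primitiveRoot hsc _ (pow_ne_zero n hl.ne_zero))
    (fun y => Crest.Agent.R018.Kumx568.exists_pow_eq hsc l hl.ne_zero y) P hP hx hNo hN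
  refine ⟨Q, ?_, hgoes, huniq, ?_⟩
  · rw [Place.natCast_mem_iff]
    intro h
    exact hQ ((Nat.prime_dvd_prime_iff_eq Q.rchar_prime hl).1 h)
  · intro n d hd c hc z hz
    exact hcyc d hd n c hc z hz

end gal

theorem roots_Om (n : ℕ) (hn : n ≠ 0) : ∃ ζ : Om, IsPrimitiveRoot ζ n := by
  have : NeZero n := ⟨hn⟩
  have : NeZero (n : Om) := ⟨Nat.cast_ne_zero.mpr hn⟩
  exact HasEnoughRootsOfUnity.exists_primitiveRoot Om n

section sub

variable {F E : Type*} [Field F] [Field E] [CharZero E] [Algebra.IsAlgebraic ℚ E] [Algebra F E]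
  [IsGalois F E]

/-- `Loc` for open subgroups of `Gal(Om/ℚ)` -/
theorem loc_sub (hsc : IsSolvablyClosed E)
    (G₁ : Subgroup (Om ≃ₐ[ℚ] Om)) (hG : IsOpen (G₁ : Set (Om ≃ₐ[ℚ] Om)))
    (α : G₁ →* (E ≃ₐ[F] E)) (hα : Continuous α) {l : ℕ} (hl : l.Prime) (hl2 : l ≠ 2) :
    Loc Om E α l := by
  obtain ⟨F₁, hnf, i, j, hji, hij, hi, hcont⟩ := FTSubx925.exists_transfer G₁ hG α hα
  have : IsGalois F₁ Om := LCEndx925.isGalois_Om F₁
  have hsm : ∀ (g : Om ≃ₐ[F₁] Om) (x : 𝓞 Om), (i g) • x = g • x := by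
    intro g x
    apply NumberField.RingOfIntegers.coe_injective
    have h1 := LCMainx925.coe_smul_int (i g : Om ≃ₐ[ℚ] Om) x
    have h2 := LCMainx925.coe_smul_int g x
    exact h1.trans ((hi g _).trans h2.symm)
  have hsP : ∀ (g : Om ≃ₐ[F₁] Om) (P : Place Om), (i g) • P = g • P := by
    intro g P
    apply Place.ext
    ext x
    change x ∈ ((i g : Om ≃ₐ[ℚ] Om) • P).ideal ↔ _
    rw [Place.mem_smul_ideal, Place.mem_smul_ideal]
    have h3 := hsm g⁻¹ x
    rw [map_inv] at h3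
    have h5 : ((i g : Om ≃ₐ[ℚ] Om))⁻¹ • x = g⁻¹ • x := h3
    rw [h5]
  rintro P ⟨hPl, x, hx, N, hN, hNo, hn⟩
  have hS1 : S1 (α.comp i) l P := by
    refine ⟨hPl, j x, ?_, N, hN, hNo, ?_⟩
    · intro y
      have h1 := hx y
      have h2 := hsm (j x) y
      rw [hij] at h2
      change j x • y - y ∈ P.ideal
      rw [← h2]
      exact h1
    · intro n hn'
      apply hn
      rw [MonoidHom.comp_apply, hij] at hn'
      exact hn'
  obtain ⟨Q, hQl, hgoes, huniq, hcyc⟩ := loc_gal hcont hsc hl hl2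
    (fun n => roots_Om _ (pow_ne_zero n hl.ne_zero)) P hS1
  refine ⟨Q, hQl, ?_, ?_, ?_⟩
  · intro d hd
    have h1 := hgoes (j d) (by rw [← hsP, hij]; exact hd)
    rw [MonoidHom.comp_apply, hij] at h1
    exact h1
  · intro Q' hQ'
    apply huniq
    intro d hd
    rw [MonoidHom.comp_apply]
    exact hQ' (i d) ((hsP d P).trans hd)
  · intro n d hd c hc z hz
    have h1 := hcyc n (j d) (by rw [← hsP, hij]; exact hd) c (by
      intro ζ hζ
      have h2 := hi (j d) ζ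
      rw [hij] at h2
      have h3 : j d • ζ = d • ζ := h2.symm
      rw [h3]
      exact hc ζ hζ) z hz
    rw [MonoidHom.comp_apply, hij] at h1
    exact h1

end sub

/-- **TLoc** of `HeartDef_74` -/
theorem tloc : HeartDefx74.TLoc := by
  intro E _ _ _ G1 α hs l hl hl5
  exact loc_sub hs.closed G1 hs.isOpen α hs.cont hl (by omega)

/-- **LOC** of `Step2C_924` -/
theorem loc_holds : Crest.Agent.R018.Step2x924.LOC.{u₁, u₂, v₂} := by
  intro F₁ F₂ E₂ _ _ _ _ _ _ _ _ hsc α hα _ r hr hr2 P hP ⟨s, hs, N, hN, hNo, hn⟩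
  have : IsGalois F₁ Om := LCEndx925.isGalois_Om F₁
  have : CharZero E₂ := charZero_of_injective_algebraMap (algebraMap F₂ E₂).injective
  have : Algebra.IsAlgebraic ℚ E₂ := Algebra.IsAlgebraic.trans ℚ F₂ E₂
  obtain ⟨Q, -, hQ, -⟩ := loc_gal hα hsc hr hr2 (fun n => roots_Om _ (pow_ne_zero n hr.ne_zero)) P
    ⟨by
      rw [Place.natCast_mem_iff]
      intro h
      exact hP ((Nat.prime_dvd_prime_iff_eq P.rchar_prime hr).1 h), s, hs, N, hN, hNo, hn⟩
  exact ⟨Q, hQ⟩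

end Crest.Agent.R018.LCFx484
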