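import Crest.Agent.R018.Places_484

/-!
# Row 18: inertia acts through all of `(ℤ/p)ˣ` on the `p`-th roots of unity (finite level)
(helper925)
-/

set_option autoImplicit false

open NumberField Ideal
open scoped Pointwise

namespace Crest.Agent.R018.LCIneAx925

section Finite

variable {F K : Type*} [Field F] [NumberField F] [Field K] [NumberField K] [Algebra F K]

theorem dvd_ramificationIdx {p : ℕ} [hp : Fact p.Prime] {ζ : K} (hζ : IsPrimitiveRoot ζ p)
    (P : Ideal (𝓞 K)) [hPp : P.IsPrime] (hP : (p : 𝓞 K) ∈ P) : p - 1 ∣ P.ramificationIdx ℤ := by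
  haveI : NeZero p := ⟨hp.out.ne_zero⟩
  let C : IntermediateField ℚ K := IntermediateField.adjoin ℚ {ζ}
  haveI : IsCyclotomicExtension {p} ℚ C :=
    hζ.intermediateField_adjoin_isCyclotomicExtension ℚ
  haveI : (P.under (𝓞 C)).IsPrime := Ideal.IsPrime.under _ _
  haveI : (P.under (𝓞 C)).LiesOver (span {(p : ℤ)}) := by
    rw [Ideal.liesOver_span_iff (Ideal.IsPrime.ne_top inferInstance)
      (Nat.prime_iff_prime_int.mp hp.out)]
    simpa using hP
  have h1 := IsCyclotomicExtension.Rat.ramificationIdx_eq_of_prime p C (P.under (𝓞 C))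
  have h2 : P.ramificationIdx ℤ = (P.under (𝓞 C)).ramificationIdx ℤ * P.ramificationIdx (𝓞 C) :=
    ramificationIdx_tower (P.under (𝓞 C)) P
  rw [h2, h1]
  exact dvd_mul_right _ _

theorem dvd_ramificationIdx' {p : ℕ} [hp : Fact p.Prime] {ζ : K} (hζ : IsPrimitiveRoot ζ p)
    (hd : ¬ (p : ℤ) ∣ discr F)
    (P : Ideal (𝓞 K)) [hPp : P.IsPrime] (hP : (p : 𝓞 K) ∈ P) :
    p - 1 ∣ P.ramificationIdx (𝓞 F) := by
  have h0 := dvd_ramificationIdx hζ P hP
  have h2 : P.ramificationIdx ℤ = (P.under (𝓞 F)).ramificationIdx ℤ * P.ramificationIdx (𝓞 F) :=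
    ramificationIdx_tower (P.under (𝓞 F)) P
  haveI : (P.under (𝓞 F)).IsPrime := Ideal.IsPrime.under _ _
  have hmem : ((p : ℤ) : 𝓞 F) ∈ P.under (𝓞 F) := by simpa using hP
  have hur := (NumberField.not_dvd_discr_iff_forall_mem F (𝓞 F)
    (Nat.prime_iff_prime_int.mp hp.out)).mp hd (P.under (𝓞 F)) inferInstance hmem
  have h1 : (P.under (𝓞 F)).ramificationIdx ℤ = 1 := ramificationIdx_eq_one _ ℤ
  rwa [h2, h1, one_mul] at h0

theorem exists_inertia_finite {p : ℕ} [hp : Fact p.Prime] {ζ : K} (hζ : IsPrimitiveRoot ζ p)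
    [IsGalois F K] [hcyc : IsCyclotomicExtension {p} F K]
    (hd : ¬ (p : ℤ) ∣ discr F) (P : Ideal (𝓞 K)) [hPp : P.IsPrime] (hP : (p : 𝓞 K) ∈ P)
    (a : ℕ) (ha : ¬ p ∣ a) :
    ∃ σ : Gal(K/F), σ ∈ P.inertia Gal(K/F) ∧ σ ζ = ζ ^ a := by
  classical
  haveI : NeZero p := ⟨hp.out.ne_zero⟩
  haveI : (P.under (𝓞 F)).IsPrime := Ideal.IsPrime.under _ _
  have hne : P.under (𝓞 F) ≠ ⊥ := by
    intro h
    have hmem : (p : 𝓞 F) ∈ P.under (𝓞 F) := by simpa using hP
    rw [h, Ideal.mem_bot] at hmem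
    exact hp.out.ne_zero (by exact_mod_cast hmem)
  haveI : (P.under (𝓞 F)).IsMaximal := Ideal.IsPrime.isMaximal inferInstance hne
  have hcard : Nat.card (P.inertia Gal(K/F)) = P.ramificationIdx (𝓞 F) := by
    rw [card_inertia_eq_ramificationIdxIn (G := Gal(K/F)) (P.under (𝓞 F)) P,
      ramificationIdxIn_eq_ramificationIdx (P.under (𝓞 F)) P Gal(K/F)]
  have hdvd : p - 1 ∣ Nat.card (P.inertia Gal(K/F)) := by
    rw [hcard]; exact dvd_ramificationIdx' hζ hd P hP
  let φ : P.inertia Gal(K/F) →* (ZMod p)ˣ := (hζ.autToPow F).comp (Subgroup.subtype _)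
  have hφinj : Function.Injective φ :=
    (hζ.autToPow_injective F).comp Subtype.val_injective
  have hφsurj : Function.Surjective φ := by
    have hle : Nat.card (ZMod p)ˣ ≤ Nat.card (P.inertia Gal(K/F)) := by
      rw [Nat.card_eq_fintype_card, ZMod.card_units p]
      exact Nat.le_of_dvd Nat.card_pos hdvd
    exact ((Nat.bijective_iff_injective_and_card φ).2
      ⟨hφinj, le_antisymm (Nat.card_le_card_of_injective φ hφinj) hle⟩).2
  obtain ⟨σ, hσ⟩ := hφsurj (ZMod.unitOfCoprime a ((Nat.Prime.coprime_iff_not_dvd hp.out).2 ha).symm)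
  refine ⟨σ, σ.2, ?_⟩
  have h1 := hζ.autToPow_spec F (σ : Gal(K/F))
  have h2 : ((hζ.autToPow F) (σ : Gal(K/F)) : ZMod p) = (a : ZMod p) := by
    have := congrArg Units.val hσ
    simpa [φ] using this
  rw [← h1, h2]
  exact pow_eq_pow_of_modEq (by rw [ZMod.val_natCast]; exact Nat.mod_modEq _ _) hζ.pow_eq_one

end Finite

end Crest.Agent.R018.LCIneAx925
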