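import Crest.Agent.R018.LCIneA_925

/-!
# Row 18: lifting inertia elements to infinite Galois extensions (helper925)

* `exists_lift_inertia` : `E/F` (infinite) Galois, `M` a finite Galois subextension, `P` a place of
  `E`; every element of the inertia group of `P.res M` is the restriction of an element of the
  inertia group of `P`.
* `exists_inertia` : `F` a number field, `p ∤ disc F`, `P` a place of `E` above `p`; the inertia
  group of `P` acts on the `p`-th roots of unity of `E` through all of `(ℤ/p)ˣ`.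
-/

set_option autoImplicit false

open NumberField Ideal
open scoped Pointwise Topology
open Crest.Agent.R018.Placesx484

namespace Crest.Agent.R018.LCIneBx925

section Lift

variable {F E : Type*} [Field F] [Field E] [Algebra F E] [IsGalois F E]

theorem exists_lift_inertia (M : IntermediateField F E) [Normal F M]
    (P : Place E) (σ : M ≃ₐ[F] M) (hσ : ∀ x : 𝓞 M, σ • x - x ∈ (P.res M).ideal) :
    ∃ s : E ≃ₐ[F] E, (∀ x : M, s (x : E) = (σ x : M)) ∧ ∀ x : 𝓞 E, s • x - x ∈ P.ideal := by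
  classical
  -- the action on the integers of `M`
  have hMact : ∀ (s : E ≃ₐ[F] E) (τ : M ≃ₐ[F] M), (∀ x : M, s (x : E) = (τ x : M)) →
      ∀ x : 𝓞 M, s • algebraMap (𝓞 M) (𝓞 E) x = algebraMap (𝓞 M) (𝓞 E) (τ • x) := by
    intro s τ h x
    apply NumberField.RingOfIntegers.coe_injective
    rw [show algebraMap (𝓞 E) E (s • algebraMap (𝓞 M) (𝓞 E) x) =
      s • algebraMap (𝓞 E) E (algebraMap (𝓞 M) (𝓞 E) x) from algebraMap.smul' _ _ E]
    have h1 : algebraMap (𝓞 M) M (τ • x) = τ • algebraMap (𝓞 M) M x := algebraMap.smul' _ _ M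
    have h2 : algebraMap (𝓞 E) E (algebraMap (𝓞 M) (𝓞 E) (τ • x)) =
      ((algebraMap (𝓞 M) M (τ • x) : M) : E) := rfl
    have h3 : algebraMap (𝓞 E) E (algebraMap (𝓞 M) (𝓞 E) x) =
      ((algebraMap (𝓞 M) M x : M) : E) := rfl
    rw [h2, h3, h1]
    exact h _
  obtain ⟨s0, hs0⟩ := AlgEquiv.restrictNormalHom_surjective (F := F) (K₁ := M) E σ
  have hs0' : ∀ x : M, s0 (x : E) = (σ x : M) := by
    intro x
    rw [← hs0]
    exact (AlgEquiv.restrictNormal_commutes s0 M x).symm
  have hs0inv : ∀ x : M, s0⁻¹ (x : E) = ((σ⁻¹ : M ≃ₐ[F] M) x : M) := by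
    intro x
    have h1 : s0 ((σ⁻¹ x : M) : E) = x := by
      rw [hs0']
      have : σ ((σ⁻¹ : M ≃ₐ[F] M) x) = x := by
        rw [← AlgEquiv.mul_apply, mul_inv_cancel, AlgEquiv.one_apply]
      rw [this]
    rw [← h1, ← AlgEquiv.mul_apply, inv_mul_cancel, AlgEquiv.one_apply]
  -- `s0 • P` and `P` agree on `M`
  have hres : (s0 • P).res M = P.res M := by
    apply Place.ext
    ext x
    rw [Place.mem_res, Place.mem_smul_ideal, hMact s0⁻¹ σ⁻¹ hs0inv x]
    have h1 : σ • (σ⁻¹ • x) - σ⁻¹ • x ∈ (P.res M).ideal := hσ (σ⁻¹ • x)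
    rw [smul_inv_smul] at h1
    change σ⁻¹ • x ∈ (P.res M).ideal ↔ _
    constructor
    · intro h
      have := Ideal.add_mem _ h1 h
      simpa using this
    · intro h
      have := Ideal.sub_mem _ h h1
      simpa using this
  obtain ⟨g, hg⟩ := Place.exists_smul_eq_of_res_eq (M := M) (s0 • P) P hres
  let s1 : E ≃ₐ[F] E := (g.restrictScalars F) * s0
  have hs1 : ∀ x : M, s1 (x : E) = (σ x : M) := by
    intro x
    change g (s0 (x : E)) = _
    rw [hs0']
    exact g.commutes (σ x)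
  have hs1P : s1 • P = P := by
    have h1 : (g.restrictScalars F) • (s0 • P) = g • (s0 • P) := rfl
    change ((g.restrictScalars F) * s0) • P = P
    rw [mul_smul, h1, hg]
  have hs1I : s1 • P.ideal = P.ideal := congrArg Place.ideal hs1P
  -- the induced automorphism of the residue ring
  let e0 : 𝓞 E ≃+* 𝓞 E := MulSemiringAction.toRingEquiv (E ≃ₐ[F] E) (𝓞 E) s1
  have he0 : P.ideal = P.ideal.map (e0 : 𝓞 E →+* 𝓞 E) := by
    conv_lhs => rw [← hs1I]
    rfl
  let e1 : 𝓞 E ⧸ P.ideal ≃+* 𝓞 E ⧸ P.ideal := Ideal.quotientEquiv P.ideal P.ideal e0 he0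
  haveI : P.ideal.LiesOver (P.res M).ideal := ⟨rfl⟩
  have he1 : ∀ x : 𝓞 E, e1 (Ideal.Quotient.mk P.ideal x) = Ideal.Quotient.mk P.ideal (s1 • x) := by
    intro x; rfl
  let e : (𝓞 E ⧸ P.ideal) ≃ₐ[𝓞 M ⧸ (P.res M).ideal] (𝓞 E ⧸ P.ideal) :=
    AlgEquiv.ofRingEquiv (f := e1) (by
      intro r
      obtain ⟨x, rfl⟩ := Ideal.Quotient.mk_surjective r
      change e1 (Ideal.Quotient.mk P.ideal (algebraMap (𝓞 M) (𝓞 E) x)) =
        Ideal.Quotient.mk P.ideal (algebraMap (𝓞 M) (𝓞 E) x)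
      rw [he1, hMact s1 σ hs1, Ideal.Quotient.eq, ← map_sub]
      exact hσ x)
  letI : TopologicalSpace (𝓞 E) := ⊥
  haveI : DiscreteTopology (𝓞 E) := ⟨rfl⟩
  haveI := Place.continuousSMul_int (M := M) (E := E)
  haveI := Place.isInvariant_int (M := M) (E := E)
  obtain ⟨⟨h, hh⟩, hh2⟩ := Ideal.Quotient.stabilizerHom_surjective_of_profinite
    (G := E ≃ₐ[M] E) (P.res M).ideal P.ideal e
  have hhP : h • P.ideal = P.ideal := hh
  have key : ∀ x : 𝓞 E, h • x - s1 • x ∈ P.ideal := by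
    intro x
    have h1 := congrArg (fun f : (𝓞 E ⧸ P.ideal) ≃ₐ[𝓞 M ⧸ (P.res M).ideal] (𝓞 E ⧸ P.ideal) =>
      f (Ideal.Quotient.mk P.ideal x)) hh2
    have h2 : Ideal.Quotient.mk P.ideal (h • x) = Ideal.Quotient.mk P.ideal (s1 • x) := h1
    exact (Ideal.Quotient.eq).1 h2
  refine ⟨(h⁻¹).restrictScalars F * s1, ?_, ?_⟩
  · intro x
    change h⁻¹ (s1 (x : E)) = _
    rw [hs1]
    exact (h⁻¹).commutes (σ x)
  · intro x
    have h1 : ((h⁻¹).restrictScalars F * s1) • x = h⁻¹ • (s1 • x) := rfl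
    rw [h1]
    have h2 : h • (h⁻¹ • (s1 • x) - x) ∈ P.ideal := by
      rw [smul_sub, smul_inv_smul]
      have := P.ideal.neg_mem (key x)
      simpa using this
    have h3 : h • (h⁻¹ • (s1 • x) - x) ∈ h • P.ideal := by rw [hhP]; exact h2
    exact (Ideal.smul_mem_pointwise_smul_iff).1 h3

end Lift

section Main

variable {F E : Type*} [Field F] [NumberField F] [Field E] [Algebra F E] [IsGalois F E]

/-- the inertia group of a place above an unramified prime acts on the `p`-th roots of unity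
through all of `(ℤ/p)ˣ`. -/
theorem exists_inertia [CharZero E] (p : ℕ) [hp : Fact p.Prime] {ζ : E} (hζ : IsPrimitiveRoot ζ p)
    (hd : ¬ (p : ℤ) ∣ discr F) (P : Place E) (hP : (p : 𝓞 E) ∈ P.ideal)
    (a : ℕ) (ha : ¬ p ∣ a) :
    ∃ s : E ≃ₐ[F] E, s ζ = ζ ^ a ∧ ∀ x : 𝓞 E, s • x - x ∈ P.ideal := by
  classical
  haveI : NeZero p := ⟨hp.out.ne_zero⟩
  let M : IntermediateField F E := IntermediateField.adjoin F {ζ}
  haveI hcyc : IsCyclotomicExtension {p} F M :=
    hζ.intermediateField_adjoin_isCyclotomicExtension F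
  haveI : FiniteDimensional F M := IsCyclotomicExtension.finiteDimensional {p} F M
  haveI : IsGalois F M := IsCyclotomicExtension.isGalois {p} F M
  haveI : NumberField M := NumberField.of_module_finite F M
  let z : M := ⟨ζ, IntermediateField.mem_adjoin_simple_self F ζ⟩
  have hz : IsPrimitiveRoot z p := by
    have : IsPrimitiveRoot (algebraMap M E z) p := hζ
    exact (IsPrimitiveRoot.map_iff_of_injective (algebraMap M E).injective).1 this
  have hPM : (p : 𝓞 M) ∈ (P.res M).ideal := by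
    rw [Place.mem_res]; simpa using hP
  obtain ⟨σ, hσ, hσz⟩ := LCIneAx925.exists_inertia_finite hz hd (P.res M).ideal hPM a ha
  obtain ⟨s, hs, hsP⟩ := exists_lift_inertia M P σ (fun x => hσ x)
  refine ⟨s, ?_, hsP⟩
  have := hs z
  rw [hσz] at this
  simpa [z] using this

end Main

end Crest.Agent.R018.LCIneBx925
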