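import Crest.Agent.R018.LCPl_925
import Crest.Agent.R018.LCIneB_925

/-!
# Row 18: from the cyclotomic characters and the decomposition groups to the local correspondence
(helper925)

* `main` : BLOCK LC in terms of places.
-/

set_option autoImplicit false

open NumberField Ideal
open scoped Pointwise Topology
open Crest.Agent.R018.Placesx484

namespace Crest.Agent.R018.LCMainx925

section

variable {E : Type*} [Field E]

theorem frob_stab {G : Type*} [Group G] [MulSemiringAction G E] (P : Place E) (d : G) (p : ℕ)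
    (hp : p ≠ 0) (hd : ∀ x : 𝓞 E, d • x - x ^ p ∈ P.ideal) : d • P = P := by
  have key : ∀ y : 𝓞 E, d • y ∈ P.ideal ↔ y ∈ P.ideal := by
    intro y
    constructor
    · intro h
      have h1 := Ideal.sub_mem _ h (hd y)
      rw [sub_sub_cancel] at h1
      exact P.isPrime.mem_of_pow_mem _ h1
    · intro h
      have h1 := Ideal.add_mem _ (hd y) (Ideal.pow_mem_of_mem _ h p (Nat.pos_of_ne_zero hp))
      simpa using h1
  apply Place.ext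
  ext x
  rw [Place.mem_smul_ideal, ← key, smul_inv_smul]

theorem inertia_stab {G : Type*} [Group G] [MulSemiringAction G E] (P : Place E) (d : G)
    (hd : ∀ x : 𝓞 E, d • x - x ∈ P.ideal) : d • P = P :=
  frob_stab P d 1 one_ne_zero (fun x => by simpa using hd x)

theorem coe_smul_int {G : Type*} [Group G] [MulSemiringAction G E] (g : G) (x : 𝓞 E) :
    algebraMap (𝓞 E) E (g • x) = g • algebraMap (𝓞 E) E x :=
  algebraMap.smul' g x E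

theorem modEq_of_pow_eq {R : Type*} [CommRing R] {x : R} {l : ℕ} (hl : l ≠ 0)
    (hx : IsPrimitiveRoot x l) {b m : ℕ} (h : x ^ b = x ^ m) : b ≡ m [MOD l] := by
  have h4 := (hx.isUnit hl)
  have h5 : IsPrimitiveRoot h4.unit l := by
    rw [← IsPrimitiveRoot.coe_units_iff]
    exact hx
  have h6 : h4.unit ^ b = h4.unit ^ m := by
    apply Units.ext
    simpa using h
  rw [pow_eq_pow_iff_modEq] at h6
  rwa [← h5.eq_orderOf] at h6

theorem aut_eq_pow {F : Type*} [Field F] [Algebra F E] (s : E ≃ₐ[F] E) {l : ℕ} [NeZero l] {ζ : E}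
    (hζ : IsPrimitiveRoot ζ l) (a : ℕ) (hs : s ζ = ζ ^ a) : ∀ x : E, x ^ l = 1 → s x = x ^ a := by
  intro x hx
  obtain ⟨i, _, rfl⟩ := hζ.eq_pow_of_pow_eq_one hx
  rw [map_pow, hs, ← pow_mul, ← pow_mul, mul_comm]

theorem exists_aut_pow {F : Type*} [Field F] [Algebra F E] (s : E ≃ₐ[F] E) {l : ℕ} [NeZero l]
    {ζ : E} (hζ : IsPrimitiveRoot ζ l) : ∃ a : ℕ, s ζ = ζ ^ a := by
  obtain ⟨i, _, hi⟩ := hζ.eq_pow_of_pow_eq_one (ξ := s ζ) (by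
    rw [← map_pow, hζ.pow_eq_one, map_one])
  exact ⟨i, hi.symm⟩

theorem smul_int_eq {F : Type*} [Field F] [Algebra F E] (s : E ≃ₐ[F] E) {ζ : E} {ξ : 𝓞 E}
    (hξ : algebraMap (𝓞 E) E ξ = ζ) {b : ℕ} (hb : s ζ = ζ ^ b) : s • ξ = ξ ^ b := by
  apply NumberField.RingOfIntegers.coe_injective
  have h2 : algebraMap (𝓞 E) E (s • ξ) = s • algebraMap (𝓞 E) E ξ := coe_smul_int s ξ
  have h3 : algebraMap (𝓞 E) E (ξ ^ b) = (algebraMap (𝓞 E) E ξ) ^ b := map_pow _ _ _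
  refine h2.trans ?_
  rw [hξ]
  refine Eq.trans ?_ h3.symm
  rw [hξ]
  exact hb

/-- a primitive root of unity as an algebraic integer -/
theorem exists_int_root {l : ℕ} (hl : l ≠ 0) {ζ : E} (hζ : IsPrimitiveRoot ζ l) :
    ∃ ξ : 𝓞 E, IsPrimitiveRoot ξ l ∧ algebraMap (𝓞 E) E ξ = ζ := by
  refine ⟨⟨ζ, hζ.isIntegral (Nat.pos_of_ne_zero hl)⟩, ?_, rfl⟩
  exact (IsPrimitiveRoot.map_iff_of_injective
    (f := algebraMap (𝓞 E) E) NumberField.RingOfIntegers.coe_injective).1 hζ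

end

section

variable {F₁ E₁ F₂ E₂ : Type*} [Field F₁] [NumberField F₁] [Field E₁] [CharZero E₁]
  [Algebra F₁ E₁] [IsGalois F₁ E₁] [Field F₂] [Field E₂] [CharZero E₂] [Algebra F₂ E₂]
  [IsGalois F₂ E₂]

/-- cyclotomic compatibility at one level -/
def CycAt (α : (E₁ ≃ₐ[F₁] E₁) →* (E₂ ≃ₐ[F₂] E₂)) (l : ℕ) : Prop :=
  ∀ (s : E₁ ≃ₐ[F₁] E₁) (a : ℕ), (∀ ζ : E₁, ζ ^ l = 1 → s ζ = ζ ^ a) →
    ∀ ζ : E₂, ζ ^ l = 1 → α s ζ = ζ ^ a

/-- the conclusion of the local correspondence at one place: the decomposition group goes into a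
decomposition group -/
def DecAt (α : (E₁ ≃ₐ[F₁] E₁) →* (E₂ ≃ₐ[F₂] E₂)) (P : Place E₁) (Q : Place E₂) : Prop :=
  ∀ d : E₁ ≃ₐ[F₁] E₁, d • P = P → α d • Q = Q

/-- the image of the inertia group of `P` has order divisible by `r` at a finite level -/
def RamAt (α : (E₁ ≃ₐ[F₁] E₁) →* (E₂ ≃ₐ[F₂] E₂)) (r : ℕ) (P : Place E₁) : Prop :=
  ∃ s : E₁ ≃ₐ[F₁] E₁, (∀ x : 𝓞 E₁, s • x - x ∈ P.ideal) ∧
    ∃ N : Subgroup (E₂ ≃ₐ[F₂] E₂), N.Normal ∧ IsOpen (N : Set (E₂ ≃ₐ[F₂] E₂)) ∧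
      ∀ n : ℕ, (α s) ^ n ∈ N → r ∣ n

/-- the cyclotomic part: `RamAt` for every prime `r ∣ p - 1` -/
theorem ramAt_of_dvd (α : (E₁ ≃ₐ[F₁] E₁) →* (E₂ ≃ₐ[F₂] E₂)) (p : ℕ) [hp : Fact p.Prime]
    (hroot₁ : ∃ ζ : E₁, IsPrimitiveRoot ζ p) (hroot₂ : ∃ ζ : E₂, IsPrimitiveRoot ζ p)
    (cyc : CycAt α p) (hd : ¬ (p : ℤ) ∣ discr F₁) (P : Place E₁) (hP : (p : 𝓞 E₁) ∈ P.ideal)
    (r : ℕ) (hr : r.Prime) (hrp : r ∣ p - 1) :
    ∃ s : E₁ ≃ₐ[F₁] E₁, (∀ x : 𝓞 E₁, s • x - x ∈ P.ideal) ∧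
      (∀ (ζ : E₂), IsPrimitiveRoot ζ p → α s ζ ≠ ζ) ∧
    ∃ N : Subgroup (E₂ ≃ₐ[F₂] E₂), N.Normal ∧ IsOpen (N : Set (E₂ ≃ₐ[F₂] E₂)) ∧
      ∀ n : ℕ, (α s) ^ n ∈ N → r ∣ n := by
  classical
  haveI : NeZero p := ⟨hp.out.ne_zero⟩
  haveI : Fact r.Prime := ⟨hr⟩
  obtain ⟨ζ₁, hζ₁⟩ := hroot₁
  obtain ⟨ζ₂, hζ₂⟩ := hroot₂
  -- an element of order `r`
  obtain ⟨u, hu⟩ := exists_prime_orderOf_dvd_card (G := (ZMod p)ˣ) r (by
    rw [ZMod.card_units p]; exact hrp)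
  set a : ℕ := (u : ZMod p).val with ha
  have hau : ((a : ℕ) : ZMod p) = (u : ZMod p) := by rw [ha, ZMod.natCast_zmod_val]
  have hpa : ¬ p ∣ a := by
    intro h
    have h1 : ((a : ℕ) : ZMod p) = 0 := (ZMod.natCast_eq_zero_iff _ _).2 h
    rw [hau] at h1
    exact u.ne_zero h1
  obtain ⟨s, hs, hsP⟩ := LCIneBx925.exists_inertia p hζ₁ hd P hP a hpa
  have h1 : ∀ ζ : E₂, ζ ^ p = 1 → α s ζ = ζ ^ a := cyc s a (aut_eq_pow s hζ₁ a hs)
  have hord : ∀ n : ℕ, ∀ ζ : E₂, IsPrimitiveRoot ζ p → ((α s) ^ n) ζ = ζ → r ∣ n := by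
    intro n ζ hζ hn
    have h2 : ∀ n : ℕ, ((α s) ^ n) ζ = ζ ^ (a ^ n) := by
      intro n
      induction n with
      | zero => simp
      | succ n ih =>
        rw [pow_succ', AlgEquiv.mul_apply, ih, map_pow, h1 ζ hζ.pow_eq_one, ← pow_mul, pow_succ,
          mul_comm]
    rw [h2] at hn
    have h3 : ζ ^ (a ^ n) = ζ ^ 1 := by rw [hn, pow_one]
    have h4 : a ^ n ≡ 1 [MOD p] := modEq_of_pow_eq hp.out.ne_zero hζ h3
    have h5 : (u : ZMod p) ^ n = 1 := by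
      have := (ZMod.natCast_eq_natCast_iff _ _ _).2 h4
      rwa [Nat.cast_pow, hau, Nat.cast_one] at this
    have h6 : u ^ n = 1 := by
      apply Units.ext
      rw [Units.val_pow_eq_pow_val, h5, Units.val_one]
    rw [← hu]
    exact orderOf_dvd_of_pow_eq_one h6
  refine ⟨s, hsP, ?_, ?_⟩
  · intro ζ hζ h
    have := hord 1 ζ hζ (by simpa using h)
    exact hr.one_lt.ne' (Nat.dvd_one.1 this)
  · refine ⟨MulAction.stabilizer (E₂ ≃ₐ[F₂] E₂) ζ₂, ?_, ?_, ?_⟩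
    · constructor
      intro g hg h
      rw [MulAction.mem_stabilizer_iff] at hg ⊢
      obtain ⟨b, hb⟩ := exists_aut_pow h⁻¹ hζ₂
      change g ζ₂ = ζ₂ at hg
      change h (g (h⁻¹ ζ₂)) = ζ₂
      rw [hb, map_pow, hg, ← hb]
      rw [← AlgEquiv.mul_apply, mul_inv_cancel, AlgEquiv.one_apply]
    · exact stabilizer_isOpen_of_isIntegral (K := F₂) (L := E₂) ζ₂
    · intro n hn
      exact hord n ζ₂ hζ₂ hn

/-- **BLOCK LC.** -/
theorem main (α : (E₁ ≃ₐ[F₁] E₁) →* (E₂ ≃ₐ[F₂] E₂)) (S : Finset ℕ)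
    (hroot₁ : ∀ l : ℕ, l.Prime → ∃ ζ : E₁, IsPrimitiveRoot ζ l)
    (hroot₂ : ∀ l : ℕ, l.Prime → ∃ ζ : E₂, IsPrimitiveRoot ζ l)
    (cyc : ∀ l : ℕ, l.Prime → l ∉ S → CycAt α l)
    (p : ℕ) [hp : Fact p.Prime] (hpS : p ∉ S) (hd : ¬ (p : ℤ) ∣ discr F₁)
    (r : ℕ) (hr : r.Prime) (hrp : r ∣ p - 1)
    (P : Place E₁) (hP : (p : 𝓞 E₁) ∈ P.ideal)
    (loc : RamAt α r P → ∃ Q : Place E₂, DecAt α P Q) :
    ∃ Q : Place E₂, (p : 𝓞 E₂) ∈ Q.ideal ∧ DecAt α P Q ∧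
      ∀ d : E₁ ≃ₐ[F₁] E₁, (∀ x : 𝓞 E₁, d • x - x ^ p ∈ P.ideal) →
        ∀ x : 𝓞 E₂, (α d) • x - x ^ p ∈ Q.ideal := by
  classical
  haveI : NeZero p := ⟨hp.out.ne_zero⟩
  obtain ⟨s, hsP, hsne, hN⟩ := ramAt_of_dvd α p (hroot₁ p hp.out) (hroot₂ p hp.out)
    (cyc p hp.out hpS) hd P hP r hr hrp
  obtain ⟨Q, hQ⟩ := loc ⟨s, hsP, hN⟩
  have hPp : P.rchar = p := P.rchar_eq_of_mem hp.out hP
  -- Galois action by `d`: what happens at level `l`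
  have lvl : ∀ (d : E₁ ≃ₐ[F₁] E₁) (m : ℕ), (∀ x : 𝓞 E₁, d • x - x ^ m ∈ P.ideal) →
      ∀ l : ℕ, l.Prime → l ∉ S → l ≠ p → ∀ ζ : E₂, ζ ^ l = 1 → α d ζ = ζ ^ m := by
    intro d m hdm l hl hlS hlp
    apply cyc l hl hlS
    haveI : NeZero l := ⟨hl.ne_zero⟩
    obtain ⟨ζ, hζ⟩ := hroot₁ l hl
    apply aut_eq_pow d hζ
    obtain ⟨ξ, hξ, hξζ⟩ := exists_int_root hl.ne_zero hζ
    obtain ⟨b, hb⟩ := exists_aut_pow d hζ
    -- `d ξ = ξ ^ b` and `d ξ ≡ ξ ^ m`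
    have h1 : d • ξ = ξ ^ b := smul_int_eq d hξζ hb
    have h2 : Ideal.Quotient.mk P.ideal ξ ^ b = Ideal.Quotient.mk P.ideal ξ ^ m := by
      have := (Ideal.Quotient.eq).2 (hdm ξ)
      rwa [h1, map_pow, map_pow] at this
    have hprim := LCPlx925.mk_primitive P hl (by rw [hPp]; exact hlp) hξ
    have h3 : b ≡ m [MOD l] := modEq_of_pow_eq hl.ne_zero hprim h2
    rw [hb]
    exact pow_eq_pow_of_modEq h3 hζ.pow_eq_one
  have hSd : ∀ d : E₁ ≃ₐ[F₁] E₁, d • P = P → ∀ x ∈ Q.ideal, (α d) • x ∈ Q.ideal := by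
    intro d hdP x hx
    have h1 := congrArg Place.ideal (hQ d hdP)
    rw [Place.smul_ideal] at h1
    rw [← h1]
    exact Ideal.smul_mem_pointwise_smul _ _ _ hx
  -- the residue characteristic of `Q` is `p`
  have hQp : Q.rchar = p := by
    by_contra hne
    obtain ⟨ζ, hζ⟩ := hroot₂ p hp.out
    obtain ⟨ξ, hξ, hξζ⟩ := exists_int_root hp.out.ne_zero hζ
    have hagree := LCPlx925.eq_of_agree Q (insert p S)
      (MulSemiringAction.toRingHom (E₂ ≃ₐ[F₂] E₂) (𝓞 E₂) (α s)) (RingHom.id _)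
      (fun x hx => hSd s (inertia_stab P s hsP) x hx) (fun x hx => hx) ?_ ξ
    · have h1 : (α s) • ξ - ξ ∈ Q.ideal := hagree
      obtain ⟨b, hb⟩ := exists_aut_pow (α s) hζ
      have h2 : (α s) • ξ = ξ ^ b := smul_int_eq _ hξζ hb
      rw [h2] at h1
      have h3 : Ideal.Quotient.mk Q.ideal ξ ^ b = Ideal.Quotient.mk Q.ideal ξ ^ 1 := by
        have := (Ideal.Quotient.eq).2 h1
        rwa [map_pow, ← pow_one (Ideal.Quotient.mk Q.ideal ξ), ← pow_mul, one_mul] at this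
      have hprim := LCPlx925.mk_primitive Q hp.out (fun h => hne h.symm) hξ
      have h4 : b ≡ 1 [MOD p] := modEq_of_pow_eq hp.out.ne_zero hprim h3
      apply hsne ζ hζ
      rw [hb, pow_eq_pow_of_modEq h4 hζ.pow_eq_one, pow_one]
    · intro l hl hlS _
      rw [Finset.mem_insert, not_or] at hlS
      obtain ⟨ζ', hζ'⟩ := hroot₂ l hl
      obtain ⟨ξ', hξ', hξζ'⟩ := exists_int_root hl.ne_zero hζ'
      refine ⟨ξ', hξ', ?_⟩
      have h1 := lvl s 1 (fun x => by simpa using hsP x) l hl hlS.2 hlS.1 ζ' hζ'.pow_eq_one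
      have h2 : (α s) • ξ' = ξ' := by
        have := smul_int_eq (α s) hξζ' h1
        rwa [pow_one] at this
      change (α s) • ξ' - ξ' ∈ Q.ideal
      rw [h2, sub_self]
      exact Q.ideal.zero_mem
  refine ⟨Q, by rw [Q.natCast_mem_iff, hQp], hQ, ?_⟩
  intro d hdF x
  haveI := LCPlx925.charP_residue Q
  -- the `p`-power map on the residue field: use the quotient
  haveI := Q.isMaximal
  letI : Field (𝓞 E₂ ⧸ Q.ideal) := Ideal.Quotient.field Q.ideal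
  haveI : Fact Q.rchar.Prime := ⟨Q.rchar_prime⟩
  letI : Algebra (ZMod Q.rchar) (𝓞 E₂ ⧸ Q.ideal) := ZMod.algebra _ Q.rchar
  haveI : ExpChar (𝓞 E₂ ⧸ Q.ideal) Q.rchar := ExpChar.prime Q.rchar_prime
  let t : 𝓞 E₂ ⧸ Q.ideal →+* 𝓞 E₂ ⧸ Q.ideal :=
    Ideal.quotientMap Q.ideal (MulSemiringAction.toRingHom (E₂ ≃ₐ[F₂] E₂) (𝓞 E₂) (α d))
      (fun x hx => Ideal.mem_comap.2 (hSd d (frob_stab P d p hp.out.ne_zero hdF) x hx))
  have hint : IsIntegral (ZMod Q.rchar) (Ideal.Quotient.mk Q.ideal x) := by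
    have h1 : IsIntegral ℤ x := NumberField.RingOfIntegers.isIntegral x
    have h2 : IsIntegral ℤ (Ideal.Quotient.mk Q.ideal x) :=
      h1.map (Ideal.Quotient.mkₐ ℤ Q.ideal)
    exact h2.tower_top
  have key := LCResBx925.eq_of_eq_of_isIntegral Q.rchar t
    (frobenius (𝓞 E₂ ⧸ Q.ideal) Q.rchar) (insert p S) ?_ _ hint
  · rw [frobenius_def, ← map_pow, hQp] at key
    exact (Ideal.Quotient.eq).1 key
  · intro l hl hlS _
    rw [Finset.mem_insert, not_or] at hlS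
    obtain ⟨ζ', hζ'⟩ := hroot₂ l hl
    obtain ⟨ξ', hξ', hξζ'⟩ := exists_int_root hl.ne_zero hζ'
    refine ⟨Ideal.Quotient.mk Q.ideal ξ', LCPlx925.mk_primitive Q hl
      (by rw [hQp]; exact hlS.1) hξ', ?_⟩
    have h1 := lvl d p hdF l hl hlS.2 hlS.1 ζ' hζ'.pow_eq_one
    have h2 : (α d) • ξ' = ξ' ^ p := smul_int_eq (α d) hξζ' h1
    rw [frobenius_def, hQp, ← map_pow, ← h2]
    rfl

end

end Crest.Agent.R018.LCMainx925
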