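import Mathlib

/-!
# Row 18: the order lemma (helper925)

* `exists_prime_dvd_orderOf` : for `a ≥ 2`, `n ≥ 1` and a finite set `S` there is a prime `l`
  outside `S`, not dividing `a`, such that `n` divides the order of `a` modulo `l`.
-/

set_option autoImplicit false

namespace Crest.Agent.R018.LCOrdx925

open Polynomial

theorem exists_prime_dvd_orderOf (a n : ℕ) (ha : 2 ≤ a) (hn : 1 ≤ n) (S : Finset ℕ) :
    ∃ l : ℕ, l.Prime ∧ l ∉ S ∧ ¬ l ∣ a ∧ n ∣ orderOf ((a : ZMod l)) := by
  classical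
  set P : ℕ := ∏ s ∈ S.filter (fun s => s ≠ 0), s with hP
  have hP0 : 0 < P := by
    refine Finset.prod_pos ?_
    intro s hs
    exact Nat.pos_of_ne_zero (Finset.mem_filter.1 hs).2
  set m : ℕ := n * 6 * P with hm
  have hm0 : 0 < m := by positivity
  have hm6 : 6 ∣ m := ⟨n * P, by rw [hm]; ring⟩
  have hm1 : 1 < m := by
    obtain ⟨c, hc⟩ := hm6
    have : 0 < c := by
      rcases Nat.eq_zero_or_pos c with h | h
      · rw [h] at hc; omega
      · exact h
    omega
  set t : ℕ := Nat.totient m with ht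
  have ht0 : 0 < t := Nat.totient_pos.2 hm0
  set A : ℕ := a ^ t with hA
  have hA2 : 2 ≤ A := by
    calc 2 ≤ a := ha
      _ = a ^ 1 := (pow_one a).symm
      _ ≤ a ^ t := Nat.pow_le_pow_right (by omega) ht0
  -- the value of the cyclotomic polynomial
  set v : ℤ := (cyclotomic m ℤ).eval (A : ℤ) with hv
  have hv1 : 1 < v := by
    have h1 : ((A : ℝ) - 1) ^ Nat.totient m < (cyclotomic m ℝ).eval (A : ℝ) := by
      have := Polynomial.sub_one_pow_totient_lt_cyclotomic_eval (n := m) (q := (A : ℝ)) hm1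
        (by exact_mod_cast (by omega : 1 < A))
      simpa using this
    have h2 : (1 : ℝ) ≤ ((A : ℝ) - 1) ^ Nat.totient m := by
      apply one_le_pow₀
      have : (2 : ℝ) ≤ A := by exact_mod_cast hA2
      linarith
    have h3 : ((v : ℤ) : ℝ) = (cyclotomic m ℝ).eval (A : ℝ) := by
      rw [hv]
      have := Polynomial.eval_intCast_map (Int.castRingHom ℝ) (cyclotomic m ℤ) (A : ℤ)
      rw [map_cyclotomic] at this
      simpa using this.symm
    have : (1 : ℝ) < (v : ℝ) := by rw [h3]; linarith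
    exact_mod_cast this
  -- a prime divisor
  obtain ⟨l, hl, hlv⟩ := Nat.exists_prime_and_dvd (n := v.natAbs) (by omega)
  have hlv' : (l : ℤ) ∣ v := Int.natCast_dvd.2 hlv
  haveI : Fact l.Prime := ⟨hl⟩
  have hroot : (cyclotomic m (ZMod l)).eval ((A : ZMod l)) = 0 := by
    have h1 : ((v : ℤ) : ZMod l) = 0 := (ZMod.intCast_zmod_eq_zero_iff_dvd v l).2 hlv'
    have h2 := Polynomial.eval_intCast_map (Int.castRingHom (ZMod l)) (cyclotomic m ℤ) (A : ℤ)
    rw [map_cyclotomic] at h2
    have h3 : (cyclotomic m (ZMod l)).eval ((A : ZMod l)) = ((v : ℤ) : ZMod l) := by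
      rw [hv]; simpa using h2
    rw [h3, h1]
  -- `l` does not divide `m`
  have hlm : ¬ l ∣ m := by
    intro hdvd
    by_cases hla : l ∣ a
    · have hA0 : (A : ZMod l) = 0 := by
        rw [hA, Nat.cast_pow]
        have : (a : ZMod l) = 0 := (ZMod.natCast_eq_zero_iff a l).2 hla
        rw [this, zero_pow ht0.ne']
      rw [hA0] at hroot
      have : (cyclotomic m (ZMod l)).eval 0 = 1 := by
        rw [← Polynomial.coeff_zero_eq_eval_zero]
        exact Polynomial.cyclotomic_coeff_zero _ hm1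
      rw [this] at hroot
      exact one_ne_zero hroot
    · have hA1 : (A : ZMod l) = 1 := by
        have hdt : (l - 1) ∣ t := by
          rw [ht, ← Nat.totient_prime hl]
          exact Nat.totient_dvd_of_dvd hdvd
        obtain ⟨c, hc⟩ := hdt
        have hne : (a : ZMod l) ≠ 0 := fun h => hla ((ZMod.natCast_eq_zero_iff a l).1 h)
        rw [hA, Nat.cast_pow, hc, pow_mul, ZMod.pow_card_sub_one_eq_one hne, one_pow]
      rw [hA1] at hroot
      have h1 : (cyclotomic m (ZMod l)).eval 1 = 1 := by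
        apply Polynomial.eval_one_cyclotomic_not_prime_pow
        intro p hp k hk
        have h2 : 2 ∣ p ^ k := by rw [hk]; exact Dvd.dvd.trans (by norm_num) hm6
        have h3 : 3 ∣ p ^ k := by rw [hk]; exact Dvd.dvd.trans (by norm_num) hm6
        have h2' := (Nat.prime_dvd_prime_iff_eq Nat.prime_two hp).1
          (Nat.prime_two.dvd_of_dvd_pow h2)
        have h3' := (Nat.prime_dvd_prime_iff_eq Nat.prime_three hp).1
          (Nat.prime_three.dvd_of_dvd_pow h3)
        omega
      rw [h1] at hroot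
      exact one_ne_zero hroot
  have hmne : NeZero ((m : ZMod l)) := ⟨fun h => hlm ((ZMod.natCast_eq_zero_iff m l).1 h)⟩
  have hprim : IsPrimitiveRoot ((A : ZMod l)) m :=
    (Polynomial.isRoot_cyclotomic_iff).1 hroot
  have hAne : (A : ZMod l) ≠ 0 := hprim.ne_zero hm0.ne'
  have hla : ¬ l ∣ a := by
    intro h
    apply hAne
    rw [hA, Nat.cast_pow, (ZMod.natCast_eq_zero_iff a l).2 h, zero_pow ht0.ne']
  refine ⟨l, hl, ?_, hla, ?_⟩
  · intro hlS
    apply hlm
    have : l ∣ P := by
      rw [hP]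
      exact Finset.dvd_prod_of_mem _ (Finset.mem_filter.2 ⟨hlS, hl.ne_zero⟩)
    exact Dvd.dvd.mul_left this _
  · have h1 : orderOf ((A : ZMod l)) = m := hprim.eq_orderOf.symm
    have h2 : orderOf ((A : ZMod l)) ∣ orderOf ((a : ZMod l)) := by
      rw [hA, Nat.cast_pow]
      exact orderOf_pow_dvd t
    rw [h1] at h2
    exact (Dvd.intro (6 * P) (by rw [hm]; ring)).trans h2

end Crest.Agent.R018.LCOrdx925
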