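import Crest.Agent.R018.LCResB_925
import Crest.Agent.R018.Places_484

/-!
# Row 18: roots of unity in the residue field of a place (helper925)

`P` a place of `E` (`CharZero E`), `q = P.rchar`.

* `isIntegral_mk` : the residue field is algebraic over `ℤ/q`.
* `mk_primitive` : primitive `l`-th roots of unity (`l ≠ q` prime) stay primitive.
* `eq_of_agree` : two ring endomorphisms of `𝓞 E` stabilising `P` (mapping `P` into `P`) which agree
  modulo `P` on one primitive `l`-th root of unity for almost all primes `l`, agree modulo `P`.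
-/

set_option autoImplicit false

open NumberField Ideal
open Crest.Agent.R018.Placesx484

namespace Crest.Agent.R018.LCPlx925

section

variable {E : Type*} [Field E] [CharZero E] (P : Place E)

theorem charP_residue : CharP (𝓞 E ⧸ P.ideal) P.rchar := by
  constructor
  intro n
  rw [← map_natCast (Ideal.Quotient.mk P.ideal), Ideal.Quotient.eq_zero_iff_mem]
  exact P.natCast_mem_iff n

theorem mk_ne_one {l : ℕ} (hl : l.Prime) (hlq : l ≠ P.rchar) {ξ : 𝓞 E}
    (hξ : IsPrimitiveRoot ξ l) : Ideal.Quotient.mk P.ideal ξ ≠ 1 := by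
  intro h
  have h1 : ∑ i ∈ Finset.range l, ξ ^ i = 0 := hξ.geom_sum_eq_zero hl.one_lt
  have h2 := congrArg (Ideal.Quotient.mk P.ideal) h1
  rw [map_sum, map_zero] at h2
  simp only [map_pow, h, one_pow, Finset.sum_const, Finset.card_range, nsmul_eq_mul, mul_one] at h2
  haveI := charP_residue P
  have h3 := (CharP.cast_eq_zero_iff (𝓞 E ⧸ P.ideal) P.rchar l).1 h2
  exact hlq ((Nat.prime_dvd_prime_iff_eq P.rchar_prime hl).1 h3).symm

theorem mk_primitive {l : ℕ} (hl : l.Prime) (hlq : l ≠ P.rchar) {ξ : 𝓞 E}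
    (hξ : IsPrimitiveRoot ξ l) : IsPrimitiveRoot (Ideal.Quotient.mk P.ideal ξ) l := by
  haveI : Fact l.Prime := ⟨hl⟩
  rw [IsPrimitiveRoot.iff_orderOf]
  apply orderOf_eq_prime
  · rw [← map_pow, hξ.pow_eq_one, map_one]
  · exact mk_ne_one P hl hlq hξ

/-- endomorphisms of `𝓞 E` agreeing at almost all prime levels agree on the residue field -/
theorem eq_of_agree (S : Finset ℕ) (τ τ' : 𝓞 E →+* 𝓞 E)
    (h : ∀ x ∈ P.ideal, τ x ∈ P.ideal) (h' : ∀ x ∈ P.ideal, τ' x ∈ P.ideal)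
    (hτ : ∀ l : ℕ, l.Prime → l ∉ S → l ≠ P.rchar →
      ∃ ξ : 𝓞 E, IsPrimitiveRoot ξ l ∧ τ ξ - τ' ξ ∈ P.ideal) (x : 𝓞 E) :
    τ x - τ' x ∈ P.ideal := by
  haveI := P.isMaximal
  letI : Field (𝓞 E ⧸ P.ideal) := Ideal.Quotient.field P.ideal
  haveI : Fact P.rchar.Prime := ⟨P.rchar_prime⟩
  haveI := charP_residue P
  letI : Algebra (ZMod P.rchar) (𝓞 E ⧸ P.ideal) := ZMod.algebra _ P.rchar
  let t : 𝓞 E ⧸ P.ideal →+* 𝓞 E ⧸ P.ideal :=
    Ideal.quotientMap P.ideal τ (fun x hx => Ideal.mem_comap.2 (h x hx))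
  let t' : 𝓞 E ⧸ P.ideal →+* 𝓞 E ⧸ P.ideal :=
    Ideal.quotientMap P.ideal τ' (fun x hx => Ideal.mem_comap.2 (h' x hx))
  have ht : ∀ x : 𝓞 E, t (Ideal.Quotient.mk P.ideal x) = Ideal.Quotient.mk P.ideal (τ x) :=
    fun x => rfl
  have ht' : ∀ x : 𝓞 E, t' (Ideal.Quotient.mk P.ideal x) = Ideal.Quotient.mk P.ideal (τ' x) :=
    fun x => rfl
  have hint : IsIntegral (ZMod P.rchar) (Ideal.Quotient.mk P.ideal x) := by
    have h1 : IsIntegral ℤ x := NumberField.RingOfIntegers.isIntegral x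
    have h2 : IsIntegral ℤ (Ideal.Quotient.mk P.ideal x) :=
      h1.map (Ideal.Quotient.mkₐ ℤ P.ideal)
    exact h2.tower_top
  have key := LCResBx925.eq_of_eq_of_isIntegral P.rchar t t' S ?_ _ hint
  · rw [ht, ht'] at key
    exact (Ideal.Quotient.eq).1 key
  · intro l hl hlS hlq
    obtain ⟨ξ, hξ, hξ2⟩ := hτ l hl hlS hlq
    refine ⟨Ideal.Quotient.mk P.ideal ξ, mk_primitive P hl hlq hξ, ?_⟩
    rw [ht, ht']
    exact (Ideal.Quotient.eq).2 hξ2

end

end Crest.Agent.R018.LCPlx925
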