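import Crest.Agent.R018.LCRes_925

/-!
# Row 18: endomorphisms of algebraic extensions of finite fields and roots of unity (helper925)

* `eq_of_eq` : `K` a field of characteristic `q`, `τ, τ' : K →+* K`; if for all primes `l` outside
  a finite set `S` there is a primitive `l`-th root of unity `ξ` in `K` with `τ ξ = τ' ξ`, then
  `τ x = τ' x` for every `x` with `x ^ (q ^ n) = x`.
* `eq_of_eq_of_isIntegral` : the same for all `x` algebraic over the prime field.
-/

set_option autoImplicit false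

namespace Crest.Agent.R018.LCResBx925

theorem eq_of_eq {K : Type*} [Field K] (q : ℕ) [hq : Fact q.Prime] [CharP K q]
    (τ τ' : K →+* K) (S : Finset ℕ)
    (hτ : ∀ l : ℕ, l.Prime → l ∉ S → l ≠ q → ∃ ξ : K, IsPrimitiveRoot ξ l ∧ τ ξ = τ' ξ)
    (n : ℕ) (hn1 : 1 ≤ n) (x : K) (hx : x ^ (q ^ n) = x) : τ x = τ' x := by
  classical
  obtain ⟨l, hl, hlS, hlq, hnl⟩ :=
    LCOrdx925.exists_prime_dvd_orderOf q n hq.out.two_le hn1 S
  have hlne : l ≠ q := fun h => hlq (h ▸ dvd_rfl)
  obtain ⟨ξ, hξ, hτξ⟩ := hτ l hl hlS hlne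
  letI : Algebra (ZMod q) K := ZMod.algebra K q
  -- the finite subfield generated by `ξ`
  have hξint : IsIntegral (ZMod q) ξ := hξ.isIntegral hl.pos |>.tower_top
  set F : IntermediateField (ZMod q) K := IntermediateField.adjoin (ZMod q) {ξ} with hF
  haveI : FiniteDimensional (ZMod q) F := IntermediateField.adjoin.finiteDimensional hξint
  haveI : Finite F := Module.finite_of_finite (ZMod q)
  haveI : Fintype F := Fintype.ofFinite F
  have hcardF : Nat.card F = q ^ Module.finrank (ZMod q) F := by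
    rw [Nat.card_eq_fintype_card, Module.card_eq_pow_finrank (K := ZMod q) (V := F), ZMod.card]
  set e := Module.finrank (ZMod q) F with he
  -- `l ∣ q ^ e - 1`
  have hξF : ξ ∈ F := IntermediateField.mem_adjoin_simple_self (ZMod q) ξ
  have hξpow : ξ ^ (q ^ e - 1) = 1 := by
    have h0 : (⟨ξ, hξF⟩ : F) ≠ 0 := by
      intro h
      exact hξ.ne_zero hl.ne_zero (congrArg Subtype.val h)
    have h1 : (⟨ξ, hξF⟩ : F) ^ (Fintype.card F - 1) = 1 := FiniteField.pow_card_sub_one_eq_one _ h0
    rw [← Nat.card_eq_fintype_card, hcardF] at h1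
    have h2 := congrArg Subtype.val h1
    simpa using h2
  have hldvd : l ∣ q ^ e - 1 := (hξ.pow_eq_one_iff_dvd _).1 hξpow
  have hqe : 1 ≤ q ^ e := Nat.one_le_pow _ _ hq.out.pos
  haveI : Fact l.Prime := ⟨hl⟩
  have hord : orderOf ((q : ZMod l)) ∣ e := by
    apply orderOf_dvd_of_pow_eq_one
    have h1 : ((q ^ e - 1 : ℕ) : ZMod l) = 0 := (ZMod.natCast_eq_zero_iff _ _).2 hldvd
    rw [Nat.cast_sub hqe, Nat.cast_one, Nat.cast_pow, sub_eq_zero] at h1
    exact h1
  obtain ⟨c, hc⟩ : n ∣ e := hnl.trans hord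
  have hxe : x ^ (q ^ e) = x := by
    rw [hc, pow_mul]
    have : ∀ c : ℕ, x ^ ((q ^ n) ^ c) = x := by
      intro c
      induction c with
      | zero => simp
      | succ c ih => rw [pow_succ, pow_mul, ih, hx]
    exact this c
  have hxF : x ∈ F.toSubfield := by
    haveI : Finite F.toSubfield := ‹Finite F›
    apply LCResx925.mem_of_pow_card_eq F.toSubfield x
    have : Nat.card F.toSubfield = q ^ e := hcardF
    rw [this, hxe]
  have key : ∀ x ∈ F, τ x = τ' x := by
    intro x hx
    refine IntermediateField.adjoin_induction (F := ZMod q) (E := K) (s := {ξ})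
      (p := fun y _ => τ y = τ' y) ?_ ?_ ?_ ?_ ?_ hx
    · intro y hy
      rw [Set.mem_singleton_iff] at hy
      rw [hy, hτξ]
    · intro y
      have := RingHom.congr_fun (Subsingleton.elim (τ.comp (algebraMap (ZMod q) K))
        (τ'.comp (algebraMap (ZMod q) K))) y
      exact this
    · intro y z _ _ hy hz
      rw [map_add, hy, hz, map_add]
    · intro y _ hy
      rw [map_inv₀, hy, map_inv₀]
    · intro y z _ _ hy hz
      rw [map_mul, hy, hz, map_mul]
  exact key x hxF

theorem exists_pow_eq {K : Type*} [Field K] (q : ℕ) [hq : Fact q.Prime] [Algebra (ZMod q) K]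
    (x : K) (hx : IsIntegral (ZMod q) x) : ∃ n : ℕ, 1 ≤ n ∧ x ^ (q ^ n) = x := by
  set F : IntermediateField (ZMod q) K := IntermediateField.adjoin (ZMod q) {x} with hF
  haveI : FiniteDimensional (ZMod q) F := IntermediateField.adjoin.finiteDimensional hx
  haveI : Finite F := Module.finite_of_finite (ZMod q)
  haveI : Fintype F := Fintype.ofFinite F
  have hcardF : Fintype.card F = q ^ Module.finrank (ZMod q) F := by
    rw [Module.card_eq_pow_finrank (K := ZMod q) (V := F), ZMod.card]
  refine ⟨Module.finrank (ZMod q) F, Module.finrank_pos, ?_⟩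
  have hxF : x ∈ F := IntermediateField.mem_adjoin_simple_self (ZMod q) x
  have h1 : (⟨x, hxF⟩ : F) ^ Fintype.card F = ⟨x, hxF⟩ := FiniteField.pow_card _
  rw [hcardF] at h1
  have h2 := congrArg Subtype.val h1
  simpa using h2

theorem eq_of_eq_of_isIntegral {K : Type*} [Field K] (q : ℕ) [hq : Fact q.Prime]
    [Algebra (ZMod q) K]
    (τ τ' : K →+* K) (S : Finset ℕ)
    (hτ : ∀ l : ℕ, l.Prime → l ∉ S → l ≠ q → ∃ ξ : K, IsPrimitiveRoot ξ l ∧ τ ξ = τ' ξ)
    (x : K) (hx : IsIntegral (ZMod q) x) : τ x = τ' x := by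
  haveI : CharP K q := charP_of_injective_algebraMap (algebraMap (ZMod q) K).injective q
  obtain ⟨n, hn, h⟩ := exists_pow_eq q x hx
  exact eq_of_eq q τ τ' S hτ n hn x h

end Crest.Agent.R018.LCResBx925
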