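import Crest.Agent.R018.LCOrd_925

/-!
# Row 18: automorphisms of an algebraic closure of a finite field and roots of unity (helper925)

* `fix_of_fix` : `K` a field of characteristic `q`, `τ : K →+* K`; if for all primes `l` outside a
  finite set `S` the field `K` has a primitive `l`-th root of unity fixed by `τ`, then `τ` fixes
  every `m`-th root of unity with `m` prime to `q`.
-/

set_option autoImplicit false

namespace Crest.Agent.R018.LCResx925

open Polynomial

/-- If `x ^ (q ^ e) = x` and `F` is a finite subfield with `q ^ e` elements, then `x ∈ F`. -/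
theorem mem_of_pow_card_eq {K : Type*} [Field K] (F : Subfield K) [Finite F] (x : K)
    (hx : x ^ (Nat.card F) = x) : x ∈ F := by
  classical
  haveI : Fintype F := Fintype.ofFinite F
  by_contra hxF
  set N := Nat.card F with hN
  have hN1 : 1 < N := Finite.one_lt_card
  set f : K[X] := X ^ N - X with hf
  have hf0 : f ≠ 0 := FiniteField.X_pow_card_sub_X_ne_zero K hN1
  have hdeg : f.natDegree = N := FiniteField.X_pow_card_sub_X_natDegree_eq K hN1
  -- the roots
  set T : Finset K := insert x (Finset.univ.image (fun y : F => (y : K))) with hT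
  have hcard : T.card = N + 1 := by
    rw [hT, Finset.card_insert_of_notMem]
    · rw [Finset.card_image_of_injective _ Subtype.val_injective, Finset.card_univ, hN,
        Nat.card_eq_fintype_card]
    · intro h
      obtain ⟨y, _, hy⟩ := Finset.mem_image.1 h
      exact hxF (hy ▸ y.2)
  have hsub : T ⊆ f.roots.toFinset := by
    intro z hz
    rw [Multiset.mem_toFinset, mem_roots hf0, IsRoot.def, hf, eval_sub, eval_pow, eval_X]
    rcases Finset.mem_insert.1 hz with h | h
    · rw [h, hx, sub_self]
    · obtain ⟨y, _, hy⟩ := Finset.mem_image.1 h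
      rw [← hy]
      have h1 : y ^ Fintype.card F = y := FiniteField.pow_card y
      have h2 : (y : K) ^ N = (y : K) := by
        rw [hN, Nat.card_eq_fintype_card]
        exact_mod_cast congrArg (Subtype.val) h1
      rw [h2, sub_self]
  have h1 : T.card ≤ f.natDegree :=
    (Finset.card_le_card hsub).trans ((Multiset.toFinset_card_le _).trans (card_roots' f))
  omega

theorem fix_of_fix {K : Type*} [Field K] (q : ℕ) [hq : Fact q.Prime] [CharP K q]
    (τ : K →+* K) (S : Finset ℕ)
    (hτ : ∀ l : ℕ, l.Prime → l ∉ S → l ≠ q → ∃ ξ : K, IsPrimitiveRoot ξ l ∧ τ ξ = ξ)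
    (m : ℕ) (hm : Nat.Coprime q m) (hm0 : 0 < m) (ζ : K) (hζ : ζ ^ m = 1) : τ ζ = ζ := by
  classical
  haveI : NeZero m := ⟨hm0.ne'⟩
  set n : ℕ := orderOf ((q : ZMod m)) with hn
  have hunit : IsUnit ((q : ZMod m)) := (ZMod.isUnit_iff_coprime q m).2 hm
  have hn1 : 1 ≤ n := by
    have : IsOfFinOrder ((q : ZMod m)) := by
      obtain ⟨u, hu⟩ := hunit
      rw [← hu]
      exact (Units.isOfFinOrder_val).2 (isOfFinOrder_of_finite u)
    exact this.orderOf_pos
  obtain ⟨l, hl, hlS, hlq, hnl⟩ :=
    LCOrdx925.exists_prime_dvd_orderOf q n hq.out.two_le hn1 S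
  have hlne : l ≠ q := fun h => hlq (h ▸ dvd_rfl)
  obtain ⟨ξ, hξ, hτξ⟩ := hτ l hl hlS hlne
  letI : Algebra (ZMod q) K := ZMod.algebra K q
  -- the finite subfield generated by `ξ`
  have hξint : IsIntegral (ZMod q) ξ := hξ.isIntegral hl.pos |>.tower_top
  set F : IntermediateField (ZMod q) K := IntermediateField.adjoin (ZMod q) {ξ} with hF
  haveI : FiniteDimensional (ZMod q) F := IntermediateField.adjoin.finiteDimensional hξint
  haveI : Finite F := Module.finite_of_finite (ZMod q)
  haveI : Fintype F := Fintype.ofFinite F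
  have hcardF : Nat.card F = q ^ Module.finrank (ZMod q) F := by
    rw [Nat.card_eq_fintype_card, Module.card_eq_pow_finrank (K := ZMod q) (V := F), ZMod.card]
  set e := Module.finrank (ZMod q) F with he
  -- `l ∣ q ^ e - 1`
  have hξF : ξ ∈ F := IntermediateField.mem_adjoin_simple_self (ZMod q) ξ
  have hξpow : ξ ^ (q ^ e - 1) = 1 := by
    have h0 : (⟨ξ, hξF⟩ : F) ≠ 0 := by
      intro h
      exact hξ.ne_zero hl.ne_zero (congrArg Subtype.val h)
    have h1 : (⟨ξ, hξF⟩ : F) ^ (Fintype.card F - 1) = 1 := FiniteField.pow_card_sub_one_eq_one _ h0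
    rw [← Nat.card_eq_fintype_card, hcardF] at h1
    have h2 := congrArg Subtype.val h1
    simpa using h2
  have hldvd : l ∣ q ^ e - 1 := (hξ.pow_eq_one_iff_dvd _).1 hξpow
  have hqe : 1 ≤ q ^ e := Nat.one_le_pow _ _ hq.out.pos
  haveI : Fact l.Prime := ⟨hl⟩
  have hord : orderOf ((q : ZMod l)) ∣ e := by
    apply orderOf_dvd_of_pow_eq_one
    have h1 : ((q ^ e - 1 : ℕ) : ZMod l) = 0 := (ZMod.natCast_eq_zero_iff _ _).2 hldvd
    rw [Nat.cast_sub hqe, Nat.cast_one, Nat.cast_pow, sub_eq_zero] at h1
    exact h1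
  have hne : n ∣ e := hnl.trans hord
  have hqem : ((q : ZMod m)) ^ e = 1 := orderOf_dvd_iff_pow_eq_one.1 hne
  have hmd : m ∣ q ^ e - 1 := by
    rw [← ZMod.natCast_eq_zero_iff, Nat.cast_sub hqe, Nat.cast_one, Nat.cast_pow, hqem, sub_self]
  have hζe : ζ ^ (q ^ e) = ζ := by
    obtain ⟨c, hc⟩ := hmd
    have h1 : q ^ e = m * c + 1 := by omega
    rw [h1, pow_succ, pow_mul, hζ, one_pow, one_mul]
  have hζF : ζ ∈ F.toSubfield := by
    haveI : Finite F.toSubfield := ‹Finite F›
    apply mem_of_pow_card_eq F.toSubfield ζ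
    have : Nat.card F.toSubfield = q ^ e := hcardF
    rw [this, hζe]
  -- the fixed subfield
  have hfix : F ≤ (IntermediateField.adjoin (ZMod q) {ξ}) := le_refl _
  have key : ∀ x ∈ F, τ x = x := by
    intro x hx
    refine IntermediateField.adjoin_induction (F := ZMod q) (E := K) (s := {ξ})
      (p := fun y _ => τ y = y) ?_ ?_ ?_ ?_ ?_ hx
    · intro y hy
      rw [Set.mem_singleton_iff] at hy
      rw [hy, hτξ]
    · intro y
      have := RingHom.congr_fun (Subsingleton.elim (τ.comp (algebraMap (ZMod q) K))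
        (algebraMap (ZMod q) K)) y
      exact this
    · intro y z _ _ hy hz
      rw [map_add, hy, hz]
    · intro y _ hy
      rw [map_inv₀, hy]
    · intro y z _ _ hy hz
      rw [map_mul, hy, hz]
  exact key ζ hζF

end Crest.Agent.R018.LCResx925
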