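import Mathlib
import Crest.Agent.R018.TameP_31
import Crest.Agent.R018.Places3_484

/-!
# Row 18, CORE (E): tame inertia elements over `ℚ` (helper693)

For a place `P` of a Galois extension `E/ℚ`, `t` its residue characteristic, `t ∤ n`, `ζ ∈ E` a
primitive `n`-th root of unity, `a ^ n = t`: some element of the inertia group of `P` maps `a` to
`ζ a`.
-/

set_option autoImplicit false

open NumberField Pointwise
open Crest.Agent.R018.Placesx484 Crest.Agent.R018.Placesx484.Place

namespace Crest.Agent.R018.PowResAx693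

/-- the order of the inertia group is divisible by `n` if `t` is an `n`-th power -/
theorem dvd_card_inertia {L : Type*} [Field L] [NumberField L] [IsGalois ℚ L] (P : Place L)
    {n : ℕ} {a : 𝓞 L} (ha : a ^ n = ((P.rchar : ℕ) : 𝓞 L)) :
    n ∣ Nat.card (P.ideal.inertia (L ≃ₐ[ℚ] L)) := by
  have htp : Fact P.rchar.Prime := ⟨P.rchar_prime⟩
  set p : Ideal ℤ := Ideal.span {(P.rchar : ℤ)} with hp
  have hmax : p.IsMaximal := PrincipalIdealRing.isMaximal_of_irreducible
      (Nat.prime_iff_prime_int.mp P.rchar_prime).irreducible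
  have hover : P.ideal.LiesOver p := by
    constructor
    have hle : p ≤ P.ideal.under ℤ := by
      rw [hp, Ideal.span_singleton_le_iff_mem, Ideal.under_def, Ideal.mem_comap]
      simpa using P.rchar_mem
    exact hmax.eq_of_le (Ideal.IsPrime.ne_top inferInstance) hle
  have hfin : Finite (ℤ ⧸ p) := by
    have : p ≠ ⊥ := by
      rw [hp, Ne, Ideal.span_singleton_eq_bot]
      exact_mod_cast P.rchar_prime.ne_zero
    exact Ring.HasFiniteQuotients.finiteQuotient this
  have hperf : PerfectField p.ResidueField := inferInstance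
  have h1 : Nat.card (P.ideal.inertia (L ≃ₐ[ℚ] L)) = p.ramificationIdxIn (𝓞 L) :=
    Ideal.card_inertia_eq_ramificationIdxIn p P.ideal
  have h2 : p.ramificationIdxIn (𝓞 L) = P.ideal.ramificationIdx ℤ :=
    Ideal.ramificationIdxIn_eq_ramificationIdx p P.ideal (L ≃ₐ[ℚ] L)
  have hmap : Ideal.map (algebraMap ℤ (𝓞 L)) p = Ideal.span {((P.rchar : ℕ) : 𝓞 L)} := by
    rw [hp, Ideal.map_span, Set.image_singleton]
    simp
  have hne : Ideal.map (algebraMap ℤ (𝓞 L)) p ≠ ⊥ := by
    rw [hmap, Ne, Ideal.span_singleton_eq_bot]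
    exact_mod_cast P.rchar_prime.ne_zero
  have h3 : P.ideal.ramificationIdx ℤ = multiplicity P.ideal (Ideal.map (algebraMap ℤ (𝓞 L)) p) :=
    Ideal.IsDedekindDomain.ramificationIdx_eq_multiplicity p P.ideal hne
  rw [h1, h2, h3, hmap, ← ha, ← Ideal.span_singleton_pow]
  have hPp : Prime P.ideal := Ideal.prime_of_isPrime P.ne_bot P.isPrime
  by_cases hn : n = 0
  · subst hn
    exfalso
    rw [pow_zero] at ha
    have h5 : ((P.rchar : ℕ) : 𝓞 L) ∈ P.ideal := P.rchar_mem
    rw [← ha] at h5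
    exact P.one_notMem h5
  · have ha0 : a ≠ 0 := by
      rintro rfl
      rw [zero_pow hn] at ha
      exact P.rchar_prime.ne_zero (by exact_mod_cast ha.symm)
    have hfa : FiniteMultiplicity P.ideal (Ideal.span {a}) := by
      apply FiniteMultiplicity.of_prime_left hPp
      rw [Ne, Ideal.zero_eq_bot, Ideal.span_singleton_eq_bot]
      exact ha0
    rw [hfa.multiplicity_pow hPp]
    exact dvd_mul_right _ _

variable {E : Type*} [Field E] [CharZero E] [IsGalois ℚ E]

/-- an element of inertia fixes the units whose `n`-th power it fixes (`t ∤ n`) -/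
theorem inertia_fix_root {G : Type*} [Group G] [MulSemiringAction G E] (P : Place E) {n : ℕ}
    (hn : ¬ P.rchar ∣ n) {τ : G} (hτ : τ ∈ P.ideal.inertia G) {b : E} (hb : P.v b = 1)
    (hfix : τ • (b ^ n) = b ^ n) : τ • b = b := by
  have hb0 : b ≠ 0 := by
    rintro rfl
    rw [map_zero] at hb
    exact zero_ne_one hb
  have h1 : P.v (τ • b - b) < 1 := v_smul_sub_lt_one P hτ b hb.le
  have h2 : (τ • b / b) ^ n = 1 := by
    rw [div_pow, ← smul_pow', hfix, div_self (pow_ne_zero _ hb0)]
  have h3 : τ • b / b = 1 := by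
    apply root_eq_of_sub P hn h2 (one_pow n)
    have : τ • b / b - 1 = (τ • b - b) / b := by
      rw [sub_div, div_self hb0]
    rw [this, map_div₀, hb, div_one]
    exact h1
  exact (div_eq_one_iff_eq hb0).1 h3

/-- **tame inertia acts transitively on the roots of the residue characteristic** -/
theorem exists_tame (P : Place E) {n : ℕ} (hn : ¬ P.rchar ∣ n) {ζ a : E}
    (hζ : IsPrimitiveRoot ζ n) (ha : a ^ n = ((P.rchar : ℕ) : E)) :
    ∃ τ ∈ P.ideal.inertia (E ≃ₐ[ℚ] E), τ a = ζ * a := by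
  have hn0 : n ≠ 0 := by rintro rfl; exact hn (dvd_zero _)
  have hnpos : 0 < n := Nat.pos_of_ne_zero hn0
  have hnz : NeZero n := ⟨hn0⟩
  have ht0 : ((P.rchar : ℕ) : E) ≠ 0 := by exact_mod_cast P.rchar_prime.ne_zero
  have ha0 : a ≠ 0 := by
    rintro rfl
    rw [zero_pow hn0] at ha
    exact ht0 ha.symm
  -- the splitting field
  set f : Polynomial ℚ := Polynomial.X ^ n - Polynomial.C ((P.rchar : ℕ) : ℚ) with hf
  have hf0 : f ≠ 0 := Polynomial.X_pow_sub_C_ne_zero hnpos _
  have hroot : ∀ x : E, x ∈ f.rootSet E ↔ x ^ n = ((P.rchar : ℕ) : E) := by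
    intro x
    rw [Polynomial.mem_rootSet_of_ne hf0, hf]
    simp [sub_eq_zero]
  have hmem : ∀ i : ℕ, ζ ^ i * a ∈ f.rootSet E := by
    intro i
    rw [hroot, mul_pow, ← pow_mul, mul_comm i n, pow_mul, hζ.pow_eq_one, one_pow, one_mul, ha]
  have hsplit : (f.map (algebraMap ℚ E)).Splits := by
    have h1 := X_pow_sub_C_splits_of_isPrimitiveRoot hζ ha
    rw [hf, Polynomial.map_sub, Polynomial.map_pow, Polynomial.map_X, Polynomial.map_C]
    simpa using h1
  let L := IntermediateField.adjoin ℚ (f.rootSet E)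
  have hLs : Polynomial.IsSplittingField ℚ L f := IntermediateField.adjoin_rootSet_isSplittingField hsplit
  have hsep : f.Separable :=
    Polynomial.separable_X_pow_sub_C _ (by exact_mod_cast hn0)
      (by exact_mod_cast P.rchar_prime.ne_zero)
  have hLG : IsGalois ℚ L := IsGalois.of_separable_splitting_field hsep
  have hLF : FiniteDimensional ℚ L := Polynomial.IsSplittingField.finiteDimensional L f
  have hLN : NumberField L := { to_charZero := inferInstance, to_finiteDimensional := hLF }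
  have haL : a ∈ L := by
    have := IntermediateField.subset_adjoin ℚ _ (hmem 0)
    simpa using this
  have hζL : ζ ∈ L := by
    have h1 := IntermediateField.subset_adjoin ℚ _ (hmem 1)
    have h2 := L.div_mem h1 haL
    rw [pow_one, mul_div_assoc, div_self ha0, mul_one] at h2
    exact h2
  let aL : L := ⟨a, haL⟩
  let ζL : L := ⟨ζ, hζL⟩
  have hζLp : IsPrimitiveRoot ζL n := by
    rw [← IsPrimitiveRoot.coe_submonoidClass_iff (M := E) (B := IntermediateField ℚ E)]
    exact hζ
  have haLint : IsIntegral ℤ aL := by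
    refine ⟨Polynomial.X ^ n - Polynomial.C ((P.rchar : ℕ) : ℤ),
      Polynomial.monic_X_pow_sub_C _ hn0, ?_⟩
    have : aL ^ n = ((P.rchar : ℕ) : L) := Subtype.ext (by simpa using ha)
    simp [this]
  let PL := P.res L
  have hrc : PL.rchar = P.rchar := rchar_res L P
  obtain ⟨aO, haO⟩ : ∃ aO : 𝓞 L, algebraMap (𝓞 L) L aO = aL := ⟨⟨aL, haLint⟩, rfl⟩
  have haL' : aO ^ n = ((PL.rchar : ℕ) : 𝓞 L) := by
    apply NumberField.RingOfIntegers.coe_injective
    change algebraMap (𝓞 L) L (aO ^ n) = algebraMap (𝓞 L) L ((PL.rchar : ℕ) : 𝓞 L)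
    rw [hrc, map_pow, map_natCast, haO]
    exact Subtype.ext (by simpa using ha)
  have hdvd := dvd_card_inertia PL haL'
  let I := PL.ideal.inertia (L ≃ₐ[ℚ] L)
  have haL0 : aL ≠ 0 := fun h => ha0 (congrArg Subtype.val h)
  have haLn : aL ^ n = ((P.rchar : ℕ) : L) := Subtype.ext (by simpa using ha)
  -- the map `σ ↦ σ a / a`
  have hval : ∀ σ : L ≃ₐ[ℚ] L, (σ aL / aL) ^ n = 1 := by
    intro σ
    rw [div_pow, ← map_pow, haLn, map_natCast]
    exact div_self (by exact_mod_cast P.rchar_prime.ne_zero)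
  let φ : I → Polynomial.nthRootsFinset n (1 : L) := fun σ =>
    ⟨σ.1 aL / aL, (Polynomial.mem_nthRootsFinset hnpos _).2 (hval σ.1)⟩
  have hφinj : Function.Injective φ := by
    intro σ τ h
    have h1 : σ.1 aL / aL = τ.1 aL / aL := congrArg Subtype.val h
    have h2 : σ.1 aL = τ.1 aL := by
      field_simp at h1
      exact h1
    have h3 : ∀ ρ ∈ I, ρ ζL = ζL := by
      intro ρ hρ
      have h4 := inertia_root PL hρ (n := n) (by rw [hrc]; exact hn) hζLp.pow_eq_one
      exact h4
    apply Subtype.ext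
    have hgen : (σ.1 : L →ₐ[ℚ] L) = (τ.1 : L →ₐ[ℚ] L) := by
      apply IntermediateField.adjoin_algHom_ext
      intro x hx
      have hx1 := (hroot x).1 hx
      obtain ⟨i, -, hi⟩ := hζ.eq_pow_of_pow_eq_one (ξ := x / a) (by
        rw [div_pow, hx1, ha, div_self ht0])
      have hxL : (⟨x, IntermediateField.subset_adjoin ℚ _ hx⟩ : L) = ζL ^ i * aL := by
        apply Subtype.ext
        change x = ζ ^ i * a
        rw [hi, div_mul_cancel₀ _ ha0]
      rw [hxL]
      change σ.1 (ζL ^ i * aL) = τ.1 (ζL ^ i * aL)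
      rw [map_mul, map_mul, map_pow, map_pow, h3 _ σ.2, h3 _ τ.2, h2]
    exact AlgEquiv.ext fun x => DFunLike.congr_fun hgen x
  have hcard : Nat.card (Polynomial.nthRootsFinset n (1 : L)) ≤ Nat.card I := by
    rw [Nat.card_eq_fintype_card, Fintype.card_coe, hζLp.card_nthRootsFinset]
    exact Nat.le_of_dvd Nat.card_pos hdvd
  have hφbij : Function.Bijective φ := hφinj.bijective_of_nat_card_le hcard
  obtain ⟨σ, hσ⟩ := hφbij.2 ⟨ζL, (Polynomial.mem_nthRootsFinset hnpos _).2 hζLp.pow_eq_one⟩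
  have hσ1 : σ.1 aL / aL = ζL := congrArg Subtype.val hσ
  obtain ⟨τ, hτ, hτx⟩ := Crest.Agent.R018.Tamex31.exists_inertia_lift (F := ℚ) (L := L) P σ.1 σ.2
  refine ⟨τ, hτ, ?_⟩
  have h6 := hτx aL
  rw [div_eq_iff haL0] at hσ1
  rw [hσ1] at h6
  exact h6

end Crest.Agent.R018.PowResAx693
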