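import Mathlib
import Crest.Agent.R018.PowResA_693
import Crest.Agent.R018.FDAdapt_389

/-!
# Row 18, CORE (E): an automorphism with prescribed action on radicals of primes (helper693)
-/

set_option autoImplicit false

open NumberField Pointwise
open Crest.Agent.R018.Placesx484 Crest.Agent.R018.Placesx484.Place
open Crest.Agent.R018.EndDefx924 (Om)
open Crest.Agent.R018.PowResAx693

namespace Crest.Agent.R018.PowResBx693

/-- a place above every prime number -/
theorem exists_place (t : ℕ) (ht : t.Prime) : ∃ P : Place Om, P.rchar = t := by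
  have hmax : (Ideal.span {(t : ℤ)}).IsMaximal := PrincipalIdealRing.isMaximal_of_irreducible
      (Nat.prime_iff_prime_int.mp ht).irreducible
  have hinj : Function.Injective (algebraMap ℤ (𝓞 Om)) := by
    intro a b hab
    have h1 := congrArg (algebraMap (𝓞 Om) Om) hab
    simpa using h1
  obtain ⟨I, hI, hI2⟩ := Ideal.exists_ideal_over_prime_of_isIntegral_of_isDomain
    (S := 𝓞 Om) (Ideal.span {(t : ℤ)}) (by
      rw [(RingHom.injective_iff_ker_eq_bot _).1 hinj]
      exact bot_le)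
  have hmem : ((t : ℕ) : 𝓞 Om) ∈ I := by
    have h1 : (t : ℤ) ∈ I.comap (algebraMap ℤ (𝓞 Om)) := by
      rw [hI2]; exact Ideal.mem_span_singleton_self _
    simpa using h1
  have hne : I ≠ ⊥ := by
    rintro rfl
    rw [Ideal.mem_bot] at hmem
    exact ht.ne_zero (by exact_mod_cast hmem)
  exact ⟨⟨I, hI, hne⟩, rchar_eq_of_mem _ ht hmem⟩

/-- a uniform exponent killing the action on `m`-th roots of finitely many numbers -/
theorem exists_exponent (m : ℕ) (hm : 0 < m) (S : Finset ℕ) :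
    ∃ e : ℕ, 0 < e ∧ ∀ (τ : Om ≃ₐ[ℚ] Om) (x : Om), (x ^ m = 1 ∨ ∃ q ∈ S, x ^ m = (q : Om)) →
      (τ ^ e) x = x := by
  classical
  let f : Polynomial ℚ := (Polynomial.X ^ m - 1) * ∏ q ∈ S, (Polynomial.X ^ m - Polynomial.C (q : ℚ))
  have hf0 : f ≠ 0 := by
    refine mul_ne_zero ?_ (Finset.prod_ne_zero_iff.2 fun q _ => ?_)
    · have := Polynomial.X_pow_sub_C_ne_zero (R := ℚ) hm 1
      simpa using this
    · exact Polynomial.X_pow_sub_C_ne_zero hm _
  let N := IntermediateField.adjoin ℚ (f.rootSet Om)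
  have hs : (f.map (algebraMap ℚ Om)).Splits := IsAlgClosed.splits _
  have hN : Polynomial.IsSplittingField ℚ N f :=
    IntermediateField.adjoin_rootSet_isSplittingField hs
  have hNn : Normal ℚ N := Normal.of_isSplittingField f
  have hNf : FiniteDimensional ℚ N := Polynomial.IsSplittingField.finiteDimensional N f
  refine ⟨Nat.card (N ≃ₐ[ℚ] N), Nat.card_pos, fun τ x hx => ?_⟩
  have hxN : x ∈ N := by
    apply IntermediateField.subset_adjoin
    rw [Polynomial.mem_rootSet_of_ne hf0]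
    simp only [f, map_mul, map_prod, map_sub, map_pow, Polynomial.aeval_X, map_one,
      Polynomial.aeval_C]
    rcases hx with hx | ⟨q, hq, hx⟩
    · rw [hx, sub_self, zero_mul]
    · rw [Finset.prod_eq_zero hq, mul_zero]
      rw [hx]; simp
  have h1 : (AlgEquiv.restrictNormalHom N τ) ^ Nat.card (N ≃ₐ[ℚ] N) = 1 := pow_card_eq_one'
  have h2 : AlgEquiv.restrictNormalHom N (τ ^ Nat.card (N ≃ₐ[ℚ] N)) = 1 := by
    rw [map_pow]; exact h1
  have h3 := AlgEquiv.restrictNormal_commutes (τ ^ Nat.card (N ≃ₐ[ℚ] N)) N ⟨x, hxN⟩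
  have h4 : (AlgEquiv.restrictNormal (τ ^ Nat.card (N ≃ₐ[ℚ] N)) N) ⟨x, hxN⟩ = ⟨x, hxN⟩ :=
    DFunLike.congr_fun h2 _
  rw [h4] at h3
  exact h3.symm

/-- the value of a radical of a number prime to the residue characteristic is one -/
theorem v_radical (P : Place Om) {n k : ℕ} (hn : n ≠ 0) (hk : ¬ P.rchar ∣ k) {b : Om}
    (hb : b ^ n = (k : Om)) : P.v b = 1 := by
  have h1 : P.v b ^ n = 1 := by
    rw [← map_pow, hb]
    exact (v_natCast_eq_one_iff P k).2 hk
  exact (pow_eq_one_iff_of_nonneg zero_le hn).1 h1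

/-- **the automorphism**: `n = m ρ`, `ρ = ∏ r q`. -/
theorem exists_aut (m ρ e : ℕ) (hm : 0 < m) (hρ : 0 < ρ) (S : Finset ℕ) (r : ℕ → ℕ)
    (he : ∀ (τ : Om ≃ₐ[ℚ] Om) (x : Om), (x ^ m = 1 ∨ ∃ q ∈ S, x ^ m = (q : Om)) → (τ ^ e) x = x)
    (hS : ∀ q ∈ S, q.Prime ∧ ¬ q ∣ m * ρ) (ζ : Om) (hζ : IsPrimitiveRoot ζ (m * ρ))
    (a : ℕ → Om) (ha : ∀ t, a t ^ (m * ρ) = (t : Om)) (T : Finset ℕ)
    (hT : ∀ t ∈ T, t.Prime ∧ ¬ t ∣ ρ) :
    ∃ s : Om ≃ₐ[ℚ] Om, s (ζ ^ ρ) = ζ ^ ρ ∧ s (ζ ^ m) = ζ ^ m ∧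
      (∀ q ∈ S, q ∉ T → s (a q ^ ρ) = a q ^ ρ) ∧
      (∀ t : ℕ, t.Prime → t ∉ T → s (a t ^ m) = a t ^ m) ∧
      (∀ q ∈ S, q ∈ T → s (a q ^ ρ) = (ζ ^ ρ) ^ r q * a q ^ ρ ∧
        s (a q ^ m) = (ζ ^ m) ^ r q * a q ^ m) ∧
      (∀ t ∈ T, t ∉ S → s (a t ^ m) = (ζ ^ m) ^ e * a t ^ m) := by
  classical
  induction T using Finset.induction_on with
  | empty =>
    refine ⟨1, rfl, rfl, fun _ _ _ => rfl, fun _ _ _ => rfl, ?_, ?_⟩
    · intro q _ h; exact absurd h (Finset.notMem_empty q)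
    · intro q h; exact absurd h (Finset.notMem_empty q)
  | insert t T htT ih =>
    obtain ⟨s, h1, h2, h3, h4, h5, h6⟩ := ih fun t' ht' => hT t' (Finset.mem_insert_of_mem ht')
    obtain ⟨htp, htρ⟩ := hT t (Finset.mem_insert_self t T)
    obtain ⟨P, hP⟩ := exists_place t htp
    by_cases htS : t ∈ S
    · -- `t ∈ S`
      have hnt : ¬ P.rchar ∣ m * ρ := by rw [hP]; exact (hS t htS).2
      obtain ⟨τ, hτ, hτa⟩ := exists_tame P hnt hζ (a := a t) (by rw [ha, hP])
      have hτζ : τ ζ = ζ := inertia_root P hτ hnt hζ.pow_eq_one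
      have hτa' : ∀ t' : ℕ, t'.Prime → t' ≠ t → τ (a t') = a t' := by
        intro t' ht' hne
        have hmρ : m * ρ ≠ 0 := (Nat.mul_pos hm hρ).ne'
        have hk : ¬ P.rchar ∣ t' := by
          rw [hP]; intro h
          exact hne ((Nat.prime_dvd_prime_iff_eq htp ht').1 h).symm
        exact inertia_fix_root P hnt hτ (v_radical P hmρ hk (ha t')) (by
          rw [ha]; exact map_natCast τ t')
      have hpow : ∀ k : ℕ, ∀ x : Om, τ x = x → (τ ^ k) x = x := by
        intro k x hx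
        induction k with
        | zero => rfl
        | succ k ih => rw [pow_succ, AlgEquiv.mul_apply, hx, ih]
      have hpa : ∀ k : ℕ, (τ ^ k) (a t) = ζ ^ k * a t := by
        intro k
        induction k with
        | zero => simp
        | succ k ih => rw [pow_succ', AlgEquiv.mul_apply, ih, map_mul, map_pow, hτζ, hτa]; ring
      have hτρ : ∀ k : ℕ, (τ ^ k) ζ = ζ := fun k => hpow k ζ hτζ
      refine ⟨s * τ ^ r t, ?_, ?_, ?_, ?_, ?_, ?_⟩
      · rw [AlgEquiv.mul_apply, map_pow (τ ^ r t), hτρ, h1]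
      · rw [AlgEquiv.mul_apply, map_pow (τ ^ r t), hτρ, h2]
      · intro q hq hqT
        rw [Finset.mem_insert, not_or] at hqT
        rw [AlgEquiv.mul_apply, map_pow (τ ^ r t), hpow _ _ (hτa' q (hS q hq).1 hqT.1),
          h3 q hq hqT.2]
      · intro t' ht' htT'
        rw [Finset.mem_insert, not_or] at htT'
        rw [AlgEquiv.mul_apply, map_pow (τ ^ r t), hpow _ _ (hτa' t' ht' htT'.1),
          h4 t' ht' htT'.2]
      · intro q hq hqT
        by_cases hqt : q = t
        · subst hqt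
          constructor
          · rw [AlgEquiv.mul_apply, map_pow (τ ^ r q), hpa, mul_pow, ← pow_mul, mul_comm (r q) ρ,
              pow_mul, map_mul, map_pow s, h1, h3 q hq htT]
          · rw [AlgEquiv.mul_apply, map_pow (τ ^ r q), hpa, mul_pow, ← pow_mul, mul_comm (r q) m,
              pow_mul, map_mul, map_pow s, h2, h4 q (hS q hq).1 htT]
        · have hqT' : q ∈ T := (Finset.mem_insert.1 hqT).resolve_left hqt
          have h7 := hpow (r t) _ (hτa' q (hS q hq).1 hqt)
          constructor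
          · rw [AlgEquiv.mul_apply, map_pow (τ ^ r t), h7, (h5 q hq hqT').1]
          · rw [AlgEquiv.mul_apply, map_pow (τ ^ r t), h7, (h5 q hq hqT').2]
      · intro t' ht' htS'
        have hne : t' ≠ t := by rintro rfl; exact htS' htS
        have ht'' : t' ∈ T := (Finset.mem_insert.1 ht').resolve_left hne
        rw [AlgEquiv.mul_apply, map_pow (τ ^ r t),
          hpow _ _ (hτa' t' (hT t' ht').1 hne), h6 t' ht'' htS']
    · -- `t ∉ S`
      have hnt : ¬ P.rchar ∣ ρ := by rw [hP]; exact htρ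
      have hζ' : IsPrimitiveRoot (ζ ^ m) ρ := hζ.pow (Nat.mul_pos hm hρ) rfl
      have haρ : ∀ t' : ℕ, (a t' ^ m) ^ ρ = (t' : Om) := fun t' => by rw [← pow_mul, ha]
      obtain ⟨τ, hτ, hτa⟩ := exists_tame P hnt hζ' (a := a t ^ m) (by rw [haρ, hP])
      have hτζ : τ (ζ ^ m) = ζ ^ m := inertia_root P hτ hnt hζ'.pow_eq_one
      have hτa' : ∀ t' : ℕ, t'.Prime → t' ≠ t → τ (a t' ^ m) = a t' ^ m := by
        intro t' ht' hne
        have hk : ¬ P.rchar ∣ t' := by
          rw [hP]; intro h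
          exact hne ((Nat.prime_dvd_prime_iff_eq htp ht').1 h).symm
        exact inertia_fix_root P hnt hτ (v_radical P hρ.ne' hk (haρ t')) (by
          rw [haρ]; exact map_natCast τ t')
      have hpow : ∀ k : ℕ, ∀ x : Om, τ x = x → (τ ^ k) x = x := by
        intro k x hx
        induction k with
        | zero => rfl
        | succ k ih => rw [pow_succ, AlgEquiv.mul_apply, hx, ih]
      have hpa : ∀ k : ℕ, (τ ^ k) (a t ^ m) = (ζ ^ m) ^ k * a t ^ m := by
        intro k
        induction k with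
        | zero => simp
        | succ k ih => rw [pow_succ', AlgEquiv.mul_apply, ih, map_mul, map_pow τ, hτζ, hτa]; ring
      have he1 : (τ ^ e) (ζ ^ ρ) = ζ ^ ρ := he τ _ (Or.inl (by
        rw [← pow_mul, mul_comm ρ m, hζ.pow_eq_one]))
      have he2 : ∀ q ∈ S, (τ ^ e) (a q ^ ρ) = a q ^ ρ := fun q hq => he τ _ (Or.inr ⟨q, hq, by
        rw [← pow_mul, mul_comm ρ m, ha]⟩)
      refine ⟨s * τ ^ e, ?_, ?_, ?_, ?_, ?_, ?_⟩
      · rw [AlgEquiv.mul_apply, he1, h1]
      · rw [AlgEquiv.mul_apply, hpow e _ hτζ, h2]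
      · intro q hq hqT
        rw [Finset.mem_insert, not_or] at hqT
        rw [AlgEquiv.mul_apply, he2 q hq, h3 q hq hqT.2]
      · intro t' ht' htT'
        rw [Finset.mem_insert, not_or] at htT'
        rw [AlgEquiv.mul_apply, hpow e _ (hτa' t' ht' htT'.1), h4 t' ht' htT'.2]
      · intro q hq hqT
        have hqt : q ≠ t := by rintro rfl; exact htS hq
        have hqT' : q ∈ T := (Finset.mem_insert.1 hqT).resolve_left hqt
        constructor
        · rw [AlgEquiv.mul_apply, he2 q hq, (h5 q hq hqT').1]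
        · rw [AlgEquiv.mul_apply, hpow e _ (hτa' q (hS q hq).1 hqt), (h5 q hq hqT').2]
      · intro t' ht' htS'
        by_cases hne : t' = t
        · subst hne
          rw [AlgEquiv.mul_apply, hpa, map_mul, map_pow s, h2, h4 t' htp htT]
        · have ht'' : t' ∈ T := (Finset.mem_insert.1 ht').resolve_left hne
          rw [AlgEquiv.mul_apply, hpow e _ (hτa' t' (hT t' ht').1 hne), h6 t' ht'' htS']

end Crest.Agent.R018.PowResBx693
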