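import Mathlib
import Crest.Agent.R018.EndA_924
import Crest.Agent.R018.FDAdapt_389

/-!
# Row 18, CORE (E): reading power residue symbols from a Frobenius (helper693)
-/

set_option autoImplicit false

open Crest.Agent.R018.EndDefx924

namespace Crest.Agent.R018.PowResCx693

variable {l : ℕ} [hl : Fact l.Prime]

theorem root_integral {k : ℕ} (hk : k ≠ 0) {c : ℕ} {x : Om} (hx : x ^ k = (c : Om)) :
    IsIntegral ℤ x := by
  refine ⟨Polynomial.X ^ k - Polynomial.C (c : ℤ), Polynomial.monic_X_pow_sub_C _ hk, ?_⟩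
  simp [hx]

/-- a place is injective on roots of unity of order prime to `l` -/
theorem place_root_eq_one (P : Pl l Om) {k : ℕ} (hk : ¬ l ∣ k) (x : OO Om) (hx : x ^ k = 1)
    (h1 : P x = 1) : x = 1 := by
  by_contra hne
  have h2 := geom_sum_mul x k
  rw [hx, sub_self] at h2
  rcases mul_eq_zero.1 h2 with h3 | h3
  · have h4 := congrArg P h3
    rw [map_zero, map_sum] at h4
    simp only [map_pow, h1, one_pow, Finset.sum_const, Finset.card_range, nsmul_eq_mul,
      mul_one] at h4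
    exact hk ((CharP.cast_eq_zero_iff (AlgebraicClosure (ZMod l)) l k).1 h4)
  · exact hne (sub_eq_zero.1 h3)

/-- a Frobenius fixing a primitive `n`-th root of unity -/
theorem dvd_sub_one (P : Pl l Om) (g : Om ≃ₐ[ℚ] Om) (hg : IsFrobAt l P (g : Om →+* Om)) {n : ℕ}
    (hn : ¬ l ∣ n) {ζ : Om} (hζ : IsPrimitiveRoot ζ n) (hfix : g ζ = ζ) : n ∣ l - 1 := by
  have hn0 : n ≠ 0 := by rintro rfl; exact hn (dvd_zero _)
  let z : OO Om := ⟨ζ, root_integral hn0 (c := 1) (by rw [hζ.pow_eq_one]; simp)⟩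
  have hz : z ^ n = 1 := Subtype.ext (by simpa [z] using hζ.pow_eq_one)
  have hgz : mapO (g : Om →+* Om) z = z := Subtype.ext hfix
  have h1 : P z = P z ^ l := by
    have := hg z
    rw [hgz] at this
    exact this
  have hPz : P z ≠ 0 := by
    intro h
    have := congrArg P hz
    rw [map_pow, h, zero_pow hn0, map_one] at this
    exact zero_ne_one this
  have h2 : P z ^ (l - 1) = 1 := by
    have h3 : P z ^ (l - 1) * P z = 1 * P z := by
      rw [← pow_succ, Nat.sub_add_cancel hl.out.one_le, ← h1, one_mul]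
    exact mul_right_cancel₀ hPz h3
  have h3 : z ^ (l - 1) = 1 := by
    apply place_root_eq_one P hn
    · rw [← pow_mul, mul_comm, pow_mul, hz, one_pow]
    · rw [map_pow, h2]
  have h4 : ζ ^ (l - 1) = 1 := by
    have := congrArg Subtype.val h3
    simpa [z] using this
  exact hζ.dvd_of_pow_eq_one _ h4

/-- **power residues and Frobenius** -/
theorem isPow_iff (P : Pl l Om) (g : Om ≃ₐ[ℚ] Om) (hg : IsFrobAt l P (g : Om →+* Om)) {k c : ℕ}
    (hk : k ∣ l - 1) (hc : ¬ l ∣ c) {x : Om} (hx : x ^ k = (c : Om)) :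
    (∃ y : ZMod l, y ^ k = (c : ZMod l)) ↔ g x = x := by
  have hl1 : 0 < l - 1 := Nat.sub_pos_of_lt hl.out.one_lt
  have hk0 : k ≠ 0 := by rintro rfl; exact hl1.ne' (zero_dvd_iff.1 hk)
  have hkl : ¬ l ∣ k := by
    intro h
    have := Nat.le_of_dvd hl1 (h.trans hk)
    omega
  let z : OO Om := ⟨x, root_integral hk0 hx⟩
  have hz : z ^ k = ((c : ℕ) : OO Om) := Subtype.ext (by simpa [z] using hx)
  have hcP : ((c : ℕ) : AlgebraicClosure (ZMod l)) ≠ 0 := by
    intro h
    exact hc ((CharP.cast_eq_zero_iff (AlgebraicClosure (ZMod l)) l c).1 h)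
  have hPz : P z ^ k = ((c : ℕ) : AlgebraicClosure (ZMod l)) := by
    rw [← map_pow, hz, map_natCast]
  have hPz0 : P z ≠ 0 := by
    intro h
    rw [h, zero_pow hk0] at hPz
    exact hcP hPz.symm
  constructor
  · rintro ⟨y, hy⟩
    let y' : AlgebraicClosure (ZMod l) := algebraMap (ZMod l) (AlgebraicClosure (ZMod l)) y
    have hy' : y' ^ k = ((c : ℕ) : AlgebraicClosure (ZMod l)) := by
      rw [← map_pow, hy, map_natCast]
    have hy0 : y' ≠ 0 := by
      intro h
      rw [h, zero_pow hk0] at hy'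
      exact hcP hy'.symm
    have h1 : (P z / y') ^ k = 1 := by
      rw [div_pow, hPz, hy', div_self hcP]
    have h2 : (P z / y') ^ (l - 1) = 1 := by
      obtain ⟨w, hw⟩ := hk
      rw [hw, pow_mul, h1, one_pow]
    have h3 : (P z / y') ^ l = P z / y' := by
      have h31 : (P z / y') ^ l = (P z / y') ^ ((l - 1) + 1) := by
        rw [Nat.sub_add_cancel hl.out.one_le]
      rw [h31, pow_succ, h2, one_mul]
    have h4 : y' ^ l = y' := by
      rw [← map_pow, ZMod.pow_card]
    have h5 : P z ^ l = P z := by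
      rw [div_pow, h4] at h3
      field_simp at h3
      exact h3
    have h6 : P (mapO (g : Om →+* Om) z) = P z := by rw [hg z, h5]
    -- the quotient
    have hx0 : x ≠ 0 := by
      rintro rfl
      apply hPz0
      have : z = 0 := Subtype.ext rfl
      rw [this, map_zero]
    have h7 : (g x / x) ^ k = 1 := by
      rw [div_pow, ← map_pow, hx, map_natCast]
      refine div_self ?_
      intro h
      rw [h] at hx
      exact hx0 (pow_eq_zero_iff hk0 |>.1 hx)
    let η : OO Om := ⟨g x / x, root_integral hk0 (c := 1) (by rw [h7]; simp)⟩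
    have h8 : η ^ k = 1 := Subtype.ext (by simpa [η] using h7)
    have h9 : η * z = mapO (g : Om →+* Om) z := Subtype.ext (div_mul_cancel₀ _ hx0)
    have h10 : P η = 1 := by
      have := congrArg P h9
      rw [map_mul, h6] at this
      have h11 : P η * P z = 1 * P z := by rw [this, one_mul]
      exact mul_right_cancel₀ hPz0 h11
    have h11 := place_root_eq_one P hkl η h8 h10
    have h12 : g x / x = 1 := by
      have := congrArg Subtype.val h11
      simpa [η] using this
    exact (div_eq_one_iff_eq hx0).1 h12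
  · intro hfix
    have hgz : mapO (g : Om →+* Om) z = z := Subtype.ext hfix
    have h1 : P z ^ l = P z := by
      have := hg z
      rw [hgz] at this
      exact this.symm
    obtain ⟨w, hw⟩ := Crest.Agent.R018.EndAx924.eq_intCast_of_pow h1
    refine ⟨(w : ZMod l), ?_⟩
    apply (algebraMap (ZMod l) (AlgebraicClosure (ZMod l))).injective
    rw [map_pow, map_intCast, map_natCast, ← hw, hPz]

/-! ### cyclic groups -/

/-- in a cyclic group of order `N`, `m ∣ N`, an element which is not a `u`-th power for any prime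
`u ∣ m` has order divisible by `m` -/
theorem dvd_orderOf {G : Type*} [CommGroup G] [Finite G] [IsCyclic G] {m : ℕ}
    (hm : m ∣ Nat.card G) (x : G) (h : ∀ u : ℕ, u.Prime → u ∣ m → ¬ ∃ y : G, y ^ u = x) :
    m ∣ orderOf x := by
  obtain ⟨g, hg⟩ := IsCyclic.exists_generator (α := G)
  obtain ⟨j, hj⟩ := (mem_powers_iff_mem_zpowers.2 (hg x))
  have hord : orderOf g = Nat.card G := orderOf_eq_card_of_forall_mem_zpowers hg
  have h1 : orderOf x = Nat.card G / Nat.gcd (Nat.card G) j := by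
    rw [← hj, orderOf_pow, hord]
  set N := Nat.card G with hN
  have hN0 : 0 < N := Nat.card_pos
  set d := Nat.gcd N j with hd
  have hdN : d ∣ N := Nat.gcd_dvd_left _ _
  have h2 : N = d * orderOf x := by
    rw [h1, Nat.mul_div_cancel' hdN]
  have hcop : Nat.Coprime m d := by
    rw [Nat.coprime_iff_gcd_eq_one]
    by_contra hne
    obtain ⟨u, hu, hud⟩ := Nat.exists_prime_and_dvd hne
    have hum : u ∣ m := hud.trans (Nat.gcd_dvd_left _ _)
    have huj : u ∣ j := (hud.trans (Nat.gcd_dvd_right _ _)).trans (Nat.gcd_dvd_right _ _)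
    obtain ⟨w, hw⟩ := huj
    refine h u hu hum ⟨g ^ w, ?_⟩
    rw [← pow_mul, mul_comm, ← hw]
    exact hj
  exact hcop.dvd_of_dvd_mul_left (by rw [← h2]; exact hm)

/-- modular form -/
theorem modEq_of_pow_eq {m q : ℕ} (hm : m ∣ l - 1) (hql : ¬ l ∣ q)
    (h : ∀ u : ℕ, u.Prime → u ∣ m → ¬ ∃ y : ZMod l, y ^ u = (q : ZMod l)) (a b : ℕ)
    (hab : (q : ZMod l) ^ a = (q : ZMod l) ^ b) : a ≡ b [MOD m] := by
  have hq0 : (q : ZMod l) ≠ 0 := by
    rw [Ne, ZMod.natCast_eq_zero_iff]; exact hql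
  let x : (ZMod l)ˣ := Units.mk0 _ hq0
  have hcard : Nat.card (ZMod l)ˣ = l - 1 := by
    rw [Nat.card_eq_fintype_card, ZMod.card_units]
  have h1 : m ∣ orderOf x := by
    apply dvd_orderOf (by rw [hcard]; exact hm)
    rintro u hu hum ⟨y, hy⟩
    exact h u hu hum ⟨y, by rw [← Units.val_pow_eq_pow_val, hy]; rfl⟩
  have h2 : x ^ a = x ^ b := Units.ext (by simpa [x] using hab)
  exact (pow_eq_pow_iff_modEq.1 h2).of_dvd h1

/-- if `q` is an `r`-th power and `p` is not, then `p ^ f` is not a power of `q` for `0 < f < r` -/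
theorem pow_ne_of_not_pow {r p q : ℕ} (hr : r.Prime)
    (hpl : ¬ l ∣ p) (hq : ∃ y : ZMod l, y ^ r = (q : ZMod l))
    (hp : ¬ ∃ y : ZMod l, y ^ r = (p : ZMod l)) (f j : ℕ) (hf : 0 < f) (hfr : f < r) :
    (p : ZMod l) ^ f ≠ (q : ZMod l) ^ j := by
  intro h
  obtain ⟨y, hy⟩ := hq
  have hp0 : (p : ZMod l) ≠ 0 := by
    rw [Ne, ZMod.natCast_eq_zero_iff]; exact hpl
  have hcop : IsCoprime (f : ℤ) (r : ℤ) := by
    rw [Nat.isCoprime_iff_coprime]
    exact ((Nat.Prime.coprime_iff_not_dvd hr).2 (Nat.not_dvd_of_pos_of_lt hf hfr)).symm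
  obtain ⟨a, b, hab⟩ := hcop
  apply hp
  refine ⟨(y ^ j) ^ a * (p : ZMod l) ^ b, ?_⟩
  have h1 : ((y ^ j) ^ r) = (p : ZMod l) ^ f := by
    rw [h, ← hy, ← pow_mul, ← pow_mul, mul_comm]
  rw [mul_pow, ← zpow_natCast ((y ^ j) ^ a), ← zpow_mul, mul_comm a, zpow_mul, zpow_natCast, h1,
    ← zpow_natCast ((p : ZMod l) ^ b), ← zpow_mul, ← zpow_natCast (p : ZMod l) f, ← zpow_mul,
    ← zpow_add₀ hp0, mul_comm (f : ℤ) a, hab, zpow_one]

end Crest.Agent.R018.PowResCx693
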