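import Mathlib
import Crest.Agent.R018.LChoiceDef_693
import Crest.Agent.R018.PowResB_693
import Crest.Agent.R018.PowResC_693

/-!
# Row 18, CORE (E): proof of `LChoice` (helper693)
-/

set_option autoImplicit false

open NumberField
open Crest.Agent.R018.EndDefx924
open Crest.Agent.R018.LChoiceDefx693 Crest.Agent.R018.PowResBx693 Crest.Agent.R018.PowResCx693

namespace Crest.Agent.R018.LChoicex693

/-- a finite Galois field containing finitely many radicals -/
theorem exists_field (n : ℕ) (hn : 0 < n) (A : Finset ℕ) :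
    ∃ N : IntermediateField ℚ Om, FiniteDimensional ℚ N ∧ IsGalois ℚ N ∧
      ∀ x : Om, (x ^ n = 1 ∨ ∃ q ∈ A, x ^ n = (q : Om)) → x ∈ N := by
  classical
  let f : Polynomial ℚ := (Polynomial.X ^ n - 1) * ∏ q ∈ A, (Polynomial.X ^ n - Polynomial.C (q : ℚ))
  have hf0 : f ≠ 0 := by
    refine mul_ne_zero ?_ (Finset.prod_ne_zero_iff.2 fun q _ => ?_)
    · have := Polynomial.X_pow_sub_C_ne_zero (R := ℚ) hn 1
      simpa using this
    · exact Polynomial.X_pow_sub_C_ne_zero hn _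
  let N := IntermediateField.adjoin ℚ (f.rootSet Om)
  have hs : (f.map (algebraMap ℚ Om)).Splits := IsAlgClosed.splits _
  have hN : Polynomial.IsSplittingField ℚ N f :=
    IntermediateField.adjoin_rootSet_isSplittingField hs
  have hNn : Normal ℚ N := Normal.of_isSplittingField f
  have hNf : FiniteDimensional ℚ N := Polynomial.IsSplittingField.finiteDimensional N f
  refine ⟨N, hNf, ⟨⟩, fun x hx => ?_⟩
  apply IntermediateField.subset_adjoin
  rw [Polynomial.mem_rootSet_of_ne hf0]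
  simp only [f, map_mul, map_prod, map_sub, map_pow, Polynomial.aeval_X, map_one,
    Polynomial.aeval_C]
  rcases hx with hx | ⟨q, hq, hx⟩
  · rw [hx, sub_self, zero_mul]
  · rw [Finset.prod_eq_zero hq, mul_zero]
    rw [hx]; simp

theorem lchoice : LChoice := by
  classical
  intro m hm
  refine ⟨m, fun S hS T₀ hT₀ R B => ?_⟩
  -- work with `T = T₀ ∪ S`
  set T : Finset ℕ := T₀ ∪ S with hTdef
  have hT : ∀ t ∈ T, t.Prime := by
    intro t ht
    rcases Finset.mem_union.1 ht with h | h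
    · exact hT₀ t h
    · exact (hS t h).1
  obtain ⟨e, he0, he⟩ := exists_exponent m hm S
  -- the primes `r q`
  let C : ℕ := R + m + e + ∑ t ∈ T, t
  let r : ℕ → ℕ := fun q => Nat.nth Nat.Prime (C + q)
  have hrp : ∀ q, (r q).Prime := fun q => Nat.prime_nth_prime _
  have hrC : ∀ q, C < r q := fun q => by
    have := Nat.add_two_le_nth_prime (C + q)
    simp only [r]; omega
  have hrinj : Function.Injective r := by
    intro q q' h
    have := Nat.nth_injective Nat.infinite_setOfPred_prime h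
    omega
  have hTC : ∀ t ∈ T, t ≤ C := by
    intro t ht
    have h1 : t ≤ ∑ t ∈ T, t :=
      Finset.single_le_sum (f := fun t : ℕ => t) (fun _ _ => Nat.zero_le _) ht
    omega
  set ρ : ℕ := ∏ q ∈ S, r q with hρdef
  have hρ : 0 < ρ := Finset.prod_pos fun q _ => (hrp q).pos
  have hrρ : ∀ q ∈ S, r q ∣ ρ := fun q hq => Finset.dvd_prod_of_mem _ hq
  have hTρ : ∀ t ∈ T, ¬ t ∣ ρ := by
    intro t ht h
    obtain ⟨q, hq, hq2⟩ := (Prime.dvd_finsetProd_iff (hT t ht).prime _).1 h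
    have h1 := (Nat.prime_dvd_prime_iff_eq (hT t ht) (hrp q)).1 hq2
    have h2 := hTC t ht
    have h3 := hrC q
    omega
  have hSm : ∀ q ∈ S, ¬ q ∣ m * ρ := by
    intro q hq h
    rcases (Nat.Prime.dvd_mul (hS q hq).1).1 h with h | h
    · have := Nat.le_of_dvd hm h
      have := (hS q hq).2
      omega
    · exact hTρ q (Finset.mem_union_right _ hq) h
  have hmρ : 0 < m * ρ := Nat.mul_pos hm hρ
  have hnz : NeZero ((m * ρ : ℕ) : Om) := ⟨by exact_mod_cast hmρ.ne'⟩
  obtain ⟨ζ, hζ⟩ : ∃ ζ : Om, IsPrimitiveRoot ζ (m * ρ) :=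
    HasEnoughRootsOfUnity.exists_primitiveRoot Om (m * ρ)
  have hex : ∀ t : ℕ, ∃ x : Om, x ^ (m * ρ) = (t : Om) := fun t =>
    IsAlgClosed.exists_pow_nat_eq _ hmρ
  choose a ha using hex
  obtain ⟨s, s1, s2, -, -, s5, s6⟩ := exists_aut m ρ e hm hρ S r he
    (fun q hq => ⟨(hS q hq).1, hSm q hq⟩) ζ hζ a ha T (fun t ht => ⟨hT t ht, hTρ t ht⟩)
  obtain ⟨N, hNf, hNg, hN⟩ := exists_field (m * ρ) hmρ T
  have hζN : ζ ∈ N := hN ζ (Or.inl hζ.pow_eq_one)
  have haN : ∀ t ∈ T, a t ∈ N := fun t ht => hN _ (Or.inr ⟨t, ht, ha t⟩)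
  obtain ⟨l, hlf, hBl, -, P, g, hg, ⟨k1, hk1⟩, ⟨k2, hk2⟩⟩ :=
    Crest.Agent.R018.FDAdaptx389.fd_univ N s (B + m * ρ + C)
  have hlT : ∀ t ∈ T, ¬ l ∣ t := by
    intro t ht h
    have h1 := Nat.le_of_dvd (hT t ht).pos h
    have h2 := hTC t ht
    omega
  have hlmρ : ¬ l ∣ m * ρ := by
    intro h
    have := Nat.le_of_dvd hmρ h
    omega
  -- fixed points of `g` and `s`
  have hpow : ∀ (h : Om ≃ₐ[ℚ] Om) (x : Om), h x = x → ∀ k : ℕ, (h ^ k) x = x := by
    intro h x hx k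
    induction k with
    | zero => rfl
    | succ k ih => rw [pow_succ, AlgEquiv.mul_apply, hx, ih]
  have hfix : ∀ x ∈ N, g x = x ↔ s x = x := by
    intro x hx
    constructor
    · intro h; rw [hk1 x hx]; exact hpow g x h k1
    · intro h; rw [hk2 x hx]; exact hpow s x h k2
  have hζρN : ζ ^ ρ ∈ N := pow_mem hζN ρ
  have hζmN : ζ ^ m ∈ N := pow_mem hζN m
  have hζm : IsPrimitiveRoot (ζ ^ ρ) m := hζ.pow hmρ (mul_comm m ρ)
  have hζρ : IsPrimitiveRoot (ζ ^ m) ρ := hζ.pow hmρ rfl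
  have hml : m ∣ l - 1 := dvd_sub_one P g hg (fun h => hlmρ (h.mul_right _)) hζm
    ((hfix _ hζρN).2 s1)
  have hρl : ρ ∣ l - 1 := dvd_sub_one P g hg (fun h => hlmρ (h.mul_left _)) hζρ
    ((hfix _ hζmN).2 s2)
  refine ⟨l, hlf.out, by omega, hml, fun q hq => ⟨?_, ?_⟩⟩
  · have hqT : q ∈ T := Finset.mem_union_right _ hq
    intro x y hxy
    refine modEq_of_pow_eq hml (hlT q hqT) ?_ x y hxy
    intro u hu hum
    obtain ⟨w, hw⟩ := hum
    have hw0 : 0 < w := Nat.pos_of_ne_zero (by rintro rfl; omega)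
    have hx : ((a q ^ ρ) ^ w) ^ u = (q : Om) := by
      rw [← ha q, ← pow_mul, ← pow_mul, hw]
      congr 1; ring
    have hxN : (a q ^ ρ) ^ w ∈ N := pow_mem (pow_mem (haN q hqT) _) _
    rw [isPow_iff P g hg ((Dvd.intro _ hw.symm).trans hml) (hlT q hqT) hx, hfix _ hxN]
    intro hs
    rw [map_pow, (s5 q hq hqT).1, mul_pow, ← pow_mul] at hs
    have hne : (a q ^ ρ) ^ w ≠ 0 := by
      intro h
      rw [h, zero_pow hu.ne_zero] at hx
      exact (hS q hq).1.ne_zero (by exact_mod_cast hx.symm)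
    have h1 : (ζ ^ ρ) ^ (r q * w) = 1 := mul_right_cancel₀ hne (by rw [one_mul]; exact hs)
    have h2 : u * w ∣ r q * w := by
      rw [← hw]; exact hζm.dvd_of_pow_eq_one _ h1
    have h3 : u ∣ r q := Nat.dvd_of_mul_dvd_mul_right hw0 h2
    have h4 := (Nat.prime_dvd_prime_iff_eq hu (hrp q)).1 h3
    have h5 : u ≤ m := Nat.le_of_dvd hm (Dvd.intro _ hw.symm)
    have h6 := hrC q
    omega
  · intro p hp hpq f j hf hfR
    have hqT : q ∈ T := Finset.mem_union_right _ hq
    have hpT : p ∈ T := Finset.mem_union_left _ hp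
    obtain ⟨w, hw⟩ := hrρ q hq
    have hw0 : 0 < w := Nat.pos_of_ne_zero (by rintro rfl; omega)
    have hrl : r q ∣ l - 1 := (hrρ q hq).trans hρl
    refine pow_ne_of_not_pow (hrp q) (hlT p hpT) ?_ ?_ f j hf (by have := hrC q; omega)
    · have hx : ((a q ^ m) ^ w) ^ (r q) = (q : Om) := by
        rw [← ha q, ← pow_mul, ← pow_mul, hw]
        congr 1; ring
      have hxN : (a q ^ m) ^ w ∈ N := pow_mem (pow_mem (haN q hqT) _) _
      rw [isPow_iff P g hg hrl (hlT q hqT) hx, hfix _ hxN, map_pow, (s5 q hq hqT).2, mul_pow,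
        ← pow_mul, ← hw, hζρ.pow_eq_one, one_mul]
    · have hx : ((a p ^ m) ^ w) ^ (r q) = (p : Om) := by
        rw [← ha p, ← pow_mul, ← pow_mul, hw]
        congr 1; ring
      have hxN : (a p ^ m) ^ w ∈ N := pow_mem (pow_mem (haN p hpT) _) _
      rw [isPow_iff P g hg hrl (hlT p hpT) hx, hfix _ hxN]
      -- the exponent
      obtain ⟨E, hE, hsE⟩ : ∃ E : ℕ, ¬ r q ∣ E ∧ s (a p ^ m) = (ζ ^ m) ^ E * a p ^ m := by
        by_cases hpS : p ∈ S
        · refine ⟨r p, ?_, (s5 p hpS hpT).2⟩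
          intro h
          exact hpq (hrinj ((Nat.prime_dvd_prime_iff_eq (hrp q) (hrp p)).1 h)).symm
        · refine ⟨e, ?_, s6 p hpT hpS⟩
          intro h
          have h1 := Nat.le_of_dvd he0 h
          have h2 := hrC q
          omega
      intro hs
      rw [map_pow, hsE, mul_pow, ← pow_mul] at hs
      have hne : (a p ^ m) ^ w ≠ 0 := by
        intro h
        rw [h, zero_pow (hrp q).ne_zero] at hx
        exact (hT p hpT).ne_zero (by exact_mod_cast hx.symm)
      have h1 : (ζ ^ m) ^ (E * w) = 1 := mul_right_cancel₀ hne (by rw [one_mul]; exact hs)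
      have h2 : r q * w ∣ E * w := by
        rw [← hw]; exact hζρ.dvd_of_pow_eq_one _ h1
      exact hE (Nat.dvd_of_mul_dvd_mul_right hw0 h2)

end Crest.Agent.R018.LChoicex693
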