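import Crest.Agent.R018.GLit_791
import Crest.Agent.R018.SvClosed_820
import Crest.Agent.R018.EndA_245

/-!
# Row 18: `Core_74.LemmaG` holds unconditionally (helper791)
-/

set_option autoImplicit false

namespace Crest.Agent.R018.LemmaGx791

open Crest.Agent.R018.Corex74

/-- **LEMMA G** -/
theorem lemmaG_holds : LemmaG :=
  GLitx791.lemmaG_of_sqrt
    (EndAx245.exists_sq_of_solvablyClosed SvClosedx820.isSolvablyClosed_Sv)

end Crest.Agent.R018.LemmaGx791
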