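import Mathlib
import Crest.Agent.R018.TameE_31

/-!
# Burnside for inertia groups (row 18, helper925)

Every finite quotient of order divisible by `ℓ` of a group of inertia automorphisms
(`ℓ` invertible in the residue field) has a quotient of order `ℓ`.
-/

set_option autoImplicit false

namespace Crest.Agent.R018.LocBurnx925

open Crest.Agent.R018.Tamex31

variable {F E : Type*} [Field F] [Field E] [Algebra F E]

theorem exists_hom_zmod {l : ℕ} [hl : Fact l.Prime] {C : Type*} [Group C] [Finite C] [IsCyclic C]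
    (h : l ∣ Nat.card C) : ∃ f : C →* Multiplicative (ZMod l), Function.Surjective f := by
  have hn0 : Nat.card C ≠ 0 := Nat.card_pos.ne'
  haveI : NeZero (Nat.card C) := ⟨hn0⟩
  have e : C ≃* Multiplicative (ZMod (Nat.card C)) :=
    mulEquivOfCyclicCardEq (by simp)
  let g : Multiplicative (ZMod (Nat.card C)) →* Multiplicative (ZMod l) :=
    AddMonoidHom.toMultiplicative (ZMod.castHom h (ZMod l)).toAddMonoidHom
  refine ⟨g.comp e.toMonoidHom, ?_⟩
  have hg : Function.Surjective g := by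
    intro y
    obtain ⟨x, hx⟩ := ZMod.castHom_surjective h (Multiplicative.toAdd y)
    exact ⟨Multiplicative.ofAdd x, congrArg Multiplicative.ofAdd hx⟩
  exact hg.comp e.surjective

/-- (C0) -/
theorem exists_quotient [IsGalois F E] {A : ValuationSubring E} (hA : RankOne A)
    {V : Subgroup (E ≃ₐ[F] E)} (hV : V ≤ inS F A) {l : ℕ} [hl : Fact l.Prime]
    (hlA : A.valuation (l : E) = 1) (hζ : ∀ n : ℕ, ∃ ζ : E, IsPrimitiveRoot ζ (l ^ n))
    {H : Type*} [Group H] [Finite H] (π : V →* H) (hπ : OpenKer π)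
    (hsurj : Function.Surjective π) (hlH : l ∣ Nat.card H) :
    ∃ f : H →* Multiplicative (ZMod l), Function.Surjective f := by
  classical
  obtain ⟨ω, hω⟩ := hζ 1
  rw [pow_one] at hω
  obtain ⟨P⟩ : Nonempty (Sylow l H) := inferInstance
  -- the preimage of `P`
  let V' : Subgroup (E ≃ₐ[F] E) := ((P : Subgroup H).comap π).map V.subtype
  have hV'V : V' ≤ V := by
    rintro _ ⟨v, -, rfl⟩
    exact v.2
  have hV' : V' ≤ inS F A := hV'V.trans hV
  have hmem : ∀ v : V', π ⟨v, hV'V v.2⟩ ∈ (P : Subgroup H) := by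
    rintro ⟨_, ⟨v, hv, rfl⟩⟩
    exact hv
  let π' : V' →* (P : Subgroup H) := (π.comp (Subgroup.inclusion hV'V)).codRestrict _ hmem
  have hπ' : OpenKer π' := by
    obtain ⟨L, hL, h⟩ := hπ.restrict hV'V
    exact ⟨L, hL, fun u hu => Subtype.ext (h u hu)⟩
  have hsurj' : Function.Surjective π' := by
    rintro ⟨p, hp⟩
    obtain ⟨v, rfl⟩ := hsurj p
    exact ⟨⟨v, ⟨v, hp, rfl⟩⟩, Subtype.ext rfl⟩
  haveI hcyc : IsCyclic (P : Subgroup H) :=
    isCyclic_of_inertia hA hV' hlA hω P.isPGroup' π' hπ' hsurj'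
  obtain ⟨n, hn⟩ := IsPGroup.iff_card.mp P.isPGroup'
  obtain ⟨ζ, hζn⟩ := hζ n
  -- the normalizer acts trivially
  have hP : Subgroup.normalizer (P : Set H) ≤ Subgroup.centralizer (P : Set H) := by
    intro g hg
    obtain ⟨s, rfl⟩ := hsurj g
    have hsV : ∀ x ∈ V', (s : E ≃ₐ[F] E) * x * (s : E ≃ₐ[F] E)⁻¹ ∈ V' := by
      rintro _ ⟨v, hv, rfl⟩
      refine ⟨s * v * s⁻¹, ?_, by simp⟩
      have h1 := (Subgroup.mem_normalizer_iff.1 hg (π v)).1 hv
      change π (s * v * s⁻¹) ∈ (P : Subgroup H)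
      rw [map_mul, map_mul, map_inv]
      exact h1
    rw [Subgroup.mem_centralizer_iff]
    intro p hp
    obtain ⟨⟨x, hx⟩, hx'⟩ := hsurj' ⟨p, hp⟩
    have hval : A.valuation ((l ^ n : ℕ) : E) = 1 := val_pow_natCast_eq_one hlA n
    have hsζ : (s : E ≃ₐ[F] E) ζ = ζ ^ 1 := by
      rw [pow_one]
      exact in_fix_root (hV s.2) hval hζn.pow_eq_one
    have h1 := conj_eq_pow hV' hval hζn (by rw [hn]) π' hπ' (inS_le_decS A (hV s.2)) hsV hsζ
      ⟨x, hx⟩
    rw [pow_one, hx'] at h1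
    have h2 := congrArg Subtype.val h1
    have h3 : π s * p * (π s)⁻¹ = p := by
      have h4 : π ⟨x, hV'V hx⟩ = p := congrArg Subtype.val hx'
      have h5 : π (s * ⟨x, hV'V hx⟩ * s⁻¹) = p := h2
      rw [map_mul, map_mul, map_inv, h4] at h5
      exact h5
    rw [mul_inv_eq_iff_eq_mul] at h3
    exact h3.symm
  have hdvd : l ∣ Nat.card (P : Subgroup H) := by
    have := P.dvd_card_of_dvd_card hlH
    exact this
  obtain ⟨f, hf⟩ := exists_hom_zmod hdvd
  have hbij : Function.Bijective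
      ((MonoidHom.transferSylow P hP).domRestrict (P : Subgroup H)) :=
    (MonoidHom.transferSylow_domRestrict_eq_pow P hP).symm ▸
      (P.2.powEquiv' P.not_dvd_index).bijective
  refine ⟨f.comp (MonoidHom.transferSylow P hP), hf.comp ?_⟩
  intro p
  obtain ⟨x, hx⟩ := hbij.2 p
  exact ⟨x, hx⟩

end Crest.Agent.R018.LocBurnx925
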