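import Crest.Agent.R018.Step2C_924
import Crest.Agent.R018.LocDef_31

/-!
# Row 18, STEP 2, part D: helper31's `Loc` gives `LOC` (helper924)
-/

set_option autoImplicit false

open Crest.NumberTheoryR Crest.Agent.R018.EndDefx924 NumberField
open Crest.Agent.R018.Placesx484 Crest.Agent.R018.LocDefx31
open scoped Pointwise

universe u₁ u₂ v₁ v₂

namespace Crest.Agent.R018.Step2x924

/-- helper31's local correspondence for all `F₁ F₂ E₂` and all odd `l`. -/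
def LocAll : Prop :=
  ∀ (F₁ : Type u₁) (F₂ : Type u₂) (E₂ : Type v₂) [Field F₁] [NumberField F₁] [Field F₂]
    [NumberField F₂] [Field E₂] [Algebra F₂ E₂] [IsGalois F₂ E₂] [Algebra F₁ Om],
    IsSolvablyClosed E₂ →
    ∀ α : (Om ≃ₐ[F₁] Om) →* (E₂ ≃ₐ[F₂] E₂), Continuous α → Function.Surjective α →
      ∀ l : ℕ, l.Prime → l ≠ 2 → Loc Om E₂ α l

theorem loc_of_locAll (h : LocAll.{u₁, u₂, v₂}) : LOC.{u₁, u₂, v₂} := by
  intro F₁ F₂ E₂ _ _ _ _ _ _ _ _ hsc α hα hs r hr hr2 P hP hhit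
  obtain ⟨s, hsI, N, hN, hNo, hNr⟩ := hhit
  have hS1 : S1 α r P := by
    refine ⟨?_, s, ?_, N, hN, hNo, hNr⟩
    · intro hmem
      exact hP (P.rchar_eq_of_mem hr hmem)
    · intro x
      exact hsI x
  obtain ⟨Q, -, hQ, -⟩ := h F₁ F₂ E₂ hsc α hα hs r hr hr2 P hS1
  exact ⟨Q, hQ⟩

/-- **S0024** from `TheoremA` and helper31's `Loc`. -/
theorem s0024_of' (hA : TheoremA) (hloc : LocAll.{u₁, v₂, v₂})
    (F₁ : Type u₁) (F₂ : Type u₂) (E₁ : Type v₁) (E₂ : Type v₂) [Field F₁] [NumberField F₁]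
    [Field F₂] [NumberField F₂] [Field E₁] [Algebra F₁ E₁] [IsGalois F₁ E₁] [Field E₂]
    [Algebra F₂ E₂] [IsGalois F₂ E₂] (h₂ : IsSolvablyClosed E₂)
    (α : (E₁ ≃ₐ[F₁] E₁) →* (E₂ ≃ₐ[F₂] E₂)) (hα : Continuous α) (hopen : IsOpen (Set.range α)) :
    ∃ j : E₂ →+* E₁, ∀ g : E₁ ≃ₐ[F₁] E₁, ∀ x : E₂, g (j x) = j (α g x) :=
  s0024_of hA (loc_of_locAll hloc) F₁ F₂ E₁ E₂ h₂ α hα hopen

end Crest.Agent.R018.Step2x924
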