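import Crest.Agent.R018.LCE_484
import Crest.Agent.R018.LocConv_31
import Crest.Agent.R018.CycFT_925
import Crest.Agent.R018.Step2D_924

/-!
# Row 18: the local correspondence in the shapes used by the other files (helper925)

Instantiations of helper484's `LCEx484.main`.
-/

set_option autoImplicit false

open NumberField Pointwise
open Crest.NumberTheoryR
open Crest.Agent.R018.Placesx484 Crest.Agent.R018.LocDefx31

namespace Crest.Agent.R018.LocInstx925

universe u₁ u₂ v₁ v₂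

/-- the local correspondence for solvably closed `E₂` -/
theorem loc_of {F₁ E₁ F₂ E₂ : Type*} [Field F₁] [NumberField F₁] [Field E₁] [CharZero E₁]
    [Algebra.IsAlgebraic ℚ E₁] [Algebra F₁ E₁] [IsGalois F₁ E₁] [Field F₂] [Field E₂] [CharZero E₂]
    [Algebra.IsAlgebraic ℚ E₂] [Algebra F₂ E₂] [IsGalois F₂ E₂]
    (hr₁ : ∀ n : ℕ, n ≠ 0 → ∃ ζ : E₁, IsPrimitiveRoot ζ n) (hsc : IsSolvablyClosed E₂)
    (α : (E₁ ≃ₐ[F₁] E₁) →* (E₂ ≃ₐ[F₂] E₂)) (hα : Continuous α) (l : ℕ) (hl : l.Prime)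
    (hl2 : l ≠ 2) : Loc E₁ E₂ α l := by
  intro P hS1
  obtain ⟨hP, x, hx, N, -, hNo, hN⟩ := hS1
  have hPl : P.rchar ≠ l := by
    intro h
    apply hP
    rw [← h]
    exact P.rchar_mem
  obtain ⟨Q, hQl, h1, h2, h3⟩ := LCEx484.main (α := α) hα hl hl2
    (fun n => hr₁ _ (pow_ne_zero n hl.ne_zero))
    (fun n => Kumx568.exists_primitiveRoot hsc _ (pow_ne_zero n hl.ne_zero))
    (fun y => Kumx568.exists_pow_eq hsc l hl.ne_zero y) P hPl hx hNo hN
  refine ⟨Q, ?_, h1, h2, ?_⟩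
  · intro hmem
    exact hQl (Q.rchar_eq_of_mem hl hmem)
  · intro n d hd c hc z hz
    exact h3 d hd n c hc z hz

open Crest.Agent.R018.EndDefx924 (Om)
open Crest.Agent.R018.Corex74

theorem exists_prim_Om (n : ℕ) (hn : n ≠ 0) : ∃ ζ : Om, IsPrimitiveRoot ζ n := by
  haveI : NeZero n := ⟨hn⟩
  exact HasEnoughRootsOfUnity.exists_primitiveRoot Om n

/-- **LOC** for `(Om ≃ₐ[F₁] Om) →* SG` -/
theorem locF : LocConvx31.LocF := by
  intro F₁ hfd α hα l hl hl2 P hPl hx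
  haveI : NumberField F₁ := NumberField.of_module_finite ℚ F₁
  haveI : IsGalois F₁ Om := LCEndx925.isGalois_Om F₁
  haveI : Algebra.IsAlgebraic ℚ Om := inferInstance
  obtain ⟨x, hxI, N, -, hNo, hN⟩ := hx
  obtain ⟨Q, hQl, h1, h2, h3⟩ := LCEx484.main (α := α) hα hl hl2
    (fun n => exists_prim_Om _ (pow_ne_zero n hl.ne_zero))
    (fun n => Kumx568.exists_primitiveRoot CycFTx925.sv_isSolvablyClosed _
      (pow_ne_zero n hl.ne_zero))
    (fun y => Kumx568.exists_pow_eq CycFTx925.sv_isSolvablyClosed l hl.ne_zero y) P hPl hxI hNo hN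
  exact ⟨Q, h1, hQl, h2, fun n a d hd hc z hz => h3 d hd n a hc z hz⟩

/-- **LocT** of `Core_74`. -/
theorem locT : LocT := LocConvx31.locT_of_locF locF

/-- helper924's `LocAll` -/
theorem locAll : Step2x924.LocAll.{u₁, u₂, v₂} := by
  intro F₁ F₂ E₂ _ _ _ _ _ _ _ _ hsc α hα _ l hl hl2
  haveI : IsGalois F₁ Om := LCEndx925.isGalois_Om F₁
  haveI : CharZero E₂ := charZero_of_injective_algebraMap (algebraMap F₂ E₂).injective
  haveI : Algebra.IsAlgebraic ℚ E₂ := Algebra.IsAlgebraic.trans ℚ F₂ E₂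
  exact loc_of exists_prim_Om hsc α hα l hl hl2

/-- helper924's `LOC` -/
theorem loc : Step2x924.LOC.{u₁, u₂, v₂} := Step2x924.loc_of_locAll locAll

end Crest.Agent.R018.LocInstx925
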