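import Crest.Agent.R018.LCE_484
import Crest.Agent.R018.LocConv_31
import Crest.Agent.R018.SvClosed_820
import Crest.Agent.R018.Kum_568

/-!
# Row 18: `LocT` of `Core_74` from helper484's `LCEx484.main` (helper31)
-/

set_option autoImplicit false

open NumberField Pointwise

namespace Crest.Agent.R018.LocTx31

open Crest.NumberTheoryR Crest.Agent.R018.EndDefx924
open Crest.Agent.R018.Placesx484 Crest.Agent.R018.Corex74 Crest.Agent.R018.LocConvx31
open Crest.Agent.R018.LocDefx31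

theorem om_prim (l : ℕ) (hl : l.Prime) (n : ℕ) : ∃ ζ : Om, IsPrimitiveRoot ζ (l ^ n) :=
  Kumx568.exists_primitiveRoot (E := Om) (fun p _ => IsAlgClosed.splits p) (l ^ n)
    (pow_ne_zero _ hl.ne_zero)

theorem om_root (l : ℕ) (hl : l.Prime) (x : Om) : ∃ z, z ^ l = x :=
  IsAlgClosed.exists_pow_nat_eq x hl.pos

theorem locF : LocF := by
  intro F₁ hF₁ α hα l hl hl2 P hP ⟨x, hx, N, _, hNo, hN⟩
  have : NumberField F₁ := NumberField.mk
  have hsc : IsSolvablyClosed Sv := SvClosedx820.isSolvablyClosed_Sv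
  obtain ⟨Q, h1, h2, h3, h4⟩ := LCEx484.main hα hl hl2 (om_prim l hl)
    (fun n => Kumx568.exists_primitiveRoot hsc (l ^ n) (pow_ne_zero _ hl.ne_zero))
    (fun x => Kumx568.exists_pow_eq hsc l hl.ne_zero x) P hP hx hNo hN
  exact ⟨Q, h2, h1, h3, fun n a d hd hda ζ hζ => h4 d hd n a hda ζ hζ⟩

theorem locT : LocT := locT_of_locF locF

end Crest.Agent.R018.LocTx31
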