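import Mathlib
import Crest.Agent.R018.LocDef_31
import Crest.Agent.R018.TameP_31

set_option autoImplicit false

/-!
# Row 18, H11: consequences (helper31): exponents of elements of decomposition groups
-/

namespace Crest.Agent.R018.LocThmx31

open Crest.Agent.R018.Placesx484 Crest.Agent.R018.LocDefx31 Crest.Agent.R018.Tamex31 NumberField
open scoped Pointwise

section exponents

variable {H : Type*} [Group H] {E : Type*} [Field E] [CharZero E] [MulSemiringAction H E]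

/-- **Existence of exponents.** -/
theorem exists_acts {Q : Place E} {q : ℕ} [hq : Fact q.Prime] (hqQ : (q : 𝓞 E) ∈ Q.ideal)
    {h : H} (hh : h • Q = Q) (m : ℕ) (hm : 0 < m) : ∃ a, Acts Q q h m a := by
  classical
  have hmax := Q.isMaximal
  letI : Field (𝓞 E ⧸ Q.ideal) := Ideal.Quotient.field Q.ideal
  have hchar : CharP (𝓞 E ⧸ Q.ideal) q := natCast_pow_char hqQ
  let k := 𝓞 E ⧸ Q.ideal
  letI : Algebra (ZMod q) k := ZMod.algebra k q
  have hdeg : (Polynomial.X ^ (q ^ m) - Polynomial.X : Polynomial k) ≠ 0 :=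
    FiniteField.X_pow_card_pow_sub_X_ne_zero k hm.ne' hq.out.one_lt
  let S : Set k := {x | x ^ (q ^ m) = x}
  have hSfin : S.Finite := by
    refine (Polynomial.rootSet_finite (Polynomial.X ^ (q ^ m) - Polynomial.X : Polynomial k) k).subset ?_
    intro x hx
    rw [Polynomial.mem_rootSet]
    refine ⟨hdeg, ?_⟩
    have hx' : x ^ (q ^ m) = x := hx
    simp [hx']
  have hSint : ∀ x ∈ S, IsIntegral (ZMod q) x := by
    intro x hx
    refine ⟨Polynomial.X ^ (q ^ m) - Polynomial.X, ?_, ?_⟩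
    · refine Polynomial.monic_X_pow_sub ?_
      rw [Polynomial.degree_X]
      exact_mod_cast (Nat.one_lt_pow hm.ne' hq.out.one_lt)
    · rw [Polynomial.eval₂_sub, Polynomial.eval₂_X_pow, Polynomial.eval₂_X]
      rw [show x ^ (q ^ m) = x from hx, sub_self]
  let k₀ : IntermediateField (ZMod q) k := IntermediateField.adjoin (ZMod q) S
  have hSf : Finite S := hSfin
  have hfd : FiniteDimensional (ZMod q) k₀ := IntermediateField.finiteDimensional_adjoin hSint
  have hk₀ : Finite k₀ := Module.finite_of_finite (ZMod q)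
  -- the automorphism
  let f₀ : k ≃+* k := Ideal.quotientEquiv Q.ideal Q.ideal (MulSemiringAction.toRingEquiv H (𝓞 E) h)
    (congrArg Place.ideal hh).symm
  let f : k ≃ₐ[ZMod q] k := AlgEquiv.ofRingEquiv (f := f₀) (by
    intro x
    obtain ⟨n, rfl⟩ := ZMod.intCast_surjective x
    rw [map_intCast, map_intCast])
  obtain ⟨n, hn⟩ := (FiniteField.bijective_frobeniusAlgEquivOfAlgebraic_pow (ZMod q) k₀).2
    (AlgEquiv.restrictNormalHom k₀ f)
  refine ⟨n.1, hh, fun x hx => ?_⟩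
  rw [← Ideal.Quotient.eq, map_pow] at hx ⊢
  have hxS : (Ideal.Quotient.mk Q.ideal x : k) ∈ k₀ := IntermediateField.subset_adjoin _ _ hx
  have h1 := congrArg (fun g : k₀ ≃ₐ[ZMod q] k₀ => ((g ⟨_, hxS⟩ : k₀) : k)) hn
  have h2 : ((AlgEquiv.restrictNormalHom k₀ f ⟨_, hxS⟩ : k₀) : k) =
      f (Ideal.Quotient.mk Q.ideal x) := AlgEquiv.restrictNormalHom_apply k₀ f ⟨_, hxS⟩
  have h3 : f (Ideal.Quotient.mk Q.ideal x) = Ideal.Quotient.mk Q.ideal (h • x) := rfl
  simp only at h1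
  rw [h2, h3] at h1
  rw [← h1, AlgEquiv.coe_pow, FiniteField.coe_frobeniusAlgEquivOfAlgebraic_iterate, ZMod.card]
  rfl

variable [Algebra.IsAlgebraic ℚ E]

/-- Two roots of unity of order prime to the residue characteristic which are congruent are
equal. -/
theorem root_eq {Q : Place E} {q : ℕ} (hq : q.Prime) (hqQ : (q : 𝓞 E) ∈ Q.ideal) {M : ℕ}
    (hM : ¬ q ∣ M) {x y : 𝓞 E} (hx : (x : E) ^ M = 1) (hy : (y : E) ^ M = 1)
    (hxy : x - y ∈ Q.ideal) : (x : E) = y := by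
  have hr : Q.rchar = q := Q.rchar_eq_of_mem hq hqQ
  have hM0 : M ≠ 0 := by
    rintro rfl
    exact hM (dvd_zero _)
  have hMv : Q.val.valuation (M : E) = 1 := val_natCast_eq_one Q (by rwa [hr])
  have hy0 : (y : E) ≠ 0 := by
    intro h
    rw [h, zero_pow hM0] at hy
    exact zero_ne_one hy
  have hyv : Q.val.valuation (y : E) = 1 := val_pow_eq_one hM0 (by rw [hy, map_one])
  have h1 : ((x : E) / y) ^ M = 1 := by rw [div_pow, hx, hy, div_one]
  have h2 : Q.val.valuation ((x : E) / y - 1) < 1 := by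
    have h3 : (x : E) / y - 1 = algebraMap (𝓞 E) E (x - y) / y := by
      rw [map_sub]; field_simp
    rw [h3, map_div₀, hyv, div_one]
    exact (Q.v_int_lt_one_iff _).2 hxy
  have h4 := root_eq_one hMv h1 h2
  exact (div_eq_one_iff_eq hy0).1 h4

/-- action on roots of unity of order prime to the residue characteristic -/
theorem acts_root {Q : Place E} {q : ℕ} (hq : q.Prime) (hqQ : (q : 𝓞 E) ∈ Q.ideal)
    {h : H} {m a : ℕ} (hh : Acts Q q h m a) (hm : 0 < m) {M : ℕ} (hM : M ∣ q ^ m - 1) {ζ : E}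
    (hζ : ζ ^ M = 1) : h • ζ = ζ ^ (q ^ a) := by
  have hq1 : 1 < q ^ m := Nat.one_lt_pow hm.ne' hq.one_lt
  have hM0 : M ≠ 0 := by
    rintro rfl
    rw [zero_dvd_iff] at hM
    omega
  have hqM : ¬ q ∣ M := by
    intro hd
    have h1 : q ∣ q ^ m - 1 := hd.trans hM
    have h2 : q ∣ q ^ m := dvd_pow_self q hm.ne'
    have h3 := (Nat.dvd_sub h2 h1)
    rw [Nat.sub_sub_self hq1.le] at h3
    exact hq.one_lt.ne' (Nat.dvd_one.1 h3)
  have hint : IsIntegral ℤ ζ := by
    refine ⟨Polynomial.X ^ M - 1, ?_, ?_⟩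
    · simpa using Polynomial.monic_X_pow_sub_C (1 : ℤ) hM0
    · simp [hζ]
  let z : 𝓞 E := ⟨ζ, hint⟩
  have hz : algebraMap (𝓞 E) E z = ζ := rfl
  have hzM : z ^ M = 1 := by
    apply NumberField.RingOfIntegers.coe_injective
    rw [map_pow, hz, hζ, map_one]
  have hzq : z ^ (q ^ m) - z = 0 := by
    obtain ⟨c, hc⟩ := hM
    have h1 : q ^ m = M * c + 1 := by omega
    rw [h1, pow_succ, pow_mul, hzM, one_pow, one_mul, sub_self]
  have h1 := hh.2 z (by rw [hzq]; exact Q.ideal.zero_mem)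
  have h2 : algebraMap (𝓞 E) E (h • z) = h • ζ := Place.smul_coe h z
  have h3 := root_eq hq hqQ hqM (x := h • z) (y := z ^ (q ^ a)) (by
    change (algebraMap (𝓞 E) E (h • z)) ^ M = 1
    rw [h2, ← smul_pow', hζ, smul_one]) (by
    change (algebraMap (𝓞 E) E (z ^ (q ^ a))) ^ M = 1
    rw [map_pow, ← pow_mul, mul_comm, pow_mul, hz, hζ, one_pow]) h1
  change algebraMap (𝓞 E) E (h • z) = algebraMap (𝓞 E) E (z ^ (q ^ a)) at h3
  rw [h2, map_pow, hz] at h3
  exact h3

theorem pow_mod_unique {q m a a' : ℕ} (hq : 1 < q) (hm : 0 < m)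
    (h : q ^ a ≡ q ^ a' [MOD (q ^ m - 1)]) : a ≡ a' [MOD m] := by
  have hqm : 1 < q ^ m := Nat.one_lt_pow hm.ne' hq
  have hred : ∀ b : ℕ, q ^ b ≡ q ^ (b % m) [MOD (q ^ m - 1)] := by
    intro b
    have h1 : q ^ m ≡ 1 [MOD (q ^ m - 1)] := by
      have : q ^ m = (q ^ m - 1) + 1 := by omega
      conv_lhs => rw [this]
      exact (Nat.modEq_iff_dvd' (by omega)).2 (by simp) |>.symm
    conv_lhs => rw [← Nat.div_add_mod b m, pow_add, pow_mul]
    have h2 := (h1.pow (b / m)).mul_right (q ^ (b % m))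
    rwa [one_pow, one_mul] at h2
  have h1 : q ^ (a % m) ≡ q ^ (a' % m) [MOD (q ^ m - 1)] :=
    (hred a).symm.trans (h.trans (hred a'))
  by_cases hm1 : m = 1
  · subst hm1
    exact Nat.modEq_one
  have hlt : ∀ b : ℕ, q ^ (b % m) < q ^ m - 1 := by
    intro b
    have h2 : b % m ≤ m - 1 := by
      have := Nat.mod_lt b hm
      omega
    have h3 : q ^ (b % m) ≤ q ^ (m - 1) := Nat.pow_le_pow_right (by omega) h2
    have h4 : q ^ m = q ^ (m - 1) * q := by
      rw [← pow_succ]; congr 1; omega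
    have h5 : 2 ≤ q ^ (m - 1) := by
      have : 1 < q ^ (m - 1) := Nat.one_lt_pow (by omega) hq
      omega
    have h6 : q ^ (m - 1) * 2 ≤ q ^ (m - 1) * q := Nat.mul_le_mul_left _ hq
    omega
  have h2 := Nat.ModEq.eq_of_lt_of_lt h1 (hlt a) (hlt a')
  exact Nat.pow_right_injective hq h2

theorem modEq_of_pow_eq {E : Type*} [Field E] {ζ : E} {M : ℕ} (hζ : IsPrimitiveRoot ζ M)
    (hM : 0 < M) {i j : ℕ} (h : ζ ^ i = ζ ^ j) : i ≡ j [MOD M] := by
  have hred : ∀ b : ℕ, ζ ^ b = ζ ^ (b % M) := by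
    intro b
    conv_lhs => rw [← Nat.div_add_mod b M, pow_add, pow_mul, hζ.pow_eq_one, one_pow, one_mul]
  rw [hred i, hred j] at h
  exact hζ.pow_inj (Nat.mod_lt _ hM) (Nat.mod_lt _ hM) h

/-- **uniqueness of exponents** -/
theorem acts_unique {Q : Place E} {q : ℕ} (hq : q.Prime) (hqQ : (q : 𝓞 E) ∈ Q.ideal)
    {h : H} {m a a' : ℕ} (hh : Acts Q q h m a) (hh' : Acts Q q h m a') (hm : 0 < m) {ζ : E}
    (hζ : IsPrimitiveRoot ζ (q ^ m - 1)) : a ≡ a' [MOD m] := by
  have h1 := acts_root hq hqQ hh hm dvd_rfl hζ.pow_eq_one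
  have h2 := acts_root hq hqQ hh' hm dvd_rfl hζ.pow_eq_one
  rw [h1] at h2
  have hqm : 1 < q ^ m := Nat.one_lt_pow hm.ne' hq.one_lt
  have h3 := modEq_of_pow_eq hζ (by omega) h2
  exact pow_mod_unique hq.one_lt hm h3

end exponents

section unram

variable {E : Type*} [Field E] [CharZero E] [Algebra.IsAlgebraic ℚ E]

/-- **exponents and Frobenius elements at unramified levels.** `E/F` Galois, `L` intermediate and
normal over `F`, inertia of `Q` acts trivially on `L`, `g` acts as `x ↦ x ^ (q ^ k)` at `Q`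
(`k` = residue degree), `g ^ n` trivial on `L`; `h` has exponent `k * b` at level `k * n`;
then `h = g ^ b` on `L`. -/
theorem acts_unram {F L : Type*} [Field F] [Field L] [CharZero L] [Algebra F L] [Algebra L E]
    [Algebra F E] [IsScalarTower F L E] [Normal F L] [IsGalois F E] {Q : Place E} {q : ℕ}
    (hq0 : q ≠ 0) (hur : ∀ τ ∈ Q.ideal.inertia (E ≃ₐ[F] E), ∀ x : L,
      τ (algebraMap L E x) = algebraMap L E x)
    {g h : E ≃ₐ[F] E} {k b n : ℕ} (hg : FPow Q q k g)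
    (hn : ∀ x : L, (g ^ n) (algebraMap L E x) = algebraMap L E x)
    (hh : Acts Q q h (k * n) (k * b)) (x : L) :
    h (algebraMap L E x) = (g ^ b) (algebraMap L E x) := by
  have hcoe : ∀ (s : E ≃ₐ[F] E) (y : 𝓞 L), algebraMap (𝓞 E) E (s • algebraMap (𝓞 L) (𝓞 E) y) =
      s (algebraMap L E (algebraMap (𝓞 L) L y)) := fun s y => algebraMap.smul' _ _ E
  -- the element `g ^ (-b) * h` restricted to `L`
  let s : E ≃ₐ[F] E := (g ^ b)⁻¹ * h
  have hgb : FPow Q q (k * b) (g ^ b) := hg.pow hq0 b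
  let σ : L ≃ₐ[F] L := AlgEquiv.restrictNormal s L
  have hσ : ∀ y : L, algebraMap L E (σ y) = s (algebraMap L E y) :=
    fun y => AlgEquiv.restrictNormal_commutes s L y
  have hres : ∀ y : 𝓞 L, algebraMap (𝓞 L) (𝓞 E) (σ • y) = s • algebraMap (𝓞 L) (𝓞 E) y := by
    intro y
    apply NumberField.RingOfIntegers.coe_injective
    rw [hcoe s y, ← hσ]
    have : algebraMap (𝓞 L) L (σ • y) = σ (algebraMap (𝓞 L) L y) := algebraMap.smul' _ _ L
    rw [← this]
    rfl
  have hmem : σ ∈ (Q.res L).ideal.inertia (L ≃ₐ[F] L) := by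
    intro y
    change algebraMap (𝓞 L) (𝓞 E) (σ • y - y) ∈ Q.ideal
    rw [map_sub, hres]
    have h1 : (algebraMap (𝓞 L) (𝓞 E) y) ^ (q ^ (k * n)) - algebraMap (𝓞 L) (𝓞 E) y ∈ Q.ideal := by
      have h2 := (hg.pow hq0 n) (algebraMap (𝓞 L) (𝓞 E) y)
      have h3 : (g ^ n) • algebraMap (𝓞 L) (𝓞 E) y = algebraMap (𝓞 L) (𝓞 E) y := by
        apply NumberField.RingOfIntegers.coe_injective
        rw [hcoe, hn]
        rfl
      rw [h3] at h2
      exact sub_mem_symm h2
    have h4 := hh.2 _ h1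
    have h5 := hgb (algebraMap (𝓞 L) (𝓞 E) y)
    have h6 := Ideal.sub_mem _ h4 h5
    rw [sub_sub_sub_cancel_right] at h6
    have h7 : (g ^ b)⁻¹ • Q = Q := by
      rw [inv_smul_eq_iff]
      exact (hgb.smul_eq hq0).symm
    have h8 := smul_sub_mem h7 h6
    rw [smul_sub, inv_smul_smul, ← mul_smul] at h8
    exact h8
  obtain ⟨τ, hτ, hτL⟩ := exists_inertia_lift (E := E) Q σ hmem
  have h9 : s (algebraMap L E x) = algebraMap L E x := by
    rw [← hσ, ← hτL, hur τ hτ]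
  have h10 : (g ^ b) (s (algebraMap L E x)) = h (algebraMap L E x) := by
    rw [← AlgEquiv.mul_apply]
    congr 1
    simp [s]
  rw [← h10, h9]

end unram

end Crest.Agent.R018.LocThmx31
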