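import Crest.Agent.R018.LogFin_575
import Crest.Agent.R018.LogB_824
import Crest.Agent.R018.KerClB_793
import Crest.Agent.R018.SemiLocF_476

/-!
# Row 18, LEMMA LOG, finite form, unconditional (helper575 with helper824, helper793, helper476)
-/

set_option autoImplicit false

noncomputable section

open scoped NumberField
open IsDedekindDomain

namespace Crest.Agent.R018.LogBoundx575

open Crest.Agent.R018.LogDefsx575 Crest.Agent.R018.LogFinx575

variable {K L : Type*} [Field K] [NumberField K] [Field L] [NumberField L] [Algebra K L]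

/-- LEMMA LOG, finite form: if the `S`-units of `K` are full at level `j ≥ 1` at the odd prime `l`,
then the degree of a cyclic extension `L/K` of odd degree, unramified outside `l`, in which all
primes of `S` split completely, is bounded by `|Cl(K)| * [Rl : Uk j]`. -/
theorem bound (hG : IsGalois K L) (σ : L ≃ₐ[K] L) (hσ : ∀ τ, τ ∈ Subgroup.zpowers σ)
    (hodd' : Odd (Module.finrank K L))
    {l : ℕ} (hl : l.Prime) (hodd : l ≠ 2)
    (hur : ∀ v : HeightOneSpectrum (𝓞 K), v ∉ PA K l → v.asIdeal.ramificationIdxIn (𝓞 L) = 1)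
    {S : Set (HeightOneSpectrum (𝓞 K))} (hSf : S.Finite)
    (hS : Disjoint S (PA K l))
    (hsplit : ∀ v ∈ S, (v.asIdeal.primesOver (𝓞 L)).ncard = Module.finrank K L)
    {j : ℕ} (hj : 1 ≤ j) (hF : Full K l S j) :
    Module.finrank K L ≤ Nat.card (ClassGroup (𝓞 K)) * (Uk K l j).relIndex (Rl K l) :=
  bound_of_blocks (Crest.Agent.R018.LogBx824.blockB K L)
    (Crest.Agent.R018.KerClBx793.blockC' K L) (Crest.Agent.R018.SemiLocx476.blockD' K L)
    hG σ hσ hodd' hl hodd hur hSf hS hsplit hj hF

end Crest.Agent.R018.LogBoundx575
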