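import Crest.Agent.R018.LogDefs_575

/-!
# Row 18, LEMMA LOG, block E, part 1 (helper575): full `S`-units are dense modulo `l`-powers
-/

set_option autoImplicit false

noncomputable section

open scoped NumberField
open IsDedekindDomain

namespace Crest.Agent.R018.LogEx575

open Crest.Agent.R018.LogDefsx575

variable {K : Type*} [Field K] [NumberField K]

theorem approx (l : ℕ) (b : K) (hb : ∀ v ∈ PA K l, v.valuation K b ≤ 1) :
    ∃ a : 𝓞 K, ∀ v ∈ PA K l, v.valuation K (b - (a : K)) ≤ v.valuation K (l : K) := by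
  classical
  by_cases hl : (l : 𝓞 K) = 0
  · -- then every prime is in `PA`
    have h1 : ∀ v : HeightOneSpectrum (𝓞 K), v.valuation K b ≤ 1 := fun v =>
      hb v (by simp [PA, hl])
    obtain ⟨a, ha⟩ := HeightOneSpectrum.mem_integers_of_valuation_le_one K b h1
    refine ⟨a, fun v _ => ?_⟩
    have : b - (a : K) = 0 := by rw [← ha]; exact sub_self _
    rw [this]; simp
  -- the ideal of denominators
  let I : Ideal (𝓞 K) :=
    { carrier := {d | ∃ n : 𝓞 K, b * (d : K) = (n : K)}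
      add_mem' := by
        rintro d e ⟨n, hn⟩ ⟨m, hm⟩
        exact ⟨n + m, by push_cast; rw [mul_add, hn, hm]⟩
      zero_mem' := ⟨0, by simp⟩
      smul_mem' := by
        rintro c d ⟨n, hn⟩
        refine ⟨c * n, ?_⟩
        simp only [smul_eq_mul]
        push_cast
        rw [mul_left_comm, hn] }
  have hI : I ⊔ Ideal.span {(l : 𝓞 K)} = ⊤ := by
    by_contra hne
    obtain ⟨m, hm, hle⟩ := Ideal.exists_le_maximal _ hne
    have hlm : (l : 𝓞 K) ∈ m := hle (Ideal.mem_sup_right (Ideal.mem_span_singleton_self _))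
    have hm0 : m ≠ ⊥ := by
      rintro rfl
      exact hl (by simpa using hlm)
    let v : HeightOneSpectrum (𝓞 K) := ⟨m, hm.isPrime, hm0⟩
    have hv : v ∈ PA K l := hlm
    obtain ⟨n, d, hd⟩ := HeightOneSpectrum.exists_primeCompl_mul_eq_of_integer v b (hb v hv)
    exact d.2 (hle (Ideal.mem_sup_left ⟨n, hd⟩))
  have h1 : (1 : 𝓞 K) ∈ I ⊔ Ideal.span {(l : 𝓞 K)} := by rw [hI]; trivial
  obtain ⟨d, ⟨n, hn⟩, e, he, hde⟩ := Submodule.mem_sup.mp h1
  obtain ⟨c, rfl⟩ := Ideal.mem_span_singleton'.mp he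
  refine ⟨n, fun v hv => ?_⟩
  have h2 : b - (n : K) = b * (c : K) * (l : K) := by
    rw [← hn]
    have : (d : K) + (c : K) * (l : K) = 1 := by
      have := congrArg (algebraMap (𝓞 K) K) hde
      simpa using this
    linear_combination (-b) * this
  rw [h2, map_mul, map_mul]
  have h3 : v.valuation K b * v.valuation K (c : K) ≤ 1 :=
    mul_le_one' (hb v hv) (v.valuation_le_one c)
  calc v.valuation K b * v.valuation K (c : K) * v.valuation K (l : K)
      ≤ 1 * v.valuation K (l : K) := by gcongr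
    _ = _ := one_mul _

/-- congruence `z ≡ 0 mod l^k` at all primes above `l` -/
def Cg (l k : ℕ) (z : K) : Prop := ∀ v ∈ PA K l, v.valuation K z ≤ v.valuation K (l : K) ^ k

theorem val_l_le (l : ℕ) (v : HeightOneSpectrum (𝓞 K)) : v.valuation K (l : K) ≤ 1 := by
  have := v.valuation_le_one (K := K) (l : 𝓞 K)
  simpa using this

theorem Cg.mono {l k k' : ℕ} {z : K} (h : Cg l k z) (hk : k' ≤ k) : Cg l k' z := fun v hv =>
  (h v hv).trans (pow_le_pow_right_of_le_one' (val_l_le l v) hk)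

theorem Cg.add {l k : ℕ} {z w : K} (h : Cg l k z) (h' : Cg l k w) : Cg l k (z + w) := fun v hv =>
  (v.valuation K).map_add_le (h v hv) (h' v hv)

theorem Cg.neg {l k : ℕ} {z : K} (h : Cg l k z) : Cg l k (-z) := fun v hv => by
  rw [Valuation.map_neg]; exact h v hv

theorem Cg.sub {l k : ℕ} {z w : K} (h : Cg l k z) (h' : Cg l k w) : Cg l k (z - w) := by
  rw [sub_eq_add_neg]; exact h.add h'.neg

theorem Cg.mul {l k m : ℕ} {z w : K} (h : Cg l k z) (h' : Cg l m w) : Cg l (k + m) (z * w) :=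
  fun v hv => by
    rw [map_mul, pow_add]; exact mul_le_mul' (h v hv) (h' v hv)

theorem Cg.pow {l k : ℕ} {z : K} (h : Cg l k z) (n : ℕ) : Cg l (k * n) (z ^ n) :=
  fun v hv => by
    rw [map_pow, pow_mul]; exact pow_le_pow_left₀ zero_le (h v hv) n

theorem Cg.sum {ι : Type*} {l k : ℕ} {s : Finset ι} {f : ι → K} (h : ∀ i ∈ s, Cg l k (f i)) :
    Cg l k (∑ i ∈ s, f i) := fun v hv =>
  (v.valuation K).map_sum_le fun i hi => h i hi v hv

theorem Cg_l (l : ℕ) : Cg l 1 (l : K) := fun v _ => by simp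

theorem Cg_int (l : ℕ) (a : 𝓞 K) : Cg l 0 (a : K) := fun v _ => by
  simpa using v.valuation_le_one (K := K) a

theorem Cg_nat (l : ℕ) (a : ℕ) : Cg l 0 (a : K) := by
  simpa using Cg_int (K := K) l (a : 𝓞 K)

theorem mem_Uk {l k : ℕ} {x : Kˣ} : x ∈ Uk K l k ↔ x ∈ Rl K l ∧ Cg l k ((x : K) - 1) := Iff.rfl

theorem mem_Rl {l : ℕ} {x : Kˣ} : x ∈ Rl K l ↔ ∀ v ∈ PA K l, v.valuation K (x : K) = 1 := by
  constructor
  · intro h v hv
    exact h v (by simpa using hv)
  · intro h v hv
    exact h v (by simpa using hv)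

theorem pow_congr {l : ℕ} (hl : l.Prime) (hodd : l ≠ 2) {j : ℕ} (hj : 1 ≤ j) {t : K}
    (ht : Cg l j t) : Cg l (j + 2) ((1 + t) ^ l - 1 - (l : K) * t) := by
  have h3 : 3 ≤ l := by
    have := hl.two_le
    omega
  obtain ⟨m, rfl⟩ : ∃ m, l = m + 2 + 1 := ⟨l - 3, by omega⟩
  have h1 : (1 + t) ^ (m + 2 + 1) - 1 - ((m + 2 + 1 : ℕ) : K) * t
      = ∑ i ∈ Finset.range (m + 2), t ^ (i + 2) * ((m + 2 + 1).choose (i + 2) : K) := by
    rw [add_comm, add_pow]
    rw [Finset.sum_range_succ', Finset.sum_range_succ']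
    simp only [one_pow, mul_one, pow_zero, zero_add, pow_one, Nat.choose_zero_right, Nat.cast_one,
      Nat.choose_one_right]
    have : ∀ i : ℕ, i + 1 + 1 = i + 2 := fun i => rfl
    simp only [this]
    ring
  rw [h1]
  refine Cg.sum fun i hi => ?_
  rw [Finset.mem_range] at hi
  rcases Nat.lt_or_ge (i + 2) (m + 2 + 1) with hlt | hge
  · have hdvd : (m + 2 + 1) ∣ (m + 2 + 1).choose (i + 2) :=
      hl.dvd_choose_self (by omega) hlt
    obtain ⟨c, hc⟩ := hdvd
    rw [hc]
    push_cast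
    have := ((ht.pow (i + 2)).mul ((Cg_l (K := K) (m + 2 + 1)).mul (Cg_nat (m + 2 + 1) c)))
    push_cast at this
    refine this.mono ?_
    nlinarith
  · have hi' : i + 2 = m + 2 + 1 := by omega
    rw [hi', Nat.choose_self, Nat.cast_one, mul_one]
    refine (ht.pow (m + 2 + 1)).mono ?_
    nlinarith

theorem full_step {l : ℕ} (hl : l.Prime) (hodd : l ≠ 2) {S : Set (HeightOneSpectrum (𝓞 K))}
    {j : ℕ} (hj : 1 ≤ j) (h : Full K l S j) : Full K l S (j + 1) := by
  intro a
  obtain ⟨x, hx, hx'⟩ := h a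
  refine ⟨x ^ l, pow_mem hx l, ?_⟩
  have hx'' : Cg l (j + 1) ((x : K) - 1 - (l : K) ^ j * (a : K)) := hx'
  set t : K := (x : K) - 1 with ht
  have hlj : Cg l j ((l : K) ^ j * (a : K)) := by
    have := ((Cg_l (K := K) l).pow j).mul (Cg_int l a)
    simpa using this
  have htj : Cg l j t := by
    have h2 : t = ((x : K) - 1 - (l : K) ^ j * (a : K)) + (l : K) ^ j * (a : K) := by ring
    rw [h2]
    exact (hx''.mono (Nat.le_succ j)).add hlj
  have h3 := pow_congr hl hodd hj htj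
  have h4 : (((x ^ l : Kˣ) : K) - 1 - (l : K) ^ (j + 1) * (a : K))
      = ((1 + t) ^ l - 1 - (l : K) * t) + (l : K) * (t - (l : K) ^ j * (a : K)) := by
    rw [ht]; push_cast; ring
  show Cg l (j + 1 + 1) _
  rw [h4]
  refine h3.add ?_
  have := (Cg_l (K := K) l).mul hx''
  refine this.mono (by omega)

theorem full_of_le {l : ℕ} (hl : l.Prime) (hodd : l ≠ 2) {S : Set (HeightOneSpectrum (𝓞 K))}
    {j : ℕ} (hj : 1 ≤ j) (h : Full K l S j) {k : ℕ} (hk : j ≤ k) : Full K l S k := by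
  induction k, hk using Nat.le_induction with
  | base => exact h
  | succ k hk ih => exact full_step hl hodd (hj.trans hk) ih

theorem unit_le_Rl {l : ℕ} {S : Set (HeightOneSpectrum (𝓞 K))} (hS : Disjoint S (PA K l)) :
    S.unit K ≤ Rl K l := by
  intro x hx v hv
  refine hx v fun hvS => ?_
  have : v ∈ PA K l := by simpa using hv
  exact Set.disjoint_left.mp hS hvS this

theorem Uk_le {l : ℕ} (hl : l.Prime) (hodd : l ≠ 2) {S : Set (HeightOneSpectrum (𝓞 K))}
    (hS : Disjoint S (PA K l)) {j : ℕ} (hj : 1 ≤ j) (h : Full K l S j) (k : ℕ) :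
    Uk K l j ≤ S.unit K ⊔ Uk K l k := by
  rcases Nat.le_total k j with hk | hk
  · refine le_trans ?_ le_sup_right
    intro x hx
    rw [mem_Uk] at hx ⊢
    exact ⟨hx.1, hx.2.mono hk⟩
  induction k, hk using Nat.le_induction with
  | base => exact le_sup_right
  | succ k hk ih =>
    refine ih.trans (sup_le le_sup_left ?_)
    intro x hx
    rw [mem_Uk] at hx
    have hl0 : (l : K) ≠ 0 := by exact_mod_cast hl.ne_zero
    -- `b = (x-1)/l^k` is integral at `l`
    have hb : ∀ v ∈ PA K l, v.valuation K (((x : K) - 1) / (l : K) ^ k) ≤ 1 := by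
      intro v hv
      rw [map_div₀, map_pow]
      have hv0 : v.valuation K (l : K) ≠ 0 := by simpa using hl0
      exact div_le_one_of_le₀ (hx.2 v hv) zero_le
    obtain ⟨a, ha⟩ := approx l _ hb
    obtain ⟨y, hy, hy'⟩ := full_of_le hl hodd hj h hk a
    have hyR : y ∈ Rl K l := unit_le_Rl hS hy
    have hy'' : Cg l (k + 1) ((y : K) - 1 - (l : K) ^ k * (a : K)) := hy'
    have h1 : Cg l (k + 1) ((x : K) - (y : K)) := by
      have e1 : (x : K) - (y : K) = (l : K) ^ k * (((x : K) - 1) / (l : K) ^ k - (a : K))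
          - ((y : K) - 1 - (l : K) ^ k * (a : K)) := by
        field_simp
        ring
      rw [e1]
      refine Cg.sub ?_ hy''
      have h2 : Cg l 1 (((x : K) - 1) / (l : K) ^ k - (a : K)) := fun v hv => by
        simpa using ha v hv
      have h3 := ((Cg_l (K := K) l).pow k).mul h2
      simpa using h3
    have h5 : y⁻¹ * x ∈ Uk K l (k + 1) := by
      rw [mem_Uk]
      refine ⟨mul_mem (inv_mem hyR) hx.1, fun v hv => ?_⟩
      have e2 : (((y⁻¹ * x : Kˣ) : K) - 1) = ((x : K) - (y : K)) * ((y⁻¹ : Kˣ) : K) := by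
        have : (y : K) * ((y⁻¹ : Kˣ) : K) = 1 := by simp
        push_cast at this ⊢
        linear_combination (1 : K) * this
      rw [e2, map_mul]
      have h6 : v.valuation K ((y⁻¹ : Kˣ) : K) = 1 := mem_Rl.mp (inv_mem hyR) v hv
      rw [h6, mul_one]
      exact h1 v hv
    have h7 : x = y * (y⁻¹ * x) := by group
    rw [h7]
    exact Subgroup.mul_mem_sup hy h5

end Crest.Agent.R018.LogEx575
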