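import Crest.Agent.R018.LogE_575

/-!
# Row 18, LEMMA LOG, block F (helper575): the pair `K ⊂ L`, units and congruence subgroups
-/

set_option autoImplicit false
set_option linter.unusedSectionVars false

noncomputable section

open scoped NumberField
open IsDedekindDomain

namespace Crest.Agent.R018.LogFx575

open Crest.Agent.R018.LogDefsx575 Crest.Agent.R018.LogEx575

section Galois

variable {K L : Type*} [Field K] [Field L] [Algebra K L]

theorem sg_apply (σ : L ≃ₐ[K] L) (x : Lˣ) : ((sg K σ x : Lˣ) : L) = σ x / x := by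
  rw [div_eq_mul_inv, ← Units.val_inv_eq_inv_val]
  show ((Units.map (σ : L →* L) x / x : Lˣ) : L) = _
  rw [div_eq_mul_inv, Units.val_mul]
  rfl

theorem inc_apply (x : Kˣ) : ((inc K L x : Lˣ) : L) = algebraMap K L x := rfl

theorem inc_injective : Function.Injective (inc K L) := by
  intro x y h
  have : algebraMap K L x = algebraMap K L y := congrArg Units.val h
  exact Units.ext ((algebraMap K L).injective this)

theorem mem_ker_sg (σ : L ≃ₐ[K] L) (x : Lˣ) : x ∈ (sg K σ).ker ↔ σ (x : L) = x := by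
  rw [MonoidHom.mem_ker, Units.ext_iff, sg_apply, Units.val_one]
  exact div_eq_one_iff_eq x.ne_zero

theorem nm_apply (x : Lˣ) : ((nm K L x : Lˣ) : L) = algebraMap K L (Algebra.norm K (x : L)) := rfl

theorem nm_sg (σ : L ≃ₐ[K] L) (x : Lˣ) : nm K L (sg K σ x) = 1 := by
  have h9 : Algebra.norm K (σ (x : L) / (x : L)) * Algebra.norm K (x : L)
      = Algebra.norm K (σ (x : L)) := by
    rw [← map_mul, div_mul_cancel₀ _ x.ne_zero]
  rw [Units.ext_iff, nm_apply, sg_apply, Units.val_one]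
  have h : Algebra.norm K (σ (x : L)) = Algebra.norm K (x : L) := Algebra.norm_eq_of_algEquiv σ x
  rw [h] at h9
  by_cases h0 : Algebra.norm K (x : L) = 0
  · -- infinite-dimensional or zero: the norm of a unit is a unit
    have h1 : Algebra.norm K (x : L) * Algebra.norm K ((x⁻¹ : Lˣ) : L) = 1 := by
      rw [← map_mul]; simp
    rw [h0, zero_mul] at h1
    exact absurd h1 zero_ne_one
  · rw [mul_eq_right₀ h0 |>.mp h9, map_one]

/-- `x` is fixed by the generator iff it comes from `K`. -/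
theorem ker_sg_eq [FiniteDimensional K L] [IsGalois K L] (σ : L ≃ₐ[K] L)
    (hσ : ∀ τ, τ ∈ Subgroup.zpowers σ) (x : Lˣ) :
    x ∈ (sg K σ).ker ↔ ∃ a : Kˣ, inc K L a = x := by
  rw [mem_ker_sg]
  constructor
  · intro h
    have hfix : ∀ τ : L ≃ₐ[K] L, τ (x : L) = x := by
      intro τ
      have hst : σ ∈ MulAction.stabilizer (L ≃ₐ[K] L) (x : L) := h
      have := (Subgroup.zpowers_le.mpr hst) (hσ τ)
      exact this
    obtain ⟨a, ha⟩ := (IsGalois.mem_range_algebraMap_iff_fixed (F := K) (E := L) (x : L)).mpr hfix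
    have ha0 : a ≠ 0 := by
      rintro rfl
      exact x.ne_zero (by rw [← ha, map_zero])
    exact ⟨Units.mk0 a ha0, Units.ext ha⟩
  · rintro ⟨a, rfl⟩
    rw [inc_apply]
    exact σ.commutes _

end Galois

section Primes

variable {K L : Type*} [Field K] [NumberField K] [Field L] [NumberField L] [Algebra K L]

theorem val_eq_one_iff (v : HeightOneSpectrum (𝓞 K)) (w : HeightOneSpectrum (𝓞 L))
    [w.asIdeal.LiesOver v.asIdeal] (a : K) :
    w.valuation L (algebraMap K L a) = 1 ↔ v.valuation K a = 1 := by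
  rw [← HeightOneSpectrum.valuation_liesOver L v w]
  rw [pow_eq_one_iff]
  exact or_iff_left (Ideal.IsDedekindDomain.ramificationIdx'_ne_zero_of_liesOver w.asIdeal v.ne_bot)

theorem exists_over (v : HeightOneSpectrum (𝓞 K)) :
    ∃ w : HeightOneSpectrum (𝓞 L), w.asIdeal.LiesOver v.asIdeal := by
  obtain ⟨⟨P, hP, hP'⟩⟩ := v.asIdeal.nonempty_primesOver (S := 𝓞 L)
  have hne : P ≠ ⊥ := by
    rintro rfl
    have := hP'.over
    rw [Ideal.under_bot] at this
    exact v.ne_bot this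
  exact ⟨⟨P, hP, hne⟩, hP'⟩

theorem exists_under (w : HeightOneSpectrum (𝓞 L)) :
    ∃ v : HeightOneSpectrum (𝓞 K), w.asIdeal.LiesOver v.asIdeal :=
  ⟨w.under (𝓞 K), ⟨rfl⟩⟩

theorem under_unique {w : HeightOneSpectrum (𝓞 L)} {v v' : HeightOneSpectrum (𝓞 K)}
    (h : w.asIdeal.LiesOver v.asIdeal) (h' : w.asIdeal.LiesOver v'.asIdeal) : v = v' := by
  apply HeightOneSpectrum.ext
  rw [h.over, h'.over]

theorem inc_mem_unit (S : Set (HeightOneSpectrum (𝓞 K))) (a : Kˣ) :
    inc K L a ∈ (ov L S).unit L ↔ a ∈ S.unit K := by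
  constructor
  · intro h v hv
    obtain ⟨w, hw⟩ := exists_over (L := L) v
    have hw' : w ∉ ov L S := by
      rintro ⟨v', hv', h'⟩
      exact hv (under_unique hw h' ▸ hv')
    have := h w hw'
    rw [inc_apply] at this
    exact (val_eq_one_iff v w _).mp this
  · intro h w hw
    obtain ⟨v, hv⟩ := exists_under (K := K) w
    have hvS : v ∉ S := fun hvS => hw ⟨v, hvS, hv⟩
    rw [inc_apply]
    exact (val_eq_one_iff v w _).mpr (h v hvS)

theorem PA_ov (l : ℕ) : PA L l = ov L (PA K l) := by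
  ext w
  constructor
  · intro h
    obtain ⟨v, hv⟩ := exists_under (K := K) w
    refine ⟨v, ?_, hv⟩
    show (l : 𝓞 K) ∈ v.asIdeal
    rw [hv.over, Ideal.mem_comap, map_natCast]
    exact h
  · rintro ⟨v, hv, h⟩
    have hv' : (l : 𝓞 K) ∈ v.asIdeal := hv
    rw [h.over, Ideal.mem_comap, map_natCast] at hv'
    exact hv'

theorem mem_PA_iff {l : ℕ} {v : HeightOneSpectrum (𝓞 K)} {w : HeightOneSpectrum (𝓞 L)}
    (h : w.asIdeal.LiesOver v.asIdeal) : w ∈ PA L l ↔ v ∈ PA K l := by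
  rw [PA_ov (K := K)]
  constructor
  · rintro ⟨v', hv', h'⟩
    exact under_unique h h' ▸ hv'
  · intro hv
    exact ⟨v, hv, h⟩

theorem inc_mem_Rl (l : ℕ) (a : Kˣ) : inc K L a ∈ Rl L l ↔ a ∈ Rl K l := by
  rw [mem_Rl, mem_Rl]
  constructor
  · intro h v hv
    obtain ⟨w, hw⟩ := exists_over (L := L) v
    exact (val_eq_one_iff v w _).mp (h w ((mem_PA_iff hw).mpr hv))
  · intro h w hw
    obtain ⟨v, hv⟩ := exists_under (K := K) w
    exact (val_eq_one_iff v w _).mpr (h v ((mem_PA_iff hv).mp hw))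

theorem ov_disjoint {S : Set (HeightOneSpectrum (𝓞 K))} {l : ℕ} (h : Disjoint S (PA K l)) :
    Disjoint (ov L S) (PA L l) := by
  rw [Set.disjoint_left]
  rintro w ⟨v, hv, hw⟩ hw'
  exact Set.disjoint_left.mp h hv ((mem_PA_iff hw).mp hw')

theorem ker_inf_unit [IsGalois K L] (σ : L ≃ₐ[K] L)
    (hσ : ∀ τ, τ ∈ Subgroup.zpowers σ) (S : Set (HeightOneSpectrum (𝓞 K))) :
    (sg K σ).ker ⊓ (ov L S).unit L = (S.unit K).map (inc K L) := by
  ext x
  rw [Subgroup.mem_inf, ker_sg_eq σ hσ]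
  constructor
  · rintro ⟨⟨a, rfl⟩, h⟩
    exact ⟨a, (inc_mem_unit S a).mp h, rfl⟩
  · rintro ⟨a, ha, rfl⟩
    exact ⟨⟨a, rfl⟩, (inc_mem_unit S a).mpr ha⟩

end Primes

end Crest.Agent.R018.LogFx575
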