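import Crest.Agent.R018.LogF_575

/-!
# Row 18, LEMMA LOG, block F part 2 (helper575): Galois stability, finiteness of `Rl/Uk`,
and the conditional final theorem.
-/

set_option autoImplicit false
set_option linter.unusedSectionVars false

noncomputable section

open scoped NumberField
open IsDedekindDomain

namespace Crest.Agent.R018.LogGx575

open Crest.Agent.R018.LogDefsx575 Crest.Agent.R018.LogEx575 Crest.Agent.R018.LogFx575

section Stability

variable {K L : Type*} [Field K] [NumberField K] [Field L] [NumberField L] [Algebra K L]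

/-- the prime `σ⁻¹ w` -/
def cm (σ : L ≃ₐ[K] L) (w : HeightOneSpectrum (𝓞 L)) : HeightOneSpectrum (𝓞 L) where
  asIdeal := w.asIdeal.comap (NumberField.RingOfIntegers.mapRingEquiv σ.toRingEquiv)
  isPrime := Ideal.comap_isPrime _ _
  ne_bot := by
    intro h
    apply w.ne_bot
    rw [eq_bot_iff]
    intro x hx
    have h1 : (NumberField.RingOfIntegers.mapRingEquiv σ.toRingEquiv).symm x ∈
        w.asIdeal.comap (NumberField.RingOfIntegers.mapRingEquiv σ.toRingEquiv) := by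
      rw [Ideal.mem_comap]
      simpa using hx
    rw [h] at h1
    simpa using h1

theorem cm_liesOver (σ : L ≃ₐ[K] L) (w : HeightOneSpectrum (𝓞 L)) (v : HeightOneSpectrum (𝓞 K))
    (h : w.asIdeal.LiesOver v.asIdeal) : (cm σ w).asIdeal.LiesOver v.asIdeal := by
  constructor
  rw [h.over]
  ext x
  rw [Ideal.mem_comap, Ideal.mem_comap]
  show _ ↔ _ ∈ w.asIdeal
  have : NumberField.RingOfIntegers.mapRingEquiv σ.toRingEquiv (algebraMap (𝓞 K) (𝓞 L) x)
      = algebraMap (𝓞 K) (𝓞 L) x := by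
    apply NumberField.RingOfIntegers.ext
    exact σ.commutes _
  rw [this]

theorem val_le_one_of_cm (σ : L ≃ₐ[K] L) (w : HeightOneSpectrum (𝓞 L)) (x : L)
    (h : (cm σ w).valuation L x ≤ 1) : w.valuation L (σ x) ≤ 1 := by
  obtain ⟨n, d, hd⟩ := HeightOneSpectrum.exists_primeCompl_mul_eq_of_integer _ x h
  have h1 : σ x * ((NumberField.RingOfIntegers.mapRingEquiv σ.toRingEquiv (d : 𝓞 L) : 𝓞 L) : L)
      = ((NumberField.RingOfIntegers.mapRingEquiv σ.toRingEquiv n : 𝓞 L) : L) := by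
    have := congrArg σ hd
    rw [map_mul] at this
    exact this
  have h2 : w.valuation L
      ((NumberField.RingOfIntegers.mapRingEquiv σ.toRingEquiv (d : 𝓞 L) : 𝓞 L) : L) = 1 := by
    have := (HeightOneSpectrum.valuation_eq_one_iff_notMem (K := L) w
      (r := NumberField.RingOfIntegers.mapRingEquiv σ.toRingEquiv (d : 𝓞 L)))
    exact this.mpr d.2
  have h3 : w.valuation L
      ((NumberField.RingOfIntegers.mapRingEquiv σ.toRingEquiv n : 𝓞 L) : L) ≤ 1 :=
    w.valuation_le_one _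
  rw [← h1, map_mul, h2, mul_one] at h3
  exact h3

theorem val_eq_one_of_cm (σ : L ≃ₐ[K] L) (w : HeightOneSpectrum (𝓞 L)) (x : L)
    (h : (cm σ w).valuation L x = 1) : w.valuation L (σ x) = 1 := by
  refine le_antisymm (val_le_one_of_cm σ w x h.le) ?_
  have h1 : (cm σ w).valuation L x⁻¹ ≤ 1 := by rw [map_inv₀, h, inv_one]
  have h2 := val_le_one_of_cm σ w _ h1
  have h0 : w.valuation L (σ x) ≠ 0 := by
    rw [Valuation.ne_zero_iff]
    intro hx
    have : x = 0 := by simpa using hx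
    rw [this, map_zero] at h
    exact zero_ne_one h
  rw [map_inv₀, map_inv₀] at h2
  exact (inv_le_one₀ (zero_lt_iff.mpr h0)).mp h2

/-- `Set.unit`-groups of sets of primes coming from the base are stable under `sg σ` -/
theorem map_sg_le (σ : L ≃ₐ[K] L) (S : Set (HeightOneSpectrum (𝓞 K))) :
    ((ov L S).unit L).map (sg K σ) ≤ (ov L S).unit L := by
  rintro _ ⟨x, hx, rfl⟩ w hw
  have hw' : cm σ w ∉ ov L S := by
    rintro ⟨v, hv, h⟩
    apply hw
    obtain ⟨v', hv'⟩ := exists_under (K := K) w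
    have := under_unique h (cm_liesOver σ w v' hv')
    exact ⟨v, hv, this ▸ hv'⟩
  have h1 : w.valuation L (σ (x : L)) = 1 := val_eq_one_of_cm σ w _ (hx _ hw')
  rw [sg_apply, map_div₀, h1]
  have h2 : w.valuation L (x : L) = 1 := hx w hw
  rw [h2, div_one]

end Stability

section Finite

variable {K : Type*} [Field K] [NumberField K]

theorem PA_pow (l : ℕ) {j : ℕ} (hj : j ≠ 0) : PA K (l ^ j) = PA K l := by
  ext v
  show ((l ^ j : ℕ) : 𝓞 K) ∈ v.asIdeal ↔ (l : 𝓞 K) ∈ v.asIdeal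
  rw [Nat.cast_pow]
  exact v.isPrime.pow_mem_iff_mem _ (Nat.pos_of_ne_zero hj)

theorem approx_pow (l : ℕ) {j : ℕ} (hj : j ≠ 0) (b : K)
    (hb : ∀ v ∈ PA K l, v.valuation K b ≤ 1) :
    ∃ a : 𝓞 K, Cg l j (b - (a : K)) := by
  have := approx (l ^ j) b (by rwa [PA_pow l hj])
  obtain ⟨a, ha⟩ := this
  refine ⟨a, fun v hv => ?_⟩
  have := ha v (by rwa [PA_pow l hj])
  rwa [Nat.cast_pow, map_pow] at this

theorem Cg_of_mem_span {l j : ℕ} {a : 𝓞 K} (h : a ∈ Ideal.span {((l : 𝓞 K)) ^ j}) :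
    Cg l j (a : K) := by
  obtain ⟨b, rfl⟩ := Ideal.mem_span_singleton'.mp h
  have := (Cg_int (K := K) l b).mul ((Cg_l (K := K) l).pow j)
  simpa using this

theorem Cg.congr_mul {l k : ℕ} {x y : K} (h : Cg l k (x - y)) {z : Kˣ} (hz : z ∈ Rl K l) :
    Cg l k (x * z - y * z) := by
  intro v hv
  rw [← sub_mul, map_mul, mem_Rl.mp hz v hv, mul_one]
  exact h v hv

theorem relIndex_Uk_ne_zero {l : ℕ} (hl : l ≠ 0) (j : ℕ) : (Uk K l j).relIndex (Rl K l) ≠ 0 := by
  -- reduce to `j ≠ 0`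
  suffices h : ∀ j, j ≠ 0 → (Uk K l j).relIndex (Rl K l) ≠ 0 by
    intro h0
    refine h (j + 1) (Nat.succ_ne_zero j) (Subgroup.relIndex_eq_zero_of_le_left ?_ h0)
    intro x hx
    rw [mem_Uk] at hx ⊢
    exact ⟨hx.1, hx.2.mono (Nat.le_succ j)⟩
  clear j
  intro j hj
  have hne : Ideal.span {((l : 𝓞 K)) ^ j} ≠ ⊥ := by
    rw [Ne, Ideal.span_singleton_eq_bot]
    exact pow_ne_zero _ (by exact_mod_cast hl)
  have hfin : Finite (𝓞 K ⧸ Ideal.span {((l : 𝓞 K)) ^ j}) :=
    Ideal.finiteQuotientOfFreeOfNeBot _ hne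
  have hex : ∀ x : Rl K l, ∃ a : 𝓞 K, Cg l j (((x : Kˣ) : K) - (a : K)) := fun x =>
    approx_pow l hj _ fun v hv => (mem_Rl.mp x.2 v hv).le
  choose F hF using hex
  let φ : (Rl K l) ⧸ ((Uk K l j).subgroupOf (Rl K l)) → 𝓞 K ⧸ Ideal.span {((l : 𝓞 K)) ^ j} :=
    fun q => Ideal.Quotient.mk _ (F q.out)
  have hφ : Function.Injective φ := by
    intro p q hpq
    have h1 : F p.out - F q.out ∈ Ideal.span {((l : 𝓞 K)) ^ j} := Ideal.Quotient.eq.mp hpq
    have h2 : Cg l j (((p.out : Rl K l) : Kˣ) - ((q.out : Rl K l) : Kˣ) : K) := by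
      have e : (((p.out : Rl K l) : Kˣ) - ((q.out : Rl K l) : Kˣ) : K)
          = ((((p.out : Rl K l) : Kˣ) : K) - (F p.out : K)) - ((((q.out : Rl K l) : Kˣ) : K)
            - (F q.out : K)) + ((F p.out - F q.out : 𝓞 K) : K) := by
        push_cast; ring
      rw [e]
      exact ((hF _).sub (hF _)).add (Cg_of_mem_span h1)
    rw [← p.out_eq', ← q.out_eq']
    symm
    rw [QuotientGroup.eq, Subgroup.mem_subgroupOf]
    rw [mem_Uk]
    refine ⟨SetLike.coe_mem _, ?_⟩
    have h3 := Cg.congr_mul h2 (z := (((q.out : Rl K l) : Kˣ))⁻¹) (inv_mem (SetLike.coe_mem _))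
    have e : (((((q.out)⁻¹ * p.out : Rl K l) : Kˣ) : K) - 1)
        = (((p.out : Rl K l) : Kˣ) : K) * ((((q.out : Rl K l) : Kˣ)⁻¹ : Kˣ) : K)
          - (((q.out : Rl K l) : Kˣ) : K) * ((((q.out : Rl K l) : Kˣ)⁻¹ : Kˣ) : K) := by
      have : (((q.out : Rl K l) : Kˣ) : K) * ((((q.out : Rl K l) : Kˣ)⁻¹ : Kˣ) : K) = 1 := by simp
      rw [this]
      push_cast
      ring
    rw [e]
    exact h3
  have : Finite ((Rl K l) ⧸ ((Uk K l j).subgroupOf (Rl K l))) := Finite.of_injective φ hφ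
  exact Subgroup.index_ne_zero_of_finite

end Finite

end Crest.Agent.R018.LogGx575
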