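import Mathlib

/-!
Minkowski units: a Galois-equivariant family of units indexed by the infinite places, with the
product as the only relation, generating a subgroup of finite index.
-/

set_option autoImplicit false

open NumberField NumberField.InfinitePlace NumberField.Units Module
open scoped Pointwise

namespace Crest.Agent.R018.MinkUx824

/-- a real matrix with negative off-diagonal entries and vanishing row sums: a vector of the left
kernel with one positive coordinate is positive -/
theorem left_kernel_pos {T : Type*} [Fintype T] (A : T → T → ℝ)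
    (hneg : ∀ t w, t ≠ w → A t w < 0) (hsum : ∀ t, ∑ w, A t w = 0) (c : T → ℝ)
    (hc : ∀ w, ∑ t, c t * A t w = 0) (t₀ : T) (h : 0 < c t₀) : ∀ t, 0 < c t := by
  classical
  by_contra! hcon
  obtain ⟨t₁, ht₁⟩ := hcon
  set P : Finset T := Finset.univ.filter fun t => 0 < c t with hP
  have hS : ∑ t, c t * ∑ w ∈ P, A t w = 0 := by
    have : ∑ w ∈ P, ∑ t, c t * A t w = 0 := Finset.sum_eq_zero fun w _ => hc w
    rw [Finset.sum_comm] at this
    simpa [Finset.mul_sum] using this
  have hnn : ∀ t, 0 ≤ c t * ∑ w ∈ P, A t w := by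
    intro t
    by_cases ht : 0 < c t
    · apply mul_nonneg ht.le
      have h1 : ∑ w ∈ P, A t w = - ∑ w ∈ Pᶜ, A t w := by
        have := Finset.sum_add_sum_compl P (fun w => A t w)
        rw [hsum t] at this
        linarith
      rw [h1]
      have : ∑ w ∈ Pᶜ, A t w ≤ 0 := by
        apply Finset.sum_nonpos
        intro w hw
        apply (hneg t w _).le
        rintro rfl
        simp [hP] at hw
        linarith
      linarith
    · push Not at ht
      apply mul_nonneg_of_nonpos_of_nonpos ht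
      apply Finset.sum_nonpos
      intro w hw
      apply (hneg t w _).le
      rintro rfl
      simp [hP] at hw
      linarith
  have hpos : 0 < c t₀ * ∑ w ∈ P, A t₀ w := by
    apply mul_pos h
    have h1 : ∑ w ∈ P, A t₀ w = - ∑ w ∈ Pᶜ, A t₀ w := by
      have := Finset.sum_add_sum_compl P (fun w => A t₀ w)
      rw [hsum t₀] at this
      linarith
    rw [h1]
    have : ∑ w ∈ Pᶜ, A t₀ w < 0 := by
      apply Finset.sum_neg
      · intro w hw
        apply hneg t₀ w
        rintro rfl
        simp [hP] at hw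
        linarith
      · exact ⟨t₁, by simp [hP, ht₁]⟩
    linarith
  have := Finset.sum_pos' (fun t _ => hnn t) ⟨t₀, Finset.mem_univ _, hpos⟩
  linarith

section Family

variable {L : Type*} [Field L] [NumberField L]

/-- the sign property of a family of units indexed by the infinite places -/
def Sgn (η : InfinitePlace L → (𝓞 L)ˣ) : Prop :=
  ∀ t w : InfinitePlace L, w ≠ t → Real.log (w (η t)) < 0

/-- integer relations (modulo torsion) -/
def Rel (η : InfinitePlace L → (𝓞 L)ˣ) (c : InfinitePlace L → ℤ) : Prop :=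
  ∏ t, η t ^ c t ∈ torsion L

theorem log_prod (η : InfinitePlace L → (𝓞 L)ˣ) (c : InfinitePlace L → ℤ) (w : InfinitePlace L) :
    Real.log (w ((∏ t, η t ^ c t : (𝓞 L)ˣ) : L)) = ∑ t, (c t : ℝ) * Real.log (w (η t)) := by
  have h : ∀ s : Finset (InfinitePlace L), Real.log (w ((∏ t ∈ s, η t ^ c t : (𝓞 L)ˣ) : L)) =
      ∑ t ∈ s, (c t : ℝ) * Real.log (w (η t)) := by
    classical
    intro s
    induction s using Finset.induction_on with
    | empty => simp
    | insert a s ha ih =>
      rw [Finset.prod_insert ha, Finset.sum_insert ha, ← ih]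
      rw [Units.coe_mul, map_mul, Real.log_mul (pos_at_place _ _).ne' (pos_at_place _ _).ne']
      congr 1
      rw [Units.coe_zpow, map_zpow₀, Real.log_zpow]
  exact h _

theorem Rel.sum {η : InfinitePlace L → (𝓞 L)ˣ} {c : InfinitePlace L → ℤ} (h : Rel η c)
    (w : InfinitePlace L) : ∑ t, (c t : ℝ) * Real.log (w (η t)) = 0 := by
  rw [← log_prod]
  have := (mem_torsion (K := L)).mp h w
  rw [this, Real.log_one]

theorem Rel.pos {η : InfinitePlace L → (𝓞 L)ˣ} (hη : Sgn η) {c : InfinitePlace L → ℤ}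
    (h : Rel η c) (t₀ : InfinitePlace L) (h0 : 0 < c t₀) : ∀ t, 0 < c t := by
  have := left_kernel_pos (T := InfinitePlace L) (fun t w => (mult w : ℝ) * Real.log (w (η t : L)))
    (fun t w htw => mul_neg_of_pos_of_neg (by exact_mod_cast mult_pos) (hη t w htw.symm))
    (fun t => sum_mult_mul_log (η t)) (fun t => (c t : ℝ))
    (fun w => by
      have := h.sum w
      calc ∑ t, (c t : ℝ) * ((mult w : ℝ) * Real.log (w (η t)))
          = (mult w : ℝ) * ∑ t, (c t : ℝ) * Real.log (w (η t)) := by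
            rw [Finset.mul_sum]; exact Finset.sum_congr rfl fun t _ => by ring
        _ = 0 := by rw [this, mul_zero]) t₀ (by exact_mod_cast h0)
  intro t
  exact_mod_cast this t

theorem Rel.neg {η : InfinitePlace L → (𝓞 L)ˣ} {c : InfinitePlace L → ℤ} (h : Rel η c) :
    Rel η (-c) := by
  unfold Rel at *
  have : ∏ t, η t ^ (-c) t = (∏ t, η t ^ c t)⁻¹ := by
    rw [← Finset.prod_inv_distrib]
    exact Finset.prod_congr rfl fun t _ => by simp [zpow_neg]
  rw [this]
  exact inv_mem h

theorem Rel.add {η : InfinitePlace L → (𝓞 L)ˣ} {c d : InfinitePlace L → ℤ} (h : Rel η c)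
    (h' : Rel η d) : Rel η (c + d) := by
  unfold Rel at *
  have : ∏ t, η t ^ (c + d) t = (∏ t, η t ^ c t) * ∏ t, η t ^ d t := by
    rw [← Finset.prod_mul_distrib]
    exact Finset.prod_congr rfl fun t _ => by simp [zpow_add]
  rw [this]
  exact mul_mem h h'

theorem Rel.eq_zero {η : InfinitePlace L → (𝓞 L)ˣ} (hη : Sgn η) {c : InfinitePlace L → ℤ}
    (h : Rel η c) (t₀ : InfinitePlace L) (h0 : c t₀ = 0) : c = 0 := by
  by_contra hne
  obtain ⟨t, ht⟩ : ∃ t, c t ≠ 0 := by
    by_contra! hh
    exact hne (funext hh)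
  rcases lt_or_gt_of_ne ht with h1 | h1
  · have := h.neg.pos hη t (by simpa using h1) t₀
    simp [h0] at this
  · have := h.pos hη t h1 t₀
    simp [h0] at this

theorem exists_rel_of_card {ι : Type*} [Fintype ι] (u : ι → (𝓞 L)ˣ)
    (h : Units.rank L < Fintype.card ι) :
    ∃ c : ι → ℤ, ∏ i, u i ^ c i = 1 ∧ ∃ i, c i ≠ 0 := by
  have hnot : ¬ LinearIndependent ℤ (fun i => Additive.ofMul (u i)) := by
    intro hli
    have := hli.fintype_card_le_finrank
    rw [Units.finrank_eq] at this
    omega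
  rw [Fintype.not_linearIndependent_iff] at hnot
  obtain ⟨c, hc, i, hi⟩ := hnot
  refine ⟨c, ?_, i, hi⟩
  have h1 : ∑ i, c i • Additive.ofMul (u i) = Additive.ofMul (∏ i, u i ^ c i) := by
    rw [ofMul_prod]
    rfl
  rw [h1] at hc
  exact hc

theorem rank_lt_card : Units.rank L < Fintype.card (InfinitePlace L) := by
  have : 0 < Fintype.card (InfinitePlace L) := Fintype.card_pos
  unfold Units.rank
  omega

/-- a positive relation -/
theorem exists_rel_pos {η : InfinitePlace L → (𝓞 L)ˣ} (hη : Sgn η) :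
    ∃ c : InfinitePlace L → ℤ, Rel η c ∧ ∀ t, 0 < c t := by
  obtain ⟨c, hc, i, hi⟩ := exists_rel_of_card η rank_lt_card
  have hc : Rel η c := by
    unfold Rel
    rw [hc]
    exact one_mem _
  rcases lt_or_gt_of_ne hi with h1 | h1
  · exact ⟨-c, hc.neg, hc.neg.pos hη i (by simpa using h1)⟩
  · exact ⟨c, hc, hc.pos hη i h1⟩

/-- a power of every unit lies in the subgroup generated by the family -/
theorem exists_pow_mem {η : InfinitePlace L → (𝓞 L)ˣ} (hη : Sgn η) (H : Subgroup (𝓞 L)ˣ)
    (hH : ∀ t, ∃ m : ℕ, 0 < m ∧ η t ^ m ∈ H) (u : (𝓞 L)ˣ) : ∃ m : ℕ, 0 < m ∧ u ^ m ∈ H := by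
  classical
  obtain ⟨t₀⟩ : Nonempty (InfinitePlace L) := inferInstance
  set v : InfinitePlace L → (𝓞 L)ˣ := fun t => if t = t₀ then u else η t with hv
  obtain ⟨c, hc, i, hi⟩ := exists_rel_of_card v rank_lt_card
  have hc0 : c t₀ ≠ 0 := by
    intro h0
    have : Rel η c := by
      unfold Rel
      have : ∏ t, η t ^ c t = ∏ t, v t ^ c t := by
        refine Finset.prod_congr rfl fun t _ => ?_
        by_cases ht : t = t₀
        · subst ht; simp [h0]
        · simp [hv, ht]
      rw [this, hc]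
      exact one_mem _
    have := this.eq_zero hη t₀ h0
    exact hi (by rw [this]; rfl)
  -- common exponent
  choose m hm0 hmem using hH
  set M : ℕ := ∏ t, m t with hM
  have hMpos : 0 < M := Finset.prod_pos fun t _ => hm0 t
  have hMη : ∀ t, η t ^ M ∈ H := by
    intro t
    obtain ⟨k, hk⟩ : m t ∣ M := Finset.dvd_prod_of_mem m (Finset.mem_univ t)
    rw [hk, pow_mul]
    exact pow_mem (hmem t) _
  have h1 : (∏ t, v t ^ c t) ^ M = 1 := by rw [hc, one_pow]
  have h3 : (u ^ c t₀) ^ M ∈ H := by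
    rw [← Finset.mul_prod_erase Finset.univ _ (Finset.mem_univ t₀), mul_pow] at h1
    have h4 : v t₀ = u := by simp [hv]
    rw [h4] at h1
    rw [eq_inv_of_mul_eq_one_left h1]
    apply inv_mem
    rw [← Finset.prod_pow]
    apply prod_mem
    intro t ht
    have ht' : t ≠ t₀ := (Finset.mem_erase.mp ht).1
    have : v t = η t := by simp [hv, ht']
    rw [this, ← zpow_natCast, ← zpow_mul, mul_comm, zpow_mul, zpow_natCast]
    exact zpow_mem (hMη t) _
  refine ⟨(c t₀).natAbs * M, Nat.mul_pos (Int.natAbs_pos.mpr hc0) hMpos, ?_⟩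
  rw [pow_mul]
  rcases Int.natAbs_eq (c t₀) with h5 | h5
  · rw [h5, zpow_natCast] at h3
    exact h3
  · rw [h5, zpow_neg, inv_pow, zpow_natCast] at h3
    simpa only [inv_inv] using inv_mem h3

theorem finiteIndex_of_pow_mem (H : Subgroup (𝓞 L)ˣ)
    (h : ∀ u : (𝓞 L)ˣ, ∃ m : ℕ, 0 < m ∧ u ^ m ∈ H) : H.FiniteIndex := by
  have hfg : Group.FG ((𝓞 L)ˣ ⧸ H) := by
    have : Group.FG (𝓞 L)ˣ := Group.fg_iff_monoid_fg.mpr inferInstance
    exact Group.fg_of_surjective (QuotientGroup.mk'_surjective H)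
  have : Finite ((𝓞 L)ˣ ⧸ H) := by
    apply CommGroup.finite_of_fg_isMulTorsion
    intro x
    obtain ⟨u, rfl⟩ := QuotientGroup.mk'_surjective H x
    obtain ⟨m, hm, hmem⟩ := h u
    rw [isOfFinOrder_iff_pow_eq_one]
    refine ⟨m, hm, ?_⟩
    rw [← map_pow]
    exact (QuotientGroup.eq_one_iff _).mpr hmem
  exact Subgroup.finiteIndex_of_finite_quotient

end Family

section Equivariant

/-- equivariant choice for a free action -/
theorem exists_equivariant {G X U : Type*} [Group G] [MulAction G X] [MulAction G U]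
    (hfree : ∀ (g : G) (x : X), g • x = x → g = 1) (P : X → U → Prop)
    (hP : ∀ (g : G) (x : X) (u : U), P x u → P (g • x) (g • u)) (hex : ∀ x, ∃ u, P x u) :
    ∃ η : X → U, (∀ (g : G) (x : X), η (g • x) = g • η x) ∧ ∀ x, P x (η x) := by
  classical
  choose u hu using hex
  let r : X → X := fun w => Quotient.out (Quotient.mk (MulAction.orbitRel G X) w)
  have hr : ∀ w, ∃ g : G, g • r w = w := by
    intro w
    have h1 : (MulAction.orbitRel G X) (r w) w :=
      Quotient.exact (Quotient.out_eq (Quotient.mk (MulAction.orbitRel G X) w))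
    have h2 := (MulAction.orbitRel G X).symm h1
    exact (MulAction.orbitRel_apply.mp h2)
  have hrσ : ∀ (g : G) (w : X), r (g • w) = r w := by
    intro g w
    have : Quotient.mk (MulAction.orbitRel G X) (g • w) =
        Quotient.mk (MulAction.orbitRel G X) w :=
      Quotient.sound (MulAction.orbitRel_apply.mpr ⟨g, rfl⟩)
    simp only [r, this]
  choose g hg using hr
  have hgσ : ∀ (σ : G) (w : X), g (σ • w) = σ * g w := by
    intro σ w
    have h1 : ((σ * g w)⁻¹ * g (σ • w)) • r w = r w := by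
      rw [mul_smul]
      have := hg (σ • w)
      rw [hrσ] at this
      rw [this, inv_smul_eq_iff, mul_smul, hg w]
    have := hfree _ _ h1
    rw [inv_mul_eq_one] at this
    exact this.symm
  refine ⟨fun w => g w • u (r w), ?_, ?_⟩
  · intro σ w
    change g (σ • w) • u (r (σ • w)) = σ • g w • u (r w)
    rw [hrσ, hgσ, mul_smul]
  · intro w
    have := hP (g w) _ _ (hu (r w))
    rwa [hg w] at this

/-- products over a finite `G`-set of an equivariant family -/
theorem prod_smul_inv {G X U : Type*} [Group G] [MulAction G X] [Fintype X] [CommGroup U]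
    [MulDistribMulAction G U] (η : X → U) (hη : ∀ (g : G) (x : X), η (g • x) = g • η x)
    (g : G) (c : X → ℤ) : ∏ t, η t ^ c (g⁻¹ • t) = g • ∏ t, η t ^ c t := by
  have h1 : ∏ t, η t ^ c (g⁻¹ • t) = ∏ t, η (g • t) ^ c t := by
    have := Equiv.prod_comp (MulAction.toPerm g : Equiv.Perm X) (fun t => η t ^ c (g⁻¹ • t))
    rw [← this]
    refine Finset.prod_congr rfl fun t _ => ?_
    simp
  rw [h1, Finset.smul_prod']
  refine Finset.prod_congr rfl fun t _ => ?_
  rw [hη, smul_zpow']

end Equivariant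

section Galois

variable {K L : Type*} [Field K] [Field L] [Algebra K L]

variable (L) in
/-- the inclusion of the integral units -/
def iu : (𝓞 L)ˣ →* Lˣ := Units.map (algebraMap (𝓞 L) L : 𝓞 L →* L)

theorem coe_iu (u : (𝓞 L)ˣ) : ((iu L u : Lˣ) : L) = (u : L) := rfl

theorem smul_iu (σ : L ≃ₐ[K] L) (u : (𝓞 L)ˣ) :
    σ • iu L u = iu L (Units.map (MulSemiringAction.toRingHom (L ≃ₐ[K] L) (𝓞 L) σ : 𝓞 L →* 𝓞 L) u) := by
  ext
  rfl

theorem place_smul (σ : L ≃ₐ[K] L) (w : InfinitePlace L) (u : Lˣ) :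
    w ((σ • u : Lˣ) : L) = (σ⁻¹ • w) (u : L) := by
  rw [InfinitePlace.smul_apply]
  rfl

variable [NumberField L]

/-- an equivariant family of units with the sign property -/
theorem exists_equivariant_sgn
    (hfree : ∀ (σ : L ≃ₐ[K] L) (w : InfinitePlace L), σ • w = w → σ = 1) :
    ∃ η : InfinitePlace L → (𝓞 L)ˣ, Sgn η ∧
      ∀ (σ : L ≃ₐ[K] L) w, iu L (η (σ • w)) = σ • iu L (η w) := by
  classical
  obtain ⟨η, h1, h2⟩ := exists_equivariant (G := L ≃ₐ[K] L) (X := InfinitePlace L) (U := Lˣ) hfree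
    (fun w x => (∃ u : (𝓞 L)ˣ, iu L u = x) ∧ ∀ w', w' ≠ w → Real.log (w' (x : L)) < 0)
    (by
      rintro σ w x ⟨⟨u, rfl⟩, hx⟩
      refine ⟨⟨_, (smul_iu σ u).symm⟩, ?_⟩
      intro w' hw'
      rw [place_smul]
      apply hx
      rintro rfl
      exact hw' (by rw [smul_inv_smul]))
    (by
      intro w
      obtain ⟨u, hu⟩ := dirichletUnitTheorem.exists_unit L w
      exact ⟨iu L u, ⟨u, rfl⟩, fun w' hw' => hu w' hw'⟩)
  choose h3 h4 using h2
  choose u hu using h3
  refine ⟨u, ?_, ?_⟩
  · intro t w hwt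
    have := h4 t w hwt
    rw [← hu t] at this
    exact this
  · intro σ w
    rw [hu, hu, h1]

/-- **Minkowski units** -/
theorem exists_minkowski [FiniteDimensional K L]
    (hfree : ∀ (σ : L ≃ₐ[K] L) (w : InfinitePlace L), σ • w = w → σ = 1) :
    ∃ ε : InfinitePlace L → Lˣ, (∀ (σ : L ≃ₐ[K] L) w, ε (σ • w) = σ • ε w) ∧
      (∀ w, ε w ∈ (iu L).range) ∧ ∏ w, ε w = 1 ∧
      (∀ c : InfinitePlace L → ℤ, ∏ w, ε w ^ c w = 1 → ∀ w w', c w = c w') ∧
      (Subgroup.closure (Set.range ε)).relIndex (iu L).range ≠ 0 := by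
  classical
  obtain ⟨u, hu, heq⟩ := exists_equivariant_sgn hfree
  obtain ⟨c, hc, hpos⟩ := exists_rel_pos hu
  have hinj : Function.Injective (iu L) := by
    intro a b hab
    have := congrArg (fun x : Lˣ => (x : L)) hab
    simp only [coe_iu] at this
    exact Units.ext (by exact_mod_cast this)
  set k : ℕ := torsionOrder L with hk
  have hk0 : 0 < k := Nat.pos_of_ne_zero (torsionOrder_ne_zero L)
  -- make the relation invariant
  set c' : InfinitePlace L → ℤ := fun t => ∑ σ : L ≃ₐ[K] L, c (σ⁻¹ • t) with hc'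
  have hc'pos : ∀ t, 0 < c' t := fun t => Finset.sum_pos (fun σ _ => hpos _) ⟨1, Finset.mem_univ _⟩
  have hc'inv : ∀ (σ : L ≃ₐ[K] L) t, c' (σ • t) = c' t := by
    intro σ t
    simp only [hc']
    have := Equiv.sum_comp (Equiv.mulLeft σ) (fun τ : L ≃ₐ[K] L => c (τ⁻¹ • σ • t))
    rw [← this]
    refine Finset.sum_congr rfl fun τ _ => ?_
    simp [mul_smul]
  set z : Lˣ := iu L (∏ t, u t ^ c t) with hz
  have hzk : z ^ k = 1 := by
    have h1 : (∏ t, u t ^ c t) ^ k = 1 := by
      have h2 : (∏ t, u t ^ c t) ∈ rootsOfUnity (torsionOrder L) (𝓞 L) := by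
        rw [rootsOfUnity_eq_torsion]
        exact hc
      exact (mem_rootsOfUnity _ _).mp h2
    rw [hz, ← map_pow, h1, map_one]
  have hz' : z = ∏ t, iu L (u t) ^ c t := by
    rw [hz, map_prod]
    exact Finset.prod_congr rfl fun t _ => by rw [map_zpow]
  have hprod : ∏ t, iu L (u t) ^ c' t = ∏ σ : L ≃ₐ[K] L, σ • z := by
    have h2 : ∀ σ : L ≃ₐ[K] L, σ • z = ∏ t, iu L (u t) ^ c (σ⁻¹ • t) := by
      intro σ
      rw [hz']
      exact (prod_smul_inv (fun t => iu L (u t)) heq σ c).symm
    simp_rw [h2]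
    rw [Finset.prod_comm]
    refine Finset.prod_congr rfl fun t _ => ?_
    have h3 : ∀ s : Finset (L ≃ₐ[K] L),
        iu L (u t) ^ (∑ σ ∈ s, c (σ⁻¹ • t)) = ∏ σ ∈ s, iu L (u t) ^ c (σ⁻¹ • t) := by
      intro s
      induction s using Finset.induction_on with
      | empty => simp
      | insert a s ha ih => rw [Finset.sum_insert ha, Finset.prod_insert ha, zpow_add, ih]
    exact h3 _
  have hprodk : ∏ t, iu L (u t) ^ (c' t * k) = 1 := by
    have : ∏ t, iu L (u t) ^ (c' t * k) = (∏ t, iu L (u t) ^ c' t) ^ k := by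
      rw [← Finset.prod_pow]
      refine Finset.prod_congr rfl fun t _ => ?_
      rw [zpow_mul, zpow_natCast]
    rw [this, hprod, ← Finset.prod_pow]
    apply Finset.prod_eq_one
    intro σ _
    rw [← smul_pow', hzk, smul_one]
  refine ⟨fun w => iu L (u w) ^ (c' w * k), ?_, ?_, hprodk, ?_, ?_⟩
  · intro σ w
    change iu L (u (σ • w)) ^ (c' (σ • w) * k) = σ • iu L (u w) ^ (c' w * k)
    rw [heq, hc'inv, smul_zpow']
  · intro w
    exact (iu L).range.zpow_mem (MonoidHom.mem_range.mpr ⟨u w, rfl⟩) _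
  · intro d hd w w'
    have h1 : Rel u (fun t => c' t * k * d t - c' t * k * d w') := by
      unfold Rel
      have : ∏ t, u t ^ (c' t * k * d t - c' t * k * d w') = 1 := by
        apply hinj
        rw [map_prod, map_one]
        have h5 : ∀ t, iu L (u t ^ (c' t * k * d t - c' t * k * d w')) =
            (iu L (u t) ^ (c' t * k)) ^ d t * ((iu L (u t) ^ (c' t * k)) ^ d w')⁻¹ := by
          intro t
          rw [map_zpow, zpow_sub, zpow_mul _ (c' t * k), zpow_mul _ (c' t * k)]
        simp_rw [h5]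
        rw [Finset.prod_mul_distrib, hd, one_mul, Finset.prod_inv_distrib, Finset.prod_zpow,
          hprodk, one_zpow, inv_one]
      rw [this]
      exact one_mem _
    have h2 := congrFun (h1.eq_zero hu w' (by simp)) w
    simp only [Pi.zero_apply] at h2
    rw [← mul_sub] at h2
    have h3 : c' w * k ≠ 0 := mul_ne_zero (hc'pos w).ne' (by exact_mod_cast hk0.ne')
    have := (mul_eq_zero.mp h2).resolve_left h3
    omega
  · rw [← Subgroup.index_comap]
    have : (Subgroup.comap (iu L) (Subgroup.closure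
        (Set.range fun w => iu L (u w) ^ (c' w * k)))).FiniteIndex := by
      apply finiteIndex_of_pow_mem
      apply exists_pow_mem hu
      intro t
      refine ⟨(c' t).toNat * k, Nat.mul_pos (by have := hc'pos t; omega) hk0, ?_⟩
      rw [Subgroup.mem_comap]
      apply Subgroup.subset_closure
      refine ⟨t, ?_⟩
      change iu L (u t) ^ (c' t * k) = _
      rw [map_pow, ← zpow_natCast]
      congr 1
      push_cast
      rw [Int.toNat_of_nonneg (hc'pos t).le]
    exact this.index_ne_zero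

end Galois

end Crest.Agent.R018.MinkUx824
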