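import Mathlib

/-!
Row 18, CORE section 9 (helper476), abstract part: counting eigenclasses modulo `l^n`-th powers.
-/

set_option autoImplicit false
set_option linter.unusedSectionVars false

namespace Crest.Agent.R018.MinusAx476

/-- a finite abelian group killed by `m`, `l ∤ m`, has order prime to `l` -/
theorem not_dvd_card {Q : Type*} [CommGroup Q] [Finite Q] {l m : ℕ} (hl : l.Prime)
    (hm : ¬ l ∣ m) (h : ∀ x : Q, x ^ m = 1) : ¬ l ∣ Nat.card Q := by
  intro hd
  have : Fact l.Prime := ⟨hl⟩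
  obtain ⟨x, hx⟩ := exists_prime_orderOf_dvd_card' l hd
  have := orderOf_dvd_of_pow_eq_one (h x)
  rw [hx] at this
  exact hm this

variable {U : Type*} [CommGroup U]

theorem not_dvd_relIndex {A B : Subgroup U} {l m : ℕ} (hl : l.Prime) (hm : ¬ l ∣ m)
    (hfin : A.relIndex B ≠ 0) (h : ∀ x ∈ B, x ^ m ∈ A) : ¬ l ∣ A.relIndex B := by
  have hf : Finite (B ⧸ A.subgroupOf B) := Subgroup.index_ne_zero_iff_finite.1 hfin
  have := not_dvd_card (Q := B ⧸ A.subgroupOf B) hl hm (by
    intro q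
    obtain ⟨x, rfl⟩ := QuotientGroup.mk_surjective q
    rw [← QuotientGroup.mk_pow, QuotientGroup.eq_one_iff, Subgroup.mem_subgroupOf]
    exact h x x.2)
  exact this

/-- if `P` is finitely generated and every element of `P` has a power in `A`, then `A` has
finite index in `P` -/
theorem relIndex_ne_zero_of_pow {A P : Subgroup U} (hP : P.FG)
    (h : ∀ x ∈ P, ∃ k : ℕ, 0 < k ∧ x ^ k ∈ A) : A.relIndex P ≠ 0 := by
  have h1 : Group.FG P := (Group.fg_iff_subgroup_fg P).2 hP
  have h2 : Group.FG (P ⧸ A.subgroupOf P) :=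
    Group.fg_of_surjective (QuotientGroup.mk'_surjective (A.subgroupOf P))
  have h3 : Finite (P ⧸ A.subgroupOf P) := by
    apply CommGroup.finite_of_fg_isMulTorsion
    intro x
    obtain ⟨u, rfl⟩ := QuotientGroup.mk'_surjective (A.subgroupOf P) x
    obtain ⟨k, hk, hmem⟩ := h u u.2
    rw [isOfFinOrder_iff_pow_eq_one]
    refine ⟨k, hk, ?_⟩
    rw [← map_pow]
    refine (QuotientGroup.eq_one_iff _).mpr ?_
    rw [Subgroup.mem_subgroupOf]
    exact hmem
  exact Subgroup.index_ne_zero_of_finite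

/-- counting, part 1 -/
theorem count {P : Subgroup U} (hP : P.FG) {T : U →* U} (hT : P.map T ≤ P) {l n m : ℕ}
    (hl : l.Prime) (hm : ¬ l ∣ m) (hkill : ∀ x ∈ P, x ^ (l ^ n * m) ∈ P.map T)
    (hdvd : l ^ n ∣ (P.map T).relIndex P) :
    l ^ n ∣ (P.map (powMonoidHom (l ^ n))).relIndex
        (P ⊓ (P.map (powMonoidHom (l ^ n))).comap T) ∧
      (P.map (powMonoidHom (l ^ n))).relIndex
        (P ⊓ (P.map (powMonoidHom (l ^ n))).comap T) ≠ 0 := by
  set V : Subgroup U := P.map (powMonoidHom (l ^ n)) with hV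
  have hm0 : 0 < m := Nat.pos_of_ne_zero (by rintro rfl; exact hm (dvd_zero l))
  have hln : 0 < l ^ n := pow_pos hl.pos n
  have hVP : V ≤ P := by
    rintro _ ⟨x, hx, rfl⟩
    exact pow_mem hx _
  have hVT : V.map T ≤ V := by
    rintro _ ⟨_, ⟨x, hx, rfl⟩, rfl⟩
    refine ⟨T x, hT ⟨x, hx, rfl⟩, ?_⟩
    simp [powMonoidHom]
  have hfV : V.relIndex P ≠ 0 := relIndex_ne_zero_of_pow hP
    (fun x hx => ⟨l ^ n, hln, ⟨x, hx, rfl⟩⟩)
  have hfT : (P.map T).relIndex P ≠ 0 := relIndex_ne_zero_of_pow hP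
    (fun x hx => ⟨l ^ n * m, Nat.mul_pos hln hm0, hkill x hx⟩)
  have e1 : V.relIndex (P ⊓ V.comap T) * V.relIndex (P.map T ⊔ V) = V.relIndex P := by
    rw [Subgroup.relIndex_sup_right, ← Subgroup.relIndex_comap,
      ← Subgroup.inf_relIndex_left P (V.comap T)]
    exact Subgroup.relIndex_mul_relIndex _ _ _ (le_inf hVP (Subgroup.map_le_iff_le_comap.1 hVT))
      inf_le_left
  have e2 : V.relIndex (P.map T ⊔ V) * (P.map T ⊔ V).relIndex P = V.relIndex P :=
    Subgroup.relIndex_mul_relIndex _ _ _ le_sup_right (sup_le hT hVP)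
  have hne : V.relIndex (P.map T ⊔ V) ≠ 0 := by
    intro h; rw [h, zero_mul] at e2; exact hfV e2.symm
  have e3 : V.relIndex (P ⊓ V.comap T) = (P.map T ⊔ V).relIndex P := by
    have : V.relIndex (P.map T ⊔ V) * V.relIndex (P ⊓ V.comap T)
        = V.relIndex (P.map T ⊔ V) * (P.map T ⊔ V).relIndex P := by
      rw [e2, ← e1, mul_comm]
    exact Nat.eq_of_mul_eq_mul_left (Nat.pos_of_ne_zero hne) this
  have e4 : (P.map T).relIndex (P.map T ⊔ V) * (P.map T ⊔ V).relIndex P
      = (P.map T).relIndex P := Subgroup.relIndex_mul_relIndex _ _ _ le_sup_left (sup_le hT hVP)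
  have h5 : (P.map T).relIndex (P.map T ⊔ V) ≠ 0 := by
    intro h; rw [h, zero_mul] at e4; exact hfT e4.symm
  have h6 : (P.map T ⊔ V).relIndex P ≠ 0 := by
    intro h; rw [h, mul_zero] at e4; exact hfT e4.symm
  have h7 : ¬ l ∣ (P.map T).relIndex (P.map T ⊔ V) := by
    refine not_dvd_relIndex hl hm h5 ?_
    intro x hx
    obtain ⟨t, ht, _, ⟨v, hv, rfl⟩, rfl⟩ := Subgroup.mem_sup.1 hx
    rw [mul_pow]
    refine mul_mem (pow_mem ht m) ?_
    have : (powMonoidHom (l ^ n) v) ^ m = v ^ (l ^ n * m) := by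
      rw [powMonoidHom_apply, pow_mul]
    rw [this]
    exact hkill v hv
  rw [e3]
  refine ⟨?_, h6⟩
  rw [← e4] at hdvd
  exact (Nat.Coprime.pow_left n ((Nat.Prime.coprime_iff_not_dvd hl).2 h7)).dvd_of_dvd_mul_left hdvd

/-- counting, part 2: the index of the image of `T` from a stable subgroup of finite index. -/
theorem dvd_of_sub {P A : Subgroup U} {T : U →* U} (hAP : A ≤ P) (hTP : P.map T ≤ P)
    (hTA : A.map T ≤ A) (hfin : A.relIndex P ≠ 0) {d : ℕ}
    (hd : d ∣ (A.map T).relIndex A) : d ∣ (P.map T).relIndex P := by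
  have e1 : (A.map T).relIndex A * A.relIndex P = (A.map T).relIndex P :=
    Subgroup.relIndex_mul_relIndex _ _ _ hTA hAP
  have e2 : (A.map T).relIndex (P.map T) * (P.map T).relIndex P = (A.map T).relIndex P :=
    Subgroup.relIndex_mul_relIndex _ _ _ (Subgroup.map_mono hAP) hTP
  have e3 : (A.map T).relIndex (P.map T) ∣ A.relIndex P := by
    rw [← Subgroup.relIndex_comap]
    exact Subgroup.relIndex_dvd_of_le_left P (Subgroup.le_comap_map T A)
  obtain ⟨q, hq⟩ := e3
  set x := (A.map T).relIndex (P.map T) with hx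
  have hx0 : x ≠ 0 := by
    intro h; rw [h, zero_mul] at hq; exact hfin hq
  have e4 : x * ((A.map T).relIndex A * q) = x * (P.map T).relIndex P := by
    rw [e2, ← e1, hq]; ring
  have e5 := Nat.eq_of_mul_eq_mul_left (Nat.pos_of_ne_zero hx0) e4
  rw [← e5]
  exact Dvd.dvd.mul_right hd q

/-- powers of the twisted operator -/
theorem exists_T {P : Subgroup U} {h T : U →* U} {c : ℕ} (hh : P.map h ≤ P)
    (hT : ∀ x, T x = h x * (x ^ c)⁻¹) (k : ℕ) (x : U) (hx : x ∈ P) :
    ∃ y ∈ P, T y = (h^[k]) x * (x ^ (c ^ k))⁻¹ := by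
  induction k with
  | zero => exact ⟨1, one_mem _, by simp⟩
  | succ k ih =>
    obtain ⟨y, hy, h1⟩ := ih
    have hk : ∀ k, (h^[k]) x ∈ P := by
      intro k
      induction k with
      | zero => simpa using hx
      | succ k ih => rw [Function.iterate_succ_apply']; exact hh ⟨_, ih, rfl⟩
    refine ⟨y ^ c * (h^[k]) x, mul_mem (pow_mem hy c) (hk k), ?_⟩
    rw [map_mul, map_pow, h1, hT, Function.iterate_succ_apply', mul_pow, inv_pow, ← pow_mul,
      pow_succ]
    have : (h^[k]) x ^ c * (x ^ (c ^ k * c))⁻¹ * (h ((h^[k]) x) * ((h^[k]) x ^ c)⁻¹)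
      = h ((h^[k]) x) * (x ^ (c ^ k * c))⁻¹ := by
      rw [mul_comm (h ((h^[k]) x)), ← mul_assoc, mul_right_comm ((h^[k]) x ^ c), mul_inv_cancel,
        one_mul, mul_comm]
    exact this

end Crest.Agent.R018.MinusAx476

namespace Crest.Agent.R018.MinusAx476

variable {U : Type*} [CommGroup U]

theorem fg_of_le {A B : Subgroup U} (hB : B.FG) (h : A ≤ B) : A.FG := by
  rw [Subgroup.fg_iff_add_fg] at hB ⊢
  have h1 : (AddSubgroup.toIntSubmodule B.toAddSubgroup).FG := by
    rw [Submodule.fg_iff_addSubgroup_fg]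
    exact hB
  have h2 : IsNoetherian ℤ (AddSubgroup.toIntSubmodule B.toAddSubgroup) :=
    isNoetherian_of_fg_of_noetherian _ h1
  have h3 := (isNoetherian_submodule.1 h2) (AddSubgroup.toIntSubmodule A.toAddSubgroup)
    (fun x hx => h hx)
  rw [Submodule.fg_iff_addSubgroup_fg] at h3
  exact h3

end Crest.Agent.R018.MinusAx476
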