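import Crest.Agent.R018.MinusU_476

/-!
Row 18, CORE section 9 (helper476): the UNIT COUNT.
-/

set_option autoImplicit false
set_option linter.unusedSectionVars false

open NumberField NumberField.InfinitePlace
open scoped Pointwise

namespace Crest.Agent.R018.MinusVx476

open Crest.Agent.R018.MinkUx824 Crest.Agent.R018.MinusAx476 Crest.Agent.R018.MinusUx476

variable {F N : Type*} [Field F] [NumberField F] [Field N] [NumberField N] [Algebra F N]

/-- the group of units (of the ring of integers), inside `Nˣ`, is finitely generated -/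
theorem fg_range : ((iu N).range).FG := by
  have h1 : Group.FG (𝓞 N)ˣ := Group.fg_iff_monoid_fg.mpr inferInstance
  exact (Group.fg_iff_subgroup_fg _).1 (Group.fg_range (iu N))

/-- UNIT COUNT. `N/F` Galois, `F` totally complex, `h₀, c` commuting automorphisms, `c` an
involution outside `⟨h₀⟩` fixing a primitive `l^n`-th root of unity `ζ`, `h₀ ζ = ζ^c₀`,
`c₀^o = 1 + l^n m` with `l ∤ m`, `h₀^o = 1`.  Then the group `K` of minus units on which `h₀` acts
by `c₀` modulo `l^n`-th powers has at least `l^n` classes modulo `l^n`-th powers of `Nˣ`. -/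
theorem unit_count [IsGalois F N] [IsTotallyComplex F] {l n : ℕ} (hl : l.Prime) (hodd : l ≠ 2)
    {ζ : N} (hζ : IsPrimitiveRoot ζ (l ^ n)) (h₀ c : N ≃ₐ[F] N) (hcomm : h₀ * c = c * h₀)
    (hc2 : c * c = 1) (hcζ : c ζ = ζ) (hcH : c ∉ Subgroup.zpowers h₀) {c₀ o m : ℕ}
    (hh : h₀ ζ = ζ ^ c₀) (ho : h₀ ^ o = 1) (hm : c₀ ^ o = 1 + l ^ n * m) (hlm : ¬ l ∣ m) :
    ∃ K : Subgroup Nˣ, (∀ x ∈ K, ∃ u : (𝓞 N)ˣ, iu N u = x) ∧ (∀ x ∈ K, c • x = x⁻¹) ∧
      (∀ x ∈ K, ∃ y : Nˣ, h₀ • x = x ^ c₀ * y ^ (l ^ n)) ∧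
      l ^ n ∣ ((powMonoidHom (l ^ n) : Nˣ →* Nˣ).range).relIndex K ∧
      ((powMonoidHom (l ^ n) : Nˣ →* Nˣ).range).relIndex K ≠ 0 := by
  classical
  have hq : 0 < l ^ n := pow_pos hl.pos n
  have : NeZero (l ^ n) := ⟨hq.ne'⟩
  have hfree : ∀ (σ : N ≃ₐ[F] N) (w : InfinitePlace N), σ • w = w → σ = 1 :=
    fun σ w h => free_of_complex σ w h
  obtain ⟨ε, hεσ, hεu, -, hεrel, -⟩ := exists_minkowski (K := F) (L := N) hfree
  obtain ⟨w⟩ : Nonempty (InfinitePlace N) := inferInstance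
  -- commutation of `c` with the powers of `h₀`
  have hcg : ∀ g ∈ Subgroup.zpowers h₀, g * c = c * g := by
    intro g hg
    obtain ⟨i, rfl⟩ := Subgroup.mem_zpowers_iff.1 hg
    exact (Commute.zpow_left (show Commute h₀ c from hcomm) i).eq
  let η : Subgroup.zpowers h₀ → Nˣ := fun g => ε ((g : N ≃ₐ[F] N) • w) /
    ε ((g : N ≃ₐ[F] N) • c • w)
  have hηu : ∀ g, η g ∈ (iu N).range := fun g => div_mem (hεu _) (hεu _)
  have hηc : ∀ g, c • η g = (η g)⁻¹ := by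
    intro g
    change c • (ε _ / ε _) = (ε _ / ε _)⁻¹
    rw [smul_div', ← hεσ, ← hεσ, inv_div]
    congr 2
    · rw [smul_smul, smul_smul, hcg g g.2]
    · rw [smul_smul, smul_smul, ← hcg g g.2, mul_assoc, hc2, mul_one]
  have hηg : ∀ (h g : Subgroup.zpowers h₀), (h : N ≃ₐ[F] N) • η g = η (h * g) := by
    intro h g
    change (h : N ≃ₐ[F] N) • (ε _ / ε _) = ε _ / ε _
    rw [smul_div', ← hεσ, ← hεσ, smul_smul, smul_smul]
    rfl
  -- independence
  have hinj : Function.Injective (Θ η) := by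
    rw [injective_iff_map_eq_one]
    intro a ha
    have := indep (X := InfinitePlace N) (H := Subgroup.zpowers h₀) ε hεrel
      (fun g => (g : N ≃ₐ[F] N) • w) (fun g => (g : N ≃ₐ[F] N) • c • w)
      (fun g g' h => by
        have h1 : ((g : N ≃ₐ[F] N)⁻¹ * g') • w = w := by
          rw [mul_smul, ← (show (g : N ≃ₐ[F] N) • w = (g' : N ≃ₐ[F] N) • w from h), inv_smul_smul]
        have := hfree _ _ h1
        rw [inv_mul_eq_one] at this
        exact Subtype.ext this)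
      (fun g g' h => by
        have h1 : ((g : N ≃ₐ[F] N)⁻¹ * g') • (c • w) = c • w := by
          rw [mul_smul, ← (show (g : N ≃ₐ[F] N) • c • w = (g' : N ≃ₐ[F] N) • c • w from h),
            inv_smul_smul]
        have := hfree _ _ h1
        rw [inv_mul_eq_one] at this
        exact Subtype.ext this)
      (fun g g' h => by
        have h1 : ((g : N ≃ₐ[F] N)⁻¹ * g' * c) • w = w := by
          rw [mul_smul, mul_smul,
            ← (show (g : N ≃ₐ[F] N) • w = (g' : N ≃ₐ[F] N) • c • w from h), inv_smul_smul]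
        have h2 := hfree _ _ h1
        apply hcH
        have h3 : c = ((g : N ≃ₐ[F] N)⁻¹ * g')⁻¹ := eq_inv_of_mul_eq_one_right h2
        rw [h3]
        exact inv_mem (mul_mem (inv_mem g.2) g'.2))
      (Multiplicative.toAdd a) ha
    exact congrArg Multiplicative.ofAdd this
  -- the operator
  let hm₀ : Nˣ →* Nˣ := MulDistribMulAction.toMonoidHom Nˣ h₀
  let T : Nˣ →* Nˣ := hm₀ * (powMonoidHom c₀)⁻¹
  have hT : ∀ x, T x = h₀ • x * (x ^ c₀)⁻¹ := fun x => rfl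
  let h₀' : Subgroup.zpowers h₀ := ⟨h₀, Subgroup.mem_zpowers h₀⟩
  let χ : Subgroup.zpowers h₀ → ZMod (l ^ n) := fun g =>
    ((hζ.autToPow F (g : N ≃ₐ[F] N) : (ZMod (l ^ n))ˣ) : ZMod (l ^ n))
  have hχ0 : ((hζ.autToPow F h₀ : (ZMod (l ^ n))ˣ) : ZMod (l ^ n)) = (c₀ : ZMod (l ^ n)) := by
    have h1 := hζ.autToPow_spec F h₀
    have h2 : ζ ^ c₀ = ζ ^ (c₀ % l ^ n) := by
      conv_rhs => rw [hζ.eq_orderOf]
      exact (pow_mod_orderOf ζ c₀).symm
    rw [hh, h2] at h1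
    have h3 := hζ.pow_inj (ZMod.val_lt _) (Nat.mod_lt _ hq) h1
    rw [← ZMod.natCast_zmod_val ((hζ.autToPow F h₀ : (ZMod (l ^ n))ˣ) : ZMod (l ^ n)), h3]
    simp
  obtain ⟨hA1, hA2⟩ := dvd_index η hinj T h₀' χ
    (fun g => by
      change (((hζ.autToPow F (h₀ * (g : N ≃ₐ[F] N)) : (ZMod (l ^ n))ˣ)) : ZMod (l ^ n)) = _
      rw [map_mul, Units.val_mul, hχ0])
    (by
      change (((hζ.autToPow F (1 : N ≃ₐ[F] N) : (ZMod (l ^ n))ˣ)) : ZMod (l ^ n)) = _
      rw [map_one, Units.val_one])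
    (fun g => by rw [hT, ← hηg h₀' g])
  set A : Subgroup Nˣ := (Θ η).range with hA
  have hAu : A ≤ (iu N).range := by
    rintro _ ⟨a, rfl⟩
    exact prod_mem fun g _ => zpow_mem (hηu g) _
  have hAc : ∀ x ∈ A, c • x = x⁻¹ := by
    rintro _ ⟨a, rfl⟩
    change c • (∏ g, η g ^ (Multiplicative.toAdd a g)) = (∏ g, η g ^ (Multiplicative.toAdd a g))⁻¹
    rw [Finset.smul_prod', ← Finset.prod_inv_distrib]
    refine Finset.prod_congr rfl fun g _ => ?_
    rw [smul_zpow', hηc, inv_zpow]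
  -- the saturation
  let P : Subgroup Nˣ :=
    { carrier := {x | x ∈ (iu N).range ∧ c • x = x⁻¹ ∧ ∃ k : ℕ, 0 < k ∧ x ^ k ∈ A}
      one_mem' := ⟨one_mem _, by simp, 1, one_pos, by simp⟩
      mul_mem' := by
        rintro x y ⟨h1, h2, k, hk, h3⟩ ⟨h1', h2', k', hk', h3'⟩
        refine ⟨mul_mem h1 h1', ?_, k * k', Nat.mul_pos hk hk', ?_⟩
        · rw [smul_mul', h2, h2', mul_inv]
        · rw [mul_pow, pow_mul, mul_comm k k', pow_mul y]
          exact mul_mem (pow_mem h3 _) (pow_mem h3' _)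
      inv_mem' := by
        rintro x ⟨h1, h2, k, hk, h3⟩
        refine ⟨inv_mem h1, ?_, k, hk, ?_⟩
        · rw [smul_inv', h2]
        · rw [inv_pow]; exact inv_mem h3 }
  have hPFG : P.FG := fg_of_le fg_range (fun x hx => hx.1)
  have hAP : A ≤ P := fun x hx => ⟨hAu hx, hAc x hx, 1, one_pos, by simpa using hx⟩
  have hh₀A : ∀ x ∈ A, h₀ • x ∈ A := by
    intro x hx
    have h1 : T x ∈ A := hA1 ⟨x, hx, rfl⟩
    have h2 : h₀ • x = T x * x ^ c₀ := by rw [hT, inv_mul_cancel_right]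
    rw [h2]
    exact mul_mem h1 (pow_mem hx _)
  have hh₀P : ∀ x ∈ P, h₀ • x ∈ P := by
    rintro x ⟨⟨u, hu⟩, h2, k, hk, h3⟩
    refine ⟨⟨_, (hu ▸ (smul_iu h₀ u).symm)⟩, ?_, k, hk, ?_⟩
    · rw [smul_smul, ← hcomm, ← smul_smul, h2, smul_inv']
    · rw [← smul_pow']
      exact hh₀A _ h3
  have hTP : P.map T ≤ P := by
    rintro _ ⟨x, hx, rfl⟩
    rw [hT]
    exact mul_mem (hh₀P x hx) (inv_mem (pow_mem hx _))
  have hfin : A.relIndex P ≠ 0 := relIndex_ne_zero_of_pow hPFG (fun x hx => hx.2.2)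
  have hdvd : l ^ n ∣ (P.map T).relIndex P := dvd_of_sub hAP hTP hA1 hfin hA2
  have hkill : ∀ x ∈ P, x ^ (l ^ n * m) ∈ P.map T := by
    intro x hx
    obtain ⟨y, hy, h1⟩ := exists_T (P := P) (h := hm₀) (T := T) (c := c₀)
      (by rintro _ ⟨x, hx, rfl⟩; exact hh₀P x hx) hT o x hx
    have h2 : (hm₀^[o]) x = x := by
      have : ∀ k, (hm₀^[k]) x = (h₀ ^ k) • x := by
        intro k
        induction k with
        | zero => simp
        | succ k ih =>
          rw [Function.iterate_succ_apply', ih, pow_succ', mul_smul]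
          rfl
      rw [this, ho, one_smul]
    rw [h2, hm, pow_add, pow_one, mul_inv, mul_inv_cancel_left] at h1
    exact ⟨y⁻¹, inv_mem hy, by rw [map_inv, h1, inv_inv]⟩
  obtain ⟨hc1, hc2'⟩ := count hPFG hTP hl hlm hkill hdvd
  set V : Subgroup Nˣ := P.map (powMonoidHom (l ^ n)) with hV
  -- `l^n`-th powers of `Nˣ` in `P` are `l^n`-th powers of elements of `P`
  have hsat : (powMonoidHom (l ^ n) : Nˣ →* Nˣ).range ⊓ P ≤ V := by
    rintro _ ⟨⟨y, rfl⟩, ⟨u, hu⟩, h2, k, hk, h3⟩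
    rw [powMonoidHom_apply] at hu h2 h3
    -- the root of unity
    set ξ : Nˣ := c • y * y with hξ
    have hξq : ξ ^ (l ^ n) = 1 := by
      rw [hξ, mul_pow, ← smul_pow', h2, inv_mul_cancel]
    have hcξ : c • ξ = ξ := by
      have h4 : (ξ : N) ^ (l ^ n) = 1 := by
        rw [← Units.val_pow_eq_pow_val, hξq, Units.val_one]
      obtain ⟨i, -, hi⟩ := hζ.eq_pow_of_pow_eq_one h4
      ext
      have h5 : ((c • ξ : Nˣ) : N) = c (ξ : N) := rfl
      rw [h5, ← hi, map_pow, hcζ]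
    obtain ⟨j, hj⟩ : ∃ j : ℕ, 2 * j = l ^ n + 1 := by
      have h6 : Odd (l ^ n) := (hl.odd_of_ne_two hodd).pow
      obtain ⟨i, hi⟩ := h6
      exact ⟨i + 1, by omega⟩
    have hξj : (ξ ^ j) ^ 2 = ξ := by
      rw [← pow_mul, mul_comm, hj, pow_succ, hξq, one_mul]
    refine ⟨y * (ξ ^ j)⁻¹, ⟨?_, ?_, k * l ^ n, Nat.mul_pos hk hq, ?_⟩, ?_⟩
    · -- integrality
      have h7 : (y * (ξ ^ j)⁻¹) ^ (l ^ n) = iu N u := by
        rw [mul_pow, inv_pow, ← pow_mul, mul_comm j, pow_mul, hξq, one_pow, inv_one, mul_one, hu]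
      set z : Nˣ := y * (ξ ^ j)⁻¹ with hz
      have hint : ∀ (t : Nˣ) (v : (𝓞 N)ˣ), t ^ (l ^ n) = iu N v → IsIntegral ℤ (t : N) := by
        intro t v htv
        refine IsIntegral.of_pow hq ?_
        rw [← Units.val_pow_eq_pow_val, htv, coe_iu]
        exact (v : 𝓞 N).2
      have hz1 := hint z u h7
      have hz2 := hint z⁻¹ u⁻¹ (by rw [inv_pow, h7, map_inv])
      refine ⟨⟨⟨(z : N), hz1⟩, ⟨((z⁻¹ : Nˣ) : N), hz2⟩, ?_, ?_⟩, ?_⟩
      · apply RingOfIntegers.ext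
        change (z : N) * ((z⁻¹ : Nˣ) : N) = 1
        exact Units.mul_inv z
      · apply RingOfIntegers.ext
        change ((z⁻¹ : Nˣ) : N) * (z : N) = 1
        exact Units.inv_mul z
      · ext
        rfl
    · -- minus
      rw [smul_mul', smul_inv', smul_pow', hcξ, mul_inv, inv_inv]
      have h8 : c • y = ξ * y⁻¹ := by rw [hξ, mul_inv_cancel_right]
      rw [h8]
      have h9 : ξ = ξ ^ j * ξ ^ j := by rw [← sq]; exact hξj.symm
      calc ξ * y⁻¹ * (ξ ^ j)⁻¹ = (ξ ^ j * ξ ^ j) * y⁻¹ * (ξ ^ j)⁻¹ := by rw [← h9]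
        _ = y⁻¹ * ξ ^ j := by
          rw [mul_assoc, mul_comm y⁻¹, ← mul_assoc, mul_inv_cancel_right, mul_comm]
    · -- saturated
      rw [mul_comm k, pow_mul]
      have h7 : (y * (ξ ^ j)⁻¹) ^ (l ^ n) = y ^ (l ^ n) := by
        rw [mul_pow, inv_pow, ← pow_mul, mul_comm j, pow_mul, hξq, one_pow, inv_one, mul_one]
      rw [h7]
      exact h3
    · rw [powMonoidHom_apply, powMonoidHom_apply]
      rw [mul_pow, inv_pow, ← pow_mul, mul_comm j, pow_mul, hξq, one_pow, inv_one, mul_one]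
  -- the index
  have hidx : ((powMonoidHom (l ^ n) : Nˣ →* Nˣ).range).relIndex (P ⊓ V.comap T)
      = V.relIndex (P ⊓ V.comap T) := by
    have e : (powMonoidHom (l ^ n) : Nˣ →* Nˣ).range ⊓ (P ⊓ V.comap T)
        = V ⊓ (P ⊓ V.comap T) := by
      apply le_antisymm
      · rintro x ⟨h1, h2⟩
        exact ⟨hsat ⟨h1, h2.1⟩, h2⟩
      · rintro x ⟨h1, h2⟩
        refine ⟨?_, h2⟩
        obtain ⟨y, -, rfl⟩ := h1
        exact ⟨y, rfl⟩
    rw [← Subgroup.inf_relIndex_right, e, Subgroup.inf_relIndex_right]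
  refine ⟨P ⊓ V.comap T, fun x hx => hx.1.1, fun x hx => hx.1.2.1, ?_, ?_, ?_⟩
  · rintro x ⟨-, ⟨y, -, hy⟩⟩
    refine ⟨y, ?_⟩
    rw [powMonoidHom_apply, hT] at hy
    rw [hy, mul_comm, inv_mul_cancel_right]
  · rw [hidx]; exact hc1
  · rw [hidx]; exact hc2'

end Crest.Agent.R018.MinusVx476
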