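import Crest.Agent.R018.TameP_31
import Crest.Agent.R018.MinusV_476

/-!
# Row 18, CORE paragraph 9 (minus `ℤ_l`-extensions): the Kummer part (helper975)

`U ≤ Gal(E/F)` of index two, characters `χ : U → Eˣ` with values in the roots of unity of order
`l ^ k` (trivial action on the values), unramified outside `l` (`Nice`), anti-invariant under the
automorphisms outside `U` (`Minus`).
-/

set_option autoImplicit false

open NumberField

namespace Crest.Agent.R018.MinusCx975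

open Crest.Agent.R018.Placesx484 Crest.Agent.R018.Tamex31

variable {F E : Type*} [Field F] [Field E] [Algebra F E]

/-- anti-invariant characters -/
def Minus {U : Subgroup (E ≃ₐ[F] E)} (χ : U →* Eˣ) : Prop :=
  ∀ c : E ≃ₐ[F] E, c ∉ U → ∀ g g' : U, (g' : E ≃ₐ[F] E) = c * g * c⁻¹ → χ g' = (χ g)⁻¹

section NiceDef

variable [CharZero E] [Algebra.IsAlgebraic ℚ E]

/-- unramified outside `l` -/
def Nice (l : ℕ) {U : Subgroup (E ≃ₐ[F] E)} (χ : U →* Eˣ) : Prop :=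
  ∀ P : Place E, P.rchar ≠ l → ∀ s : U, (s : E ≃ₐ[F] E) ∈ inS F P.val → χ s = 1

/-- the characters of level `l ^ k` we are interested in -/
structure Good (l k : ℕ) {U : Subgroup (E ≃ₐ[F] E)} (χ : U →* Eˣ) : Prop where
  pow : χ ^ (l ^ k) = 1
  ker : OpenKer χ
  nice : Nice l χ
  minus : Minus χ

end NiceDef

/-- Kummer data for `u = z ^ q` over the field `K` -/
structure KData (U : Subgroup (E ≃ₐ[F] E)) (K : IntermediateField F E) (c : E ≃ₐ[F] E) (q : ℕ)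
    (ζ : E) (z : E) : Prop where
  /-- `z ≠ 0` -/
  z0 : z ≠ 0
  /-- `z ^ q ∈ K` -/
  zq : z ^ q ∈ K
  /-- the class of `u` is anti-invariant -/
  cz : c (z ^ q) = (z ^ q)⁻¹
  /-- `U` acts on the class of `u` through the cyclotomic character -/
  gz : ∀ g ∈ U, ∃ a : ℕ, g ζ = ζ ^ a ∧ ∃ v ∈ K, v ≠ 0 ∧ g (z ^ q) = (z ^ q) ^ a * v ^ q

/-- the geometric set-up -/
structure Setup (U : Subgroup (E ≃ₐ[F] E)) (K : IntermediateField F E) (c : E ≃ₐ[F] E) (q : ℕ)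
    (ζ : E) : Prop where
  prim : IsPrimitiveRoot ζ q
  odd : Odd q
  ζK : ζ ∈ K
  cU : c ∉ U
  two : ∀ a b : E ≃ₐ[F] E, a ∉ U → b ∉ U → a * b ∈ U
  cζ : c ζ = ζ
  comm : ∀ g ∈ U, ∀ x ∈ K, (g * c * g⁻¹ * c⁻¹) x = x
  fixU : ∀ g : E ≃ₐ[F] E, (∀ x ∈ K, g x = x) → g ∈ U
  fixK : ∀ g ∈ U, g ζ = ζ → ∀ x ∈ K, g x = x

section Kummer

variable {U : Subgroup (E ≃ₐ[F] E)} {K : IntermediateField F E} {c : E ≃ₐ[F] E} {q : ℕ} {ζ : E}
  (S : Setup U K c q ζ) {z : E} (D : KData U K c q ζ z)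

include S in
theorem q0 : 0 < q := S.odd.pos

include S in
theorem root_mem {x : E} (hx : x ^ q = 1) : ∃ j : ℕ, x = ζ ^ j := by
  have : NeZero q := ⟨(q0 S).ne'⟩
  obtain ⟨j, -, hj⟩ := S.prim.eq_pow_of_pow_eq_one hx
  exact ⟨j, hj.symm⟩

include S in
theorem root_memK {x : E} (hx : x ^ q = 1) : x ∈ K := by
  obtain ⟨j, rfl⟩ := root_mem S hx
  exact pow_mem S.ζK j

/-- the Kummer symbol -/
theorem kap_pow (σ : E ≃ₐ[F] E) (hσ : ∀ x ∈ K, σ x = x) (hz0 : z ≠ 0) (hzq : z ^ q ∈ K) :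
    (σ z / z) ^ q = 1 := by
  rw [div_pow, ← map_pow, hσ _ hzq, div_self (pow_ne_zero _ hz0)]

include S D in
/-- invariance of the Kummer symbol under `U` -/
theorem kap_conj (g : E ≃ₐ[F] E) (hg : g ∈ U) (σ : E ≃ₐ[F] E) (hσ : ∀ x ∈ K, σ x = x) :
    (g * σ * g⁻¹) z / z = σ z / z := by
  obtain ⟨a, ha, v, hv, hv0, hgz⟩ := D.gz g⁻¹ (inv_mem hg)
  have hz0 := D.z0
  have hκ : (σ z / z) ^ q = 1 := kap_pow σ hσ hz0 D.zq
  obtain ⟨j, hj⟩ := root_mem S hκ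
  have hσz : σ z = ζ ^ j * z := by rw [← hj, div_mul_cancel₀ _ hz0]
  -- `g⁻¹ z = ξ z ^ a v`
  have h1 : (g⁻¹ z / (z ^ a * v)) ^ q = 1 := by
    rw [div_pow, ← map_pow, hgz, mul_pow, ← pow_mul, ← pow_mul, mul_comm a q]
    exact div_self (mul_ne_zero (pow_ne_zero _ hz0) (pow_ne_zero _ hv0))
  have hξK := root_memK S h1
  set ξ := g⁻¹ z / (z ^ a * v) with hξ
  have h2 : g⁻¹ z = ξ * (z ^ a * v) := by
    rw [hξ, div_mul_cancel₀]
    exact mul_ne_zero (pow_ne_zero _ hz0) hv0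
  have h3 : σ (g⁻¹ z) = (ζ ^ j) ^ a * g⁻¹ z := by
    rw [h2, map_mul, map_mul, hσ ξ hξK, hσ v hv, map_pow, hσz, mul_pow]
    ring
  have h4 : g⁻¹ (ζ ^ j) = (ζ ^ j) ^ a := by
    rw [map_pow, ha, ← pow_mul, ← pow_mul, mul_comm]
  have h5 : (g * σ * g⁻¹) z = ζ ^ j * z := by
    rw [AlgEquiv.mul_apply, AlgEquiv.mul_apply, h3, map_mul, ← h4, ← AlgEquiv.mul_apply,
      ← AlgEquiv.mul_apply, mul_inv_cancel, AlgEquiv.one_apply, AlgEquiv.one_apply]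
  rw [h5, hσz]

include D in
theorem cinv_z : ∃ ξ : E, ξ ^ q = 1 ∧ c⁻¹ z = ξ * z⁻¹ := by
  have hz0 := D.z0
  refine ⟨c⁻¹ z * z, ?_, ?_⟩
  · rw [mul_pow, ← map_pow]
    have h1 : c⁻¹ (z ^ q) = (z ^ q)⁻¹ := by
      have h2 := D.cz
      have h3 : z ^ q = c⁻¹ ((z ^ q)⁻¹) := by
        rw [← h2, ← AlgEquiv.mul_apply, inv_mul_cancel, AlgEquiv.one_apply]
      rw [map_inv₀] at h3
      rw [← inv_inv (c⁻¹ (z ^ q)), ← h3]
    rw [h1, inv_mul_cancel₀ (pow_ne_zero _ hz0)]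
  · rw [mul_assoc, mul_inv_cancel₀ hz0, mul_one]

include S D in
/-- anti-invariance of the Kummer symbol under `c` -/
theorem kap_conj_c (σ : E ≃ₐ[F] E) (hσ : ∀ x ∈ K, σ x = x) :
    (c * σ * c⁻¹) z / z = (σ z / z)⁻¹ := by
  have hz0 := D.z0
  obtain ⟨ξ, hξ, hcz⟩ := cinv_z D
  have hκ : (σ z / z) ^ q = 1 := kap_pow σ hσ hz0 D.zq
  obtain ⟨j, hj⟩ := root_mem S hκ
  have hσz : σ z = ζ ^ j * z := by rw [← hj, div_mul_cancel₀ _ hz0]
  have h3 : σ (c⁻¹ z) = (ζ ^ j)⁻¹ * c⁻¹ z := by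
    rw [hcz, map_mul, hσ ξ (root_memK S hξ), map_inv₀, hσz, mul_inv]
    ring
  have h5 : (c * σ * c⁻¹) z = (ζ ^ j)⁻¹ * z := by
    rw [AlgEquiv.mul_apply, AlgEquiv.mul_apply, h3, map_mul, map_inv₀, map_pow, S.cζ,
      ← AlgEquiv.mul_apply, mul_inv_cancel, AlgEquiv.one_apply]
  rw [h5, hj, mul_div_cancel_right₀ _ hz0]

include S in
theorem comm_fix (g : E ≃ₐ[F] E) (hg : g ∈ U) : ∀ x ∈ K, (g * c * g⁻¹ * c⁻¹) x = x := S.comm g hg

/-- the character `g ↦ κ([g, c])` -/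
noncomputable def phi : U →* Eˣ where
  toFun g := Units.mk0 (((g : E ≃ₐ[F] E) * c * (g : E ≃ₐ[F] E)⁻¹ * c⁻¹) z / z)
    (div_ne_zero (by simpa using D.z0) D.z0)
  map_one' := by
    ext
    simp [D.z0]
  map_mul' := by
    intro g g'
    ext
    simp only [Units.val_mk0, Units.val_mul]
    have hz0 := D.z0
    set ρ : E ≃ₐ[F] E := (g : E ≃ₐ[F] E) * c * (g : E ≃ₐ[F] E)⁻¹ * c⁻¹ with hρ
    set σ : E ≃ₐ[F] E := (g' : E ≃ₐ[F] E) * c * (g' : E ≃ₐ[F] E)⁻¹ * c⁻¹ with hσ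
    have e1 : (((g * g' : U)) : E ≃ₐ[F] E) * c * (((g * g' : U)) : E ≃ₐ[F] E)⁻¹ * c⁻¹ =
        ((g : E ≃ₐ[F] E) * σ * (g : E ≃ₐ[F] E)⁻¹) * ρ := by
      rw [hρ, hσ]; simp only [Subgroup.coe_mul]; group
    have fρ := comm_fix S (g : E ≃ₐ[F] E) g.2
    have fσ := comm_fix S (g' : E ≃ₐ[F] E) g'.2
    have fgg := comm_fix S ((g * g' : U) : E ≃ₐ[F] E) (g * g').2
    rw [e1] at fgg
    have hρz : ρ z = (ρ z / z) * z := by rw [div_mul_cancel₀ _ hz0]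
    have hρroot : (ρ z / z) ^ q = 1 := kap_pow ρ fρ hz0 D.zq
    have hρK := root_memK S hρroot
    have fg : ((g : E ≃ₐ[F] E) * σ * (g : E ≃ₐ[F] E)⁻¹) (ρ z / z) = ρ z / z := by
      have := fgg _ hρK
      rw [AlgEquiv.mul_apply, fρ _ hρK] at this
      exact this
    have h1 := kap_conj S D (g : E ≃ₐ[F] E) g.2 σ fσ
    rw [e1, AlgEquiv.mul_apply]
    conv_lhs => rw [hρz, map_mul, fg, mul_div_assoc, h1]

theorem phi_apply (g : U) : ((phi S D g : Eˣ) : E) =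
    ((g : E ≃ₐ[F] E) * c * (g : E ≃ₐ[F] E)⁻¹ * c⁻¹) z / z := rfl

theorem phi_pow : phi S D ^ q = 1 := by
  ext g
  simp only [MonoidHom.pow_apply, Units.val_pow_eq_pow_val, MonoidHom.one_apply, Units.val_one]
  rw [phi_apply]
  exact kap_pow _ (comm_fix S _ g.2) D.z0 D.zq

theorem phi_minus : Minus (phi S D) := by
  have hc : ∀ g g' : U, (g' : E ≃ₐ[F] E) = c * g * c⁻¹ → phi S D g' = (phi S D g)⁻¹ := by
    intro g g' h
    ext
    rw [phi_apply, h]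
    have e1 : c * (g : E ≃ₐ[F] E) * c⁻¹ * c * (c * (g : E ≃ₐ[F] E) * c⁻¹)⁻¹ * c⁻¹ =
        c * ((g : E ≃ₐ[F] E) * c * (g : E ≃ₐ[F] E)⁻¹ * c⁻¹) * c⁻¹ := by group
    rw [e1, kap_conj_c S D _ (comm_fix S _ g.2), Units.val_inv_eq_inv_val, phi_apply]
  intro c' hc' g g' h
  -- `c' = c h`
  have hinv : c⁻¹ ∉ U := fun h => S.cU (by simpa using inv_mem h)
  have hh : c⁻¹ * c' ∈ U := S.two _ _ hinv hc'
  let k : U := ⟨c⁻¹ * c', hh⟩
  have h1 := hc (k * g * k⁻¹) g' (by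
    rw [h]
    simp only [Subgroup.coe_mul, Subgroup.coe_inv, k]
    group)
  rw [h1, map_mul, map_mul, map_inv, mul_comm (phi S D k), mul_assoc, mul_inv_cancel, mul_one]

theorem phi_openKer [Algebra.IsIntegral F E] : OpenKer (phi S D) := by
  refine ⟨IntermediateField.adjoin F {z, c⁻¹ z}, ?_, ?_⟩
  · apply IntermediateField.finiteDimensional_adjoin
    intro x _
    exact Algebra.IsIntegral.isIntegral x
  · intro u hu
    have h1 : (u : E ≃ₐ[F] E) z = z := hu z (IntermediateField.subset_adjoin F _ (by simp))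
    have h2 : (u : E ≃ₐ[F] E) (c⁻¹ z) = c⁻¹ z :=
      hu _ (IntermediateField.subset_adjoin F _ (by simp))
    have h3 : (u : E ≃ₐ[F] E)⁻¹ (c⁻¹ z) = c⁻¹ z := by
      conv_lhs => rw [← h2]
      rw [← AlgEquiv.mul_apply, inv_mul_cancel, AlgEquiv.one_apply]
    ext
    rw [phi_apply, AlgEquiv.mul_apply, AlgEquiv.mul_apply, AlgEquiv.mul_apply, h3,
      ← AlgEquiv.mul_apply c, mul_inv_cancel, AlgEquiv.one_apply, h1, div_self D.z0]
    rfl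

/-- on the elements fixing `K` the character is the square of the Kummer symbol -/
theorem phi_fix (σ : U) (hσ : ∀ x ∈ K, (σ : E ≃ₐ[F] E) x = x) :
    ((phi S D σ : Eˣ) : E) = ((σ : E ≃ₐ[F] E) z / z) ^ 2 := by
  have hz0 := D.z0
  obtain ⟨ξ, hξ, hcz⟩ := cinv_z D
  have hκ : ((σ : E ≃ₐ[F] E) z / z) ^ q = 1 := kap_pow _ hσ hz0 D.zq
  obtain ⟨j, hj⟩ := root_mem S hκ
  have hσz : (σ : E ≃ₐ[F] E) z = ζ ^ j * z := by rw [← hj, div_mul_cancel₀ _ hz0]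
  have hσinv : ∀ x ∈ K, (σ : E ≃ₐ[F] E)⁻¹ x = x := by
    intro x hx
    conv_lhs => rw [← hσ x hx]
    rw [← AlgEquiv.mul_apply, inv_mul_cancel, AlgEquiv.one_apply]
  have hζ0 : ζ ^ j ≠ 0 := pow_ne_zero _ (S.prim.ne_zero (q0 S).ne')
  have hσz' : (σ : E ≃ₐ[F] E)⁻¹ z = (ζ ^ j)⁻¹ * z := by
    have h1 : (σ : E ≃ₐ[F] E)⁻¹ ((σ : E ≃ₐ[F] E) z) = z := by
      rw [← AlgEquiv.mul_apply, inv_mul_cancel, AlgEquiv.one_apply]
    rw [hσz, map_mul, hσinv _ (pow_mem S.ζK j)] at h1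
    rw [← h1, inv_mul_cancel_left₀ hζ0, h1]
  have h2 : (σ : E ≃ₐ[F] E)⁻¹ (c⁻¹ z) = ζ ^ j * c⁻¹ z := by
    rw [hcz, map_mul, hσinv ξ (root_memK S hξ), map_inv₀, hσz', mul_inv, inv_inv]
    ring
  rw [phi_apply, AlgEquiv.mul_apply, AlgEquiv.mul_apply, AlgEquiv.mul_apply, h2, map_mul, map_pow,
    S.cζ, ← AlgEquiv.mul_apply c, mul_inv_cancel, AlgEquiv.one_apply, map_mul,
    hσ _ (pow_mem S.ζK j), hσz]
  field_simp

end Kummer

section Nice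

variable [CharZero E] [Algebra.IsAlgebraic ℚ E] {U : Subgroup (E ≃ₐ[F] E)}
  {K : IntermediateField F E} {c : E ≃ₐ[F] E} {l n : ℕ} {ζ : E}
  (S : Setup U K c (l ^ n) ζ) {z : E} (D : KData U K c (l ^ n) ζ z)

theorem phi_nice (hl : l.Prime)
    (hunit : ∀ P : Place E, P.val.valuation (z ^ (l ^ n)) = 1) : Nice l (phi S D) := by
  intro P hP s hs
  have hz0 := D.z0
  have hl1 : P.val.valuation (l : E) = 1 := val_prime_eq_one P hl hP
  have hq1 : P.val.valuation ((l ^ n : ℕ) : E) = 1 := by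
    rw [Nat.cast_pow, map_pow, hl1, one_pow]
  have hq0 : l ^ n ≠ 0 := (q0 S).ne'
  have hsζ : (s : E ≃ₐ[F] E) ζ = ζ := in_fix_root hs hq1 S.prim.pow_eq_one
  have hfix := S.fixK _ s.2 hsζ
  have hvz : P.val.valuation z = 1 := val_pow_eq_one hq0 (hunit P)
  have h1 : ((s : E ≃ₐ[F] E) z / z) = 1 :=
    root_eq_one hq1 (kap_pow _ hfix hz0 D.zq) (in_unit hs hvz)
  ext
  rw [phi_fix S D s hfix, h1, one_pow]
  rfl

end Nice

/-- injectivity -/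
theorem phi_inj [IsGalois F E] {U : Subgroup (E ≃ₐ[F] E)} {K : IntermediateField F E}
    {c : E ≃ₐ[F] E} {q : ℕ} {ζ : E}
    (S : Setup U K c q ζ) {z z' : E} (D : KData U K c q ζ z) (D' : KData U K c q ζ z')
    (h : phi S D = phi S D') : ∃ w ∈ K, w ≠ 0 ∧ z ^ q = z' ^ q * w ^ q := by
  refine ⟨z / z', ?_, div_ne_zero D.z0 D'.z0, ?_⟩
  · rw [← InfiniteGalois.fixedField_fixingSubgroup K]
    rintro ⟨σ, hσ⟩
    have hσ' : ∀ x ∈ K, σ x = x := fun x hx => hσ ⟨x, hx⟩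
    have hσU : σ ∈ U := S.fixU σ hσ'
    have h1 := congrArg (fun χ : U →* Eˣ => ((χ ⟨σ, hσU⟩ : Eˣ) : E)) h
    have h1 : ((phi S D ⟨σ, hσU⟩ : Eˣ) : E) = ((phi S D' ⟨σ, hσU⟩ : Eˣ) : E) := h1
    rw [phi_fix S D ⟨σ, hσU⟩ hσ', phi_fix S D' ⟨σ, hσU⟩ hσ'] at h1
    have h2 := kap_pow σ hσ' D.z0 D.zq
    have h3 := kap_pow σ hσ' D'.z0 D'.zq
    set a := σ z / z with ha
    set b := σ z' / z' with hb
    have hb0 : b ≠ 0 := by
      intro hb0; rw [hb0, zero_pow (q0 S).ne'] at h3; exact zero_ne_one h3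
    -- `(a / b) ^ 2 = 1 = (a / b) ^ q`
    have h4 : (a / b) ^ 2 = 1 := by
      rw [div_pow, h1, div_self (pow_ne_zero _ hb0)]
    have h5 : (a / b) ^ q = 1 := by rw [div_pow, h2, h3, div_one]
    have h6 : a / b = 1 := by
      obtain ⟨k, hk⟩ := S.odd
      rw [hk, pow_succ, pow_mul, h4, one_pow, one_mul] at h5
      exact h5
    have h7 : a = b := by rw [div_eq_one_iff_eq hb0] at h6; exact h6
    change σ (z / z') = z / z'
    rw [map_div₀]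
    have e1 : σ z = a * z := by rw [ha, div_mul_cancel₀ _ D.z0]
    have e2 : σ z' = b * z' := by rw [hb, div_mul_cancel₀ _ D'.z0]
    rw [e1, e2, h7, mul_div_mul_left _ _ hb0]
  · rw [div_pow, mul_div_cancel₀ _ (pow_ne_zero _ D'.z0)]

end Crest.Agent.R018.MinusCx975
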