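import Crest.Agent.R018.MinusC_975

/-!
# Row 18, CORE paragraph 9 (minus `ℤ_l`-extensions): many characters (helper975)
-/

set_option autoImplicit false

open NumberField

namespace Crest.Agent.R018.MinusDx975

open Crest.Agent.R018.Placesx484 Crest.Agent.R018.Tamex31 Crest.Agent.R018.MinusCx975
open Crest.Agent.R018.MinkUx824

/-- primitive roots -/
theorem exists_c0 (l n : ℕ) (hl : l.Prime) (h2 : l ≠ 2) (hn : 1 ≤ n) :
    ∃ c₀ m : ℕ, Nat.Coprime c₀ l ∧ c₀ ^ Nat.totient (l ^ n) = 1 + l ^ n * m ∧ ¬ l ∣ m ∧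
      ∀ a : ℕ, Nat.Coprime a l → ∃ i : ℕ, a ≡ c₀ ^ i [MOD l ^ n] := by
  have : Fact l.Prime := ⟨hl⟩
  have hNe : NeZero (l ^ (n + 1)) := ⟨pow_ne_zero _ hl.ne_zero⟩
  have hcyc := ZMod.isCyclic_units_of_prime_pow l hl h2 (n + 1)
  obtain ⟨g, hg⟩ := hcyc.exists_generator
  have hgval : ((g : ZMod (l ^ (n + 1))).val : ZMod (l ^ (n + 1))) = g := by
    rw [ZMod.natCast_val, ZMod.cast_id', id_eq]
  set c₀ := (g : ZMod (l ^ (n + 1))).val with hc₀
  have hcop' : Nat.Coprime c₀ (l ^ (n + 1)) := ZMod.val_coe_unit_coprime g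
  have hcop : Nat.Coprime c₀ l := Nat.Coprime.coprime_dvd_right (dvd_pow_self l (by omega)) hcop'
  have hcopn : Nat.Coprime c₀ (l ^ n) := hcop.pow_right n
  have h1 : c₀ ^ Nat.totient (l ^ n) ≡ 1 [MOD l ^ n] := Nat.ModEq.pow_totient hcopn
  have hc₀pos : 0 < c₀ := by
    rcases Nat.eq_zero_or_pos c₀ with h0 | h0
    · rw [h0, Nat.coprime_zero_left] at hcop
      exact absurd hcop hl.one_lt.ne'
    · exact h0
  have hpos : 1 ≤ c₀ ^ Nat.totient (l ^ n) := Nat.one_le_pow _ _ hc₀pos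
  obtain ⟨m, hm⟩ : l ^ n ∣ c₀ ^ Nat.totient (l ^ n) - 1 := (Nat.modEq_iff_dvd' hpos).1 h1.symm
  have hm' : c₀ ^ Nat.totient (l ^ n) = 1 + l ^ n * m := by omega
  refine ⟨c₀, m, hcop, hm', ?_, ?_⟩
  · rintro ⟨k, rfl⟩
    have h3 : (g : ZMod (l ^ (n + 1))) ^ Nat.totient (l ^ n) = 1 := by
      rw [← hgval, ← Nat.cast_pow, hm', ← mul_assoc, ← pow_succ]
      push_cast
      have : ((l : ZMod (l ^ (n + 1))) ^ (n + 1)) = 0 := by
        rw [← Nat.cast_pow, ZMod.natCast_self]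
      rw [this, zero_mul, add_zero]
    have h4 : g ^ Nat.totient (l ^ n) = 1 := by
      ext; rw [Units.val_pow_eq_pow_val, h3, Units.val_one]
    have h5 := orderOf_dvd_of_pow_eq_one h4
    rw [orderOf_eq_card_of_forall_mem_zpowers hg, Nat.card_eq_fintype_card,
      ZMod.card_units_eq_totient, Nat.totient_prime_pow hl (by omega : 0 < n + 1),
      Nat.totient_prime_pow hl (by omega : 0 < n)] at h5
    have h6 : 0 < l - 1 := by have := hl.one_lt; omega
    have h7 : 0 < l ^ (n - 1) * (l - 1) := Nat.mul_pos (pow_pos hl.pos _) h6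
    have h8 := Nat.le_of_dvd h7 h5
    have h9 : l ^ (n - 1) * (l - 1) < l ^ (n + 1 - 1) * (l - 1) := by
      apply Nat.mul_lt_mul_of_pos_right _ h6
      exact Nat.pow_lt_pow_right hl.one_lt (by omega)
    omega
  · intro a ha
    have ha' : Nat.Coprime a (l ^ (n + 1)) := ha.pow_right _
    obtain ⟨i, hi⟩ := (mem_powers_iff_mem_zpowers).2 (hg (ZMod.unitOfCoprime a ha'))
    refine ⟨i, ?_⟩
    have h3 : ((c₀ ^ i : ℕ) : ZMod (l ^ (n + 1))) = (a : ZMod (l ^ (n + 1))) := by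
      have := congrArg (fun u : (ZMod (l ^ (n + 1)))ˣ => (u : ZMod (l ^ (n + 1)))) hi
      simp only [Units.val_pow_eq_pow_val, ZMod.coe_unitOfCoprime] at this
      rw [Nat.cast_pow, hgval, this]
    have h4 := (ZMod.natCast_eq_natCast_iff _ _ _).1 h3
    exact (h4.symm).of_dvd (pow_dvd_pow l (by omega))

theorem iter {G M : Type*} [Group G] [CommGroup M] [MulDistribMulAction G M] (h : G) (c q : ℕ)
    (x w : M) (hx : h • x = x ^ c * w ^ q) (i : ℕ) : ∃ v : M, h ^ i • x = x ^ (c ^ i) * v ^ q := by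
  induction i with
  | zero => exact ⟨1, by simp⟩
  | succ i ih =>
    obtain ⟨v, hv⟩ := ih
    refine ⟨w ^ (c ^ i) * (h • v), ?_⟩
    rw [pow_succ', mul_smul, hv, smul_mul', smul_pow', smul_pow', hx, mul_pow, mul_pow,
      ← pow_mul, ← pow_mul, ← pow_mul, pow_succ', mul_assoc, mul_comm q]

section Main

variable {F E : Type*} [Field F] [Field E] [Algebra F E]

theorem apply_eq_or_neg {y : E} (hy2 : y ^ 2 ∈ Set.range (algebraMap F E)) (g : E ≃ₐ[F] E) :
    g y = y ∨ g y = - y := by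
  obtain ⟨b, hb⟩ := hy2
  have : (g y) ^ 2 = y ^ 2 := by rw [← map_pow, ← hb, AlgEquiv.commutes]
  exact sq_eq_sq_iff_eq_or_eq_neg.1 this

theorem fix_adjoin {S : Set E} (σ : E ≃ₐ[F] E) (h : ∀ x ∈ S, σ x = x) :
    ∀ x ∈ IntermediateField.adjoin F S, σ x = x := by
  have h1 : S ⊆ IntermediateField.fixedField (Subgroup.zpowers σ) := by
    intro x hx
    rw [SetLike.mem_coe, IntermediateField.mem_fixedField_iff]
    intro f hf
    obtain ⟨k, rfl⟩ := hf
    have : σ ∈ MulAction.stabilizer (E ≃ₐ[F] E) x := h x hx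
    exact zpow_mem this k
  have h2 := IntermediateField.adjoin_le_iff.2 h1
  intro x hx
  have h3 := h2 hx
  rw [IntermediateField.mem_fixedField_iff] at h3
  exact h3 σ (Subgroup.mem_zpowers σ)

theorem mem_stb {y : E} {g : E ≃ₐ[F] E} : g ∈ MulAction.stabilizer (E ≃ₐ[F] E) y ↔ g y = y :=
  MulAction.mem_stabilizer_iff

variable [NumberField F] [IsTotallyComplex F] [CharZero E] [Algebra.IsAlgebraic ℚ E] [IsGalois F E]

theorem many (y : E) (hy2 : y ^ 2 ∈ Set.range (algebraMap F E))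
    (hy : y ∉ Set.range (algebraMap F E)) (l : ℕ) (hl : l.Prime) (h2 : l ≠ 2)
    (hprim : ∀ n : ℕ, ∃ ζ : E, IsPrimitiveRoot ζ (l ^ n))
    (hroot : ∀ (n : ℕ) (x : E), ∃ z : E, z ^ (l ^ n) = x)
    (hcyc : ∀ n a : ℕ, Nat.Coprime a l → ∃ g : E ≃ₐ[F] E, g y = y ∧
      ∀ ζ : E, ζ ^ (l ^ n) = 1 → g ζ = ζ ^ a) (n : ℕ) :
    ∃ T : Finset (MulAction.stabilizer (E ≃ₐ[F] E) y →* Eˣ), l ^ n ≤ T.card ∧
      ∀ χ ∈ T, Good l n χ := by
  classical
  set U := MulAction.stabilizer (E ≃ₐ[F] E) y with hU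
  have hy0 : y ≠ 0 := by
    rintro rfl; exact hy ⟨0, map_zero _⟩
  rcases Nat.eq_zero_or_pos n with rfl | hn
  · refine ⟨{1}, by simp, ?_⟩
    intro χ hχ
    rw [Finset.mem_singleton] at hχ
    subst hχ
    refine ⟨by ext g; simp, ⟨⊥, inferInstance, fun u _ => rfl⟩, fun _ _ _ _ => rfl, ?_⟩
    intro _ _ _ _ _
    rw [MonoidHom.one_apply, MonoidHom.one_apply, inv_one]
  obtain ⟨ζ, hζ⟩ := hprim n
  obtain ⟨c₀, m, hc₀, hc₀m, hlm, hgen⟩ := exists_c0 l n hl h2 hn
  set q := l ^ n with hq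
  have hqpos : 0 < q := pow_pos hl.pos n
  have hNe : NeZero q := ⟨hqpos.ne'⟩
  have hqodd : Odd q := (hl.odd_of_ne_two h2).pow
  have hq1 : 1 < q := Nat.one_lt_pow hn.ne' hl.one_lt
  -- action on the roots of unity
  have hact : ∀ g : E ≃ₐ[F] E, ∃ a : ℕ, Nat.Coprime a l ∧ g ζ = ζ ^ a := by
    intro g
    have h1 : IsPrimitiveRoot (g ζ) q := hζ.map_of_injective g.injective
    obtain ⟨a, -, ha⟩ := hζ.eq_pow_of_pow_eq_one h1.pow_eq_one
    refine ⟨a, ?_, ha.symm⟩
    rw [← ha] at h1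
    have h3 := (hζ.pow_iff_coprime hqpos a).1 h1
    exact Nat.Coprime.coprime_dvd_right (dvd_pow_self l hn.ne') h3
  have hpowmod : ∀ a b : ℕ, a ≡ b [MOD q] → ζ ^ a = ζ ^ b := by
    intro a b hab
    rw [pow_eq_pow_mod a hζ.pow_eq_one, pow_eq_pow_mod b hζ.pow_eq_one, hab]
  -- the element `c`
  obtain ⟨c, hcy, hcζ⟩ : ∃ c : E ≃ₐ[F] E, c y = - y ∧ c ζ = ζ := by
    have h1 : ∃ c : E ≃ₐ[F] E, c y ≠ y := by
      by_contra hcon
      push Not at hcon
      exact hy ((InfiniteGalois.mem_range_algebraMap_iff_fixed y).2 hcon)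
    obtain ⟨c', hc'⟩ := h1
    have hc'y : c' y = - y := (apply_eq_or_neg hy2 c').resolve_left hc'
    obtain ⟨a, ha, haζ⟩ := hact c'
    obtain ⟨b, hb⟩ : ∃ b : ℕ, b * a ≡ 1 [MOD q] ∧ Nat.Coprime b l := by
      have h3 : Nat.Coprime a q := ha.pow_right n
      obtain ⟨b, -, hb⟩ := Nat.exists_mul_mod_eq_one_of_coprime h3 hq1
      refine ⟨b, ?_, ?_⟩
      · rw [Nat.ModEq, mul_comm, hb, Nat.mod_eq_of_lt hq1]
      · have h4 : Nat.Coprime (a * b) l := by
          have h5 : a * b ≡ 1 [MOD l] := by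
            have h6 : a * b ≡ 1 [MOD q] := by rw [Nat.ModEq, hb, Nat.mod_eq_of_lt hq1]
            exact h6.of_dvd (dvd_pow_self l hn.ne')
          rw [Nat.coprime_iff_gcd_eq_one, h5.gcd_eq]
          simp
        exact Nat.Coprime.coprime_mul_left h4
    obtain ⟨g, hgy, hg⟩ := hcyc n b hb.2
    refine ⟨g * c', ?_, ?_⟩
    · rw [AlgEquiv.mul_apply, hc'y, map_neg, hgy]
    · rw [AlgEquiv.mul_apply, haζ, map_pow, hg ζ hζ.pow_eq_one, ← pow_mul]
      have := hpowmod _ _ hb.1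
      rw [pow_one] at this
      exact this
  obtain ⟨g₀, hg₀y, hg₀⟩ := hcyc n c₀ hc₀
  have hg₀ζ : g₀ ζ = ζ ^ c₀ := hg₀ ζ hζ.pow_eq_one
  -- the field `K = F(y, ζ)`
  let K : IntermediateField F E := IntermediateField.adjoin F {y, ζ}
  have hyK : y ∈ K := IntermediateField.subset_adjoin F _ (by simp)
  have hζK : ζ ∈ K := IntermediateField.subset_adjoin F _ (by simp)
  have hfixgen : ∀ σ : E ≃ₐ[F] E, σ y = y → σ ζ = ζ → ∀ x ∈ K, σ x = x := by
    intro σ h3 h4
    apply fix_adjoin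
    rintro x (rfl | rfl)
    · exact h3
    · exact h4
  have : FiniteDimensional F K := by
    apply IntermediateField.finiteDimensional_adjoin
    intro x _
    exact Algebra.IsIntegral.isIntegral x
  have : Normal F K := by
    rw [IntermediateField.normal_iff_forall_map_le']
    intro σ
    rw [IntermediateField.map_le_iff_le_comap, IntermediateField.adjoin_le_iff]
    rintro x (rfl | rfl)
    · change σ x ∈ K
      rcases apply_eq_or_neg hy2 σ with h3 | h3
      · rw [h3]; exact hyK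
      · rw [h3]; exact neg_mem hyK
    · change σ x ∈ K
      obtain ⟨a, -, ha⟩ := hact σ
      rw [ha]; exact pow_mem hζK a
  have : IsGalois F K := { }
  have : NumberField K := NumberField.of_module_finite F K
  -- restriction
  let r : (E ≃ₐ[F] E) →* (K ≃ₐ[F] K) := AlgEquiv.restrictNormalHom K
  have hr : ∀ (σ : E ≃ₐ[F] E) (x : K), ((r σ x : K) : E) = σ x := fun σ x =>
    AlgEquiv.restrictNormal_commutes σ K x
  have hrext : ∀ σ ρ : E ≃ₐ[F] E, σ y = ρ y → σ ζ = ρ ζ → r σ = r ρ := by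
    intro σ ρ h3 h4
    have h5 : ∀ x ∈ K, (ρ⁻¹ * σ) x = x := by
      apply hfixgen
      · rw [AlgEquiv.mul_apply, h3, ← AlgEquiv.mul_apply, inv_mul_cancel, AlgEquiv.one_apply]
      · rw [AlgEquiv.mul_apply, h4, ← AlgEquiv.mul_apply, inv_mul_cancel, AlgEquiv.one_apply]
    ext x
    rw [hr, hr]
    have h6 := h5 x x.2
    have h7 : ρ ((ρ⁻¹ * σ) x) = ρ x := by rw [h6]
    rw [← AlgEquiv.mul_apply, ← mul_assoc, mul_inv_cancel, one_mul] at h7
    exact h7
  have hζ' : IsPrimitiveRoot (⟨ζ, hζK⟩ : K) q := by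
    apply IsPrimitiveRoot.of_map_of_injective (f := algebraMap K E) _ (algebraMap K E).injective
    exact hζ
  have hcomm : r g₀ * r c = r c * r g₀ := by
    rw [← map_mul, ← map_mul]
    apply hrext
    · rw [AlgEquiv.mul_apply, AlgEquiv.mul_apply, hcy, hg₀y, map_neg, hg₀y, hcy]
    · rw [AlgEquiv.mul_apply, AlgEquiv.mul_apply, hcζ, hg₀ζ, map_pow, hcζ]
  have hcc : r c * r c = 1 := by
    rw [← map_mul, ← map_one r]
    apply hrext
    · rw [AlgEquiv.mul_apply, hcy, map_neg, hcy, neg_neg]; rfl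
    · rw [AlgEquiv.mul_apply, hcζ, hcζ]; rfl
  have hrcζ : r c ⟨ζ, hζK⟩ = ⟨ζ, hζK⟩ := by
    apply Subtype.ext; rw [hr]; exact hcζ
  have hyneg : - y ≠ y := by
    intro h3
    have h4 : (2 : E) * y = 0 := by
      have : y + y = 0 := by nth_rewrite 1 [← h3]; exact neg_add_cancel y
      rw [two_mul]; exact this
    rcases mul_eq_zero.1 h4 with h5 | h5
    · exact two_ne_zero h5
    · exact hy0 h5
  have hg₀pow : ∀ i : ℕ, (g₀ ^ i) y = y := by
    intro i
    have h3 : g₀ ∈ MulAction.stabilizer (E ≃ₐ[F] E) y := hg₀y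
    exact pow_mem h3 i
  have hg₀powζ : ∀ i : ℕ, (g₀ ^ i) ζ = ζ ^ (c₀ ^ i) := by
    intro i
    induction i with
    | zero => simp
    | succ i ih => rw [pow_succ', AlgEquiv.mul_apply, ih, map_pow, hg₀ζ, ← pow_mul, ← pow_succ']
  have hcH : r c ∉ Subgroup.zpowers (r g₀) := by
    rintro ⟨k, hk⟩
    have h3 : r g₀ ∈ MulAction.stabilizer (K ≃ₐ[F] K) (⟨y, hyK⟩ : K) := by
      change r g₀ ⟨y, hyK⟩ = ⟨y, hyK⟩
      apply Subtype.ext; rw [hr]; exact hg₀y
    have h4 : r c ∈ MulAction.stabilizer (K ≃ₐ[F] K) (⟨y, hyK⟩ : K) := by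
      rw [← hk]; exact zpow_mem h3 k
    have h5 : r c ⟨y, hyK⟩ = ⟨y, hyK⟩ := h4
    have h6 := congrArg (fun x : K => (x : E)) h5
    simp only [hr] at h6
    rw [hcy] at h6
    exact hyneg h6
  have hrg₀ : r g₀ ⟨ζ, hζK⟩ = ⟨ζ, hζK⟩ ^ c₀ := by
    apply Subtype.ext; rw [hr]; exact hg₀ζ
  have hrg₀o : (r g₀) ^ Nat.totient q = 1 := by
    rw [← map_pow, ← map_one r]
    apply hrext
    · rw [hg₀pow]; rfl
    · rw [hg₀powζ, hc₀m, pow_add, pow_one, pow_mul, hζ.pow_eq_one, one_pow, mul_one]; rfl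
  obtain ⟨X, hXu, hXc, hXh, hXdvd, hXne⟩ := MinusVx476.unit_count (F := F) (N := K) hl h2 hζ'
    (r g₀) (r c) hcomm hcc hrcζ hcH hrg₀ hrg₀o hc₀m hlm
  have hcU : c ∉ U := by
    rw [hU, mem_stb, hcy]; exact hyneg
  have hUneg : ∀ a : E ≃ₐ[F] E, a ∉ U → a y = - y := fun a ha =>
    (apply_eq_or_neg hy2 a).resolve_left ha
  have S : Setup U K c q ζ :=
    { prim := hζ
      odd := hqodd
      ζK := hζK
      cU := hcU
      two := by
        intro a b ha hb
        rw [hU, mem_stb, AlgEquiv.mul_apply, hUneg b hb, map_neg, hUneg a ha, neg_neg]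
      cζ := hcζ
      comm := by
        intro g hg
        have hgy : g y = y := hg
        have hgy' : g⁻¹ y = y := inv_mem hg
        have hc'y : c⁻¹ y = - y := by
          have h3 : c⁻¹ (c y) = y := by
            rw [← AlgEquiv.mul_apply, inv_mul_cancel, AlgEquiv.one_apply]
          rw [hcy, map_neg] at h3
          exact neg_eq_iff_eq_neg.1 h3
        have hc'ζ : c⁻¹ ζ = ζ := by
          conv_lhs => rw [← hcζ]
          rw [← AlgEquiv.mul_apply, inv_mul_cancel, AlgEquiv.one_apply]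
        apply hfixgen
        · rw [AlgEquiv.mul_apply, AlgEquiv.mul_apply, AlgEquiv.mul_apply, hc'y, map_neg, hgy',
            map_neg, hcy, neg_neg, hgy]
        · obtain ⟨a, -, ha⟩ := hact g⁻¹
          rw [AlgEquiv.mul_apply, AlgEquiv.mul_apply, AlgEquiv.mul_apply, hc'ζ, ha, map_pow, hcζ,
            ← ha, ← AlgEquiv.mul_apply, mul_inv_cancel, AlgEquiv.one_apply]
      fixU := by
        intro g hg
        exact hg y hyK
      fixK := by
        intro g hg h3
        exact hfixgen g hg h3 }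
  -- Kummer data for the elements of `X`
  have hz : ∀ x : Kˣ, ∃ z : E, z ^ q = ((x : K) : E) := fun x => hroot n _
  choose z hz using hz
  have hx0 : ∀ x : Kˣ, ((x : K) : E) ≠ 0 := by
    intro x h3
    exact x.ne_zero (by exact_mod_cast h3)
  have D : ∀ x ∈ X, KData U K c q ζ (z x) := by
    intro x hx
    have hz0 : z x ≠ 0 := by
      intro h3
      have := hz x
      rw [h3, zero_pow hqpos.ne'] at this
      exact hx0 x this.symm
    refine ⟨hz0, by rw [hz]; exact (x : K).2, ?_, ?_⟩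
    · rw [hz, ← hr]
      have h3 := congrArg (fun u : Kˣ => ((u : K) : E)) (hXc x hx)
      simpa using h3
    · intro g hg
      obtain ⟨a, ha, haζ⟩ := hact g
      obtain ⟨i, hi⟩ := hgen a ha
      have h3 : r g = r g₀ ^ i := by
        rw [← map_pow]
        apply hrext
        · rw [hg₀pow]; exact hg
        · rw [hg₀powζ, haζ]; exact hpowmod _ _ hi
      refine ⟨c₀ ^ i, by rw [haζ]; exact hpowmod _ _ hi, ?_⟩
      obtain ⟨w, hw⟩ := hXh x hx
      obtain ⟨v, hv⟩ := iter (r g₀) c₀ q x w hw i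
      refine ⟨((v : K) : E), (v : K).2, hx0 v, ?_⟩
      rw [hz, ← hr, h3]
      have h5 := congrArg (fun u : Kˣ => ((u : K) : E)) hv
      simpa using h5
  -- the index set
  set Y : Subgroup X := ((powMonoidHom q : Kˣ →* Kˣ).range).subgroupOf X with hY
  have hcard : Nat.card (X ⧸ Y) = ((powMonoidHom q : Kˣ →* Kˣ).range).relIndex X := rfl
  have : Finite (X ⧸ Y) := by
    apply Nat.finite_of_card_ne_zero
    rw [hcard]; exact hXne
  have : Fintype (X ⧸ Y) := Fintype.ofFinite _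
  let f : X ⧸ Y → (U →* Eˣ) := fun a => phi S (D (a.out : X) (a.out : X).2)
  have hf : Function.Injective f := by
    intro a b hab
    obtain ⟨w, hwK, hw0, hw⟩ := phi_inj S _ _ hab
    rw [hz, hz] at hw
    suffices hmem : (a.out : X)⁻¹ * b.out ∈ Y by
      have h3 := QuotientGroup.eq.2 hmem
      rwa [QuotientGroup.out_eq', QuotientGroup.out_eq'] at h3
    refine Subgroup.mem_subgroupOf.2 ?_
    have hw0' : (⟨w, hwK⟩ : K) ≠ 0 := by
      intro h3; exact hw0 (congrArg (fun x : K => (x : E)) h3)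
    refine ⟨(Units.mk0 (⟨w, hwK⟩ : K) hw0')⁻¹, ?_⟩
    ext
    simp only [powMonoidHom_apply, Subgroup.coe_mul, Subgroup.coe_inv, Units.val_mul,
      Units.val_pow_eq_pow_val, Units.val_inv_eq_inv_val, Units.val_mk0,
      IntermediateField.coe_mul, IntermediateField.coe_inv]
    push_cast
    rw [hw]
    have := hx0 ((b.out : X) : Kˣ)
    field_simp
    rw [one_div, inv_pow, inv_mul_cancel₀ (pow_ne_zero _ hw0)]
  refine ⟨Finset.univ.image f, ?_, ?_⟩
  · rw [Finset.card_image_of_injective _ hf, Finset.card_univ, ← Nat.card_eq_fintype_card, hcard]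
    exact Nat.le_of_dvd (Nat.pos_of_ne_zero hXne) hXdvd
  · intro χ hχ
    rw [Finset.mem_image] at hχ
    obtain ⟨a, -, rfl⟩ := hχ
    refine ⟨phi_pow _ _, phi_openKer _ _, ?_, phi_minus _ _⟩
    apply phi_nice (n := n) S (D (a.out : X) (a.out : X).2) hl
    intro P
    rw [hz]
    obtain ⟨u, hu⟩ := hXu ((a.out : X) : Kˣ) (a.out : X).2
    have hint : ∀ v : (𝓞 K)ˣ, P.val.valuation (((iu K v : Kˣ) : K) : E) ≤ 1 := by
      intro v
      have h3 : IsIntegral ℤ ((((iu K v : Kˣ) : K)) : E) := by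
        have h4 : IsIntegral ℤ (((v : 𝓞 K) : K)) := (v : 𝓞 K).isIntegral_coe
        exact h4.map (algebraMap K E).toIntAlgHom
      have h5 := P.coe_mem_val (⟨_, h3⟩ : 𝓞 E)
      exact (ValuationSubring.valuation_le_one_iff _ _).2 h5
    rw [← hu]
    apply le_antisymm (hint u)
    have h6 := hint u⁻¹
    rw [map_inv, Units.val_inv_eq_inv_val] at h6
    push_cast at h6
    rw [map_inv₀] at h6
    by_contra hcon
    rw [not_le] at hcon
    have h7 : P.val.valuation (((iu K u : Kˣ) : K) : E) ≠ 0 := by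
      rw [(Valuation.ne_zero_iff _)]
      exact hx0 _
    exact absurd h6 (not_le.2 ((one_lt_inv₀ (zero_lt_iff.2 h7)).2 hcon))

end Main

end Crest.Agent.R018.MinusDx975
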