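import Mathlib

/-!
# Row 18, CORE paragraph 9: the cyclotomic input for all large `l` (helper975)
-/

set_option autoImplicit false

open NumberField IntermediateField

namespace Crest.Agent.R018.MinusEx975

universe u v

theorem restrict_surjective {k : Type u} {E : Type v} [Field k] [Field E] [Algebra k E]
    (K L : IntermediateField k E) [Normal k K] [FiniteDimensional k K]
    [IsGalois L E] (h : K ⊓ L = ⊥) :
    Function.Surjective (restrictRestrictAlgEquivMapHom k K L E) := by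
  suffices fixedField (restrictRestrictAlgEquivMapHom k K L E).range = ⊥ from
     MonoidHom.range_eq_top.mp <|
      fixingSubgroup_fixedField (restrictRestrictAlgEquivMapHom k K L E).range ▸
        this ▸ fixingSubgroup_bot
  refine eq_bot_iff.mpr fun ⟨x, hx₁⟩ hx₂ ↦ ?_
  obtain ⟨⟨y, hy⟩, rfl⟩ : x ∈ Set.range (algebraMap L E) := by
    refine mem_bot.mp <| (InfiniteGalois.mem_bot_iff_fixed _).mpr fun φ ↦ ?_
    rw [← restrictRestrictAlgEquivMapHom_apply K L φ ⟨x, hx₁⟩]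
    rw [mem_fixedField_iff] at hx₂
    exact congr_arg ((↑) : K → E) <| hx₂ (restrictRestrictAlgEquivMapHom k K L E φ) ⟨φ, rfl⟩
  obtain ⟨z, rfl⟩ : y ∈ (⊥ : IntermediateField k E) := h ▸ mem_inf.mpr ⟨hx₁, hy⟩
  exact mem_bot.mp ⟨z, rfl⟩

variable {F : Type u} {E : Type v} [Field F] [NumberField F] [Field E] [CharZero E] [Algebra F E]

theorem inf_eq_bot_of_coprime (K₁ K₂ : IntermediateField ℚ E) [NumberField K₁] [NumberField K₂]
    (h : IsCoprime (discr K₁) (discr K₂)) : K₁ ⊓ K₂ = ⊥ := by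
  have hfd : FiniteDimensional ℚ ↥(K₁ ⊓ K₂) := by
    have hle : (K₁ ⊓ K₂) ≤ K₁ := inf_le_left
    exact FiniteDimensional.of_injective (IntermediateField.inclusion hle).toLinearMap
      (IntermediateField.inclusion_injective hle)
  have hnf : NumberField ↥(K₁ ⊓ K₂) := ⟨⟩
  have hu : IsUnit (discr ↥(K₁ ⊓ K₂)) :=
    h.isUnit_of_dvd' (NumberField.discr_dvd_discr _ _) (NumberField.discr_dvd_discr _ _)
  by_contra hne
  have : 1 < Module.finrank ℚ ↥(K₁ ⊓ K₂) := by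
    refine Nat.one_lt_iff_ne_zero_and_ne_one.mpr ⟨Module.finrank_pos.ne', ?_⟩
    rwa [← IntermediateField.finrank_eq_one_iff] at hne
  have h2 := abs_discr_gt_two this
  rw [Int.isUnit_iff_abs_eq] at hu
  omega

/-- power maps on roots of unity come from automorphisms of the cyclotomic field -/
theorem exists_sigma {K : Type v} [Field K] [CharZero K] (n : ℕ) [NeZero n]
    [hK : IsCyclotomicExtension {n} ℚ K] (a : ℕ) (ha : Nat.Coprime a n) (ζ : K) (hζ : ζ ^ n = 1) :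
    ∃ σ : K ≃ₐ[ℚ] K, σ ζ = ζ ^ a := by
  have hirr : Irreducible (Polynomial.cyclotomic n ℚ) :=
    Polynomial.cyclotomic.irreducible_rat (NeZero.pos _)
  obtain ⟨σ, hσ⟩ := (IsCyclotomicExtension.autEquivPow K hirr).surjective
    (ZMod.unitOfCoprime a ha)
  refine ⟨σ, ?_⟩
  have hz := IsCyclotomicExtension.zeta_spec n ℚ K
  have h4 : (hz.autToPow ℚ σ) = ZMod.unitOfCoprime a ha := hσ
  have h5 := hz.autToPow_spec ℚ σ
  rw [h4] at h5
  obtain ⟨j, -, hj⟩ := hz.eq_pow_of_pow_eq_one hζ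
  rw [← hj, map_pow, ← h5, ← pow_mul, ← pow_mul, mul_comm]
  rw [ZMod.coe_unitOfCoprime, ZMod.val_natCast]
  rw [pow_mul' _ j, pow_mul' _ j, pow_eq_pow_mod a hz.pow_eq_one]

set_option backward.isDefEq.respectTransparency false in
/-- all power maps on `μ_{l^n}` come from automorphisms over `L`, if `l ∤ discr L` -/
theorem exists_aut [Algebra.IsIntegral ℚ E] (L : IntermediateField ℚ E) [NumberField L]
    [IsGalois L E] (l : ℕ)
    (hl : l.Prime) (hd : ¬ (l : ℤ) ∣ discr L) (n a : ℕ) (ha : Nat.Coprime a l) {ζ : E}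
    (hζ : IsPrimitiveRoot ζ (l ^ n)) : ∃ g : E ≃ₐ[L] E, g ζ = ζ ^ a := by
  have : Fact l.Prime := ⟨hl⟩
  have hne : NeZero (l ^ n) := ⟨pow_ne_zero _ hl.ne_zero⟩
  have hcyc : IsCyclotomicExtension {l ^ n} ℚ ℚ⟮ζ⟯ :=
    hζ.intermediateField_adjoin_isCyclotomicExtension ℚ
  have hnf : NumberField ℚ⟮ζ⟯ := IsCyclotomicExtension.numberField {l ^ n} ℚ _
  have hgal : IsGalois ℚ ℚ⟮ζ⟯ := IsCyclotomicExtension.isGalois {l ^ n} ℚ _
  have hcop : IsCoprime (discr ℚ⟮ζ⟯) (discr L) := by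
    have h1 := IsCyclotomicExtension.Rat.discr_prime_pow l n ℚ⟮ζ⟯
    rw [h1]
    refine IsCoprime.mul_left ?_ ?_
    · exact (isCoprime_one_left.neg_left).pow_left
    · exact (((Nat.prime_iff_prime_int.1 hl).coprime_iff_not_dvd).2 hd).pow_left
  have hbot := inf_eq_bot_of_coprime ℚ⟮ζ⟯ L hcop
  have hsurj := restrict_surjective ℚ⟮ζ⟯ L hbot
  set ζ' : ℚ⟮ζ⟯ := AdjoinSimple.gen ℚ ζ with hζ'
  have hζ'p : IsPrimitiveRoot ζ' (l ^ n) := IsPrimitiveRoot.coe_submonoidClass_iff.mp hζ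
  obtain ⟨σ, h3⟩ := exists_sigma (l ^ n) a (ha.pow_right n) ζ' hζ'p.pow_eq_one
  obtain ⟨g, hg⟩ := hsurj σ
  refine ⟨g, ?_⟩
  have h6 := restrictRestrictAlgEquivMapHom_apply (E := E) ℚ⟮ζ⟯ L g ζ'
  rw [hg, h3] at h6
  rw [← AdjoinSimple.coe_gen ℚ ζ, ← h6]
  rfl

set_option backward.isDefEq.respectTransparency false in
/-- the cyclotomic input `hcyc` for all large `l` -/
theorem hcyc_large [IsGalois F E] (y : E) : ∃ L0 : ℕ, ∀ l : ℕ, l.Prime → L0 < l →
    (∀ n : ℕ, ∃ ζ : E, IsPrimitiveRoot ζ (l ^ n)) → ∀ n a : ℕ, Nat.Coprime a l →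
      ∃ g : E ≃ₐ[F] E, g y = y ∧ ∀ ζ : E, ζ ^ (l ^ n) = 1 → g ζ = ζ ^ a := by
  have halg : Algebra.IsAlgebraic ℚ E := Algebra.IsAlgebraic.trans ℚ F E
  have hint : Algebra.IsIntegral ℚ E := Algebra.isAlgebraic_iff_isIntegral.1 halg
  have hyint : IsIntegral F y := (Algebra.IsIntegral.isIntegral (R := ℚ) y).tower_top
  have hfin : FiniteDimensional F F⟮y⟯ := adjoin.finiteDimensional hyint
  have hnfM : NumberField F⟮y⟯ := NumberField.of_module_finite F F⟮y⟯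
  set L : IntermediateField ℚ E := (F⟮y⟯).restrictScalars ℚ with hL
  have hnfL : NumberField L := hnfM
  have hgalL : IsGalois L E := inferInstanceAs (IsGalois F⟮y⟯ E)
  refine ⟨(discr L).natAbs, ?_⟩
  intro l hl hlt hprim n a ha
  obtain ⟨ζ, hζ⟩ := hprim n
  have hd : ¬ (l : ℤ) ∣ discr L := by
    intro h
    have h1 : l ∣ (discr L).natAbs := Int.natCast_dvd.1 h
    have h2 := Nat.le_of_dvd (Int.natAbs_pos.2 (discr_ne_zero L)) h1
    omega
  obtain ⟨g, hg⟩ := exists_aut L l hl hd n a ha hζ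
  have hne : NeZero (l ^ n) := ⟨pow_ne_zero _ hl.ne_zero⟩
  refine ⟨{ (g : E ≃+* E) with commutes' := ?_ }, ?_, ?_⟩
  · intro x
    exact g.commutes (⟨algebraMap F E x, (F⟮y⟯).algebraMap_mem x⟩ : L)
  · exact g.commutes (⟨y, mem_adjoin_simple_self F y⟩ : L)
  · intro z hz
    obtain ⟨j, -, rfl⟩ := hζ.eq_pow_of_pow_eq_one hz
    change g (ζ ^ j) = (ζ ^ j) ^ a
    rw [map_pow, hg, ← pow_mul, ← pow_mul, mul_comm]

end Crest.Agent.R018.MinusEx975
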