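import Crest.Agent.R018.TameF_31
import Crest.Agent.R018.TameB_31
import Crest.Agent.R018.Hit_380

/-!
Row 18, CORE section 9 (helper476): FINITENESS.  The set of characters of exponent `l` of the
stabilizer of an element, with open kernel and unramified outside `l`, is finite.
-/

set_option autoImplicit false
set_option linter.unusedSectionVars false

open NumberField IsDedekindDomain
open scoped Pointwise

namespace Crest.Agent.R018.MinusFx476

open Crest.Agent.R018.Tamex31 Crest.Agent.R018.Placesx484 Crest.Agent.R018.Placesx484.Place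
open Crest.Agent.R018.Selmerx380 Crest.Agent.R018.Ramx380 Crest.Agent.R018.Hitx380

variable {F E : Type*} [Field F] [NumberField F] [Field E] [CharZero E]
  [Algebra.IsAlgebraic ℚ E] [Algebra F E] [IsGalois F E]

/-- an automorphism in the inertia group is in the inertia group in the sense of valuations -/
theorem inInertia_of_mem {K : Type*} [Field K] [Algebra K E] (P : Place E) (τ : E ≃ₐ[K] E)
    (h : τ ∈ P.ideal.inertia (E ≃ₐ[K] E)) : InInertia P.val τ := by
  have h1 := (mem_inS_val P τ).2 h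
  intro a ha
  exact h1.2 a ((ValuationSubring.valuation_le_one_iff _ _).1 ha)

theorem mem_inS_restrict {K : Type*} [Field K] [Algebra F K] [Algebra K E] [IsScalarTower F K E]
    (P : Place E) (τ : E ≃ₐ[K] E)
    (h : τ ∈ P.ideal.inertia (E ≃ₐ[K] E)) : τ.restrictScalars F ∈ inS F P.val := by
  have h1 := (mem_inS_val P τ).2 h
  exact ⟨fun x => h1.1 x, fun x hx => h1.2 x hx⟩

/-- FINITENESS. -/
theorem fin_chars (y : E) {l : ℕ} (hl : l.Prime) {ζ : E} (hζ : IsPrimitiveRoot ζ l)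
    (hroot : ∀ x : E, ∃ z : E, z ^ l = x) :
    {χ : (MulAction.stabilizer (E ≃ₐ[F] E) y) →* Eˣ | χ ^ l = 1 ∧ OpenKer χ ∧
      ∀ P : Place E, P.rchar ≠ l → ∀ s : MulAction.stabilizer (E ≃ₐ[F] E) y,
        (s : E ≃ₐ[F] E) ∈ inS F P.val → χ s = 1}.Finite := by
  classical
  have hl0 : l ≠ 0 := hl.ne_zero
  have hNe : NeZero l := ⟨hl0⟩
  let K : IntermediateField F E := IntermediateField.adjoin F {y, ζ}
  have hyK : y ∈ K := IntermediateField.subset_adjoin _ _ (by simp)
  have hζK : ζ ∈ K := IntermediateField.subset_adjoin _ _ (by simp)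
  have hint : ∀ x : E, IsIntegral F x := fun x => Algebra.IsIntegral.isIntegral x
  have hfd : FiniteDimensional F K :=
    IntermediateField.finiteDimensional_adjoin fun x _ => hint x
  have hnf : NumberField K := NumberField.of_module_finite F K
  have hKE : IsGalois K E := IsGalois.tower_top_of_isGalois F K E
  let ζK : K := ⟨ζ, hζK⟩
  have hζK' : IsPrimitiveRoot ζK l :=
    IsPrimitiveRoot.of_map_of_injective (f := K.val) hζ K.val.injective
  have hVU : K.fixingSubgroup ≤ MulAction.stabilizer (E ≃ₐ[F] E) y := by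
    intro g hg
    exact (IntermediateField.mem_fixingSubgroup_iff K g).1 hg y hyK
  -- elements fixed by `V` are in `K`
  have hfixK : ∀ z : E, (∀ g ∈ K.fixingSubgroup, g z = z) → z ∈ K := by
    intro z hz
    have h1 : z ∈ IntermediateField.fixedField K.fixingSubgroup := fun g => hz g g.2
    rwa [InfiniteGalois.fixedField_fixingSubgroup] at h1
  -- the primes above `l`
  have hS : {v : HeightOneSpectrum (𝓞 K) | (l : 𝓞 K) ∈ v.asIdeal}.Finite :=
    KerClx793.PA_finite (K := K) l hl0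
  obtain ⟨T, hT, hT'⟩ := numberField_selmer_finite K l hl.pos _ hS
  -- the Kummer class of a character
  have key : ∀ χ : (MulAction.stabilizer (E ≃ₐ[F] E) y) →* Eˣ, χ ^ l = 1 → OpenKer χ →
      (∀ P : Place E, P.rchar ≠ l → ∀ s : MulAction.stabilizer (E ≃ₐ[F] E) y,
        (s : E ≃ₐ[F] E) ∈ inS F P.val → χ s = 1) →
      ∃ t ∈ T, ∃ z : E, z ≠ 0 ∧ (∃ w : Kˣ, z ^ l = algebraMap K E (t * w ^ l : Kˣ)) ∧
        ∀ g (hg : g ∈ K.fixingSubgroup), g z = (χ ⟨g, hVU hg⟩ : Eˣ) * z := by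
    intro χ hχl hχo hχn
    have hval : ∀ g, (χ g : E) ^ l = 1 := by
      intro g
      have h1 : (χ ^ l) g = 1 := by rw [hχl]; rfl
      rw [MonoidHom.pow_apply] at h1
      rw [← Units.val_pow_eq_pow_val, h1, Units.val_one]
    obtain ⟨z, hz0, hz⟩ := exists_resolvent (χ.comp (Subgroup.inclusion hVU))
      (hχo.restrict hVU) (by
        intro a b
        obtain ⟨i, -, hi⟩ := hζ.eq_pow_of_pow_eq_one (hval (Subgroup.inclusion hVU b))
        change (a : E ≃ₐ[F] E) (χ (Subgroup.inclusion hVU b) : E) = χ (Subgroup.inclusion hVU b)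
        rw [← hi, map_pow, (IntermediateField.mem_fixingSubgroup_iff K (a : E ≃ₐ[F] E)).1 a.2 ζ hζK])
    have hz' : ∀ g (hg : g ∈ K.fixingSubgroup), g z = (χ ⟨g, hVU hg⟩ : Eˣ) * z :=
      fun g hg => hz ⟨g, hg⟩
    have hzK : z ^ l ∈ K := by
      apply hfixK
      intro g hg
      rw [map_pow, hz' g hg, mul_pow, hval, one_mul]
    let a : Kˣ := Units.mk0 (⟨z ^ l, hzK⟩ : K) (by
      intro h
      exact pow_ne_zero l hz0 (congrArg Subtype.val h))
    have ha : z ^ l = algebraMap K E (a : K) := rfl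
    obtain ⟨t, ht, w, hw⟩ := hT' a (by
      intro v hv
      -- a place above `v`
      obtain ⟨P, hP⟩ := exists_res_eq K (⟨v.asIdeal, v.isPrime, v.ne_bot⟩ : Place K) (E := E)
      have hPv : (P.res K).ideal = v.asIdeal := by rw [hP]
      have hlP : (l : 𝓞 E) ∉ P.ideal := by
        intro hmem
        apply hv
        change (l : 𝓞 K) ∈ v.asIdeal
        rw [← hPv, Place.mem_res, map_natCast]
        exact hmem
      have hPl : P.rchar ≠ l := by
        rintro rfl
        exact hlP P.rchar_mem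
      obtain ⟨τ, hτ, π, ϖ, hπ, hϖ, -, hmove⟩ := exists_moving (K := K) P l hl hPl ζ hζ
        (fun x => hroot _)
      have hhos : hos (P.res K) = v := HeightOneSpectrum.ext hPv
      rw [hhos] at hϖ
      have hτV : τ.restrictScalars F ∈ K.fixingSubgroup := by
        rw [IntermediateField.mem_fixingSubgroup_iff]
        intro x hx
        exact τ.commutes ⟨x, hx⟩
      have hfix : τ z = z := by
        have h1 := hz' (τ.restrictScalars F) hτV
        have h2 := hχn P hPl ⟨τ.restrictScalars F, hVU hτV⟩ (mem_inS_restrict P τ hτ)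
        rw [h2, Units.val_one, one_mul] at h1
        exact h1
      exact ord_pullback_zero l hl ζK hζK' P.val v (over_of_res P v hPv)
        (valuation_natCast_eq_one P l hlP) τ (inInertia_of_mem P τ hτ) π ϖ hπ hϖ hmove a z ha hfix)
    exact ⟨t, ht, z, hz0, ⟨w, by rw [ha, hw]⟩, hz'⟩
  choose! cl hcl z hz0 hzw hz using key
  refine Set.Finite.of_injOn (f := cl) (t := T) (fun χ hχ => hcl χ hχ.1 hχ.2.1 hχ.2.2) ?_ hT
  rintro χ₁ ⟨h1, h2, h3⟩ χ₂ ⟨h1', h2', h3'⟩ heq
  -- the quotient of the two resolvents is in `K`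
  obtain ⟨w₁, hw₁⟩ := hzw χ₁ h1 h2 h3
  obtain ⟨w₂, hw₂⟩ := hzw χ₂ h1' h2' h3'
  have hz1 := hz0 χ₁ h1 h2 h3
  have hz2 := hz0 χ₂ h1' h2' h3'
  have hdiv : (z χ₁ / z χ₂) ∈ K := by
    have e1 : (z χ₁ / z χ₂ / (algebraMap K E (w₁ : K) / algebraMap K E (w₂ : K))) ^ l = 1 := by
      rw [div_pow, div_pow, div_pow, hw₁, hw₂, heq, Units.val_mul, Units.val_mul,
        Units.val_pow_eq_pow_val, Units.val_pow_eq_pow_val, map_mul, map_mul, map_pow, map_pow]
      have ht0 : algebraMap K E ((cl χ₂ : Kˣ) : K) ≠ 0 := (map_ne_zero _).2 (Units.ne_zero _)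
      have hw10 : algebraMap K E (w₁ : K) ≠ 0 := (map_ne_zero _).2 (Units.ne_zero _)
      have hw20 : algebraMap K E (w₂ : K) ≠ 0 := (map_ne_zero _).2 (Units.ne_zero _)
      rw [mul_div_mul_left _ _ ht0, div_self]
      exact div_ne_zero (pow_ne_zero _ hw10) (pow_ne_zero _ hw20)
    obtain ⟨i, -, hi⟩ := hζ.eq_pow_of_pow_eq_one e1
    have hw10 : algebraMap K E (w₁ : K) ≠ 0 := (map_ne_zero _).2 (Units.ne_zero _)
    have hw20 : algebraMap K E (w₂ : K) ≠ 0 := (map_ne_zero _).2 (Units.ne_zero _)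
    have e2 : z χ₁ / z χ₂ = ζ ^ i * (algebraMap K E (w₁ : K) / algebraMap K E (w₂ : K)) := by
      rw [hi, div_mul_cancel₀]
      exact div_ne_zero hw10 hw20
    rw [e2]
    exact mul_mem (pow_mem hζK i) (div_mem (w₁ : K).2 (w₂ : K).2)
  have hV : ∀ g (hg : g ∈ K.fixingSubgroup), χ₁ ⟨g, hVU hg⟩ = χ₂ ⟨g, hVU hg⟩ := by
    intro g hg
    have e1 := (IntermediateField.mem_fixingSubgroup_iff K g).1 hg _ hdiv
    rw [map_div₀, hz χ₁ h1 h2 h3 g hg, hz χ₂ h1' h2' h3' g hg] at e1
    have hu1 : ((χ₁ ⟨g, hVU hg⟩ : Eˣ) : E) ≠ 0 := Units.ne_zero _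
    have hu2 : ((χ₂ ⟨g, hVU hg⟩ : Eˣ) : E) ≠ 0 := Units.ne_zero _
    ext
    field_simp at e1
    exact e1
  -- extension to the whole stabilizer
  ext g : 1
  have hg' : ((g : E ≃ₐ[F] E) ^ (l - 1)) ∈ K.fixingSubgroup := by
    have hζg : ((g : E ≃ₐ[F] E) ^ (l - 1)) ζ = ζ := by
      have e1 : ((g : E ≃ₐ[F] E) ζ) ^ l = 1 := by rw [← map_pow, hζ.pow_eq_one, map_one]
      obtain ⟨a, ha, ha'⟩ := hζ.eq_pow_of_pow_eq_one e1
      have e2 : ∀ k : ℕ, ((g : E ≃ₐ[F] E) ^ k) ζ = ζ ^ (a ^ k) := by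
        intro k
        induction k with
        | zero => simp
        | succ k ih =>
          rw [pow_succ', AlgEquiv.mul_apply, ih, map_pow, ← ha', ← pow_mul, ← pow_succ']
      have hal : ¬ l ∣ a := by
        intro hd
        have h4 : (g : E ≃ₐ[F] E) ζ = 1 := by
          rw [← ha']
          exact (hζ.pow_eq_one_iff_dvd a).2 hd
        have h5 : ζ = 1 := by
          apply (g : E ≃ₐ[F] E).injective
          rw [h4, map_one]
        exact hl.one_lt.ne' (hζ.unique (h5 ▸ IsPrimitiveRoot.one))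
      have hmod : a ^ (l - 1) ≡ 1 [MOD l] :=
        Nat.ModEq.pow_card_sub_one_eq_one hl ((Nat.Prime.coprime_iff_not_dvd hl).2 hal).symm
      rw [e2]
      have h6 : ζ ^ (a ^ (l - 1)) = ζ ^ 1 := by
        rw [← Nat.mod_add_div (a ^ (l - 1)) l, pow_add, pow_mul, hζ.pow_eq_one, one_pow, mul_one,
          hmod, Nat.mod_eq_of_lt hl.one_lt]
      rw [h6, pow_one]
    have hyg : ((g : E ≃ₐ[F] E) ^ (l - 1)) y = y := by
      have := pow_mem g.2 (l - 1)
      exact this
    have hle : K ≤ IntermediateField.fixedField (Subgroup.zpowers ((g : E ≃ₐ[F] E) ^ (l - 1))) := by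
      rw [IntermediateField.adjoin_le_iff]
      rintro x hx ⟨h, hh⟩
      obtain ⟨i, rfl⟩ := Subgroup.mem_zpowers_iff.1 hh
      have hx' : ((g : E ≃ₐ[F] E) ^ (l - 1)) ∈ MulAction.stabilizer (E ≃ₐ[F] E) x := by
        rcases hx with rfl | rfl
        · exact hyg
        · exact hζg
      exact zpow_mem hx' i
    rw [IntermediateField.mem_fixingSubgroup_iff]
    intro x hx
    exact hle hx ⟨_, Subgroup.mem_zpowers _⟩
  have e3 := hV _ hg'
  have e4 : (⟨(g : E ≃ₐ[F] E) ^ (l - 1), hVU hg'⟩ : MulAction.stabilizer (E ≃ₐ[F] E) y)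
      = g ^ (l - 1) := by
    apply Subtype.ext
    rfl
  rw [e4, map_pow, map_pow] at e3
  have e5 : (χ₁ g) ^ l = 1 := by
    have : (χ₁ ^ l) g = 1 := by rw [h1]; rfl
    rwa [MonoidHom.pow_apply] at this
  have e6 : (χ₂ g) ^ l = 1 := by
    have : (χ₂ ^ l) g = 1 := by rw [h1']; rfl
    rwa [MonoidHom.pow_apply] at this
  have e7 : l = (l - 1) + 1 := (Nat.sub_add_cancel hl.one_lt.le).symm
  rw [e7, pow_succ] at e5 e6
  have e8 : (χ₂ g) ^ (l - 1) * χ₁ g = (χ₂ g) ^ (l - 1) * χ₂ g := by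
    rw [e6, ← e3, e5]
  exact mul_left_cancel e8

end Crest.Agent.R018.MinusFx476
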