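import Mathlib

/-!
Row 18, CORE section 9 (helper476): counting + compactness.  If a group `W` has at least `l^n`
continuous homs to `Z/l^n` killing a set `R`, for every `n`, and only finitely many for `n = 1`,
then there is a nonzero continuous hom `W → ℤ_l` killing `R`.
-/

set_option autoImplicit false
set_option linter.unusedSectionVars false

namespace Crest.Agent.R018.MinusLx476

variable {W : Type*} [Group W] [TopologicalSpace W] (l : ℕ) (R : Set W)

/-- continuous homs `W → Z/l^n` killing `R`, as functions -/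
def X (n : ℕ) : Set (W → ZMod (l ^ n)) :=
  {f | (∀ g h, f (g * h) = f g + f h) ∧ (∀ r ∈ R, f r = 0) ∧ IsOpen {g | f g = 0}}

section arith
variable {l} [hl : Fact l.Prime]

/-- multiplication by `l^j` : `Z/l^i → Z/l^(i+j)` -/
def io (i j : ℕ) : ZMod (l ^ i) →+ ZMod (l ^ (i + j)) :=
  ZMod.lift (l ^ i) ⟨(zmultiplesHom (ZMod (l ^ (i + j)))) ((l ^ j : ℕ) : ZMod (l ^ (i + j))), by
    simp only [zmultiplesHom_apply, natCast_zsmul, nsmul_eq_mul]
    rw [← Nat.cast_mul, ← pow_add]
    exact ZMod.natCast_self _⟩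

theorem io_natCast (i j : ℕ) (a : ℕ) :
    io (l := l) i j (a : ZMod (l ^ i)) = ((l ^ j * a : ℕ) : ZMod (l ^ (i + j))) := by
  have h := ZMod.lift_coe (l ^ i) ⟨(zmultiplesHom (ZMod (l ^ (i + j))))
    ((l ^ j : ℕ) : ZMod (l ^ (i + j))), by
    simp only [zmultiplesHom_apply, natCast_zsmul, nsmul_eq_mul]
    rw [← Nat.cast_mul, ← pow_add]
    exact ZMod.natCast_self _⟩ (a : ℤ)
  have e : ((a : ℤ) : ZMod (l ^ i)) = (a : ZMod (l ^ i)) := by push_cast; rfl
  rw [e] at h
  unfold io
  rw [h]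
  simp only [zmultiplesHom_apply, natCast_zsmul, nsmul_eq_mul]
  push_cast
  ring

theorem io_injective (i j : ℕ) : Function.Injective (io (l := l) i j) := by
  rw [injective_iff_map_eq_zero]
  intro a ha
  have : NeZero (l ^ i) := ⟨pow_ne_zero _ hl.out.ne_zero⟩
  rw [← ZMod.natCast_zmod_val a, io_natCast, ZMod.natCast_eq_zero_iff, pow_add, mul_comm] at ha
  have h := Nat.dvd_of_mul_dvd_mul_left (pow_pos hl.out.pos j) ha
  rw [← ZMod.natCast_zmod_val a, ZMod.natCast_eq_zero_iff]
  exact h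

theorem exists_io (i j : ℕ) (x : ZMod (l ^ (i + j))) (hx : ((l ^ i : ℕ) : ZMod (l ^ (i + j))) * x = 0) :
    ∃ a : ZMod (l ^ i), io i j a = x := by
  have : NeZero (l ^ (i + j)) := ⟨pow_ne_zero _ hl.out.ne_zero⟩
  rw [← ZMod.natCast_zmod_val x, ← Nat.cast_mul, ZMod.natCast_eq_zero_iff] at hx
  have hx' : l ^ i * l ^ j ∣ l ^ i * x.val := by rw [← pow_add]; exact hx
  have h := Nat.dvd_of_mul_dvd_mul_left (pow_pos hl.out.pos i) hx'
  obtain ⟨b, hb⟩ := h
  refine ⟨(b : ZMod (l ^ i)), ?_⟩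
  rw [io_natCast, ← hb, ZMod.natCast_zmod_val]

/-- reduction -/
def red (i j : ℕ) (h : i ≤ j) : ZMod (l ^ j) →+* ZMod (l ^ i) :=
  ZMod.castHom (pow_dvd_pow l h) (ZMod (l ^ i))

theorem exists_io_of_red {i j : ℕ} (x : ZMod (l ^ (i + j)))
    (hx : red j (i + j) (Nat.le_add_left j i) x = 0) : ∃ a : ZMod (l ^ i), io i j a = x := by
  have : NeZero (l ^ (i + j)) := ⟨pow_ne_zero _ hl.out.ne_zero⟩
  rw [← ZMod.natCast_zmod_val x, red, map_natCast, ZMod.natCast_eq_zero_iff] at hx
  obtain ⟨b, hb⟩ := hx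
  refine ⟨(b : ZMod (l ^ i)), ?_⟩
  rw [io_natCast, ← hb, ZMod.natCast_zmod_val]

end arith

section basics
variable {l R} [hl : Fact l.Prime]

theorem X_map_one {n : ℕ} {f : W → ZMod (l ^ n)} (hf : f ∈ X l R n) : f 1 = 0 := by
  have := hf.1 1 1
  rw [mul_one] at this
  simpa using this

theorem X_map_inv {n : ℕ} {f : W → ZMod (l ^ n)} (hf : f ∈ X l R n) (g : W) :
    f g⁻¹ = - f g := by
  have := hf.1 g⁻¹ g
  rw [inv_mul_cancel, (X_map_one hf)] at this
  exact eq_neg_of_add_eq_zero_left this.symm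

theorem X.red_mem {i j : ℕ} (h : i ≤ j) {f : W → ZMod (l ^ j)} (hf : f ∈ X l R j)
    [ContinuousMul W] : (fun g => red i j h (f g)) ∈ X l R i := by
  refine ⟨fun g k => by simp only [hf.1, map_add], fun r hr => by simp only [hf.2.1 r hr, map_zero],
    ?_⟩
  let K : Subgroup W :=
    { carrier := {g | f g = 0}
      one_mem' := (X_map_one hf)
      mul_mem' := by
        intro a b ha hb
        simp only [Set.mem_ofPred_eq] at ha hb ⊢
        rw [hf.1, ha, hb, add_zero]
      inv_mem' := by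
        intro a ha
        simp only [Set.mem_ofPred_eq] at ha ⊢
        rw [X_map_inv hf, ha, neg_zero] }
  let K' : Subgroup W :=
    { carrier := {g | red i j h (f g) = 0}
      one_mem' := by simp only [Set.mem_ofPred_eq]; rw [(X_map_one hf), map_zero]
      mul_mem' := by
        intro a b ha hb
        simp only [Set.mem_ofPred_eq] at ha hb ⊢
        rw [hf.1, map_add, ha, hb, add_zero]
      inv_mem' := by
        intro a ha
        simp only [Set.mem_ofPred_eq] at ha ⊢
        rw [X_map_inv hf, map_neg, ha, neg_zero] }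
  have hKK : K ≤ K' := by
    intro g hg
    have hg' : f g = 0 := hg
    change red i j h (f g) = 0
    rw [hg', map_zero]
  exact Subgroup.isOpen_mono hKK (show IsOpen (K : Set W) from hf.2.2)

/-- a hom with values in the image of `io` factors -/
theorem X.factor {i j : ℕ} {f : W → ZMod (l ^ (i + j))} (hf : f ∈ X l R (i + j))
    (h : ∀ g, ∃ a : ZMod (l ^ i), io i j a = f g) :
    ∃ f' ∈ X l R i, ∀ g, io i j (f' g) = f g := by
  choose f' hf' using h
  have hinj := io_injective (l := l) i j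
  refine ⟨f', ⟨fun g k => ?_, fun r hr => ?_, ?_⟩, hf'⟩
  · apply hinj; rw [map_add, hf', hf', hf', hf.1]
  · apply hinj; rw [hf', hf.2.1 r hr, map_zero]
  · have : {g | f' g = 0} = {g | f g = 0} := by
      ext g
      simp only [Set.mem_ofPred_eq]
      rw [← hf' g]
      constructor
      · intro h; rw [h, map_zero]
      · intro h; exact hinj (by rw [h, map_zero])
    rw [this]; exact hf.2.2

theorem X.sub_mem {n : ℕ} [ContinuousMul W] {f f' : W → ZMod (l ^ n)} (hf : f ∈ X l R n)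
    (hf' : f' ∈ X l R n) : (fun g => f g - f' g) ∈ X l R n := by
  refine ⟨fun g k => by simp only [hf.1, hf'.1]; ring,
    fun r hr => by simp only [hf.2.1 r hr, hf'.2.1 r hr, sub_zero], ?_⟩
  let K : Subgroup W :=
    { carrier := {g | f g = 0 ∧ f' g = 0}
      one_mem' := ⟨(X_map_one hf), (X_map_one hf')⟩
      mul_mem' := by
        rintro a b ⟨ha, ha'⟩ ⟨hb, hb'⟩
        exact ⟨by rw [hf.1, ha, hb, add_zero], by rw [hf'.1, ha', hb', add_zero]⟩
      inv_mem' := by
        rintro a ⟨ha, ha'⟩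
        exact ⟨by rw [X_map_inv hf, ha, neg_zero], by rw [X_map_inv hf', ha', neg_zero]⟩ }
  let K' : Subgroup W :=
    { carrier := {g | f g - f' g = 0}
      one_mem' := by simp only [Set.mem_ofPred_eq]; rw [(X_map_one hf), (X_map_one hf'), sub_zero]
      mul_mem' := by
        intro a b ha hb
        simp only [Set.mem_ofPred_eq] at ha hb ⊢
        rw [hf.1, hf'.1]
        linear_combination ha + hb
      inv_mem' := by
        intro a ha
        simp only [Set.mem_ofPred_eq] at ha ⊢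
        rw [X_map_inv hf, X_map_inv hf']
        linear_combination -ha }
  have hKK : K ≤ K' := by
    rintro g ⟨h1, h2⟩
    change f g - f' g = 0
    rw [h1, h2, sub_zero]
  have hK : IsOpen (K : Set W) := hf.2.2.inter hf'.2.2
  exact Subgroup.isOpen_mono hKK hK

/-- all the sets `X n` are finite -/
theorem X.finite [ContinuousMul W] (h1 : (X l R 1 : Set (W → ZMod (l ^ 1))).Finite) (n : ℕ) :
    (X l R n : Set (W → ZMod (l ^ n))).Finite := by
  induction n with
  | zero =>
    have : Subsingleton (ZMod (l ^ 0)) := by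
      rw [pow_zero]; exact inferInstanceAs (Subsingleton (ZMod 1))
    exact Set.subsingleton_of_subsingleton.finite
  | succ n ih =>
    have e : 1 + n = n + 1 := add_comm 1 n
    rw [← e]
    refine Set.Finite.of_finite_fibers
      (fun f : W → ZMod (l ^ (1 + n)) => fun g => red n (1 + n) (Nat.le_add_left n 1) (f g)) ?_ ?_
    · refine ih.subset ?_
      rintro _ ⟨f, hf, rfl⟩
      exact X.red_mem _ hf
    · rintro _ ⟨f0, hf0, rfl⟩
      refine (h1.image (fun (χ : W → ZMod (l ^ 1)) => fun g => f0 g + io 1 n (χ g))).subset ?_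
      rintro f ⟨hf, hff⟩
      have hsub := X.sub_mem hf hf0
      obtain ⟨χ, hχ, h2⟩ := X.factor hsub (fun g => exists_io_of_red (i := 1) (j := n) _ (by
        have := congrFun hff g
        simp only at this
        rw [map_sub, this, sub_self]))
      refine ⟨χ, hχ, ?_⟩
      funext g
      simp only [h2]
      ring

/-- existence of a hom of large order -/
theorem X.exists_large [ContinuousMul W] (h1 : (X l R 1 : Set (W → ZMod (l ^ 1))).Finite)
    (hc : ∀ n, ∃ s : Finset (W → ZMod (l ^ n)), (∀ f ∈ s, f ∈ X l R n) ∧ l ^ n ≤ s.card) (k : ℕ) :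
    ∃ n, ∃ f ∈ X l R (k + n), ∃ g, ((l ^ k : ℕ) : ZMod (l ^ (k + n))) * f g ≠ 0 := by
  classical
  by_contra! hcon
  have hfin := X.finite h1 k
  set C := hfin.toFinset.card with hC
  obtain ⟨n, hn⟩ : ∃ n, C < l ^ (k + n) := by
    obtain ⟨n, hn⟩ := Nat.lt_pow_self hl.out.one_lt (n := C) |> fun h => (⟨C, h⟩ : ∃ n, C < l ^ n)
    exact ⟨n, hn.trans_le (Nat.pow_le_pow_right hl.out.pos (Nat.le_add_left n k))⟩
  obtain ⟨s, hs, hcard⟩ := hc (k + n)
  have hinj : ∀ f ∈ s, ∃ f' ∈ X l R k, ∀ g, io k n (f' g) = f g := fun f hf =>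
    X.factor (hs f hf) (fun g => exists_io _ _ _ (hcon n f (hs f hf) g))
  choose! φ hφ hφ' using hinj
  have : s.card ≤ hfin.toFinset.card := by
    refine Finset.card_le_card_of_injOn φ (fun f hf => by
      simpa using hφ f hf) ?_
    intro f hf f' hf' h
    funext g
    rw [← hφ' f hf g, ← hφ' f' hf' g, h]
  omega

/-- the surjective homs -/
def Y (l : ℕ) (R : Set W) (n : ℕ) : Set (W → ZMod (l ^ n)) := {f | f ∈ X l R n ∧ ∃ g, IsUnit (f g)}

theorem isUnit_iff {n : ℕ} (hn : 1 ≤ n) (x : ZMod (l ^ n)) :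
    IsUnit x ↔ ((l ^ (n - 1) : ℕ) : ZMod (l ^ n)) * x ≠ 0 := by
  have : NeZero (l ^ n) := ⟨pow_ne_zero _ hl.out.ne_zero⟩
  obtain ⟨n, rfl⟩ := Nat.exists_eq_add_of_le hn
  rw [← ZMod.natCast_zmod_val x, ZMod.isUnit_iff_coprime, ← Nat.cast_mul, Ne,
    ZMod.natCast_eq_zero_iff, Nat.add_sub_cancel_left, Nat.coprime_pow_right_iff (by omega),
    Nat.coprime_comm, Nat.Prime.coprime_iff_not_dvd hl.out, not_iff_not]
  constructor
  · rintro ⟨b, hb⟩
    exact ⟨b, by rw [hb, pow_add, pow_one]; ring⟩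
  · intro h
    have h' : l ^ n * l ∣ l ^ n * x.val := by
      rw [← pow_succ, add_comm n 1]; exact h
    exact Nat.dvd_of_mul_dvd_mul_left (pow_pos hl.out.pos n) h'

theorem Y.red_mem {i j : ℕ} (h : i ≤ j) {f : W → ZMod (l ^ j)} (hf : f ∈ Y l R j)
    [ContinuousMul W] : (fun g => red i j h (f g)) ∈ Y l R i := by
  obtain ⟨h1, g, hg⟩ := hf
  exact ⟨X.red_mem h h1, g, hg.map (red i j h)⟩

theorem Y.nonempty_aux [ContinuousMul W] {N : ℕ} {f : W → ZMod (l ^ N)} (hf : f ∈ X l R N)
    {k : ℕ} {g : W} (hg : ((l ^ k : ℕ) : ZMod (l ^ N)) * f g ≠ 0) :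
    ∃ m, k ≤ m ∧ (Y l R m).Nonempty := by
  classical
  have hex : ∃ i, ∀ g, ((l ^ i : ℕ) : ZMod (l ^ N)) * f g = 0 :=
    ⟨N, fun g => by rw [ZMod.natCast_self, zero_mul]⟩
  obtain ⟨i, hi, hmin', hiN⟩ : ∃ i, (∀ g, ((l ^ i : ℕ) : ZMod (l ^ N)) * f g = 0) ∧
      (∀ j, (∀ g, ((l ^ j : ℕ) : ZMod (l ^ N)) * f g = 0) → i ≤ j) ∧ i ≤ N :=
    ⟨Nat.find hex, Nat.find_spec hex, fun j hj => Nat.find_min' hex hj,
      Nat.find_min' hex (fun g => by rw [ZMod.natCast_self, zero_mul])⟩
  have hik : k < i := by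
    by_contra hle
    push Not at hle
    apply hg
    obtain ⟨d, hd⟩ := Nat.exists_eq_add_of_le hle
    rw [hd, pow_add, mul_comm (l ^ i), Nat.cast_mul, mul_assoc, hi g, mul_zero]
  have hmin : ∃ g, ((l ^ (i - 1) : ℕ) : ZMod (l ^ N)) * f g ≠ 0 := by
    by_contra! hcon
    have := hmin' _ hcon
    omega
  obtain ⟨j, rfl⟩ := Nat.exists_eq_add_of_le hiN
  obtain ⟨f', hf', hff⟩ := X.factor hf (fun g => exists_io _ _ _ (hi g))
  obtain ⟨g', hg'⟩ := hmin
  refine ⟨i, hik.le, f', hf', g', ?_⟩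
  rw [isUnit_iff (by omega)]
  intro h0
  apply hg'
  rw [← hff g']
  have := congrArg (io (l := l) i j) h0
  rw [map_zero] at this
  rw [← nsmul_eq_mul, ← map_nsmul, nsmul_eq_mul]
  exact this

theorem Y.nonempty [ContinuousMul W] (h1 : (X l R 1 : Set (W → ZMod (l ^ 1))).Finite)
    (hc : ∀ n, ∃ s : Finset (W → ZMod (l ^ n)), (∀ f ∈ s, f ∈ X l R n) ∧ l ^ n ≤ s.card) (k : ℕ) :
    (Y l R k).Nonempty := by
  obtain ⟨n, f, hf, g, hg⟩ := X.exists_large h1 hc k
  obtain ⟨m, hkm, f, hf⟩ := Y.nonempty_aux hf hg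
  exact ⟨_, Y.red_mem hkm hf⟩

end basics

section limit
variable {l R} [hl : Fact l.Prime]

theorem isClosed_toZModPow (k : ℕ) (a : ZMod (l ^ k)) :
    IsClosed {z : ℤ_[l] | PadicInt.toZModPow k z = a} := by
  have hopen : ∀ b : ZMod (l ^ k), IsOpen {z : ℤ_[l] | PadicInt.toZModPow k z = b} := by
    intro b
    rw [Metric.isOpen_iff]
    intro z hz
    refine ⟨(l : ℝ) ^ (-(k : ℤ)), zpow_pos (by exact_mod_cast hl.out.pos) _, ?_⟩
    intro y hy
    rw [Metric.mem_ball, dist_eq_norm] at hy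
    have h1 := (PadicInt.norm_le_pow_iff_mem_span_pow _ k).1 hy.le
    rw [← PadicInt.ker_toZModPow, RingHom.mem_ker, map_sub, sub_eq_zero] at h1
    change PadicInt.toZModPow k y = b
    rw [h1]
    exact hz
  have : {z : ℤ_[l] | PadicInt.toZModPow k z = a}
      = (⋃ b ∈ {b : ZMod (l ^ k) | b ≠ a}, {z : ℤ_[l] | PadicInt.toZModPow k z = b})ᶜ := by
    ext z
    simp only [Set.mem_ofPred_eq, Set.mem_compl_iff, Set.mem_iUnion, exists_prop, not_exists,
      not_and]
    constructor
    · rintro h b hb h'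
      exact hb (h'.symm.trans h)
    · intro h
      by_contra hne
      exact h _ hne rfl
  rw [this]
  exact (isOpen_biUnion fun b _ => hopen b).isClosed_compl

theorem surjective_toZModPow (k : ℕ) : Function.Surjective (PadicInt.toZModPow (p := l) k) := by
  intro a
  have : NeZero (l ^ k) := ⟨pow_ne_zero _ hl.out.ne_zero⟩
  exact ⟨(a.val : ℤ_[l]), by rw [map_natCast, ZMod.natCast_zmod_val]⟩

/-- the limit -/
theorem exists_limit [IsTopologicalGroup W] (h1 : (X l R 1 : Set (W → ZMod (l ^ 1))).Finite)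
    (hc : ∀ n, ∃ s : Finset (W → ZMod (l ^ n)), (∀ f ∈ s, f ∈ X l R n) ∧ l ^ n ≤ s.card) :
    ∃ ψ : W →* Multiplicative ℤ_[l], Continuous ψ ∧ ψ ≠ 1 ∧ ∀ r ∈ R, ψ r = 1 := by
  classical
  let S : ℕ → Set (W → ℤ_[l]) := fun k => {F | (fun g => PadicInt.toZModPow k (F g)) ∈ Y l R k}
  have hclosed : ∀ k, IsClosed (S k) := by
    intro k
    have hfin : (Y l R k).Finite := (X.finite h1 k).subset (fun f hf => hf.1)
    have : S k = ⋃ f ∈ Y l R k, {F : W → ℤ_[l] | ∀ g, PadicInt.toZModPow k (F g) = f g} := by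
      ext F
      simp only [S, Set.mem_ofPred_eq, Set.mem_iUnion, exists_prop]
      constructor
      · intro h
        exact ⟨_, h, fun g => rfl⟩
      · rintro ⟨f, hf, h⟩
        have : (fun g => PadicInt.toZModPow k (F g)) = f := funext h
        rw [this]; exact hf
    rw [this]
    refine hfin.isClosed_biUnion fun f _ => ?_
    have h2 : {F : W → ℤ_[l] | ∀ g, PadicInt.toZModPow k (F g) = f g}
        = ⋂ g, (fun F : W → ℤ_[l] => F g) ⁻¹' {z : ℤ_[l] | PadicInt.toZModPow k z = f g} := by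
      ext F; simp
    rw [h2]
    exact isClosed_iInter fun g => (isClosed_toZModPow k (f g)).preimage (continuous_apply g)
  have hne : ∀ k, (S k).Nonempty := by
    intro k
    obtain ⟨f, hf⟩ := Y.nonempty h1 hc k
    refine ⟨fun g => (surjective_toZModPow k (f g)).choose, ?_⟩
    have : (fun g => PadicInt.toZModPow k ((surjective_toZModPow k (f g)).choose)) = f :=
      funext fun g => (surjective_toZModPow k (f g)).choose_spec
    change (fun g => PadicInt.toZModPow k ((surjective_toZModPow k (f g)).choose)) ∈ Y l R k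
    rw [this]; exact hf
  have hmono : ∀ k, S (k + 1) ⊆ S k := by
    intro k F hF
    have h2 := Y.red_mem (Nat.le_succ k) hF
    change (fun g => PadicInt.toZModPow k (F g)) ∈ Y l R k
    have : (fun g => PadicInt.toZModPow k (F g))
        = fun g => red k (k + 1) (Nat.le_succ k) (PadicInt.toZModPow (k + 1) (F g)) := by
      funext g
      rw [← PadicInt.cast_toZModPow k (k + 1) (Nat.le_succ k)]
      rfl
    rw [this]; exact h2
  obtain ⟨F, hF⟩ := IsCompact.nonempty_iInter_of_sequence_nonempty_isCompact_isClosed S hmono hne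
    (hclosed 0).isCompact hclosed
  rw [Set.mem_iInter] at hF
  have hFk : ∀ k, (fun g => PadicInt.toZModPow k (F g)) ∈ Y l R k := hF
  have hmul : ∀ g h, F (g * h) = F g + F h := by
    intro g h
    rw [← PadicInt.ext_of_toZModPow]
    intro k
    rw [map_add]
    exact (hFk k).1.1 g h
  have hone : F 1 = 0 := by
    have := hmul 1 1
    rw [mul_one] at this
    simpa using this
  let ψ : W →* Multiplicative ℤ_[l] :=
    { toFun := fun g => Multiplicative.ofAdd (F g)
      map_one' := by rw [hone]; rfl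
      map_mul' := fun g h => by rw [hmul]; rfl }
  refine ⟨ψ, ?_, ?_, ?_⟩
  · refine continuous_of_continuousAt_one ψ ?_
    have hcF : ContinuousAt F 1 := by
      rw [Metric.continuousAt_iff']
      intro ε hε
      obtain ⟨k, hk⟩ := exists_pow_lt_of_lt_one hε
        (show ((l : ℝ)⁻¹) < 1 from inv_lt_one_of_one_lt₀ (by exact_mod_cast hl.out.one_lt))
      have hopen := (hFk k).1.2.2
      filter_upwards [hopen.mem_nhds (show (1 : W) ∈ {g | PadicInt.toZModPow k (F g) = 0} by
        simp [hone])] with g hg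
      rw [hone, dist_zero_right]
      have h3 : F g ∈ RingHom.ker (PadicInt.toZModPow (p := l) k) := hg
      rw [PadicInt.ker_toZModPow, ← PadicInt.norm_le_pow_iff_mem_span_pow] at h3
      refine lt_of_le_of_lt h3 ?_
      rw [zpow_neg, zpow_natCast, ← inv_pow]
      exact hk
    exact hcF
  · intro h
    obtain ⟨g, hg⟩ := (hFk 1).2
    have h2 : ψ g = 1 := by rw [h]; rfl
    have h3 : F g = 0 := h2
    simp only [h3, map_zero] at hg
    have : Nontrivial (ZMod (l ^ 1)) := by
      rw [pow_one]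
      exact ZMod.nontrivial_iff.2 hl.out.ne_one
    exact not_isUnit_zero hg
  · intro r hr
    have : F r = 0 := by
      rw [← PadicInt.ext_of_toZModPow]
      intro k
      rw [map_zero]
      exact (hFk k).1.2.1 r hr
    change Multiplicative.ofAdd (F r) = 1
    rw [this]; rfl

end limit

end Crest.Agent.R018.MinusLx476
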