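import Crest.Agent.R018.MinusA_476
import Crest.Agent.R018.MinkU_824

/-!
Row 18, CORE section 9 (helper476): the group of minus units of a number field `N` contains at
least `l^n` classes modulo `l^n`-th powers on which a given automorphism acts by the cyclotomic
character.
-/

set_option autoImplicit false
set_option linter.unusedSectionVars false

open NumberField NumberField.InfinitePlace
open scoped Pointwise

namespace Crest.Agent.R018.MinusUx476

open Crest.Agent.R018.MinkUx824 Crest.Agent.R018.MinusAx476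

section free
variable {F N : Type*} [Field F] [NumberField F] [Field N] [NumberField N] [Algebra F N]

theorem free_of_complex [IsGalois F N] [IsTotallyComplex F] (σ : N ≃ₐ[F] N)
    (w : InfinitePlace N) (h : σ • w = w) : σ = 1 := by
  have h1 : IsUnramified F w := isUnramified_iff.2 (Or.inr (IsTotallyComplex.isComplex _))
  have h2 := isUnramified_iff_stabilizer_eq_bot.1 h1
  have h3 : σ ∈ MulAction.stabilizer (N ≃ₐ[F] N) w := h
  rw [h2] at h3
  exact Subgroup.mem_bot.1 h3

end free

section prods
variable {X H U : Type*} [Fintype X] [Fintype H] [DecidableEq X] [CommGroup U]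

theorem zpow_sum' (x : U) (s : Finset H) (f : H → ℤ) : x ^ (∑ g ∈ s, f g) = ∏ g ∈ s, x ^ f g := by
  classical
  induction s using Finset.induction_on with
  | empty => simp
  | insert a s ha ih => rw [Finset.sum_insert ha, Finset.prod_insert ha, zpow_add, ih]

theorem prod_ite (ε : X → U) (s : H → X) (a : H → ℤ) :
    ∏ t, ε t ^ (∑ g, if t = s g then a g else 0) = ∏ g, ε (s g) ^ a g := by
  simp_rw [zpow_sum']
  rw [Finset.prod_comm]
  refine Finset.prod_congr rfl fun g _ => ?_
  rw [Finset.prod_eq_single (s g)]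
  · simp
  · intro t _ ht
    simp [ht]
  · intro h
    exact absurd (Finset.mem_univ _) h

/-- independence of the elements `ε (s g) / ε (s' g)` when `s`, `s'` are injective with disjoint
images and the only relation between the `ε t` is the product. -/
theorem indep (ε : X → U) (hε : ∀ c : X → ℤ, ∏ w, ε w ^ c w = 1 → ∀ w w', c w = c w')
    (s s' : H → X) (hs : ∀ g g', s g = s g' → g = g') (hs' : ∀ g g', s' g = s' g' → g = g')
    (hss' : ∀ g g', s g ≠ s' g') (a : H → ℤ)
    (h : ∏ g, (ε (s g) / ε (s' g)) ^ a g = 1) : a = 0 := by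
  have h1 : ∏ t, ε t ^ ((∑ g, if t = s g then a g else 0) - ∑ g, if t = s' g then a g else 0)
      = 1 := by
    simp_rw [zpow_sub]
    rw [Finset.prod_mul_distrib, Finset.prod_inv_distrib, prod_ite, prod_ite]
    rw [← h, ← Finset.prod_inv_distrib, ← Finset.prod_mul_distrib]
    refine Finset.prod_congr rfl fun g _ => ?_
    rw [div_zpow, div_eq_mul_inv]
  have h2 := hε _ h1
  funext g
  have h3 := h2 (s g) (s' g)
  have e1 : (∑ g', if s g = s g' then a g' else 0) = a g := by
    rw [Finset.sum_eq_single g]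
    · simp
    · intro g' _ hg'
      rw [if_neg]
      exact fun h => hg' (hs _ _ h).symm
    · intro h; exact absurd (Finset.mem_univ _) h
  have e2 : (∑ g', if s g = s' g' then a g' else 0) = 0 :=
    Finset.sum_eq_zero fun g' _ => if_neg (hss' g g')
  have e3 : (∑ g', if s' g = s g' then a g' else 0) = 0 :=
    Finset.sum_eq_zero fun g' _ => if_neg (fun h => hss' g' g h.symm)
  have e4 : (∑ g', if s' g = s' g' then a g' else 0) = a g := by
    rw [Finset.sum_eq_single g]
    · simp
    · intro g' _ hg'
      rw [if_neg]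
      exact fun h => hg' (hs' _ _ h).symm
    · intro h; exact absurd (Finset.mem_univ _) h
  rw [e1, e2, e3, e4] at h3
  simp only [Pi.zero_apply]
  omega

end prods

section grp
/-- the map `a ↦ ∏ (g • η)^(a g)` -/
def Θ {H U : Type*} [Fintype H] [CommGroup U] (η : H → U) : Multiplicative (H → ℤ) →* U where
  toFun a := ∏ g, η g ^ (Multiplicative.toAdd a g)
  map_one' := by simp
  map_mul' a b := by
    rw [← Finset.prod_mul_distrib]
    refine Finset.prod_congr rfl fun g _ => ?_
    rw [toAdd_mul, Pi.add_apply, zpow_add]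

/-- the functional `a ↦ ∑ a g χ g` -/
def Λ {H : Type*} [Fintype H] {R : Type*} [CommRing R] (χ : H → R) :
    Multiplicative (H → ℤ) →* Multiplicative R where
  toFun a := Multiplicative.ofAdd (∑ g, (Multiplicative.toAdd a g : R) * χ g)
  map_one' := by simp
  map_mul' a b := by
    rw [← ofAdd_add, ← Finset.sum_add_distrib]
    congr 1
    refine Finset.sum_congr rfl fun g _ => ?_
    rw [toAdd_mul, Pi.add_apply]
    push_cast
    ring

/-- index divisibility for the group ring -/
theorem dvd_index {H U : Type*} [Fintype H] [Group H] [CommGroup U] (η : H → U)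
    (hinj : Function.Injective (Θ η)) (T : U →* U) {q c : ℕ} [NeZero q] (h0 : H)
    (χ : H → ZMod q) (hχ : ∀ g, χ (h0 * g) = (c : ZMod q) * χ g) (hχ1 : χ 1 = 1)
    (hT : ∀ g, T (η g) = η (h0 * g) * (η g ^ c)⁻¹) :
    (Θ η).range.map T ≤ (Θ η).range ∧ q ∣ ((Θ η).range.map T).relIndex (Θ η).range := by
  classical
  -- the shifted exponent
  have hTΘ : ∀ a : Multiplicative (H → ℤ), T (Θ η a)
      = Θ η (Multiplicative.ofAdd (fun g => Multiplicative.toAdd a (h0⁻¹ * g)
          - (c : ℤ) * Multiplicative.toAdd a g)) := by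
    intro a
    have e1 : T (Θ η a) = (∏ g, η (h0 * g) ^ (Multiplicative.toAdd a g))
        * (∏ g, η g ^ ((c : ℤ) * Multiplicative.toAdd a g))⁻¹ := by
      change T (∏ g, η g ^ (Multiplicative.toAdd a g)) = _
      rw [map_prod, ← Finset.prod_inv_distrib, ← Finset.prod_mul_distrib]
      refine Finset.prod_congr rfl fun g _ => ?_
      rw [map_zpow, hT, mul_zpow, inv_zpow, zpow_mul, zpow_natCast]
    have e2 : (∏ g, η (h0 * g) ^ (Multiplicative.toAdd a g))
        = ∏ g, η g ^ (Multiplicative.toAdd a (h0⁻¹ * g)) := by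
      have := Equiv.prod_comp (Equiv.mulLeft h0)
        (fun g => η g ^ (Multiplicative.toAdd a (h0⁻¹ * g)))
      rw [← this]
      refine Finset.prod_congr rfl fun g _ => ?_
      simp
    rw [e1, e2]
    change _ = ∏ g, η g ^ (Multiplicative.toAdd a (h0⁻¹ * g) - (c : ℤ) * Multiplicative.toAdd a g)
    rw [← Finset.prod_inv_distrib, ← Finset.prod_mul_distrib]
    refine Finset.prod_congr rfl fun g _ => ?_
    rw [zpow_sub]
  have hΛ : ∀ a : Multiplicative (H → ℤ), Λ χ (Multiplicative.ofAdd
      (fun g => Multiplicative.toAdd a (h0⁻¹ * g) - (c : ℤ) * Multiplicative.toAdd a g)) = 1 := by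
    intro a
    change Multiplicative.ofAdd (∑ g, (((Multiplicative.toAdd a (h0⁻¹ * g)
      - (c : ℤ) * Multiplicative.toAdd a g : ℤ)) : ZMod q) * χ g) = 1
    rw [ofAdd_eq_one]
    push_cast
    simp_rw [sub_mul]
    rw [Finset.sum_sub_distrib, sub_eq_zero]
    have := Equiv.sum_comp (Equiv.mulLeft h0)
      (fun g => ((Multiplicative.toAdd a (h0⁻¹ * g) : ℤ) : ZMod q) * χ g)
    rw [← this]
    refine Finset.sum_congr rfl fun g _ => ?_
    simp only [Equiv.coe_mulLeft, inv_mul_cancel_left]
    rw [hχ]
    ring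
  have h1 : (Θ η).range.map T ≤ ((Λ χ).ker).map (Θ η) := by
    rintro _ ⟨_, ⟨a, rfl⟩, rfl⟩
    exact ⟨_, hΛ a, (hTΘ a).symm⟩
  refine ⟨h1.trans (by rw [MonoidHom.range_eq_map]; exact Subgroup.map_mono le_top), ?_⟩
  refine dvd_trans ?_ (Subgroup.relIndex_dvd_of_le_left _ h1)
  rw [MonoidHom.range_eq_map, Subgroup.relIndex_map_map_of_injective _ _ hinj,
    Subgroup.relIndex_top_right, Subgroup.index_ker]
  have hsurj : Function.Surjective (Λ χ) := by
    intro y
    refine ⟨Multiplicative.ofAdd (fun g => if g = 1 then ((Multiplicative.toAdd y).val : ℤ) else 0),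
      ?_⟩
    change Multiplicative.ofAdd (∑ g, ((if g = 1 then ((Multiplicative.toAdd y).val : ℤ) else 0 : ℤ)
      : ZMod q) * χ g) = y
    rw [Finset.sum_eq_single (1 : H)]
    · simp [hχ1]
    · intro g _ hg
      simp [hg]
    · intro h; exact absurd (Finset.mem_univ _) h
  rw [MonoidHom.range_eq_top.2 hsurj]
  have : Nat.card (⊤ : Subgroup (Multiplicative (ZMod q))) = q := by
    rw [Subgroup.card_top]
    exact (Nat.card_congr Multiplicative.toAdd).trans (Nat.card_zmod q)
  rw [this]

end grp

end Crest.Agent.R018.MinusUx476
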