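import Mathlib
import Crest.Agent.R018.Chi_472
import Crest.Agent.R018.ConsDef_933
import Crest.Agent.R018.RedA_49

/-!
# Row 18: section 9, wiring of `MinusE` (helper472)

`FieldMinus F E y`: the field form of section 9 (helpers 975, 476, 841). `minusE_of`: the group form
`ConsDefx933.MinusE E`.
-/

set_option autoImplicit false
set_option linter.unusedSectionVars false

noncomputable section

namespace Crest.Agent.R018.MinusWx472

open NumberField Crest.Agent.R018.GDefx791 Crest.Agent.R018.ConsDefx933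
open Crest.Agent.R018.Chix472

/-- field form of section 9: `y ^ 2 ∈ F`, `y ∉ F`; for all large `l` there is a nontrivial
continuous `φ : Gal(E/F(y)) → ℤ_l` on which `Gal(E/F)` acts through the sign of `y`. -/
def FieldMinus (F E : Type*) [Field F] [Field E] [Algebra F E] (y : E) : Prop :=
  ∃ L0 : ℕ, ∀ (l : ℕ) [Fact l.Prime], L0 < l →
    ∃ φ : (MulAction.stabilizer (E ≃ₐ[F] E) y) →* Multiplicative ℤ_[l], Continuous φ ∧ φ ≠ 1 ∧
      ∀ c : E ≃ₐ[F] E, c ∉ MulAction.stabilizer (E ≃ₐ[F] E) y →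
        ∀ (g : MulAction.stabilizer (E ≃ₐ[F] E) y)
          (h : c * g * c⁻¹ ∈ MulAction.stabilizer (E ≃ₐ[F] E) y), φ ⟨_, h⟩ = (φ g)⁻¹

section kummer

variable {k E : Type*} [Field k] [Field E] [Algebra k E] [IsGalois k E]

/-- Kummer generator of a quadratic character of an open subgroup. -/
theorem exists_kummer (U : Subgroup (E ≃ₐ[k] E)) (χ : U →* ℤˣ) (hχ : χ ≠ 1)
    (W : Subgroup (E ≃ₐ[k] E)) (hW : IsOpen (W : Set (E ≃ₐ[k] E)))
    (hWU : ∀ w ∈ W, ∃ h : w ∈ U, χ ⟨w, h⟩ = 1) :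
    ∃ y : E, y ≠ 0 ∧ ∀ a : U, (a : E ≃ₐ[k] E) y = (((χ a : ℤˣ) : ℤ) : E) * y := by
  -- the kernel as a subgroup of the big group
  let K : Subgroup (E ≃ₐ[k] E) := χ.ker.map U.subtype
  have hK : ∀ a, a ∈ K ↔ ∃ h : a ∈ U, χ ⟨a, h⟩ = 1 := by
    intro a
    constructor
    · rintro ⟨b, hb, rfl⟩
      exact ⟨b.2, hb⟩
    · rintro ⟨h, h1⟩
      exact ⟨⟨a, h⟩, h1, rfl⟩
  have hKo : IsOpen (K : Set (E ≃ₐ[k] E)) :=
    Subgroup.isOpen_mono (H₁ := W) (fun w hw => (hK w).2 (hWU w hw)) hW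
  have hKc : IsClosed (K : Set (E ≃ₐ[k] E)) := Subgroup.isClosed_of_isOpen K hKo
  obtain ⟨c, hc⟩ : ∃ c : U, χ c ≠ 1 := by
    by_contra h
    push Not at h
    exact hχ (MonoidHom.ext h)
  have hc1 : χ c = -1 := (Int.units_eq_one_or (χ c)).resolve_left hc
  have hcK : (c : E ≃ₐ[k] E) ∉ K := by
    intro h
    obtain ⟨h1, h2⟩ := (hK _).1 h
    exact hc h2
  have hfix : (IntermediateField.fixedField K).fixingSubgroup = K :=
    InfiniteGalois.fixingSubgroup_fixedField (⟨K, hKc⟩ : ClosedSubgroup (E ≃ₐ[k] E))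
  obtain ⟨z, hz, hcz⟩ : ∃ z : E, (∀ a ∈ K, a z = z) ∧ (c : E ≃ₐ[k] E) z ≠ z := by
    by_contra h
    push Not at h
    apply hcK
    rw [← hfix, IntermediateField.mem_fixingSubgroup_iff]
    intro z hz
    exact h z fun a ha => (IntermediateField.mem_fixedField_iff _ _).1 hz a ha
  let y : E := z - (c : E ≃ₐ[k] E) z
  have hy0 : y ≠ 0 := sub_ne_zero.2 (Ne.symm hcz)
  have h1 : ∀ a : U, χ a = 1 → (a : E ≃ₐ[k] E) y = y := by
    intro a ha
    have h2 : (a : E ≃ₐ[k] E) z = z := hz a ((hK a).2 ⟨a.2, ha⟩)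
    have h3 : ((c : E ≃ₐ[k] E)⁻¹ * a * c) z = z := by
      refine hz _ ((hK _).2 ⟨(c⁻¹ * a * c : U).2, ?_⟩)
      have : χ (c⁻¹ * a * c) = 1 := by
        rw [map_mul, map_mul, ha, map_inv, mul_one, inv_mul_cancel]
      exact this
    have h4 : (a : E ≃ₐ[k] E) ((c : E ≃ₐ[k] E) z) = (c : E ≃ₐ[k] E) z := by
      have h5 : (c : E ≃ₐ[k] E) (((c : E ≃ₐ[k] E)⁻¹ * a * c) z) = (c : E ≃ₐ[k] E) z := by
        rw [h3]
      rw [← AlgEquiv.mul_apply] at h5
      rw [← AlgEquiv.mul_apply]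
      have h6 : (c : E ≃ₐ[k] E) * ((c : E ≃ₐ[k] E)⁻¹ * a * c) = a * c := by group
      rwa [h6] at h5
    change (a : E ≃ₐ[k] E) (z - (c : E ≃ₐ[k] E) z) = z - (c : E ≃ₐ[k] E) z
    rw [map_sub, h2, h4]
  have h2 : (c : E ≃ₐ[k] E) y = -y := by
    have h3 : ((c : E ≃ₐ[k] E) * c) z = z := by
      refine hz _ ((hK _).2 ⟨(c * c : U).2, ?_⟩)
      have : χ (c * c) = 1 := by
        rw [map_mul, hc1]
        rfl
      exact this
    change (c : E ≃ₐ[k] E) (z - (c : E ≃ₐ[k] E) z) = -(z - (c : E ≃ₐ[k] E) z)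
    rw [map_sub, ← AlgEquiv.mul_apply, h3]
    ring
  refine ⟨y, hy0, fun a => ?_⟩
  rcases Int.units_eq_one_or (χ a) with ha | ha
  · rw [h1 a ha, ha]
    simp
  · have h3 : χ (c⁻¹ * a) = 1 := by
      rw [map_mul, map_inv, hc1, ha]
      rfl
    have h4 := h1 _ h3
    have h5 : (a : E ≃ₐ[k] E) = (c : E ≃ₐ[k] E) * ((c⁻¹ * a : U) : E ≃ₐ[k] E) := by
      push_cast
      group
    rw [h5, AlgEquiv.mul_apply, h4, h2, ha]
    simp

end kummer

section complex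

/-- a number field containing a square root of `-1` is totally complex -/
theorem isTotallyComplex {L : Type*} [Field L] [NumberField L] (i : L) (hi : i ^ 2 = -1) :
    IsTotallyComplex L := by
  constructor
  intro v
  by_contra hv
  rw [InfinitePlace.not_isComplex_iff_isReal] at hv
  have h1 : (v.embedding_of_isReal hv i) ^ 2 = -1 := by
    rw [← map_pow, hi, map_neg, map_one]
  nlinarith [sq_nonneg (v.embedding_of_isReal hv i)]

end complex

section eig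

variable {E : Type*} [Field E] [CharZero E] {L : Type*} [Field L] [Algebra L E]

/-- an automorphism over `ℚ` fixing `L` as an automorphism over `L` -/
def up (a : E ≃ₐ[ℚ] E) (h : ∀ y : L, a (algebraMap L E y) = algebraMap L E y) : E ≃ₐ[L] E :=
  { a.toRingEquiv with commutes' := h }

@[simp] theorem up_apply (a : E ≃ₐ[ℚ] E) (h : ∀ y : L, a (algebraMap L E y) = algebraMap L E y)
    (x : E) : up a h x = a x := rfl

/-- an automorphism over `L` as an automorphism over `ℚ` -/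
def dn (g : E ≃ₐ[L] E) : E ≃ₐ[ℚ] E :=
  { g.toRingEquiv with commutes' := fun r => by simp }

theorem dn_pow_apply (g : E ≃ₐ[L] E) (n : ℕ) (x : E) : ((dn g) ^ n) x = (g ^ n) x := by
  induction n with
  | zero => rfl
  | succ n ih =>
    rw [pow_succ', pow_succ', AlgEquiv.mul_apply, AlgEquiv.mul_apply, ih]
    rfl

/-- `ψ` is nonzero and lies in the eigenspace -/
theorem eig_of_field [IsGalois ℚ E] [Algebra.IsAlgebraic L E] {l : ℕ} [Fact l.Prime]
    (U21 U2 : Subgroup (E ≃ₐ[ℚ] E)) [U21.Normal] [U2.Normal]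
    (hU2o : IsOpen (U2 : Set (E ≃ₐ[ℚ] E)))
    (hL : ∀ a : E ≃ₐ[ℚ] E, a ∈ U21 ↔ ∀ y : L, a (algebraMap L E y) = algebraMap L E y)
    (χ : U21 →* ℤˣ) (hU2 : ∀ u (_ : u ∈ U2), ∃ h' : u ∈ U21, χ ⟨u, h'⟩ = 1)
    (y : E) (hy0 : y ≠ 0) (hy : ∀ a : U21, (a : E ≃ₐ[ℚ] E) y = (((χ a : ℤˣ) : ℤ) : E) * y)
    (φ : (MulAction.stabilizer (E ≃ₐ[L] E) y) →* Multiplicative ℤ_[l]) (hφc : Continuous φ)
    (hφ1 : φ ≠ 1)
    (hφm : ∀ c : E ≃ₐ[L] E, c ∉ MulAction.stabilizer (E ≃ₐ[L] E) y →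
        ∀ (g : MulAction.stabilizer (E ≃ₐ[L] E) y)
          (h : c * g * c⁻¹ ∈ MulAction.stabilizer (E ≃ₐ[L] E) y), φ ⟨_, h⟩ = (φ g)⁻¹) :
    ∃ ψ ∈ Eig l U21 U2 χ 1, ψ ≠ 0 := by
  have hst : ∀ u (hu : u ∈ U21), χ ⟨u, hu⟩ = 1 →
      up u ((hL u).1 hu) ∈ MulAction.stabilizer (E ≃ₐ[L] E) y := by
    intro u hu h1
    rw [MulAction.mem_stabilizer_iff]
    change u y = y
    have h2 := hy ⟨u, hu⟩
    rw [h1] at h2
    simpa using h2
  -- the homomorphism `U2 → Gal(E/L(y))`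
  let j : U2 →* MulAction.stabilizer (E ≃ₐ[L] E) y :=
    { toFun := fun u => ⟨up (u : E ≃ₐ[ℚ] E) ((hL u).1 (hU2 u u.2).choose),
        hst _ _ (hU2 u u.2).choose_spec⟩
      map_one' := rfl
      map_mul' := fun _ _ => rfl }
  have hj : ∀ (u : U2) (x : E), ((j u : E ≃ₐ[L] E)) x = (u : E ≃ₐ[ℚ] E) x := fun _ _ => rfl
  have hjc : Continuous j := by
    have hc : Continuous (((MulAction.stabilizer (E ≃ₐ[L] E) y).subtype).comp j) := by
      refine Redx49.continuous_of_eval _ fun x => ?_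
      have h1 := Redx49.eval_mem_nhds (K := ℚ) x
      exact (continuous_subtype_val.tendsto (1 : U2)) h1
    exact continuous_induced_rng.2 hc
  let ψ : U2 → ℤ_[l] := fun u => Multiplicative.toAdd (φ (j u))
  have hψV : ψ ∈ V l U2 := by
    refine ⟨?_, fun u v => ?_⟩
    · exact continuous_toAdd.comp (hφc.comp hjc)
    · change Multiplicative.toAdd (φ (j (u * v))) = _
      rw [map_mul, map_mul]
      rfl
  refine ⟨ψ, ⟨hψV, fun a => ?_⟩, ?_⟩
  · -- eigenvalue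
    funext u
    have h0 : χ (MulAut.conjNormal (1 : E ≃ₐ[ℚ] E)⁻¹ a) = χ a := by
      congr 1
    rw [h0]
    let b : E ≃ₐ[L] E := up (a : E ≃ₐ[ℚ] E) ((hL a).1 a.2)
    have hjconj : ((j (MulAut.conjNormal (a : E ≃ₐ[ℚ] E)⁻¹ u) : E ≃ₐ[L] E)) =
        b⁻¹ * (j u : E ≃ₐ[L] E) * b := by
      have h1 : b * ((j (MulAut.conjNormal (a : E ≃ₐ[ℚ] E)⁻¹ u) : E ≃ₐ[L] E)) =
          (j u : E ≃ₐ[L] E) * b := by
        apply AlgEquiv.ext
        intro x
        change (a : E ≃ₐ[ℚ] E) (((MulAut.conjNormal (a : E ≃ₐ[ℚ] E)⁻¹ u : U2) : E ≃ₐ[ℚ] E) x) =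
          (u : E ≃ₐ[ℚ] E) ((a : E ≃ₐ[ℚ] E) x)
        rw [MulAut.conjNormal_apply, inv_inv, ← AlgEquiv.mul_apply, ← AlgEquiv.mul_apply]
        have h2 : (a : E ≃ₐ[ℚ] E) * ((a : E ≃ₐ[ℚ] E)⁻¹ * u * a) = u * a := by group
        rw [h2]
      rw [mul_assoc, ← h1, inv_mul_cancel_left]
    change Multiplicative.toAdd (φ (j (MulAut.conjNormal (a : E ≃ₐ[ℚ] E)⁻¹ u))) =
      ((((χ a : ℤˣ) : ℤ) : ℤ_[l])) * Multiplicative.toAdd (φ (j u))
    rcases Int.units_eq_one_or (χ a) with ha | ha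
    · have hb : b ∈ MulAction.stabilizer (E ≃ₐ[L] E) y := hst _ a.2 ha
      have h2 : j (MulAut.conjNormal (a : E ≃ₐ[ℚ] E)⁻¹ u) = ⟨b, hb⟩⁻¹ * j u * ⟨b, hb⟩ :=
        Subtype.val_injective hjconj
      have h3 : φ (j (MulAut.conjNormal (a : E ≃ₐ[ℚ] E)⁻¹ u)) = φ (j u) := by
        rw [h2, map_mul, map_mul, map_inv, mul_comm (φ ⟨b, hb⟩)⁻¹, inv_mul_cancel_right]
      rw [h3, ha]
      simp
    · have hb : b⁻¹ ∉ MulAction.stabilizer (E ≃ₐ[L] E) y := by
        intro h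
        have h1 : b y = y := (Subgroup.inv_mem_iff _).1 h
        have h2 : (a : E ≃ₐ[ℚ] E) y = y := h1
        rw [hy a, ha] at h2
        apply ne_neg_self' hy0
        simpa using h2
      have h1 : b⁻¹ * (j u : E ≃ₐ[L] E) * b⁻¹⁻¹ ∈ MulAction.stabilizer (E ≃ₐ[L] E) y := by
        rw [inv_inv, ← hjconj]
        exact Subtype.property _
      have h2 := hφm b⁻¹ hb (j u) h1
      have h3 : j (MulAut.conjNormal (a : E ≃ₐ[ℚ] E)⁻¹ u) = ⟨_, h1⟩ := by
        apply Subtype.val_injective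
        change ((j (MulAut.conjNormal (a : E ≃ₐ[ℚ] E)⁻¹ u) : E ≃ₐ[L] E)) =
          b⁻¹ * (j u : E ≃ₐ[L] E) * b⁻¹⁻¹
        rw [hjconj, inv_inv]
      rw [h3, h2, ha]
      simp
  · -- nonzero
    intro h0
    apply hφ1
    refine MonoidHom.ext fun g => ?_
    have hfi : U2.index ≠ 0 := by
      haveI : Finite ((E ≃ₐ[ℚ] E) ⧸ U2) := Subgroup.quotient_finite_of_isOpen U2 hU2o
      exact Subgroup.index_ne_zero_of_finite
    obtain ⟨m, hm, -, hgm⟩ := Subgroup.exists_pow_mem_of_index_ne_zero hfi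
      (dn (g : E ≃ₐ[L] E))
    have h1 : j ⟨_, hgm⟩ = g ^ m := by
      apply Subtype.val_injective
      apply AlgEquiv.ext
      intro x
      exact dn_pow_apply _ m x
    have h2 : Multiplicative.toAdd (φ (j ⟨_, hgm⟩)) = 0 := congrFun h0 ⟨_, hgm⟩
    rw [h1, map_pow, toAdd_pow, smul_eq_zero] at h2
    rcases h2 with h2 | h2
    · omega
    · exact Multiplicative.toAdd.injective h2

end eig

section main

/-- `i ∈ L` when `U21` fixes `i` -/
theorem mem_of_fixed {E : Type*} [Field E] [CharZero E] [IsGalois ℚ E] {L : Type*} [Field L]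
    [NumberField L] [Algebra L E] (U21 : Subgroup (E ≃ₐ[ℚ] E))
    (hL : ∀ a : E ≃ₐ[ℚ] E, a ∈ U21 ↔ ∀ y : L, a (algebraMap L E y) = algebraMap L E y)
    (x : E) (hx : ∀ u ∈ U21, u x = x) : ∃ z : L, algebraMap L E z = x := by
  have hG : IsGalois L E := IsGalois.tower_top_of_isGalois ℚ L E
  have h1 : x ∈ (⊥ : IntermediateField L E) := by
    rw [InfiniteGalois.mem_bot_iff_fixed]
    intro f
    exact hx (f.restrictScalars ℚ) ((hL _).2 fun y => f.commutes y)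
  exact IntermediateField.mem_bot.1 h1

/-- **the wiring of section 9**: the field form gives `MinusE`. -/
theorem minusE_of (E : Type) [Field E] [CharZero E] [IsGalois ℚ E]
    (H : ∀ (F : Type) [Field F] [NumberField F] [Algebra F E] [IsGalois F E]
      [IsTotallyComplex F] (y : E), (∃ z : F, algebraMap F E z = y ^ 2) →
      (¬ ∃ z : F, algebraMap F E z = y) → FieldMinus F E y) : MinusE E := by
  intro U21 hU21n hU21o hi χ hχ U2 hU2n hU2o hU2
  obtain ⟨i, hi2, hifix⟩ := hi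
  obtain ⟨L, hL1, hL2, hL⟩ := exists_fixedField U21 hU21o
  have hG : IsGalois L E := IsGalois.tower_top_of_isGalois ℚ L E
  obtain ⟨i', hi'⟩ := mem_of_fixed U21 hL i hifix
  haveI : IsTotallyComplex L := isTotallyComplex i' (by
    apply (algebraMap L E).injective
    rw [map_pow, hi', hi2, map_neg, map_one])
  obtain ⟨y, hy0, hy⟩ := exists_kummer U21 χ hχ U2 hU2o hU2
  have hy2 : ∃ z : L, algebraMap L E z = y ^ 2 := by
    refine mem_of_fixed U21 hL (y ^ 2) fun u hu => ?_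
    rw [map_pow, hy ⟨u, hu⟩, mul_pow]
    rcases Int.units_eq_one_or (χ ⟨u, hu⟩) with h | h <;> simp [h]
  have hyn : ¬ ∃ z : L, algebraMap L E z = y := by
    rintro ⟨z, hz⟩
    apply hχ
    refine MonoidHom.ext fun a => ?_
    rcases Int.units_eq_one_or (χ a) with h | h
    · rw [h]; rfl
    · exfalso
      have h1 := (hL a).1 a.2 z
      rw [hz, hy a, h] at h1
      apply ne_neg_self' hy0
      simpa using h1
  obtain ⟨L0, h0⟩ := H L y hy2 hyn
  refine ⟨L0, fun l hl hlt => ?_⟩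
  obtain ⟨φ, hφc, hφ1, hφm⟩ := h0 l hlt
  haveI : Algebra.IsAlgebraic L E := inferInstance
  exact eig_of_field U21 U2 hU2o hL χ hU2 y hy0 hy φ hφc hφ1 hφm

end main

end Crest.Agent.R018.MinusWx472
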