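import Mathlib
import Crest.Prelude.Def_SolvClosed
import Crest.Agent.R018.RedA_49
import Crest.Agent.R018.TameF_31
import Crest.Agent.R018.Kum_568
import Crest.Agent.R018.LCEnd_925
import Crest.Agent.R018.Places3_484

/-!
# Row 18, section 4 (Neukirch-Uchida for injective homomorphisms), part A (helper275)

`E₁ / F₁` Galois, solvably closed, `E₁ → Om`; the restriction `Gal(Om/F₁) → Gal(E₁/F₁)` and the
fact that an injective `β : Gal(E₁/F₁) → Gal(E₂/F₂)` is ramified at every place and every prime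
`l` different from the residue characteristic.
-/

set_option autoImplicit false

open NumberField
open scoped Pointwise Topology
open Crest.NumberTheoryR Crest.Agent.R018.Placesx484 Crest.Agent.R018.EndDefx924

namespace Crest.Agent.R018.NUAx275

section top

variable {F₂ E₂ : Type*} [Field F₂] [Field E₂] [Algebra F₂ E₂] [IsGalois F₂ E₂]
variable {G : Type*} [Group G] [TopologicalSpace G] [IsTopologicalGroup G] [CompactSpace G]
  [T2Space G]

omit [IsTopologicalGroup G] [T2Space G] in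
/-- an injective continuous homomorphism detects orders at finite level -/
theorem exists_level (β : G →* (E₂ ≃ₐ[F₂] E₂)) (hβ : Continuous β) (hinj : Function.Injective β)
    (M : Subgroup G) (hM : IsOpen (M : Set G)) :
    ∃ N : Subgroup (E₂ ≃ₐ[F₂] E₂), N.Normal ∧ IsOpen (N : Set (E₂ ≃ₐ[F₂] E₂)) ∧
      ∀ g : G, β g ∈ N → g ∈ M := by
  have h1 : IsCompact ((M : Set G)ᶜ) := hM.isClosed_compl.isCompact
  have h2 : IsClosed (β '' ((M : Set G)ᶜ)) := (h1.image hβ).isClosed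
  have h3 : (β '' ((M : Set G)ᶜ))ᶜ ∈ 𝓝 (1 : E₂ ≃ₐ[F₂] E₂) := by
    refine h2.isOpen_compl.mem_nhds ?_
    rintro ⟨g, hg, hg1⟩
    have h4 : g = 1 := hinj (by rw [hg1, map_one])
    rw [h4] at hg
    exact hg M.one_mem
  rw [krullTopology_mem_nhds_one_iff_of_normal] at h3
  obtain ⟨L, hL, hLn, hsub⟩ := h3
  refine ⟨L.fixingSubgroup, ?_, (InfiniteGalois.isOpen_iff_finite L).2 hL, ?_⟩
  · exact (InfiniteGalois.normal_iff_isGalois L).2 ⟨⟩
  · intro g hg
    by_contra hgM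
    exact hsub hg ⟨g, hgM, rfl⟩

end top

theorem isAlgebraic_Om (inst : Algebra ℚ Om) : @Algebra.IsAlgebraic ℚ Om _ _ inst := by
  have h : inst = AlgebraicClosure.instAlgebra ℚ := Subsingleton.elim _ _
  rw [h]
  exact AlgebraicClosure.isAlgebraic ℚ

section res

variable {F₁ E₁ : Type*} [Field F₁] [Field E₁] [Algebra F₁ E₁] [IsGalois F₁ E₁]
  [Algebra F₁ Om] [Algebra E₁ Om] [IsScalarTower F₁ E₁ Om]

/-- restriction `Gal(Om/F₁) → Gal(E₁/F₁)` -/
noncomputable def rho (F₁ E₁ : Type*) [Field F₁] [Field E₁] [Algebra F₁ E₁] [IsGalois F₁ E₁]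
    [Algebra F₁ Om] [Algebra E₁ Om] [IsScalarTower F₁ E₁ Om] :
    (Om ≃ₐ[F₁] Om) →* (E₁ ≃ₐ[F₁] E₁) := AlgEquiv.restrictNormalHom E₁

theorem rho_apply (g : Om ≃ₐ[F₁] Om) (x : E₁) :
    algebraMap E₁ Om (rho F₁ E₁ g x) = g (algebraMap E₁ Om x) :=
  AlgEquiv.restrictNormal_commutes g E₁ x

theorem rho_continuous [CharZero F₁] : Continuous (rho F₁ E₁) := by
  have : IsGalois F₁ Om := LCEndx925.isGalois_Om F₁
  refine Redx49.continuous_of_eval _ fun x => ?_
  refine Filter.mem_of_superset (Redx49.eval_mem_nhds (K := F₁) (algebraMap E₁ Om x)) ?_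
  intro g hg
  exact (algebraMap E₁ Om).injective ((rho_apply g x).trans hg)

theorem rho_surjective [CharZero F₁] : Function.Surjective (rho F₁ E₁) := by
  have : IsGalois F₁ Om := LCEndx925.isGalois_Om F₁
  exact AlgEquiv.restrictNormalHom_surjective (F := F₁) (K₁ := E₁) Om

/-- an element of `Om` fixed by the kernel of the restriction comes from `E₁` -/
theorem mem_range_of_fixed [CharZero F₁] [CharZero E₁] (y : Om)
    (h : ∀ g : Om ≃ₐ[F₁] Om, rho F₁ E₁ g = 1 → g y = y) : ∃ x : E₁, algebraMap E₁ Om x = y := by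
  have : IsGalois E₁ Om := LCEndx925.isGalois_Om E₁
  have h1 : ∀ g : Om ≃ₐ[E₁] Om, g y = y := by
    intro g
    apply h (g.restrictScalars F₁)
    ext x
    apply (algebraMap E₁ Om).injective
    rw [rho_apply]
    exact g.commutes x
  have h2 : y ∈ (⊥ : IntermediateField E₁ Om) := by
    rw [IntermediateField.mem_bot, Set.mem_range]
    exact (InfiniteGalois.mem_range_algebraMap_iff_fixed y).2 h1
  rw [IntermediateField.mem_bot] at h2
  exact h2

end res

section ram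

variable {F₁ E₁ : Type*} [Field F₁] [NumberField F₁] [Field E₁] [Algebra F₁ E₁] [IsGalois F₁ E₁]
  [Algebra F₁ Om] [Algebra E₁ Om] [IsScalarTower F₁ E₁ Om]
variable {F₂ E₂ : Type*} [Field F₂] [Field E₂] [Algebra F₂ E₂] [IsGalois F₂ E₂]

/-- `β ∘ ρ` is ramified everywhere -/
theorem exists_ramified (h₁ : IsSolvablyClosed E₁) (β : (E₁ ≃ₐ[F₁] E₁) →* (E₂ ≃ₐ[F₂] E₂))
    (hβ : Continuous β) (hinj : Function.Injective β) (l : ℕ) (hl : l.Prime) (P : Place Om)
    (hP : P.rchar ≠ l) :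
    ∃ s : Om ≃ₐ[F₁] Om, (∀ x : 𝓞 Om, s • x - x ∈ P.ideal) ∧
      ∃ N : Subgroup (E₂ ≃ₐ[F₂] E₂), N.Normal ∧ IsOpen (N : Set (E₂ ≃ₐ[F₂] E₂)) ∧
        ∀ n : ℕ, ((β.comp (rho F₁ E₁)) s) ^ n ∈ N → l ∣ n := by
  classical
  have : IsGalois F₁ Om := LCEndx925.isGalois_Om F₁
  have : CharZero E₁ := charZero_of_injective_algebraMap (algebraMap F₁ E₁).injective
  have halg : @Algebra.IsAlgebraic ℚ Om _ _ DivisionRing.toRatAlgebra := isAlgebraic_Om _
  obtain ⟨ζ₁, hζ₁⟩ := Kumx568.exists_primitiveRoot h₁ l hl.ne_zero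
  have hζ : IsPrimitiveRoot (algebraMap E₁ Om ζ₁) l :=
    hζ₁.map_of_injective (algebraMap E₁ Om).injective
  obtain ⟨τ, hτ, π, ϖ, hπ, -, hτπ, -⟩ := Tamex31.exists_moving (K := F₁) P l hl hP _ hζ
    (fun x => by
      obtain ⟨y, hy⟩ := IsAlgClosed.exists_pow_nat_eq (algebraMap F₁ Om x) hl.pos
      exact ⟨y, hy⟩)
  obtain ⟨y, hy⟩ := Kumx568.exists_pow_eq h₁ l hl.ne_zero (algebraMap F₁ E₁ ϖ)
  have hy0 : algebraMap E₁ Om y ≠ 0 := by
    rw [Ne, map_eq_zero]
    rintro rfl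
    rw [zero_pow hl.ne_zero] at hy
    exact ϖ.ne_zero ((map_eq_zero _).1 hy.symm)
  have hyO : (algebraMap E₁ Om y) ^ l = π ^ l := by
    rw [← map_pow, hy, hπ, ← IsScalarTower.algebraMap_apply]
  have hq : (π / algebraMap E₁ Om y) ^ l = 1 := by
    rw [div_pow, hyO, div_self (by rw [← hyO]; exact pow_ne_zero _ hy0)]
  have : NeZero l := ⟨hl.ne_zero⟩
  obtain ⟨k, -, hk⟩ := hζ.eq_pow_of_pow_eq_one hq
  set z : E₁ := ζ₁ ^ k * y with hz
  have hzπ : algebraMap E₁ Om z = π := by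
    rw [hz, map_mul, map_pow, hk, div_mul_cancel₀ _ hy0]
  have hz0 : z ≠ 0 := by
    intro h
    apply hy0
    rw [hz] at h
    have := (mul_eq_zero.1 h).resolve_left (pow_ne_zero _ (hζ₁.ne_zero hl.ne_zero))
    rw [this, map_zero]
  -- the action of `ρ τ`
  have h1 : rho F₁ E₁ τ z = ζ₁ * z := by
    apply (algebraMap E₁ Om).injective
    rw [rho_apply, hzπ, hτπ, map_mul, hzπ]
  have hN : ¬ P.rchar ∣ l := fun h =>
    hP ((Nat.prime_dvd_prime_iff_eq P.rchar_prime hl).1 h)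
  have h2 : rho F₁ E₁ τ ζ₁ = ζ₁ := by
    apply (algebraMap E₁ Om).injective
    rw [rho_apply]
    exact Placesx484.Place.inertia_root P hτ hN hζ.pow_eq_one
  have h3 : ∀ n : ℕ, ((rho F₁ E₁ τ) ^ n) z = ζ₁ ^ n * z := by
    intro n
    induction n with
    | zero => simp
    | succ n ih =>
      rw [pow_succ', AlgEquiv.mul_apply, ih, map_mul, map_pow, h1, h2, pow_succ]
      ring
  -- the level
  let M : Subgroup (E₁ ≃ₐ[F₁] E₁) := (IntermediateField.adjoin F₁ {z}).fixingSubgroup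
  have hMo : IsOpen (M : Set (E₁ ≃ₐ[F₁] E₁)) := by
    refine (InfiniteGalois.isOpen_iff_finite _).2 ?_
    exact IntermediateField.adjoin.finiteDimensional (Algebra.IsIntegral.isIntegral z)
  obtain ⟨N, hNn, hNo, hNM⟩ := exists_level β hβ hinj M hMo
  refine ⟨τ, fun x => hτ x, N, hNn, hNo, fun n hn => ?_⟩
  rw [MonoidHom.comp_apply, ← map_pow] at hn
  have h4 := hNM _ hn
  have h5 := (IntermediateField.mem_fixingSubgroup_iff _ _).1 h4 z
    (IntermediateField.mem_adjoin_simple_self F₁ z)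
  rw [h3] at h5
  have h6 : ζ₁ ^ n = 1 := by
    have : ζ₁ ^ n * z = 1 * z := by rw [h5, one_mul]
    exact mul_right_cancel₀ hz0 this
  exact (hζ₁.pow_eq_one_iff_dvd n).1 h6

end ram

end Crest.Agent.R018.NUAx275
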