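import Crest.Agent.R018.NUA_275
import Crest.Agent.R018.CycFT_925
import Crest.Agent.R018.Core_74

/-!
# Row 18, section 4: Neukirch-Uchida for open subgroups of `Gal(ℚ^solv/ℚ)` (helper275)

* `nu_of : LocT → NU` (frozen interface `Core_74`), and a slightly more general form
  `nu_hom` (injective continuous homomorphisms from an open subgroup with open range).
-/

set_option autoImplicit false

open NumberField Pointwise
open Crest.NumberTheoryR
open Crest.Agent.R018.EndDefx924 (Om)
open Crest.Agent.R018.Placesx484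
open Crest.Agent.R018.Corex74

namespace Crest.Agent.R018.NUCorex275

theorem res_continuous : Continuous res := by
  refine Redx49.continuous_of_eval _ fun x => ?_
  refine Filter.mem_of_superset (Redx49.eval_mem_nhds (K := ℚ) (x : Om)) ?_
  intro g hg
  apply Subtype.ext
  rw [CycFTx925.coe_res]
  exact hg

theorem res_surjective : Function.Surjective res :=
  AlgEquiv.restrictNormalHom_surjective (F := ℚ) (K₁ := Sv) Om

/-- an element of `Om` fixed by the kernel of the restriction is in `Sv` -/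
theorem mem_Sv_of_fixed (y : Om) (h : ∀ g : BB, res g = 1 → g y = y) : y ∈ Sv := by
  have : IsGalois Sv Om := LCEndx925.isGalois_Om Sv
  have h1 : ∀ g : Om ≃ₐ[Sv] Om, g y = y := by
    intro g
    apply h (g.restrictScalars ℚ)
    ext x
    rw [CycFTx925.coe_res]
    exact g.commutes x
  obtain ⟨x, hx⟩ := (InfiniteGalois.mem_range_algebraMap_iff_fixed y).2 h1
  rw [← hx]
  exact x.2

/-- the data attached to an injective hom on an open subgroup of `SG` -/
noncomputable def datOf (S : Subgroup SG) (hS : IsOpen (S : Set SG)) (β : S →* SG)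
    (hβ : Continuous β) (hr : IsOpen (Set.range β)) : Dat where
  G := S.comap res
  isOpen_G := hS.preimage res_continuous
  α := β.comp (res.subgroupComap S)
  cont := by
    refine hβ.comp ?_
    rw [Topology.IsEmbedding.subtypeVal.continuous_iff]
    exact res_continuous.comp continuous_subtype_val
  open_range := by
    rw [MonoidHom.coe_comp, Set.range_comp]
    have h1 : Set.range (res.subgroupComap S) = Set.univ := by
      rw [Set.range_eq_univ]
      intro s
      obtain ⟨g, hg⟩ := res_surjective (s : SG)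
      exact ⟨⟨g, by rw [Subgroup.mem_comap, hg]; exact s.2⟩, Subtype.ext hg⟩
    rw [h1, Set.image_univ]
    exact hr

variable {S : Subgroup SG} {hS : IsOpen (S : Set SG)} {β : S →* SG}
  {hβ : Continuous β} {hr : IsOpen (Set.range β)}

theorem datOf_α (g : (datOf S hS β hβ hr).G) :
    (datOf S hS β hβ hr).α g = β ⟨res (g : BB), g.2⟩ := rfl

/-- everything is hit -/
theorem hit (hinj : Function.Injective β) (l : ℕ) (hl : l.Prime) (P : Place Om)
    (hP : P.rchar ≠ l) : Hit (datOf S hS β hβ hr) l P := by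
  classical
  refine ⟨hP, ?_⟩
  obtain ⟨F₁, hnf, i, j, hji, hij, hi, hcont⟩ := FTSubx925.exists_transfer
    (datOf S hS β hβ hr).G (datOf S hS β hβ hr).isOpen_G (datOf S hS β hβ hr).α
    (datOf S hS β hβ hr).cont
  have hgal : IsGalois F₁ Om := LCEndx925.isGalois_Om F₁
  have halg : @Algebra.IsAlgebraic ℚ Om _ _ DivisionRing.toRatAlgebra := NUAx275.isAlgebraic_Om _
  have hl0 : NeZero l := ⟨hl.ne_zero⟩
  have hl1 : NeZero (l : Om) := ⟨by exact_mod_cast hl.ne_zero⟩
  obtain ⟨ζ, hζ⟩ := HasEnoughRootsOfUnity.exists_primitiveRoot Om l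
  obtain ⟨τ, hτ, π, ϖ, hπ, -, hτπ, -⟩ := Tamex31.exists_moving (K := F₁) P l hl hP ζ hζ
    (fun x => by
      obtain ⟨y, hy⟩ := IsAlgClosed.exists_pow_nat_eq (algebraMap F₁ Om x) hl.pos
      exact ⟨y, hy⟩)
  have hsm : ∀ (g : Om ≃ₐ[F₁] Om) (x : 𝓞 Om), (i g : BB) • x = g • x := by
    intro g x
    apply NumberField.RingOfIntegers.coe_injective
    exact (LCMainx925.coe_smul_int (i g : BB) x).trans
      ((hi g _).trans (LCMainx925.coe_smul_int g x).symm)
  -- `F₁ ≤ Sv`, hence `π ∈ Sv`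
  have hϖ : algebraMap F₁ Om ϖ ∈ Sv := by
    apply mem_Sv_of_fixed
    intro g hg
    have hgG : g ∈ (datOf S hS β hβ hr).G := by
      change res g ∈ S
      rw [hg]; exact one_mem _
    have h1 : (i (j ⟨g, hgG⟩) : BB) = g := by rw [hij]
    have h2 := hi (j ⟨g, hgG⟩) (algebraMap F₁ Om ϖ)
    rw [h1] at h2
    rw [h2]
    exact (j ⟨g, hgG⟩).commutes _
  have hπS : π ∈ Sv := CycFTx925.root_mem_Sv hl.ne_zero (by rw [hπ]; exact hϖ)
  have hζS : ζ ∈ Sv := CycFTx925.root_mem_Sv hl.ne_zero (by rw [hζ.pow_eq_one]; exact one_mem _)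
  have hπ0 : π ≠ 0 := by
    rintro rfl
    rw [zero_pow hl.ne_zero] at hπ
    exact ϖ.ne_zero ((map_eq_zero _).1 hπ.symm)
  have hN : ¬ P.rchar ∣ l := fun h =>
    hP ((Nat.prime_dvd_prime_iff_eq P.rchar_prime hl).1 h)
  have hτζ : τ ζ = ζ := Placesx484.Place.inertia_root P hτ hN hζ.pow_eq_one
  have hpow : ∀ n : ℕ, ((i τ : BB) ^ n) π = ζ ^ n * π := by
    intro n
    induction n with
    | zero => simp
    | succ n ih =>
      rw [pow_succ', AlgEquiv.mul_apply, ih, map_mul, map_pow, hi, hi, hτζ, hτπ, pow_succ]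
      ring
  -- the level
  let M : Subgroup SG := (IntermediateField.adjoin ℚ {(⟨π, hπS⟩ : Sv)}).fixingSubgroup
  have hMo : IsOpen (M : Set SG) := by
    refine (InfiniteGalois.isOpen_iff_finite _).2 ?_
    exact IntermediateField.adjoin.finiteDimensional (Algebra.IsIntegral.isIntegral _)
  have hcS : CompactSpace S :=
    isCompact_iff_compactSpace.mp (Subgroup.isClosed_of_isOpen S hS).isCompact
  obtain ⟨N, hNn, hNo, hNM⟩ := NUAx275.exists_level β hβ hinj (M.subgroupOf S)
    (hMo.preimage continuous_subtype_val)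
  refine ⟨i τ, fun x => by rw [hsm]; exact hτ x, N, hNn, hNo, fun n hn => ?_⟩
  rw [datOf_α, ← map_pow] at hn
  have h4 := hNM _ hn
  rw [Subgroup.mem_subgroupOf] at h4
  have h5 := (IntermediateField.mem_fixingSubgroup_iff _ _).1 h4 ⟨π, hπS⟩
    (IntermediateField.mem_adjoin_simple_self ℚ _)
  have h6 : (res ((i τ : BB) ^ n) ⟨π, hπS⟩ : Sv) = ⟨π, hπS⟩ := by
    rw [map_pow]
    exact h5
  have h7 := congrArg (Subtype.val : Sv → Om) h6
  rw [CycFTx925.coe_res] at h7
  change ((i τ : BB) ^ n) π = π at h7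
  rw [hpow] at h7
  have h8 : ζ ^ n = 1 := by
    have : ζ ^ n * π = 1 * π := by rw [h7, one_mul]
    exact mul_right_cancel₀ hπ0 this
  exact (hζ.pow_eq_one_iff_dvd n).1 h8

/-- cyclotomic compatibility everywhere if every place is hit -/
theorem cycEq_of_hit (hloc : LocT) (D : Dat) (l : ℕ) (hl : l.Prime) (hl2 : l ≠ 2)
    (hhit : ∀ P : Place Om, P.rchar ≠ l → Hit D l P)
    (g : D.G) : CycEq l (g : BB) (D.α g) := by
  classical
  obtain ⟨F₁, hnf, i, j, hji, hij, hi, hcont⟩ := FTSubx925.exists_transfer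
    D.G D.isOpen_G D.α D.cont
  have hsP : ∀ (g : Om ≃ₐ[F₁] Om) (P : Place Om), (i g : BB) • P = g • P := by
    intro g P
    apply Place.ext
    ext x
    rw [Place.mem_smul_ideal, Place.mem_smul_ideal]
    have h3 : ((i g⁻¹ : D.G) : BB) • x = g⁻¹ • x := by
      apply NumberField.RingOfIntegers.coe_injective
      exact (LCMainx925.coe_smul_int (i g⁻¹ : BB) x).trans
        ((hi g⁻¹ _).trans (LCMainx925.coe_smul_int g⁻¹ x).symm)
    rw [map_inv] at h3
    have h5 : ((i g : BB))⁻¹ • x = g⁻¹ • x := h3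
    rw [h5]
  intro n ζ hζ
  have hm : l ^ n ≠ 0 := pow_ne_zero _ hl.ne_zero
  have key := Densx925.cyc_of_dec (F₁ := F₁) (F₂ := ℚ) (E₂ := Sv) (D.α.comp i) hcont hm
    (Kumx568.exists_primitiveRoot CycFTx925.sv_isSolvablyClosed _ hm) (by
      intro P hP h hh a ha ξ hξ
      by_cases hn : n = 0
      · subst hn
        rw [pow_zero, pow_one] at hξ
        rw [hξ, map_one, one_pow]
      have hP' : P.rchar ≠ l := by
        intro h0
        exact hP (h0 ▸ dvd_pow_self _ hn)
      obtain ⟨Q, -, -, -, hcyc⟩ := hloc D l hl hl2 P (hhit P hP')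
      have h1 := hcyc (i h) (by rw [hsP]; exact hh) n ξ hξ
      apply Subtype.ext
      rw [MonoidHom.comp_apply, h1, hi, ha (ξ : Om) (by
        have := congrArg (Subtype.val : Sv → Om) hξ
        simpa using this)]
      rfl)
  -- `g` acts on `μ_m(Om)` by some power
  have hm1 : NeZero (l ^ n) := ⟨hm⟩
  have hm2 : NeZero ((l ^ n : ℕ) : Om) := ⟨by exact_mod_cast hm⟩
  obtain ⟨ξ, hξ⟩ := HasEnoughRootsOfUnity.exists_primitiveRoot Om (l ^ n)
  obtain ⟨a, -, ha⟩ := hξ.eq_pow_of_pow_eq_one (ξ := (g : BB) ξ) (by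
    rw [← map_pow, hξ.pow_eq_one, map_one])
  have hall : ∀ η : Om, η ^ (l ^ n) = 1 → (g : BB) η = η ^ a := by
    intro η hη
    obtain ⟨b, -, hb⟩ := hξ.eq_pow_of_pow_eq_one hη
    rw [← hb, map_pow, ← ha, ← pow_mul, ← pow_mul, mul_comm]
  have h1 := key (j g) a (fun η hη => by
    rw [← hi, hij]; exact hall η hη) ζ hζ
  rw [MonoidHom.comp_apply, hij] at h1
  rw [h1, hall (ζ : Om) (by
    have := congrArg (Subtype.val : Sv → Om) hζ
    simpa using this)]
  rfl

/-- **Neukirch-Uchida**, homomorphism form -/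
theorem nu_hom (hloc : LocT) (S : Subgroup SG) (hS : IsOpen (S : Set SG)) (β : S →* SG)
    (hβ : Continuous β) (hinj : Function.Injective β) (hr : IsOpen (Set.range β)) :
    ∃ t : SG, ∀ s : S, β s = t⁻¹ * (s : SG) * t := by
  obtain ⟨t, ht⟩ := CycFTx925.cycFT_of_locT hloc (datOf S hS β hβ hr)
    (fun l hl hl2 g => cycEq_of_hit hloc _ l hl hl2 (fun P hP => hit hinj l hl P hP) g)
  refine ⟨t, fun s => ?_⟩
  obtain ⟨g, hg⟩ := res_surjective (s : SG)
  have hgS : res g ∈ S := by rw [hg]; exact s.2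
  have h1 := ht ⟨g, hgS⟩
  rw [datOf_α] at h1
  have h2 : (⟨res g, hgS⟩ : S) = s := Subtype.ext hg
  change β ⟨res g, hgS⟩ = t⁻¹ * res g * t at h1
  rw [h2, hg] at h1
  exact h1

/-- **NU** of the frozen interface -/
theorem nu_of (hloc : LocT) : NU := by
  intro S hS β hβ
  have hinj : Function.Injective (S.subtype.comp β.toMonoidHom) :=
    Subtype.val_injective.comp β.injective
  have hr : Set.range (S.subtype.comp β.toMonoidHom) = (S : Set SG) := by
    ext x
    constructor
    · rintro ⟨s, rfl⟩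
      exact (β s).2
    · intro hx
      exact ⟨β.symm ⟨x, hx⟩, by simp⟩
  obtain ⟨t, ht⟩ := nu_hom hloc S hS (S.subtype.comp β.toMonoidHom)
    (continuous_subtype_val.comp hβ) hinj (by rw [hr]; exact hS)
  exact ⟨t, fun s => ht s⟩

end Crest.Agent.R018.NUCorex275
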