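import Crest.Agent.R018.ProbeH_658
import Crest.Agent.R018.MinusE_975

/-!
# Row 18: `ProbeEx` (helpers 975, 476, 658)
-/

set_option autoImplicit false

namespace Crest.Agent.R018.ProbeExx658

/-- **ProbeEx** of `Core_74`. -/
theorem probeEx_holds : Corex74.ProbeEx := by
  refine ProbeHx658.probeEx_of ?_
  intro F E _ _ _ _ _ _ hprim y
  obtain ⟨L0, h⟩ := MinusEx975.hcyc_large (F := F) y
  exact ⟨L0, fun l hl hl0 => h l hl hl0 fun n => hprim _ (pow_ne_zero n hl.ne_zero)⟩

end Crest.Agent.R018.ProbeExx658
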