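import Crest.Agent.R018.Core_74
import Crest.Agent.R018.CycFT_925
import Crest.Agent.R018.RedA_49
import Crest.Agent.R018.EndA_245

/-!
# Row 18, block ProbeEx, final descent (helper658)

`MinusEx` (abstract minus `ℤ_l`-extension over a totally complex number field) implies the literal
`ProbeEx` of `Core_74`.
-/

set_option autoImplicit false

open NumberField
open Crest.NumberTheoryR
open Crest.Agent.R018.EndDefx924 (Om)
open Crest.Agent.R018.Corex74

namespace Crest.Agent.R018.ProbeFx658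

/-- **minus `ℤ_l`-extensions**: `F` totally complex number field, `E/F` Galois solvably closed,
`y ∈ E` with `y² ∈ F`, `y ∉ F`, `U = Gal(E/F(y))`; for all large `l` there is a nonzero continuous
`φ : U → ℤ_l` which is inverted by the elements outside `U`. -/
def MinusEx : Prop :=
  ∀ (F E : Type) [Field F] [NumberField F] [IsTotallyComplex F] [Field E] [Algebra F E]
    [IsGalois F E], IsSolvablyClosed E → ∀ y : E, y ^ 2 ∈ Set.range (algebraMap F E) →
    y ∉ Set.range (algebraMap F E) → ∃ L0 : ℕ, ∀ (l : ℕ) [Fact l.Prime], L0 < l →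
    ∃ φ : MulAction.stabilizer (E ≃ₐ[F] E) y →* Multiplicative ℤ_[l], Continuous φ ∧ φ ≠ 1 ∧
      ∀ c : E ≃ₐ[F] E, c ∉ MulAction.stabilizer (E ≃ₐ[F] E) y →
      ∀ g g' : MulAction.stabilizer (E ≃ₐ[F] E) y,
        (g' : E ≃ₐ[F] E) = c * (g : E ≃ₐ[F] E) * c⁻¹ → φ g' = (φ g)⁻¹

/-! ### totally complex -/

/-- a Galois extension `E` of `ℚ` containing a square root of `-1`; if the Galois group of `E/F`
contains no involution then `F` is totally complex. -/
theorem isTotallyComplex_of {E : Type*} [Field E] [CharZero E] [Algebra ℚ E] [Normal ℚ E]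
    (i : E) (hi : i ^ 2 = -1) (F : IntermediateField ℚ E) [NumberField F]
    (h : ∀ s : E ≃ₐ[ℚ] E, s ∈ F.fixingSubgroup → s * s = 1 → s = 1) : IsTotallyComplex F := by
  constructor
  intro v
  by_contra hv
  rw [InfinitePlace.not_isComplex_iff_isReal, InfinitePlace.isReal_iff] at hv
  let f : F →+* ℂ := v.embedding
  have hf : ∀ x : F, (starRingEnd ℂ) (f x) = f x := fun x =>
    RingHom.congr_fun (ComplexEmbedding.isReal_iff.1 hv) x
  letI : Algebra F ℂ := f.toAlgebra
  have : Algebra.IsAlgebraic ℚ E := Normal.toIsAlgebraic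
  have : Algebra.IsAlgebraic F E := Algebra.IsAlgebraic.tower_top (K := ℚ) F
  let ψ : E →ₐ[F] ℂ := IsAlgClosed.lift
  have hψ : ∀ x : F, ψ (x : E) = f x := fun x => ψ.commutes x
  letI : Algebra E ℂ := (ψ : E →+* ℂ).toAlgebra
  have halg : ∀ x : E, algebraMap E ℂ x = ψ x := fun _ => rfl
  have : IsScalarTower ℚ E ℂ := IsScalarTower.of_algebraMap_eq fun q => by
    simp
  let ρ : E →ₐ[ℚ] ℂ :=
    { ((starRingEnd ℂ).comp (ψ : E →+* ℂ)) with
      commutes' := fun q => by simp }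
  have hρ : ∀ x : E, ρ x = (starRingEnd ℂ) (ψ x) := fun _ => rfl
  have hinj : ∀ a b : E, ψ a = ψ b → a = b := fun a b hab => (ψ : E →+* ℂ).injective hab
  let s : E ≃ₐ[ℚ] E := ρ.restrictNormal' E
  have hs : ∀ x : E, ψ (s x) = (starRingEnd ℂ) (ψ x) := by
    intro x
    have h1 := AlgHom.restrictNormal_commutes ρ E x
    rw [← hρ]
    exact h1
  have hsF : s ∈ F.fixingSubgroup := by
    rw [IntermediateField.mem_fixingSubgroup_iff]
    intro x hx
    apply hinj
    rw [hs, hψ ⟨x, hx⟩, hf]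
  have hss : s * s = 1 := by
    ext x
    apply hinj
    rw [AlgEquiv.mul_apply, hs, hs, Complex.conj_conj]
    rfl
  have hs1 := h s hsF hss
  have h1 : (starRingEnd ℂ) (ψ i) = ψ i := by
    rw [← hs, hs1]; rfl
  have h2 : (ψ i) ^ 2 = -1 := by
    rw [← map_pow, hi, map_neg, map_one]
  rw [Complex.conj_eq_iff_real] at h1
  obtain ⟨r, hr⟩ := h1
  rw [hr] at h2
  have h3 : (r : ℝ) ^ 2 = -1 := by exact_mod_cast h2
  nlinarith [sq_nonneg r]

/-! ### `V₂(x)` is open -/

theorem finite_conj (x : Sv) : {y : Sv | ∃ γ : SG, y = γ x}.Finite := by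
  have hint : IsIntegral ℚ x := Algebra.IsIntegral.isIntegral x
  refine ((minpoly ℚ x).rootSet Sv).toFinite.subset ?_
  rintro y ⟨γ, rfl⟩
  rw [Polynomial.mem_rootSet]
  refine ⟨minpoly.ne_zero hint, ?_⟩
  have : Polynomial.aeval (γ x) (minpoly ℚ x) = γ (Polynomial.aeval x (minpoly ℚ x)) := by
    rw [← AlgEquiv.coe_algHom, Polynomial.aeval_algHom_apply]
  rw [this, minpoly.aeval, map_zero]

theorem isOpen_V2 (V : Subgroup SG) (hV : IsOpen (V : Set SG)) (x : Sv) :
    IsOpen (V2 V x : Set SG) := by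
  classical
  apply Subgroup.isOpen_of_mem_nhds (g := 1)
  -- finitely many `z`
  have hfin : {z : Sv | ∃ γ : SG, z ^ 2 = γ x}.Finite := by
    have h1 : {z : Sv | ∃ γ : SG, z ^ 2 = γ x} ⊆
        ⋃ y ∈ {y : Sv | ∃ γ : SG, y = γ x}, {z : Sv | z ^ 2 = y} := by
      rintro z ⟨γ, hz⟩
      simp only [Set.mem_iUnion]
      exact ⟨γ x, ⟨γ, rfl⟩, hz⟩
    refine Set.Finite.subset ((finite_conj x).biUnion fun y _ => ?_) h1
    refine ((Polynomial.nthRoots 2 y).toFinset.finite_toSet).subset ?_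
    intro z hz
    simpa [Polynomial.mem_nthRoots] using hz
  have h2 : (⋂ z ∈ {z : Sv | ∃ γ : SG, z ^ 2 = γ x}, {g : SG | g z = z}) ∈ nhds (1 : SG) := by
    rw [Filter.biInter_mem hfin]
    intro z _
    exact Redx49.eval_mem_nhds z
  refine Filter.mem_of_superset (Filter.inter_mem (hV.mem_nhds V.one_mem) h2) ?_
  rintro g ⟨hg1, hg2⟩
  refine ⟨hg1, fun γ z hz => ?_⟩
  simp only [Set.mem_iInter] at hg2
  exact hg2 z ⟨γ, hz⟩

/-- the torsion freeness of `ℤ_l`, multiplicative form -/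
theorem eq_one_of_pow {l : ℕ} [Fact l.Prime] (a : Multiplicative ℤ_[l]) (m : ℕ) (hm : m ≠ 0)
    (h : a ^ m = 1) : a = 1 := by
  have h1 : m • a.toAdd = 0 := by
    rw [← toAdd_pow, h]; rfl
  have h2 : a.toAdd = 0 := by
    rw [nsmul_eq_mul] at h1
    rcases mul_eq_zero.1 h1 with h3 | h3
    · exact absurd (by exact_mod_cast h3) hm
    · exact h3
  exact h2

/-! ### the descent -/

/-- **ProbeEx from MinusEx**. -/
theorem probeEx_of (H : MinusEx) : ProbeEx := by
  intro V hVn hVo hinv x hx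
  have hclosed : IsClosed (V : Set SG) := Subgroup.isClosed_of_isOpen _ hVo
  let K : ClosedSubgroup SG := ⟨V, hclosed⟩
  let F : IntermediateField ℚ Sv := IntermediateField.fixedField K.1
  have hfix : F.fixingSubgroup = V := InfiniteGalois.fixingSubgroup_fixedField K
  have hfin : FiniteDimensional ℚ F := by
    rw [← InfiniteGalois.isOpen_iff_finite]
    change IsOpen (F.fixingSubgroup : Set SG)
    rw [hfix]; exact hVo
  have hnf : NumberField F := NumberField.of_module_finite ℚ F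
  have hSC := CycFTx925.sv_isSolvablyClosed
  obtain ⟨i, hi⟩ := EndAx245.exists_sq_of_solvablyClosed hSC (-1)
  have : IsTotallyComplex F := isTotallyComplex_of i hi F fun s hs hss =>
    hinv s (by rwa [hfix] at hs) hss
  obtain ⟨y, hy⟩ := EndAx245.exists_sq_of_solvablyClosed hSC x
  obtain ⟨hx0, hxV, hxstab, hxind⟩ := hx
  have hxF : x ∈ F := by
    rw [IntermediateField.mem_fixedField_iff]
    intro v hv
    exact hxV v hv
  have hy2 : y ^ 2 ∈ Set.range (algebraMap F Sv) := ⟨⟨x, hxF⟩, by rw [hy]; rfl⟩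
  have hyF : y ∉ Set.range (algebraMap F Sv) := by
    rintro ⟨z, hz⟩
    refine hxind {x} (Finset.singleton_nonempty x) ?_ ⟨y, ?_, ?_⟩
    · intro w hw
      rw [Finset.mem_singleton] at hw
      exact ⟨1, by rw [hw]; rfl⟩
    · intro v hv
      rw [← hz]
      have := z.2
      exact (IntermediateField.mem_fixedField_iff _ _).1 z.2 v hv
    · rw [Finset.prod_singleton, hy]
  obtain ⟨L0, hL0⟩ := H F Sv hSC y hy2 hyF
  refine ⟨L0, ?_⟩
  intro l hl hl0
  obtain ⟨φ, hφc, hφ1, hφ⟩ := hL0 l hl0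
  -- `V → Gal(Sv/F)`
  have hmem : ∀ v : SG, v ∈ V → v ∈ F.fixingSubgroup := fun v hv => by rw [hfix]; exact hv
  let ι : V →* (Sv ≃ₐ[F] Sv) :=
    (IntermediateField.fixingSubgroupEquiv F).toMonoidHom.comp (Subgroup.inclusion hfix.ge)
  have hι : ∀ (v : V) (z : Sv), ι v z = (v : SG) z := fun _ _ => rfl
  have hιs : Function.Surjective ι := by
    intro σ
    obtain ⟨τ, hτ⟩ := (IntermediateField.fixingSubgroupEquiv F).surjective σ
    refine ⟨⟨τ, by rw [← hfix]; exact τ.2⟩, ?_⟩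
    rw [← hτ]
    rfl
  let j₀ : V2 V x →* (Sv ≃ₐ[F] Sv) :=
    ι.comp (Subgroup.inclusion (show V2 V x ≤ V from fun g hg => hg.1))
  have hj₀ : ∀ (n : V2 V x) (z : Sv), j₀ n z = (n : SG) z := fun _ _ => rfl
  have hj₀m : ∀ n : V2 V x, j₀ n ∈ MulAction.stabilizer (Sv ≃ₐ[F] Sv) y := by
    intro n
    rw [MulAction.mem_stabilizer_iff]
    change (n : SG) y = y
    exact n.2.2 1 y (by rw [hy]; rfl)
  let j : V2 V x →* MulAction.stabilizer (Sv ≃ₐ[F] Sv) y := j₀.codRestrict _ hj₀m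
  have hjc : Continuous j := by
    rw [Topology.IsEmbedding.subtypeVal.continuous_iff]
    change Continuous j₀
    apply Redx49.continuous_of_eval
    intro z
    have h1 := Redx49.eval_mem_nhds (K := ℚ) z
    have h2 : Filter.Tendsto (Subtype.val : V2 V x → SG) (nhds 1) (nhds 1) :=
      continuous_subtype_val.tendsto (1 : V2 V x)
    exact Filter.mem_of_superset (h2 h1) fun g hg => hg
  have hV2n : (V2 V x).Normal := V2_normal V x
  have hV2o : IsOpen (V2 V x : Set SG) := isOpen_V2 V hVo x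
  have hidx : (V2 V x).index ≠ 0 := by
    have : Finite (SG ⧸ V2 V x) := Subgroup.quotient_finite_of_isOpen _ hV2o
    exact Subgroup.index_ne_zero_of_finite
  refine ⟨{ ψ := φ.comp j, cont := hφc.comp hjc, ne_one := ?_, eig_pos := ?_, eig_neg := ?_ }⟩
  · intro h1
    apply hφ1
    ext1 g
    obtain ⟨v, hv⟩ := hιs (g : Sv ≃ₐ[F] Sv)
    have hm : ((v : SG)) ^ (V2 V x).index ∈ V2 V x := (V2 V x).pow_index_mem v
    have h2 : j ⟨_, hm⟩ = g ^ (V2 V x).index := by
      apply Subtype.ext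
      rw [Subgroup.coe_pow, ← hv, ← map_pow]
      rfl
    have h3 : φ (j ⟨_, hm⟩) = 1 := by
      have := DFunLike.congr_fun h1 (⟨_, hm⟩ : V2 V x)
      simpa using this
    rw [h2, map_pow] at h3
    exact eq_one_of_pow _ _ hidx h3
  · intro a ha hz n
    have haU : ι ⟨a, ha⟩ ∈ MulAction.stabilizer (Sv ≃ₐ[F] Sv) y := by
      rw [MulAction.mem_stabilizer_iff]
      exact hz y hy
    have h1 : ∀ hm, j ⟨a⁻¹ * n * a, hm⟩ = (⟨ι ⟨a, ha⟩, haU⟩)⁻¹ * j n * ⟨ι ⟨a, ha⟩, haU⟩ := by
      intro hm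
      apply Subtype.ext
      ext z
      rfl
    change φ (j _) = φ (j n)
    rw [h1, map_mul, map_mul, map_inv, mul_comm (φ _)⁻¹, inv_mul_cancel_right]
  · intro a ha hz n
    have hyne : y ≠ 0 := by
      rintro rfl
      apply hx0
      rw [← hy]; simp
    have haU : (ι ⟨a, ha⟩)⁻¹ ∉ MulAction.stabilizer (Sv ≃ₐ[F] Sv) y := by
      rw [inv_mem_iff, MulAction.mem_stabilizer_iff]
      change a y ≠ y
      rw [hz y hy]
      intro h
      have : (2 : Sv) * y = 0 := by
        linear_combination -h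
      rcases mul_eq_zero.1 this with h' | h'
      · exact two_ne_zero h'
      · exact hyne h'
    change φ (j _) = (φ (j n))⁻¹
    refine hφ _ haU (j n) _ ?_
    ext z
    rfl

end Crest.Agent.R018.ProbeFx658
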