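import Crest.Agent.R018.ProbeK_658
import Crest.Agent.R018.ProbeF_658
import Crest.Agent.R018.TameB_31
import Crest.Agent.R018.Kum_568

/-!
# Row 18, block ProbeEx, glue (helper658)

From FIN (476) + many (975) + compactness (ProbeK_658) to the minus `ℤ_l`-extension.
-/

set_option autoImplicit false

open NumberField
open Crest.NumberTheoryR
open Crest.Agent.R018.Placesx484
open Crest.Agent.R018.Tamex31

namespace Crest.Agent.R018.ProbeGx658

variable {F E : Type*} [Field F] [Field E] [Algebra F E]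

/-- characters of `U` with open kernel, killed by a family `I` of elements and inverted by the
elements outside `U`. -/
def minusChars (U : Subgroup (E ≃ₐ[F] E)) (I : Set U) : Subgroup (U →* Eˣ) where
  carrier := {χ | OpenKer χ ∧ (∀ s ∈ I, χ s = 1) ∧
    ∀ c : E ≃ₐ[F] E, c ∉ U → ∀ g g' : U, (g' : E ≃ₐ[F] E) = c * (g : E ≃ₐ[F] E) * c⁻¹ →
      χ g' = (χ g)⁻¹}
  one_mem' := by
    refine ⟨⟨⊥, inferInstance, fun _ _ => rfl⟩, fun _ _ => rfl, fun _ _ _ _ _ => by simp⟩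
  mul_mem' := by
    rintro χ ψ ⟨⟨L, hL, hL'⟩, h2, h3⟩ ⟨⟨M, hM, hM'⟩, h5, h6⟩
    refine ⟨⟨L ⊔ M, ?_, ?_⟩, ?_, ?_⟩
    · exact IntermediateField.finiteDimensional_sup L M
    · intro u hu
      rw [MonoidHom.mul_apply, hL' u fun x hx => hu x (le_sup_left (α := IntermediateField F E) hx),
        hM' u fun x hx => hu x (le_sup_right (α := IntermediateField F E) hx), one_mul]
    · intro s hs
      rw [MonoidHom.mul_apply, h2 s hs, h5 s hs, one_mul]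
    · intro c hc g g' hg
      rw [MonoidHom.mul_apply, MonoidHom.mul_apply, h3 c hc g g' hg, h6 c hc g g' hg, mul_inv]
  inv_mem' := by
    rintro χ ⟨⟨L, hL, hL'⟩, h2, h3⟩
    refine ⟨⟨L, hL, ?_⟩, ?_, ?_⟩
    · intro u hu
      rw [MonoidHom.inv_apply, hL' u hu, inv_one]
    · intro s hs
      rw [MonoidHom.inv_apply, h2 s hs, inv_one]
    · intro c hc g g' hg
      rw [MonoidHom.inv_apply, MonoidHom.inv_apply, h3 c hc g g' hg]

theorem isOpen_ker_of_openKer {U : Subgroup (E ≃ₐ[F] E)} (χ : U →* Eˣ) (h : OpenKer χ) :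
    IsOpen (χ.ker : Set U) := by
  obtain ⟨L, hL, hL'⟩ := h
  apply Subgroup.isOpen_of_mem_nhds (g := 1)
  have h1 : (L.fixingSubgroup : Set (E ≃ₐ[F] E)) ∈ nhds (1 : E ≃ₐ[F] E) := by
    rw [krullTopology_mem_nhds_one_iff]
    exact ⟨L, hL, subset_rfl⟩
  have h2 : Filter.Tendsto (Subtype.val : U → (E ≃ₐ[F] E)) (nhds 1) (nhds 1) :=
    continuous_subtype_val.tendsto (1 : U)
  refine Filter.mem_of_superset (h2 h1) ?_
  intro u hu
  exact hL' u fun x hx => (IntermediateField.mem_fixingSubgroup_iff _ _).1 hu x hx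

/-- compatible primitive roots of unity -/
theorem exists_zeta [CharZero E] (hE : IsSolvablyClosed E) (l : ℕ) [hl : Fact l.Prime] :
    ∃ ζ : ℕ → Eˣ, (∀ k, IsPrimitiveRoot (ζ k) (l ^ k)) ∧ ∀ k, ζ (k + 1) ^ l = ζ k := by
  have hpos : ∀ k, l ^ k ≠ 0 := fun k => pow_ne_zero _ hl.out.ne_zero
  have step : ∀ (k : ℕ) (z : Eˣ), IsPrimitiveRoot z (l ^ k) →
      ∃ w : Eˣ, IsPrimitiveRoot w (l ^ (k + 1)) ∧ w ^ l = z := by
    intro k z hz
    rcases Nat.eq_zero_or_pos k with rfl | hk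
    · obtain ⟨w, hw⟩ := Kumx568.exists_primitiveRoot hE l hl.out.ne_zero
      have hw' : IsUnit w := hw.isUnit hl.out.ne_zero
      obtain ⟨w', rfl⟩ := hw'
      refine ⟨w', ?_, ?_⟩
      · rw [zero_add, pow_one]
        exact IsPrimitiveRoot.coe_units_iff.1 hw
      · have h1 : z = 1 := by
          have := hz.pow_eq_one
          simpa using this
        rw [h1]
        exact (IsPrimitiveRoot.coe_units_iff.1 hw).pow_eq_one
    · obtain ⟨w, hw⟩ := Kumx568.exists_pow_eq_unit hE l hl.out.ne_zero z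
      refine ⟨w, ?_, hw⟩
      rw [IsPrimitiveRoot.iff_orderOf]
      have h1 : orderOf z = l ^ k := hz.eq_orderOf.symm
      have h2 : w ^ (l ^ (k + 1)) = 1 := by
        rw [pow_succ', pow_mul, hw, ← h1, pow_orderOf_eq_one]
      have h3 : ¬ w ^ (l ^ k) = 1 := by
        intro h
        obtain ⟨d, rfl⟩ := Nat.exists_eq_succ_of_ne_zero hk.ne'
        rw [Nat.succ_eq_add_one, pow_succ', pow_mul, hw] at h
        have h4 := hz.dvd_of_pow_eq_one _ h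
        have h5 := Nat.le_of_dvd (pow_pos hl.out.pos _) h4
        have h6 : l ^ d < l ^ (d + 1) := Nat.pow_lt_pow_right hl.out.one_lt (Nat.lt_succ_self d)
        rw [Nat.succ_eq_add_one] at h5
        omega
      exact orderOf_eq_prime_pow h3 h2
  choose! f hf1 hf2 using step
  let ζ : ℕ → Eˣ := fun k => Nat.rec (motive := fun _ => Eˣ) 1 (fun k z => f k z) k
  have hζ : ∀ k, IsPrimitiveRoot (ζ k) (l ^ k) := by
    intro k
    induction k with
    | zero => change IsPrimitiveRoot (1 : Eˣ) (l ^ 0); simp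
    | succ k ih => exact hf1 k (ζ k) ih
  exact ⟨ζ, hζ, fun k => hf2 k (ζ k) (hζ k)⟩

/-- the minus `ℤ_l`-hom from finiteness and abundance of minus characters. -/
theorem exists_minus [CharZero E] (hE : IsSolvablyClosed E) (l : ℕ) [hl : Fact l.Prime]
    (U : Subgroup (E ≃ₐ[F] E)) (I : Set U)
    (hfin : {χ : U →* Eˣ | χ ^ l = 1 ∧ OpenKer χ ∧ ∀ s ∈ I, χ s = 1}.Finite)
    (hmany : ∀ n : ℕ, ∃ T : Finset (U →* Eˣ), l ^ n ≤ T.card ∧ ∀ χ ∈ T, χ ^ (l ^ n) = 1 ∧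
      OpenKer χ ∧ (∀ s ∈ I, χ s = 1) ∧
      ∀ c : E ≃ₐ[F] E, c ∉ U → ∀ g g' : U, (g' : E ≃ₐ[F] E) = c * (g : E ≃ₐ[F] E) * c⁻¹ →
        χ g' = (χ g)⁻¹) :
    ∃ φ : U →* Multiplicative ℤ_[l], Continuous φ ∧ φ ≠ 1 ∧
      ∀ c : E ≃ₐ[F] E, c ∉ U → ∀ g g' : U, (g' : E ≃ₐ[F] E) = c * (g : E ≃ₐ[F] E) * c⁻¹ →
        φ g' = (φ g)⁻¹ := by
  obtain ⟨ζ, hζ1, hζ2⟩ := exists_zeta hE l
  obtain ⟨φ, hφ1, hφ2, hφ3⟩ := ProbeKx658.exists_hom_of_many l ζ hζ1 hζ2 (minusChars U I)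
    (fun χ hχ => isOpen_ker_of_openKer χ hχ.1)
    (hfin.subset fun χ hχ => ⟨hχ.2, hχ.1.1, hχ.1.2.1⟩)
    (fun n => by
      obtain ⟨T, hT1, hT2⟩ := hmany n
      exact ⟨T, hT1, fun χ hχ => ⟨(hT2 χ hχ).2, (hT2 χ hχ).1⟩⟩)
  refine ⟨φ, hφ1, hφ2, ?_⟩
  intro c hc g g' hg
  refine ProbeKx658.eq_inv_of_reductions l ζ hζ1 φ g g' fun k => ?_
  obtain ⟨χ, hχ, hχ'⟩ := hφ3 k
  rw [← hχ', ← hχ']
  exact hχ.2.2 c hc g g' hg

end Crest.Agent.R018.ProbeGx658
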