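import Crest.Agent.R018.ProbeG_658
import Crest.Agent.R018.MinusD_975
import Crest.Agent.R018.MinusF_476

/-!
# Row 18, block ProbeEx, final glue (helper658)

`HCyc → ProbeEx`, where `HCyc` = cyclotomic surjectivity for all large `l`.
-/

set_option autoImplicit false

open NumberField
open Crest.NumberTheoryR
open Crest.Agent.R018.Placesx484
open Crest.Agent.R018.Tamex31
open Crest.Agent.R018.Corex74

namespace Crest.Agent.R018.ProbeHx658

/-- for all large `l` every `a` prime to `l` is realised on `μ_{l^n}` by an element fixing `y`. -/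
def HCyc : Prop :=
  ∀ (F E : Type) [Field F] [NumberField F] [Field E] [CharZero E] [Algebra F E] [IsGalois F E],
    (∀ n : ℕ, n ≠ 0 → ∃ ζ : E, IsPrimitiveRoot ζ n) → ∀ y : E,
    ∃ L0 : ℕ, ∀ l : ℕ, l.Prime → L0 < l → ∀ n a : ℕ, Nat.Coprime a l →
      ∃ g : E ≃ₐ[F] E, g y = y ∧ ∀ ζ : E, ζ ^ (l ^ n) = 1 → g ζ = ζ ^ a

theorem minusEx_of (H : HCyc) : ProbeFx658.MinusEx := by
  intro F E _ _ _ _ _ _ hE y hy2 hy
  have : CharZero E := charZero_of_injective_algebraMap (algebraMap F E).injective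
  have : Algebra.IsAlgebraic ℚ E := Algebra.IsAlgebraic.trans ℚ F E
  obtain ⟨L0, hL0⟩ := H F E (fun n hn => Kumx568.exists_primitiveRoot hE n hn) y
  refine ⟨max L0 2, ?_⟩
  intro l hl hl0
  have h1 : L0 < l := lt_of_le_of_lt (le_max_left _ _) hl0
  have h2 : l ≠ 2 := (lt_of_le_of_lt (le_max_right _ _) hl0).ne'
  have hpos : ∀ n, l ^ n ≠ 0 := fun n => pow_ne_zero n hl.out.ne_zero
  have hmany := MinusDx975.many (F := F) y hy2 hy l hl.out h2
    (fun n => Kumx568.exists_primitiveRoot hE _ (hpos n))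
    (fun n x => Kumx568.exists_pow_eq hE _ (hpos n) x)
    (fun n a ha => hL0 l hl.out h1 n a ha)
  obtain ⟨ζ, hζ⟩ := Kumx568.exists_primitiveRoot hE l hl.out.ne_zero
  have hfin := MinusFx476.fin_chars (F := F) y hl.out hζ
    (fun x => Kumx568.exists_pow_eq hE _ hl.out.ne_zero x)
  exact ProbeGx658.exists_minus hE l (MulAction.stabilizer (E ≃ₐ[F] E) y)
    {s | ∃ P : Place E, P.rchar ≠ l ∧ (s : E ≃ₐ[F] E) ∈ inS F P.val}
    (hfin.subset fun χ hχ => ⟨hχ.1, hχ.2.1, fun P hP s hs => hχ.2.2 s ⟨P, hP, hs⟩⟩)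
    (fun n => by
      obtain ⟨T, hT1, hT2⟩ := hmany n
      refine ⟨T, hT1, fun χ hχ => ?_⟩
      obtain ⟨g1, g2, g3, g4⟩ := hT2 χ hχ
      exact ⟨g1, g2, fun s ⟨P, hP, hs⟩ => g3 P hP s hs, g4⟩)

/-- **ProbeEx** from cyclotomic surjectivity. -/
theorem probeEx_of (H : HCyc) : ProbeEx := ProbeFx658.probeEx_of (minusEx_of H)

end Crest.Agent.R018.ProbeHx658
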