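import Mathlib

/-!
# Row 18, block ProbeEx, compactness part (helper658)

A group `C` of characters `G → Eˣ` (with open kernels) such that `C[l]` is finite and
`C[l^n]` has at least `l^n` elements for every `n` contains a compatible system of characters of
exact order `l^k`, i.e. a nonzero continuous homomorphism `G → ℤ_l`.
-/

set_option autoImplicit false

open Filter Topology

namespace Crest.Agent.R018.ProbeKx658

/-- gluing a compatible system of characters with values in `μ_{l^k}` into a hom to `ℤ_l`. -/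
theorem exists_padic_hom {G E : Type*} [Group G] [Field E] (l : ℕ) [hl : Fact l.Prime]
    (ζ : ℕ → Eˣ) (hζ : ∀ k, IsPrimitiveRoot (ζ k) (l ^ k)) (hcomp : ∀ k, ζ (k + 1) ^ l = ζ k)
    (χ : ℕ → G →* Eˣ) (hχ : ∀ k, χ k ^ (l ^ k) = 1) (hχc : ∀ k, χ (k + 1) ^ l = χ k) :
    ∃ φ : G →* Multiplicative ℤ_[l], ∀ (k : ℕ) (g : G),
      χ k g = ζ k ^ ((φ g).toAdd.toZModPow k).val := by
  classical
  have hpos : ∀ k, 0 < l ^ k := fun k => pow_pos hl.out.pos k
  have hne : ∀ k, NeZero (l ^ k) := fun k => ⟨(hpos k).ne'⟩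
  have h1 : ∀ (k : ℕ) (g : G), ∃ i, i < l ^ k ∧ ζ k ^ i = χ k g := by
    intro k g
    have h : (χ k g) ^ (l ^ k) = 1 := by
      have := DFunLike.congr_fun (hχ k) g
      simpa using this
    exact (hζ k).eq_pow_of_mem_rootsOfUnity ((mem_rootsOfUnity _ _).2 h)
  choose a ha1 ha2 using h1
  have key : ∀ (k i j : ℕ), ζ k ^ i = ζ k ^ j → ((i : ℕ) : ZMod (l ^ k)) = (j : ℕ) := by
    intro k i j h
    rw [pow_eq_pow_iff_modEq, ← (hζ k).eq_orderOf] at h
    exact (ZMod.natCast_eq_natCast_iff _ _ _).2 h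
  have hmod : ∀ (g : G) (k : ℕ), (l : ℤ) ^ k ∣ ((a (k + 1) g : ℕ) : ℤ) - (a k g : ℕ) := by
    intro g k
    have h2 : ζ k ^ (a (k + 1) g) = ζ k ^ (a k g) := by
      rw [ha2 k g, ← hχc k, MonoidHom.pow_apply, ← ha2 (k + 1) g, ← hcomp k, ← pow_mul, ← pow_mul,
        mul_comm]
    have h3 := key k _ _ h2
    have h4 : (((l ^ k : ℕ) : ℤ)) ∣ ((a (k + 1) g : ℕ) : ℤ) - (a k g : ℕ) := by
      rw [← ZMod.intCast_zmod_eq_zero_iff_dvd]
      push_cast
      rw [h3, sub_self]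
    simpa using h4
  let x : G → ℤ_[l] := fun g =>
    PadicInt.ofIntSeq _ (PadicInt.isCauSeq_padicNorm_of_pow_dvd_sub (fun k => ((a k g : ℕ) : ℤ)) l
      (hmod g))
  have hx : ∀ (g : G) (k : ℕ), (x g).toZModPow k = ((a k g : ℕ) : ZMod (l ^ k)) := by
    intro g k
    have := PadicInt.toZModPow_ofIntSeq_of_pow_dvd_sub (fun k => ((a k g : ℕ) : ℤ)) l (hmod g) k
    simpa using this
  refine ⟨{ toFun := fun g => Multiplicative.ofAdd (x g), map_one' := ?_, map_mul' := ?_ }, ?_⟩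
  · have : x 1 = 0 := by
      refine PadicInt.ext_of_toZModPow.1 fun k => ?_
      rw [hx, map_zero]
      have h := key k (a k 1) 0 (by rw [ha2, map_one, pow_zero])
      simpa using h
    rw [this]; rfl
  · intro g h
    have : x (g * h) = x g + x h := by
      refine PadicInt.ext_of_toZModPow.1 fun k => ?_
      rw [map_add, hx, hx, hx]
      have h := key k (a k (g * h)) (a k g + a k h)
        (by rw [ha2, map_mul, pow_add, ha2, ha2])
      simpa using h
    rw [this]; rfl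
  · intro k g
    change χ k g = ζ k ^ ((x g).toZModPow k).val
    rw [hx, ZMod.val_natCast, ← ha2 k g]
    rw [pow_eq_pow_iff_modEq, ← (hζ k).eq_orderOf]
    exact (Nat.mod_modEq _ _).symm

/-- continuity of a hom to `ℤ_l` whose reductions have open kernels. -/
theorem continuous_of_reductions {G E : Type*} [Group G] [TopologicalSpace G]
    [IsTopologicalGroup G] [Field E] (l : ℕ) [hl : Fact l.Prime]
    (ζ : ℕ → Eˣ) (hζ : ∀ k, IsPrimitiveRoot (ζ k) (l ^ k))
    (χ : ℕ → G →* Eˣ) (hopen : ∀ k, IsOpen ((χ k).ker : Set G))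
    (φ : G →* Multiplicative ℤ_[l])
    (hφ : ∀ (k : ℕ) (g : G), χ k g = ζ k ^ ((φ g).toAdd.toZModPow k).val) :
    Continuous φ := by
  have hpos : ∀ k, 0 < l ^ k := fun k => pow_pos hl.out.pos k
  have hne : ∀ k, NeZero (l ^ k) := fun k => ⟨(hpos k).ne'⟩
  apply continuous_of_continuousAt_one
  rw [ContinuousAt, map_one]
  have hb := Metric.nhds_basis_ball (α := ℤ_[l]) (x := 0)
  have : Tendsto (fun g => (φ g).toAdd) (𝓝 (1 : G)) (𝓝 (0 : ℤ_[l])) := by
    rw [hb.tendsto_right_iff]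
    intro ε hε
    obtain ⟨k, hk⟩ := PadicInt.exists_pow_neg_lt l hε
    filter_upwards [(hopen k).mem_nhds (one_mem (χ k).ker)] with g hg
    have h1 : ζ k ^ ((φ g).toAdd.toZModPow k).val = 1 := by
      rw [← hφ]; exact hg
    have h2 : (φ g).toAdd.toZModPow k = 0 := by
      have h3 := (hζ k).dvd_of_pow_eq_one _ h1
      have h4 := ZMod.val_lt ((φ g).toAdd.toZModPow k)
      have h5 : ((φ g).toAdd.toZModPow k).val = 0 := Nat.eq_zero_of_dvd_of_lt h3 h4
      exact (ZMod.val_eq_zero _).1 h5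
    rw [Metric.mem_ball, dist_zero_right]
    refine lt_of_le_of_lt ?_ hk
    rw [PadicInt.norm_le_pow_iff_mem_span_pow, ← PadicInt.ker_toZModPow, RingHom.mem_ker]
    exact h2
  exact this

/-- finiteness of `C[l^k]` from finiteness of `C[l]`. -/
theorem finite_torsion {A : Type*} [CommGroup A] (C : Subgroup A) (l : ℕ)
    (hfin : {χ : A | χ ∈ C ∧ χ ^ l = 1}.Finite) (k : ℕ) :
    {χ : A | χ ∈ C ∧ χ ^ (l ^ k) = 1}.Finite := by
  induction k with
  | zero =>
      refine (Set.finite_singleton (1 : A)).subset ?_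
      rintro χ ⟨-, h⟩
      simpa using h
  | succ k ih =>
      have hpre : {χ : A | χ ∈ C ∧ χ ^ (l ^ (k + 1)) = 1} ⊆
          {χ : A | χ ∈ C ∧ χ ^ l ∈ {χ : A | χ ∈ C ∧ χ ^ (l ^ k) = 1}} := by
        rintro χ ⟨h1, h2⟩
        refine ⟨h1, C.pow_mem h1 l, ?_⟩
        rw [← pow_mul, ← pow_succ']; exact h2
      refine Set.Finite.subset ?_ hpre
      have : {χ : A | χ ∈ C ∧ χ ^ l ∈ {χ : A | χ ∈ C ∧ χ ^ (l ^ k) = 1}} =
          ⋃ ψ ∈ {χ : A | χ ∈ C ∧ χ ^ (l ^ k) = 1}, {χ : A | χ ∈ C ∧ χ ^ l = ψ} := by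
        ext χ
        simp only [Set.mem_ofPred_eq, Set.mem_iUnion, exists_prop]
        constructor
        · rintro ⟨h1, h2⟩
          exact ⟨χ ^ l, h2, h1, rfl⟩
        · rintro ⟨ψ, h2, h1, rfl⟩
          exact ⟨h1, h2⟩
      rw [this]
      refine ih.biUnion fun ψ _ => ?_
      rcases Set.eq_empty_or_nonempty {χ : A | χ ∈ C ∧ χ ^ l = ψ} with h | ⟨χ₀, h₀, h₀'⟩
      · rw [h]; exact Set.finite_empty
      · refine (hfin.image (fun η => χ₀ * η)).subset ?_
        rintro χ ⟨h1, h2⟩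
        refine ⟨χ₀⁻¹ * χ, ⟨C.mul_mem (C.inv_mem h₀) h1, ?_⟩, by simp⟩
        rw [mul_pow, inv_pow, h₀', h2, inv_mul_cancel]

/-- **compactness**: from many torsion elements to a compatible system of exact order. -/
theorem exists_system {A : Type*} [CommGroup A] (C : Subgroup A) (l : ℕ) (hl : l.Prime)
    (hfin : {χ : A | χ ∈ C ∧ χ ^ l = 1}.Finite)
    (hmany : ∀ n : ℕ, ∃ T : Finset A, l ^ n ≤ T.card ∧ ∀ χ ∈ T, χ ∈ C ∧ χ ^ (l ^ n) = 1) :
    ∃ χ : ℕ → A, (∀ k, χ k ∈ C) ∧ (∀ k, χ k ^ (l ^ k) = 1) ∧ (∀ k, χ (k + 1) ^ l = χ k) ∧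
      χ 1 ≠ 1 := by
  classical
  have hF := finite_torsion C l hfin
  -- the sets of elements of exact order `l ^ (k+1)`
  let S : ℕ → Set A := fun k => {χ | χ ∈ C ∧ χ ^ (l ^ (k + 1)) = 1 ∧ χ ^ (l ^ k) ≠ 1}
  have hSfin : ∀ k, (S k).Finite := fun k => (hF (k + 1)).subset fun χ h => ⟨h.1, h.2.1⟩
  have hSne : ∀ k, (S k).Nonempty := by
    intro k
    -- choose n with l^n > |C[l^k]|
    obtain ⟨n, hn⟩ : ∃ n : ℕ, (hF k).toFinset.card < l ^ n :=
      ⟨_, Nat.lt_pow_self hl.one_lt⟩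
    obtain ⟨T, hT1, hT2⟩ := hmany n
    have : ¬ T ⊆ (hF k).toFinset := by
      intro h
      have := Finset.card_le_card h
      omega
    obtain ⟨χ, hχT, hχ⟩ := Finset.not_subset.1 this
    have hχ1 := (hT2 χ hχT).1
    have hχ2 := (hT2 χ hχT).2
    have hχ3 : χ ^ (l ^ k) ≠ 1 := by
      intro h
      exact hχ ((hF k).mem_toFinset.2 ⟨hχ1, h⟩)
    -- the least j with χ^(l^j) = 1
    have hex : ∃ j, χ ^ (l ^ j) = 1 := ⟨n, hχ2⟩
    obtain ⟨j, hj1, hj2⟩ : ∃ j, χ ^ (l ^ (j + 1)) = 1 ∧ χ ^ (l ^ j) ≠ 1 := by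
      have h0 : Nat.find hex ≠ 0 := by
        intro h
        have := Nat.find_spec hex
        rw [h] at this
        apply hχ3
        rw [pow_zero, pow_one] at this
        rw [this, one_pow]
      obtain ⟨j, hj⟩ := Nat.exists_eq_succ_of_ne_zero h0
      refine ⟨j, ?_, ?_⟩
      · have := Nat.find_spec hex
        rwa [hj] at this
      · exact Nat.find_min hex (by omega)
    have hkj : k ≤ j := by
      by_contra hlt
      push Not at hlt
      apply hχ3
      obtain ⟨d, rfl⟩ := Nat.exists_eq_add_of_lt hlt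
      have : l ^ (j + d + 1) = l ^ (j + 1) * l ^ d := by ring
      rw [this, pow_mul, hj1, one_pow]
    obtain ⟨d, rfl⟩ := Nat.exists_eq_add_of_le hkj
    refine ⟨χ ^ (l ^ d), C.pow_mem hχ1 _, ?_, ?_⟩
    · rw [← pow_mul, ← pow_add]
      have : d + (k + 1) = k + d + 1 := by omega
      rw [this]; exact hj1
    · rw [← pow_mul, ← pow_add, add_comm d k]
      exact hj2
  have : ∀ k, Nonempty (S k) := fun k => (hSne k).to_subtype
  have : Finite (S 0) := (hSfin 0).to_subtype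
  obtain ⟨f, hf⟩ := exists_seq_forall_proj_of_forall_finite (α := fun k => S k)
    (π := fun {i j} hij χ => ⟨(χ : A) ^ (l ^ (j - i)), by
      obtain ⟨h1, h2, h3⟩ := χ.2
      refine ⟨C.pow_mem h1 _, ?_, ?_⟩
      · rw [← pow_mul, ← pow_add]
        have : j - i + (i + 1) = j + 1 := by omega
        rw [this]; exact h2
      · rw [← pow_mul, ← pow_add]
        have : j - i + i = j := by omega
        rw [this]; exact h3⟩)
    (by intro i a; apply Subtype.ext; simp)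
    (by
      intro i j k hij hjk a
      apply Subtype.ext
      change (((a : A) ^ (l ^ (k - j))) ^ (l ^ (j - i)) : A) = (a : A) ^ (l ^ (k - i))
      rw [← pow_mul, ← pow_add]
      congr 2
      omega)
    (by
      intro i a
      have : Finite (S (i + 1)) := (hSfin (i + 1)).to_subtype
      exact Set.toFinite _)
  refine ⟨fun k => if k = 0 then 1 else (f (k - 1) : A), ?_, ?_, ?_, ?_⟩
  · intro k
    by_cases hk : k = 0
    · simp [hk]
    · simp only [hk, if_false]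
      exact (f (k - 1)).2.1
  · intro k
    by_cases hk : k = 0
    · simp [hk]
    · simp only [hk, if_false]
      have := (f (k - 1)).2.2.1
      rwa [Nat.sub_add_cancel (Nat.one_le_iff_ne_zero.2 hk)] at this
  · intro k
    by_cases hk : k = 0
    · subst hk
      simp only [zero_add, one_ne_zero, if_false, if_true, Nat.sub_self]
      have := (f 0).2.2.1
      simpa using this
    · simp only [Nat.succ_ne_zero, if_false, hk, Nat.add_sub_cancel]
      have h := hf (Nat.sub_le k 1)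
      have h2 := congrArg (Subtype.val) h
      have h3 : k - (k - 1) = 1 := by omega
      simpa [h3] using h2
  · simp only [one_ne_zero, if_false, Nat.sub_self]
    have := (f 0).2.2.2
    simpa using this

/-- **compactness, final form**. -/
theorem exists_hom_of_many {G E : Type*} [Group G] [TopologicalSpace G] [IsTopologicalGroup G]
    [Field E] (l : ℕ) [hl : Fact l.Prime]
    (ζ : ℕ → Eˣ) (hζ : ∀ k, IsPrimitiveRoot (ζ k) (l ^ k)) (hcomp : ∀ k, ζ (k + 1) ^ l = ζ k)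
    (C : Subgroup (G →* Eˣ)) (hC : ∀ χ ∈ C, IsOpen ((χ : G →* Eˣ).ker : Set G))
    (hfin : {χ : G →* Eˣ | χ ∈ C ∧ χ ^ l = 1}.Finite)
    (hmany : ∀ n : ℕ, ∃ T : Finset (G →* Eˣ), l ^ n ≤ T.card ∧
      ∀ χ ∈ T, χ ∈ C ∧ χ ^ (l ^ n) = 1) :
    ∃ φ : G →* Multiplicative ℤ_[l], Continuous φ ∧ φ ≠ 1 ∧
      ∀ k, ∃ χ ∈ C, ∀ g, χ g = ζ k ^ ((φ g).toAdd.toZModPow k).val := by
  obtain ⟨χ, h1, h2, h3, h4⟩ := exists_system C l hl.out hfin hmany
  obtain ⟨φ, hφ⟩ := exists_padic_hom l ζ hζ hcomp χ h2 h3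
  refine ⟨φ, continuous_of_reductions l ζ hζ χ (fun k => hC _ (h1 k)) φ hφ, ?_,
    fun k => ⟨χ k, h1 k, hφ k⟩⟩
  rintro rfl
  apply h4
  ext g
  have := hφ 1 g
  rw [this]
  simp

/-- if `χ_k(g') = χ_k(g)⁻¹` for all `k` then `φ(g') = φ(g)⁻¹`. -/
theorem eq_inv_of_reductions {G E : Type*} [Group G] [Field E] (l : ℕ) [hl : Fact l.Prime]
    (ζ : ℕ → Eˣ) (hζ : ∀ k, IsPrimitiveRoot (ζ k) (l ^ k)) (φ : G →* Multiplicative ℤ_[l])
    (g g' : G)
    (h : ∀ k, ζ k ^ ((φ g').toAdd.toZModPow k).val = (ζ k ^ ((φ g).toAdd.toZModPow k).val)⁻¹) :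
    φ g' = (φ g)⁻¹ := by
  have hpos : ∀ k, 0 < l ^ k := fun k => pow_pos hl.out.pos k
  have hne : ∀ k, NeZero (l ^ k) := fun k => ⟨(hpos k).ne'⟩
  have h0 : (φ g').toAdd + (φ g).toAdd = 0 := by
    refine PadicInt.ext_of_toZModPow.1 fun k => ?_
    rw [map_add, map_zero]
    have h1 : ζ k ^ (((φ g').toAdd.toZModPow k).val + ((φ g).toAdd.toZModPow k).val) = 1 := by
      rw [pow_add, h k, inv_mul_cancel]
    have h2 := (hζ k).dvd_of_pow_eq_one _ h1
    rw [← ZMod.natCast_eq_zero_iff] at h2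
    push_cast at h2
    simpa using h2
  rw [eq_inv_iff_mul_eq_one]
  exact h0

end Crest.Agent.R018.ProbeKx658
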