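import Mathlib

set_option autoImplicit false

/-!
Row 18 (helper31): group theory for the existence of ramified Kummer elements.
-/

namespace Crest.Agent.R018.RamGx31

/-- **Extension of characters.**  `H = ⟨g⟩ J`, `κ : J → M` of exponent `l ^ n`,
`κ (g j g⁻¹) = κ j ^ c` with `l ∣ c - 1`, `¬ l ^ n ∣ c - 1`.  Then `κ ^ (l ^ (n - 1))` extends to
`H`. -/
theorem extend_char {H : Type*} [Group H] {J : Subgroup H} [hJ : J.Normal] {M : Type*}
    [CommGroup M] {l n : ℕ} (hl : l.Prime) (hn : 0 < n) (κ : J →* M)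
    (hκ : ∀ j, κ j ^ (l ^ n) = 1) (g : H) (hg : ∀ h : H, ∃ k : ℤ, h * g ^ (-k) ∈ J)
    {c : ℕ} (hc0 : 1 ≤ c) (hc1 : l ∣ c - 1) (hc : ¬ l ^ n ∣ c - 1)
    (hconj : ∀ j : J, κ ⟨g * j * g⁻¹, hJ.conj_mem j j.2 g⟩ = κ j ^ c) :
    ∃ f : H →* M, (∀ j : J, f j = κ j ^ (l ^ (n - 1))) ∧ ∀ h, f h ^ l = 1 := by
  classical
  let κ₁ : J →* M :=
    { toFun := fun j => κ j ^ (l ^ (n - 1))
      map_one' := by simp
      map_mul' := fun a b => by rw [map_mul, mul_pow] }
  have hκ₁ : ∀ j, κ₁ j = κ j ^ (l ^ (n - 1)) := fun _ => rfl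
  have hκ₁l : ∀ j, κ₁ j ^ l = 1 := by
    intro j
    rw [hκ₁, ← pow_mul, ← pow_succ, Nat.sub_add_cancel hn, hκ]
  -- powers of `g` in `J` are killed
  have hkill : ∀ (m : ℤ) (hm : g ^ m ∈ J), κ₁ ⟨g ^ m, hm⟩ = 1 := by
    intro m hm
    have h1 := hconj ⟨g ^ m, hm⟩
    have h2 : (⟨g * (⟨g ^ m, hm⟩ : J) * g⁻¹, hJ.conj_mem _ hm g⟩ : J) = ⟨g ^ m, hm⟩ := by
      apply Subtype.ext
      change g * g ^ m * g⁻¹ = g ^ m
      group
    rw [h2] at h1
    have h3 : κ ⟨g ^ m, hm⟩ ^ (c - 1) = 1 := by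
      have h4 : κ ⟨g ^ m, hm⟩ ^ (c - 1) * κ ⟨g ^ m, hm⟩ = 1 * κ ⟨g ^ m, hm⟩ := by
        rw [← pow_succ, Nat.sub_add_cancel hc0, ← h1, one_mul]
      exact mul_right_cancel h4
    have h5 : orderOf (κ ⟨g ^ m, hm⟩) ∣ c - 1 := orderOf_dvd_of_pow_eq_one h3
    have h6 : orderOf (κ ⟨g ^ m, hm⟩) ∣ l ^ n := orderOf_dvd_of_pow_eq_one (hκ _)
    obtain ⟨a, ha, hord⟩ := (Nat.dvd_prime_pow hl).1 h6
    have h7 : a ≠ n := by
      rintro rfl
      exact hc (hord ▸ h5)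
    rw [hκ₁, ← orderOf_dvd_iff_pow_eq_one, hord]
    exact pow_dvd_pow _ (by omega)
  -- `κ₁` is invariant under conjugation by powers of `g`
  let S : Subgroup H :=
    { carrier := {h | ∀ j : J, κ₁ ⟨h * j * h⁻¹, hJ.conj_mem j j.2 h⟩ = κ₁ j}
      one_mem' := by
        intro j
        congr 1
        apply Subtype.ext
        simp
      mul_mem' := by
        intro a b ha hb j
        have h1 := ha ⟨b * j * b⁻¹, hJ.conj_mem j j.2 b⟩
        rw [hb j] at h1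
        rw [← h1]
        congr 1
        apply Subtype.ext
        simp only [mul_inv_rev]
        group
      inv_mem' := by
        intro a ha j
        have hm : a⁻¹ * (j : H) * a ∈ J := by
          have := hJ.conj_mem j j.2 a⁻¹
          simpa using this
        have h1 := ha ⟨a⁻¹ * j * a, hm⟩
        have h2 : (⟨a * ((⟨a⁻¹ * (j : H) * a, hm⟩ : J) : H) * a⁻¹, hJ.conj_mem _ hm a⟩ : J) = j := by
          apply Subtype.ext
          change a * (a⁻¹ * (j : H) * a) * a⁻¹ = j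
          group
        have h3 : (⟨a⁻¹ * (j : H) * a⁻¹⁻¹, hJ.conj_mem j j.2 a⁻¹⟩ : J) = ⟨a⁻¹ * j * a, hm⟩ := by
          apply Subtype.ext
          change a⁻¹ * (j : H) * a⁻¹⁻¹ = a⁻¹ * j * a
          rw [inv_inv]
        rw [h3, ← h1]
        exact congrArg κ₁ h2 }
  have hgS : g ∈ S := by
    intro j
    rw [hκ₁, hconj, ← pow_mul, mul_comm, pow_mul, ← hκ₁]
    obtain ⟨t, ht⟩ := hc1
    have hct : c = l * t + 1 := by omega
    rw [hct, pow_succ, pow_mul, hκ₁l, one_pow, one_mul]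
  have hinv : ∀ (k : ℤ) (j : J), κ₁ ⟨g ^ k * j * (g ^ k)⁻¹, hJ.conj_mem j j.2 (g ^ k)⟩ = κ₁ j :=
    fun k => S.zpow_mem hgS k
  choose k hk using hg
  have hindep : ∀ (h : H) (m : ℤ) (hm : h * g ^ (-m) ∈ J),
      κ₁ ⟨h * g ^ (-m), hm⟩ = κ₁ ⟨h * g ^ (-k h), hk h⟩ := by
    intro h m hm
    have h1 : g ^ (k h - m) ∈ J := by
      have h2 : g ^ (k h - m) = (h * g ^ (-k h))⁻¹ * (h * g ^ (-m)) := by
        rw [mul_inv_rev, zpow_neg, zpow_neg, inv_inv, sub_eq_add_neg, zpow_add, zpow_neg]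
        group
      rw [h2]
      exact J.mul_mem (J.inv_mem (hk h)) hm
    have h3 : (⟨h * g ^ (-m), hm⟩ : J) = ⟨h * g ^ (-k h), hk h⟩ * ⟨g ^ (k h - m), h1⟩ := by
      apply Subtype.ext
      change h * g ^ (-m) = h * g ^ (-k h) * g ^ (k h - m)
      rw [mul_assoc, ← zpow_add]
      congr 2
      ring
    rw [h3, map_mul, hkill, mul_one]
  let f : H →* M :=
    { toFun := fun h => κ₁ ⟨h * g ^ (-k h), hk h⟩
      map_one' := by
        have h1 : (1 : H) * g ^ (-(0 : ℤ)) ∈ J := by simp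
        rw [← hindep 1 0 h1]
        have h2 : (⟨(1 : H) * g ^ (-(0 : ℤ)), h1⟩ : J) = 1 := by
          apply Subtype.ext
          simp
        rw [h2, map_one]
      map_mul' := by
        intro a b
        have h1 : a * b * g ^ (-(k a + k b)) ∈ J := by
          have h2 : a * b * g ^ (-(k a + k b)) =
              (a * g ^ (-k a)) * (g ^ (k a) * (b * g ^ (-k b)) * (g ^ (k a))⁻¹) := by
            rw [neg_add_rev, zpow_add, zpow_neg, zpow_neg]
            group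
          rw [h2]
          exact J.mul_mem (hk a) (hJ.conj_mem _ (hk b) _)
        rw [← hindep (a * b) (k a + k b) h1]
        have h3 : (⟨a * b * g ^ (-(k a + k b)), h1⟩ : J) =
            ⟨a * g ^ (-k a), hk a⟩ * ⟨g ^ (k a) * (⟨b * g ^ (-k b), hk b⟩ : J) * (g ^ (k a))⁻¹,
              hJ.conj_mem _ (hk b) _⟩ := by
          apply Subtype.ext
          change a * b * g ^ (-(k a + k b)) =
              (a * g ^ (-k a)) * (g ^ (k a) * (b * g ^ (-k b)) * (g ^ (k a))⁻¹)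
          rw [neg_add_rev, zpow_add, zpow_neg, zpow_neg]
          group
        rw [h3, map_mul, hinv] }
  refine ⟨f, fun j => ?_, fun h => hκ₁l _⟩
  have h1 : (j : H) * g ^ (-(0 : ℤ)) ∈ J := by simp
  change κ₁ ⟨j * g ^ (-k j), hk j⟩ = _
  rw [← hindep j 0 h1, ← hκ₁]
  congr 1
  apply Subtype.ext
  simp

/-- homomorphisms on `zpowers g` -/
theorem exists_zpowers_char {G : Type*} [Group G] {M : Type*} [CommGroup M] (g : G) (m : M)
    (h : ∀ k : ℤ, g ^ k = 1 → m ^ k = 1) :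
    ∃ χ : Subgroup.zpowers g →* M, ∀ (k : ℤ) (hk : g ^ k ∈ Subgroup.zpowers g),
      χ ⟨g ^ k, hk⟩ = m ^ k := by
  classical
  have hind : ∀ i j : ℤ, g ^ i = g ^ j → m ^ i = m ^ j := by
    intro i j hij
    have h1 : g ^ (i - j) = 1 := by rw [zpow_sub, hij, mul_inv_cancel]
    have h2 := h _ h1
    rwa [zpow_sub, mul_inv_eq_one] at h2
  choose k hk using fun x : Subgroup.zpowers g => Subgroup.mem_zpowers_iff.1 x.2
  refine ⟨{ toFun := fun x => m ^ (k x)
            map_one' := ?_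
            map_mul' := fun a b => ?_ }, fun i hi => ?_⟩
  · have : m ^ (k 1) = m ^ (0 : ℤ) := hind _ _ (by rw [hk 1]; simp)
    rw [this, zpow_zero]
  · rw [← zpow_add]
    apply hind
    rw [zpow_add, hk, hk, hk]
    rfl
  · exact hind _ _ (hk _)

end Crest.Agent.R018.RamGx31
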