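import Mathlib
import Crest.Agent.R018.RamG_31
import Crest.Agent.R018.TameE_31

set_option autoImplicit false

/-!
Row 18 (helper31): no `l`-torsion in `Gal(E/F)` if `E` is closed under `l`-th roots (`l` odd), in
finite level form.
-/

namespace Crest.Agent.R018.RamTx31

open Crest.Agent.R018.RamGx31 Crest.Agent.R018.Tamex31

variable {F E : Type*} [Field F] [Field E] [Algebra F E] [IsGalois F E]

/-- `l` divides the order of `g` in some finite quotient -/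
def OrdDvd (l : ℕ) (g : E ≃ₐ[F] E) : Prop :=
  ∃ N : Subgroup (E ≃ₐ[F] E), N.Normal ∧ IsOpen (N : Set (E ≃ₐ[F] E)) ∧
    ∀ n : ℕ, g ^ n ∈ N → l ∣ n

theorem exists_normal_fix (S : Finset E) :
    ∃ N : Subgroup (E ≃ₐ[F] E), N.Normal ∧ IsOpen (N : Set (E ≃ₐ[F] E)) ∧
      ∀ g ∈ N, ∀ y ∈ S, g y = y := by
  have h1 : IsOpen ((⨅ y ∈ S, MulAction.stabilizer (E ≃ₐ[F] E) y : Subgroup (E ≃ₐ[F] E)) :
      Set (E ≃ₐ[F] E)) := by
    rw [Subgroup.coe_iInf]
    simp only [Subgroup.coe_iInf]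
    exact S.finite_toSet.isOpen_biInter fun y _ => stabilizer_isOpen_of_isIntegral y
  obtain ⟨N, hN⟩ := ProfiniteGrp.exist_openNormalSubgroup_sub_open_nhds_of_one h1
    (Subgroup.one_mem _)
  refine ⟨N.toSubgroup, inferInstance, N.isOpen', fun g hg y hy => ?_⟩
  have h2 := hN hg
  simp only [SetLike.mem_coe, Subgroup.mem_iInf] at h2
  exact MulAction.mem_stabilizer_iff.1 (h2 y hy)

theorem zpow_mem_iff_dvd {l : ℕ} {g : E ≃ₐ[F] E} {N : Subgroup (E ≃ₐ[F] E)}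
    (hN : ∀ n : ℕ, g ^ n ∈ N → l ∣ n) (k : ℤ) (hk : g ^ k ∈ N) : (l : ℤ) ∣ k := by
  obtain ⟨n, rfl | rfl⟩ := k.eq_nat_or_neg
  · rw [zpow_natCast] at hk
    exact_mod_cast hN n hk
  · rw [zpow_neg, zpow_natCast] at hk
    have := hN n (by simpa using N.inv_mem hk)
    rw [dvd_neg]
    exact_mod_cast this

theorem ordDvd_step {l : ℕ} (hl : l.Prime) (hl2 : l ≠ 2) {ζ : E} (hζ : IsPrimitiveRoot ζ l)
    (hroot : ∀ y : E, ∃ z, z ^ l = y) {g : E ≃ₐ[F] E} (hgζ : g ζ = ζ) (hg : OrdDvd l g) :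
    OrdDvd l (g ^ l) := by
  classical
  have hl0 : l ≠ 0 := hl.ne_zero
  have : NeZero l := ⟨hl0⟩
  obtain ⟨N, hNn, hNo, hN⟩ := hg
  have hζ0 : ζ ≠ 0 := hζ.ne_zero hl0
  have hζl : Units.mk0 ζ hζ0 ^ l = 1 := by
    apply Units.ext
    rw [Units.val_pow_eq_pow_val, Units.val_mk0, hζ.pow_eq_one, Units.val_one]
  have hfixμ : ∀ z : E, z ^ l = 1 → g z = z := by
    intro z hz
    obtain ⟨i, -, rfl⟩ := hζ.eq_pow_of_pow_eq_one hz
    rw [map_pow, hgζ]
  -- the Kummer element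
  obtain ⟨χ, hχ⟩ := exists_zpowers_char g (Units.mk0 ζ hζ0) (by
    intro k hk
    obtain ⟨j, rfl⟩ := zpow_mem_iff_dvd hN k (by rw [hk]; exact N.one_mem)
    rw [zpow_mul, zpow_natCast, hζl, one_zpow])
  have hχl : ∀ x, χ x ^ l = 1 := by
    rintro ⟨x, hx⟩
    obtain ⟨k, rfl⟩ := Subgroup.mem_zpowers_iff.1 hx
    rw [hχ, ← zpow_natCast, ← zpow_mul, mul_comm, zpow_mul, zpow_natCast, hζl, one_zpow]
  obtain ⟨y, hy0, hy⟩ := exists_resolvent χ (by
    have h1 := (krullTopology_mem_nhds_one_iff F E (N : Set (E ≃ₐ[F] E))).1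
      (hNo.mem_nhds N.one_mem)
    obtain ⟨L, hLfin, hL⟩ := h1
    refine ⟨L, hLfin, ?_⟩
    rintro ⟨x, hx⟩ hu
    obtain ⟨k, rfl⟩ := Subgroup.mem_zpowers_iff.1 hx
    have h2 : g ^ k ∈ N := hL (fun z => hu z z.2)
    obtain ⟨j, rfl⟩ := zpow_mem_iff_dvd hN k h2
    rw [hχ, zpow_mul, zpow_natCast, hζl, one_zpow]) (by
    rintro ⟨x, hx⟩ z
    obtain ⟨k, rfl⟩ := Subgroup.mem_zpowers_iff.1 hx
    have h1 : g ∈ MulAction.stabilizer (E ≃ₐ[F] E) ((χ z : Eˣ) : E) := by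
      apply hfixμ
      rw [← Units.val_pow_eq_pow_val, hχl, Units.val_one]
    exact (MulAction.stabilizer (E ≃ₐ[F] E) ((χ z : Eˣ) : E)).zpow_mem h1 k)
  have hgy : g y = ζ * y := by
    have h1 := hy ⟨g, Subgroup.mem_zpowers g⟩
    have h2 := hχ 1 (by simp)
    have h3 : (⟨g ^ (1 : ℤ), by simp⟩ : Subgroup.zpowers g) = ⟨g, Subgroup.mem_zpowers g⟩ := by
      apply Subtype.ext
      simp
    rw [h3, zpow_one] at h2
    rw [h2] at h1
    exact h1
  have hgiy : ∀ i : ℕ, (g ^ i) y = ζ ^ i * y := by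
    intro i
    induction i with
    | zero => simp
    | succ i ih =>
      rw [pow_succ', AlgEquiv.mul_apply, ih, map_mul, map_pow, hgζ, hgy]
      ring
  obtain ⟨θ, hθ⟩ := hroot y
  have hθ0 : θ ≠ 0 := by
    rintro rfl
    rw [zero_pow hl0] at hθ
    exact hy0 hθ.symm
  by_contra hcon
  -- `g ^ l` fixes `θ`
  set ω := (g ^ l) θ / θ with hω
  have hωl : ω ^ l = 1 := by
    rw [hω, div_pow, ← map_pow, hθ, hgiy, hζ.pow_eq_one, one_mul, div_self hy0]
  have hgω : (g ^ l) ω = ω := by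
    have h1 : g ∈ MulAction.stabilizer (E ≃ₐ[F] E) ω := hfixμ ω hωl
    exact (MulAction.stabilizer (E ≃ₐ[F] E) ω).pow_mem h1 l
  have hglθ : (g ^ l) θ = ω * θ := by rw [hω, div_mul_cancel₀ _ hθ0]
  have hpow : ∀ n : ℕ, ((g ^ l) ^ n) θ = ω ^ n * θ := by
    intro n
    induction n with
    | zero => simp
    | succ n ih =>
      rw [pow_succ', AlgEquiv.mul_apply, ih, map_mul, map_pow, hgω, hglθ]
      ring
  have hω1 : ω = 1 := by
    obtain ⟨N', hN'n, hN'o, hN'⟩ := exists_normal_fix (F := F) ({θ} : Finset E)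
    have h1 : ¬ ∀ n : ℕ, (g ^ l) ^ n ∈ N' → l ∣ n := fun h => hcon ⟨N', hN'n, hN'o, h⟩
    push Not at h1
    obtain ⟨n, hn, hln⟩ := h1
    have h2 := hN' _ hn θ (by simp)
    rw [hpow] at h2
    have h3 : ω ^ n = 1 := mul_right_cancel₀ hθ0 (h2.trans (one_mul θ).symm)
    have h4 : orderOf ω ∣ 1 := by
      have h5 : Nat.Coprime l n := (Nat.Prime.coprime_iff_not_dvd hl).2 hln
      rw [← h5]
      exact Nat.dvd_gcd (orderOf_dvd_of_pow_eq_one hωl) (orderOf_dvd_of_pow_eq_one h3)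
    rw [Nat.dvd_one, orderOf_eq_one_iff] at h4
    exact h4
  rw [hω1, one_mul] at hglθ
  -- the norm of `θ`
  set Θ := ∏ i ∈ Finset.range l, (g ^ i) θ with hΘ
  have hgΘ : g Θ = Θ := by
    rw [hΘ, map_prod]
    have h1 : ∀ i, g ((g ^ i) θ) = (g ^ (i + 1)) θ := by
      intro i
      rw [pow_succ', AlgEquiv.mul_apply]
    simp_rw [h1]
    have h2 := Finset.prod_range_succ (fun i => (g ^ i) θ) l
    have h3 := Finset.prod_range_succ' (fun i => (g ^ i) θ) l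
    rw [h2, hglθ] at h3
    rw [pow_zero, AlgEquiv.one_apply] at h3
    exact (mul_right_cancel₀ hθ0 h3).symm
  have hΘl : Θ ^ l = y ^ l := by
    rw [hΘ, ← Finset.prod_pow]
    have h1 : ∀ i, ((g ^ i) θ) ^ l = ζ ^ i * y := by
      intro i
      rw [← map_pow, hθ, hgiy]
    simp_rw [h1]
    rw [Finset.prod_mul_distrib, Finset.prod_pow_eq_pow_sum, Finset.prod_const, Finset.card_range,
      Finset.sum_range_id]
    have h2 : l ∣ l * (l - 1) / 2 := by
      have hodd : l % 2 = 1 := by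
        rcases hl.eq_two_or_odd with h | h
        · exact absurd h hl2
        · exact h
      have h3 : 2 ∣ l - 1 := by omega
      rw [Nat.mul_div_assoc _ h3]
      exact dvd_mul_right _ _
    obtain ⟨t, ht⟩ := h2
    rw [ht, pow_mul, hζ.pow_eq_one, one_pow, one_mul]
  have h1 : (Θ / y) ^ l = 1 := by rw [div_pow, hΘl, div_self (pow_ne_zero _ hy0)]
  have h2 := hfixμ _ h1
  have hΘ0 : Θ ≠ 0 := by
    intro h
    rw [h, zero_pow hl0] at hΘl
    exact pow_ne_zero l hy0 hΘl.symm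
  rw [map_div₀, hgΘ, hgy] at h2
  have h3 : ζ = 1 := by
    field_simp at h2
    exact h2.symm
  rw [h3] at hζ
  exact hl.one_lt.ne' (hζ.unique IsPrimitiveRoot.one)

/-- no `l`-torsion, finite level form -/
theorem no_torsion {l : ℕ} (hl : l.Prime) (hl2 : l ≠ 2) {ζ : E} (hζ : IsPrimitiveRoot ζ l)
    (hroot : ∀ y : E, ∃ z, z ^ l = y) {g : E ≃ₐ[F] E} (hg : OrdDvd l g) (k : ℕ) (hk : 0 < k) :
    OrdDvd l (g ^ k) := by
  have : NeZero l := ⟨hl.ne_zero⟩
  -- replace `g` by a power fixing `ζ`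
  obtain ⟨r, hr, hgr⟩ : ∃ r : ℕ, ¬ l ∣ r ∧ (g ^ r) ζ = ζ := by
    refine ⟨l - 1, ?_, ?_⟩
    · intro h
      have := Nat.le_of_dvd (by have := hl.two_le; omega) h
      have := hl.two_le
      omega
    · obtain ⟨a, -, ha⟩ := hζ.eq_pow_of_pow_eq_one (ξ := g ζ) (by
        rw [← map_pow, hζ.pow_eq_one, map_one])
      have h1 : ∀ i : ℕ, (g ^ i) ζ = ζ ^ (a ^ i) := by
        intro i
        induction i with
        | zero => simp
        | succ i ih =>
          rw [pow_succ', AlgEquiv.mul_apply, ih, map_pow, ← ha, ← pow_mul, ← pow_succ']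
      have hal : Nat.Coprime a l := by
        rw [Nat.coprime_comm, Nat.Prime.coprime_iff_not_dvd hl]
        rintro ⟨b, rfl⟩
        rw [pow_mul, hζ.pow_eq_one, one_pow] at ha
        have h2 : ζ = 1 := by
          apply g.injective
          rw [← ha, map_one]
        rw [h2] at hζ
        exact hl.one_lt.ne' (hζ.unique IsPrimitiveRoot.one)
      rw [h1]
      have h2 : a ^ (l - 1) ≡ 1 [MOD l] := by
        have := Nat.ModEq.pow_totient hal
        rwa [Nat.totient_prime hl] at this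
      have h3 : ζ ^ (a ^ (l - 1)) = ζ ^ 1 := by
        have h4 : ∀ b : ℕ, ζ ^ b = ζ ^ (b % l) := by
          intro b
          conv_lhs => rw [← Nat.div_add_mod b l, pow_add, pow_mul, hζ.pow_eq_one, one_pow, one_mul]
        rw [h4, h2, ← h4]
      rw [h3, pow_one]
  have h1 : OrdDvd l (g ^ r) := by
    obtain ⟨N, hNn, hNo, hN⟩ := hg
    refine ⟨N, hNn, hNo, fun n hn => ?_⟩
    rw [← pow_mul] at hn
    exact ((Nat.Prime.dvd_mul hl).1 (hN _ hn)).resolve_left hr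
  have h2 : ∀ a : ℕ, OrdDvd l ((g ^ r) ^ (l ^ a)) := by
    intro a
    induction a with
    | zero => simpa using h1
    | succ a ih =>
      rw [pow_succ, pow_mul]
      refine ordDvd_step hl hl2 hζ hroot ?_ ih
      have : g ^ r ∈ MulAction.stabilizer (E ≃ₐ[F] E) ζ := hgr
      exact (MulAction.stabilizer (E ≃ₐ[F] E) ζ).pow_mem this _
  obtain ⟨a, m, hm, hkm⟩ := Nat.exists_eq_pow_mul_and_not_dvd hk.ne' l hl.ne_one
  obtain ⟨N, hNn, hNo, hN⟩ := h2 a
  refine ⟨N, hNn, hNo, fun n hn => ?_⟩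
  have h3 : ((g ^ r) ^ (l ^ a)) ^ (m * n) ∈ N := by
    have h4 : ((g ^ r) ^ (l ^ a)) ^ (m * n) = ((g ^ k) ^ n) ^ r := by
      rw [← pow_mul, ← pow_mul, ← pow_mul, ← pow_mul, hkm]
      congr 1
      ring
    rw [h4]
    exact N.pow_mem hn r
  exact ((Nat.Prime.dvd_mul hl).1 (hN _ h3)).resolve_left hm

end Crest.Agent.R018.RamTx31
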