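import Mathlib
import Crest.Prelude.Def_SolvClosed
import Crest.Agent.R018.RedA_49

/-! R018 reductions (helper49), part B: the general statement S0024 follows from the core form in
which `E₁ = AlgebraicClosure ℚ` and `α` is surjective. -/

set_option autoImplicit false

universe u₁ u₂ v₁ v₂

open Crest.NumberTheoryR Polynomial

namespace Crest.Agent.R018.Redx49

/-- `AlgebraicClosure ℚ` -/
abbrev Om : Type := AlgebraicClosure ℚ

/-- The core form of S0024: `E₁ = AlgebraicClosure ℚ`, `α` continuous and surjective. -/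
def CoreForm : Prop :=
  ∀ (F₁ : Type u₁) (F₂ : Type u₂) (E₂ : Type v₂) [Field F₁] [NumberField F₁] [Field F₂]
    [NumberField F₂] [Field E₂] [Algebra F₂ E₂] [IsGalois F₂ E₂] [Algebra F₁ Om],
    IsSolvablyClosed E₂ →
    ∀ α : (Om ≃ₐ[F₁] Om) →* (E₂ ≃ₐ[F₂] E₂), Continuous α → Function.Surjective α →
      ∃ j : E₂ →+* Om, ∀ (g : Om ≃ₐ[F₁] Om) (x : E₂), g (j x) = j (α g x)

theorem algQ : Algebra.IsAlgebraic ℚ Om := by
  have h : @Algebra.IsAlgebraic ℚ Om _ _ (AlgebraicClosure.instAlgebra (k := ℚ)) :=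
    AlgebraicClosure.isAlgebraic ℚ
  convert h
  exact Subsingleton.elim _ _

section surj

variable {F₂ E₂ : Type*} [Field F₂] [NumberField F₂] [Field E₂] [Algebra F₂ E₂] [IsGalois F₂ E₂]

/-- Replace the target group by the range of `α`. -/
theorem exists_surjective {G : Type*} [Group G] [TopologicalSpace G] [IsTopologicalGroup G]
    (α : G →* (E₂ ≃ₐ[F₂] E₂)) (hα : Continuous α) (hopen : IsOpen (Set.range α)) :
    ∃ F₂' : IntermediateField F₂ E₂, FiniteDimensional F₂ F₂' ∧ NumberField F₂' ∧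
      ∃ α' : G →* (E₂ ≃ₐ[F₂'] E₂), Continuous α' ∧ Function.Surjective α' ∧
        ∀ (g : G) (x : E₂), α' g x = α g x := by
  have hopen' : IsOpen (α.range : Set (E₂ ≃ₐ[F₂] E₂)) := by
    rw [MonoidHom.coe_range]; exact hopen
  have hclosed : IsClosed (α.range : Set (E₂ ≃ₐ[F₂] E₂)) :=
    Subgroup.isClosed_of_isOpen _ hopen'
  let H : ClosedSubgroup (E₂ ≃ₐ[F₂] E₂) := ⟨α.range, hclosed⟩
  let F' : IntermediateField F₂ E₂ := IntermediateField.fixedField H.1
  have hfix : F'.fixingSubgroup = α.range := InfiniteGalois.fixingSubgroup_fixedField H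
  have hfin : FiniteDimensional F₂ F' := by
    rw [← InfiniteGalois.isOpen_iff_finite]
    change IsOpen (F'.fixingSubgroup : Set (E₂ ≃ₐ[F₂] E₂))
    rw [hfix]; exact hopen'
  have hnf : NumberField F' := NumberField.of_module_finite F₂ F'
  refine ⟨F', hfin, hnf, ?_⟩
  have hmem : ∀ g : G, α g ∈ F'.fixingSubgroup := fun g => by rw [hfix]; exact ⟨g, rfl⟩
  let α' : G →* (E₂ ≃ₐ[F'] E₂) :=
    (IntermediateField.fixingSubgroupEquiv F').toMonoidHom.comp (α.codRestrict _ hmem)
  have happ : ∀ (g : G) (x : E₂), α' g x = α g x := fun g x => rfl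
  refine ⟨α', ?_, ?_, happ⟩
  · apply continuous_of_eval
    intro x
    have h1 := eval_mem_nhds (K := F₂) x
    have h2 : Filter.Tendsto α (nhds 1) (nhds 1) := by
      have := hα.tendsto 1
      rwa [map_one] at this
    refine Filter.mem_of_superset (h2 h1) ?_
    intro g hg
    exact hg
  · intro σ
    obtain ⟨τ, hτ⟩ := (IntermediateField.fixingSubgroupEquiv F').surjective σ
    have : (τ : E₂ ≃ₐ[F₂] E₂) ∈ α.range := by rw [← hfix]; exact τ.2
    obtain ⟨g, hg⟩ := this
    refine ⟨g, ?_⟩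
    rw [← hτ]
    apply AlgEquiv.ext
    intro x
    rw [happ, hg]
    rfl

end surj

/-- **Reduction**: the general statement S0024 follows from the core form. -/
theorem of_coreForm (core : CoreForm.{u₁, v₂, v₂})
    (F₁ : Type u₁) (F₂ : Type u₂) (E₁ : Type v₁) (E₂ : Type v₂) [Field F₁] [NumberField F₁]
    [Field F₂] [NumberField F₂] [Field E₁] [Algebra F₁ E₁] [IsGalois F₁ E₁] [Field E₂]
    [Algebra F₂ E₂] [IsGalois F₂ E₂] (h₂ : IsSolvablyClosed E₂)
    (α : (E₁ ≃ₐ[F₁] E₁) →* (E₂ ≃ₐ[F₂] E₂)) (hα : Continuous α) (hopen : IsOpen (Set.range α)) :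
    ∃ j : E₂ →+* E₁, ∀ g : E₁ ≃ₐ[F₁] E₁, ∀ x : E₂, g (j x) = j (α g x) := by
  have : CharZero E₁ := charZero_of_injective_algebraMap (algebraMap F₁ E₁).injective
  have : Algebra.IsAlgebraic ℚ E₁ := Algebra.IsAlgebraic.trans ℚ F₁ E₁
  let i₁ : E₁ →ₐ[ℚ] Om := IsAlgClosed.lift
  let _ : Algebra E₁ Om := (i₁ : E₁ →+* Om).toAlgebra
  let _ : Algebra F₁ Om := ((i₁ : E₁ →+* Om).comp (algebraMap F₁ E₁)).toAlgebra
  have : IsScalarTower F₁ E₁ Om := IsScalarTower.of_algebraMap_eq fun _ => rfl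
  have : IsScalarTower ℚ F₁ Om := IsScalarTower.rat
  have : IsScalarTower ℚ E₁ Om := IsScalarTower.rat
  have : Algebra.IsAlgebraic ℚ Om := algQ
  have : Algebra.IsAlgebraic F₁ Om := Algebra.IsAlgebraic.tower_top (K := ℚ) F₁
  have : Algebra.IsAlgebraic E₁ Om := Algebra.IsAlgebraic.tower_top (K := ℚ) E₁
  have : IsAlgClosure F₁ Om := ⟨inferInstance, inferInstance⟩
  have : IsAlgClosure E₁ Om := ⟨inferInstance, inferInstance⟩
  have : CharZero F₁ := inferInstance
  have : Normal F₁ Om := IsAlgClosure.normal F₁ Om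
  have : Normal E₁ Om := IsAlgClosure.normal E₁ Om
  have : IsGalois E₁ Om := ⟨⟩
  let r : (Om ≃ₐ[F₁] Om) →* (E₁ ≃ₐ[F₁] E₁) := AlgEquiv.restrictNormalHom E₁
  have hrc : ∀ (g : Om ≃ₐ[F₁] Om) (x : E₁), algebraMap E₁ Om (r g x) = g (algebraMap E₁ Om x) :=
    fun g x => AlgEquiv.restrictNormal_commutes g E₁ x
  have hrs : Function.Surjective r := AlgEquiv.restrictNormalHom_surjective Om
  have hrcont : Continuous r := by
    apply continuous_of_eval
    intro x
    refine Filter.mem_of_superset (eval_mem_nhds (K := F₁) (algebraMap E₁ Om x)) ?_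
    intro g hg
    rw [Set.mem_ofPred_eq] at hg ⊢
    apply (algebraMap E₁ Om).injective
    rw [hrc, hg]
  have hopen' : IsOpen (Set.range (α.comp r)) := by
    have : Set.range (α.comp r) = Set.range α := by
      rw [MonoidHom.coe_comp]; exact hrs.range_comp α
    rw [this]; exact hopen
  obtain ⟨F₂', _, _, α', hc', hs', happ⟩ :=
    exists_surjective (α.comp r) (hα.comp hrcont) hopen'
  obtain ⟨j, hj⟩ := core F₁ F₂' E₂ h₂ α' hc' hs'
  have hj' : ∀ (g : Om ≃ₐ[F₁] Om) (x : E₂), g (j x) = j (α (r g) x) := by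
    intro g x
    rw [hj, happ]; rfl
  have hmem : ∀ x : E₂, j x ∈ (algebraMap E₁ Om).range := by
    intro x
    rw [RingHom.mem_range]
    have := (InfiniteGalois.mem_range_algebraMap_iff_fixed (k := E₁) (K := Om) (j x)).mpr ?_
    · exact this
    intro f
    have h1 : r (f.restrictScalars F₁) = 1 := by
      apply AlgEquiv.ext
      intro y
      apply (algebraMap E₁ Om).injective
      rw [hrc]
      exact f.commutes y
    have h2 := hj' (f.restrictScalars F₁) x
    rw [h1, map_one] at h2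
    exact h2
  let e : E₁ ≃+* (algebraMap E₁ Om).range :=
    RingEquiv.ofBijective (algebraMap E₁ Om).rangeRestrict
      ⟨fun a b hab => (algebraMap E₁ Om).injective (congrArg Subtype.val hab),
        (algebraMap E₁ Om).rangeRestrict_surjective⟩
  let j' : E₂ →+* E₁ := (e.symm : (algebraMap E₁ Om).range →+* E₁).comp
    (j.codRestrict (algebraMap E₁ Om).range hmem)
  have hj'' : ∀ x : E₂, algebraMap E₁ Om (j' x) = j x := by
    intro x
    have : e (j' x) = ⟨j x, hmem x⟩ := e.apply_symm_apply _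
    exact congrArg Subtype.val this
  refine ⟨j', ?_⟩
  intro g x
  obtain ⟨g', rfl⟩ := hrs g
  apply (algebraMap E₁ Om).injective
  rw [hrc, hj'', hj'', hj']

end Crest.Agent.R018.Redx49
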