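import Mathlib

/-!
# Row 18: valuations from rigid elements (helper931)

`T ≤ H` subgroups of `Fˣ`, `-1 ∈ T`, `Fˣ/H` has no element of order two, every `x ∉ H` is
`T`-rigid (`1 + x ∈ T ∪ x T`).  Then there is a valuation subring `A` of `F` with
unit group contained in `H` and `1 + m_A ⊆ T`.
-/

set_option autoImplicit false

namespace Crest.Agent.R018.Rig1x931

variable {F : Type*} [Field F]

/-- membership of a field element in a subgroup of the unit group -/
def In (S : Subgroup Fˣ) (x : F) : Prop := ∃ u ∈ S, (u : F) = x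

theorem In.ne_zero {S : Subgroup Fˣ} {x : F} (h : In S x) : x ≠ 0 := by
  obtain ⟨u, -, rfl⟩ := h
  exact u.ne_zero

theorem in_coe {S : Subgroup Fˣ} {u : Fˣ} : In S (u : F) ↔ u ∈ S := by
  constructor
  · rintro ⟨v, hv, h⟩
    rwa [Units.ext h] at hv
  · intro h
    exact ⟨u, h, rfl⟩

theorem in_one {S : Subgroup Fˣ} : In S (1 : F) := ⟨1, S.one_mem, rfl⟩

theorem In.mul {S : Subgroup Fˣ} {x y : F} (hx : In S x) (hy : In S y) : In S (x * y) := by
  obtain ⟨u, hu, rfl⟩ := hx
  obtain ⟨v, hv, rfl⟩ := hy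
  exact ⟨u * v, S.mul_mem hu hv, by simp⟩

theorem In.inv {S : Subgroup Fˣ} {x : F} (hx : In S x) : In S x⁻¹ := by
  obtain ⟨u, hu, rfl⟩ := hx
  exact ⟨u⁻¹, S.inv_mem hu, by simp⟩

theorem In.div {S : Subgroup Fˣ} {x y : F} (hx : In S x) (hy : In S y) : In S (x / y) := by
  rw [div_eq_mul_inv]
  exact hx.mul hy.inv

theorem In.mono {S S' : Subgroup Fˣ} (h : S ≤ S') {x : F} (hx : In S x) : In S' x := by
  obtain ⟨u, hu, rfl⟩ := hx
  exact ⟨u, h hu, rfl⟩

theorem in_mul_left {S : Subgroup Fˣ} {x y : F} (hx : In S x) : In S (x * y) ↔ In S y := by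
  constructor
  · intro h
    have := hx.inv.mul h
    rwa [inv_mul_cancel_left₀ hx.ne_zero] at this
  · exact hx.mul

theorem in_mul_right {S : Subgroup Fˣ} {x y : F} (hy : In S y) : In S (x * y) ↔ In S x := by
  rw [mul_comm]
  exact in_mul_left hy

theorem in_inv {S : Subgroup Fˣ} {x : F} : In S x⁻¹ ↔ In S x := by
  constructor
  · intro h
    simpa using h.inv
  · exact In.inv

/-- the hypotheses of the main construction -/
structure Rigid (T H : Subgroup Fˣ) : Prop where
  le : T ≤ H
  neg_one : In T (-1 : F)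
  sq : ∀ x : F, In H (x * x) → In H x
  rig : ∀ x : F, x ≠ 0 → ¬ In H x → In T (1 + x) ∨ In T ((1 + x) / x)

variable {T H : Subgroup Fˣ}

theorem In.neg (hR : Rigid T H) {x : F} (hx : In T x) : In T (-x) := by
  have := hR.neg_one.mul hx
  simpa using this

theorem In.negH (hR : Rigid T H) {x : F} (hx : In H x) : In H (-x) := by
  have := (hR.neg_one.mono hR.le).mul hx
  simpa using this

theorem in_negH (hR : Rigid T H) {x : F} : In H (-x) ↔ In H x := by
  constructor
  · intro h
    simpa using h.negH hR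
  · exact In.negH hR

/-- small elements outside `H` -/
def Om (T H : Subgroup Fˣ) (x : F) : Prop := x ≠ 0 ∧ ¬ In H x ∧ In T (1 + x)

/-- integral elements of `H` -/
def Op (T H : Subgroup Fˣ) (x : F) : Prop := In H x ∧ ∀ z, Om T H z → Om T H (x * z)

/-- rigidity for `t₁ + t₂ x` -/
theorem Rigid.rig2 (hR : Rigid T H) {a b x : F} (ha : In T a) (hb : In T b) (hx0 : x ≠ 0)
    (hx : ¬ In H x) : In T (a + b * x) ∨ In T ((a + b * x) / x) := by
  have h1 : b / a * x ≠ 0 := mul_ne_zero (div_ne_zero hb.ne_zero ha.ne_zero) hx0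
  have h2 : ¬ In H (b / a * x) := by
    rw [in_mul_left ((hb.div ha).mono hR.le)]
    exact hx
  have ha0 := ha.ne_zero
  have hb0 := hb.ne_zero
  rcases hR.rig _ h1 h2 with h | h
  · left
    have := ha.mul h
    have e : a * (1 + b / a * x) = a + b * x := by field_simp
    rwa [e] at this
  · right
    have := hb.mul h
    have e : b * ((1 + b / a * x) / (b / a * x)) = (a + b * x) / x := by field_simp
    rwa [e] at this

/-- uniqueness: the alternative in rigidity is exclusive -/
theorem excl (hR : Rigid T H) {c x : F} (hx0 : x ≠ 0) (hx : ¬ In H x) (h1 : In T c)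
    (h2 : In T (c / x)) : False := by
  apply hx
  have := (h1.div h2).mono hR.le
  have hc := h1.ne_zero
  have e : c / (c / x) = x := by field_simp
  rwa [e] at this

theorem not_om_inv (hR : Rigid T H) {x : F} (h1 : Om T H x) (h2 : Om T H x⁻¹) : False := by
  refine excl hR h1.1 h1.2.1 h1.2.2 ?_
  have e : (1 + x) / x = 1 + x⁻¹ := by
    have := h1.1
    field_simp
    ring
  rw [e]
  exact h2.2.2

theorem om_or_inv (hR : Rigid T H) {x : F} (hx0 : x ≠ 0) (hx : ¬ In H x) :
    Om T H x ∨ Om T H x⁻¹ := by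
  rcases hR.rig x hx0 hx with h | h
  · exact Or.inl ⟨hx0, hx, h⟩
  · refine Or.inr ⟨inv_ne_zero hx0, by rwa [in_inv], ?_⟩
    have e : (1 + x) / x = 1 + x⁻¹ := by
      field_simp
      ring
    rwa [e] at h

theorem Om.neg (hR : Rigid T H) {x : F} (h : Om T H x) : Om T H (-x) := by
  obtain ⟨hx0, hx, h1⟩ := h
  refine ⟨neg_ne_zero.mpr hx0, by rwa [in_negH hR], ?_⟩
  have hx' : ¬ In H (-x) := by rwa [in_negH hR]
  rcases hR.rig (-x) (neg_ne_zero.mpr hx0) hx' with h2 | h2
  · exact h2
  · exfalso
    -- `(1+x)(1-x) = 1 - x² ∈ x T`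
    have h3 : In T ((1 - x * x) / (-x)) := by
      have := h1.mul h2
      have e : (1 + x) * ((1 + -x) / -x) = (1 - x * x) / (-x) := by ring
      rwa [e] at this
    have hxx : ¬ In H (x * x) := fun h => hx (hR.sq x h)
    have hxx' : ¬ In H (-(x * x)) := by rwa [in_negH hR]
    have hxx0 : -(x * x) ≠ 0 := neg_ne_zero.mpr (mul_ne_zero hx0 hx0)
    rcases hR.rig _ hxx0 hxx' with h4 | h4
    · have h5 := (h4.div h3).mono hR.le
      have hne : 1 - x * x ≠ 0 := by
        have := h4.ne_zero
        intro h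
        apply this
        rw [← h]
        ring
      have e : (1 + -(x * x)) / ((1 - x * x) / (-x)) = -x := by
        rw [← sub_eq_add_neg, div_div_eq_mul_div, mul_comm, mul_div_assoc, div_self hne, mul_one]
      rw [e] at h5
      exact hx' h5
    · have h5 := (h3.div h4).mono hR.le
      have hne : 1 - x * x ≠ 0 := by
        intro h
        apply h3.ne_zero
        rw [h]
        simp
      have e : (1 - x * x) / (-x) / ((1 + -(x * x)) / -(x * x)) = x := by
        rw [← sub_eq_add_neg]
        generalize 1 - x * x = c at hne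
        field_simp
      rw [e] at h5
      exact hx h5

theorem om_mul (hR : Rigid T H) {x y : F} (hx : Om T H x) (hy : Om T H y)
    (hxy : ¬ In H (x * y)) : Om T H (x * y) := by
  have hxn := hx.neg hR
  have hyn := hy.neg hR
  have hx0 := hx.1
  have hy0 := hy.1
  refine ⟨mul_ne_zero hx0 hy0, hxy, ?_⟩
  rcases hR.rig _ (mul_ne_zero hx0 hy0) hxy with h | h
  · exact h
  exfalso
  -- `1 + xy = (1 - x) + x (1 + y)`
  have h1 : In T (1 + x * y) ∨ In T ((1 + x * y) / x) := by
    have := hR.rig2 (a := 1 - x) (b := 1 + y) (x := x)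
      (by simpa [sub_eq_add_neg] using hxn.2.2) hy.2.2 hx0 hx.2.1
    have e : (1 - x) + (1 + y) * x = 1 + x * y := by ring
    rwa [e] at this
  rcases h1 with h1 | h1
  · exact excl hR (mul_ne_zero hx0 hy0) hxy h1 h
  · have := (h1.div h).mono hR.le
    have hne : 1 + x * y ≠ 0 := by
      intro h0
      apply h1.ne_zero
      rw [h0]; simp
    have e : (1 + x * y) / x / ((1 + x * y) / (x * y)) = y := by field_simp
    rw [e] at this
    exact hy.2.1 this

theorem op_mul_of_om (hR : Rigid T H) {x y : F} (hx : Om T H x) (hy : Om T H y)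
    (hxy : In H (x * y)) : Op T H (x * y) := by
  refine ⟨hxy, fun z hz => ?_⟩
  have hxyz : ¬ In H (x * y * z) := by
    rw [in_mul_left hxy]
    exact hz.2.1
  by_cases hxz : In H (x * z)
  · -- then `y z ∉ H`
    have hyz : ¬ In H (y * z) := by
      intro hyz
      apply hz.2.1
      apply hR.sq
      have := (hxz.mul hyz).div hxy
      have e : x * z * (y * z) / (x * y) = z * z := by
        have := hx.1
        have := hy.1
        field_simp
      rwa [e] at this
    have h1 := om_mul hR hy hz hyz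
    have h2 := om_mul hR hx h1 (by rwa [← mul_assoc])
    rwa [← mul_assoc] at h2
  · have h1 := om_mul hR hx hz hxz
    have h2 := om_mul hR h1 hy (by
      have e : x * z * y = x * y * z := by ring
      rwa [e])
    have e : x * z * y = x * y * z := by ring
    rwa [e] at h2

theorem op_one_add (hR : Rigid T H) {x : F} (hx : Om T H x) : Op T H (1 + x) := by
  refine ⟨hx.2.2.mono hR.le, fun y hy => ?_⟩
  have hx0 := hx.1
  have hy0 := hy.1
  have hxy' : ¬ In H ((1 + x) * y) := by
    rw [in_mul_left (hx.2.2.mono hR.le)]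
    exact hy.2.1
  refine ⟨mul_ne_zero hx.2.2.ne_zero hy0, hxy', ?_⟩
  -- in `T ∪ y T`
  have h1 : In T (1 + (1 + x) * y) ∨ In T ((1 + (1 + x) * y) / y) :=
    hR.rig2 in_one hx.2.2 hy0 hy.2.1
  rcases h1 with h1 | h1
  · exact h1
  exfalso
  have hne : 1 + (1 + x) * y ≠ 0 := by
    intro h0
    apply h1.ne_zero
    rw [h0]; simp
  by_cases hxy : In H (x * y)
  · -- `1 + (1+x) y = (1+x)(1+y) - x`
    have h2 : In T (1 + (1 + x) * y) ∨ In T ((1 + (1 + x) * y) / (-x)) := by
      have := hR.rig2 (a := (1 + x) * (1 + y)) (b := 1) (x := -x) (hx.2.2.mul hy.2.2) in_one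
        (neg_ne_zero.mpr hx0) (by rw [in_negH hR]; exact hx.2.1)
      have e : (1 + x) * (1 + y) + 1 * -x = 1 + (1 + x) * y := by ring
      rwa [e] at this
    rcases h2 with h2 | h2
    · exact excl hR hy0 hy.2.1 h2 h1
    · apply hy.2.1
      apply hR.sq
      -- `y / x ∈ H`, `x y ∈ H`
      have h3 := (h2.div h1).mono hR.le
      have e : (1 + (1 + x) * y) / (-x) / ((1 + (1 + x) * y) / y) = -(y / x) := by
        field_simp
      rw [e, in_negH hR] at h3
      have := h3.mul hxy
      have e : y / x * (x * y) = y * y := by field_simp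
      rwa [e] at this
  · have h2 : In T (1 + (1 + x) * y) ∨ In T ((1 + (1 + x) * y) / (x * y)) := by
      have := hR.rig2 (a := 1 + y) (b := 1) (x := x * y) hy.2.2 in_one
        (mul_ne_zero hx0 hy0) hxy
      have e : 1 + y + 1 * (x * y) = 1 + (1 + x) * y := by ring
      rwa [e] at this
    rcases h2 with h2 | h2
    · exact excl hR hy0 hy.2.1 h2 h1
    · apply hx.2.1
      have h3 := (h1.div h2).mono hR.le
      have e : (1 + (1 + x) * y) / y / ((1 + (1 + x) * y) / (x * y)) = x := by
        field_simp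
      rwa [e] at h3

theorem op_one_add_inv (hR : Rigid T H) {x : F} (hx : Om T H x) : Op T H (1 + x)⁻¹ := by
  have h1 := hx.2.2.ne_zero
  have h : Om T H (-(x / (1 + x))) := by
    refine ⟨neg_ne_zero.mpr (div_ne_zero hx.1 h1), ?_, ?_⟩
    · rw [in_negH hR, div_eq_mul_inv, in_mul_right (hx.2.2.mono hR.le).inv]
      exact hx.2.1
    · have e : 1 + -(x / (1 + x)) = (1 + x)⁻¹ := by
        field_simp
        ring
      rw [e]
      exact hx.2.2.inv
  have := op_one_add hR h
  have e : 1 + -(x / (1 + x)) = (1 + x)⁻¹ := by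
    field_simp
    ring
  rwa [e] at this

theorem Op.mul {x y : F} (hx : Op T H x) (hy : Op T H y) : Op T H (x * y) := by
  refine ⟨hx.1.mul hy.1, fun z hz => ?_⟩
  rw [mul_assoc]
  exact hx.2 _ (hy.2 _ hz)

theorem op_one : Op T H (1 : F) := ⟨in_one, fun z hz => by rwa [one_mul]⟩

theorem op_neg_one (hR : Rigid T H) : Op T H (-1 : F) :=
  ⟨hR.neg_one.mono hR.le, fun z hz => by simpa using hz.neg hR⟩

/-- the valuation ring as a predicate -/
def O (T H : Subgroup Fˣ) (x : F) : Prop := x = 0 ∨ Om T H x ∨ Op T H x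

theorem Op.ne_zero {x : F} (hx : Op T H x) : x ≠ 0 := hx.1.ne_zero

theorem o_mul (hR : Rigid T H) {x y : F} (hx : O T H x) (hy : O T H y) : O T H (x * y) := by
  rcases hx with rfl | hx | hx
  · left; simp
  · rcases hy with rfl | hy | hy
    · left; simp
    · by_cases h : In H (x * y)
      · exact Or.inr (Or.inr (op_mul_of_om hR hx hy h))
      · exact Or.inr (Or.inl (om_mul hR hx hy h))
    · right; left
      rw [mul_comm]
      exact hy.2 _ hx
  · rcases hy with rfl | hy | hy
    · left; simp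
    · right; left
      exact hx.2 _ hy
    · exact Or.inr (Or.inr (hx.mul hy))

theorem o_or_inv (hR : Rigid T H) (x : F) : O T H x ∨ O T H x⁻¹ := by
  by_cases hx0 : x = 0
  · left; left; exact hx0
  by_cases hx : In H x
  · by_contra hcon
    push Not at hcon
    obtain ⟨h1, h2⟩ := hcon
    have h1' : ¬ Op T H x := fun h => h1 (Or.inr (Or.inr h))
    have h2' : ¬ Op T H x⁻¹ := fun h => h2 (Or.inr (Or.inr h))
    unfold Op at h1' h2'
    push Not at h1' h2'
    obtain ⟨a, ha, hxa⟩ := h1' hx
    obtain ⟨b, hb, hxb⟩ := h2' hx.inv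
    have ha0 := ha.1
    have hb0 := hb.1
    have hxaH : ¬ In H (x * a) := by
      rw [in_mul_left hx]; exact ha.2.1
    have hxbH : ¬ In H (x⁻¹ * b) := by
      rw [in_mul_left hx.inv]; exact hb.2.1
    have hA : Om T H (x * a)⁻¹ :=
      (om_or_inv hR (mul_ne_zero hx0 ha0) hxaH).resolve_left hxa
    have hB : Om T H (x⁻¹ * b)⁻¹ :=
      (om_or_inv hR (mul_ne_zero (inv_ne_zero hx0) hb0) hxbH).resolve_left hxb
    by_cases hab : In H (a * b)
    · -- `a⁻¹ x⁻¹ b ∉ H`
      have h3 : ¬ In H ((x * a)⁻¹ * b) := by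
        intro h3
        apply hb.2.1
        apply hR.sq
        have := (h3.mul hx).mul hab
        have e : (x * a)⁻¹ * b * x * (a * b) = b * b := by field_simp
        rwa [e] at this
      have h4 := om_mul hR hA hb h3
      have e : (x * a)⁻¹ * b * (x⁻¹ * b)⁻¹ = a⁻¹ := by field_simp
      have h5 : ¬ In H ((x * a)⁻¹ * b * (x⁻¹ * b)⁻¹) := by
        rw [e, in_inv]; exact ha.2.1
      have h6 := om_mul hR h4 hB h5
      rw [e] at h6
      exact not_om_inv hR ha h6
    · have h3 := om_mul hR ha hb hab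
      have e : (x * a)⁻¹ * (x⁻¹ * b)⁻¹ = (a * b)⁻¹ := by field_simp
      have h4 := om_mul hR hA hB (by rw [e, in_inv]; exact hab)
      rw [e] at h4
      exact not_om_inv hR h3 h4
  · rcases om_or_inv hR hx0 hx with h | h
    · exact Or.inl (Or.inr (Or.inl h))
    · exact Or.inr (Or.inr (Or.inl h))

theorem o_one_add (hR : Rigid T H) {x : F} (hx : O T H x) : O T H (1 + x) := by
  rcases hx with rfl | hx | hx
  · right; right; simpa using op_one
  · exact Or.inr (Or.inr (op_one_add hR hx))
  · by_cases h0 : 1 + x = 0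
    · left; exact h0
    by_cases h1 : In H (1 + x)
    · right; right
      refine ⟨h1, fun y hy => ?_⟩
      have hy0 := hy.1
      have hxy := hx.2 _ hy
      refine ⟨mul_ne_zero h0 hy0, by rw [in_mul_left h1]; exact hy.2.1, ?_⟩
      have h2 := (op_one_add_inv hR hy).2 _ hxy
      have h3 := hy.2.2.mul h2.2.2
      have hne := hy.2.2.ne_zero
      have e : (1 + y) * (1 + (1 + y)⁻¹ * (x * y)) = 1 + (1 + x) * y := by
        field_simp
        ring
      rwa [e] at h3
    · right; left
      rcases om_or_inv hR h0 h1 with h2 | h2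
      · exact h2
      · exfalso
        have h3 := hx.2 _ h2
        -- `1 - y = x y`
        have h4 := (h2.neg hR).2.2
        have e : 1 + -(1 + x)⁻¹ = x * (1 + x)⁻¹ := by
          field_simp
          ring
        rw [e] at h4
        exact h3.2.1 (h4.mono hR.le)

theorem o_add (hR : Rigid T H) {x y : F} (hx : O T H x) (hy : O T H y) : O T H (x + y) := by
  by_cases hy0 : y = 0
  · simpa [hy0] using hx
  by_cases hx0 : x = 0
  · simpa [hx0] using hy
  rcases o_or_inv hR (x / y) with h | h
  · have := o_mul hR hy (o_one_add hR h)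
    have e : y * (1 + x / y) = x + y := by field_simp; ring
    rwa [e] at this
  · have := o_mul hR hx (o_one_add hR h)
    have e : x * (1 + (x / y)⁻¹) = x + y := by field_simp
    rwa [e] at this

/-- the valuation subring attached to rigid data -/
def ring (hR : Rigid T H) : ValuationSubring F where
  carrier := {x | O T H x}
  mul_mem' := fun {_ _} ha hb => o_mul hR ha hb
  one_mem' := Or.inr (Or.inr op_one)
  add_mem' := fun {_ _} ha hb => o_add hR ha hb
  zero_mem' := Or.inl rfl
  neg_mem' := fun {x} hx => by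
    have := o_mul hR (Or.inr (Or.inr (op_neg_one hR)) : O T H (-1)) hx
    simpa using this
  mem_or_inv_mem' := o_or_inv hR

theorem mem_ring (hR : Rigid T H) (x : F) : x ∈ ring hR ↔ O T H x := Iff.rfl

/-- units lie in `H` -/
theorem unit_in (hR : Rigid T H) {x : F} (hx0 : x ≠ 0) (h1 : x ∈ ring hR) (h2 : x⁻¹ ∈ ring hR) :
    In H x := by
  by_contra hx
  have hxi : ¬ In H x⁻¹ := by rwa [in_inv]
  have a : Om T H x := by
    rcases h1 with h | h | h
    · exact absurd h hx0
    · exact h
    · exact absurd h.1 hx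
  have b : Om T H x⁻¹ := by
    rcases h2 with h | h | h
    · exact absurd h (inv_ne_zero hx0)
    · exact h
    · exact absurd h.1 hxi
  exact not_om_inv hR a b

/-- one-units lie in `T` -/
theorem one_add_in (hR : Rigid T H) {x : F} (h1 : x ∈ ring hR) (h2 : x = 0 ∨ x⁻¹ ∉ ring hR) :
    In T (1 + x) := by
  rcases h1 with rfl | h | h
  · simpa using in_one
  · exact h.2.2
  · have hx0 := h.ne_zero
    have h3 : x⁻¹ ∉ ring hR := h2.resolve_left hx0
    have h4 : ¬ Op T H x⁻¹ := fun hh => h3 (Or.inr (Or.inr hh))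
    unfold Op at h4
    push Not at h4
    obtain ⟨y, hy, hxy⟩ := h4 h.1.inv
    have hy0 := hy.1
    have hH : ¬ In H (x⁻¹ * y) := by
      rw [in_mul_left h.1.inv]; exact hy.2.1
    have ha : Om T H (x⁻¹ * y)⁻¹ :=
      (om_or_inv hR (mul_ne_zero (inv_ne_zero hx0) hy0) hH).resolve_left hxy
    set a := (x⁻¹ * y)⁻¹ with hadef
    have hax : a * y = x := by
      rw [hadef]
      field_simp
    have ha' := ha.neg hR
    have h5 : Om T H ((1 + -a)⁻¹ * a) := (op_one_add_inv hR ha').2 _ ha
    have h6 : Om T H ((1 + y) * ((1 + -a)⁻¹ * a)) := (op_one_add hR hy).2 _ h5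
    have h7 := ha'.2.2.mul h6.2.2
    have hne := ha'.2.2.ne_zero
    have e : (1 + -a) * (1 + (1 + y) * ((1 + -a)⁻¹ * a)) = 1 + a * y := by
      field_simp
      ring
    rwa [e, hax] at h7

/-- **rigid elements give a valuation** -/
theorem exists_valuationSubring {T H : Subgroup Fˣ} (hR : Rigid T H) :
    ∃ A : ValuationSubring F, A.unitGroup ≤ H ∧ A.principalUnitGroup ≤ T := by
  refine ⟨ring hR, ?_, ?_⟩
  · intro u hu
    rw [ValuationSubring.mem_unitGroup_iff] at hu
    have h1 : (u : F) ∈ ring hR := by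
      rw [← ValuationSubring.valuation_le_one_iff, hu]
    have h2 : (u : F)⁻¹ ∈ ring hR := by
      rw [← ValuationSubring.valuation_le_one_iff, map_inv₀, hu]
      simp
    exact in_coe.mp (unit_in hR u.ne_zero h1 h2)
  · intro u hu
    rw [ValuationSubring.mem_principalUnitGroup_iff] at hu
    have h1 : (u : F) - 1 ∈ (ring hR).nonunits := by
      rwa [ValuationSubring.mem_nonunits_iff]
    have h2 : (u : F) - 1 ∈ ring hR := ValuationSubring.nonunits_le h1
    rw [ValuationSubring.mem_nonunits_iff_or] at h1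
    have h3 := one_add_in hR h2 h1
    have e : 1 + ((u : F) - 1) = u := by ring
    rw [e] at h3
    exact in_coe.mp h3

end Crest.Agent.R018.Rig1x931
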