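import Crest.Agent.R018.Rig1_931

/-!
# Row 18: from `1 - x ∈ ⟨x⟩ T` to a valuation (helper931)

`l` an odd prime, `T` a subgroup of `Fˣ` containing all `l`-th powers, `Fˣ/T` not cyclic,
and `1 - x ∈ ⟨x⟩ T` for every `x ∉ T`.  Then there are a subgroup `H ≠ ⊤` containing `T` and a
valuation subring `A` with `Aˣ ≤ H` and `1 + m_A ≤ T`.
-/

set_option autoImplicit false

namespace Crest.Agent.R018.Rig2x931

open Crest.Agent.R018.Rig1x931

variable {F : Type*} [Field F]

theorem In.zpow {S : Subgroup Fˣ} {x : F} (hx : In S x) (n : ℤ) : In S (x ^ n) := by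
  obtain ⟨u, hu, rfl⟩ := hx
  exact ⟨u ^ n, S.zpow_mem hu n, by simp⟩

section
variable {T : Subgroup Fˣ} {l : ℕ} [hl : Fact l.Prime]

theorem zpow_dvd (hT : ∀ x : F, x ≠ 0 → In T (x ^ l)) {x : F} (hx0 : x ≠ 0) {n : ℤ}
    (hn : (l : ℤ) ∣ n) : In T (x ^ n) := by
  obtain ⟨k, rfl⟩ := hn
  rw [zpow_mul, zpow_natCast]
  exact In.zpow (hT x hx0) k

theorem dvd_of_zpow (hT : ∀ x : F, x ≠ 0 → In T (x ^ l)) {x : F} (hx0 : x ≠ 0)
    (hx : ¬ In T x) {n : ℤ} (h : In T (x ^ n)) : (l : ℤ) ∣ n := by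
  by_contra hn
  have hp : Prime (l : ℤ) := Nat.prime_iff_prime_int.mp hl.out
  have hc : IsCoprime (l : ℤ) n := (Prime.coprime_iff_not_dvd hp).mpr hn
  obtain ⟨u, v, huv⟩ := hc
  apply hx
  have h1 : In T (x ^ (u * l + v * n)) := by
    rw [zpow_add₀ hx0]
    refine (zpow_dvd hT hx0 (Dvd.intro_left u rfl)).mul ?_
    rw [mul_comm v n, zpow_mul]
    exact In.zpow h v
  rw [huv, zpow_one] at h1
  exact h1

/-- `1 - x ∈ x ^ k T` -/
def Ex (T : Subgroup Fˣ) (x : F) (k : ℤ) : Prop := In T ((1 - x) / x ^ k)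

/-- independence modulo `T` and `l` -/
def Ind (T : Subgroup Fˣ) (l : ℕ) (x y : F) : Prop :=
  ∀ m n : ℤ, In T (x ^ m * y ^ n) → (l : ℤ) ∣ m ∧ (l : ℤ) ∣ n

theorem Ind.left {x y : F} (h : Ind T l x y) : ¬ In T x := by
  intro hx
  have := (h 1 0 (by simpa using hx)).1
  have h2 := hl.out.one_lt
  have h3 := Int.le_of_dvd one_pos this
  omega

theorem Ind.right {x y : F} (h : Ind T l x y) : ¬ In T y := by
  intro hx
  have := (h 0 1 (by simpa using hx)).2
  have h2 := hl.out.one_lt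
  have h3 := Int.le_of_dvd one_pos this
  omega

theorem Ind.mul {x y : F} (h : Ind T l x y) : ¬ In T (x * y) := by
  intro hx
  have := (h 1 1 (by simpa using hx)).1
  have h2 := hl.out.one_lt
  have h3 := Int.le_of_dvd one_pos this
  omega

/-- exceptional elements: `x ∉ T` and the exponent is neither `0` nor `1` -/
def Bad (T : Subgroup Fˣ) (l : ℕ) (x : F) (i : ZMod l) : Prop :=
  x ≠ 0 ∧ ¬ In T x ∧ i ≠ 0 ∧ i ≠ 1 ∧ ∃ k : ℤ, (k : ZMod l) = i ∧ Ex T x k

theorem key (hT : ∀ x : F, x ≠ 0 → In T (x ^ l)) (hneg : In T (-1 : F))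
    (hE : ∀ x : F, x ≠ 0 → ¬ In T x → ∃ k : ℤ, Ex T x k)
    {x y : F} {i j : ZMod l} (hx : Bad T l x i) (hy : Bad T l y j) (hxy : Ind T l x y) :
    i + j - 1 ≠ 0 ∧ Bad T l (x * y) (i * j / (i + j - 1)) := by
  obtain ⟨hx0, hxT, hi0, hi1, i', hi', hxi⟩ := hx
  obtain ⟨hy0, hyT, hj0, hj1, j', hj', hyj⟩ := hy
  have h1x : 1 - x ≠ 0 := by
    intro h
    apply hxi.ne_zero
    simp [h]
  have h1y : 1 - y ≠ 0 := by
    intro h
    apply hyj.ne_zero
    simp [h]
  have hxyT : ¬ In T (x * y) := hxy.mul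
  have hxy0 : x * y ≠ 0 := mul_ne_zero hx0 hy0
  obtain ⟨k, hk⟩ := hE (x * y) hxy0 hxyT
  -- the auxiliary element
  set w : F := -(x * (1 - y) / (1 - x)) with hw
  have hw0 : w ≠ 0 := by
    rw [hw]
    exact neg_ne_zero.mpr (div_ne_zero (mul_ne_zero hx0 h1y) h1x)
  -- class of `w`
  have hwc : In T (w / (x ^ (1 - i') * y ^ j')) := by
    have h := (hneg.mul hyj).div hxi
    have e : -1 * ((1 - y) / y ^ j') / ((1 - x) / x ^ i') = w / (x ^ (1 - i') * y ^ j') := by
      rw [hw, zpow_sub₀ hx0, zpow_one]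
      have := zpow_ne_zero i' hx0
      have := zpow_ne_zero j' hy0
      field_simp
    rwa [e] at h
  have hwT : ¬ In T w := by
    intro h
    have h2 := h.div hwc
    have e : w / (w / (x ^ (1 - i') * y ^ j')) = x ^ (1 - i') * y ^ j' := by
      have := zpow_ne_zero (1 - i') hx0
      have := zpow_ne_zero j' hy0
      field_simp
    rw [e] at h2
    have h3 := (hxy _ _ h2).1
    apply hi1
    have h4 : ((1 - i' : ℤ) : ZMod l) = 0 := (ZMod.intCast_zmod_eq_zero_iff_dvd _ _).mpr h3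
    rw [Int.cast_sub, hi', Int.cast_one, sub_eq_zero] at h4
    exact h4.symm
  obtain ⟨m, hm⟩ := hE w hw0 hwT
  have h1w : 1 - w = (1 - x * y) / (1 - x) := by
    rw [hw]
    field_simp
    ring
  have h1xy : 1 - x * y ≠ 0 := by
    intro h
    apply hk.ne_zero
    simp [h]
  -- compare exponents
  have hrel : In T (x ^ (k - i' - (1 - i') * m) * y ^ (k - j' * m)) := by
    have h := (hm.div hk).mul ((In.zpow hwc m).mul hxi)
    have h' := h.inv
    have a1 := zpow_ne_zero i' hx0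
    have a2 := zpow_ne_zero k hx0
    have a3 := zpow_ne_zero k hy0
    have a4 := zpow_ne_zero m hw0
    have a5 := zpow_ne_zero ((1 - i') * m) hx0
    have a6 := zpow_ne_zero (j' * m) hy0
    have e : ((1 - w) / w ^ m / ((1 - x * y) / (x * y) ^ k) *
        ((w / (x ^ (1 - i') * y ^ j')) ^ m * ((1 - x) / x ^ i')))⁻¹ =
        (x ^ (k - i' - (1 - i') * m) * y ^ (k - j' * m))⁻¹ := by
      congr 1
      rw [h1w, div_zpow, mul_zpow, mul_zpow, ← zpow_mul, ← zpow_mul, zpow_sub₀ hx0, zpow_sub₀ hx0,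
        zpow_sub₀ hy0]
      field_simp
    rw [e] at h'
    simpa using h'.inv
  obtain ⟨d1, d2⟩ := hxy _ _ hrel
  have e1 : ((k - i' - (1 - i') * m : ℤ) : ZMod l) = 0 :=
    (ZMod.intCast_zmod_eq_zero_iff_dvd _ _).mpr d1
  have e2 : ((k - j' * m : ℤ) : ZMod l) = 0 := (ZMod.intCast_zmod_eq_zero_iff_dvd _ _).mpr d2
  push_cast at e1 e2
  rw [hi'] at e1
  rw [hj'] at e2
  set K : ZMod l := (k : ZMod l) with hK
  set M : ZMod l := (m : ZMod l) with hM
  have e3 : M * (i + j - 1) = i := by linear_combination e1 - e2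
  have hij : i + j - 1 ≠ 0 := by
    intro h
    rw [h, mul_zero] at e3
    exact hi0 e3.symm
  have e4 : K * (i + j - 1) = i * j := by
    have : K = j * M := by linear_combination e2
    rw [this, mul_assoc, e3]
    ring
  have e5 : K = i * j / (i + j - 1) := by
    rw [eq_div_iff hij]
    exact e4
  refine ⟨hij, hxy0, hxyT, ?_, ?_, k, ?_, hk⟩
  · exact div_ne_zero (mul_ne_zero hi0 hj0) hij
  · intro h
    rw [div_eq_one_iff_eq hij] at h
    have : (i - 1) * (j - 1) = 0 := by linear_combination h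
    rcases mul_eq_zero.mp this with h | h
    · exact hi1 (sub_eq_zero.mp h)
    · exact hj1 (sub_eq_zero.mp h)
  · exact e5

theorem Bad.inv (hneg : In T (-1 : F)) {x : F} {i : ZMod l} (hx : Bad T l x i) :
    Bad T l x⁻¹ (1 - i) := by
  obtain ⟨hx0, hxT, hi0, hi1, i', hi', hxi⟩ := hx
  refine ⟨inv_ne_zero hx0, by rwa [in_inv], ?_, ?_, 1 - i', by push_cast; rw [hi'], ?_⟩
  · intro h
    exact hi1 (sub_eq_zero.mp h).symm
  · intro h
    apply hi0
    linear_combination -h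
  · have h := hneg.mul hxi
    have e : -1 * ((1 - x) / x ^ i') = (1 - x⁻¹) / x⁻¹ ^ (1 - i') := by
      rw [inv_zpow', zpow_neg, zpow_sub₀ hx0, zpow_one]
      have := zpow_ne_zero i' hx0
      field_simp
      ring
    unfold Ex
    rwa [e] at h

/-- two exceptional elements are dependent -/
theorem not_ind (hT : ∀ x : F, x ≠ 0 → In T (x ^ l)) (hneg : In T (-1 : F))
    (hE : ∀ x : F, x ≠ 0 → ¬ In T x → ∃ k : ℤ, Ex T x k)
    {a b : F} {i j : ZMod l} (ha : Bad T l a i) (hb : Bad T l b j) (hab : Ind T l a b) : False := by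
  have ha0 := ha.1
  have hb0 := hb.1
  have hi0 : i ≠ 0 := ha.2.2.1
  have hi1 : i ≠ 1 := ha.2.2.2.1
  have hj0 : j ≠ 0 := hb.2.2.1
  -- `a ^ n b` is exceptional with `g = g(a)^n g(b)`
  have hind : ∀ n : ℕ, Ind T l a (a ^ n * b) := by
    intro n p q h
    have e : a ^ p * (a ^ n * b) ^ q = a ^ (p + n * q) * b ^ q := by
      rw [mul_zpow, zpow_add₀ ha0, zpow_mul, zpow_natCast]
      ring
    rw [e] at h
    obtain ⟨h1, h2⟩ := hab _ _ h
    refine ⟨?_, h2⟩
    have := dvd_mul_of_dvd_right h2 (n : ℤ)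
    exact (dvd_add_left this).mp h1
  have hseq : ∀ n : ℕ, ∃ k : ZMod l, Bad T l (a ^ n * b) k ∧
      (k - 1) / k = ((i - 1) / i) ^ n * ((j - 1) / j) := by
    intro n
    induction n with
    | zero => exact ⟨j, by simpa using hb, by simp⟩
    | succ n ih =>
      obtain ⟨k, hk, hk2⟩ := ih
      have hk0 : k ≠ 0 := hk.2.2.1
      obtain ⟨h1, h2⟩ := key hT hneg hE ha hk (hind n)
      refine ⟨_, by
        have e : a * (a ^ n * b) = a ^ (n + 1) * b := by ring
        rw [e] at h2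
        exact h2, ?_⟩
      rw [pow_succ', mul_assoc, ← hk2]
      field_simp
      ring
  obtain ⟨k, hk, hk2⟩ := hseq (l - 1)
  have hg : (i - 1) / i ≠ 0 := div_ne_zero (sub_ne_zero.mpr hi1) hi0
  have hk0 : k ≠ 0 := hk.2.2.1
  rw [ZMod.pow_card_sub_one_eq_one hg, one_mul] at hk2
  have hkj : k = j := by
    rw [div_eq_div_iff hk0 hj0] at hk2
    linear_combination hk2
  rw [hkj] at hk
  have hbi := hb.inv hneg
  have hind2 : Ind T l (a ^ (l - 1) * b) b⁻¹ := by
    intro p q h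
    have e : (a ^ (l - 1) * b) ^ p * b⁻¹ ^ q = a ^ (((l - 1 : ℕ) : ℤ) * p) * b ^ (p - q) := by
      rw [mul_zpow, zpow_mul, zpow_natCast, inv_zpow', zpow_neg, zpow_sub₀ hb0]
      ring
    rw [e] at h
    obtain ⟨h1, h2⟩ := hab _ _ h
    have h3 : (l : ℤ) ∣ p := by
      have h4 : ((l - 1 : ℕ) : ℤ) * p = l * p - p := by
        rw [Nat.cast_sub hl.out.one_lt.le]
        push_cast
        ring
      rw [h4] at h1
      exact (dvd_sub_right (dvd_mul_right _ _)).mp h1
    exact ⟨h3, (dvd_sub_right h3).mp h2⟩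
  have := (key hT hneg hE hk hbi hind2).1
  apply this
  ring

/-- the rigid pair attached to `T` -/
theorem exists_rigid (hl2 : l ≠ 2) (hT : ∀ x : F, x ≠ 0 → In T (x ^ l))
    (hE : ∀ x : F, x ≠ 0 → ¬ In T x → ∃ k : ℤ, Ex T x k)
    (hnc : ∀ a : Fˣ, T ⊔ Subgroup.zpowers a ≠ ⊤) :
    ∃ H : Subgroup Fˣ, Rigid T H ∧ H ≠ ⊤ := by
  have hodd : Odd l := hl.out.odd_of_ne_two hl2
  have hneg : In T (-1 : F) := by
    have := hT (-1) (neg_ne_zero.mpr one_ne_zero)
    rwa [hodd.neg_one_pow] at this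
  -- it is enough to find `a` with no exceptional elements outside `⟨a⟩ T`
  suffices h : ∃ a : Fˣ, ∀ (x : F) (i : ZMod l), Bad T l x i → In (T ⊔ Subgroup.zpowers a) x by
    obtain ⟨a, ha⟩ := h
    refine ⟨T ⊔ Subgroup.zpowers a, ⟨le_sup_left, hneg, ?_, ?_⟩, hnc a⟩
    · intro x hxx
      have hx0 : x ≠ 0 := by
        intro h
        apply hxx.ne_zero
        simp [h]
      obtain ⟨c, hc⟩ := hodd
      have h1 : In (T ⊔ Subgroup.zpowers a) (x ^ l) := (hT x hx0).mono le_sup_left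
      have h2 := h1.div (In.zpow hxx c)
      have e : x ^ l / (x * x) ^ (c : ℤ) = x := by
        rw [hc, zpow_natCast, pow_succ, pow_mul, mul_comm, pow_two]
        have := pow_ne_zero c (mul_ne_zero hx0 hx0)
        field_simp
      rwa [e] at h2
    · intro x hx0 hx
      -- apply the hypothesis to `-x`
      have hnx0 : -x ≠ 0 := neg_ne_zero.mpr hx0
      have hnx : ¬ In (T ⊔ Subgroup.zpowers a) (-x) := by
        intro h
        apply hx
        have := (hneg.mono le_sup_left).mul h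
        simpa using this
      have hnxT : ¬ In T (-x) := fun h => hnx (h.mono le_sup_left)
      obtain ⟨k, hk⟩ := hE (-x) hnx0 hnxT
      have hk' : ((k : ZMod l) = 0) ∨ ((k : ZMod l) = 1) := by
        by_contra hcon
        push Not at hcon
        exact hnx (ha (-x) k ⟨hnx0, hnxT, hcon.1, hcon.2, k, rfl, hk⟩)
      rcases hk' with h | h
      · left
        have hd := (ZMod.intCast_zmod_eq_zero_iff_dvd _ _).mp h
        have h1 := hk.mul (zpow_dvd hT hnx0 hd)
        have e : (1 - -x) / (-x) ^ k * (-x) ^ k = 1 + x := by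
          have := zpow_ne_zero k hnx0
          field_simp
          ring
        rwa [e] at h1
      · right
        have hd : (l : ℤ) ∣ k - 1 := by
          rw [← ZMod.intCast_zmod_eq_zero_iff_dvd]
          push_cast
          rw [h]
          ring
        have h1 := (hneg.mul hk).mul (zpow_dvd hT hnx0 hd)
        have e : -1 * ((1 - -x) / (-x) ^ k) * (-x) ^ (k - 1) = (1 + x) / x := by
          rw [zpow_sub₀ hnx0, zpow_one]
          have := zpow_ne_zero k hnx0
          field_simp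
          ring
        rwa [e] at h1
  by_cases hS : ∃ (a : F) (i : ZMod l), Bad T l a i
  · obtain ⟨a, i, ha⟩ := hS
    refine ⟨Units.mk0 a ha.1, fun x j hx => ?_⟩
    by_contra hcon
    apply not_ind hT hneg hE ha hx
    intro m n h
    have hx0 := hx.1
    have hn : (l : ℤ) ∣ n := by
      by_contra hn
      have hp : Prime (l : ℤ) := Nat.prime_iff_prime_int.mp hl.out
      obtain ⟨u, v, huv⟩ := (Prime.coprime_iff_not_dvd hp).mpr hn
      apply hcon
      have h1 : In (T ⊔ Subgroup.zpowers (Units.mk0 a ha.1)) (x ^ (u * l + v * n)) := by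
        rw [zpow_add₀ hx0]
        refine ((zpow_dvd hT hx0 (Dvd.intro_left u rfl)).mono le_sup_left).mul ?_
        have h2 := (In.zpow h v).mono (le_sup_left : T ≤ T ⊔ Subgroup.zpowers (Units.mk0 a ha.1))
        have h3 : In (T ⊔ Subgroup.zpowers (Units.mk0 a ha.1)) a :=
          ⟨Units.mk0 a ha.1, (le_sup_right : Subgroup.zpowers (Units.mk0 a ha.1) ≤ _)
            (Subgroup.mem_zpowers _), rfl⟩
        have h4 := h2.div (In.zpow h3 (m * v))
        have e : (a ^ m * x ^ n) ^ v / a ^ (m * v) = x ^ (v * n) := by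
          rw [mul_zpow, ← zpow_mul, ← zpow_mul, mul_comm n v]
          have := zpow_ne_zero (m * v) ha.1
          field_simp
        rwa [e] at h4
      rw [huv, zpow_one] at h1
      exact h1
    refine ⟨?_, hn⟩
    apply dvd_of_zpow hT ha.1 ha.2.1
    have h1 := h.div (zpow_dvd hT hx0 hn)
    have e : a ^ m * x ^ n / x ^ n = a ^ m := by
      have := zpow_ne_zero n hx0
      field_simp
    rwa [e] at h1
  · refine ⟨1, fun x i hx => ?_⟩
    exact absurd ⟨x, i, hx⟩ hS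

end

/-- **valuations from `1 - x ∈ ⟨x⟩ T`**: `l` an odd prime, `T` contains the `l`-th powers,
`Fˣ/T` is not cyclic, `1 - x ∈ ⟨x⟩ T` for `x ∉ T`. -/
theorem exists_valuationSubring (l : ℕ) [hl : Fact l.Prime] (hl2 : l ≠ 2) (T : Subgroup Fˣ)
    (hT : ∀ x : Fˣ, x ^ l ∈ T)
    (hE : ∀ x y : Fˣ, x ∉ T → (x : F) + y = 1 → ∃ k : ℤ, y * x ^ k ∈ T)
    (hnc : ∀ a : Fˣ, T ⊔ Subgroup.zpowers a ≠ ⊤) :
    ∃ (H : Subgroup Fˣ) (A : ValuationSubring F), T ≤ H ∧ H ≠ ⊤ ∧ A.unitGroup ≤ H ∧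
      A.principalUnitGroup ≤ T := by
  have hT' : ∀ x : F, x ≠ 0 → In T (x ^ l) := fun x hx0 =>
    ⟨Units.mk0 x hx0 ^ l, hT _, by simp⟩
  have hE' : ∀ x : F, x ≠ 0 → ¬ In T x → ∃ k : ℤ, Ex T x k := by
    intro x hx0 hx
    have h1 : 1 - x ≠ 0 := by
      intro h
      apply hx
      rw [sub_eq_zero] at h
      rw [← h]
      exact in_one
    obtain ⟨k, hk⟩ := hE (Units.mk0 x hx0) (Units.mk0 (1 - x) h1)
      (fun h => hx ⟨_, h, rfl⟩) (by simp)
    refine ⟨-k, ⟨_, hk, ?_⟩⟩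
    simp
  obtain ⟨H, hR, hH⟩ := exists_rigid hl2 hT' hE' hnc
  obtain ⟨A, h1, h2⟩ := Rig1x931.exists_valuationSubring hR
  exact ⟨H, A, hR.le, hH, h1, h2⟩

end Crest.Agent.R018.Rig2x931
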