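import Mathlib

/-!
# Row 18: norms from a Kummer extension of degree `l` (helper931)

If `W` is an `F_l`-vector space of dimension at most two (`l ≥ 3`) and `σ ^ l = 1`, then
`∑_{i<l} σ^i = 0`.  Consequence: for a group `V` acting on a field `E` closed under `l`-th roots,
`x` a `V`-fixed element which is not an `l`-th power of a fixed element, `1 - x ∈ ⟨x⟩ M^{×l}` as soon
as the stabilizer of `x^(1/l)` has at most two independent Kummer classes.
-/

set_option autoImplicit false

open Polynomial Finset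

namespace Crest.Agent.R018.Rig3x931

section abstract

variable {l : ℕ} [hl : Fact l.Prime] {W : Type*} [AddCommGroup W] [Module (ZMod l) W]

theorem geom_eq : ∑ i ∈ range l, (X : (ZMod l)[X]) ^ i = (X - 1) ^ (l - 1) := by
  have h := cyclotomic_mul_prime_eq_pow_of_not_dvd (ZMod l) (p := l) (n := 1)
    (fun h => hl.out.one_lt.ne' (Nat.dvd_one.mp h))
  rw [one_mul, cyclotomic_one, cyclotomic_prime] at h
  exact h

theorem sq_eq_zero (σ : Module.End (ZMod l) W) (hσ : σ ^ l = 1)
    (h : ∀ w : Fin 3 → W, ¬ LinearIndependent (ZMod l) w) : (σ - 1) ^ 2 = 0 := by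
  have hrank : Module.rank (ZMod l) W ≤ 2 := by
    refine rank_le fun s hs => ?_
    by_contra hcon
    push Not at hcon
    obtain ⟨t, ht, htc⟩ := Finset.exists_subset_card_eq (Nat.succ_le_of_lt hcon)
    have h1 : LinearIndependent (ZMod l) (fun i : t => (i : W)) := by
      have := hs.comp (fun i : t => (⟨i.1, ht i.2⟩ : s)) (by
        intro a b hab
        exact Subtype.ext (by simpa using hab))
      exact this
    have e : Fin 3 ≃ t := (Fintype.equivFinOfCardEq (by simpa using htc)).symm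
    exact h _ (h1.comp e e.injective)
  have : Module.Finite (ZMod l) W := by
    rw [← Module.rank_lt_aleph0_iff]
    exact lt_of_le_of_lt hrank (by exact_mod_cast Cardinal.natCast_lt_aleph0 (n := 2))
  have hfin : Module.finrank (ZMod l) W ≤ 2 := by
    rw [← Module.finrank_eq_rank] at hrank
    exact_mod_cast hrank
  have hnil : (σ - 1) ^ l = 0 := by
    have h1 : ((X : (ZMod l)[X]) - 1) ^ l = X ^ l - 1 := by
      rw [sub_pow_char, one_pow]
    have h2 := congrArg (aeval σ) h1
    simpa [hσ] using h2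
  have h1 := Module.End.ker_pow_le_ker_pow_finrank (σ - 1) l
  rw [hnil] at h1
  have h2 : (σ - 1) ^ Module.finrank (ZMod l) W = 0 := by
    ext w
    have : w ∈ LinearMap.ker ((σ - 1) ^ Module.finrank (ZMod l) W) := h1 (by simp)
    simpa using this
  exact pow_eq_zero_of_le hfin h2

theorem sum_pow_eq_zero (hl3 : 3 ≤ l) (σ : Module.End (ZMod l) W) (hσ : σ ^ l = 1)
    (h : ∀ w : Fin 3 → W, ¬ LinearIndependent (ZMod l) w) : ∑ i ∈ range l, σ ^ i = 0 := by
  have h1 := congrArg (aeval σ) (geom_eq (l := l))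
  simp only [map_sum, map_pow, aeval_X, map_sub, map_one] at h1
  rw [h1]
  exact pow_eq_zero_of_le (by omega) (sq_eq_zero σ hσ h)

end abstract

/-- additive version with a module instance -/
theorem add_version' {l : ℕ} [hl : Fact l.Prime] (hl3 : 3 ≤ l) {A : Type*} [AddCommGroup A]
    [Module (ZMod l) A] (f : A →+ A) (hf : ∀ a, f^[l] a = a)
    (hdep : ∀ w : Fin 3 → A, ∃ e : Fin 3 → ℤ, (∃ i, ¬ (l : ℤ) ∣ e i) ∧ ∑ i, e i • w i = 0) (a : A) :
    ∑ i ∈ range l, f^[i] a = 0 := by
  let σ : Module.End (ZMod l) A := f.toZModLinearMap l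
  have hσi : ∀ (i : ℕ) (a : A), (σ ^ i) a = f^[i] a := by
    intro i
    induction i with
    | zero => intro u; simp
    | succ i ih =>
      intro u
      rw [pow_succ, Module.End.mul_apply, ih, Function.iterate_succ_apply]
      rfl
  have hσl : σ ^ l = 1 := by
    ext a
    rw [hσi, hf]
    rfl
  have h := sum_pow_eq_zero hl3 σ hσl (by
    intro w hw
    obtain ⟨e, ⟨i, hi⟩, he⟩ := hdep w
    rw [Fintype.linearIndependent_iff] at hw
    have h1 := hw (fun i => (e i : ZMod l)) (by simpa [Int.cast_smul_eq_zsmul] using he) i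
    exact hi ((ZMod.intCast_zmod_eq_zero_iff_dvd _ _).mp h1))
  have h1 := congrArg (fun g : Module.End (ZMod l) A => g a) h
  simpa [LinearMap.sum_apply, hσi] using h1

/-- additive version with endomorphisms of an abelian group -/
theorem add_version {l : ℕ} [hl : Fact l.Prime] (hl3 : 3 ≤ l) {A : Type*} [AddCommGroup A]
    (hexp : ∀ a : A, l • a = 0) (f : A →+ A) (hf : ∀ a, f^[l] a = a)
    (hdep : ∀ w : Fin 3 → A, ∃ e : Fin 3 → ℤ, (∃ i, ¬ (l : ℤ) ∣ e i) ∧ ∑ i, e i • w i = 0) (a : A) :
    ∑ i ∈ range l, f^[i] a = 0 :=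
  @add_version' l hl hl3 A _ (AddCommGroup.zmodModule hexp) f hf hdep a

/-- multiplicative version -/
theorem mul_version {l : ℕ} [hl : Fact l.Prime] (hl3 : 3 ≤ l) {A : Type*} [CommGroup A]
    (hexp : ∀ a : A, a ^ l = 1) (f : A →* A) (hf : ∀ a, f^[l] a = a)
    (hdep : ∀ w : Fin 3 → A, ∃ e : Fin 3 → ℤ, (∃ i, ¬ (l : ℤ) ∣ e i) ∧ ∏ i, w i ^ e i = 1) (a : A) :
    ∏ i ∈ range l, f^[i] a = 1 :=
  add_version hl3 (A := Additive A) (fun a => hexp a.toMul) (MonoidHom.toAdditive f)
    (fun a => hf a.toMul) (fun w => hdep fun i => (w i).toMul) (Additive.ofMul a)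

end Crest.Agent.R018.Rig3x931
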