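import Crest.Agent.R018.Rig2_931

/-!
# Row 18: valuation rings of algebraic extensions of `ℚ` (helper931)

`M` algebraic over `ℚ`, `A ≠ ⊤` a valuation subring.
-/

set_option autoImplicit false

open Polynomial

namespace Crest.Agent.R018.Rig5x931

section basic

variable {M : Type*} [Field M] {A : ValuationSubring M}

theorem val_int_le_one (n : ℤ) : A.valuation (n : M) ≤ 1 := by
  rw [A.valuation_le_one_iff]
  exact intCast_mem A n

theorem val_nat_le_one (n : ℕ) : A.valuation (n : M) ≤ 1 := by
  rw [A.valuation_le_one_iff]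
  exact natCast_mem A n

theorem val_one_add {c : M} (hc : A.valuation c < 1) : A.valuation (1 + c) = 1 := by
  rw [Valuation.map_add_eq_of_lt_left] <;> simp [hc]

theorem val_mul_lt {a b : M} (ha : A.valuation a < 1) (hb : A.valuation b ≤ 1) :
    A.valuation (a * b) < 1 := by
  rw [map_mul]
  exact mul_lt_one_of_lt_of_le ha hb

theorem val_sum_le {ι : Type*} {s : Finset ι} {f : ι → M} {c : A.ValueGroup}
    (h : ∀ i ∈ s, A.valuation (f i) ≤ c) : A.valuation (∑ i ∈ s, f i) ≤ c :=
  A.valuation.map_sum_le h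

end basic

section alg

variable {M : Type*} [Field M] [CharZero M] [Algebra.IsAlgebraic ℚ M] {A : ValuationSubring M}

/-- an integer polynomial with nonzero constant term -/
theorem exists_poly (z : M) (hz : z ≠ 0) : ∃ f : ℤ[X], f.coeff 0 ≠ 0 ∧ aeval z f = 0 := by
  have h : IsAlgebraic ℤ z := by
    have := Algebra.IsAlgebraic.isAlgebraic (R := ℚ) z
    exact (IsFractionRing.isAlgebraic_iff ℤ ℚ M).mpr this
  exact h.exists_nonzero_coeff_and_aeval_eq_zero (mem_nonZeroDivisors_of_ne_zero hz)

/-- a nonzero integer lies in `z A` -/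
theorem exists_int_le {z : M} (hz : z ≠ 0) :
    ∃ N : ℤ, N ≠ 0 ∧ A.valuation (N : M) ≤ A.valuation z := by
  rcases le_or_gt (A.valuation z) 1 with h | h
  · obtain ⟨f, hf0, hf⟩ := exists_poly z hz
    refine ⟨f.coeff 0, hf0, ?_⟩
    have h1 : aeval z f = z * aeval z f.divX + (f.coeff 0 : M) := by
      conv_lhs => rw [← divX_mul_X_add f]
      simp [mul_comm]
    rw [hf] at h1
    have h2 : (f.coeff 0 : M) = - (z * aeval z f.divX) := by
      linear_combination -h1
    rw [h2, Valuation.map_neg, map_mul]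
    have h3 : A.valuation (aeval z f.divX) ≤ 1 := by
      rw [A.valuation_le_one_iff] at h ⊢
      rw [aeval_eq_sum_range]
      refine sum_mem fun i _ => ?_
      rw [zsmul_eq_mul]
      exact mul_mem (intCast_mem A _) (pow_mem h i)
    calc A.valuation z * A.valuation (aeval z f.divX) ≤ A.valuation z * 1 := by gcongr
      _ = A.valuation z := mul_one _
  · refine ⟨1, one_ne_zero, ?_⟩
    simpa using h.le

/-- the residue characteristic -/
theorem exists_prime (hA : A ≠ ⊤) : ∃ p : ℕ, p.Prime ∧ A.valuation (p : M) < 1 := by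
  have h1 : ∃ x : M, x ∉ A := by
    by_contra hcon
    push Not at hcon
    apply hA
    ext x
    simp [hcon x]
  obtain ⟨x, hx⟩ := h1
  have hx0 : x ≠ 0 := by
    rintro rfl
    exact hx A.zero_mem
  obtain ⟨N, hN, hNx⟩ := exists_int_le (A := A) (inv_ne_zero hx0)
  have h2 : A.valuation (x⁻¹) < 1 := by
    rw [← A.valuation_le_one_iff, not_le] at hx
    rw [map_inv₀]
    exact inv_lt_one_of_one_lt₀ hx
  have h3 : A.valuation (N : M) < 1 := lt_of_le_of_lt hNx h2
  have h4 : A.valuation ((N.natAbs : ℕ) : M) < 1 := by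
    rcases Int.natAbs_eq N with h | h
    · rw [h] at h3
      simpa using h3
    · rw [h] at h3
      simpa using h3
  by_contra hcon
  push Not at hcon
  have h5 : ∀ n : ℕ, n ≠ 0 → A.valuation (n : M) = 1 := by
    intro n
    induction n using Nat.recOnMul with
    | zero => intro h; exact absurd rfl h
    | one => intro _; simp
    | prime p hp => intro _; exact le_antisymm (val_nat_le_one p) (hcon p hp)
    | mul a b ha hb =>
      intro h
      rw [Nat.cast_mul, map_mul, ha (by rintro rfl; simp at h), hb (by rintro rfl; simp at h),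
        one_mul]
  exact absurd h4 (by rw [h5 _ (Int.natAbs_ne_zero.mpr hN)]; exact lt_irrefl _)

theorem val_coprime {p : ℕ} (hp : p.Prime) (hpA : A.valuation (p : M) < 1) {n : ℤ}
    (hn : ¬ (p : ℤ) ∣ n) : A.valuation (n : M) = 1 := by
  have h1 : IsCoprime (p : ℤ) n := by
    rw [Prime.coprime_iff_not_dvd (Nat.prime_iff_prime_int.mp hp)]
    exact hn
  obtain ⟨a, b, hab⟩ := h1
  refine le_antisymm (val_int_le_one n) ?_
  by_contra hcon
  rw [not_le] at hcon
  have h2 : (a : M) * (p : M) + (b : M) * (n : M) = 1 := by exact_mod_cast congrArg (Int.cast : ℤ → M) hab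
  have h3 : A.valuation ((a : M) * (p : M) + (b : M) * (n : M)) < 1 := by
    refine Valuation.map_add_lt _ ?_ ?_
    · rw [mul_comm]; exact val_mul_lt hpA (val_int_le_one a)
    · rw [mul_comm]; exact val_mul_lt hcon (val_int_le_one b)
  rw [h2, map_one] at h3
  exact lt_irrefl _ h3

/-- every nonzero element divides a power of `p` -/
theorem exists_pow_le {p : ℕ} (hp : p.Prime) (hpA : A.valuation (p : M) < 1) {z : M} (hz : z ≠ 0) :
    ∃ k : ℕ, A.valuation (p : M) ^ k ≤ A.valuation z := by
  obtain ⟨N, hN, hNz⟩ := exists_int_le (A := A) hz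
  obtain ⟨m, hm, hNm⟩ : ∃ m : ℤ, ¬ (p : ℤ) ∣ m ∧ ∃ k : ℕ, N = p ^ k * m := by
    have hfin : FiniteMultiplicity (p : ℤ) N :=
      Int.finiteMultiplicity_iff.mpr ⟨by simpa using hp.ne_one, hN⟩
    obtain ⟨m, h1, h2⟩ := hfin.exists_eq_pow_mul_and_not_dvd
    exact ⟨m, h2, _, h1⟩
  obtain ⟨k, hk⟩ := hNm
  refine ⟨k, ?_⟩
  rw [hk] at hNz
  push_cast at hNz
  rw [map_mul, val_coprime hp hpA hm, mul_one, map_pow] at hNz
  exact hNz

/-- some power of a non-unit is divisible by `p` -/
theorem exists_pow_le_p {p : ℕ} (hp : p.Prime) (hpA : A.valuation (p : M) < 1) {z : M}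
    (hz : A.valuation z < 1) : ∃ n : ℕ, A.valuation z ^ n ≤ A.valuation (p : M) := by
  classical
  rcases eq_or_ne z 0 with rfl | hz0
  · exact ⟨1, by simp⟩
  obtain ⟨f, hf0, hf⟩ := exists_poly z hz0
  -- make it primitive
  set g := f.primPart with hg
  have hfne : f ≠ 0 := by rintro rfl; simp at hf0
  have hg0 : aeval z g = 0 := by
    rw [f.eq_C_content_mul_primPart, map_mul, aeval_C] at hf
    rcases mul_eq_zero.mp hf with h | h
    · exfalso
      have : (f.content : M) = 0 := by simpa using h
      exact hfne (content_eq_zero_iff.mp (by exact_mod_cast this))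
    · exact h
  have hgp : g.IsPrimitive := f.isPrimitive_primPart
  have hex : ∃ j, ¬ (p : ℤ) ∣ g.coeff j := by
    by_contra hcon
    push Not at hcon
    have h1 : (C (p : ℤ)) ∣ g := (C_dvd_iff_dvd_coeff _ _).mpr hcon
    have h2 := hgp _ h1
    rw [Int.isUnit_iff] at h2
    rcases h2 with h2 | h2
    · exact hp.ne_one (by exact_mod_cast h2)
    · have := hp.pos
      omega
  let j := Nat.find hex
  have hj : ¬ (p : ℤ) ∣ g.coeff j := Nat.find_spec hex
  have hjmin : ∀ i < j, (p : ℤ) ∣ g.coeff i := fun i hi => by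
    have := Nat.find_min hex hi
    push Not at this
    exact this
  refine ⟨j, ?_⟩
  by_contra hcon
  rw [not_le] at hcon
  have hjdeg : j ∈ Finset.range (g.natDegree + 1) := by
    rw [Finset.mem_range]
    by_contra hcon
    have : g.coeff j = 0 := coeff_eq_zero_of_natDegree_lt (by omega)
    rw [this] at hj
    exact hj (dvd_zero _)
  rw [aeval_eq_sum_range, ← Finset.add_sum_erase _ _ hjdeg] at hg0
  have hvz0 : 0 < A.valuation z := (Valuation.pos_iff _).mpr hz0
  have hvj : A.valuation (g.coeff j • z ^ j) = A.valuation z ^ j := by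
    rw [zsmul_eq_mul, map_mul, val_coprime hp hpA hj, one_mul, map_pow]
  have hlt : A.valuation (∑ i ∈ (Finset.range (g.natDegree + 1)).erase j, g.coeff i • z ^ i) <
      A.valuation (g.coeff j • z ^ j) := by
    rw [hvj]
    refine Valuation.map_sum_lt _ (pow_pos hvz0 j).ne' ?_
    intro i hi
    rw [Finset.mem_erase] at hi
    rw [zsmul_eq_mul, map_mul, map_pow]
    rcases lt_or_gt_of_ne hi.1 with hij | hij
    · obtain ⟨c, hc⟩ := hjmin i hij
      rw [hc]
      push_cast
      rw [map_mul]
      calc A.valuation (p : M) * A.valuation (c : M) * A.valuation z ^ i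
          ≤ A.valuation (p : M) * 1 * 1 := by
            gcongr
            · exact val_int_le_one c
            · exact pow_le_one₀ zero_le hz.le
        _ = A.valuation (p : M) := by rw [mul_one, mul_one]
        _ < _ := hcon
    · calc A.valuation (g.coeff i : M) * A.valuation z ^ i ≤ 1 * A.valuation z ^ i := by
            gcongr
            exact val_int_le_one _
        _ = A.valuation z ^ i := one_mul _
        _ < A.valuation z ^ j := pow_lt_pow_right_of_lt_one₀ hvz0 hz hij
  have h1 := Valuation.map_add_eq_of_lt_left _ hlt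
  rw [hg0, map_zero] at h1
  rw [← h1] at hlt
  exact not_lt_zero hlt

/-- rank one: for `c` a non-unit and any `w`, `c ^ n w` is a non-unit for large `n` -/
theorem exists_pow_mul_lt (hA : A ≠ ⊤) {c : M} (hc : A.valuation c < 1) (w : M) :
    ∃ n₀ : ℕ, ∀ n ≥ n₀, A.valuation (c ^ n * w) < 1 := by
  rcases eq_or_ne w 0 with rfl | hw
  · exact ⟨0, fun n _ => by simp⟩
  obtain ⟨p, hp, hpA⟩ := exists_prime hA
  obtain ⟨k, hk⟩ := exists_pow_le hp hpA (inv_ne_zero hw)
  obtain ⟨m, hm⟩ := exists_pow_le_p hp hpA hc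
  refine ⟨m * k + 1, fun n hn => ?_⟩
  obtain ⟨r, rfl⟩ := Nat.exists_eq_add_of_le hn
  rw [map_mul, map_pow, pow_add, pow_add, pow_mul, pow_one]
  have hw' : A.valuation (p : M) ^ k * A.valuation w ≤ 1 := by
    calc A.valuation (p : M) ^ k * A.valuation w ≤ A.valuation w⁻¹ * A.valuation w := by gcongr
      _ = 1 := by rw [← map_mul, inv_mul_cancel₀ hw, map_one]
  calc (A.valuation c ^ m) ^ k * A.valuation c * A.valuation c ^ r * A.valuation w
      = ((A.valuation c ^ m) ^ k * A.valuation w) * A.valuation c ^ r * A.valuation c := by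
        ac_rfl
    _ ≤ (A.valuation (p : M) ^ k * A.valuation w) * 1 * A.valuation c := by
        gcongr
        exact pow_le_one₀ zero_le hc.le
    _ ≤ 1 * 1 * A.valuation c := by gcongr
    _ < 1 := by simpa using hc

/-- rank one: a nontrivial valuation ring is maximal -/
theorem eq_of_le {A' : ValuationSubring M} (hA' : A' ≠ ⊤) (h : A ≤ A') : A = A' := by
  refine le_antisymm h fun x hx => ?_
  by_contra hxA
  have hx0 : x ≠ 0 := by
    rintro rfl
    exact hxA A.zero_mem
  have hxi : A.valuation x⁻¹ < 1 := by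
    rw [← A.valuation_le_one_iff, not_le] at hxA
    rw [map_inv₀]
    exact inv_lt_one_of_one_lt₀ hxA
  have hxi' : A'.valuation x⁻¹ = 1 := by
    refine le_antisymm ?_ ?_
    · rw [A'.valuation_le_one_iff]
      exact h ((A.valuation_le_one_iff _).mp hxi.le)
    · rw [map_inv₀]
      refine (one_le_inv₀ ?_).mpr ?_
      · exact (Valuation.pos_iff _).mpr hx0
      · exact (A'.valuation_le_one_iff _).mpr hx
  obtain ⟨p, hp, hpA'⟩ := exists_prime hA'
  have hp0 : (p : M) ≠ 0 := by exact_mod_cast hp.ne_zero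
  have hpA : A.valuation (p : M) < 1 := by
    by_contra hcon
    rw [not_lt] at hcon
    have h1 : ((p : M))⁻¹ ∈ A := by
      rw [← A.valuation_le_one_iff, map_inv₀]
      exact inv_le_one_of_one_le₀ hcon
    have h2 := (A'.valuation_le_one_iff _).mpr (h h1)
    rw [map_inv₀] at h2
    have h3 := one_lt_inv₀ ((Valuation.pos_iff A'.valuation).mpr hp0) |>.mpr hpA'
    exact absurd h2 (not_le.mpr h3)
  obtain ⟨n, hn⟩ := exists_pow_le_p hp hpA hxi
  have h1 : (x⁻¹) ^ n / (p : M) ∈ A := by
    rw [← A.valuation_le_one_iff, map_div₀, map_pow]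
    exact div_le_one_of_le₀ hn zero_le
  have h2 := (A'.valuation_le_one_iff _).mpr (h h1)
  rw [map_div₀, map_pow, hxi', one_pow, one_div] at h2
  have h3 := one_lt_inv₀ ((Valuation.pos_iff A'.valuation).mpr hp0) |>.mpr hpA'
  exact absurd h2 (not_le.mpr h3)

/-- **uniqueness** of the valuation ring all of whose one-units are `l`-th powers -/
theorem unique {A' : ValuationSubring M} (hA : A ≠ ⊤) (hA' : A' ≠ ⊤) {l : ℕ} (hl : l ≠ 0)
    (h1 : ∀ x, A.valuation (x - 1) < 1 → ∃ t, t ^ l = x)
    (h1' : ∀ x, A'.valuation (x - 1) < 1 → ∃ t, t ^ l = x)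
    (hne : ∃ x : M, ∀ t, t ^ l ≠ x) : A = A' := by
  by_contra hAA
  have hle : ¬ A ≤ A' := fun h => hAA (eq_of_le hA' h)
  have hle' : ¬ A' ≤ A := fun h => hAA (eq_of_le hA h).symm
  obtain ⟨a, ha, ha'⟩ := SetLike.not_le_iff_exists.mp hle
  obtain ⟨b, hb', hb⟩ := SetLike.not_le_iff_exists.mp hle'
  obtain ⟨x, hx⟩ := hne
  have hx0 : x ≠ 0 := by
    rintro rfl
    exact hx 0 (zero_pow hl)
  have ha0 : a ≠ 0 := by rintro rfl; exact ha' A'.zero_mem
  have hb0 : b ≠ 0 := by rintro rfl; exact hb A.zero_mem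
  rw [← ValuationSubring.valuation_le_one_iff] at ha ha' hb hb'
  rw [not_le] at ha' hb
  have hc : A.valuation (a / b) < 1 := by
    rw [map_div₀]
    exact (div_lt_one₀ ((Valuation.pos_iff _).mpr hb0)).mpr (lt_of_le_of_lt ha hb)
  have hc' : A'.valuation (b / a) < 1 := by
    rw [map_div₀]
    exact (div_lt_one₀ ((Valuation.pos_iff _).mpr ha0)).mpr (lt_of_le_of_lt hb' ha')
  obtain ⟨n₁, hn₁⟩ := exists_pow_mul_lt hA hc (x - 1)
  obtain ⟨n₂, hn₂⟩ := exists_pow_mul_lt hA' hc' ((1 - x) / x)
  set n := max (max n₁ n₂) 1 with hn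
  have hn1 : n₁ ≤ n := le_trans (le_max_left _ _) (le_max_left _ _)
  have hn2 : n₂ ≤ n := le_trans (le_max_right _ _) (le_max_left _ _)
  have hn0 : n ≠ 0 := by have := le_max_right (max n₁ n₂) 1; omega
  have hcn : A.valuation ((a / b) ^ n) < 1 := by
    rw [map_pow]
    exact pow_lt_one₀ zero_le hc hn0
  have hcn' : A'.valuation ((b / a) ^ n) < 1 := by
    rw [map_pow]
    exact pow_lt_one₀ zero_le hc' hn0
  have hv := val_one_add hcn
  have hv' := val_one_add hcn'
  have hd : (1 : M) + (a / b) ^ n ≠ 0 := by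
    intro h
    rw [h, map_zero] at hv
    exact zero_ne_one hv
  have hd' : (1 : M) + (b / a) ^ n ≠ 0 := by
    intro h
    rw [h, map_zero] at hv'
    exact zero_ne_one hv'
  have hY1 : A.valuation (1 + (a / b) ^ n / (1 + (a / b) ^ n) * (x - 1) - 1) < 1 := by
    rw [show 1 + (a / b) ^ n / (1 + (a / b) ^ n) * (x - 1) - 1 =
      ((a / b) ^ n * (x - 1)) / (1 + (a / b) ^ n) by ring, map_div₀, hv, div_one]
    exact hn₁ n hn1
  have hY2 : A'.valuation ((1 + (a / b) ^ n / (1 + (a / b) ^ n) * (x - 1)) / x - 1) < 1 := by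
    rw [show (1 + (a / b) ^ n / (1 + (a / b) ^ n) * (x - 1)) / x - 1 =
      ((b / a) ^ n * ((1 - x) / x)) / (1 + (b / a) ^ n) by
        have e : (b / a) ^ n = ((a / b) ^ n)⁻¹ := by rw [← inv_pow, inv_div]
        have hab : (a / b) ^ n ≠ 0 := pow_ne_zero _ (div_ne_zero ha0 hb0)
        rw [e] at hd' ⊢
        generalize (a / b) ^ n = c at *
        field_simp
        have : c + 1 ≠ 0 := by rwa [add_comm]
        field_simp
        ring, map_div₀, hv', div_one]
    exact hn₂ n hn2
  generalize 1 + (a / b) ^ n / (1 + (a / b) ^ n) * (x - 1) = Y at hY1 hY2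
  have hY0 : Y ≠ 0 := by
    rintro rfl
    rw [zero_sub, Valuation.map_neg, map_one] at hY1
    exact lt_irrefl _ hY1
  obtain ⟨t, ht⟩ := h1 Y hY1
  obtain ⟨s, hs⟩ := h1' _ hY2
  apply hx (t / s)
  rw [div_pow, ht, hs, div_div_eq_mul_div]
  field_simp

/-- **`l` is a unit**: if the units of `A` lie in a proper subgroup `H` containing the `l`-th powers
and all one-units of `A` are `l`-th powers, then `l` is a unit of `A`. -/
theorem l_unit {l : ℕ} (hl : l.Prime) {H : Subgroup Mˣ} (hH : H ≠ ⊤)
    (hpow : ∀ x : Mˣ, x ^ l ∈ H) (hU : A.unitGroup ≤ H)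
    (h1 : ∀ x, A.valuation (x - 1) < 1 → ∃ t, t ^ l = x) : A.valuation (l : M) = 1 := by
  refine le_antisymm (val_nat_le_one l) ?_
  by_contra hcon
  rw [not_le] at hcon
  have hl0 : (l : M) ≠ 0 := by exact_mod_cast hl.ne_zero
  have hvl0 : A.valuation (l : M) ≠ 0 := (Valuation.ne_zero_iff _).mpr hl0
  have hHU : ∀ x : Mˣ, A.valuation (x : M) = 1 → x ∈ H := fun x hx => hU hx
  -- there is a non-member of `H` strictly between
  have hz : ∃ z : Mˣ, z ∉ H ∧ A.valuation (z : M) < 1 ∧ A.valuation (l : M) ≤ A.valuation (z : M) := by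
    by_contra hno
    push Not at hno
    have hlH : Units.mk0 (l : M) hl0 ∈ H := by
      by_contra hlH
      exact absurd (hno _ hlH hcon) (by simp)
    have hind : ∀ (k : ℕ) (z : Mˣ), A.valuation (z : M) ≤ 1 →
        A.valuation (l : M) ^ k ≤ A.valuation (z : M) → z ∈ H := by
      intro k
      induction k with
      | zero =>
        intro z hz1 hz2
        rw [pow_zero] at hz2
        exact hHU z (le_antisymm hz1 hz2)
      | succ k ih =>
        intro z hz1 hz2
        rcases le_or_gt (A.valuation (z : M)) (A.valuation (l : M)) with h | h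
        · have h2 : z / Units.mk0 (l : M) hl0 ∈ H := by
            apply ih
            · rw [Units.val_div_eq_div_val, map_div₀, Units.val_mk0]
              exact div_le_one_of_le₀ h zero_le
            · rw [Units.val_div_eq_div_val, map_div₀, Units.val_mk0, le_div_iff₀ (zero_lt_iff.mpr hvl0),
                ← pow_succ]
              exact hz2
          have h3 := H.mul_mem h2 hlH
          rwa [div_mul_cancel] at h3
        · rcases hz1.lt_or_eq with h4 | h4
          · by_contra hzH
            exact absurd (hno z hzH h4) (not_lt.mpr h.le)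
          · exact hHU z h4
    apply hH
    rw [eq_top_iff]
    intro z _
    rcases le_or_gt (A.valuation (z : M)) 1 with h | h
    · obtain ⟨k, hk⟩ := exists_pow_le hl hcon (Units.ne_zero z)
      exact hind k z h hk
    · obtain ⟨k, hk⟩ := exists_pow_le hl hcon (Units.ne_zero z⁻¹)
      have h2 : z⁻¹ ∈ H := by
        refine hind k z⁻¹ ?_ hk
        rw [Units.val_inv_eq_inv_val, map_inv₀]
        exact inv_le_one_of_one_le₀ h.le
      exact (inv_mem_iff (H := H)).mp h2
  obtain ⟨z, hzH, hz1, hz2⟩ := hz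
  obtain ⟨t, ht⟩ := h1 (1 + z) (by simpa using hz1)
  have htA : t ∈ A := by
    rw [← A.valuation_le_one_iff]
    have : A.valuation t ^ l = 1 := by rw [← map_pow, ht, val_one_add hz1]
    by_contra h
    rw [not_le] at h
    exact absurd this (one_lt_pow₀ h hl.ne_zero).ne'
  obtain ⟨r, hr⟩ := exists_add_pow_prime_eq hl (⟨t, htA⟩ - 1 : A) 1
  rw [sub_add_cancel] at hr
  have hr' : t ^ l = (t - 1) ^ l + 1 + l * (t - 1) * r := by
    have := congrArg (fun a : A => (a : M)) hr
    push_cast at this
    simpa using this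
  set u := t - 1 with hu
  have hrA : A.valuation (r : M) ≤ 1 := A.valuation_le_one r
  have huA : A.valuation u ≤ 1 := (A.valuation_le_one_iff _).mpr (sub_mem htA A.one_mem)
  have hzu : (z : M) = u ^ l + l * u * r := by
    rw [ht] at hr'
    linear_combination hr'
  have hu1 : A.valuation u < 1 := by
    rcases huA.lt_or_eq with h | h
    · exact h
    · exfalso
      have h2 : A.valuation (u ^ l + l * u * r) = A.valuation (u ^ l) := by
        apply Valuation.map_add_eq_of_lt_left
        rw [map_pow, h, one_pow, map_mul, map_mul, h, mul_one]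
        exact mul_lt_one_of_lt_of_le hcon hrA
      rw [← hzu, map_pow, h, one_pow] at h2
      exact absurd hz1 (by rw [h2]; exact lt_irrefl _)
  have hz0 : A.valuation (z : M) ≠ 0 := (Valuation.ne_zero_iff _).mpr (Units.ne_zero z)
  have hlt : A.valuation ((l : M) * u * r) < A.valuation (z : M) := by
    rw [map_mul, map_mul]
    calc A.valuation (l : M) * A.valuation u * A.valuation (r : M)
        ≤ A.valuation (z : M) * A.valuation u * 1 := by gcongr
      _ = A.valuation (z : M) * A.valuation u := mul_one _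
      _ < A.valuation (z : M) * 1 := by
          exact mul_lt_mul_of_pos_left hu1 (zero_lt_iff.mpr hz0)
      _ = A.valuation (z : M) := mul_one _
  have hul : A.valuation (u ^ l) = A.valuation (z : M) := by
    have h2 : u ^ l = z + (-(l * u * r)) := by rw [hzu]; ring
    rw [h2]
    apply Valuation.map_add_eq_of_lt_left
    rw [Valuation.map_neg]
    exact hlt
  have hu0 : u ≠ 0 := by
    rintro h
    rw [h, zero_pow hl.ne_zero, map_zero] at hul
    exact hz0 hul.symm
  apply hzH
  have h3 : z / (Units.mk0 u hu0) ^ l ∈ H := by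
    apply hHU
    rw [Units.val_div_eq_div_val, map_div₀, Units.val_pow_eq_pow_val, Units.val_mk0, hul,
      div_self hz0]
  have h4 := H.mul_mem h3 (hpow (Units.mk0 u hu0))
  rwa [div_mul_cancel] at h4

end alg

end Crest.Agent.R018.Rig5x931
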