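import Crest.Agent.R018.Rig4_931
import Crest.Agent.R018.Rig5_931

/-!
# Row 18: the valuation ring fixed by a group with two Kummer classes everywhere (helper931)
-/

set_option autoImplicit false

open Finset Polynomial

namespace Crest.Agent.R018.Rig6x931

open Crest.Agent.R018.Rig4x931

/-! ### roots close to one -/

section roots

variable {M : Type*} [Field M] {A : ValuationSubring M}

theorem val_eq_one_of_pow {l : ℕ} (hl : l ≠ 0) {x : M} (h : A.valuation x ^ l = 1) :
    A.valuation x = 1 := by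
  rcases lt_trichotomy (A.valuation x) 1 with h1 | h1 | h1
  · exact absurd h (pow_lt_one₀ zero_le h1 hl).ne
  · exact h1
  · exact absurd h (one_lt_pow₀ h1 hl).ne'

theorem exists_root_one {l : ℕ} [hl : Fact l.Prime] {ζ : M} (hζ : IsPrimitiveRoot ζ l) {x t : M}
    (ht : t ^ l = x) (hx : A.valuation (x - 1) < 1) :
    ∃ t', t' ^ l = x ∧ A.valuation (t' - 1) < 1 := by
  have hvζ : A.valuation ζ = 1 := val_eq_one_of_pow hl.out.ne_zero (by
    rw [← map_pow, hζ.pow_eq_one, map_one])
  have h1 := congrArg (Polynomial.eval t) (X_pow_sub_C_eq_prod hζ hl.out.pos (one_pow l : (1:M)^l = 1))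
  simp only [Polynomial.eval_sub, Polynomial.eval_pow, Polynomial.eval_X, Polynomial.eval_C,
    Polynomial.eval_prod, ht, mul_one] at h1
  rw [h1, map_prod] at hx
  have h2 : ∃ i ∈ range l, A.valuation (t - ζ ^ i) < 1 := by
    by_contra hcon
    push Not at hcon
    exact absurd hx (not_lt.mpr (Finset.one_le_prod' hcon))
  obtain ⟨i, -, hi⟩ := h2
  have hζ0 : ζ ^ i ≠ 0 := pow_ne_zero _ (hζ.ne_zero hl.out.ne_zero)
  refine ⟨t / ζ ^ i, ?_, ?_⟩
  · rw [div_pow, ← pow_mul, mul_comm i l, pow_mul, hζ.pow_eq_one, one_pow, div_one, ht]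
  · rw [show t / ζ ^ i - 1 = (t - ζ ^ i) / ζ ^ i by field_simp, map_div₀, map_pow, hvζ, one_pow,
      div_one]
    exact hi

theorem val_sub_one_of_root {l : ℕ} [hl : Fact l.Prime] (hlA : A.valuation (l : M) = 1) {ω : M}
    (hω : ω ^ l = 1) (h : A.valuation (ω - 1) < 1) : ω = 1 := by
  by_contra hne
  have hprim : IsPrimitiveRoot ω l := IsPrimitiveRoot.iff_orderOf.mpr (orderOf_eq_prime hω hne)
  have h1 : ∑ i ∈ range l, ω ^ i = 0 := hprim.geom_sum_eq_zero hl.out.one_lt
  have h2 : (l : M) = ∑ i ∈ range l, (1 - ω ^ i) := by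
    rw [Finset.sum_sub_distrib, h1]
    simp
  have hvω : A.valuation ω = 1 := val_eq_one_of_pow hl.out.ne_zero (by
    rw [← map_pow, hω, map_one])
  have h3 : ∀ i : ℕ, A.valuation (1 - ω ^ i) < 1 := by
    intro i
    induction i with
    | zero => simp
    | succ i ih =>
      rw [show 1 - ω ^ (i + 1) = (1 - ω ^ i) - ω ^ i * (ω - 1) by ring]
      refine Valuation.map_sub_lt _ ih ?_
      rw [map_mul, map_pow, hvω, one_pow, one_mul]
      exact h
  have h4 : A.valuation (l : M) < 1 := by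
    rw [h2]
    exact Valuation.map_sum_lt _ one_ne_zero fun i _ => h3 i
  rw [hlA] at h4
  exact lt_irrefl _ h4

theorem root_unique {l : ℕ} [hl : Fact l.Prime] (hlA : A.valuation (l : M) = 1) {t t' : M}
    (h : t ^ l = t' ^ l) (ht : A.valuation (t - 1) < 1) (ht' : A.valuation (t' - 1) < 1) :
    t = t' := by
  have e1 : A.valuation t = 1 := by
    have := Rig5x931.val_one_add ht
    simpa using this
  have e1' : A.valuation t' = 1 := by
    have := Rig5x931.val_one_add ht'
    simpa using this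
  have h0' : t' ≠ 0 := by
    rintro rfl
    rw [map_zero] at e1'
    exact zero_ne_one e1'
  have h2 : t / t' = 1 := by
    apply val_sub_one_of_root hlA
    · rw [div_pow, h, div_self (pow_ne_zero _ h0')]
    · rw [show t / t' - 1 = (t - 1 - (t' - 1)) / t' by field_simp; ring, map_div₀, e1', div_one]
      exact Valuation.map_sub_lt _ ht ht'
  exact (div_eq_one_iff_eq h0').mp h2

end roots

/-! ### good valuation rings -/

section good

/-- nontrivial, `l` a unit, all one-units are `l`-th powers -/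
structure Good (l : ℕ) {M : Type*} [Field M] (A : ValuationSubring M) : Prop where
  ne_top : A ≠ ⊤
  l_unit : A.valuation (l : M) = 1
  one_units : ∀ x, A.valuation (x - 1) < 1 → ∃ t, t ^ l = x

variable {M N : Type*} [Field M] [Field N]

theorem lt_one_iff {A : ValuationSubring M} {x : M} : A.valuation x < 1 ↔ x = 0 ∨ x⁻¹ ∉ A := by
  rw [← A.mem_nonunits_iff, A.mem_nonunits_iff_or]

theorem eq_one_iff {A : ValuationSubring M} {x : M} :
    A.valuation x = 1 ↔ x ∈ A ∧ ¬ A.valuation x < 1 := by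
  rw [← A.valuation_le_one_iff, not_lt]
  exact ⟨fun h => ⟨h.le, h.ge⟩, fun h => le_antisymm h.1 h.2⟩

theorem comap_lt {A : ValuationSubring N} {f : M →+* N} {x : M} :
    (A.comap f).valuation x < 1 ↔ A.valuation (f x) < 1 := by
  rw [lt_one_iff, lt_one_iff, ValuationSubring.mem_comap, map_inv₀, map_eq_zero]

theorem comap_eq {A : ValuationSubring N} {f : M →+* N} {x : M} :
    (A.comap f).valuation x = 1 ↔ A.valuation (f x) = 1 := by
  rw [eq_one_iff, eq_one_iff, ValuationSubring.mem_comap, comap_lt]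

theorem ne_top_iff {A : ValuationSubring M} : A ≠ ⊤ ↔ ∃ x, x ∉ A := by
  constructor
  · intro h
    by_contra hcon
    push Not at hcon
    apply h
    ext x
    simp [hcon x]
  · rintro ⟨x, hx⟩ rfl
    exact hx (ValuationSubring.mem_top x)

theorem comap_ne_top [CharZero M] [CharZero N] [Algebra.IsAlgebraic ℚ N] {A : ValuationSubring N}
    (hA : A ≠ ⊤) (f : M →+* N) : A.comap f ≠ ⊤ := by
  obtain ⟨p, hp, hpA⟩ := Rig5x931.exists_prime hA
  rw [ne_top_iff]
  refine ⟨(p : M)⁻¹, ?_⟩
  rw [ValuationSubring.mem_comap, map_inv₀, map_natCast]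
  rcases lt_one_iff.mp hpA with h | h
  · exact absurd h (by exact_mod_cast hp.ne_zero)
  · exact h

theorem Good.comap_surj [CharZero M] [CharZero N] [Algebra.IsAlgebraic ℚ N]
    {l : ℕ} {A : ValuationSubring N} (hA : Good l A) (f : M →+* N) (hf : Function.Surjective f) :
    Good l (A.comap f) where
  ne_top := comap_ne_top hA.ne_top f
  l_unit := by
    rw [comap_eq, map_natCast]
    exact hA.l_unit
  one_units := by
    intro x hx
    rw [comap_lt, map_sub, map_one] at hx
    obtain ⟨t, ht⟩ := hA.one_units _ hx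
    obtain ⟨t', rfl⟩ := hf t
    refine ⟨t', f.injective ?_⟩
    rw [map_pow, ht]

theorem Good.unique [CharZero M] [Algebra.IsAlgebraic ℚ M] {l : ℕ} (hl : l ≠ 0)
    {A A' : ValuationSubring M} (hA : Good l A) (hA' : Good l A') (hne : ∃ x : M, ∀ t, t ^ l ≠ x) :
    A = A' :=
  Rig5x931.unique hA.ne_top hA'.ne_top hl hA.one_units hA'.one_units hne

end good

/-! ### fixed fields -/

section fix

variable {Δ E : Type*} [Group Δ] [Field E] [MulSemiringAction Δ E]

/-- the field of `V`-fixed elements -/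
def K (E : Type*) [Field E] [MulSemiringAction Δ E] (V : Subgroup Δ) : Subfield E where
  carrier := {x | Fx V x}
  mul_mem' := fun ha hb => Fx.mul ha hb
  one_mem' := fx_one
  add_mem' := fun ha hb => Fx.add ha hb
  zero_mem' := fun g _ => smul_zero g
  neg_mem' := by
    intro x hx g hg
    rw [smul_neg, hx g hg]
  inv_mem' := fun _ hx => Fx.inv hx

theorem mem_K {V : Subgroup Δ} {x : E} : x ∈ K E V ↔ Fx V x := Iff.rfl

theorem coe_zpow' {V : Subgroup Δ} (x : K E V) (k : ℤ) : ((x ^ k : K E V) : E) = (x : E) ^ k :=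
  map_zpow₀ (K E V).subtype x k

instance isAlg [CharZero E] [Algebra.IsAlgebraic ℚ E] (V : Subgroup Δ) :
    Algebra.IsAlgebraic ℚ (K E V) :=
  Algebra.IsAlgebraic.of_injective (K E V).subtype.toRatAlgHom (K E V).subtype.injective

/-- two independent Kummer classes -/
def RankGE (E : Type*) [Field E] [MulSemiringAction Δ E] (l : ℕ) (V : Subgroup Δ) : Prop :=
  ∀ a : E, Fx V a → a ≠ 0 → ∃ b : E, Fx V b ∧ b ≠ 0 ∧
    ∀ (k : ℤ) (z : E), Fx V z → z ^ l ≠ b * a ^ k

theorem rankGE_of_two {l : ℕ} [hl : Fact l.Prime] {V : Subgroup Δ} (b : Fin 2 → E)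
    (hb0 : ∀ i, b i ≠ 0) (hb : ∀ i, Fx V (b i))
    (h : ∀ (e : Fin 2 → ℤ) (z : E), Fx V z → z ^ l = b 0 ^ e 0 * b 1 ^ e 1 →
      (l : ℤ) ∣ e 0 ∧ (l : ℤ) ∣ e 1) : RankGE E l V := by
  intro a ha ha0
  by_contra hcon
  push Not at hcon
  obtain ⟨k0, z0, hz0, h0⟩ := hcon (b 0) (hb 0) (hb0 0)
  obtain ⟨k1, z1, hz1, h1⟩ := hcon (b 1) (hb 1) (hb0 1)
  have h2 := h ![k1, -k0] (z0 ^ k1 * z1 ^ (-k0)) ((hz0.zpow _).mul (hz1.zpow _)) (by
    simp only [Matrix.cons_val_zero, Matrix.cons_val_one]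
    rw [mul_pow, ← zpow_natCast, ← zpow_natCast, zpow_comm, zpow_comm (z1), zpow_natCast,
      zpow_natCast, h0, h1, mul_zpow, mul_zpow, ← zpow_mul, ← zpow_mul]
    have : a ^ (k0 * k1) * a ^ (k1 * -k0) = 1 := by
      rw [← zpow_add₀ ha0]
      ring_nf
      simp
    linear_combination (b 0 ^ k1 * b 1 ^ (-k0)) * this)
  simp only [Matrix.cons_val_zero, Matrix.cons_val_one, dvd_neg] at h2
  obtain ⟨⟨m, hm⟩, ⟨n, hn⟩⟩ := h2
  have h3 := h ![1, 0] (z0 * a ^ (-n)) (hz0.mul (ha.zpow _)) (by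
    simp only [Matrix.cons_val_zero, Matrix.cons_val_one, zpow_one, zpow_zero, mul_one]
    rw [mul_pow, h0, hn, ← zpow_natCast (a ^ (-n)) l, ← zpow_mul, mul_assoc, ← zpow_add₀ ha0]
    ring_nf
    simp)
  simp only [Matrix.cons_val_zero] at h3
  have h4 := Int.natCast_dvd_natCast.mp (by simpa using h3.1 : ((l : ℕ) : ℤ) ∣ ((1 : ℕ) : ℤ))
  exact hl.out.one_lt.ne' (Nat.dvd_one.mp h4)

theorem exists_not_pow {l : ℕ} {V : Subgroup Δ} (h : RankGE E l V) :
    ∃ x : K E V, ∀ t, t ^ l ≠ x := by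
  obtain ⟨b, hb, -, h1⟩ := h 1 fx_one one_ne_zero
  refine ⟨⟨b, hb⟩, fun t ht => h1 0 t.1 t.2 ?_⟩
  have := congrArg (fun x : K E V => (x : E)) ht
  simpa using this

/-- **existence of a good valuation ring of the fixed field** -/
theorem exists_good [CharZero E] [Algebra.IsAlgebraic ℚ E] {l : ℕ} [hl : Fact l.Prime]
    (hl3 : 3 ≤ l) (hroot : ∀ x : E, ∃ θ, θ ^ l = x) {ζ : E} (hζ : IsPrimitiveRoot ζ l)
    {V : Subgroup Δ} (hζV : Fx V ζ) (hge : RankGE E l V)
    (hle : ∀ θ : E, Fx V (θ ^ l) → ¬ Fx V θ → RankLE E l (St V θ)) :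
    ∃ A : ValuationSubring (K E V), Good l A := by
  let T : Subgroup (K E V)ˣ := (powMonoidHom l : (K E V)ˣ →* (K E V)ˣ).range
  obtain ⟨H, A, hTH, hH, hAH, hAT⟩ := Rig2x931.exists_valuationSubring l (by omega) T
    (fun x => ⟨x, rfl⟩)
    (by
      intro x y hx hxy
      obtain ⟨θ, hθ⟩ := hroot ((x : K E V) : E)
      have hxf : Fx V (((x : K E V)) : E) := (x : K E V).2
      have hθV : ¬ Fx V θ := by
        intro hθV
        apply hx
        have hθ0 : θ ≠ 0 := by
          rintro rfl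
          rw [zero_pow hl.out.ne_zero] at hθ
          exact x.ne_zero (Subtype.ext hθ.symm)
        refine ⟨Units.mk0 (⟨θ, hθV⟩ : K E V) (fun h => hθ0 (congrArg Subtype.val h)), ?_⟩
        apply Units.ext
        apply Subtype.ext
        simpa using hθ
      obtain ⟨k, m, hm, hmk⟩ := one_sub_mem hl3 V hζ hζV hθ hxf hθV
        (hle θ (by rw [hθ]; exact hxf) hθV)
      refine ⟨k, ?_⟩
      have hy : (1 : E) - ((x : K E V) : E) = ((y : K E V) : E) := by
        have := congrArg (fun z : K E V => (z : E)) hxy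
        simp only [Subfield.coe_add, Subfield.coe_one] at this
        rw [← this]
        ring
      have hm0 : m ≠ 0 := by
        rintro rfl
        rw [zero_pow hl.out.ne_zero, hy] at hmk
        rcases mul_eq_zero.mp hmk.symm with h | h
        · exact y.ne_zero (Subtype.ext h)
        · exact zpow_ne_zero k (fun h => x.ne_zero (Subtype.ext h)) h
      refine ⟨Units.mk0 (⟨m, hm⟩ : K E V) (fun h => hm0 (congrArg Subtype.val h)), ?_⟩
      apply Units.ext
      apply Subtype.ext
      rw [hy] at hmk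
      simpa [coe_zpow'] using hmk)
    (by
      intro a ha
      obtain ⟨b, hb, hb0, hbk⟩ := hge (((a : K E V)) : E) (a : K E V).2
        (fun h => a.ne_zero (Subtype.ext h))
      have hb' : Units.mk0 (⟨b, hb⟩ : K E V) (fun h => hb0 (congrArg Subtype.val h)) ∈
          T ⊔ Subgroup.zpowers a := by
        rw [ha]
        exact Subgroup.mem_top _
      rw [Subgroup.mem_sup] at hb'
      obtain ⟨_, ⟨z, rfl⟩, _, ⟨k, rfl⟩, hzk⟩ := hb'
      apply hbk (-k) ((z : K E V) : E) (z : K E V).2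
      have h1 := congrArg (fun u : (K E V)ˣ => ((u : K E V) : E)) hzk
      simp only [powMonoidHom_apply, Units.val_mul, Units.val_pow_eq_pow_val,
        Units.val_zpow_eq_zpow_val, Subfield.coe_mul, SubmonoidClass.coe_pow,
        Units.val_mk0, coe_zpow'] at h1
      rw [← h1, mul_assoc, ← zpow_add₀ (fun h => a.ne_zero (Subtype.ext h))]
      simp)
  have hpow : ∀ x : (K E V)ˣ, x ^ l ∈ H := fun x => hTH ⟨x, rfl⟩
  have h1 : ∀ x : K E V, A.valuation (x - 1) < 1 → ∃ t, t ^ l = x := by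
    intro x hx
    have hx0 : x ≠ 0 := by
      rintro rfl
      rw [zero_sub, Valuation.map_neg, map_one] at hx
      exact lt_irrefl _ hx
    obtain ⟨t, ht⟩ := hAT (x := Units.mk0 x hx0) (by
      rw [A.mem_principalUnitGroup_iff]
      exact hx)
    refine ⟨t, ?_⟩
    have := congrArg (fun u : (K E V)ˣ => (u : K E V)) ht
    simpa using this
  refine ⟨A, ?_, ?_, h1⟩
  · rintro rfl
    apply hH
    rw [eq_top_iff]
    intro x _
    apply hAH
    rw [ValuationSubring.mem_unitGroup_iff, eq_one_iff, lt_one_iff]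
    refine ⟨ValuationSubring.mem_top _, ?_⟩
    rintro (h | h)
    · exact x.ne_zero h
    · exact h (ValuationSubring.mem_top _)
  · exact Rig5x931.l_unit hl.out hH hpow hAH h1

end fix

end Crest.Agent.R018.Rig6x931
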