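import Crest.Agent.R018.Rig6_931

/-!
# Row 18: gluing the valuation rings of the fixed fields (helper931)

`Δ` acts on `E`, `𝒱` a family of normal subgroups closed under intersection, every element of `E` is
fixed by a member; every `V ∈ 𝒱` has at least two independent Kummer classes, and every
`V ∩ Stab(θ)`, `θ^l` fixed by `V`, `θ` not, has at most two.  Then there is a `Δ`-stable
valuation subring of `E` with `l` a unit (`exists_glued`).
-/

set_option autoImplicit false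

open Finset

namespace Crest.Agent.R018.Rig7x931

open Crest.Agent.R018.Rig4x931 Crest.Agent.R018.Rig6x931

variable {Δ E : Type*} [Group Δ] [Field E] [MulSemiringAction Δ E]

/-- action of `g` on the fixed field of a normal subgroup -/
def gact (V : Subgroup Δ) (hV : V.Normal) (g : Δ) : K E V →+* K E V where
  toFun x := ⟨g • (x : E), by
    intro v hv
    have h1 := hV.conj_mem v hv g⁻¹
    rw [inv_inv] at h1
    have h2 := x.2 _ h1
    rw [← mul_smul, show v * g = g * (g⁻¹ * v * g) by group, mul_smul, h2]⟩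
  map_one' := Subtype.ext (smul_one g)
  map_mul' x y := Subtype.ext (smul_mul' g _ _)
  map_zero' := Subtype.ext (smul_zero g)
  map_add' x y := Subtype.ext (smul_add g _ _)

theorem gact_coe (V : Subgroup Δ) (hV : V.Normal) (g : Δ) (x : K E V) :
    ((gact V hV g x : K E V) : E) = g • (x : E) := rfl

theorem gact_surj (V : Subgroup Δ) (hV : V.Normal) (g : Δ) :
    Function.Surjective (gact (E := E) V hV g) := by
  intro x
  refine ⟨gact V hV g⁻¹ x, Subtype.ext ?_⟩
  rw [gact_coe, gact_coe, smul_inv_smul]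

/-- the inclusion of fixed fields -/
def incl {V W : Subgroup Δ} (h : V ≤ W) : K E W →+* K E V where
  toFun x := ⟨x.1, Fx.mono h x.2⟩
  map_one' := rfl
  map_mul' _ _ := rfl
  map_zero' := rfl
  map_add' _ _ := rfl

theorem incl_coe {V W : Subgroup Δ} (h : V ≤ W) (x : K E W) :
    ((incl h x : K E V) : E) = (x : E) := rfl

theorem good_restrict [CharZero E] [Algebra.IsAlgebraic ℚ E] {l : ℕ} [hl : Fact l.Prime]
    {V W : Subgroup Δ} (hV : V.Normal) (h : V ≤ W) {ζ : E} (hζ : IsPrimitiveRoot ζ l)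
    (hζV : Fx V ζ) {A : ValuationSubring (K E V)} (hA : Good l A)
    (hinv : ∀ (g : Δ) (x : K E V), A.valuation x < 1 → A.valuation (gact V hV g x) < 1) :
    Good l (A.comap (incl h)) where
  ne_top := comap_ne_top hA.ne_top _
  l_unit := by
    rw [comap_eq, map_natCast]
    exact hA.l_unit
  one_units := by
    intro x hx
    rw [comap_lt, map_sub, map_one] at hx
    obtain ⟨t, ht⟩ := hA.one_units _ hx
    have hζ' : IsPrimitiveRoot (⟨ζ, hζV⟩ : K E V) l :=
      IsPrimitiveRoot.of_map_of_injective (f := (K E V).subtype) hζ (K E V).subtype.injective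
    obtain ⟨t', ht', ht1⟩ := exists_root_one hζ' ht hx
    have hfix : Fx W (t' : E) := by
      intro g hg
      have h1 : gact V hV g t' = t' := by
        apply root_unique hA.l_unit
        · rw [← map_pow, ht']
          apply Subtype.ext
          rw [gact_coe, incl_coe]
          exact x.2 g hg
        · have := hinv g _ ht1
          rwa [map_sub, map_one] at this
        · exact ht1
      rw [← gact_coe V hV, h1]
    refine ⟨⟨t', hfix⟩, Subtype.ext ?_⟩
    have := congrArg (fun z : K E V => (z : E)) ht'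
    simpa [incl_coe] using this

/-- the hypotheses on the family of subgroups -/
structure Fam (E : Type*) [Field E] [MulSemiringAction Δ E] (l : ℕ) (𝒱 : Set (Subgroup Δ)) :
    Prop where
  normal : ∀ V ∈ 𝒱, V.Normal
  inf : ∀ V ∈ 𝒱, ∀ W ∈ 𝒱, V ⊓ W ∈ 𝒱
  cover : ∀ x : E, ∃ V ∈ 𝒱, Fx V x
  ge : ∀ V ∈ 𝒱, RankGE E l V
  le : ∀ V ∈ 𝒱, ∀ θ : E, Fx V (θ ^ l) → ¬ Fx V θ → RankLE E l (St V θ)

/-- **the glued valuation ring** -/
theorem exists_glued [CharZero E] [Algebra.IsAlgebraic ℚ E] {l : ℕ} [hl : Fact l.Prime]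
    (hl3 : 3 ≤ l) (hroot : ∀ x : E, ∃ θ, θ ^ l = x) {ζ : E} (hζ : IsPrimitiveRoot ζ l)
    (hζΔ : ∀ g : Δ, g • ζ = ζ) {𝒱 : Set (Subgroup Δ)} (hF : Fam E l 𝒱) :
    ∃ A : ValuationSubring E, A ≠ ⊤ ∧ A.valuation (l : E) = 1 ∧
      (∀ (g : Δ) (x : E), x ∈ A → g • x ∈ A) ∧
      ∀ V ∈ 𝒱, Good l (A.comap (K E V).subtype) := by
  have hζV : ∀ V : Subgroup Δ, Fx V ζ := fun V g _ => hζΔ g
  have hex : ∀ V (hV : V ∈ 𝒱), ∃ A : ValuationSubring (K E V), Good l A := fun V hV =>
    exists_good hl3 hroot hζ (hζV V) (hF.ge V hV) (hF.le V hV)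
  choose Av hAv using hex
  have hu : ∀ V (hV : V ∈ 𝒱) (B : ValuationSubring (K E V)), Good l B → B = Av V hV :=
    fun V hV B hB => hB.unique hl.out.ne_zero (hAv V hV) (exists_not_pow (hF.ge V hV))
  have hact : ∀ V (hV : V ∈ 𝒱) (g : Δ), (Av V hV).comap (gact V (hF.normal V hV) g) = Av V hV :=
    fun V hV g => hu V hV _ ((hAv V hV).comap_surj _ (gact_surj V _ g))
  have hlt : ∀ V (hV : V ∈ 𝒱) (g : Δ) (x : K E V), (Av V hV).valuation x < 1 →
      (Av V hV).valuation (gact V (hF.normal V hV) g x) < 1 := by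
    intro V hV g x hx
    rw [← comap_lt, hact V hV g]
    exact hx
  have hres : ∀ V (hV : V ∈ 𝒱) W (hW : W ∈ 𝒱) (h : V ≤ W), (Av V hV).comap (incl h) = Av W hW :=
    fun V hV W hW h => hu W hW _ (good_restrict (hF.normal V hV) h hζ (hζV V) (hAv V hV)
      (hlt V hV))
  have hmem : ∀ V (hV : V ∈ 𝒱) W (hW : W ∈ 𝒱) (x : E) (h1 : Fx V x) (h2 : Fx W x),
      (⟨x, h1⟩ : K E V) ∈ Av V hV → (⟨x, h2⟩ : K E W) ∈ Av W hW := by
    intro V hV W hW x h1 h2 hx
    have hVW := hF.inf V hV W hW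
    have e1 := hres _ hVW V hV inf_le_left
    have e2 := hres _ hVW W hW inf_le_right
    rw [← e1, ValuationSubring.mem_comap] at hx
    rw [← e2, ValuationSubring.mem_comap]
    exact hx
  let S : Subring E :=
    { carrier := {x | ∃ V, ∃ hV : V ∈ 𝒱, ∃ hx : Fx V x, (⟨x, hx⟩ : K E V) ∈ Av V hV}
      one_mem' := by
        obtain ⟨V, hV, hx⟩ := hF.cover 1
        exact ⟨V, hV, hx, (Av V hV).one_mem⟩
      zero_mem' := by
        obtain ⟨V, hV, hx⟩ := hF.cover 0
        exact ⟨V, hV, hx, (Av V hV).zero_mem⟩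
      neg_mem' := by
        rintro x ⟨V, hV, hx, h⟩
        exact ⟨V, hV, (K E V).neg_mem hx, (Av V hV).neg_mem _ h⟩
      mul_mem' := by
        rintro x y ⟨V, hV, hx, h⟩ ⟨W, hW, hy, h'⟩
        have hVW := hF.inf V hV W hW
        have h1 := hmem V hV _ hVW x hx (Fx.mono inf_le_left hx) h
        have h2 := hmem W hW _ hVW y hy (Fx.mono inf_le_right hy) h'
        exact ⟨_, hVW, (K E (V ⊓ W)).mul_mem (Fx.mono inf_le_left hx) (Fx.mono inf_le_right hy),
          (Av _ hVW).mul_mem _ _ h1 h2⟩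
      add_mem' := by
        rintro x y ⟨V, hV, hx, h⟩ ⟨W, hW, hy, h'⟩
        have hVW := hF.inf V hV W hW
        have h1 := hmem V hV _ hVW x hx (Fx.mono inf_le_left hx) h
        have h2 := hmem W hW _ hVW y hy (Fx.mono inf_le_right hy) h'
        exact ⟨_, hVW, (K E (V ⊓ W)).add_mem (Fx.mono inf_le_left hx) (Fx.mono inf_le_right hy),
          (Av _ hVW).add_mem _ _ h1 h2⟩ }
  have hS : ∀ x, x ∈ S ↔ ∃ V, ∃ hV : V ∈ 𝒱, ∃ hx : Fx V x, (⟨x, hx⟩ : K E V) ∈ Av V hV :=
    fun x => Iff.rfl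
  let A : ValuationSubring E := ValuationSubring.ofSubring S (by
    intro x
    obtain ⟨V, hV, hx⟩ := hF.cover x
    rcases (Av V hV).mem_or_inv_mem ⟨x, hx⟩ with h | h
    · exact Or.inl ⟨V, hV, hx, h⟩
    · exact Or.inr ⟨V, hV, (K E V).inv_mem hx, h⟩)
  have hA : ∀ x, x ∈ A ↔ x ∈ S := fun x => ValuationSubring.mem_ofSubring _ _ x
  have hAV : ∀ V (hV : V ∈ 𝒱), A.comap (K E V).subtype = Av V hV := by
    intro V hV
    ext x
    rw [ValuationSubring.mem_comap, hA, hS]
    constructor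
    · rintro ⟨W, hW, hx, h⟩
      exact hmem W hW V hV _ hx x.2 h
    · intro h
      exact ⟨V, hV, x.2, h⟩
  obtain ⟨V₀, hV₀, -⟩ := hF.cover 1
  refine ⟨A, ?_, ?_, ?_, ?_⟩
  · rw [ne_top_iff]
    obtain ⟨x, hx⟩ := ne_top_iff.mp (hAv V₀ hV₀).ne_top
    rw [← hAV V₀ hV₀, ValuationSubring.mem_comap] at hx
    exact ⟨_, hx⟩
  · have := (hAv V₀ hV₀).l_unit
    rw [← hAV V₀ hV₀, comap_eq, map_natCast] at this
    exact this
  · intro g x hx
    rw [hA, hS] at hx ⊢
    obtain ⟨V, hV, hx, h⟩ := hx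
    refine ⟨V, hV, (gact V (hF.normal V hV) g ⟨x, hx⟩).2, ?_⟩
    rw [← hact V hV g, ValuationSubring.mem_comap] at h
    exact h
  · intro V hV
    rw [hAV V hV]
    exact hAv V hV

end Crest.Agent.R018.Rig7x931
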