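import Mathlib
import Crest.Agent.R018.TameF_31
import Crest.Agent.R018.S2Tr_568

set_option autoImplicit false

/-!
Row 18, (S2), local half (helper380).  Orders of transported Kummer classes.
-/

namespace Crest.Agent.R018.S2Locx380

open Crest.Agent.R018.Placesx484 Crest.Agent.R018.Placesx484.Place NumberField IsDedekindDomain
open Crest.Agent.R018.Selmerx380 Crest.Agent.R018.Tamex31
open scoped Pointwise

section ord

variable {K E : Type*} [Field K] [NumberField K] [Field E] [CharZero E] [Algebra.IsAlgebraic ℚ E]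
  [Algebra K E]

theorem v_le_one_iff_ord (Q : Place K) (a : Kˣ) : Q.v (a : K) ≤ 1 ↔ 0 ≤ ord (𝓞 K) (hos Q) a := by
  rw [numberField_val_iff]
  change (hos Q).valuation K (a : K) ≤ 1 ↔ _
  rw [valuation_eq_exp, ← WithZero.exp_zero, WithZero.exp_le_exp]
  omega

theorem v_eq_one_iff_ord (Q : Place K) (a : Kˣ) : Q.v (a : K) = 1 ↔ ord (𝓞 K) (hos Q) a = 0 := by
  have h1 := v_le_one_iff_ord Q a
  have h2 := v_le_one_iff_ord Q a⁻¹
  rw [ord_inv, Units.val_inv_eq_inv_val, map_inv₀] at h2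
  have h0 : Q.v (a : K) ≠ 0 := (map_ne_zero _).2 a.ne_zero
  constructor
  · intro h
    rw [h] at h1 h2
    rw [inv_one] at h2
    have h3 := h1.1 le_rfl
    have h4 := h2.1 le_rfl
    omega
  · intro h
    rw [h] at h1 h2
    have h3 := h1.2 le_rfl
    have h4 := h2.2 (by simp)
    exact le_antisymm h3 ((inv_le_one₀ (zero_lt_iff.2 h0)).1 h4)

/-- units at the place below are units -/
theorem v_eq_one_iff_ord_res (P : Place E) (a : Kˣ) :
    P.v (algebraMap K E (a : K)) = 1 ↔ ord (𝓞 K) (hos (P.res K)) a = 0 := by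
  rw [← v_res_eq_one_iff, v_eq_one_iff_ord]

end ord

section inertia

variable {F E : Type*} [Field F] [Field E] [CharZero E] [Algebra.IsAlgebraic ℚ E] [Algebra F E]

/-- inertia fixes a unit `u` with `g (u^n) = u^n`, `n` prime to the residue characteristic -/
theorem inertia_fix (P : Place E) (g : E ≃ₐ[F] E) (hg : g ∈ P.ideal.inertia (E ≃ₐ[F] E)) (n : ℕ)
    (hn : ¬ P.rchar ∣ n) (u : E) (hu : P.v u = 1) (h : g u ^ n = u ^ n) : g u = u := by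
  have hu0 : u ≠ 0 := by
    rintro rfl
    rw [map_zero] at hu
    exact zero_ne_one hu
  have h1 : (g u / u) ^ n = 1 := by
    rw [div_pow, h, div_self (pow_ne_zero _ hu0)]
  have h2 := root_eq_one (val_natCast_eq_one P hn) h1 (in_unit ((mem_inS_val P g).2 hg) hu)
  rwa [div_eq_one_iff_eq hu0] at h2

variable {K : Type*} [Field K] [NumberField K] [Algebra K E]

/-- **Tame formula.** -/
theorem inertia_formula (P : Place E) (g : E ≃ₐ[F] E) (hg : g ∈ P.ideal.inertia (E ≃ₐ[F] E))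
    (hgK : ∀ x : K, g (algebraMap K E x) = algebraMap K E x) (n : ℕ)
    (hn : ¬ P.rchar ∣ n) (π z : E) (ϖ a : Kˣ) (hϖ : ord (𝓞 K) (hos (P.res K)) ϖ = 1)
    (hπ : π ^ n = algebraMap K E ϖ) (hz : z ^ n = algebraMap K E a) :
    g z = (g π / π) ^ (ord (𝓞 K) (hos (P.res K)) a) * z := by
  have hn0 : n ≠ 0 := by
    rintro rfl
    exact hn (dvd_zero _)
  have hπ0 : π ≠ 0 := by
    rintro rfl
    rw [zero_pow hn0] at hπ
    exact ϖ.ne_zero ((map_eq_zero _).1 hπ.symm)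
  set m := ord (𝓞 K) (hos (P.res K)) a with hm
  have hord : ∀ k : ℤ, ord (𝓞 K) (hos (P.res K)) (ϖ ^ k) = k := by
    intro k
    obtain ⟨j, rfl | rfl⟩ := k.eq_nat_or_neg
    · rw [zpow_natCast, ord_pow, hϖ, mul_one]
    · rw [zpow_neg, zpow_natCast, ord_inv, ord_pow, hϖ, mul_one]
  have h0 : ord (𝓞 K) (hos (P.res K)) (a / ϖ ^ m) = 0 := by
    rw [ord_div, hord, ← hm, sub_self]
  have h1 := (v_eq_one_iff_ord_res (E := E) P (a / ϖ ^ m)).2 h0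
  have hu : (z / π ^ m) ^ n = algebraMap K E ((a / ϖ ^ m : Kˣ) : K) := by
    rw [div_pow, hz, ← zpow_natCast, ← zpow_mul, mul_comm m, zpow_mul, zpow_natCast, hπ,
      Units.val_div_eq_div_val, map_div₀, Units.val_zpow_eq_zpow_val, map_zpow₀]
  have h2 : P.v (z / π ^ m) = 1 := by
    rw [← hu, map_pow] at h1
    exact (pow_eq_one_iff_of_nonneg zero_le hn0).mp h1
  have h3 := inertia_fix P g hg n hn (z / π ^ m) h2 (by rw [← map_pow, hu, hgK])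
  rw [map_div₀, map_zpow₀] at h3
  have h4 : g π ≠ 0 := by simpa using hπ0
  have h5 : π ^ m ≠ 0 := zpow_ne_zero _ hπ0
  have h6 : g π ^ m ≠ 0 := zpow_ne_zero _ h4
  rw [div_eq_div_iff h6 h5] at h3
  rw [div_zpow, div_mul_eq_mul_div, eq_div_iff h5, h3, mul_comm]

end inertia

theorem val_lpow {E : Type*} [Field E] [CharZero E] [Algebra.IsAlgebraic ℚ E] (P : Place E)
    (l : ℕ) (hl : l.Prime) (hP : P.rchar ≠ l) (k : ℕ) :
    P.val.valuation ((l ^ k : ℕ) : E) = 1 := by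
  rw [Nat.cast_pow, map_pow, val_prime_eq_one P hl hP, one_pow]

section dec

variable {F E : Type*} [Field F] [Field E] [CharZero E] [Algebra.IsAlgebraic ℚ E] [Algebra F E]

/-- elements of the decomposition group fixing all `l`-power roots of unity fix the `l`-power
roots of a unit which they fix -/
theorem dec_fix (Q : Place E) (g : E ≃ₐ[F] E) (hg : g • Q = Q) (l : ℕ) (hl : l.Prime)
    (hQ : Q.rchar ≠ l) (hroots : ∀ k : ℕ, ∃ ζ : E, IsPrimitiveRoot ζ (l ^ k))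
    (hfix : ∀ k : ℕ, ∀ ζ : E, ζ ^ (l ^ k) = 1 → g ζ = ζ) (n : ℕ) (y : E) (hy : Q.v y = 1)
    (h : g y ^ (l ^ n) = y ^ (l ^ n)) : g y = y := by
  classical
  have hy0 : y ≠ 0 := by
    rintro rfl
    rw [map_zero] at hy
    exact zero_ne_one hy
  have hlk : ∀ k : ℕ, Q.val.valuation ((l ^ k : ℕ) : E) = 1 := fun k =>
    val_lpow Q l hl hQ k
  have hdec : g ∈ decS F Q.val := (mem_decS_val Q g).2 hg
  have hval : ∀ x : E, Q.val.valuation (g x) < 1 ↔ Q.val.valuation x < 1 := dec_lt_one hdec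
  -- a power of `y` prime to the residue characteristic is close to `1`
  obtain ⟨r, hr0, hr⟩ := (torsRes Q).2 y ((Q.v_le_one_iff y).1 hy.le)
  set M := Q.rchar ^ r - 1 with hM
  have hM1 : Q.rchar ^ r = M + 1 := by
    have := Nat.one_le_pow r Q.rchar Q.rchar_prime.pos
    omega
  have hM0 : M ≠ 0 := by
    have := Nat.one_lt_pow hr0.ne' Q.rchar_prime.one_lt
    omega
  have hyM : Q.v (y ^ M - 1) < 1 := by
    have h1 : y ^ (Q.rchar ^ r) - y = y * (y ^ M - 1) := by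
      rw [hM1]; ring
    rw [h1] at hr
    have h2 : Q.v (y * (y ^ M - 1)) < 1 := hr
    rwa [map_mul, hy, one_mul] at h2
  obtain ⟨e, m, hm, hMe⟩ := Nat.exists_eq_pow_mul_and_not_dvd hM0 l hl.ne_one
  obtain ⟨ζ, hζ⟩ := hroots e
  -- `y^m` is close to an `l`-power root of unity
  have hprod : (y ^ m) ^ (l ^ e) - 1 = ∏ i ∈ Finset.range (l ^ e), (y ^ m - ζ ^ i) := by
    have hpos : 0 < l ^ e := pow_pos hl.pos e
    have h1 := hζ.pow_sub_pow_eq_prod_sub_mul (y ^ m) 1 hpos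
    rw [one_pow] at h1
    rw [h1]
    symm
    have h2 : Polynomial.nthRootsFinset (l ^ e) (1 : E) =
        (Finset.range (l ^ e)).image (fun i => ζ ^ i) := by
      ext w
      rw [Polynomial.mem_nthRootsFinset hpos, Finset.mem_image]
      have : NeZero (l ^ e) := ⟨hpos.ne'⟩
      constructor
      · intro hw
        obtain ⟨i, hi, hiw⟩ := hζ.eq_pow_of_pow_eq_one hw
        exact ⟨i, Finset.mem_range.2 hi, hiw⟩
      · rintro ⟨i, -, rfl⟩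
        rw [← pow_mul, mul_comm, pow_mul, hζ.pow_eq_one, one_pow]
    rw [h2, Finset.prod_image]
    · simp
    · intro i hi j hj hij
      exact hζ.pow_inj (Finset.mem_range.1 hi) (Finset.mem_range.1 hj) hij
  have hex : ∃ i ∈ Finset.range (l ^ e), Q.v (y ^ m - ζ ^ i) < 1 := by
    by_contra hcon
    push Not at hcon
    have h1 : Q.v ((y ^ m) ^ (l ^ e) - 1) < 1 := by
      rw [← pow_mul, mul_comm m, ← hMe]
      exact hyM
    rw [hprod, map_prod] at h1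
    have h2 : (1 : Q.val.ValueGroup) ≤ ∏ i ∈ Finset.range (l ^ e), Q.v (y ^ m - ζ ^ i) :=
      Finset.one_le_prod' fun i hi => hcon i hi
    exact absurd h1 (not_lt.2 h2)
  obtain ⟨i, -, hi⟩ := hex
  -- hence `g (y^m)` is close to `y^m`
  have hζi : g (ζ ^ i) = ζ ^ i := hfix e _ (by
    rw [← pow_mul, mul_comm, pow_mul, hζ.pow_eq_one, one_pow])
  have h3 : Q.v (g (y ^ m) - y ^ m) < 1 := by
    have h4 : g (y ^ m) - y ^ m = g (y ^ m - ζ ^ i) - (y ^ m - ζ ^ i) := by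
      rw [map_sub, hζi]; ring
    rw [h4]
    refine lt_of_le_of_lt (Q.v.map_sub _ _) (max_lt ?_ hi)
    exact (hval _).2 hi
  have h5 : (g y / y) ^ (l ^ n) = 1 := by
    rw [div_pow, h, div_self (pow_ne_zero _ hy0)]
  have h6 : Q.v ((g y / y) ^ m - 1) < 1 := by
    have h7 : (g y / y) ^ m - 1 = (g (y ^ m) - y ^ m) / y ^ m := by
      rw [div_pow, map_pow]
      field_simp
    rw [h7, map_div₀, Q.v.map_pow, hy, one_pow, div_one]
    exact h3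
  have h8 : (g y / y) ^ m = 1 := root_eq_one (A := Q.val) (hlk n) (by
    rw [← pow_mul, mul_comm, pow_mul, h5, one_pow]) h6
  have hcop : Nat.Coprime m (l ^ n) :=
    (Nat.Coprime.pow_right n ((Nat.Prime.coprime_iff_not_dvd hl).2 hm).symm)
  have h9 : g y / y = 1 := by
    have h10 := orderOf_dvd_of_pow_eq_one h8
    have h11 := orderOf_dvd_of_pow_eq_one h5
    have h12 := Nat.dvd_gcd h10 h11
    rw [hcop] at h12
    exact orderOf_eq_one_iff.1 (Nat.dvd_one.1 h12)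
  rwa [div_eq_one_iff_eq hy0] at h9

end dec

section transport

open Crest.Agent.R018.S2Trx568 Crest.Agent.R018.Kum2x568

/-- a neighbourhood of `1` fixing `y` contains an open normal subgroup -/
theorem exists_open_normal {F E : Type*} [Field F] [Field E] [Algebra F E] [IsGalois F E] (y : E) :
    ∃ N : Subgroup (E ≃ₐ[F] E), N.Normal ∧ IsOpen (N : Set (E ≃ₐ[F] E)) ∧ ∀ g ∈ N, g y = y := by
  have h1 : IsOpen (MulAction.stabilizer (E ≃ₐ[F] E) y : Set (E ≃ₐ[F] E)) :=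
    stabilizer_isOpen_of_isIntegral y
  obtain ⟨N, hN⟩ := ProfiniteGrp.exist_openNormalSubgroup_sub_open_nhds_of_one h1
    (Subgroup.one_mem _)
  exact ⟨N.toSubgroup, inferInstance, N.isOpen', fun g hg => MulAction.mem_stabilizer_iff.1 (hN hg)⟩

variable {F₁ E₁ F₂ E₂ : Type*} [Field F₁] [Field E₁] [CharZero E₁]
  [Algebra.IsAlgebraic ℚ E₁] [Algebra F₁ E₁] [Field F₂] [NumberField F₂]
  [Field E₂] [CharZero E₂] [Algebra.IsAlgebraic ℚ E₂] [Algebra F₂ E₂] [IsGalois F₂ E₂]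

variable {α : (E₁ ≃ₐ[F₁] E₁) →* (E₂ ≃ₐ[F₂] E₂)} {K : IntermediateField F₁ E₁}

/-- `α τ` fixes the `l^n`-th roots of `x` for `τ` in the inertia group of `P`, if `α` kills the
`l`-part of inertia (first alternative), or `P` goes to `Q` and `x` is a unit at `Q`. -/
theorem apply_inertia_fix (l n : ℕ) (hl : l.Prime)
    (hcyc : ∀ (k : ℕ) (ζ₁ : E₁) (ζ₂ : E₂), IsPrimitiveRoot ζ₁ (l ^ k) → IsPrimitiveRoot ζ₂ (l ^ k) →
      Cyc α K.fixingSubgroup ζ₁ ζ₂)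
    (hroots₁ : ∀ k : ℕ, ∃ ζ : E₁, IsPrimitiveRoot ζ (l ^ k))
    (hroots₂ : ∀ k : ℕ, ∃ ζ : E₂, IsPrimitiveRoot ζ (l ^ k))
    (P : Place E₁) (hP : P.rchar ≠ l) (x : F₂ˣ)
    (loc : (∀ τ ∈ P.ideal.inertia (E₁ ≃ₐ[F₁] E₁), ∀ N : Subgroup (E₂ ≃ₐ[F₂] E₂), N.Normal →
        IsOpen (N : Set (E₂ ≃ₐ[F₂] E₂)) → ∃ m : ℕ, ¬ l ∣ m ∧ (α τ) ^ m ∈ N) ∨
      ∃ Q : Place E₂, (∀ d : E₁ ≃ₐ[F₁] E₁, d • P = P → α d • Q = Q) ∧ Q.rchar ≠ l ∧
        ord (𝓞 F₂) (hos (Q.res F₂)) x = 0)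
    (τ : E₁ ≃ₐ[F₁] E₁) (hτK : τ ∈ K.fixingSubgroup) (hτ : τ ∈ P.ideal.inertia (E₁ ≃ₐ[F₁] E₁))
    (y : E₂) (hy : y ^ (l ^ n) = algebraMap F₂ E₂ (x : F₂)) : α τ y = y := by
  have hln : l ^ n ≠ 0 := pow_ne_zero _ hl.ne_zero
  have hy0 : y ≠ 0 := by
    rintro rfl
    rw [zero_pow hln] at hy
    exact x.ne_zero ((map_eq_zero _).1 hy.symm)
  have hlk : ∀ k : ℕ, P.val.valuation ((l ^ k : ℕ) : E₁) = 1 := fun k =>
    val_lpow P l hl hP k
  -- `α τ` fixes the roots of unity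
  have hfix : ∀ k : ℕ, ∀ ζ : E₂, ζ ^ (l ^ k) = 1 → α τ ζ = ζ := by
    intro k ζ hζ
    obtain ⟨ζ₁, h₁⟩ := hroots₁ k
    obtain ⟨ζ₂, h₂⟩ := hroots₂ k
    obtain ⟨a, ha₂, ha₁⟩ := hcyc k ζ₁ ζ₂ h₁ h₂ τ hτK
    have h3 : τ ζ₁ = ζ₁ := in_fix_root ((mem_inS_val P τ).2 hτ) (hlk k) h₁.pow_eq_one
    have hlk0 : l ^ k ≠ 0 := pow_ne_zero _ hl.ne_zero
    have : NeZero (l ^ k) := ⟨hlk0⟩
    obtain ⟨i, -, rfl⟩ := h₂.eq_pow_of_pow_eq_one hζ
    rw [h3] at ha₁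
    have h4 : ζ₂ ^ a = ζ₂ := by
      have h5 : ζ₁ ^ (a + (l ^ k - 1)) = 1 := by
        rw [pow_add, ← ha₁, ← pow_succ', Nat.sub_add_cancel (Nat.one_le_iff_ne_zero.2 hlk0),
          h₁.pow_eq_one]
      have h6 := (h₁.pow_eq_one_iff_dvd _).1 h5
      have h7 := (h₂.pow_eq_one_iff_dvd _).2 h6
      have h8 : ζ₂ ^ a * (ζ₂ ^ (l ^ k - 1) * ζ₂) = ζ₂ := by
        rw [← mul_assoc, ← pow_add, h7, one_mul]
      rwa [← pow_succ, Nat.sub_add_cancel (Nat.one_le_iff_ne_zero.2 hlk0), h₂.pow_eq_one,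
        mul_one] at h8
    rw [map_pow, ha₂, h4]
  have hαy : α τ y ^ (l ^ n) = y ^ (l ^ n) := by
    rw [← map_pow, hy, AlgEquiv.commutes]
  rcases loc with h | ⟨Q, hQ, hQl, hx⟩
  · obtain ⟨N, hN, hNo, hNy⟩ := exists_open_normal (F := F₂) y
    obtain ⟨m, hm, hmN⟩ := h τ hτ N hN hNo
    have h5 : (α τ y / y) ^ (l ^ n) = 1 := by
      rw [div_pow, hαy, div_self (pow_ne_zero _ hy0)]
    have h6 : ∀ j : ℕ, ((α τ) ^ j) y = (α τ y / y) ^ j * y := by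
      intro j
      induction j with
      | zero => simp
      | succ j ih =>
        rw [pow_succ', AlgEquiv.mul_apply, ih, map_mul, map_pow, hfix n _ h5, pow_succ, mul_assoc,
          div_mul_cancel₀ _ hy0]
    have h7 := hNy _ hmN
    rw [h6] at h7
    have h8 : (α τ y / y) ^ m = 1 := by
      have : (α τ y / y) ^ m * y = 1 * y := by rw [h7, one_mul]
      exact mul_right_cancel₀ hy0 this
    have hcop : Nat.Coprime m (l ^ n) :=
      (Nat.Coprime.pow_right n ((Nat.Prime.coprime_iff_not_dvd hl).2 hm).symm)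
    have h12 := Nat.dvd_gcd (orderOf_dvd_of_pow_eq_one h8) (orderOf_dvd_of_pow_eq_one h5)
    rw [hcop] at h12
    have h9 : α τ y / y = 1 := orderOf_eq_one_iff.1 (Nat.dvd_one.1 h12)
    rwa [div_eq_one_iff_eq hy0] at h9
  · refine dec_fix Q (α τ) (hQ τ (smul_eq_of_mem_inertia P hτ)) l hl hQl hroots₂ hfix n y ?_ hαy
    have h1 := (v_eq_one_iff_ord_res (E := E₂) Q x).2 hx
    rw [← hy, map_pow] at h1
    exact (pow_eq_one_iff_of_nonneg zero_le hln).mp h1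

/-- **(S2-LOC)** the order of a transported class is divisible by `l^n`. -/
theorem dvd_ord_transport [NumberField K] [IsGalois F₁ E₁] (l n : ℕ) (hl : l.Prime)
    (hcyc : ∀ (k : ℕ) (ζ₁ : E₁) (ζ₂ : E₂), IsPrimitiveRoot ζ₁ (l ^ k) → IsPrimitiveRoot ζ₂ (l ^ k) →
      Cyc α K.fixingSubgroup ζ₁ ζ₂)
    (hroots₁ : ∀ k : ℕ, ∃ ζ : E₁, IsPrimitiveRoot ζ (l ^ k))
    (hroots₂ : ∀ k : ℕ, ∃ ζ : E₂, IsPrimitiveRoot ζ (l ^ k))
    (hpow₁ : ∀ x : E₁, ∃ y : E₁, y ^ (l ^ n) = x)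
    {ζ₁ : E₁} {ζ₂ : E₂} (h₁ : IsPrimitiveRoot ζ₁ (l ^ n)) (h₂ : IsPrimitiveRoot ζ₂ (l ^ n))
    {Φ : F₂ˣ → Kˣ} (hΦ : IsTransport K α (l ^ n) ζ₁ ζ₂ Φ)
    (P : Place E₁) (hP : P.rchar ≠ l) (x : F₂ˣ)
    (loc : (∀ τ ∈ P.ideal.inertia (E₁ ≃ₐ[F₁] E₁), ∀ N : Subgroup (E₂ ≃ₐ[F₂] E₂), N.Normal →
        IsOpen (N : Set (E₂ ≃ₐ[F₂] E₂)) → ∃ m : ℕ, ¬ l ∣ m ∧ (α τ) ^ m ∈ N) ∨
      ∃ Q : Place E₂, (∀ d : E₁ ≃ₐ[F₁] E₁, d • P = P → α d • Q = Q) ∧ Q.rchar ≠ l ∧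
        ord (𝓞 F₂) (hos (Q.res F₂)) x = 0) :
    ((l ^ n : ℕ) : ℤ) ∣ ord (𝓞 K) (hos (P.res K)) (Φ x) := by
  have hln : l ^ n ≠ 0 := pow_ne_zero _ hl.ne_zero
  have : IsGalois K E₁ := IsGalois.tower_top_of_isGalois F₁ K E₁
  obtain ⟨ϖ, hϖ⟩ := exists_ord_eq_one (K := K) (hos (P.res K))
  obtain ⟨π, hπ⟩ := hpow₁ (algebraMap K E₁ ϖ)
  obtain ⟨z, hz⟩ := hpow₁ (algebraMap K E₁ (Φ x : K))
  have hπ0 : π ≠ 0 := by
    rintro rfl
    rw [zero_pow hln] at hπ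
    exact ϖ.ne_zero ((map_eq_zero _).1 hπ.symm)
  have hz0 : z ≠ 0 := by
    rintro rfl
    rw [zero_pow hln] at hz
    exact (Φ x).ne_zero ((map_eq_zero _).1 hz.symm)
  have hN : ¬ P.rchar ∣ l ^ n := fun h =>
    hP ((Nat.prime_dvd_prime_iff_eq P.rchar_prime hl).1 (P.rchar_prime.dvd_of_dvd_pow h))
  obtain ⟨τ₀, hτ₀, hτπ⟩ := exists_inertia_root (K := K) P (l ^ n) hN ζ₁ π h₁ ϖ
    (by rw [hϖ]; exact isCoprime_one_left) hπ
  let τ : E₁ ≃ₐ[F₁] E₁ := τ₀.restrictScalars F₁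
  have hτK : τ ∈ K.fixingSubgroup := by
    rw [IntermediateField.mem_fixingSubgroup_iff]
    intro w hw
    exact τ₀.commutes ⟨w, hw⟩
  have hτ : τ ∈ P.ideal.inertia (E₁ ≃ₐ[F₁] E₁) := fun w => hτ₀ w
  have h3 := hΦ.ram hln h₁ h₂ (hcyc n ζ₁ ζ₂ h₁ h₂) x τ hτK
    (fun y hy => apply_inertia_fix l n hl hcyc hroots₁ hroots₂ P hP x loc τ hτK hτ y hy) z hz
  have h4 := inertia_formula (F := F₁) (K := K) P τ hτ (fun w => τ₀.commutes w) (l ^ n) hN π z ϖ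
    (Φ x) hϖ hπ hz
  have h5 : τ π / π = ζ₁ := by
    rw [div_eq_iff hπ0]
    exact hτπ
  rw [h3, h5] at h4
  have h6 : ζ₁ ^ (ord (𝓞 K) (hos (P.res K)) (Φ x)) = 1 := by
    have : ζ₁ ^ (ord (𝓞 K) (hos (P.res K)) (Φ x)) * z = 1 * z := by rw [← h4, one_mul]
    exact mul_right_cancel₀ hz0 this
  exact (h₁.zpow_eq_one_iff_dvd _).1 h6

end transport

end Crest.Agent.R018.S2Locx380
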