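import Mathlib
import Crest.Agent.R018.Hit2_380
import Crest.Agent.R018.S2Loc_380
import Crest.Agent.R018.LocDef_31
import Crest.Agent.R018.LocConv_31

/-!
Row 18: **(S1)** all but finitely many places of the target are hit (helper380).

`G` an open subgroup of `Gal(E₁/k₁)`, `α : G → Gal(E₂/k₂)` continuous with open range, `l` a prime
for which the local correspondence holds.  Then all places `Q` of `E₂` of large residue
characteristic are of the form `P → Q` with `P ∈ S1(l)`.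
-/

set_option autoImplicit false

namespace Crest.Agent.R018.S1Finx380

open IsDedekindDomain NumberField Selmerx380 Ramx380 Placesx484 Hit2x380 S2Locx380 LocDefx31
  Tamex31 LocConvx31
open scoped Pointwise

/-- if `g` fixes the `N`-th roots of unity, `g (y^N) = y^N` and some power of `g` prime to `N`
fixes `y`, then `g` fixes `y` -/
theorem fix_of_pow {F E : Type*} [Field F] [Field E] [Algebra F E] (g : E ≃ₐ[F] E) (N n : ℕ)
    (y : E) (h : g y ^ N = y ^ N) (hfix : ∀ ζ : E, ζ ^ N = 1 → g ζ = ζ)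
    (hn : Nat.Coprime n N) (hgn : (g ^ n) y = y) : g y = y := by
  by_cases hy0 : y = 0
  · rw [hy0, map_zero]
  have h5 : (g y / y) ^ N = 1 := by
    rw [div_pow, h, div_self (pow_ne_zero _ hy0)]
  have h6 : ∀ j : ℕ, (g ^ j) y = (g y / y) ^ j * y := by
    intro j
    induction j with
    | zero => simp
    | succ j ih =>
      rw [pow_succ', AlgEquiv.mul_apply, ih, map_mul, map_pow, hfix _ h5, pow_succ, mul_assoc,
        div_mul_cancel₀ _ hy0]
  rw [h6] at hgn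
  have h8 : (g y / y) ^ n = 1 := by
    have : (g y / y) ^ n * y = 1 * y := by rw [hgn, one_mul]
    exact mul_right_cancel₀ hy0 this
  have h12 := Nat.dvd_gcd (orderOf_dvd_of_pow_eq_one h8) (orderOf_dvd_of_pow_eq_one h5)
  rw [hn] at h12
  have h9 : g y / y = 1 := orderOf_eq_one_iff.1 (Nat.dvd_one.1 h12)
  rwa [div_eq_one_iff_eq hy0] at h9

section main

variable {k₁ E₁ k₂ E₂ : Type*} [Field k₁] [NumberField k₁] [Field E₁] [CharZero E₁]
  [Algebra.IsAlgebraic ℚ E₁] [Algebra k₁ E₁] [IsGalois k₁ E₁] [Field k₂] [NumberField k₂]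
  [Field E₂] [CharZero E₂] [Algebra.IsAlgebraic ℚ E₂] [Algebra k₂ E₂] [IsGalois k₂ E₂]

/-- the image of an open subgroup of `G` under `α : G → Gal(E₂/k₂)` with open range is open -/
theorem isOpen_map {k E : Type*} [Field k] [Field E] [Algebra k E] [IsGalois k E]
    {G : Subgroup (E₁ ≃ₐ[k₁] E₁)} (hG : IsOpen (G : Set (E₁ ≃ₐ[k₁] E₁)))
    (α : G →* (E ≃ₐ[k] E)) (hα : Continuous α) (hr : IsOpen (Set.range α))
    (S : Subgroup G) (hS : IsOpen (S : Set G)) : IsOpen ((S.map α : Subgroup (E ≃ₐ[k] E)) :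
      Set (E ≃ₐ[k] E)) := by
  have hGc : IsClosed (G : Set (E₁ ≃ₐ[k₁] E₁)) := Subgroup.isClosed_of_isOpen G hG
  have : CompactSpace G := isCompact_iff_compactSpace.1 hGc.isCompact
  have hSc : IsClosed (S : Set G) := Subgroup.isClosed_of_isOpen S hS
  have hcomp : IsCompact ((S.map α : Subgroup (E ≃ₐ[k] E)) : Set (E ≃ₐ[k] E)) := by
    rw [Subgroup.coe_map]
    exact hSc.isCompact.image hα
  have hfi : (S.map α).index ≠ 0 := by
    have h1 : S.index ≠ 0 := by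
      have hq : Finite (G ⧸ S) := Subgroup.quotient_finite_of_isOpen S hS
      have := S.finiteIndex_of_finite_quotient
      exact this.index_ne_zero
    have h2 : α.range.index ≠ 0 := by
      have hr' : IsOpen (α.range : Set (E ≃ₐ[k] E)) := by
        rw [MonoidHom.coe_range]; exact hr
      have hq : Finite ((E ≃ₐ[k] E) ⧸ α.range) := Subgroup.quotient_finite_of_isOpen _ hr'
      have := α.range.finiteIndex_of_finite_quotient
      exact this.index_ne_zero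
    rw [Subgroup.index_map]
    refine mul_ne_zero ?_ h2
    intro h0
    have h3 := Subgroup.index_dvd_of_le (le_sup_left : S ≤ S ⊔ α.ker)
    rw [h0, zero_dvd_iff] at h3
    exact h1 h3
  have : (S.map α).FiniteIndex := ⟨hfi⟩
  exact (S.map α).isOpen_of_isClosed_of_finiteIndex hcomp.isClosed

/-- **(S1)** -/
theorem bad_finite (G : Subgroup (E₁ ≃ₐ[k₁] E₁)) (hG : IsOpen (G : Set (E₁ ≃ₐ[k₁] E₁)))
    (α : G →* (E₂ ≃ₐ[k₂] E₂)) (hα : Continuous α) (hr : IsOpen (Set.range α))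
    (l : ℕ) (hl : l.Prime) (hroots₁ : ∀ k : ℕ, ∃ ζ : E₁, IsPrimitiveRoot ζ (l ^ k))
    (hroots₂ : ∀ k : ℕ, ∃ ζ : E₂, IsPrimitiveRoot ζ (l ^ k))
    (hpow₁ : ∀ x : E₁, ∃ y : E₁, y ^ l = x) (hpow₂ : ∀ x : E₂, ∃ y : E₂, y ^ l = x)
    (hloc : Loc E₁ E₂ α l) :
    ∃ B : ℕ, ∀ Q : Place E₂, B < Q.rchar → ∃ P : Place E₁, S1 α l P ∧ Goes α P Q := by
  classical
  obtain ⟨ζ₁, h₁⟩ := hroots₁ 1
  obtain ⟨ζ₂, h₂⟩ := hroots₂ 1
  rw [pow_one] at h₁ h₂
  let S : Subgroup G := MulAction.stabilizer G ζ₁ ⊓ (MulAction.stabilizer (E₂ ≃ₐ[k₂] E₂) ζ₂).comap α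
  have hSmem : ∀ s : G, s ∈ S ↔ (s : E₁ ≃ₐ[k₁] E₁) ζ₁ = ζ₁ ∧ α s ζ₂ = ζ₂ := fun s => Iff.rfl
  have hSo : IsOpen (S : Set G) := by
    have ho1 : IsOpen (MulAction.stabilizer (E₁ ≃ₐ[k₁] E₁) ζ₁ : Set (E₁ ≃ₐ[k₁] E₁)) :=
      stabilizer_isOpen_of_isIntegral ζ₁
    have ho2 : IsOpen (MulAction.stabilizer (E₂ ≃ₐ[k₂] E₂) ζ₂ : Set (E₂ ≃ₐ[k₂] E₂)) :=
      stabilizer_isOpen_of_isIntegral ζ₂
    exact (ho1.preimage continuous_subtype_val).inter (ho2.preimage hα)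
  let U₁ : Subgroup (E₁ ≃ₐ[k₁] E₁) := S.map G.subtype
  let U₂ : Subgroup (E₂ ≃ₐ[k₂] E₂) := S.map α
  have hU₁ : IsOpen (U₁ : Set (E₁ ≃ₐ[k₁] E₁)) := by
    have h := hG.isOpenMap_subtype_val _ hSo
    have h' : (U₁ : Set (E₁ ≃ₐ[k₁] E₁)) = Subtype.val '' (S : Set G) := by
      rw [Subgroup.coe_map]; rfl
    rw [h']
    exact h
  have hU₂ : IsOpen (U₂ : Set (E₂ ≃ₐ[k₂] E₂)) := isOpen_map hG α hα hr S hSo
  have hU₁G : ∀ g ∈ U₁, g ∈ G := by
    rintro g ⟨s, -, rfl⟩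
    exact s.2
  have hU₁S : ∀ (g : E₁ ≃ₐ[k₁] E₁) (hg : g ∈ U₁), (⟨g, hU₁G g hg⟩ : G) ∈ S := by
    rintro g ⟨s, hs, rfl⟩
    exact hs
  let K₁ : IntermediateField k₁ E₁ := IntermediateField.fixedField U₁
  let K₂ : IntermediateField k₂ E₂ := IntermediateField.fixedField U₂
  have hfi₁ : U₁.FiniteIndex := by
    have hq : Finite ((E₁ ≃ₐ[k₁] E₁) ⧸ U₁) := Subgroup.quotient_finite_of_isOpen _ hU₁
    exact U₁.finiteIndex_of_finite_quotient
  have hfi₂ : U₂.FiniteIndex := by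
    have hq : Finite ((E₂ ≃ₐ[k₂] E₂) ⧸ U₂) := Subgroup.quotient_finite_of_isOpen _ hU₂
    exact U₂.finiteIndex_of_finite_quotient
  have hfd₁ : FiniteDimensional k₁ K₁ := EndAx245.finiteDimensional_fixedField U₁ hfi₁
  have hfd₂ : FiniteDimensional k₂ K₂ := EndAx245.finiteDimensional_fixedField U₂ hfi₂
  have : NumberField K₁ := { to_finiteDimensional := FiniteDimensional.trans ℚ k₁ K₁ }
  have : NumberField K₂ := { to_finiteDimensional := FiniteDimensional.trans ℚ k₂ K₂ }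
  have : IsGalois K₁ E₁ := IsGalois.tower_top_of_isGalois k₁ K₁ E₁
  have : IsGalois K₂ E₂ := IsGalois.tower_top_of_isGalois k₂ K₂ E₂
  let e₁ := eG U₁ hU₁
  let e₂ := eG U₂ hU₂
  let inc : U₁ →* G := Subgroup.inclusion hU₁G
  let f : U₁ →* U₂ :=
    { toFun := fun u => ⟨α (inc u), ⟨inc u, hU₁S u u.2, rfl⟩⟩
      map_one' := Subtype.ext (by simp)
      map_mul' := fun a b => Subtype.ext (by simp) }
  let β : (E₁ ≃ₐ[K₁] E₁) →* (E₂ ≃ₐ[K₂] E₂) :=
    (e₂.symm.toMonoidHom.comp f).comp e₁.toMonoidHom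
  have hβ : ∀ (σ : E₁ ≃ₐ[K₁] E₁) (y : E₂), β σ y = α (inc (e₁ σ)) y := by
    intro σ y
    change (e₂.symm (f (e₁ σ))) y = _
    rw [eG_symm_apply]
    rfl
  have hβc : Continuous β := by
    apply Redx49.continuous_of_eval
    intro y
    have ho2 : IsOpen (MulAction.stabilizer (E₂ ≃ₐ[k₂] E₂) y : Set (E₂ ≃ₐ[k₂] E₂)) :=
      stabilizer_isOpen_of_isIntegral y
    have hc : Continuous (fun σ : E₁ ≃ₐ[K₁] E₁ => α (inc (e₁ σ))) := by
      have hinc : Continuous inc := by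
        apply Continuous.subtype_mk
        exact continuous_subtype_val
      exact hα.comp (hinc.comp (eG_continuous U₁ hU₁))
    have h3 := (ho2.preimage hc).mem_nhds (x := (1 : E₁ ≃ₐ[K₁] E₁)) (by
      change α (inc (e₁ 1)) ∈ MulAction.stabilizer (E₂ ≃ₐ[k₂] E₂) y
      rw [map_one, map_one, map_one]
      exact Subgroup.one_mem _)
    refine Filter.mem_of_superset h3 ?_
    intro σ hσ
    change β σ y = y
    rw [hβ]
    exact hσ
  have hβs : Function.Surjective β := by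
    intro h
    obtain ⟨s, hs, hsh⟩ := (e₂ h).2
    have hsU : (s : E₁ ≃ₐ[k₁] E₁) ∈ U₁ := ⟨s, hs, rfl⟩
    refine ⟨e₁.symm ⟨s, hsU⟩, ?_⟩
    ext y
    rw [hβ, MulEquiv.apply_symm_apply]
    have h4 : inc ⟨s, hsU⟩ = s := rfl
    rw [h4, hsh, eG_apply]
  -- roots of unity in the base fields
  have hζ₁mem : ζ₁ ∈ K₁ := by
    rintro ⟨u, s, hs, rfl⟩
    exact ((hSmem s).1 hs).1
  have hζ₂mem : ζ₂ ∈ K₂ := by
    rintro ⟨u, s, hs, rfl⟩
    exact ((hSmem s).1 hs).2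
  have hζK₁ : IsPrimitiveRoot (⟨ζ₁, hζ₁mem⟩ : K₁) l :=
    IsPrimitiveRoot.of_map_of_injective (f := algebraMap K₁ E₁) h₁ (algebraMap K₁ E₁).injective
  have hζK₂ : IsPrimitiveRoot (⟨ζ₂, hζ₂mem⟩ : K₂) l :=
    IsPrimitiveRoot.of_map_of_injective (f := algebraMap K₂ E₂) h₂ (algebraMap K₂ E₂).injective
  have : Fact l.Prime := ⟨hl⟩
  have : NeZero l := ⟨hl.ne_zero⟩
  -- the local condition
  have hlocAt : ∀ v : HeightOneSpectrum (𝓞 K₁), (l : 𝓞 K₁) ∉ v.asIdeal →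
      LocAt2 β l (fun P Q => S1 α l P ∧ Goes α P Q) v := by
    intro v hv
    obtain ⟨P, hPv⟩ := Place.exists_res_eq (E := E₁) K₁ ⟨v.asIdeal, v.isPrime, v.ne_bot⟩
    have hPv' : (P.res K₁).ideal = v.asIdeal := by rw [hPv]
    have hlP : (l : 𝓞 E₁) ∉ P.ideal := by
      intro hmem
      apply hv
      rw [← hPv', Place.mem_res, map_natCast]
      exact hmem
    have hP : P.rchar ≠ l := by
      intro h
      apply hlP
      rw [← h]
      exact P.rchar_mem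
    obtain ⟨τ, hτ, π, ϖ, hπ, hϖ, hτπ, hmove⟩ := exists_moving (K := K₁) P l hl hP ζ₁ h₁
      (fun x => hpow₁ _)
    have hhos : hos (P.res K₁) = v := HeightOneSpectrum.ext hPv'
    rw [hhos] at hϖ
    refine ⟨P, τ, hPv', ?_, ⟨π, ϖ, hπ, hϖ, hmove⟩, ?_⟩
    · intro a ha
      exact Place.v_smul_sub_lt_one P hτ a ha
    -- the element of `G`
    set g : G := inc (e₁ τ) with hg
    have hgτ : ∀ x : E₁, (g : E₁ ≃ₐ[k₁] E₁) x = τ x := fun x => eG_apply U₁ hU₁ τ x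
    have hgin : g ∈ P.ideal.inertia G := by
      intro x
      exact hτ x
    have hgP : g • P = P := Place.smul_eq_of_mem_inertia P hgin
    by_cases hS1 : S1 α l P
    · right
      obtain ⟨Q, hlQ, hgoes, -, hcyc⟩ := hloc P hS1
      refine ⟨Q, ⟨hS1, hgoes⟩, fun y hy hyv => ?_⟩
      have hQ : Q.rchar ≠ l := by
        intro h
        apply hlQ
        rw [← h]
        exact Q.rchar_mem
      rw [hβ]
      refine dec_fix Q (α g) (hgoes g hgP) l hl hQ hroots₂ ?_ 1 y hyv ?_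
      · intro k ζ hζ
        have h5 := hcyc k g hgP 1 (fun ξ hξ => by
          rw [pow_one]
          change (g : E₁ ≃ₐ[k₁] E₁) ξ = ξ
          rw [hgτ]
          exact in_fix_root ((mem_inS_val P τ).2 hτ) (val_lpow P l hl hP k) hξ) ζ hζ
        rw [pow_one] at h5
        exact h5
      · obtain ⟨a, ha⟩ := hy
        rw [pow_one, ← map_pow, ← ha]
        have h6 := hβ τ (algebraMap K₂ E₂ a)
        rw [AlgEquiv.commutes] at h6
        exact h6.symm
    · left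
      intro y hy
      have hnot : ∀ N : Subgroup (E₂ ≃ₐ[k₂] E₂), N.Normal → IsOpen (N : Set (E₂ ≃ₐ[k₂] E₂)) →
          ∃ n : ℕ, (α g) ^ n ∈ N ∧ ¬ l ∣ n := by
        intro N hN hNo
        by_contra hcon
        push Not at hcon
        exact hS1 ⟨hlP, g, hgin, N, hN, hNo, fun n hn => hcon n hn⟩
      obtain ⟨N, hN, hNo, hNy⟩ := exists_open_normal (F := k₂) y
      obtain ⟨n, hn, hnl⟩ := hnot N hN hNo
      rw [hβ]
      have hfixK : ∀ a : K₂, α g (algebraMap K₂ E₂ a) = algebraMap K₂ E₂ a := by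
        intro a
        have h6 := hβ τ (algebraMap K₂ E₂ a)
        rw [AlgEquiv.commutes] at h6
        exact h6.symm
      refine fix_of_pow (α g) l n y ?_ ?_
        ((Nat.Prime.coprime_iff_not_dvd hl).2 hnl).symm (hNy _ hn)
      · obtain ⟨a, ha⟩ := hy
        rw [← map_pow, ← ha]
        exact hfixK a
      · intro ζ hζ
        obtain ⟨i, -, rfl⟩ := h₂.eq_pow_of_pow_eq_one hζ
        rw [map_pow]
        have := hfixK ⟨ζ₂, hζ₂mem⟩
        change α g ζ₂ = ζ₂ at this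
        rw [this]
  have hfin := hit2 β hβc hβs l ⟨ζ₁, hζ₁mem⟩ hζK₁ ⟨ζ₂, hζ₂mem⟩ hζK₂ (fun x => hpow₂ _)
    (fun P Q => S1 α l P ∧ Goes α P Q) hlocAt
  set bad := {w : HeightOneSpectrum (𝓞 K₂) | ¬ ∃ (P : Place E₁) (Q : Place E₂),
      (Q.res K₂).ideal = w.asIdeal ∧ (S1 α l P ∧ Goes α P Q)} with hbad
  let ch : HeightOneSpectrum (𝓞 K₂) → ℕ := fun w =>
    (⟨w.asIdeal, w.isPrime, w.ne_bot⟩ : Place K₂).rchar
  refine ⟨hfin.toFinset.sup ch, fun Q' hQ' => ?_⟩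
  have hw : hos (Q'.res K₂) ∉ bad := by
    intro hmem
    have h1 : ch (hos (Q'.res K₂)) ≤ hfin.toFinset.sup ch :=
      Finset.le_sup (f := ch) (hfin.mem_toFinset.2 hmem)
    have h2 : ch (hos (Q'.res K₂)) = Q'.rchar := Place.rchar_res K₂ Q'
    rw [h2] at h1
    exact absurd h1 (not_le.2 hQ')
  rw [hbad, Set.mem_ofPred_eq, not_not] at hw
  obtain ⟨P, Q, hQw, hS1, hgoes⟩ := hw
  have hres : Q.res K₂ = Q'.res K₂ := Place.ext hQw
  obtain ⟨s, hs⟩ := Place.exists_smul_eq_of_res_eq (M := K₂) Q Q' hres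
  obtain ⟨σ, rfl⟩ := hβs s
  set g : G := inc (e₁ σ) with hg
  have hgQ : α g • Q = Q' := by
    rw [← hs]
    have hact : ∀ x : 𝓞 E₂, (α g)⁻¹ • x = (β σ)⁻¹ • x := by
      intro x
      rw [inv_smul_eq_iff]
      apply NumberField.RingOfIntegers.ext
      change algebraMap (𝓞 E₂) E₂ x = algebraMap (𝓞 E₂) E₂ (α g • (β σ)⁻¹ • x)
      have h7 : algebraMap (𝓞 E₂) E₂ (α g • (β σ)⁻¹ • x) = α g (algebraMap (𝓞 E₂) E₂ ((β σ)⁻¹ • x)) :=
        algebraMap.smul' _ _ E₂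
      have h8 : algebraMap (𝓞 E₂) E₂ ((β σ)⁻¹ • x) = (β σ)⁻¹ (algebraMap (𝓞 E₂) E₂ x) :=
        algebraMap.smul' _ _ E₂
      rw [h7, h8, ← hβ, ← AlgEquiv.mul_apply, mul_inv_cancel, AlgEquiv.one_apply]
    ext x
    rw [Place.mem_smul_ideal, Place.mem_smul_ideal, hact]
  refine ⟨g • P, hS1.smul g, ?_⟩
  rw [← hgQ]
  exact hgoes.smul g

end main

end Crest.Agent.R018.S1Finx380
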