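import Crest.Agent.R018.SLatB_824

/-!
Row 18, (S2) counting part 1 (helper863): for a finite Galois extension `K/F` of number fields the
`l`-units of `K` are, up to finite index and modulo `N`-th powers of arbitrary elements, generated as
a Galois module by one element for each place of `F` above `l` or `∞`.
-/

set_option autoImplicit false

open NumberField NumberField.InfinitePlace NumberField.Units Module IsDedekindDomain
open scoped Pointwise

namespace Crest.Agent.R018.S2Cntx863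

open Crest.Agent.R018.MinkUx824 Crest.Agent.R018.Selmerx380
open Crest.Agent.R018.SLatx824 Crest.Agent.R018.SLatBx824

attribute [local instance] actH

section Units

variable (F K : Type*) [Field F] [NumberField F] [Field K] [NumberField K] [Algebra F K]
  [IsGalois F K]

omit [NumberField F] in
/-- the units of `K` up to finite index as a Galois module -/
theorem exists_units : ∃ (J : ℕ) (x : InfinitePlace F → Kˣ), 0 < J ∧
    ∀ u : (𝓞 K)ˣ, iu K u ^ J ∈
      Subgroup.closure (Set.range fun p : (K ≃ₐ[F] K) × InfinitePlace F => p.1 • x p.2) := by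
  classical
  have hw : ∀ v : InfinitePlace F, ∃ w : InfinitePlace K, w.comap (algebraMap F K) = v :=
    fun v => InfinitePlace.comap_surjective v
  choose w hw using hw
  have hη0 : ∀ v : InfinitePlace F, ∃ u : (𝓞 K)ˣ, ∀ w' : InfinitePlace K, w' ≠ w v →
      Real.log (w' (u : K)) < 0 := fun v => dirichletUnitTheorem.exists_unit K (w v)
  choose η0 hη0 using hη0
  have hσ : ∀ t : InfinitePlace K, ∃ σ : K ≃ₐ[F] K, σ • w (t.comap (algebraMap F K)) = t :=
    fun t => exists_smul_eq_of_comap_eq (hw _)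
  choose σ hσ using hσ
  let x : InfinitePlace F → Kˣ := fun v => iu K (η0 v)
  let C : Subgroup Kˣ :=
    Subgroup.closure (Set.range fun p : (K ≃ₐ[F] K) × InfinitePlace F => p.1 • x p.2)
  let η : InfinitePlace K → (𝓞 K)ˣ := fun t =>
    Units.map (MulSemiringAction.toRingHom (K ≃ₐ[F] K) (𝓞 K) (σ t) : 𝓞 K →* 𝓞 K)
      (η0 (t.comap (algebraMap F K)))
  have hη : ∀ t, iu K (η t) = σ t • x (t.comap (algebraMap F K)) := fun t => (smul_iu _ _).symm
  have hsgn : Sgn η := by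
    intro t w' hw'
    have h1 : algebraMap (𝓞 K) K (η t : 𝓞 K) = ((σ t • x (t.comap (algebraMap F K)) : Kˣ) : K) := by
      rw [← hη]
      rfl
    rw [h1, place_smul]
    apply hη0
    intro h2
    apply hw'
    rw [← hσ t, ← h2, smul_inv_smul]
  have hfi : (C.comap (iu K)).FiniteIndex := finiteIndex_of_pow_mem _ fun u =>
    exists_pow_mem hsgn (C.comap (iu K)) (fun t => ⟨1, one_pos, by
      rw [pow_one, Subgroup.mem_comap, hη]
      exact Subgroup.subset_closure ⟨(σ t, t.comap (algebraMap F K)), rfl⟩⟩) u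
  refine ⟨(C.comap (iu K)).index, x, Nat.pos_of_ne_zero hfi.index_ne_zero, fun u => ?_⟩
  rw [← map_pow]
  exact Subgroup.pow_index_mem (C.comap (iu K)) u

variable (l : ℕ)

/-- the primes above `l` -/
abbrev Pr : Type _ := {v : HeightOneSpectrum (𝓞 F) // (l : 𝓞 F) ∈ v.asIdeal}

variable {F K l} in
theorem exists_smul_of_over (v : HeightOneSpectrum (𝓞 F)) (w w' : HeightOneSpectrum (𝓞 K))
    (h : w.asIdeal.LiesOver v.asIdeal) (h' : w'.asIdeal.LiesOver v.asIdeal) :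
    ∃ σ : K ≃ₐ[F] K, w' = σ • w := by
  have h1 : MulAction.orbit (K ≃ₐ[F] K) w.asIdeal = v.asIdeal.primesOver (𝓞 K) :=
    Algebra.IsInvariant.orbit_eq_primesOver (𝓞 F) (𝓞 K) (K ≃ₐ[F] K) v.asIdeal w.asIdeal
  have h2 : w'.asIdeal ∈ v.asIdeal.primesOver (𝓞 K) := ⟨w'.isPrime, h'⟩
  rw [← h1] at h2
  obtain ⟨σ, hσ⟩ := h2
  exact ⟨σ, HeightOneSpectrum.ext hσ.symm⟩

open Classical in
/-- **generators of the `l`-units up to finite index** -/
theorem exists_gens : ∃ (J : ℕ) (x : InfinitePlace F ⊕ Pr F l → Kˣ), 0 < J ∧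
    ∀ (N : ℕ) (y : Kˣ), (∀ w : HeightOneSpectrum (𝓞 K), (l : 𝓞 K) ∉ w.asIdeal →
      (N : ℤ) ∣ ord (𝓞 K) w y) → ∃ z : Kˣ, y ^ J * z ^ N ∈
      Subgroup.closure (Set.range fun p : (K ≃ₐ[F] K) × (InfinitePlace F ⊕ Pr F l) =>
        p.1 • x p.2) := by
  obtain ⟨J, x₁, hJ, hx₁⟩ := exists_units F K
  -- primes above the `v ∣ l`
  have hw : ∀ v : Pr F l, ∃ w : HeightOneSpectrum (𝓞 K), w.asIdeal.LiesOver v.1.asIdeal := by
    intro v
    obtain ⟨⟨P, hP, hPv⟩⟩ := (inferInstance : Nonempty (v.1.asIdeal.primesOver (𝓞 K)))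
    refine ⟨⟨P, hP, ?_⟩, hPv⟩
    rintro rfl
    apply v.1.ne_bot
    have h2 := hPv.over
    rw [Ideal.under_bot] at h2
    exact h2
  choose w hw using hw
  have hπ : ∀ w : HeightOneSpectrum (𝓞 K), ∃ x : Kˣ, ∀ w', ord (𝓞 K) w' x =
      if w' = w then (hL K : ℤ) else 0 := fun w => exists_gen w
  choose π hπ using hπ
  let x : InfinitePlace F ⊕ Pr F l → Kˣ := Sum.elim x₁ fun v => π (w v)
  let C : Subgroup Kˣ := Subgroup.closure
    (Set.range fun p : (K ≃ₐ[F] K) × (InfinitePlace F ⊕ Pr F l) => p.1 • x p.2)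
  have hC : ∀ (σ : K ≃ₐ[F] K) t, σ • x t ∈ C := fun σ t => Subgroup.subset_closure ⟨(σ, t), rfl⟩
  -- equivariant choice of generators
  have hγ : ∀ w' : HeightOneSpectrum (𝓞 K), ∃ g : Kˣ, (∀ w'', ord (𝓞 K) w'' g =
      if w'' = w' then (hL K : ℤ) else 0) ∧ ((l : 𝓞 K) ∈ w'.asIdeal → g ∈ C) := by
    intro w'
    by_cases hl : (l : 𝓞 K) ∈ w'.asIdeal
    · have hne : w'.asIdeal.under (𝓞 F) ≠ ⊥ := by
        apply Ideal.IsIntegral.comap_ne_bot
        exact w'.ne_bot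
      let v : HeightOneSpectrum (𝓞 F) := ⟨w'.asIdeal.under (𝓞 F), inferInstance, hne⟩
      have hlv : (l : 𝓞 F) ∈ v.asIdeal := by
        change (l : 𝓞 F) ∈ w'.asIdeal.under (𝓞 F)
        rw [Ideal.mem_comap, map_natCast]
        exact hl
      obtain ⟨σ, hσ⟩ := exists_smul_of_over v (w ⟨v, hlv⟩) w' (hw ⟨v, hlv⟩) ⟨rfl⟩
      refine ⟨σ • π (w ⟨v, hlv⟩), fun w'' => ?_, fun _ => hC σ (Sum.inr ⟨v, hlv⟩)⟩
      have h1 := ord_smul σ (σ⁻¹ • w'') (π (w ⟨v, hlv⟩))
      rw [smul_inv_smul] at h1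
      rw [h1, hπ]
      congr 1
      rw [inv_smul_eq_iff, ← hσ]
    · exact ⟨π w', hπ w', fun h => absurd h hl⟩
  choose γ hγ1 hγ2 using hγ
  have hU : ∀ u : (𝓞 K)ˣ, iu K u ^ J ∈ C := by
    intro u
    refine Subgroup.closure_mono ?_ (hx₁ u)
    rintro _ ⟨⟨σ, v⟩, rfl⟩
    exact ⟨(σ, Sum.inl v), rfl⟩
  refine ⟨hL K * J, x, Nat.mul_pos hL_pos hJ, fun N y hy => ?_⟩
  let T := (Filter.eventually_cofinite.mp (ord_finite (R := 𝓞 K) y)).toFinset
  have hT : ∀ w, w ∈ T ↔ ord (𝓞 K) w y ≠ 0 := fun w => by simp [T]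
  -- the unit part
  have hunit : y ^ hL K / ∏ w ∈ T, γ w ^ ord (𝓞 K) w y ∈ (iu K).range := by
    rw [mem_iu_range_iff]
    intro w'
    rw [ord_div, ord_pow, ord_prod]
    simp only [ord_zpow, hγ1]
    by_cases hw' : w' ∈ T
    · rw [Finset.sum_eq_single w']
      · rw [if_pos rfl]; ring
      · intro w _ hne
        rw [if_neg (Ne.symm hne), mul_zero]
      · intro h; exact absurd hw' h
    · have h0 : ord (𝓞 K) w' y = 0 := by
        by_contra h
        exact hw' ((hT w').2 h)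
      rw [h0, mul_zero, zero_sub, neg_eq_zero]
      apply Finset.sum_eq_zero
      intro w hwT
      rw [if_neg, mul_zero]
      rintro rfl
      exact hw' hwT
  obtain ⟨u, hu⟩ := hunit
  have hm : ∀ w : HeightOneSpectrum (𝓞 K), ∃ m : ℤ, (l : 𝓞 K) ∉ w.asIdeal →
      ord (𝓞 K) w y = N * m := by
    intro w
    by_cases hl : (l : 𝓞 K) ∈ w.asIdeal
    · exact ⟨0, fun h => absurd hl h⟩
    · obtain ⟨m, hm⟩ := hy w hl
      exact ⟨m, fun _ => hm⟩
  choose m hm using hm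
  set s : Kˣ := ∏ w ∈ T.filter fun w => (l : 𝓞 K) ∈ w.asIdeal, γ w ^ ord (𝓞 K) w y with hs
  set a : Kˣ := ∏ w ∈ T.filter fun w => (l : 𝓞 K) ∉ w.asIdeal, γ w ^ m w with ha
  have hsC : s ∈ C := by
    apply prod_mem
    intro w hw
    exact zpow_mem (hγ2 w (Finset.mem_filter.1 hw).2) _
  have hsa : ∏ w ∈ T, γ w ^ ord (𝓞 K) w y = s * a ^ N := by
    rw [← Finset.prod_filter_mul_prod_filter_not T (fun w => (l : 𝓞 K) ∈ w.asIdeal), hs, ha,
      ← Finset.prod_pow]
    congr 1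
    apply Finset.prod_congr rfl
    intro w hw
    rw [hm w (Finset.mem_filter.1 hw).2, mul_comm, zpow_mul, zpow_natCast]
  rw [hsa] at hu
  have hy2 : y ^ hL K = iu K u * (s * a ^ N) := by
    rw [hu, div_mul_cancel]
  refine ⟨(a ^ J)⁻¹, ?_⟩
  have h3 : y ^ (hL K * J) * (a ^ J)⁻¹ ^ N = iu K u ^ J * s ^ J := by
    rw [pow_mul, hy2, mul_pow, mul_pow, inv_pow, ← pow_mul, ← pow_mul, mul_comm N J, mul_assoc,
      mul_assoc, mul_inv_cancel, mul_one]
  rw [h3]
  exact C.mul_mem (hU u) (C.pow_mem hsC J)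

end Units

section Eigen

variable {F K : Type*} [Field F] [Field K] [Algebra F K] [FiniteDimensional F K]

theorem pow_val_mul {A : Type*} [Monoid A] {N : ℕ} {a : A} (ha : a ^ N = 1) (u v : ZMod N) :
    a ^ (u * v).val = a ^ (u.val * v.val) := by
  rw [ZMod.val_mul]
  exact (pow_eq_pow_mod _ ha).symm

/-- `N`-th powers -/
abbrev Pw (K : Type*) [Field K] (N : ℕ) : Subgroup Kˣ := (powMonoidHom N : Kˣ →* Kˣ).range

theorem mk_eq_iff {N : ℕ} (a b : Kˣ) :
    (QuotientGroup.mk' (Pw K N) a = QuotientGroup.mk' (Pw K N) b) ↔ ∃ d : Kˣ, a = b * d ^ N := by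
  rw [QuotientGroup.mk'_eq_mk']
  constructor
  · rintro ⟨z, ⟨d, rfl⟩, h⟩
    refine ⟨d⁻¹, ?_⟩
    rw [← h, powMonoidHom_apply, inv_pow, mul_inv_cancel_right]
  · rintro ⟨d, rfl⟩
    exact ⟨(d ^ N)⁻¹, inv_mem ⟨d, rfl⟩, by rw [mul_inv_cancel_right]⟩

theorem mk_pow_eq_one {N : ℕ} (a : Kˣ ⧸ Pw K N) : a ^ N = 1 := by
  obtain ⟨b, rfl⟩ := QuotientGroup.mk'_surjective _ a
  rw [← map_pow, ← map_one (QuotientGroup.mk' (Pw K N)), mk_eq_iff]
  exact ⟨b, by rw [one_mul]⟩

open Classical in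
/-- the projector onto an eigenspace, without denominators -/
noncomputable def pj {N : ℕ} (c : (K ≃ₐ[F] K) →* (ZMod N)ˣ) : Kˣ →* Kˣ where
  toFun y := ∏ h : K ≃ₐ[F] K, (h • y) ^ ((c h⁻¹ : (ZMod N)ˣ) : ZMod N).val
  map_one' := by simp
  map_mul' a b := by
    rw [← Finset.prod_mul_distrib]
    refine Finset.prod_congr rfl fun h _ => ?_
    rw [smul_mul', mul_pow]

open Classical in
theorem pj_apply {N : ℕ} (c : (K ≃ₐ[F] K) →* (ZMod N)ˣ) (y : Kˣ) :
    pj c y = ∏ h : K ≃ₐ[F] K, (h • y) ^ ((c h⁻¹ : (ZMod N)ˣ) : ZMod N).val := rfl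

theorem pj_smul {N : ℕ} (c : (K ≃ₐ[F] K) →* (ZMod N)ˣ) (g : K ≃ₐ[F] K) (y : Kˣ) :
    QuotientGroup.mk' (Pw K N) (pj c (g • y)) =
      QuotientGroup.mk' (Pw K N) (pj c y) ^ ((c g : (ZMod N)ˣ) : ZMod N).val := by
  classical
  rw [pj_apply, pj_apply, map_prod, map_prod, ← Finset.prod_pow]
  rw [← Equiv.prod_comp (Equiv.mulRight g⁻¹)]
  refine Finset.prod_congr rfl fun h _ => ?_
  have h1 : (Equiv.mulRight g⁻¹) h • g • y = h • y := by
    rw [Equiv.coe_mulRight, smul_smul, inv_mul_cancel_right]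
  have h2 : ((Equiv.mulRight g⁻¹) h)⁻¹ = g * h⁻¹ := by
    rw [Equiv.coe_mulRight, mul_inv_rev, inv_inv]
  rw [h1, h2, map_pow, map_pow, map_mul, Units.val_mul, pow_val_mul (mk_pow_eq_one _), mul_comm,
    pow_mul]

theorem pj_eigen {N : ℕ} (c : (K ≃ₐ[F] K) →* (ZMod N)ˣ) (y : Kˣ)
    (hy : ∀ g : K ≃ₐ[F] K, QuotientGroup.mk' (Pw K N) (g • y) =
      QuotientGroup.mk' (Pw K N) y ^ ((c g : (ZMod N)ˣ) : ZMod N).val) :
    QuotientGroup.mk' (Pw K N) (pj c y) =
      QuotientGroup.mk' (Pw K N) y ^ Fintype.card (K ≃ₐ[F] K) := by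
  classical
  rw [pj_apply, map_prod]
  have h1 : ∀ h : K ≃ₐ[F] K,
      QuotientGroup.mk' (Pw K N) ((h • y) ^ ((c h⁻¹ : (ZMod N)ˣ) : ZMod N).val) =
        QuotientGroup.mk' (Pw K N) y := by
    intro h
    rw [map_pow, hy, ← pow_mul, ← pow_val_mul (mk_pow_eq_one _), ← Units.val_mul, ← map_mul,
      mul_inv_cancel, map_one, Units.val_one]
    rcases Nat.lt_or_ge 1 N with hN | hN
    · rw [ZMod.val_one'' (by omega), pow_one]
    · have h0 := mk_pow_eq_one (QuotientGroup.mk' (Pw K N) y)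
      interval_cases N
      · rw [show (1 : ZMod 0).val = 1 from rfl, pow_one]
      · rw [pow_one] at h0
        rw [h0, one_pow]
  rw [Finset.prod_congr rfl fun h _ => h1 h, Finset.prod_const, Finset.card_univ]

/-- eigenvectors modulo `N`-th powers -/
theorem eigen_mem {ι : Type*} (x : ι → Kˣ) {N J : ℕ} (c : (K ≃ₐ[F] K) →* (ZMod N)ˣ) (y z : Kˣ)
    (hy : ∀ g : K ≃ₐ[F] K, QuotientGroup.mk' (Pw K N) (g • y) =
      QuotientGroup.mk' (Pw K N) y ^ ((c g : (ZMod N)ˣ) : ZMod N).val)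
    (hC : y ^ J * z ^ N ∈ Subgroup.closure (Set.range fun p : (K ≃ₐ[F] K) × ι => p.1 • x p.2)) :
    QuotientGroup.mk' (Pw K N) y ^ (Fintype.card (K ≃ₐ[F] K) * J) ∈
      Subgroup.closure (Set.range fun i => QuotientGroup.mk' (Pw K N) (pj c (x i))) := by
  have h1 : (QuotientGroup.mk' (Pw K N)) (pj c (y ^ J * z ^ N)) =
      QuotientGroup.mk' (Pw K N) y ^ (Fintype.card (K ≃ₐ[F] K) * J) := by
    rw [map_mul, map_mul, map_pow, map_pow, map_pow, map_pow, pj_eigen c y hy, mk_pow_eq_one]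
    rw [pow_mul]
    exact mul_one ((QuotientGroup.mk' (Pw K N) y ^ Fintype.card (K ≃ₐ[F] K)) ^ J)
  rw [← h1]
  have h2 : Subgroup.closure (Set.range fun p : (K ≃ₐ[F] K) × ι => p.1 • x p.2) ≤
      (Subgroup.closure (Set.range fun i => QuotientGroup.mk' (Pw K N) (pj c (x i)))).comap
        ((QuotientGroup.mk' (Pw K N)).comp (pj c)) := by
    rw [Subgroup.closure_le]
    rintro _ ⟨⟨g, i⟩, rfl⟩
    rw [SetLike.mem_coe, Subgroup.mem_comap, MonoidHom.comp_apply]
    rw [pj_smul]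
    have h3 : QuotientGroup.mk' (Pw K N) (pj c (x i)) ∈
        Subgroup.closure (Set.range fun i => QuotientGroup.mk' (Pw K N) (pj c (x i))) :=
      Subgroup.subset_closure ⟨i, rfl⟩
    exact Subgroup.pow_mem _ h3 _
  exact h2 hC

end Eigen

section Count

theorem exists_exp {A : Type*} [CommGroup A] {ι : Type*} [Fintype ι] (X : ι → A) {N : ℕ}
    (hN : 0 < N) (hexp : ∀ a : A, a ^ N = 1) (a : A)
    (ha : a ∈ Subgroup.closure (Set.range X)) : ∃ e : ι → Fin N, ∏ i, X i ^ (e i : ℕ) = a := by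
  classical
  have key : ∃ e : ι → ℕ, ∏ i, X i ^ e i = a := by
    induction ha using Subgroup.closure_induction with
    | mem x hx =>
      obtain ⟨i, rfl⟩ := hx
      exact ⟨Pi.single i 1, by
        rw [Finset.prod_eq_single i]
        · simp
        · intro j _ hj
          rw [Pi.single_eq_of_ne hj, pow_zero]
        · simp⟩
    | one => exact ⟨0, by simp⟩
    | mul x y _ _ hx hy =>
      obtain ⟨e, rfl⟩ := hx
      obtain ⟨e', rfl⟩ := hy
      exact ⟨e + e', by simp [pow_add, Finset.prod_mul_distrib]⟩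
    | inv x _ hx =>
      obtain ⟨e, rfl⟩ := hx
      refine ⟨fun i => (N - 1) * e i, ?_⟩
      rw [eq_comm, inv_eq_iff_mul_eq_one, ← Finset.prod_mul_distrib]
      apply Finset.prod_eq_one
      intro i _
      rw [← pow_add]
      have : e i + (N - 1) * e i = N * e i := by
        obtain ⟨m, rfl⟩ := Nat.exists_eq_succ_of_ne_zero hN.ne'
        simp
        ring
      rw [this, pow_mul, hexp, one_pow]
  obtain ⟨e, he⟩ := key
  refine ⟨fun i => ⟨e i % N, Nat.mod_lt _ hN⟩, ?_⟩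
  rw [← he]
  refine Finset.prod_congr rfl fun i _ => ?_
  exact (pow_eq_pow_mod _ (hexp _)).symm

theorem card_le_of_inj {A : Type*} [CommGroup A] {ι α : Type*} [Fintype ι] [Fintype α] (X : ι → A)
    {N : ℕ} (hN : 0 < N) (hexp : ∀ a : A, a ^ N = 1) (f : α → A)
    (hf : ∀ a, f a ∈ Subgroup.closure (Set.range X)) (hinj : Function.Injective f) :
    Fintype.card α ≤ N ^ Fintype.card ι := by
  classical
  choose e he using fun a => exists_exp X hN hexp (f a) (hf a)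
  have h1 : Function.Injective e := by
    intro a b hab
    apply hinj
    rw [← he a, ← he b, hab]
  have h2 := Fintype.card_le_of_injective e h1
  rwa [Fintype.card_fun, Fintype.card_fin] at h2

/-- the numerical end of the count -/
theorem le_of_count {k t C l : ℕ} (hl : 1 < l) (hC : 0 < C)
    (h : ∀ n : ℕ, ∀ B : ℕ, C * B < l ^ n + C → B ^ k ≤ (l ^ n) ^ t) : k ≤ t := by
  by_contra hkt
  push Not at hkt
  have key : ∀ n : ℕ, l ^ n ≤ C ^ k := by
    intro n
    have hpos : 0 < l ^ n := Nat.pow_pos (by omega)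
    set B := (l ^ n + C - 1) / C with hB
    have h1 : C * B ≤ l ^ n + C - 1 := Nat.mul_div_le _ _
    have h2 : l ^ n ≤ C * B := by
      have h3 := Nat.lt_mul_div_succ (l ^ n + C - 1) hC
      rw [← hB, Nat.mul_add, Nat.mul_one] at h3
      omega
    have h4 := h n B (by omega)
    have h5 : (l ^ n) ^ k ≤ C ^ k * (l ^ n) ^ t := by
      calc (l ^ n) ^ k ≤ (C * B) ^ k := Nat.pow_le_pow_left h2 k
        _ = C ^ k * B ^ k := Nat.mul_pow _ _ _
        _ ≤ _ := Nat.mul_le_mul_left _ h4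
    have h6 : (l ^ n) ^ (t + 1) ≤ (l ^ n) ^ k := Nat.pow_le_pow_right hpos hkt
    have h7 : l ^ n * (l ^ n) ^ t ≤ C ^ k * (l ^ n) ^ t := by
      calc l ^ n * (l ^ n) ^ t = (l ^ n) ^ (t + 1) := by rw [pow_succ]; ring
        _ ≤ _ := h6.trans h5
    exact Nat.le_of_mul_le_mul_right h7 (Nat.pow_pos hpos)
  have h8 := key (C ^ k)
  have h9 : C ^ k < l ^ (C ^ k) := Nat.lt_pow_self hl
  omega

end Count

section Main

variable (F K : Type*) [Field F] [NumberField F] [Field K] [NumberField K] [Algebra F K]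
  [IsGalois F K]

theorem finite_Pr (l : ℕ) (hl : l.Prime) : Finite (Pr F l) := by
  have hl0 : (l : F) ≠ 0 := by exact_mod_cast hl.ne_zero
  have h1 := ord_finite (R := 𝓞 F) (Units.mk0 (l : F) hl0)
  rw [Filter.eventually_cofinite] at h1
  have h2 : {v : HeightOneSpectrum (𝓞 F) | (l : 𝓞 F) ∈ v.asIdeal}.Finite := by
    refine Set.Finite.subset h1 ?_
    intro v hv h0
    have h2 := valuation_eq_exp v (Units.mk0 (l : F) hl0)
    rw [h0, neg_zero, WithZero.exp_zero, Units.val_mk0] at h2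
    have h3 := (v.valuation_lt_one_iff_mem (K := F) (l : 𝓞 F)).2 hv
    have h4 : (algebraMap (𝓞 F) F (l : 𝓞 F)) = (l : F) := map_natCast _ _
    have h5 : v.valuation F (l : F) < 1 := by rw [← h4]; exact h3
    rw [h2] at h5
    exact lt_irrefl _ h5
  exact h2.to_subtype

/-- **the count**: `k ≤ #(infinite places of F) + #(primes of F above l)` as soon as, for every `n`,
there is an eigenfamily modulo `l ^ n`-th powers in `K`, indexed by `ℕ ^ k`, injective up to a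
bounded factor. -/
theorem count (l : ℕ) (hl : l.Prime) [Fintype (Pr F l)] (k H : ℕ) (hH : 0 < H)
    (hyp : ∀ n : ℕ, ∃ (c : (K ≃ₐ[F] K) →* (ZMod (l ^ n))ˣ) (f : (Fin k → ℕ) → Kˣ),
      (∀ a, ∀ w : HeightOneSpectrum (𝓞 K), (l : 𝓞 K) ∉ w.asIdeal →
        ((l ^ n : ℕ) : ℤ) ∣ ord (𝓞 K) w (f a)) ∧
      (∀ a, ∀ g : K ≃ₐ[F] K, ∃ d : Kˣ,
        g • f a = f a ^ ((c g : (ZMod (l ^ n))ˣ) : ZMod (l ^ n)).val * d ^ (l ^ n)) ∧
      (∀ a a' (m : ℕ), 0 < m → (∃ d : Kˣ, f a ^ m = f a' ^ m * d ^ (l ^ n)) →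
        ∀ i, ((l ^ n : ℕ) : ℤ) ∣ (m * H : ℕ) * ((a i : ℤ) - a' i))) :
    k ≤ Fintype.card (InfinitePlace F) + Fintype.card (Pr F l) := by
  classical
  obtain ⟨J, x, hJ, hx⟩ := exists_gens F K l
  set M := Fintype.card (K ≃ₐ[F] K) * J with hM
  have hM0 : 0 < M := Nat.mul_pos Fintype.card_pos hJ
  rw [← Fintype.card_sum]
  refine le_of_count (C := M * H) hl.one_lt (Nat.mul_pos hM0 hH) fun n B hB => ?_
  obtain ⟨c, f, hf1, hf2, hf3⟩ := hyp n
  have hN : 0 < l ^ n := Nat.pow_pos hl.pos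
  have hcard := card_le_of_inj (α := Fin k → Fin B)
    (fun i => QuotientGroup.mk' (Pw K (l ^ n)) (pj c (x i))) hN (fun a => mk_pow_eq_one a)
    (fun a => QuotientGroup.mk' (Pw K (l ^ n)) (f fun i => (a i : ℕ)) ^ M)
    (fun a => by
      obtain ⟨z, hz⟩ := hx (l ^ n) (f fun i => (a i : ℕ)) (hf1 _)
      refine eigen_mem x c _ z (fun g => ?_) hz
      rw [← map_pow, mk_eq_iff]
      exact hf2 _ g)
    (fun a a' haa => by
      have h1 : ∃ d : Kˣ, (f fun i => (a i : ℕ)) ^ M = (f fun i => (a' i : ℕ)) ^ M * d ^ (l ^ n) := by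
        rw [← mk_eq_iff, map_pow, map_pow]
        exact haa
      have h2 := hf3 _ _ M hM0 h1
      funext i
      apply Fin.ext
      have h3 := h2 i
      -- `M H |a_i - a'_i| < l ^ n`
      have key : ∀ u v : ℕ, u ≤ v → v < B → ((l ^ n : ℕ) : ℤ) ∣ (M * H : ℕ) * ((u : ℤ) - v) →
          u = v := by
        intro u v huv hv hd
        have h4 : (l ^ n) ∣ M * H * (v - u) := by
          have h5 : ((l ^ n : ℕ) : ℤ) ∣ ((M * H * (v - u) : ℕ) : ℤ) := by
            have h5' : ((M * H * (v - u) : ℕ) : ℤ) = -(((M * H : ℕ) : ℤ) * ((u : ℤ) - v)) := by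
              push_cast [Nat.cast_sub huv]
              ring
            rw [h5']
            exact (dvd_neg.2 hd)
          exact_mod_cast h5
        have h6 : M * H * (v - u) < l ^ n := by
          have h7 : M * H * (v - u) ≤ M * H * (B - 1) := Nat.mul_le_mul_left _ (by omega)
          have h8 : M * H * (B - 1) + M * H = M * H * B := by
            obtain ⟨b, rfl⟩ : ∃ b, B = b + 1 := ⟨B - 1, by omega⟩
            simp
            ring
          omega
        have h9 := Nat.eq_zero_of_dvd_of_lt h4 h6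
        rcases Nat.mul_eq_zero.1 h9 with h10 | h10
        · exact absurd h10 (Nat.mul_pos hM0 hH).ne'
        · omega
      rcases le_total (a i : ℕ) (a' i : ℕ) with h | h
      · exact key _ _ h (a' i).2 h3
      · refine (key _ _ h (a i).2 ?_).symm
        have h4 : ((M * H : ℕ) : ℤ) * (((a' i : ℕ) : ℤ) - ((a i : ℕ) : ℤ)) =
            -(((M * H : ℕ) : ℤ) * (((a i : ℕ) : ℤ) - ((a' i : ℕ) : ℤ))) := by ring
        rw [h4]
        exact dvd_neg.2 h3)
  rwa [Fintype.card_fun, Fintype.card_fin, Fintype.card_fin] at hcard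

end Main

section Bound

theorem card_infinitePlace_le (F : Type*) [Field F] [NumberField F] :
    Fintype.card (InfinitePlace F) ≤ finrank ℚ F := by
  rw [← card_add_two_mul_card_eq_rank, card_eq_nrRealPlaces_add_nrComplexPlaces]
  omega

set_option linter.deprecated false in
theorem card_Pr_le (F : Type*) [Field F] [NumberField F] (l : ℕ) (hl : l.Prime) [Fintype (Pr F l)] :
    Fintype.card (Pr F l) ≤ finrank ℚ F := by
  classical
  set p : Ideal ℤ := Ideal.span {(l : ℤ)} with hp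
  have hlp : Prime (l : ℤ) := Nat.prime_iff_prime_int.mp hl
  have hp0 : p ≠ ⊥ := by
    rw [hp, Ne, Ideal.span_singleton_eq_bot]
    exact hlp.ne_zero
  have hpm : p.IsMaximal := by
    have : p.IsPrime := (Ideal.span_singleton_prime hlp.ne_zero).2 hlp
    exact Ring.DimensionLEOne.maximalOfPrime hp0 this
  have h1 := Ideal.card_primesOverFinset_le_finrank (𝓞 F) ℚ F hp0
  refine le_trans ?_ h1
  have hmem : ∀ v : Pr F l, v.1.asIdeal ∈ IsDedekindDomain.primesOverFinset p (𝓞 F) := by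
    intro v
    rw [IsDedekindDomain.mem_primesOverFinset_iff hp0]
    refine ⟨v.1.isPrime, ⟨?_⟩⟩
    refine hpm.eq_of_le ?_ ?_
    · exact (Ideal.IsPrime.under ℤ v.1.asIdeal).ne_top
    · rw [hp, Ideal.span_singleton_le_iff_mem, Ideal.mem_comap]
      simpa using v.2
  rw [← Fintype.card_coe]
  refine Fintype.card_le_of_injective (fun v : Pr F l => ⟨v.1.asIdeal, hmem v⟩) ?_
  intro v v' h
  exact Subtype.ext (HeightOneSpectrum.ext (congrArg Subtype.val h))

/-- the bound `k ≤ 2 [F : ℚ]` -/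
theorem count' (F K : Type*) [Field F] [NumberField F] [Field K] [NumberField K] [Algebra F K]
    [IsGalois F K] (l : ℕ) (hl : l.Prime) (k H : ℕ) (hH : 0 < H)
    (hyp : ∀ n : ℕ, ∃ (c : (K ≃ₐ[F] K) →* (ZMod (l ^ n))ˣ) (f : (Fin k → ℕ) → Kˣ),
      (∀ a, ∀ w : HeightOneSpectrum (𝓞 K), (l : 𝓞 K) ∉ w.asIdeal →
        ((l ^ n : ℕ) : ℤ) ∣ ord (𝓞 K) w (f a)) ∧
      (∀ a, ∀ g : K ≃ₐ[F] K, ∃ d : Kˣ,
        g • f a = f a ^ ((c g : (ZMod (l ^ n))ˣ) : ZMod (l ^ n)).val * d ^ (l ^ n)) ∧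
      (∀ a a' (m : ℕ), 0 < m → (∃ d : Kˣ, f a ^ m = f a' ^ m * d ^ (l ^ n)) →
        ∀ i, ((l ^ n : ℕ) : ℤ) ∣ (m * H : ℕ) * ((a i : ℤ) - a' i))) :
    k ≤ 2 * finrank ℚ F := by
  have : Finite (Pr F l) := finite_Pr F l hl
  have : Fintype (Pr F l) := Fintype.ofFinite _
  have h1 := count F K l hl k H hH hyp
  have h2 := card_infinitePlace_le F
  have h3 := card_Pr_le F l hl
  omega

end Bound

end Crest.Agent.R018.S2Cntx863
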