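import Crest.Agent.R018.S2Cnt_863
import Crest.Agent.R018.S2Psi_568
import Crest.Agent.R018.S2Loc_380
import Crest.Agent.R018.LocDef_31

/-!
Row 18, (S2) (helper863): if `ψ_l` has finite order then at most `2 [F₁ : ℚ]` primes of `F₂` are not
hit by the local correspondence at `l`.
-/

set_option autoImplicit false

open NumberField Module IsDedekindDomain
open scoped Pointwise

namespace Crest.Agent.R018.S2Finx863

open Crest.Agent.R018.Selmerx380 Crest.Agent.R018.SLatx824 Crest.Agent.R018.SLatBx824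
open Crest.Agent.R018.S2Cntx863 Crest.Agent.R018.Placesx484 Crest.Agent.R018.Tamex31
open Crest.Agent.R018.Kumx568 Crest.Agent.R018.Kum2x568 Crest.Agent.R018.Kum3x568
open Crest.Agent.R018.S2Trx568 Crest.Agent.R018.S2Psix568 Crest.Agent.R018.S2Locx380
open Crest.Agent.R018.LocDefx31
open Crest.NumberTheoryR

section bridge

/-- `count'` with the eigenvalue relation in the field -/
theorem count2 (F K : Type*) [Field F] [NumberField F] [Field K] [NumberField K] [Algebra F K]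
    [IsGalois F K] (l : ℕ) (hl : l.Prime) (k H : ℕ) (hH : 0 < H)
    (hyp : ∀ n : ℕ, ∃ (c : (K ≃ₐ[F] K) →* (ZMod (l ^ n))ˣ) (f : (Fin k → ℕ) → Kˣ),
      (∀ a, ∀ w : HeightOneSpectrum (𝓞 K), (l : 𝓞 K) ∉ w.asIdeal →
        ((l ^ n : ℕ) : ℤ) ∣ ord (𝓞 K) w (f a)) ∧
      (∀ a, ∀ g : K ≃ₐ[F] K, ∃ d : Kˣ,
        g (f a : K) = (f a : K) ^ ((c g : (ZMod (l ^ n))ˣ) : ZMod (l ^ n)).val * (d : K) ^ (l ^ n)) ∧
      (∀ a a' (m : ℕ), 0 < m → (∃ d : Kˣ, f a ^ m = f a' ^ m * d ^ (l ^ n)) →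
        ∀ i, ((l ^ n : ℕ) : ℤ) ∣ (m * H : ℕ) * ((a i : ℤ) - a' i))) :
    k ≤ 2 * finrank ℚ F := by
  refine count' F K l hl k H hH fun n => ?_
  obtain ⟨c, f, h1, h2, h3⟩ := hyp n
  refine ⟨c, f, h1, fun a g => ?_, h3⟩
  obtain ⟨d, hd⟩ := h2 a g
  exact ⟨d, Units.ext (by simpa using hd)⟩

end bridge

section cls

variable {F₁ E₁ F₂ E₂ : Type*} [Field F₁] [Field E₁] [Algebra F₁ E₁] [Field F₂] [Field E₂]
  [Algebra F₂ E₂]

theorem pow_val_one {A : Type*} [Monoid A] {N : ℕ} (hN : N ≠ 0) {a : A} (ha : a ^ N = 1) :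
    a ^ (1 : ZMod N).val = a := by
  rcases Nat.lt_or_ge 1 N with h | h
  · rw [ZMod.val_one'' (by omega), pow_one]
  · have h1 : N = 1 := by omega
    subst h1
    rw [pow_one] at ha
    rw [ha, one_pow]

variable {α : (E₁ ≃ₐ[F₁] E₁) →* (E₂ ≃ₐ[F₂] E₂)} {n : ℕ} {ζ₁ : E₁} {ζ₂ : E₂}
  {K : IntermediateField F₁ E₁}

/-- the transport as a homomorphism modulo `n`-th powers -/
noncomputable def trHom [IsGalois F₁ E₁] (hn : n ≠ 0) (h₁ : IsPrimitiveRoot ζ₁ n)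
    (h₂ : IsPrimitiveRoot ζ₂ n) (hc : Cyc α K.fixingSubgroup ζ₁ ζ₂) {Φ : F₂ˣ → Kˣ}
    (hΦ : IsTransport K α n ζ₁ ζ₂ Φ) : F₂ˣ →* Kˣ ⧸ Pw K n :=
  MonoidHom.mk' (fun x => QuotientGroup.mk' (Pw K n) (Φ x)) (fun x y => by
    rw [← map_mul, mk_eq_iff]
    exact hΦ.map_mul hn h₁ h₂ hc x y)

theorem trHom_apply [IsGalois F₁ E₁] (hn : n ≠ 0) (h₁ : IsPrimitiveRoot ζ₁ n)
    (h₂ : IsPrimitiveRoot ζ₂ n) (hc : Cyc α K.fixingSubgroup ζ₁ ζ₂) {Φ : F₂ˣ → Kˣ}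
    (hΦ : IsTransport K α n ζ₁ ζ₂ Φ) (x : F₂ˣ) :
    trHom hn h₁ h₂ hc hΦ x = QuotientGroup.mk' (Pw K n) (Φ x) := rfl

theorem autToPow_eq_of [NeZero n] {F E : Type*} [Field F] [Field E] [Algebra F E] {ζ : E}
    (h : IsPrimitiveRoot ζ n) (g : E ≃ₐ[F] E) (a : ℕ) (ha : g ζ = ζ ^ a) :
    ((h.autToPow F g : (ZMod n)ˣ) : ZMod n) = a := by
  have h1 := h.autToPow_spec F g
  rw [ha] at h1
  have h2 := (pow_eq_iff_modEq (NeZero.ne n) h _ _).1 h1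
  rw [← ZMod.natCast_eq_natCast_iff, ZMod.natCast_zmod_val] at h2
  exact h2

/-- the character of the Galois group of `K/F₁` attached to `ψ_l` -/
theorem exists_char [IsGalois F₁ E₁] [IsGalois F₁ K] (hn : n ≠ 0) (h₁ : IsPrimitiveRoot ζ₁ n)
    (h₂ : IsPrimitiveRoot ζ₂ n) (hc : Cyc α K.fixingSubgroup ζ₁ ζ₂) {Φ : F₂ˣ → Kˣ}
    (hΦ : IsTransport K α n ζ₁ ζ₂ Φ) :
    ∃ c : (K ≃ₐ[F₁] K) →* (ZMod n)ˣ, ∀ (x : F₂ˣ) (g : K ≃ₐ[F₁] K), ∃ d : Kˣ,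
      g (Φ x : K) = (Φ x : K) ^ ((c g : (ZMod n)ˣ) : ZMod n).val * (d : K) ^ n := by
  have : NeZero n := ⟨hn⟩
  let χ₁ : (E₁ ≃ₐ[F₁] E₁) →* (ZMod n)ˣ := h₁.autToPow F₁
  let χ₂ : (E₁ ≃ₐ[F₁] E₁) →* (ZMod n)ˣ := (h₂.autToPow F₂).comp α
  let Ψ : (E₁ ≃ₐ[F₁] E₁) →* (ZMod n)ˣ := χ₁ * χ₂⁻¹
  let r : (E₁ ≃ₐ[F₁] E₁) →* (K ≃ₐ[F₁] K) := AlgEquiv.restrictNormalHom K
  have hr : Function.Surjective r := AlgEquiv.restrictNormalHom_surjective E₁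
  have hker : r.ker ≤ Ψ.ker := by
    intro g hg
    have hg' : g ∈ K.fixingSubgroup := by
      rw [← IntermediateField.restrictNormalHom_ker]
      exact hg
    obtain ⟨a, ha₂, ha₁⟩ := hc g hg'
    rw [MonoidHom.mem_ker]
    change χ₁ g * (χ₂ g)⁻¹ = 1
    rw [mul_inv_eq_one]
    apply Units.ext
    change ((h₁.autToPow F₁ g : (ZMod n)ˣ) : ZMod n) = ((h₂.autToPow F₂ (α g) : (ZMod n)ˣ) : ZMod n)
    rw [autToPow_eq_of h₁ g a ha₁, autToPow_eq_of h₂ (α g) a ha₂]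
  let c : (K ≃ₐ[F₁] K) →* (ZMod n)ˣ := r.liftOfSurjective hr ⟨Ψ, hker⟩
  have hcr : ∀ h : E₁ ≃ₐ[F₁] E₁, c (r h) = Ψ h := fun h =>
    r.liftOfRightInverse_comp_apply _ (Function.rightInverse_surjInv hr) ⟨Ψ, hker⟩ h
  have hK : K.fixingSubgroup.Normal := (InfiniteGalois.normal_iff_isGalois K).2 inferInstance
  refine ⟨c, fun x g => ?_⟩
  obtain ⟨h, rfl⟩ := hr g
  obtain ⟨d, hd⟩ := hΦ.eig hK hn h₁ h₂ hc x h _ _ (h₂.autToPow_spec F₂ (α h)).symm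
    (h₁.autToPow_spec F₁ h).symm
  -- the unit `w = h (Φ x)`
  have hw0 : r h (Φ x : K) ≠ 0 := by
    rw [Ne, map_eq_zero]
    exact (Φ x).ne_zero
  let w : Kˣ := Units.mk0 (r h (Φ x : K)) hw0
  -- the relation in the class group
  have hrel : w ^ ((χ₂ h : (ZMod n)ˣ) : ZMod n).val =
      Φ x ^ ((χ₁ h : (ZMod n)ˣ) : ZMod n).val * d ^ n := by
    apply Units.ext
    apply Subtype.ext
    have h3 : (((w : Kˣ) : K) : E₁) = h ((Φ x : K) : E₁) :=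
      AlgEquiv.restrictNormal_commutes h K (Φ x : K)
    rw [Units.val_pow_eq_pow_val, Units.val_mul, Units.val_pow_eq_pow_val,
      Units.val_pow_eq_pow_val]
    push_cast
    rw [h3]
    exact hd
  have h4 : QuotientGroup.mk' (Pw K n) w ^ ((χ₂ h : (ZMod n)ˣ) : ZMod n).val =
      QuotientGroup.mk' (Pw K n) (Φ x) ^ ((χ₁ h : (ZMod n)ˣ) : ZMod n).val := by
    rw [← map_pow, ← map_pow, mk_eq_iff]
    exact ⟨d, hrel⟩
  have h5 : QuotientGroup.mk' (Pw K n) w =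
      (QuotientGroup.mk' (Pw K n) w ^ ((χ₂ h : (ZMod n)ˣ) : ZMod n).val) ^
        (((χ₂ h)⁻¹ : (ZMod n)ˣ) : ZMod n).val := by
    rw [← pow_mul, ← pow_val_mul (mk_pow_eq_one _), ← Units.val_mul, mul_inv_cancel, Units.val_one,
      pow_val_one hn (mk_pow_eq_one _)]
  have h6 : QuotientGroup.mk' (Pw K n) w =
      QuotientGroup.mk' (Pw K n) (Φ x ^ ((c (r h) : (ZMod n)ˣ) : ZMod n).val) := by
    rw [h5, h4, ← pow_mul, ← pow_val_mul (mk_pow_eq_one _), ← Units.val_mul, map_pow, hcr]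
    rfl
  rw [mk_eq_iff] at h6
  obtain ⟨e, he⟩ := h6
  exact ⟨e, by simpa [w] using congrArg Units.val he⟩

end cls

section main

variable {F₁ E₁ F₂ E₂ : Type*} [Field F₁] [NumberField F₁] [Field E₁] [CharZero E₁]
  [Algebra.IsAlgebraic ℚ E₁] [Algebra F₁ E₁] [IsGalois F₁ E₁]
  [Field F₂] [NumberField F₂] [Field E₂] [CharZero E₂] [Algebra.IsAlgebraic ℚ E₂] [Algebra F₂ E₂]
  [IsGalois F₂ E₂]

omit [Algebra.IsAlgebraic ℚ E₁] in
theorem rchar_ne_of_notMem (P : Place E₁) {l : ℕ} (h : (l : 𝓞 E₁) ∉ P.ideal) : P.rchar ≠ l := by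
  rintro rfl
  exact h P.rchar_mem

omit [Algebra.IsAlgebraic ℚ E₁] in
theorem notMem_of_rchar_ne (P : Place E₁) {l : ℕ} (hl : l.Prime) (h : P.rchar ≠ l) :
    (l : 𝓞 E₁) ∉ P.ideal := fun hm => h (P.rchar_eq_of_mem hl hm)

/-- **(S2)**: if `ψ_l` has finite order then at most `2 [F₁ : ℚ]` primes of `F₂` are not hit. -/
theorem s2 (hsc : IsSolvablyClosed E₂) (α : (E₁ ≃ₐ[F₁] E₁) →* (E₂ ≃ₐ[F₂] E₂))
    (hα : Continuous α) (hs : Function.Surjective α) (l : ℕ) (hl : l.Prime) (hl2 : l ≠ 2)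
    (hroots₁ : ∀ k : ℕ, ∃ ζ : E₁, IsPrimitiveRoot ζ (l ^ k))
    (hpow₁ : ∀ (n : ℕ) (x : E₁), ∃ y : E₁, y ^ (l ^ n) = x)
    (hfin : (psiKer α l hl.ne_zero).index ≠ 0)
    (hloc : ∀ P : Place E₁, S1 α l P → ∃ Q : Place E₂, (l : 𝓞 E₂) ∉ Q.ideal ∧ Goes α P Q)
    (s : Finset (HeightOneSpectrum (𝓞 F₂)))
    (hsb : ∀ w ∈ s, ¬ ∃ (P : Place E₁) (Q : Place E₂), S1 α l P ∧ (l : 𝓞 E₂) ∉ Q.ideal ∧
      Goes α P Q ∧ hos (Q.res F₂) = w) :
    s.card ≤ 2 * finrank ℚ F₁ := by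
  classical
  have hroots₂ : ∀ k : ℕ, ∃ ζ : E₂, IsPrimitiveRoot ζ (l ^ k) := fun k =>
    exists_primitiveRoot hsc _ (pow_ne_zero k hl.ne_zero)
  set K := psiField α l hl.ne_zero with hK
  have hgal : IsGalois F₁ K := isGalois_psiField α hα l hl
  have hfd : FiniteDimensional F₁ K := finite_psiField α hα l hl hfin
  have hnf : NumberField K := NumberField.of_module_finite F₁ K
  have hcop : ∀ n : ℕ, Nat.Coprime (finrank F₁ K) (l ^ n) := fun n =>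
    coprime_finrank α hα l hl hl2 hroots₁ hroots₂ hfin n
  have hcyc : ∀ (k : ℕ) (ζ₁ : E₁) (ζ₂ : E₂), IsPrimitiveRoot ζ₁ (l ^ k) →
      IsPrimitiveRoot ζ₂ (l ^ k) → Cyc α K.fixingSubgroup ζ₁ ζ₂ := fun k ζ₁ ζ₂ h₁ h₂ =>
    cyc_psiField α hα l hl k ζ₁ ζ₂ h₁ h₂
  -- generators of the powers of the primes in `s`
  let e : Fin s.card ≃ s := s.equivFin.symm
  have hπ : ∀ i : Fin s.card, ∃ x : F₂ˣ, ∀ w', ord (𝓞 F₂) w' x =
      if w' = (e i : HeightOneSpectrum (𝓞 F₂)) then (hL F₂ : ℤ) else 0 := fun i =>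
    exists_gen (e i : HeightOneSpectrum (𝓞 F₂))
  choose π hπ using hπ
  refine count2 F₁ K l hl s.card (hL F₂) hL_pos fun n => ?_
  have hn : l ^ n ≠ 0 := pow_ne_zero _ hl.ne_zero
  obtain ⟨ζ₁, h₁⟩ := hroots₁ n
  obtain ⟨ζ₂, h₂⟩ := hroots₂ n
  have hc := hcyc n ζ₁ ζ₂ h₁ h₂
  obtain ⟨Φ, hΦ⟩ := exists_isTransport hsc hα hn h₁ h₂ hc
  obtain ⟨c, hcΦ⟩ := exists_char hn h₁ h₂ hc hΦ
  let X : (Fin s.card → ℕ) → F₂ˣ := fun a => ∏ i, π i ^ a i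
  have hX : ∀ a w', ord (𝓞 F₂) w' (X a) =
      ∑ i, (a i : ℤ) * if w' = (e i : HeightOneSpectrum (𝓞 F₂)) then (hL F₂ : ℤ) else 0 := by
    intro a w'
    rw [ord_prod]
    refine Finset.sum_congr rfl fun i _ => ?_
    rw [ord_pow, hπ]
  have hX1 : ∀ a (i : Fin s.card), ord (𝓞 F₂) (e i : HeightOneSpectrum (𝓞 F₂)) (X a) =
      a i * hL F₂ := by
    intro a i
    rw [hX, Finset.sum_eq_single i]
    · rw [if_pos rfl]
    · intro j _ hj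
      rw [if_neg, mul_zero]
      intro h
      exact hj (e.injective (Subtype.ext h.symm))
    · intro h
      exact absurd (Finset.mem_univ _) h
  have hX0 : ∀ a w', w' ∉ s → ord (𝓞 F₂) w' (X a) = 0 := by
    intro a w' hw'
    rw [hX]
    apply Finset.sum_eq_zero
    intro i _
    rw [if_neg, mul_zero]
    rintro rfl
    exact hw' (e i).2
  refine ⟨c, fun a => Φ (X a), fun a w hw => ?_, fun a g => hcΦ (X a) g, ?_⟩
  · -- local conditions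
    let Q₀ : Place K := ⟨w.asIdeal, w.isPrime, w.ne_bot⟩
    obtain ⟨P, hP⟩ := Place.exists_res_eq (E := E₁) K Q₀
    have hw2 : hos (P.res K) = w := by
      rw [hP]
      rfl
    have hPl : P.rchar ≠ l := by
      rintro rfl
      apply hw
      have h3 : ((P.res K).rchar : 𝓞 K) ∈ (P.res K).ideal := (P.res K).rchar_mem
      rw [Place.rchar_res, hP] at h3
      exact h3
    have hmain := dvd_ord_transport l n hl hcyc hroots₁ hroots₂ (hpow₁ n) h₁ h₂ hΦ P hPl (X a) (by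
      by_cases hS1 : S1 α l P
      · right
        obtain ⟨Q, hQl, hQ⟩ := hloc P hS1
        refine ⟨Q, hQ, rchar_ne_of_notMem Q hQl, hX0 a _ fun hmem => ?_⟩
        exact hsb _ hmem ⟨P, Q, hS1, hQl, hQ, rfl⟩
      · left
        intro τ hτ N hN hNo
        by_contra hcon
        push Not at hcon
        apply hS1
        refine ⟨notMem_of_rchar_ne P hl hPl, τ, hτ, N, hN, hNo, fun m hm => ?_⟩
        by_contra hlm
        exact hcon m hlm hm)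
    rwa [hw2] at hmain
  · -- injectivity
    rintro a a' m hm ⟨d, hd⟩ i
    have h3 : trHom hn h₁ h₂ hc hΦ (X a ^ m) = trHom hn h₁ h₂ hc hΦ (X a' ^ m) := by
      rw [map_pow, map_pow, trHom_apply, trHom_apply, ← map_pow, ← map_pow, mk_eq_iff]
      exact ⟨d, hd⟩
    rw [trHom_apply, trHom_apply, mk_eq_iff] at h3
    obtain ⟨d', hd'⟩ := h3
    obtain ⟨b, hb⟩ := hΦ.inj hs hn h₁ h₂ hc (hcop n) _ _ d' hd'
    have h4 := congrArg (ord (𝓞 F₂) (e i : HeightOneSpectrum (𝓞 F₂))) hb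
    rw [ord_mul, ord_pow, ord_pow, ord_pow, hX1, hX1] at h4
    refine ⟨ord (𝓞 F₂) (e i : HeightOneSpectrum (𝓞 F₂)) b, ?_⟩
    push_cast at h4 ⊢
    linear_combination h4

end main


end Crest.Agent.R018.S2Finx863
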