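import Crest.Agent.R018.SLat_824

/-!
Row 18, LEMMA LOG, block B, part 2 (helper824): the free lattice of finite index in the `S`-units.
-/

set_option autoImplicit false

open NumberField NumberField.InfinitePlace NumberField.Units Module IsDedekindDomain
open scoped Pointwise

namespace Crest.Agent.R018.SLatBx824

open Crest.Agent.R018.MinkUx824 Crest.Agent.R018.LogDefsx575 Crest.Agent.R018.Selmerx380
open Crest.Agent.R018.SLatx824

attribute [local instance] actH actOv

section Gen

variable {L : Type*} [Field L] [NumberField L]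

variable (L) in
/-- the class number -/
noncomputable def hL : ℕ := Fintype.card (ClassGroup (𝓞 L))

theorem hL_pos : 0 < hL L := Fintype.card_pos

open Classical in
/-- a generator of `w^h` -/
theorem exists_gen (w : HeightOneSpectrum (𝓞 L)) :
    ∃ x : Lˣ, ∀ w', ord (𝓞 L) w' x = if w' = w then (hL L : ℤ) else 0 := by
  have h0 : w.asIdeal ∈ nonZeroDivisors (Ideal (𝓞 L)) := mem_nonZeroDivisors_of_ne_zero w.ne_bot
  have h1 : ClassGroup.mk0 (⟨w.asIdeal, h0⟩ ^ hL L : nonZeroDivisors (Ideal (𝓞 L))) = 1 := by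
    rw [map_pow]
    exact pow_card_eq_one
  have h2 : (w.asIdeal ^ hL L) ∈ nonZeroDivisors (Ideal (𝓞 L)) := pow_mem h0 _
  have h3 : ClassGroup.mk0 (⟨w.asIdeal ^ hL L, h2⟩ : nonZeroDivisors (Ideal (𝓞 L))) = 1 := h1
  rw [ClassGroup.mk0_eq_one_iff] at h3
  obtain ⟨a, ha⟩ := h3.principal
  have ha' : w.asIdeal ^ hL L = Ideal.span {a} := ha
  have ha0 : a ≠ 0 := by
    rintro rfl
    rw [Ideal.span_singleton_eq_bot.mpr rfl] at ha'
    exact pow_ne_zero _ w.ne_bot ha'
  have ha1 : (a : L) ≠ 0 := by exact_mod_cast ha0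
  refine ⟨Units.mk0 (a : L) ha1, fun w' => ?_⟩
  have h4 : ord (𝓞 L) w' (Units.mk0 (a : L) ha1) =
      (hL L : ℤ) * FractionalIdeal.count L w' (w.asIdeal : FractionalIdeal (nonZeroDivisors (𝓞 L)) L) := by
    unfold ord
    rw [← FractionalIdeal.count_pow, ← FractionalIdeal.coeIdeal_pow, ha',
      FractionalIdeal.coeIdeal_span_singleton]
    rfl
  rw [h4]
  by_cases h : w' = w
  · subst h
    rw [if_pos rfl, FractionalIdeal.count_self, mul_one]
  · rw [if_neg h, FractionalIdeal.count_maximal_coprime L w' (Ne.symm h), mul_zero]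

theorem ord_zpow (w : HeightOneSpectrum (𝓞 L)) (x : Lˣ) (n : ℤ) :
    ord (𝓞 L) w (x ^ n) = n * ord (𝓞 L) w x := by
  rcases n with n | n
  · simp only [Int.ofNat_eq_natCast, zpow_natCast]
    exact ord_pow w x n
  · rw [zpow_negSucc, ord_inv, ord_pow, Int.negSucc_eq]
    push_cast
    ring

theorem ord_prod {ι : Type*} (s : Finset ι) (w : HeightOneSpectrum (𝓞 L)) (f : ι → Lˣ) :
    ord (𝓞 L) w (∏ i ∈ s, f i) = ∑ i ∈ s, ord (𝓞 L) w (f i) := by
  classical
  induction s using Finset.induction_on with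
  | empty => simp [ord_one]
  | insert a s ha ih => rw [Finset.prod_insert ha, Finset.sum_insert ha, ord_mul, ih]

theorem ord_iu (w : HeightOneSpectrum (𝓞 L)) (u : (𝓞 L)ˣ) : ord (𝓞 L) w (iu L u) = 0 := by
  have h1 : ∀ u : (𝓞 L)ˣ, 0 ≤ ord (𝓞 L) w (iu L u) := by
    intro u
    have h2 := valuation_eq_exp w (iu L u)
    have h3 : w.valuation L ((iu L u : Lˣ) : L) ≤ 1 := w.valuation_le_one (K := L) (u : 𝓞 L)
    rw [h2, ← WithZero.exp_zero, WithZero.exp_le_exp] at h3
    omega
  have h4 := h1 u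
  have h5 := h1 u⁻¹
  rw [map_inv, ord_inv] at h5
  omega

theorem mem_iu_range_iff (x : Lˣ) : x ∈ (iu L).range ↔ ∀ w, ord (𝓞 L) w x = 0 := by
  constructor
  · rintro ⟨u, rfl⟩ w
    exact ord_iu w u
  · intro h
    obtain ⟨u, hu⟩ := exists_unit_of_ord_eq_zero x h
    exact ⟨u, hu⟩

end Gen

section Lattice

variable {L : Type*} [Field L] [NumberField L]

open Classical in
/-- a lattice generated by units of finite index and generators of the `w^h` has finite index
in the `S`-units -/
theorem relIndex_ne_zero (S : Set (HeightOneSpectrum (𝓞 L))) (hS : S.Finite)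
    (y : S → Lˣ) (hy : ∀ (q : S) w', ord (𝓞 L) w' (y q) = if w' = q then (hL L : ℤ) else 0)
    (E : Subgroup Lˣ) (hE : E.relIndex (iu L).range ≠ 0) (A : Subgroup Lˣ) (hEA : E ≤ A)
    (hyA : ∀ q, y q ∈ A) : A.relIndex (S.unit L) ≠ 0 := by
  have hft : Fintype S := hS.fintype
  have hne : NeZero (hL L) := ⟨hL_pos.ne'⟩
  -- the map `x ↦ (ord_q x mod h)`
  let ρ : Lˣ →* Multiplicative (S → ZMod (hL L)) :=
    { toFun := fun x => Multiplicative.ofAdd fun q : S => ((ord (𝓞 L) q.1 x : ℤ) : ZMod (hL L))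
      map_one' := by
        rw [← ofAdd_zero]
        congr 1
        funext q
        simp [ord_one]
      map_mul' := fun a b => by
        rw [← ofAdd_add]
        congr 1
        funext q
        simp [ord_mul] }
  have h1 : ρ.ker.relIndex (S.unit L) ≠ 0 := by
    rw [Subgroup.relIndex_ker]
    exact Nat.card_pos.ne'
  have h2 : ρ.ker ⊓ S.unit L ≤ A ⊔ (iu L).range := by
    rintro x ⟨hx, hxS⟩
    have h3 : ∀ q : S, ∃ c : ℤ, ord (𝓞 L) q.1 x = hL L * c := by
      intro q
      have : Multiplicative.toAdd (ρ x) q = 0 := by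
        rw [MonoidHom.mem_ker.mp hx]
        rfl
      have h4 : ((ord (𝓞 L) q.1 x : ℤ) : ZMod (hL L)) = 0 := this
      rw [ZMod.intCast_zmod_eq_zero_iff_dvd] at h4
      exact h4
    choose c hc using h3
    have h5 : x / ∏ q, y q ^ c q ∈ (iu L).range := by
      rw [mem_iu_range_iff]
      intro w
      rw [ord_div, ord_prod]
      simp only [ord_zpow, hy]
      by_cases hw : w ∈ S
      · have : ∑ q : S, c q * (if w = q then (hL L : ℤ) else 0) = c ⟨w, hw⟩ * hL L := by
          rw [Finset.sum_eq_single ⟨w, hw⟩]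
          · simp
          · intro q _ hq
            rw [if_neg, mul_zero]
            rintro rfl
            exact hq rfl
          · simp
        rw [this, hc ⟨w, hw⟩]
        ring
      · have : ∑ q : S, c q * (if w = q then (hL L : ℤ) else 0) = 0 := by
          apply Finset.sum_eq_zero
          intro q _
          rw [if_neg, mul_zero]
          rintro rfl
          exact hw q.2
        rw [this, sub_zero]
        exact (mem_unit_iff S x).mp hxS w hw
    have h6 : x = (∏ q, y q ^ c q) * (x / ∏ q, y q ^ c q) := by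
      rw [mul_div_cancel]
    rw [h6]
    apply Subgroup.mul_mem_sup _ h5
    exact prod_mem fun q _ => zpow_mem (hyA q) _
  have h3 : (A ⊔ (iu L).range).relIndex (S.unit L) ≠ 0 := by
    intro h
    apply h1
    rw [← Subgroup.inf_relIndex_right]
    exact Subgroup.relIndex_eq_zero_of_le_left h2 h
  have h4 : A.relIndex (A ⊔ (iu L).range) ≠ 0 := by
    rw [Subgroup.relIndex_sup_left]
    intro h
    exact hE (Subgroup.relIndex_eq_zero_of_le_left hEA h)
  exact Subgroup.relIndex_ne_zero_trans h4 h3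

open Classical in
/-- the relations between the generators of the lattice -/
theorem prod_eq_one_iff (S : Set (HeightOneSpectrum (𝓞 L))) [Fintype S]
    (y : S → Lˣ) (hy : ∀ (q : S) w', ord (𝓞 L) w' (y q) = if w' = q then (hL L : ℤ) else 0)
    (ε : InfinitePlace L → Lˣ) (hε : ∀ w, ε w ∈ (iu L).range) (hε1 : ∏ w, ε w = 1)
    (hεr : ∀ c : InfinitePlace L → ℤ, ∏ w, ε w ^ c w = 1 → ∀ w w', c w = c w')
    (φ : InfinitePlace L ⊕ S → ℤ) :
    ∏ t, Sum.elim ε y t ^ φ t = 1 ↔
      (∀ w w', φ (.inl w) = φ (.inl w')) ∧ ∀ q, φ (.inr q) = 0 := by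
  rw [Fintype.prod_sum_type]
  simp only [Sum.elim_inl, Sum.elim_inr]
  constructor
  · intro h
    have h1 : ∀ q : S, φ (.inr q) = 0 := by
      intro q
      have h2 := congrArg (ord (𝓞 L) q.1) h
      rw [ord_mul, ord_one, ord_prod, ord_prod] at h2
      simp only [ord_zpow, hy] at h2
      have h3 : ∑ i, φ (Sum.inl i) * ord (𝓞 L) q.1 (ε i) = 0 := by
        apply Finset.sum_eq_zero
        intro w _
        rw [(mem_iu_range_iff _).mp (hε w), mul_zero]
      have h4 : ∑ q' : S, φ (Sum.inr q') * (if q.1 = q' then (hL L : ℤ) else 0) =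
          φ (.inr q) * hL L := by
        rw [Finset.sum_eq_single q]
        · simp
        · intro q' _ hq
          rw [if_neg, mul_zero]
          intro h5
          exact hq (Subtype.ext h5.symm)
        · simp
      rw [h3, h4, zero_add] at h2
      exact (mul_eq_zero.mp h2).resolve_right (by exact_mod_cast hL_pos.ne')
    refine ⟨?_, h1⟩
    apply hεr
    simpa [h1] using h
  · rintro ⟨h1, h2⟩
    obtain ⟨w0⟩ : Nonempty (InfinitePlace L) := inferInstance
    have h3 : ∀ w, φ (.inl w) = φ (.inl w0) := fun w => h1 w w0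
    simp only [h2, h3, zpow_zero, Finset.prod_const_one, mul_one, Finset.prod_zpow, hε1, one_zpow]

end Lattice

section Main

variable {K L : Type*} [Field K] [NumberField K] [Field L] [NumberField L] [Algebra K L]
  [IsGalois K L]

theorem ov_finite (S : Set (HeightOneSpectrum (𝓞 K))) (hS : S.Finite)
    (hs : ∀ v ∈ S, (v.asIdeal.primesOver (𝓞 L)).ncard = finrank K L) : (ov L S).Finite := by
  have h1 : (⋃ v ∈ S, v.asIdeal.primesOver (𝓞 L)).Finite := by
    apply hS.biUnion
    intro v hv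
    apply Set.finite_of_ncard_ne_zero
    rw [hs v hv]
    exact finrank_pos.ne'
  have h2 : (ov L S) ⊆ HeightOneSpectrum.asIdeal ⁻¹' (⋃ v ∈ S, v.asIdeal.primesOver (𝓞 L)) := by
    rintro w ⟨v, hv, h⟩
    simp only [Set.mem_preimage, Set.mem_iUnion]
    exact ⟨v, hv, w.isPrime, h⟩
  refine (h1.preimage ?_).subset h2
  intro a _ b _ hab
  exact HeightOneSpectrum.ext hab

open Classical in
/-- **the lattice**: an equivariant family `z` indexed by the infinite places and the primes
above `S` -/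
theorem exists_lattice (hodd : Odd (finrank K L)) (S : Set (HeightOneSpectrum (𝓞 K)))
    (hS : S.Finite) (hs : ∀ v ∈ S, (v.asIdeal.primesOver (𝓞 L)).ncard = finrank K L)
    [Fintype (ov L S)] :
    ∃ z : InfinitePlace L ⊕ ov L S → Lˣ,
      (∀ (σ : L ≃ₐ[K] L) t, z (σ • t) = σ • z t) ∧
      (∀ t, z t ∈ (ov L S).unit L) ∧
      (∀ φ : InfinitePlace L ⊕ ov L S → ℤ, ∏ t, z t ^ φ t = 1 ↔
        (∀ w w', φ (.inl w) = φ (.inl w')) ∧ ∀ q, φ (.inr q) = 0) ∧
      (∀ A : Subgroup Lˣ, (∀ t, z t ∈ A) → A.relIndex ((ov L S).unit L) ≠ 0) ∧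
      (∀ (σ : L ≃ₐ[K] L) (t : InfinitePlace L ⊕ ov L S), σ • t = t → σ = 1) := by
  obtain ⟨ε, he1, he2, he3, he4, he5⟩ := exists_minkowski (K := K) (L := L)
    (fun σ w h => free_place hodd σ w h)
  have hfree : ∀ (σ : L ≃ₐ[K] L) (q : ov L S), σ • q = q → σ = 1 := by
    intro σ q h
    obtain ⟨v, hv, hw⟩ := q.2
    exact free_prime v q.1 hw (hs v hv) σ (congrArg Subtype.val h)
  obtain ⟨y, hy1, hy2⟩ := exists_equivariant (G := L ≃ₐ[K] L) (X := ov L S) (U := Lˣ) hfree
    (fun q x => ∀ w', ord (𝓞 L) w' x = if w' = q.1 then (hL L : ℤ) else 0)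
    (by
      intro σ q x hx w'
      have h1 := hx (σ⁻¹ • w')
      rw [← ord_smul σ, smul_inv_smul] at h1
      rw [h1]
      congr 1
      rw [inv_smul_eq_iff]
      rfl)
    (fun q => exists_gen q.1)
  refine ⟨Sum.elim ε y, ?_, ?_, prod_eq_one_iff (ov L S) y hy2 ε he2 he3 he4, ?_, ?_⟩
  · rintro σ (w | q)
    · exact he1 σ w
    · exact hy1 σ q
  · rintro (w | q)
    · rw [mem_unit_iff]
      intro w' _
      exact (mem_iu_range_iff _).mp (he2 w) w'
    · rw [mem_unit_iff]
      intro w' hw'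
      simp only [Sum.elim_inr]
      rw [hy2, if_neg]
      rintro rfl
      exact hw' q.2
  · intro A hA
    refine relIndex_ne_zero (ov L S) (ov_finite S hS hs) y hy2 _ he5 A ?_ (fun q => hA (.inr q))
    rw [Subgroup.closure_le]
    rintro _ ⟨w, rfl⟩
    exact hA (.inl w)
  · rintro σ (w | q) h
    · exact free_place hodd σ w (Sum.inl_injective h)
    · exact hfree σ q (Sum.inr_injective h)

end Main

end Crest.Agent.R018.SLatBx824
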