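import Crest.Agent.R018.MinkU_824
import Crest.Agent.R018.LogDefs_575
import Crest.Agent.R018.Selmer_380

/-!
Row 18, LEMMA LOG, block B, part 1 (helper824): Galois action on the primes and on the `S`-units.
-/

set_option autoImplicit false

open NumberField NumberField.InfinitePlace NumberField.Units Module IsDedekindDomain
open scoped Pointwise

namespace Crest.Agent.R018.SLatx824

open Crest.Agent.R018.MinkUx824 Crest.Agent.R018.LogDefsx575 Crest.Agent.R018.Selmerx380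

section Act

variable {K L : Type*} [Field K] [Field L] [NumberField L] [Algebra K L]

/-- the Galois action on the primes -/
@[reducible] def actH : MulAction (L ≃ₐ[K] L) (HeightOneSpectrum (𝓞 L)) where
  smul σ w := ⟨σ • w.asIdeal, inferInstance, by
    intro h
    apply w.ne_bot
    have : σ⁻¹ • σ • w.asIdeal = σ⁻¹ • (⊥ : Ideal (𝓞 L)) := by rw [h]
    rwa [inv_smul_smul, Ideal.smul_bot] at this⟩
  one_smul w := HeightOneSpectrum.ext (one_smul (L ≃ₐ[K] L) w.asIdeal)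
  mul_smul σ τ w := HeightOneSpectrum.ext (mul_smul σ τ w.asIdeal)

attribute [local instance] actH

theorem smul_asIdeal (σ : L ≃ₐ[K] L) (w : HeightOneSpectrum (𝓞 L)) :
    (σ • w).asIdeal = σ • w.asIdeal := rfl

theorem intVal_smul (σ : L ≃ₐ[K] L) (w : HeightOneSpectrum (𝓞 L)) (x : 𝓞 L) :
    (σ • w).intValuation (σ • x) = w.intValuation x := by
  by_cases hx : x = 0
  · subst hx
    rw [smul_zero, map_zero, map_zero]
  have hx' : σ • x ≠ 0 := by
    intro h
    apply hx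
    rwa [smul_eq_zero_iff_eq] at h
  have key : ∀ n : ℕ, (σ • w).intValuation (σ • x) ≤ WithZero.exp (-(n : ℤ)) ↔
      w.intValuation x ≤ WithZero.exp (-(n : ℤ)) := by
    intro n
    rw [HeightOneSpectrum.intValuation_le_pow_iff_mem, HeightOneSpectrum.intValuation_le_pow_iff_mem,
      smul_asIdeal, ← smul_pow', Ideal.smul_mem_pointwise_smul_iff]
  have h1 := (σ • w).intValuation_if_neg hx'
  have h2 := w.intValuation_if_neg hx
  apply le_antisymm
  · rw [h2]
    exact (key _).mpr h2.le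
  · rw [h1]
    exact (key _).mp h1.le

theorem val_smul (σ : L ≃ₐ[K] L) (w : HeightOneSpectrum (𝓞 L)) (x : L) :
    (σ • w).valuation L (σ x) = w.valuation L x := by
  obtain ⟨r, s, hrs⟩ := IsLocalization.exists_mk'_eq (nonZeroDivisors (𝓞 L)) x
  have h1 : x = algebraMap (𝓞 L) L r / algebraMap (𝓞 L) L s := by
    rw [← hrs, IsFractionRing.mk'_eq_div]
  have h2 : σ x = algebraMap (𝓞 L) L (σ • r) / algebraMap (𝓞 L) L (σ • (s : 𝓞 L)) := by
    rw [h1, map_div₀]
    rfl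
  rw [h2, h1, map_div₀, map_div₀]
  simp only [HeightOneSpectrum.valuation_of_algebraMap, intVal_smul]

theorem ord_smul (σ : L ≃ₐ[K] L) (w : HeightOneSpectrum (𝓞 L)) (x : Lˣ) :
    ord (𝓞 L) (σ • w) (σ • x) = ord (𝓞 L) w x := by
  have h1 := valuation_eq_exp (σ • w) (σ • x)
  have h2 := valuation_eq_exp w x
  have h3 : ((σ • x : Lˣ) : L) = σ (x : L) := rfl
  rw [h3, val_smul, h2, WithZero.exp_inj] at h1
  omega

theorem valuation_eq_one_iff (w : HeightOneSpectrum (𝓞 L)) (x : Lˣ) :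
    w.valuation L (x : L) = 1 ↔ ord (𝓞 L) w x = 0 := by
  rw [valuation_eq_exp, ← WithZero.exp_zero, WithZero.exp_inj]
  omega

theorem mem_unit_iff (S : Set (HeightOneSpectrum (𝓞 L))) (x : Lˣ) :
    x ∈ S.unit L ↔ ∀ w ∉ S, ord (𝓞 L) w x = 0 := by
  simp_rw [← valuation_eq_one_iff]
  rfl

theorem sg_apply (σ : L ≃ₐ[K] L) (x : Lˣ) : sg K σ x = (σ • x) / x := rfl

theorem free_place [IsGalois K L] (hodd : Odd (finrank K L)) (σ : L ≃ₐ[K] L) (w : InfinitePlace L)
    (h : σ • w = w) : σ = 1 := by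
  have := IsUnramifiedAtInfinitePlaces_of_odd_finrank (k := K) (K := L) hodd
  have h1 : IsUnramified K w := this.isUnramified w
  have h2 := h1.stabilizer_eq_bot
  have h3 : σ ∈ MulAction.stabilizer (L ≃ₐ[K] L) w := h
  rw [h2] at h3
  exact Subgroup.mem_bot.mp h3

variable [NumberField K] [IsGalois K L]

theorem nm_apply (x : Lˣ) : nm K L x = ∏ τ : L ≃ₐ[K] L, τ • x := by
  ext
  rw [Units.coe_prod]
  exact Algebra.norm_eq_prod_automorphisms K (x : L)

theorem smul_mem_ov {S : Set (HeightOneSpectrum (𝓞 K))} (σ : L ≃ₐ[K] L)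
    {w : HeightOneSpectrum (𝓞 L)} (hw : w ∈ ov L S) : σ • w ∈ ov L S := by
  obtain ⟨v, hv, h⟩ := hw
  refine ⟨v, hv, ?_⟩
  rw [smul_asIdeal]
  exact h.smul σ

theorem smul_mem_ov_iff {S : Set (HeightOneSpectrum (𝓞 K))} (σ : L ≃ₐ[K] L)
    {w : HeightOneSpectrum (𝓞 L)} : σ • w ∈ ov L S ↔ w ∈ ov L S := by
  refine ⟨fun h => ?_, smul_mem_ov σ⟩
  have := smul_mem_ov σ⁻¹ h
  rwa [inv_smul_smul] at this

theorem smul_mem_unit {S : Set (HeightOneSpectrum (𝓞 K))} (σ : L ≃ₐ[K] L) {x : Lˣ}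
    (hx : x ∈ (ov L S).unit L) : σ • x ∈ (ov L S).unit L := by
  rw [mem_unit_iff] at hx ⊢
  intro w hw
  have h1 : σ⁻¹ • w ∉ ov L S := by rwa [smul_mem_ov_iff]
  have := hx _ h1
  rw [← ord_smul σ, smul_inv_smul] at this
  exact this

/-- the action on the primes above `S` -/
@[reducible] def actOv (S : Set (HeightOneSpectrum (𝓞 K))) : MulAction (L ≃ₐ[K] L) (ov L S) where
  smul σ w := ⟨σ • w.1, smul_mem_ov σ w.2⟩
  one_smul w := Subtype.ext (one_smul (L ≃ₐ[K] L) w.1)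
  mul_smul σ τ w := Subtype.ext (mul_smul σ τ w.1)

theorem stab_unit (S : Set (HeightOneSpectrum (𝓞 K))) (σ : L ≃ₐ[K] L) :
    Stab (sg K σ) (nm K L) ((ov L S).unit L) := by
  constructor
  · rintro _ ⟨x, hx, rfl⟩
    rw [sg_apply]
    exact div_mem (smul_mem_unit σ hx) hx
  · rintro _ ⟨x, hx, rfl⟩
    rw [nm_apply]
    exact prod_mem fun τ _ => smul_mem_unit τ hx

/-! ### freeness -/

theorem free_prime (v : HeightOneSpectrum (𝓞 K)) (w : HeightOneSpectrum (𝓞 L))
    (hw : w.asIdeal.LiesOver v.asIdeal)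
    (hv : (v.asIdeal.primesOver (𝓞 L)).ncard = finrank K L) (σ : L ≃ₐ[K] L)
    (h : σ • w = w) : σ = 1 := by
  classical
  have h1 : MulAction.orbit (L ≃ₐ[K] L) w.asIdeal = v.asIdeal.primesOver (𝓞 L) :=
    Algebra.IsInvariant.orbit_eq_primesOver (𝓞 K) (𝓞 L) (L ≃ₐ[K] L) v.asIdeal w.asIdeal
  have hfin : Finite (MulAction.orbit (L ≃ₐ[K] L) w.asIdeal) :=
    Set.finite_range (fun σ : L ≃ₐ[K] L => σ • w.asIdeal)
  have hft := Fintype.ofFinite (MulAction.orbit (L ≃ₐ[K] L) w.asIdeal)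
  have h2 := MulAction.card_orbit_mul_card_stabilizer_eq_card_group (L ≃ₐ[K] L) w.asIdeal
  rw [← Nat.card_eq_fintype_card, ← Nat.card_eq_fintype_card, ← Nat.card_eq_fintype_card, h1,
    Nat.card_coe_set_eq, hv, IsGalois.card_aut_eq_finrank] at h2
  have h3 : Nat.card (MulAction.stabilizer (L ≃ₐ[K] L) w.asIdeal) = 1 := by
    have : 0 < finrank K L := finrank_pos
    exact Nat.eq_of_mul_eq_mul_left this (by rw [h2, mul_one])
  rw [Subgroup.card_eq_one] at h3
  have h4 : σ ∈ MulAction.stabilizer (L ≃ₐ[K] L) w.asIdeal := congrArg HeightOneSpectrum.asIdeal h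
  rw [h3] at h4
  exact Subgroup.mem_bot.mp h4

end Act

end Crest.Agent.R018.SLatx824
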