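import Mathlib

/-!
Row 18, block D (helper476), part 1: the ring `LInt l F` of `l`-integral elements of a field.
-/

set_option autoImplicit false

namespace Crest.Agent.R018.SemiLocx476

open Polynomial

/-- `l`-integral elements of a field `F`: those `x` with `m x` integral over `ℤ` for some natural
number `m` prime to `l`. -/
def LInt (l : ℕ) [hl : Fact l.Prime] (F : Type*) [Field F] : Subring F where
  carrier := {x | ∃ m : ℕ, ¬ l ∣ m ∧ IsIntegral ℤ ((m : F) * x)}
  mul_mem' := by
    rintro x y ⟨m, hm, hx⟩ ⟨n, hn, hy⟩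
    refine ⟨m * n, ?_, ?_⟩
    · intro h
      rcases (Nat.Prime.dvd_mul hl.out).1 h with h | h
      · exact hm h
      · exact hn h
    · have : (((m * n : ℕ) : F) * (x * y)) = ((m : F) * x) * ((n : F) * y) := by
        push_cast; ring
      rw [this]
      exact hx.mul hy
  one_mem' := ⟨1, by
    intro h
    exact hl.out.one_lt.ne' (Nat.dvd_one.1 h), by
    have : (((1 : ℕ) : F) * 1) = 1 := by simp
    rw [this]
    exact isIntegral_one⟩
  add_mem' := by
    rintro x y ⟨m, hm, hx⟩ ⟨n, hn, hy⟩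
    refine ⟨m * n, ?_, ?_⟩
    · intro h
      rcases (Nat.Prime.dvd_mul hl.out).1 h with h | h
      · exact hm h
      · exact hn h
    · have : (((m * n : ℕ) : F) * (x + y)) = (n : F) * ((m : F) * x) + (m : F) * ((n : F) * y) := by
        push_cast; ring
      rw [this]
      exact ((isIntegral_natCast n).mul hx).add ((isIntegral_natCast m).mul hy)
  zero_mem' := ⟨1, by
    intro h
    exact hl.out.one_lt.ne' (Nat.dvd_one.1 h), by
    have : (((1 : ℕ) : F) * 0) = 0 := by simp
    rw [this]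
    exact isIntegral_zero⟩
  neg_mem' := by
    rintro x ⟨m, hm, hx⟩
    refine ⟨m, hm, ?_⟩
    have : ((m : F) * -x) = -((m : F) * x) := by ring
    rw [this]
    exact hx.neg

section basic
variable {l : ℕ} [hl : Fact l.Prime] {F : Type*} [Field F]

theorem mem_LInt {x : F} : x ∈ LInt l F ↔ ∃ m : ℕ, ¬ l ∣ m ∧ IsIntegral ℤ ((m : F) * x) :=
  Iff.rfl

theorem mem_of_isIntegral {x : F} (hx : IsIntegral ℤ x) : x ∈ LInt l F := by
  refine ⟨1, ?_, ?_⟩
  · intro h
    exact hl.out.one_lt.ne' (Nat.dvd_one.1 h)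
  · simpa using hx

theorem inv_nat_mem [CharZero F] {m : ℕ} (hm : ¬ l ∣ m) : ((m : F))⁻¹ ∈ LInt l F := by
  refine ⟨m, hm, ?_⟩
  have hm0 : (m : F) ≠ 0 := by
    intro h
    have : m = 0 := by exact_mod_cast h
    exact hm (this ▸ dvd_zero l)
  rw [mul_inv_cancel₀ hm0]
  exact isIntegral_one

theorem inv_int_mem [CharZero F] {m : ℤ} (hm : ¬ (l : ℤ) ∣ m) : ((m : F))⁻¹ ∈ LInt l F := by
  have h1 : ¬ l ∣ m.natAbs := by
    intro h
    exact hm (Int.natCast_dvd.2 h)
  rcases Int.natAbs_eq m with h | h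
  · rw [h]
    have := inv_nat_mem (F := F) h1
    simpa using this
  · rw [h]
    have := (LInt l F).neg_mem (inv_nat_mem (F := F) h1)
    simpa [inv_neg] using this

theorem map_mem_iff {F' : Type*} [Field F'] (f : F →+* F') {x : F} :
    f x ∈ LInt l F' ↔ x ∈ LInt l F := by
  constructor
  · rintro ⟨m, hm, h⟩
    refine ⟨m, hm, ?_⟩
    have h2 : IsIntegral ℤ (f ((m : F) * x)) := by simpa using h
    exact (isIntegral_algHom_iff (f.toIntAlgHom) f.injective).1 h2
  · rintro ⟨m, hm, h⟩
    refine ⟨m, hm, ?_⟩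
    have h2 : IsIntegral ℤ (f ((m : F) * x)) :=
      (isIntegral_algHom_iff (f.toIntAlgHom) f.injective).2 h
    simpa using h2

/-- an element `m + l z`, `z` integral, `l ∤ m`, divides an integer prime to `l`. -/
theorem exists_mul_eq_int {z : F} (hz : IsIntegral ℤ z) {m : ℕ} (hm : ¬ l ∣ m) :
    ∃ (r : F) (t : ℤ), IsIntegral ℤ r ∧ ¬ (l : ℤ) ∣ t ∧ ((m : F) + (l : F) * z) * r = (t : F) := by
  obtain ⟨p, hp, hpz⟩ := hz
  -- q : monic polynomial killing l z
  set q : ℤ[X] := (p.scaleRoots (l : ℤ)).comp (X - C (m : ℤ)) with hq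
  set y : F := (m : F) + (l : F) * z with hy
  have hqy : Polynomial.aeval y q = 0 := by
    rw [hq, Polynomial.aeval_comp]
    have e1 : (Polynomial.aeval y) (X - C (m : ℤ)) = (l : F) * z := by
      simp [hy]
    rw [e1]
    have := Polynomial.scaleRoots_aeval_eq_zero (p := p) (a := z) (r := (l : ℤ)) (by
      simpa [Polynomial.aeval_def] using hpz)
    simpa using this
  have hq0 : ¬ (l : ℤ) ∣ q.eval 0 := by
    intro h
    have h1 : q.eval 0 = (p.scaleRoots (l : ℤ)).eval (-(m : ℤ)) := by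
      rw [hq, Polynomial.eval_comp]; simp
    have h2 : ((p.scaleRoots (l : ℤ)).map (Int.castRingHom (ZMod l))) = X ^ p.natDegree := by
      ext i
      rw [Polynomial.coeff_map, Polynomial.coeff_scaleRoots, Polynomial.coeff_X_pow]
      by_cases hi : i = p.natDegree
      · subst hi
        simp [hp.coeff_natDegree]
      · rw [if_neg hi]
        rcases lt_or_gt_of_ne hi with h' | h'
        · have : p.natDegree - i ≠ 0 := by omega
          simp [this]
        · rw [Polynomial.coeff_eq_zero_of_natDegree_lt h']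
          simp
    have h3 : ((q.eval 0 : ℤ) : ZMod l) = 0 := (ZMod.intCast_zmod_eq_zero_iff_dvd _ l).2 h
    rw [h1] at h3
    have h4 : (((p.scaleRoots (l : ℤ)).eval (-(m : ℤ)) : ℤ) : ZMod l)
        = (-(m : ZMod l)) ^ p.natDegree := by
      have := Polynomial.eval_map_apply (f := Int.castRingHom (ZMod l)) (p := p.scaleRoots (l : ℤ))
        (-(m : ℤ))
      rw [h2] at this
      simpa using this.symm
    rw [h4] at h3
    have h5 : (m : ZMod l) = 0 := by
      have h6 : -(m : ZMod l) = 0 := by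
        by_contra hne
        exact pow_ne_zero _ hne h3
      simpa using h6
    exact hm ((ZMod.natCast_eq_zero_iff m l).1 h5)
  have hyint : IsIntegral ℤ y :=
    (isIntegral_natCast m).add ((isIntegral_natCast l).mul ⟨p, hp, hpz⟩)
  refine ⟨-(Polynomial.aeval y q.divX), q.eval 0, ?_, hq0, ?_⟩
  · refine IsIntegral.neg ?_
    exact IsIntegral.of_mem_of_fg (Algebra.adjoin ℤ {y}) hyint.fg_adjoin_singleton _
      (Polynomial.aeval_mem_adjoin_singleton ℤ y)
  · have h7 := Polynomial.divX_mul_X_add q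
    have h8 : Polynomial.aeval y (q.divX * X + C (q.coeff 0)) = 0 := by rw [h7, hqy]
    have h9 : q.coeff 0 = q.eval 0 := Polynomial.coeff_zero_eq_eval_zero q
    rw [h9] at h8
    rw [map_add, map_mul, Polynomial.aeval_X, Polynomial.aeval_C, algebraMap_int_eq,
      eq_intCast] at h8
    linear_combination -h8

theorem one_add_mul_inv_mem [CharZero F] {b : F} (hb : b ∈ LInt l F) :
    (1 + (l : F) * b) ≠ 0 ∧ (1 + (l : F) * b)⁻¹ ∈ LInt l F := by
  obtain ⟨m, hm, hmb⟩ := hb
  obtain ⟨r, t, hr, ht, h⟩ := exists_mul_eq_int (l := l) hmb hm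
  have hm0 : (m : F) ≠ 0 := by
    intro h0
    have : m = 0 := by exact_mod_cast h0
    exact hm (this ▸ dvd_zero l)
  have ht0 : (t : F) ≠ 0 := by
    intro h0
    have : t = 0 := by exact_mod_cast h0
    exact ht (this ▸ dvd_zero _)
  have e : (1 + (l : F) * b) * ((m : F) * r * (t : F)⁻¹) = 1 := by
    have : (1 + (l : F) * b) * ((m : F) * r * (t : F)⁻¹)
        = ((m : F) + (l : F) * ((m : F) * b)) * r * (t : F)⁻¹ := by ring
    rw [this, h, mul_inv_cancel₀ ht0]
  refine ⟨fun h0 => by rw [h0, zero_mul] at e; exact zero_ne_one e, ?_⟩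
  rw [inv_eq_of_mul_eq_one_right e]
  exact (LInt l F).mul_mem ((LInt l F).mul_mem (natCast_mem _ m) (mem_of_isIntegral hr))
    (inv_int_mem ht)

/-- approximation by integral elements -/
theorem approx_integral {x : F} (hx : x ∈ LInt l F) (k : ℕ) :
    ∃ r : F, IsIntegral ℤ r ∧ ∃ b ∈ LInt l F, x = r + (l : F) ^ k * b := by
  obtain ⟨m, hm, hmx⟩ := hx
  have hcop : IsCoprime (m : ℤ) ((l : ℤ) ^ k) := by
    refine IsCoprime.pow_right ?_
    rw [Nat.isCoprime_iff_coprime]
    exact ((Nat.Prime.coprime_iff_not_dvd hl.out).2 hm).symm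
  obtain ⟨u, v, huv⟩ := hcop
  have huv' : (u : F) * (m : F) + (v : F) * (l : F) ^ k = 1 := by exact_mod_cast congrArg (Int.cast (R := F)) huv
  refine ⟨(u : F) * ((m : F) * x), (isIntegral_intCast u).mul hmx, (v : F) * x, ?_, ?_⟩
  · exact (LInt l F).mul_mem (intCast_mem _ v) ⟨m, hm, hmx⟩
  · linear_combination (-x) * huv'

end basic

end Crest.Agent.R018.SemiLocx476
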