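import Crest.Agent.R018.SemiLocA_476
import Crest.Agent.R018.LogDefs_575

/-!
Row 18, block D (helper476), part 2: bridge between `LInt` and the valuations above `l`.
-/

set_option autoImplicit false

open scoped NumberField
open IsDedekindDomain

namespace Crest.Agent.R018.SemiLocx476

open Crest.Agent.R018.LogDefsx575

section bridge
variable {l : ℕ} [hl : Fact l.Prime] {F : Type*} [Field F] [NumberField F]

theorem val_natCast_eq_one {w : HeightOneSpectrum (𝓞 F)} (hw : w ∈ PA F l) {m : ℕ}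
    (hm : ¬ l ∣ m) : w.valuation F (m : F) = 1 := by
  have h : (m : 𝓞 F) ∉ w.asIdeal := by
    intro h
    have hcop : IsCoprime (m : ℤ) (l : ℤ) := by
      rw [Nat.isCoprime_iff_coprime]
      exact ((Nat.Prime.coprime_iff_not_dvd hl.out).2 hm).symm
    obtain ⟨u, v, huv⟩ := hcop
    have h1 : (1 : 𝓞 F) ∈ w.asIdeal := by
      have e : (1 : 𝓞 F) = (u : 𝓞 F) * (m : 𝓞 F) + (v : 𝓞 F) * (l : 𝓞 F) := by
        exact_mod_cast (congrArg (Int.cast (R := 𝓞 F)) huv).symm
      rw [e]
      exact w.asIdeal.add_mem (w.asIdeal.mul_mem_left _ h) (w.asIdeal.mul_mem_left _ hw)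
    exact w.isPrime.ne_top ((Ideal.eq_top_iff_one _).2 h1)
  have := (HeightOneSpectrum.valuation_eq_one_iff_notMem (K := F) (v := w) (r := (m : 𝓞 F))).2 h
  simpa using this

theorem val_le_one_of_isIntegral {w : HeightOneSpectrum (𝓞 F)} {x : F} (hx : IsIntegral ℤ x) :
    w.valuation F x ≤ 1 := by
  have := w.valuation_le_one (K := F) (⟨x, hx⟩ : 𝓞 F)
  exact this

omit hl in
theorem exists_nat_multiple (x : F) : ∃ m : ℕ, m ≠ 0 ∧ IsIntegral ℤ ((m : F) * x) := by
  have halg : IsAlgebraic ℤ x := by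
    have : IsAlgebraic ℚ x := Algebra.IsAlgebraic.isAlgebraic x
    exact (IsFractionRing.isAlgebraic_iff ℤ ℚ F).2 this
  obtain ⟨y, hy, h⟩ := halg.exists_integral_multiple
  refine ⟨y.natAbs, by simpa using hy, ?_⟩
  rw [zsmul_eq_mul] at h
  rcases Int.natAbs_eq y with h' | h'
  · rw [h'] at h
    simpa using h
  · rw [h'] at h
    have := h.neg
    simpa using this

theorem mem_LInt_iff_val {x : F} :
    x ∈ LInt l F ↔ ∀ w ∈ PA F l, w.valuation F x ≤ 1 := by
  constructor
  · rintro ⟨m, hm, hx⟩ w hw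
    have h1 := val_le_one_of_isIntegral (w := w) hx
    rw [map_mul, val_natCast_eq_one hw hm, one_mul] at h1
    exact h1
  · intro h
    obtain ⟨m, hm0, hm⟩ := exists_nat_multiple x
    obtain ⟨c, m', hm', hmm⟩ := Nat.exists_eq_pow_mul_and_not_dvd hm0 l hl.out.ne_one
    refine ⟨m', hm', ?_⟩
    have key : ∀ w : HeightOneSpectrum (𝓞 F), w.valuation F ((m' : F) * x) ≤ 1 := by
      intro w
      by_cases hw : w ∈ PA F l
      · rw [map_mul, val_natCast_eq_one hw hm', one_mul]
        exact h w hw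
      · have h1 := val_le_one_of_isIntegral (w := w) hm
        have h2 : ((m : F) * x) = (l : F) ^ c * ((m' : F) * x) := by
          rw [hmm]; push_cast; ring
        have h3 : w.valuation F (l : F) = 1 := by
          have := (HeightOneSpectrum.valuation_eq_one_iff_notMem (K := F) (v := w)
            (r := (l : 𝓞 F))).2 hw
          simpa using this
        rw [h2, map_mul, map_pow, h3, one_pow, one_mul] at h1
        exact h1
    obtain ⟨y, hy⟩ := HeightOneSpectrum.mem_integers_of_valuation_le_one F _ key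
    rw [← hy]
    exact y.2

theorem l_ne_zero : (l : F) ≠ 0 := by
  exact_mod_cast hl.out.ne_zero

/-- congruences modulo `l^k` in terms of valuations -/
theorem congr_iff_val {x : F} {k : ℕ} :
    (∃ b ∈ LInt l F, x = (l : F) ^ k * b) ↔
      ∀ w ∈ PA F l, w.valuation F x ≤ w.valuation F (l : F) ^ k := by
  have hl0 : (l : F) ≠ 0 := l_ne_zero
  have hv : ∀ w : HeightOneSpectrum (𝓞 F), w.valuation F (l : F) ≠ 0 := fun w =>
    (Valuation.ne_zero_iff _).2 hl0
  constructor
  · rintro ⟨b, hb, rfl⟩ w hw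
    rw [map_mul, map_pow]
    exact mul_le_of_le_one_right' (mem_LInt_iff_val.1 hb w hw)
  · intro h
    refine ⟨x * ((l : F) ^ k)⁻¹, ?_, ?_⟩
    · rw [mem_LInt_iff_val]
      intro w hw
      rw [map_mul, map_inv₀, map_pow]
      have := h w hw
      rw [← div_eq_mul_inv, div_le_one₀ (by
        exact zero_lt_iff.2 (pow_ne_zero _ (hv w)))]
      exact this
    · field_simp

theorem mem_Rl_iff {x : Fˣ} :
    x ∈ Rl F l ↔ (x : F) ∈ LInt l F ∧ ((x⁻¹ : Fˣ) : F) ∈ LInt l F := by
  constructor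
  · intro h
    constructor
    · rw [mem_LInt_iff_val]
      intro w hw
      exact (h w (by simpa using hw)).le
    · rw [mem_LInt_iff_val]
      intro w hw
      exact ((inv_mem h) w (by simpa using hw)).le
  · rintro ⟨h1, h2⟩ w hw
    have hw' : w ∈ PA F l := by simpa using hw
    refine le_antisymm (mem_LInt_iff_val.1 h1 w hw') ?_
    have h3 := mem_LInt_iff_val.1 h2 w hw'
    rw [Units.val_inv_eq_inv_val, map_inv₀] at h3
    have h4 : w.valuation F (x : F) ≠ 0 := (Valuation.ne_zero_iff _).2 x.ne_zero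
    exact (inv_le_one₀ (zero_lt_iff.2 h4)).1 h3

theorem mem_Uk_iff {x : Fˣ} {k : ℕ} (hk : 1 ≤ k) :
    x ∈ Uk F l k ↔ ∃ b ∈ LInt l F, (x : F) = 1 + (l : F) ^ k * b := by
  constructor
  · rintro ⟨h1, h2⟩
    obtain ⟨b, hb, h⟩ := congr_iff_val.2 h2
    exact ⟨b, hb, by linear_combination h⟩
  · rintro ⟨b, hb, h⟩
    obtain ⟨k, rfl⟩ : ∃ j, k = j + 1 := ⟨k - 1, by omega⟩
    have h3 : (x : F) = 1 + (l : F) * ((l : F) ^ k * b) := by rw [h]; ring
    have hb' : (l : F) ^ k * b ∈ LInt l F :=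
      (LInt l F).mul_mem (Subring.pow_mem _ (natCast_mem _ l) _) hb
    obtain ⟨_, h4⟩ := one_add_mul_inv_mem (F := F) hb'
    refine ⟨mem_Rl_iff.2 ⟨?_, ?_⟩, ?_⟩
    · rw [h3]
      exact (LInt l F).add_mem (one_mem _) ((LInt l F).mul_mem (natCast_mem _ l) hb')
    · rw [Units.val_inv_eq_inv_val, h3]
      exact h4
    · exact congr_iff_val.1 ⟨b, hb, by linear_combination h⟩

end bridge

end Crest.Agent.R018.SemiLocx476
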