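import Crest.Agent.R018.SemiLocB_476

/-!
Row 18, block D (helper476), part 3: the normal basis lattice.
-/

set_option autoImplicit false

open scoped NumberField
open IsDedekindDomain

namespace Crest.Agent.R018.SemiLocx476

open Crest.Agent.R018.LogDefsx575

section bdd
variable {l : ℕ} [hl : Fact l.Prime] {K L : Type*} [Field K] [NumberField K] [Field L]
  [NumberField L]

theorem bdd_linear (φ : L →ₗ[ℚ] K) :
    ∃ c : ℕ, ∀ x ∈ LInt l L, (l : K) ^ c * φ x ∈ LInt l K := by
  classical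
  let ω := NumberField.RingOfIntegers.basis L
  have h1 : ∀ i, ∃ m : ℕ, m ≠ 0 ∧ IsIntegral ℤ ((m : K) * φ (ω i : L)) := fun i =>
    exists_nat_multiple _
  choose d hd0 hd using h1
  obtain ⟨c, d', hd', hdd⟩ := Nat.exists_eq_pow_mul_and_not_dvd
    (n := ∏ i, d i) (Finset.prod_ne_zero_iff.2 fun i _ => hd0 i) l hl.out.ne_one
  refine ⟨c, ?_⟩
  rintro x ⟨m, hm, hx⟩
  refine ⟨m * d', ?_, ?_⟩
  · intro h
    rcases (Nat.Prime.dvd_mul hl.out).1 h with h | h
    · exact hm h
    · exact hd' h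
  · -- expand `m x`
    obtain ⟨y, hy⟩ : ∃ y : 𝓞 L, algebraMap (𝓞 L) L y = (m : L) * x :=
      ⟨⟨(m : L) * x, hx⟩, rfl⟩
    have e1 : (m : L) * x = ∑ i, (((ω.repr y i : ℤ) : ℚ)) • ((ω i : 𝓞 L) : L) := by
      have h2 := congrArg (algebraMap (𝓞 L) L) (ω.sum_repr y)
      rw [map_sum] at h2
      rw [← hy, ← h2]
      refine Finset.sum_congr rfl fun i _ => ?_
      rw [zsmul_eq_mul, map_mul, Algebra.smul_def]
      congr 1
      simp
    have e2 : (m : K) * φ x = ∑ i, ((ω.repr y i : ℤ) : K) * φ ((ω i : 𝓞 L) : L) := by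
      have h4 := congrArg φ e1
      rw [map_sum] at h4
      have h5 : φ ((m : L) * x) = (m : K) * φ x := by
        have : (m : L) * x = (m : ℚ) • x := by
          rw [Algebra.smul_def]; simp
        rw [this, map_smul, Algebra.smul_def]
        simp
      rw [h5] at h4
      rw [h4]
      refine Finset.sum_congr rfl fun i _ => ?_
      rw [map_smul, Algebra.smul_def]
      congr 1
      simp
    have e3 : (((m * d' : ℕ) : K) * ((l : K) ^ c * φ x))
        = ∑ i, ((ω.repr y i : ℤ) : K) *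
            (((∏ j ∈ Finset.univ.erase i, d j : ℕ) : K) * ((d i : K) * φ ((ω i : 𝓞 L) : L))) := by
      have h6 : (((m * d' : ℕ) : K) * ((l : K) ^ c * φ x))
          = ((∏ i, d i : ℕ) : K) * ((m : K) * φ x) := by
        rw [hdd]; push_cast; ring
      rw [h6, e2, Finset.mul_sum]
      refine Finset.sum_congr rfl fun i _ => ?_
      rw [← Finset.mul_prod_erase Finset.univ d (Finset.mem_univ i)]
      push_cast
      ring
    rw [e3]
    refine IsIntegral.sum _ fun i _ => ?_
    exact (isIntegral_intCast _).mul ((isIntegral_natCast _).mul (hd i))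

end bdd

section lattice
variable (l : ℕ) [hl : Fact l.Prime] (K : Type*) {L : Type*} [Field K] [NumberField K] [Field L]
  [NumberField L] [Algebra K L] [FiniteDimensional K L]

/-- the lattice spanned by the conjugates of `θ` over the `l`-integral elements of `K` -/
noncomputable def Lat (θ : L) : AddSubgroup L where
  carrier := {x | ∃ a : (L ≃ₐ[K] L) → K, (∀ g, a g ∈ LInt l K) ∧
    x = ∑ g, algebraMap K L (a g) * g θ}
  zero_mem' := ⟨fun _ => 0, fun _ => zero_mem _, by simp⟩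
  add_mem' := by
    rintro x y ⟨a, ha, rfl⟩ ⟨b, hb, rfl⟩
    refine ⟨fun g => a g + b g, fun g => add_mem (ha g) (hb g), ?_⟩
    rw [← Finset.sum_add_distrib]
    refine Finset.sum_congr rfl fun g _ => ?_
    rw [map_add]; ring
  neg_mem' := by
    rintro x ⟨a, ha, rfl⟩
    refine ⟨fun g => - a g, fun g => neg_mem (ha g), ?_⟩
    rw [← Finset.sum_neg_distrib]
    refine Finset.sum_congr rfl fun g _ => ?_
    rw [map_neg]; ring

variable {l K}

theorem Lat.mem {θ x : L} : x ∈ Lat l K θ ↔ ∃ a : (L ≃ₐ[K] L) → K, (∀ g, a g ∈ LInt l K) ∧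
    x = ∑ g, algebraMap K L (a g) * g θ := Iff.rfl

theorem Lat.conj_mem (θ : L) (g : L ≃ₐ[K] L) : g θ ∈ Lat l K θ := by
  classical
  refine ⟨fun h => if h = g then 1 else 0, fun h => ?_, ?_⟩
  · dsimp only
    split_ifs
    · exact one_mem _
    · exact zero_mem _
  · rw [Finset.sum_eq_single g]
    · simp
    · intro h _ hne
      simp [hne]
    · intro h
      exact absurd (Finset.mem_univ g) h

theorem Lat.smul_mem {θ x : L} {c : K} (hc : c ∈ LInt l K) (hx : x ∈ Lat l K θ) :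
    algebraMap K L c * x ∈ Lat l K θ := by
  obtain ⟨a, ha, rfl⟩ := hx
  refine ⟨fun g => c * a g, fun g => mul_mem hc (ha g), ?_⟩
  rw [Finset.mul_sum]
  refine Finset.sum_congr rfl fun g _ => ?_
  rw [map_mul]; ring

theorem Lat.natCast_mul_mem {θ x : L} (m : ℕ) (hx : x ∈ Lat l K θ) :
    (m : L) * x ∈ Lat l K θ := by
  have := Lat.smul_mem (natCast_mem (LInt l K) m) hx
  simpa using this

theorem Lat.aut_mem {θ x : L} (h : L ≃ₐ[K] L) (hx : x ∈ Lat l K θ) : h x ∈ Lat l K θ := by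
  obtain ⟨a, ha, rfl⟩ := hx
  refine ⟨fun g => a (h⁻¹ * g), fun g => ha _, ?_⟩
  rw [map_sum]
  rw [← Equiv.sum_comp (Equiv.mulLeft h) (fun g => algebraMap K L (a (h⁻¹ * g)) * g θ)]
  refine Finset.sum_congr rfl fun g _ => ?_
  rw [map_mul, AlgEquiv.commutes]
  simp [AlgEquiv.mul_apply]

theorem Lat.le_LInt {θ x : L} (hθ : θ ∈ LInt l L) (hx : x ∈ Lat l K θ) : x ∈ LInt l L := by
  obtain ⟨a, ha, rfl⟩ := hx
  refine sum_mem fun g _ => mul_mem ((map_mem_iff (algebraMap K L)).2 (ha g)) ?_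
  exact (map_mem_iff (g : L →+* L)).2 hθ

/-- sum over the Galois group -/
theorem Lat.trace_eq {θ : L} (a : (L ≃ₐ[K] L) → K) :
    ∑ h : L ≃ₐ[K] L, h (∑ g, algebraMap K L (a g) * g θ)
      = algebraMap K L (∑ g, a g) * ∑ g : L ≃ₐ[K] L, g θ := by
  simp_rw [map_sum, map_mul, AlgEquiv.commutes]
  rw [Finset.sum_comm, Finset.sum_mul]
  refine Finset.sum_congr rfl fun g _ => ?_
  rw [← Finset.mul_sum]
  congr 1
  exact Equiv.sum_comp (Equiv.mulRight g) (fun h => h θ)

/-- the graded step: an element of the lattice whose trace is divisible by `l` in the lattice is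
`(σ-1)β` modulo `l`. -/
theorem Lat.graded {θ : L} (hind : LinearIndependent K (fun g : L ≃ₐ[K] L => g θ))
    {σ : L ≃ₐ[K] L} (hσ : ∀ τ, τ ∈ Subgroup.zpowers σ) {x : L} (hx : x ∈ Lat l K θ)
    {y : L} (hy : y ∈ Lat l K θ) (hxy : ∑ h : L ≃ₐ[K] L, h x = (l : L) * y) :
    ∃ β ∈ Lat l K θ, ∃ γ ∈ Lat l K θ, x = (σ β - β) + (l : L) * γ := by
  classical
  obtain ⟨a, ha, rfl⟩ := hx
  obtain ⟨b, hb, rfl⟩ := hy
  rw [Lat.trace_eq] at hxy
  -- sum of coordinates
  have hS : (∑ g, a g) = (l : K) * b 1 := by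
    have h0 : ∑ g : L ≃ₐ[K] L, ((∑ g, a g) - (l : K) * b g) • g θ = 0 := by
      simp_rw [sub_smul]
      rw [Finset.sum_sub_distrib]
      have e1 : ∑ x : L ≃ₐ[K] L, (∑ g, a g) • x θ = algebraMap K L (∑ g, a g) * ∑ g : L ≃ₐ[K] L, g θ := by
        rw [Finset.mul_sum]
        refine Finset.sum_congr rfl fun g _ => ?_
        rw [Algebra.smul_def]
      have e2 : ∑ x : L ≃ₐ[K] L, ((l : K) * b x) • x θ = (l : L) * ∑ g, algebraMap K L (b g) * g θ := by
        rw [Finset.mul_sum]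
        refine Finset.sum_congr rfl fun g _ => ?_
        rw [Algebra.smul_def, map_mul, map_natCast]; ring
      rw [e1, e2, hxy, sub_self]
    have h1 := (Fintype.linearIndependent_iff.1 hind) _ h0 1
    linear_combination h1
  have hpow : ∀ g : L ≃ₐ[K] L, ∃ i : ℕ, σ ^ i = g := fun g =>
    (mem_powers_iff_mem_zpowers.2 (hσ g))
  choose i hi using hpow
  refine ⟨∑ g, algebraMap K L (a g) * ∑ j ∈ Finset.range (i g), (σ ^ j) θ, ?_,
    algebraMap K L (b 1) * θ, ?_, ?_⟩
  · refine sum_mem fun g _ => Lat.smul_mem (ha g) (sum_mem fun j _ => Lat.conj_mem θ _)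
  · exact Lat.smul_mem (hb 1) (by simpa using Lat.conj_mem (l := l) (K := K) θ 1)
  · have e3 : ∀ g, σ (algebraMap K L (a g) * ∑ j ∈ Finset.range (i g), (σ ^ j) θ)
        - algebraMap K L (a g) * ∑ j ∈ Finset.range (i g), (σ ^ j) θ
        = algebraMap K L (a g) * (g θ - θ) := by
      intro g
      rw [map_mul, AlgEquiv.commutes, ← mul_sub, map_sum]
      congr 1
      have : ∀ j, σ ((σ ^ j) θ) = (σ ^ (j + 1)) θ := by
        intro j
        rw [pow_succ', AlgEquiv.mul_apply]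
      simp_rw [this]
      rw [← Finset.sum_sub_distrib, Finset.sum_range_sub (fun j => (σ ^ j) θ), hi]
      simp
    rw [map_sum, ← Finset.sum_sub_distrib]
    simp_rw [e3, mul_sub]
    rw [Finset.sum_sub_distrib, ← Finset.sum_mul, ← map_sum, hS, map_mul, map_natCast]
    ring

variable (l K L) in
/-- existence of the lattice -/
theorem Lat.exists_theta [IsGalois K L] : ∃ θ : L, θ ∈ LInt l L ∧
    LinearIndependent K (fun g : L ≃ₐ[K] L => g θ) ∧
    ∃ c : ℕ, ∀ x ∈ LInt l L, (l : L) ^ c * x ∈ Lat l K θ := by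
  classical
  let b := IsGalois.normalBasis K L
  obtain ⟨m, hm0, hm⟩ := exists_nat_multiple (b 1)
  have hmK : (m : K) ≠ 0 := by exact_mod_cast hm0
  have hmL : (m : L) ≠ 0 := by exact_mod_cast hm0
  have hbg : ∀ g : L ≃ₐ[K] L, g ((m : L) * b 1) = (m : K) • b g := by
    intro g
    rw [map_mul, map_natCast, Algebra.smul_def, map_natCast]
    congr 1
    exact (IsGalois.normalBasis_apply g).symm
  refine ⟨(m : L) * b 1, mem_of_isIntegral hm, ?_, ?_⟩
  · simp_rw [hbg]
    have := b.linearIndependent.units_smul (fun _ => Units.mk0 (m : K) hmK)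
    convert this using 1
    ext g
    rfl
  · -- coordinates
    have h1 : ∀ g : L ≃ₐ[K] L, ∃ c : ℕ, ∀ x ∈ LInt l L,
        (l : K) ^ c * ((m : K)⁻¹ * b.repr x g) ∈ LInt l K := by
      intro g
      let φ : L →ₗ[ℚ] K := ((LinearMap.mulLeft K (m : K)⁻¹).comp (b.coord g)).restrictScalars ℚ
      obtain ⟨c, hc⟩ := bdd_linear (l := l) φ
      exact ⟨c, fun x hx => hc x hx⟩
    choose c hc using h1
    refine ⟨∑ g, c g, fun x hx => ?_⟩
    refine ⟨fun g => (l : K) ^ (∑ g, c g) * ((m : K)⁻¹ * b.repr x g), fun g => ?_, ?_⟩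
    · dsimp only
      rw [← Finset.add_sum_erase _ c (Finset.mem_univ g), pow_add]
      have : (l : K) ^ c g * (l : K) ^ (∑ x ∈ Finset.univ.erase g, c x) *
          ((m : K)⁻¹ * b.repr x g)
          = (l : K) ^ (∑ x ∈ Finset.univ.erase g, c x) * ((l : K) ^ c g * ((m : K)⁻¹ * b.repr x g)) := by
        ring
      rw [this]
      exact mul_mem (Subring.pow_mem _ (natCast_mem _ l) _) (hc g x hx)
    · simp_rw [hbg]
      have e1 : ∀ g, algebraMap K L ((l : K) ^ (∑ g, c g) * ((m : K)⁻¹ * b.repr x g)) * ((m : K) • b g)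
          = (l : L) ^ (∑ g, c g) * (b.repr x g • b g) := by
        intro g
        rw [Algebra.smul_def, Algebra.smul_def, map_mul, map_mul, map_pow, map_inv₀, map_natCast,
          map_natCast]
        field_simp
      simp_rw [e1]
      rw [← Finset.mul_sum, b.sum_repr]

end lattice

end Crest.Agent.R018.SemiLocx476
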