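import Crest.Agent.R018.SemiLocC_476

/-!
Row 18, block D (helper476), part 4: the subgroups `V_k = 1 + l^k A` and descent.
-/

set_option autoImplicit false
set_option linter.unusedSectionVars false

open scoped NumberField
open IsDedekindDomain

namespace Crest.Agent.R018.SemiLocx476

open Crest.Agent.R018.LogDefsx575

section groups
variable {l : ℕ} [hl : Fact l.Prime] {K L : Type*} [Field K] [NumberField K] [Field L]
  [NumberField L] [Algebra K L] [FiniteDimensional K L]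

/-- data of the lattice -/
structure Dat (l : ℕ) [hl : Fact l.Prime] (K L : Type*) [Field K] [NumberField K] [Field L]
  [NumberField L] [Algebra K L] [FiniteDimensional K L] where
  θ : L
  c : ℕ
  hθ : θ ∈ LInt l L
  ind : LinearIndependent K (fun g : L ≃ₐ[K] L => g θ)
  hc : ∀ x ∈ LInt l L, (l : L) ^ c * x ∈ Lat l K θ

theorem Dat.exists [IsGalois K L] : Nonempty (Dat l K L) := by
  obtain ⟨θ, h1, h2, c, h3⟩ := Lat.exists_theta l K L
  exact ⟨⟨θ, c, h1, h2, h3⟩⟩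

variable (D : Dat l K L)

theorem Dat.pow_mem {x : L} (hx : x ∈ LInt l L) {j : ℕ} (hj : D.c ≤ j) :
    (l : L) ^ j * x ∈ Lat l K D.θ := by
  obtain ⟨i, rfl⟩ := Nat.exists_eq_add_of_le hj
  have h := D.hc ((l : L) ^ i * x) (mul_mem (Subring.pow_mem _ (natCast_mem _ l) _) hx)
  have e : (l : L) ^ (D.c + i) * x = (l : L) ^ D.c * ((l : L) ^ i * x) := by ring
  rw [e]; exact h

theorem Dat.le {x : L} (hx : x ∈ Lat l K D.θ) : x ∈ LInt l L := Lat.le_LInt D.hθ hx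

theorem Dat.unit {k : ℕ} {α : L} (hα : α ∈ LInt l L) (hk : 1 ≤ k) :
    (1 + (l : L) ^ k * α) ≠ 0 ∧ (1 + (l : L) ^ k * α)⁻¹ ∈ LInt l L := by
  obtain ⟨k, rfl⟩ : ∃ j, k = j + 1 := ⟨k - 1, by omega⟩
  have h3 : (1 + (l : L) ^ (k + 1) * α) = 1 + (l : L) * ((l : L) ^ k * α) := by ring
  rw [h3]
  exact one_add_mul_inv_mem (mul_mem (Subring.pow_mem _ (natCast_mem _ l) _) hα)

/-- `1 + l^k A`, as a subgroup of `Lˣ`, for `k > c` -/
def Dat.V (k : ℕ) (hk : D.c + 1 ≤ k) : Subgroup Lˣ where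
  carrier := {u | ∃ α ∈ Lat l K D.θ, (u : L) = 1 + (l : L) ^ k * α}
  one_mem' := ⟨0, zero_mem _, by simp⟩
  mul_mem' := by
    rintro u v ⟨α, hα, hu⟩ ⟨β, hβ, hv⟩
    refine ⟨α + β + (l : L) ^ k * (α * β), ?_, ?_⟩
    · exact add_mem (add_mem hα hβ) (D.pow_mem (mul_mem (D.le hα) (D.le hβ)) (by omega))
    · rw [Units.val_mul, hu, hv]; ring
  inv_mem' := by
    rintro u ⟨α, hα, hu⟩
    obtain ⟨h0, h1⟩ := Dat.unit (k := k) (D.le hα) (by omega)
    refine ⟨-α + (l : L) ^ k * (α * α * (1 + (l : L) ^ k * α)⁻¹), ?_, ?_⟩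
    · exact add_mem (neg_mem hα)
        (D.pow_mem (mul_mem (mul_mem (D.le hα) (D.le hα)) h1) (by omega))
    · rw [Units.val_inv_eq_inv_val, hu]
      field_simp
      ring

theorem Dat.mem_V {k : ℕ} {hk : D.c + 1 ≤ k} {u : Lˣ} :
    u ∈ D.V k hk ↔ ∃ α ∈ Lat l K D.θ, (u : L) = 1 + (l : L) ^ k * α := Iff.rfl

theorem Dat.V_le_Rl {k : ℕ} (hk : D.c + 1 ≤ k) : D.V k hk ≤ Rl L l := by
  rintro u ⟨α, hα, hu⟩
  obtain ⟨h0, h1⟩ := Dat.unit (k := k) (D.le hα) (by omega)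
  refine mem_Rl_iff.2 ⟨?_, ?_⟩
  · rw [hu]
    exact add_mem (one_mem _) (mul_mem (Subring.pow_mem _ (natCast_mem _ l) _) (D.le hα))
  · rw [Units.val_inv_eq_inv_val, hu]
    exact h1

theorem Dat.Uk_le_V {k : ℕ} (hk : D.c + 1 ≤ k) : Uk L l (k + D.c) ≤ D.V k hk := by
  intro u hu
  obtain ⟨b, hb, h⟩ := (mem_Uk_iff (by omega)).1 hu
  refine ⟨(l : L) ^ D.c * b, D.hc b hb, ?_⟩
  rw [h]; ring

theorem Dat.V_anti {k j : ℕ} (hk : D.c + 1 ≤ k) (hkj : k ≤ j) :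
    D.V j (hk.trans hkj) ≤ D.V k hk := by
  rintro u ⟨α, hα, hu⟩
  obtain ⟨i, rfl⟩ := Nat.exists_eq_add_of_le hkj
  refine ⟨(l : L) ^ i * α, ?_, ?_⟩
  · have := Lat.smul_mem (Subring.pow_mem (LInt l K) (natCast_mem _ l) i) hα
    simpa using this
  · rw [hu]; ring

theorem Dat.aut_V {k : ℕ} (hk : D.c + 1 ≤ k) (g : L ≃ₐ[K] L) {u : Lˣ} (hu : u ∈ D.V k hk) :
    Units.map (g : L →* L) u ∈ D.V k hk := by
  obtain ⟨α, hα, hu⟩ := hu
  refine ⟨g α, Lat.aut_mem g hα, ?_⟩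
  have : ((Units.map (g : L →* L) u : Lˣ) : L) = g (u : L) := rfl
  rw [this, hu]
  simp

end groups

section nm
variable {K L : Type*} [Field K] [Field L] [Algebra K L]

theorem sg_apply (σ : L ≃ₐ[K] L) (x : Lˣ) : ((sg K σ x : Lˣ) : L) = σ x / x := by
  rw [sg, MonoidHom.div_apply, Units.val_div_eq_div_val]
  rfl

theorem sg_eq (σ : L ≃ₐ[K] L) (x : Lˣ) : sg K σ x = Units.map (σ : L →* L) x / x := rfl

theorem nm_apply [FiniteDimensional K L] [IsGalois K L] (x : Lˣ) :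
    ((nm K L x : Lˣ) : L) = ∏ g : L ≃ₐ[K] L, g x := by
  rw [← Algebra.norm_eq_prod_automorphisms]
  rfl

theorem nm_aut [FiniteDimensional K L] [IsGalois K L] (σ : L ≃ₐ[K] L) (x : Lˣ) :
    nm K L (Units.map (σ : L →* L) x) = nm K L x := by
  ext
  rw [nm_apply, nm_apply]
  exact Equiv.prod_comp (Equiv.mulRight σ) (fun g => g (x : L))

theorem nm_sg [FiniteDimensional K L] [IsGalois K L] (σ : L ≃ₐ[K] L) (x : Lˣ) :
    nm K L (sg K σ x) = 1 := by
  rw [sg_eq, map_div, nm_aut, div_self']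

theorem sg_nm [FiniteDimensional K L] [IsGalois K L] (σ : L ≃ₐ[K] L) (x : Lˣ) :
    sg K σ (nm K L x) = 1 := by
  ext
  rw [sg_apply]
  have : ((nm K L x : Lˣ) : L) = algebraMap K L (Algebra.norm K (x : L)) := rfl
  have h2 : ((nm K L x : Lˣ) : L) ≠ 0 := (nm K L x).ne_zero
  rw [this] at h2 ⊢
  rw [AlgEquiv.commutes, div_self h2, Units.val_one]

end nm

section descent
variable {l : ℕ} [hl : Fact l.Prime] {K L : Type*} [Field K] [NumberField K] [Field L]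
  [NumberField L] [Algebra K L] [FiniteDimensional K L] [IsGalois K L]
variable (D : Dat l K L)

theorem prod_one_add {ι : Type*} (s : Finset ι) (l : ℕ) [Fact l.Prime] (k : ℕ) (f : ι → L)
    (hf : ∀ i ∈ s, f i ∈ LInt l L) :
    ∃ e ∈ LInt l L, ∏ i ∈ s, (1 + (l : L) ^ k * f i)
      = 1 + (l : L) ^ k * ∑ i ∈ s, f i + (l : L) ^ (2 * k) * e := by
  classical
  induction s using Finset.induction_on with
  | empty => exact ⟨0, zero_mem _, by simp⟩
  | insert a s ha ih =>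
    obtain ⟨e, he, h⟩ := ih (fun i hi => hf i (Finset.mem_insert_of_mem hi))
    have hfa := hf a (Finset.mem_insert_self a s)
    refine ⟨e + f a * ∑ i ∈ s, f i + (l : L) ^ k * (f a * e), ?_, ?_⟩
    · refine add_mem (add_mem he (mul_mem hfa (sum_mem fun i hi =>
        hf i (Finset.mem_insert_of_mem hi)))) ?_
      exact mul_mem (Subring.pow_mem _ (natCast_mem _ _) _) (mul_mem hfa he)
    · rw [Finset.prod_insert ha, Finset.sum_insert ha, h]
      ring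

/-- one step of the filtration -/
theorem Dat.step {σ : L ≃ₐ[K] L} (hσ : ∀ τ, τ ∈ Subgroup.zpowers σ) {j : ℕ}
    (hj : D.c + 1 ≤ j) {u : Lˣ} (hu : u ∈ D.V j hj)
    (hN : nm K L u ∈ D.V (j + 1) (by omega)) :
    ∃ v ∈ D.V j hj, u / sg K σ v ∈ D.V (j + 1) (by omega) := by
  obtain ⟨α, hα, hu⟩ := hu
  obtain ⟨α', hα', hN⟩ := hN
  have hl0 : (l : L) ≠ 0 := l_ne_zero
  obtain ⟨i, rfl⟩ : ∃ i, j = i + 1 := ⟨j - 1, by omega⟩
  have hi : D.c ≤ i := by omega
  obtain ⟨e, he, hprod⟩ := prod_one_add (L := L) (Finset.univ : Finset (L ≃ₐ[K] L)) l (i + 1)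
    (fun g => g α) (fun g _ => D.le (Lat.aut_mem g hα))
  have h1 : ((nm K L u : Lˣ) : L) = ∏ g : L ≃ₐ[K] L, (1 + (l : L) ^ (i + 1) * g α) := by
    rw [nm_apply]
    refine Finset.prod_congr rfl fun g _ => ?_
    rw [hu]; simp
  rw [hN, hprod] at h1
  have htr : ∑ g : L ≃ₐ[K] L, g α = (l : L) * (α' - (l : L) ^ i * e) := by
    have h2 : (l : L) ^ (i + 1) * ∑ g : L ≃ₐ[K] L, g α
        = (l : L) ^ (i + 1) * ((l : L) * (α' - (l : L) ^ i * e)) := by
      linear_combination -h1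
    exact mul_left_cancel₀ (pow_ne_zero _ hl0) h2
  obtain ⟨β, hβ, γ, hγ, hαβ⟩ := Lat.graded D.ind hσ hα
    (sub_mem hα' (D.pow_mem he hi)) htr
  obtain ⟨hv0, hvi⟩ := Dat.unit (l := l) (L := L) (k := i + 1) (D.le hβ) (by omega)
  let v : Lˣ := Units.mk0 _ hv0
  have hv : v ∈ D.V (i + 1) hj := ⟨β, hβ, rfl⟩
  refine ⟨v, hv, ?_⟩
  have hσv := D.aut_V hj σ hv
  obtain ⟨ε, hε, hεv⟩ := inv_mem hσv
  refine ⟨(γ + (l : L) ^ i * (α * β)) + (l : L) ^ (i + 1) * ((γ + (l : L) ^ i * (α * β)) * ε),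
    ?_, ?_⟩
  · have h3 : γ + (l : L) ^ i * (α * β) ∈ Lat l K D.θ :=
      add_mem hγ (D.pow_mem (mul_mem (D.le hα) (D.le hβ)) hi)
    exact add_mem h3 (D.pow_mem (mul_mem (D.le h3) (D.le hε)) (by omega))
  · have h4 : ((u / sg K σ v : Lˣ) : L)
        = (u : L) * (v : L) * (((Units.map (σ : L →* L) v)⁻¹ : Lˣ) : L) := by
      rw [sg_eq, div_div_eq_mul_div, div_eq_mul_inv, Units.val_mul, Units.val_mul]
    have h5 : (σ (v : L)) * (((Units.map (σ : L →* L) v)⁻¹ : Lˣ) : L) = 1 := by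
      have : ((Units.map (σ : L →* L) v : Lˣ) : L) = σ (v : L) := rfl
      rw [← this]
      exact Units.mul_inv _
    have hvv : (v : L) = 1 + (l : L) ^ (i + 1) * β := rfl
    have hσvv : σ (v : L) = 1 + (l : L) ^ (i + 1) * σ β := by rw [hvv]; simp
    rw [h4]
    have h6 : (u : L) * (v : L) = σ (v : L)
        + (l : L) ^ (i + 1 + 1) * (γ + (l : L) ^ i * (α * β)) := by
      rw [hσvv, hu, hvv]
      have : α = (σ β - β) + (l : L) * γ := hαβ
      linear_combination (l : L) ^ (i + 1) * this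
    rw [h6, add_mul, h5, hεv]
    ring

/-- iteration of the step -/
theorem Dat.iter {σ : L ≃ₐ[K] L} (hσ : ∀ τ, τ ∈ Subgroup.zpowers σ) {j : ℕ}
    (hj : D.c + 1 ≤ j) (i : ℕ) {u : Lˣ} (hu : u ∈ D.V j hj)
    (hN : nm K L u = 1) :
    ∃ v ∈ D.V j hj, u / sg K σ v ∈ D.V (j + i) (by omega) := by
  induction i with
  | zero => exact ⟨1, one_mem _, by simpa using hu⟩
  | succ i ih =>
    obtain ⟨v, hv, h⟩ := ih
    have hN' : nm K L (u / sg K σ v) = 1 := by rw [map_div, hN, nm_sg, div_one]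
    obtain ⟨w, hw, h'⟩ := D.step hσ (j := j + i) (by omega) h (by rw [hN']; exact one_mem _)
    refine ⟨v * w, mul_mem hv (D.V_anti hj (by omega) hw), ?_⟩
    rw [map_mul, ← div_div]
    exact h'

/-- DESCENT (D1). -/
theorem Dat.descent {σ : L ≃ₐ[K] L} (hσ : ∀ τ, τ ∈ Subgroup.zpowers σ) {k : ℕ}
    (hk : D.c + 1 ≤ k) {x : Lˣ} (hx : sg K σ x ∈ D.V k hk) :
    ∃ a : Kˣ, ∃ v ∈ D.V k hk, x = inc K L a * v := by
  classical
  have hl0 : (l : L) ≠ 0 := l_ne_zero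
  -- the order of the group
  set n : ℕ := Fintype.card (L ≃ₐ[K] L) with hn
  have hn0 : n ≠ 0 := Fintype.card_ne_zero
  obtain ⟨N, n', hn', hnn⟩ := Nat.exists_eq_pow_mul_and_not_dvd hn0 l hl.out.ne_one
  obtain ⟨v, hv, hxv⟩ := D.iter hσ hk N hx (nm_sg σ x)
  -- replace x by y = x / v
  obtain ⟨y, hy⟩ : ∃ y : Lˣ, y = x / v := ⟨_, rfl⟩
  have hy1 : sg K σ y ∈ D.V (k + N) (by omega) := by
    rw [hy, map_div]; exact hxv
  -- all conjugates
  have hyi : ∀ i : ℕ, Units.map ((σ ^ i : L ≃ₐ[K] L) : L →* L) y / y ∈ D.V (k + N) (by omega) := by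
    intro i
    induction i with
    | zero =>
      have : Units.map ((σ ^ 0 : L ≃ₐ[K] L) : L →* L) y = y := by ext; simp
      rw [this, div_self']; exact one_mem _
    | succ i ih =>
      have e : Units.map ((σ ^ (i + 1) : L ≃ₐ[K] L) : L →* L) y / y
          = Units.map ((σ ^ i : L ≃ₐ[K] L) : L →* L) (sg K σ y)
            * (Units.map ((σ ^ i : L ≃ₐ[K] L) : L →* L) y / y) := by
        have e2 : Units.map ((σ ^ i : L ≃ₐ[K] L) : L →* L) (sg K σ y)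
            = Units.map ((σ ^ (i + 1) : L ≃ₐ[K] L) : L →* L) y
              / Units.map ((σ ^ i : L ≃ₐ[K] L) : L →* L) y := by
          rw [sg_eq, map_div]
          congr 1
        rw [e2, div_mul_div_cancel]
      rw [e]
      exact mul_mem (D.aut_V _ _ hy1) ih
  have hg : ∀ g : L ≃ₐ[K] L, ∃ α ∈ Lat l K D.θ, g (y : L) = y * (1 + (l : L) ^ (k + N) * α) := by
    intro g
    obtain ⟨i, hi⟩ := mem_powers_iff_mem_zpowers.2 (hσ g)
    have hi' : σ ^ i = g := hi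
    obtain ⟨α, hα, h⟩ := hyi i
    rw [hi'] at h
    refine ⟨α, hα, ?_⟩
    have h' : g (y : L) / (y : L) = 1 + (l : L) ^ (k + N) * α := by
      rw [← h, Units.val_div_eq_div_val]; rfl
    rw [← h', mul_div_cancel₀ _ y.ne_zero]
  choose α hα hgα using hg
  have hn'K : (n' : K)⁻¹ ∈ LInt l K := inv_nat_mem hn'
  have hn'0 : (n' : L) ≠ 0 := by
    intro h
    have : n' = 0 := by exact_mod_cast h
    exact hn' (this ▸ dvd_zero l)
  -- the sum of conjugates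
  have hsum : algebraMap K L (Algebra.trace K L (y : L))
      = (n : L) * y * (1 + (l : L) ^ k * (algebraMap K L (n' : K)⁻¹ * ∑ g, α g)) := by
    rw [trace_eq_sum_automorphisms]
    simp_rw [hgα]
    rw [← Finset.mul_sum, Finset.sum_add_distrib, ← Finset.mul_sum, Finset.sum_const,
      Finset.card_univ, ← hn, hnn, nsmul_eq_mul, map_inv₀, map_natCast]
    push_cast
    field_simp
    ring
  have hmem : algebraMap K L (n' : K)⁻¹ * ∑ g, α g ∈ Lat l K D.θ :=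
    Lat.smul_mem hn'K (sum_mem fun g _ => hα g)
  obtain ⟨hw0, -⟩ := Dat.unit (l := l) (L := L) (k := k) (D.le hmem) (by omega)
  let w : Lˣ := Units.mk0 _ hw0
  have hw : w ∈ D.V k hk := ⟨_, hmem, rfl⟩
  have hnL : (n : L) ≠ 0 := by exact_mod_cast hn0
  have hnK : (n : K) ≠ 0 := by exact_mod_cast hn0
  have ha0 : Algebra.trace K L (y : L) ≠ 0 := by
    intro h
    rw [h, map_zero] at hsum
    have : (n : L) * y * (w : L) ≠ 0 := mul_ne_zero (mul_ne_zero hnL y.ne_zero) w.ne_zero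
    exact this hsum.symm
  refine ⟨Units.mk0 _ (div_ne_zero ha0 hnK), w⁻¹ * v, mul_mem (inv_mem hw) hv, ?_⟩
  have hyx : x = y * v := by rw [hy, div_mul_cancel]
  rw [hyx, ← mul_assoc]
  congr 1
  rw [eq_mul_inv_iff_mul_eq]
  ext
  have e1 : ((inc K L (Units.mk0 _ (div_ne_zero ha0 hnK)) : Lˣ) : L)
      = algebraMap K L (Algebra.trace K L (y : L) / n) := rfl
  rw [e1, map_div₀, hsum, map_natCast, Units.val_mul]
  have e2 : (w : L) = 1 + (l : L) ^ k * (algebraMap K L (n' : K)⁻¹ * ∑ g, α g) := rfl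
  rw [← e2]
  field_simp

end descent

end Crest.Agent.R018.SemiLocx476
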