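import Crest.Agent.R018.SemiLocD_476

/-!
Row 18, block D (helper476), part 5: finite index, Herbrand symmetry and the exported theorem.
-/

set_option autoImplicit false
set_option linter.unusedSectionVars false

open scoped NumberField
open IsDedekindDomain

namespace Crest.Agent.R018.SemiLocx476

open Crest.Agent.R018.LogDefsx575

section abstract
variable {M : Type*} [CommGroup M]

/-- In a finite quotient `R/V`, the two Herbrand numbers agree. -/
theorem herb_eq {f g : M →* M} {R V : Subgroup M} (hVR : V ≤ R) (hfin : V.relIndex R ≠ 0)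
    (hRf : R.map f ≤ R) (hRg : R.map g ≤ R) (hVf : V.map f ≤ V) (hVg : V.map g ≤ V)
    (hfg : ∀ x ∈ R, f (g x) ∈ V) (hgf : ∀ x ∈ R, g (f x) ∈ V) :
    (R.map f ⊔ V).relIndex (R ⊓ V.comap g) = (R.map g ⊔ V).relIndex (R ⊓ V.comap f) ∧
    (R.map f ⊔ V).relIndex (R ⊓ V.comap g) ≠ 0 := by
  have key : ∀ {f g : M →* M}, R.map f ≤ R → V.map g ≤ V → (∀ x ∈ R, g (f x) ∈ V) →
      V.relIndex (R.map f ⊔ V) * (R.map f ⊔ V).relIndex (R ⊓ V.comap g)
        * V.relIndex (R.map g ⊔ V) = V.relIndex R := by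
    intro f g hRf hVg hgf
    have h1 : V ≤ R ⊓ V.comap g := le_inf hVR (Subgroup.map_le_iff_le_comap.1 hVg)
    have h2 : R.map f ⊔ V ≤ R ⊓ V.comap g := by
      refine sup_le (le_inf hRf ?_) h1
      rintro _ ⟨x, hx, rfl⟩
      exact hgf x hx
    rw [Subgroup.relIndex_mul_relIndex _ _ _ le_sup_right h2, Subgroup.relIndex_sup_right,
      ← Subgroup.relIndex_comap, ← Subgroup.inf_relIndex_left R (V.comap g),
      Subgroup.relIndex_mul_relIndex _ _ _ h1 inf_le_left]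
  have k1 := key hRf hVg hgf
  have k2 := key hRg hVf hfg
  have h0 : V.relIndex (R.map f ⊔ V) * (R.map f ⊔ V).relIndex (R ⊓ V.comap g)
        * V.relIndex (R.map g ⊔ V) ≠ 0 := by rw [k1]; exact hfin
  have ha : V.relIndex (R.map f ⊔ V) ≠ 0 := fun h => h0 (by rw [h]; simp)
  have hb : V.relIndex (R.map g ⊔ V) ≠ 0 := fun h => h0 (by rw [h]; simp)
  have hc : (R.map f ⊔ V).relIndex (R ⊓ V.comap g) ≠ 0 := fun h => h0 (by rw [h]; simp)
  refine ⟨?_, hc⟩
  have h3 : (V.relIndex (R.map f ⊔ V) * V.relIndex (R.map g ⊔ V))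
        * (R.map f ⊔ V).relIndex (R ⊓ V.comap g)
      = (V.relIndex (R.map f ⊔ V) * V.relIndex (R.map g ⊔ V))
        * (R.map g ⊔ V).relIndex (R ⊓ V.comap f) := by
    calc _ = V.relIndex (R.map f ⊔ V) * (R.map f ⊔ V).relIndex (R ⊓ V.comap g)
        * V.relIndex (R.map g ⊔ V) := by ring
      _ = _ := by rw [k1, ← k2]; ring
  exact Nat.eq_of_mul_eq_mul_left (Nat.pos_of_ne_zero (mul_ne_zero ha hb)) h3

end abstract

section index
variable {l : ℕ} [hl : Fact l.Prime] {L : Type*} [Field L] [NumberField L]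

/-- The congruence subgroups have finite index in the units at `l`. -/
theorem Uk_relIndex_ne_zero (m : ℕ) : (Uk L l m).relIndex (Rl L l) ≠ 0 := by
  classical
  suffices h : ∀ m, 1 ≤ m → (Uk L l m).relIndex (Rl L l) ≠ 0 by
    have hle : Uk L l (m + 1) ≤ Uk L l m := by
      rintro x ⟨hx, hx'⟩
      refine ⟨hx, fun v hv => (hx' v hv).trans ?_⟩
      rw [pow_succ]
      refine mul_le_of_le_one_right' ?_
      refine val_le_one_of_isIntegral ?_
      have h := isIntegral_algebraMap (R := ℤ) (x := ((l : ℕ) : ℤ)) (A := L)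
      simpa using h
    intro h0
    exact h (m + 1) (by omega) (Subgroup.relIndex_eq_zero_of_le_left hle h0)
  intro m hm
  have hl0 : (l : L) ≠ 0 := l_ne_zero
  let I : Ideal (𝓞 L) := Ideal.span {(l : 𝓞 L) ^ m}
  have hI : I ≠ ⊥ := by
    intro h
    have h1 : (l : 𝓞 L) ^ m = 0 := by
      have : (l : 𝓞 L) ^ m ∈ I := Ideal.subset_span rfl
      rw [h] at this
      simpa using this
    have h2 : (l : 𝓞 L) = 0 := eq_zero_of_pow_eq_zero h1
    exact hl.out.ne_zero (by exact_mod_cast h2)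
  have hfin : Finite (𝓞 L ⧸ I) := Ring.HasFiniteQuotients.finiteQuotient hI
  have hr : ∀ x : Rl L l, ∃ r : 𝓞 L, ∃ b ∈ LInt l L, ((x : Lˣ) : L) = r + (l : L) ^ m * b := by
    intro x
    obtain ⟨r, hr, b, hb, h⟩ := approx_integral (mem_Rl_iff.1 x.2).1 m
    exact ⟨⟨r, hr⟩, b, hb, h⟩
  choose r b hb hrb using hr
  have hinj : ∀ x y : Rl L l, Ideal.Quotient.mk I (r x) = Ideal.Quotient.mk I (r y) →
      (x⁻¹ * y) ∈ (Uk L l m).subgroupOf (Rl L l) := by
    intro x y hxy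
    rw [Ideal.Quotient.eq, Ideal.mem_span_singleton] at hxy
    obtain ⟨c, hc⟩ := hxy
    have hc' : ((r x : 𝓞 L) : L) - (r y : L) = (l : L) ^ m * (c : L) := by
      have := congrArg (algebraMap (𝓞 L) L) hc
      simpa using this
    rw [Subgroup.mem_subgroupOf]
    refine (mem_Uk_iff hm).2 ⟨(b y - b x - c) * (((x : Lˣ)⁻¹ : Lˣ) : L), ?_, ?_⟩
    · refine mul_mem (sub_mem (sub_mem (hb y) (hb x)) ?_) (mem_Rl_iff.1 x.2).2
      exact mem_of_isIntegral c.2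
    · have h1 : (((x⁻¹ * y : Rl L l) : Lˣ) : L) = (((x : Lˣ)⁻¹ : Lˣ) : L) * ((y : Lˣ) : L) := rfl
      have h2 : (((x : Lˣ)⁻¹ : Lˣ) : L) * ((x : Lˣ) : L) = 1 := Units.inv_mul _
      rw [h1]
      have h3 := hrb x
      have h4 := hrb y
      linear_combination (((x : Lˣ)⁻¹ : Lˣ) : L) * (h4 - h3 - hc') + h2
  have : Finite (Rl L l ⧸ (Uk L l m).subgroupOf (Rl L l)) := by
    refine Finite.of_injective (β := 𝓞 L ⧸ I)
      (fun q => Ideal.Quotient.mk I (r q.out)) ?_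
    intro q q' h
    have h1 := hinj _ _ h
    rw [← QuotientGroup.eq, QuotientGroup.out_eq', QuotientGroup.out_eq'] at h1
    exact h1
  exact Subgroup.index_ne_zero_of_finite

end index

section main
variable (l : ℕ) [hl : Fact l.Prime] (K L : Type*) [Field K] [NumberField K] [Field L]
  [NumberField L] [Algebra K L] [FiniteDimensional K L] [IsGalois K L]

theorem aut_LInt {l : ℕ} [Fact l.Prime] {K L : Type*} [Field K] [Field L] [Algebra K L]
    (g : L ≃ₐ[K] L) {x : L} (hx : x ∈ LInt l L) : g x ∈ LInt l L :=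
  (map_mem_iff (l := l) (g : L →+* L)).2 hx

variable {l K L}

theorem aut_Rl (g : L ≃ₐ[K] L) {u : Lˣ} (hu : u ∈ Rl L l) :
    Units.map (g : L →* L) u ∈ Rl L l := by
  obtain ⟨h1, h2⟩ := mem_Rl_iff.1 hu
  exact mem_Rl_iff.2 ⟨aut_LInt g h1, aut_LInt g h2⟩

/-- a subgroup of `Lˣ` stable under the Galois group is stable under `sg` and `nm` -/
theorem stab_sg {B : Subgroup Lˣ} (hB : ∀ g : L ≃ₐ[K] L, ∀ u ∈ B, Units.map (g : L →* L) u ∈ B)
    (σ : L ≃ₐ[K] L) : B.map (sg K σ) ≤ B := by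
  rintro _ ⟨u, hu, rfl⟩
  exact div_mem (hB σ u hu) hu

theorem nm_eq_prod (u : Lˣ) : nm K L u = ∏ g : L ≃ₐ[K] L, Units.map (g : L →* L) u := by
  ext
  rw [nm_apply, Units.coe_prod]
  rfl

theorem stab_nm {B : Subgroup Lˣ} (hB : ∀ g : L ≃ₐ[K] L, ∀ u ∈ B, Units.map (g : L →* L) u ∈ B) :
    B.map (nm K L) ≤ B := by
  rintro _ ⟨u, hu, rfl⟩
  rw [nm_eq_prod]
  exact prod_mem fun g _ => hB g u hu

/-- BLOCK D (D1 + D2) of LEMMA LOG. -/
theorem blockD (l : ℕ) [hl : Fact l.Prime] (K L : Type*) [Field K] [NumberField K] [Field L]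
    [NumberField L] [Algebra K L] [IsGalois K L]
    (σ : L ≃ₐ[K] L) (hσ : ∀ τ, τ ∈ Subgroup.zpowers σ) :
    ∃ V : Subgroup Lˣ, V ≤ Rl L l ∧ V.relIndex (Rl L l) ≠ 0 ∧
      (∀ g : L ≃ₐ[K] L, ∀ u ∈ V, Units.map (g : L →* L) u ∈ V) ∧
      (∃ k1, 1 ≤ k1 ∧ Uk L l k1 ≤ V) ∧
      (∀ x : Lˣ, sg K σ x ∈ V → ∃ a : Kˣ, ∃ v ∈ V, x = inc K L a * v) ∧
      ((Rl L l).map (sg K σ) ⊔ V).relIndex (Rl L l ⊓ V.comap (nm K L))
        = ((Rl L l).map (nm K L) ⊔ V).relIndex (Rl L l ⊓ V.comap (sg K σ)) ∧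
      ((Rl L l).map (sg K σ) ⊔ V).relIndex (Rl L l ⊓ V.comap (nm K L)) ≠ 0 := by
  have : FiniteDimensional K L := inferInstance
  obtain ⟨D⟩ := Dat.exists (l := l) (K := K) (L := L)
  have hk : D.c + 1 ≤ D.c + 1 := le_refl _
  have hV : ∀ g : L ≃ₐ[K] L, ∀ u ∈ D.V (D.c + 1) hk, Units.map (g : L →* L) u ∈ D.V (D.c + 1) hk :=
    fun g u hu => D.aut_V hk g hu
  have hR : ∀ g : L ≃ₐ[K] L, ∀ u ∈ Rl L l, Units.map (g : L →* L) u ∈ Rl L l :=
    fun g u hu => aut_Rl g hu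
  have hfin : (D.V (D.c + 1) hk).relIndex (Rl L l) ≠ 0 := fun h =>
    Uk_relIndex_ne_zero _ (Subgroup.relIndex_eq_zero_of_le_left (D.Uk_le_V hk) h)
  have hh := herb_eq (f := sg K σ) (g := nm K L) (D.V_le_Rl hk) hfin
    (stab_sg hR σ) (stab_nm hR) (stab_sg hV σ) (stab_nm hV)
    (fun x _ => by rw [sg_nm]; exact one_mem _) (fun x _ => by rw [nm_sg]; exact one_mem _)
  exact ⟨D.V (D.c + 1) hk, D.V_le_Rl hk, hfin, hV, ⟨D.c + 1 + D.c, by omega, D.Uk_le_V hk⟩,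
    fun x hx => D.descent hσ hk hx, hh.1, hh.2⟩

end main

end Crest.Agent.R018.SemiLocx476
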