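import Crest.Agent.R018.Core_74
import Crest.Agent.R018.Centr_275
import Crest.Agent.R018.Desc_820

/-!
# Row 18: targets `Slim` and `NDLevel` of `Core_74` (helper867)

* `Sv_sq` : `ℚ^solv` is closed under square roots.
* `slim_holds : Slim` : centralizers of open subgroups of `Gal(ℚ^solv/ℚ)` are trivial.
* `ndLevel_holds : NDLevel` : finite level form of (ND).
-/

set_option autoImplicit false

open NumberField
open Crest.NumberTheoryR

namespace Crest.Agent.R018.SlimNDx867

open Crest.Agent.R018.EndDefx924 (Om)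
open Crest.Agent.R018.Corex74

/-- `ℚ^solv` is closed under square roots -/
theorem Sv_sq (x : Sv) : ∃ y : Sv, y ^ 2 = x := by
  obtain ⟨y, hy⟩ := IsAlgClosed.exists_pow_nat_eq (x : Om) (n := 2) (by norm_num)
  have hmem : y ∈ Sv := by
    rw [← IntermediateField.adjoin_simple_le_iff]
    unfold Sv
    refine le_iInf fun E => ?_
    rw [IntermediateField.adjoin_simple_le_iff]
    have hx : (x : Om) ∈ E.1 := by
      have h1 : Sv ≤ E.1 := by unfold Sv; exact iInf_le _ E
      exact h1 x.2
    obtain ⟨z, hz⟩ := Crest.Agent.R018.EndAx245.exists_sq_of_solvablyClosed E.2.2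
      (⟨(x : Om), hx⟩ : E.1)
    have hz' : (z : Om) ^ 2 = (x : Om) := congrArg Subtype.val hz
    have h2 : (y - (z : Om)) * (y + (z : Om)) = 0 := by
      have : (y - (z : Om)) * (y + (z : Om)) = y ^ 2 - (z : Om) ^ 2 := by ring
      rw [this, hy, hz', sub_self]
    rcases mul_eq_zero.1 h2 with h | h
    · rw [sub_eq_zero.1 h]; exact z.2
    · rw [eq_neg_of_add_eq_zero_left h]; exact neg_mem z.2
  exact ⟨⟨y, hmem⟩, Subtype.ext hy⟩

/-- **Slim** -/
theorem slim_holds : Slim := by
  intro S hS t ht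
  have hfin : S.FiniteIndex := Crest.Agent.R018.Descx820.finiteIndex_of_isOpen hS
  ext x
  exact congrArg Subtype.val
    (Crest.Agent.R018.Centrx275.eq_id_of_commute Sv_sq S hfin (t : Sv →+* Sv)
      (fun v hv x => (congrArg (fun s : SG => s x) (ht v hv)).symm) x)

/-- in a profinite group, for a finite family of nontrivial elements and an open subgroup there is
an open normal subgroup inside the subgroup avoiding the elements -/
theorem exists_normal {S : Type*} [Group S] [TopologicalSpace S] [IsTopologicalGroup S]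
    [CompactSpace S] [TotallyDisconnectedSpace S] [T1Space S] (V' : Subgroup S)
    (hV' : IsOpen (V' : Set S)) {ι : Type*} [Finite ι] (s : ι → S) (hs : ∀ i, s i ≠ 1) :
    ∃ V : Subgroup S, V.Normal ∧ IsOpen (V : Set S) ∧ V ≤ V' ∧ ∀ i, s i ∉ V := by
  have hU : IsOpen ((V' : Set S) ∩ ⋂ i, {s i}ᶜ) :=
    hV'.inter (isOpen_iInter_of_finite fun i => isOpen_compl_singleton)
  obtain ⟨H, hH⟩ := ProfiniteGrp.exist_openNormalSubgroup_sub_open_nhds_of_one hU
    ⟨V'.one_mem, by
      rw [Set.mem_iInter]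
      intro i
      exact fun h => hs i (Set.mem_singleton_iff.1 h).symm⟩
  refine ⟨H.toSubgroup, H.isNormal', H.isOpen, fun v hv => (hH hv).1, fun i hi => ?_⟩
  have h1 := (hH hi).2
  rw [Set.mem_iInter] at h1
  exact h1 i rfl

/-- **NDLevel** -/
theorem ndLevel_holds : NDLevel := by
  classical
  intro D hND V' hV'
  have hGf : D.G.FiniteIndex := Crest.Agent.R018.Descx820.finiteIndex_of_isOpen D.isOpen_G
  have hfq : Finite (BB ⧸ D.G) := Subgroup.finite_quotient_of_finiteIndex
  -- the image of `N₁`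
  have hN1 : IsOpen (N1 D : Set BB) := Crest.Agent.R018.Descx820.isOpen_normalCore D.isOpen_G
  have him := Crest.Agent.R018.Descx820.isOpen_range_of_le (S := SG) hN1 (N1_le D) D.α D.cont
    D.open_range
  set R : Subgroup SG := (D.α.comp (Subgroup.inclusion (N1_le D))).range with hR
  -- choose the elements for the nontrivial cosets
  let ι := {c : BB ⧸ D.G // c ≠ ((1 : BB) : BB ⧸ D.G)}
  have hout : ∀ c : ι, c.1.out ∉ D.G := by
    intro c hc
    apply c.2
    rw [← QuotientGroup.out_eq' c.1, QuotientGroup.eq]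
    simpa using D.G.inv_mem hc
  choose k hk hk1 hk2 using fun c : ι => hND c.1.out (hout c)
  obtain ⟨V, hVn, hVo, hVle, hVs⟩ := exists_normal (V' ⊓ R) (hV'.inter him)
    (fun c : ι => αN D (c.1.out * k c * (c.1.out)⁻¹) (conj_mem_N1 D (hk c) _))
    (fun c h => hk2 c (by rw [Subgroup.mem_bot]; exact h))
  refine ⟨V, hVn, hVo, hVle.trans inf_le_left, ?_, ?_⟩
  · intro b hb
    have hc : ((b : BB) : BB ⧸ D.G) ≠ ((1 : BB) : BB ⧸ D.G) := by
      intro h
      rw [QuotientGroup.eq] at h
      apply hb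
      simpa using D.G.inv_mem h
    set c : ι := ⟨(b : BB ⧸ D.G), hc⟩ with hcdef
    -- `b = c.out * g`
    obtain ⟨g, hg⟩ : ∃ g : D.G, c.1.out = b * g := by
      have h1 : ((c.1.out : BB) : BB ⧸ D.G) = (b : BB ⧸ D.G) := QuotientGroup.out_eq' c.1
      rw [eq_comm, QuotientGroup.eq] at h1
      exact ⟨⟨_, h1⟩, by simp⟩
    -- the element `g k g⁻¹`
    have hk' : (g : BB) * k c * (g : BB)⁻¹ ∈ N1 D := conj_mem_N1 D (hk c) _
    refine ⟨(g : BB) * k c * (g : BB)⁻¹, hk', ?_, ?_⟩
    · have h3 : αN D ((g : BB) * k c * (g : BB)⁻¹) hk' = D.α g * αN D (k c) (hk c) * (D.α g)⁻¹ := by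
        unfold αN
        rw [← map_inv, ← map_mul, ← map_mul]
        rfl
      rw [h3, hk1 c, mul_one, mul_inv_cancel]
    · have h4 : b * ((g : BB) * k c * (g : BB)⁻¹) * b⁻¹ = c.1.out * k c * (c.1.out)⁻¹ := by
        rw [hg]; group
      have h5 : αN D (b * ((g : BB) * k c * (g : BB)⁻¹) * b⁻¹) (conj_mem_N1 D hk' b) =
          αN D (c.1.out * k c * (c.1.out)⁻¹) (conj_mem_N1 D (hk c) _) := by
        unfold αN
        congr 1
        exact Subtype.ext h4
      rw [h5]
      exact hVs c
  · intro v hv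
    obtain ⟨n, hn⟩ := (hVle hv).2
    exact ⟨n, n.2, hn⟩

end Crest.Agent.R018.SlimNDx867
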