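import Crest.Agent.R018.Step2A_924
import Crest.Agent.R018.RedB_49
import Crest.Agent.R018.Kum_568

/-!
# Row 18, STEP 2, part B: from THEOREM A (for `E = Qs`) to cyclotomic compatibility for every
solvably closed target (helper924)
-/

set_option autoImplicit false

open Crest.NumberTheoryR Crest.Agent.R018.EndDefx924 Crest.Agent.R018.EndAx924 Polynomial
open Crest.Agent.R018.Redx49 (continuous_of_eval eval_mem_nhds)

namespace Crest.Agent.R018.Step2x924

/-- `Qs` is contained in the image of every solvably closed field. -/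
theorem qs_le_range {E : Type*} [Field E] [CharZero E] (hE : IsSolvablyClosed E) (i : E →+* Om)
    (x : Om) (hx : x ∈ Qs) : x ∈ i.fieldRange := by
  let R : IntermediateField ℚ Om := i.fieldRange.toIntermediateField fun q => by
    rw [RingHom.mem_fieldRange]
    exact ⟨(q : E), by simp⟩
  have hle : Qs ≤ R := by
    apply solvableByRad_le
    intro y n hn hy
    obtain ⟨a, ha⟩ : ∃ a, i a = y ^ n := hy
    let _ : Algebra E Om := i.toAlgebra
    obtain ⟨b, hb⟩ := mem_of_pow_mem (K := E) (L := Om)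
      (fun n hn => Crest.Agent.R018.Kumx568.exists_primitiveRoot hE n hn)
      (fun n hn a => Crest.Agent.R018.Kumx568.exists_pow_eq hE n hn a) n hn y a ha.symm
    exact ⟨b, hb⟩
  exact hle hx

/-- `Qs` embeds into every solvably closed algebraic field of characteristic zero. -/
theorem exists_qs_embedding {E : Type*} [Field E] [CharZero E] [Algebra.IsAlgebraic ℚ E]
    (hE : IsSolvablyClosed E) : Nonempty (Qs →+* E) := by
  let i : E →ₐ[ℚ] Om := IsAlgClosed.lift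
  let e : E ≃+* (i : E →+* Om).fieldRange :=
    RingEquiv.ofBijective (i : E →+* Om).rangeRestrictField
      ⟨fun a b hab => (i : E →+* Om).injective (congrArg Subtype.val hab),
        (i : E →+* Om).rangeRestrictField_bijective.2⟩
  exact ⟨(e.symm : (i : E →+* Om).fieldRange →+* E).comp
    ((algebraMap Qs Om).codRestrict (i : E →+* Om).fieldRange
      fun x => qs_le_range hE (i : E →+* Om) x x.2)⟩

section restrict

set_option linter.unusedSectionVars false

variable {F₂ E₂ : Type*} [Field F₂] [NumberField F₂] [Field E₂] [CharZero E₂] [Algebra F₂ E₂]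

/-- restriction of automorphisms along `j : E →+* E₂`, `E/ℚ` normal -/
theorem exists_restrict {E : Type*} [Field E] [CharZero E] [Normal ℚ E] (j : E →+* E₂) :
    ∃ ρ : (E₂ ≃ₐ[F₂] E₂) →* (E ≃ₐ[ℚ] E), ∀ σ x, j (ρ σ x) = σ (j x) := by
  let _ : Algebra E E₂ := j.toAlgebra
  have : IsScalarTower ℚ E E₂ := IsScalarTower.rat
  have : IsScalarTower ℚ F₂ E₂ := IsScalarTower.rat
  refine ⟨(AlgEquiv.restrictNormalHom (F := ℚ) (K₁ := E₂) E).comp
    (AlgEquiv.restrictScalarsHom ℚ), fun σ x => ?_⟩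
  exact AlgEquiv.restrictNormal_commutes (σ.restrictScalars ℚ) E x

theorem restrict_continuous [Algebra.IsAlgebraic F₂ E₂] {E : Type*} [Field E] [CharZero E]
    [Algebra.IsAlgebraic ℚ E]
    (j : E →+* E₂) (ρ : (E₂ ≃ₐ[F₂] E₂) →* (E ≃ₐ[ℚ] E)) (hρ : ∀ σ x, j (ρ σ x) = σ (j x)) :
    Continuous ρ := by
  apply continuous_of_eval
  intro x
  refine Filter.mem_of_superset (eval_mem_nhds (K := F₂) (j x)) ?_
  intro g hg
  rw [Set.mem_ofPred_eq] at hg ⊢
  apply j.injective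
  rw [hρ, hg]

theorem restrict_range_open [IsGalois F₂ E₂] {E : Type*} [Field E] [CharZero E]
    [IsGalois ℚ E]
    (j : E →+* E₂) (ρ : (E₂ ≃ₐ[F₂] E₂) →* (E ≃ₐ[ℚ] E)) (hρ : ∀ σ x, j (ρ σ x) = σ (j x)) :
    IsOpen (Set.range ρ) := by
  have hcont : Continuous ρ := restrict_continuous j ρ hρ
  have hclosed : IsClosed (Set.range ρ) := (isCompact_range hcont).isClosed
  rw [← MonoidHom.coe_range] at hclosed ⊢
  let H : ClosedSubgroup (E ≃ₐ[ℚ] E) := ⟨ρ.range, hclosed⟩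
  let K₀ : IntermediateField ℚ E := IntermediateField.fixedField H.1
  have hfix : K₀.fixingSubgroup = ρ.range := InfiniteGalois.fixingSubgroup_fixedField H
  have hmem : ∀ x : K₀, j x ∈ (algebraMap F₂ E₂).range := by
    intro x
    rw [RingHom.mem_range]
    refine (InfiniteGalois.mem_range_algebraMap_iff_fixed (k := F₂) (K := E₂) (j x)).mpr ?_
    intro f
    have h1 : ρ f ∈ K₀.fixingSubgroup := by rw [hfix]; exact ⟨f, rfl⟩
    rw [IntermediateField.mem_fixingSubgroup_iff] at h1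
    rw [← hρ, h1 x x.2]
  let e : F₂ ≃+* (algebraMap F₂ E₂).range :=
    RingEquiv.ofBijective (algebraMap F₂ E₂).rangeRestrict
      ⟨fun a b hab => (algebraMap F₂ E₂).injective (congrArg Subtype.val hab),
        (algebraMap F₂ E₂).rangeRestrict_surjective⟩
  let φ : K₀ →+* F₂ := (e.symm : (algebraMap F₂ E₂).range →+* F₂).comp
    ((j.comp (algebraMap K₀ E)).codRestrict (algebraMap F₂ E₂).range hmem)
  have hfin : FiniteDimensional ℚ K₀ := by
    have h1 := FiniteDimensional.of_injective φ.toRatAlgHom.toLinearMap φ.injective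
    convert h1
  rw [← hfix]
  exact IntermediateField.fixingSubgroup_isOpen K₀

end restrict

section source

set_option linter.unusedSectionVars false

variable (F₁ : Type*) [Field F₁] [NumberField F₁] [Algebra F₁ Om]

/-- `Gal(Om/F₁)` as a subgroup of `Gal(Om/ℚ)` -/
def gsub : Subgroup (Om ≃ₐ[ℚ] Om) where
  carrier := {g | ∀ x : F₁, g (algebraMap F₁ Om x) = algebraMap F₁ Om x}
  one_mem' := fun _ => rfl
  mul_mem' := fun {a b} ha hb x => by rw [AlgEquiv.mul_apply, hb x, ha x]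
  inv_mem' := fun {a} ha x => by
    have h := congrArg (a⁻¹ : Om ≃ₐ[ℚ] Om) (ha x)
    rw [← AlgEquiv.mul_apply, inv_mul_cancel, AlgEquiv.one_apply] at h
    exact h.symm

theorem mem_gsub {g : Om ≃ₐ[ℚ] Om} :
    g ∈ gsub F₁ ↔ ∀ x : F₁, g (algebraMap F₁ Om x) = algebraMap F₁ Om x := Iff.rfl

theorem gsub_open : IsOpen (gsub F₁ : Set (Om ≃ₐ[ℚ] Om)) := by
  classical
  let b := Module.finBasis ℚ F₁
  have h1 : (⋂ i, {g : Om ≃ₐ[ℚ] Om | g (algebraMap F₁ Om (b i)) = algebraMap F₁ Om (b i)}) ∈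
      nhds (1 : Om ≃ₐ[ℚ] Om) := Filter.iInter_mem.2 fun i => eval_mem_nhds (K := ℚ) _
  refine Subgroup.isOpen_of_mem_nhds (g := 1) _ (Filter.mem_of_superset h1 ?_)
  intro g hg x
  rw [Set.mem_iInter] at hg
  rw [← b.sum_repr x, map_sum, map_sum]
  refine Finset.sum_congr rfl fun i _ => ?_
  have h2 : algebraMap F₁ Om (b.repr x i • b i) =
      algebraMap ℚ Om (b.repr x i) * algebraMap F₁ Om (b i) := by
    rw [Algebra.smul_def, map_mul]
    congr 1
    simp
  rw [h2, map_mul, AlgEquiv.commutes]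
  congr 1
  exact hg i

/-- the identification `gsub F₁ ≃ Gal(Om/F₁)` -/
noncomputable def kap : gsub F₁ →* (Om ≃ₐ[F₁] Om) where
  toFun g := AlgEquiv.ofRingEquiv (f := (g : Om ≃ₐ[ℚ] Om).toRingEquiv) g.2
  map_one' := rfl
  map_mul' := fun _ _ => rfl

@[simp] theorem kap_apply (g : gsub F₁) (x : Om) : kap F₁ g x = (g : Om ≃ₐ[ℚ] Om) x := rfl

theorem kap_surjective : Function.Surjective (kap F₁) := by
  intro g
  refine ⟨⟨g.restrictScalars ℚ, fun x => g.commutes x⟩, ?_⟩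
  apply AlgEquiv.ext
  intro x
  rfl

theorem isAlgebraic_om : Algebra.IsAlgebraic F₁ Om := by
  have : IsScalarTower ℚ F₁ Om := IsScalarTower.rat
  exact Algebra.IsAlgebraic.tower_top (K := ℚ) F₁

theorem kap_continuous : Continuous (kap F₁) := by
  have := isAlgebraic_om F₁
  apply continuous_of_eval
  intro x
  have h1 := eval_mem_nhds (K := ℚ) x
  have h2 : Filter.Tendsto (fun g : gsub F₁ => (g : Om ≃ₐ[ℚ] Om)) (nhds 1) (nhds 1) :=
    continuous_subtype_val.tendsto (1 : gsub F₁)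
  exact h2 h1

end source

section cyc

universe u₁ u₂ v₂

/-- **STEP 2, cyclotomic compatibility**: Theorem A for `E = Qs` gives the cyclotomic compatibility
for every solvably closed target. -/
theorem exists_qs_semiconj (hA : ∀ G₁ : Subgroup (Om ≃ₐ[ℚ] Om),
      IsOpen (G₁ : Set (Om ≃ₐ[ℚ] Om)) → TheoremAFor Qs G₁)
    {F₁ : Type u₁} {F₂ : Type u₂} {E₂ : Type v₂} [Field F₁] [NumberField F₁] [Algebra F₁ Om]
    [Field F₂] [NumberField F₂] [Field E₂] [Algebra F₂ E₂] [IsGalois F₂ E₂]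
    (hsc : IsSolvablyClosed E₂) (α : (Om ≃ₐ[F₁] Om) →* (E₂ ≃ₐ[F₂] E₂)) (hα : Continuous α)
    (hs : Function.Surjective α) :
    ∃ (j : Qs →+* E₂) (t : Qs →+* Om) (ρ : (E₂ ≃ₐ[F₂] E₂) →* (Qs ≃ₐ[ℚ] Qs)),
      (∀ σ x, j (ρ σ x) = σ (j x)) ∧
      ∀ (g : Om ≃ₐ[F₁] Om) (x : Qs), g (t x) = t (ρ (α g) x) := by
  have : CharZero E₂ := charZero_of_injective_algebraMap (algebraMap F₂ E₂).injective
  have : Algebra.IsAlgebraic ℚ E₂ := Algebra.IsAlgebraic.trans ℚ F₂ E₂
  obtain ⟨j⟩ := exists_qs_embedding hsc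
  obtain ⟨ρ, hρ⟩ := exists_restrict (F₂ := F₂) j
  have hρc : Continuous ρ := restrict_continuous j ρ hρ
  have hρo : IsOpen (Set.range ρ) := restrict_range_open j ρ hρ
  let β : gsub F₁ →* (Qs ≃ₐ[ℚ] Qs) := (ρ.comp α).comp (kap F₁)
  have hβc : Continuous β := (hρc.comp hα).comp (kap_continuous F₁)
  have hβo : IsOpen (Set.range β) := by
    have h1 : Set.range β = Set.range ρ := by
      have h2 : (β : gsub F₁ → (Qs ≃ₐ[ℚ] Qs)) = ρ ∘ (α ∘ kap F₁) := rfl
      rw [h2]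
      exact (hs.comp (kap_surjective F₁)).range_comp ρ
    rw [h1]
    exact hρo
  obtain ⟨t, ht⟩ := hA (gsub F₁) (gsub_open F₁) β hβc hβo
  refine ⟨j, t, ρ, hρ, fun g x => ?_⟩
  obtain ⟨g', rfl⟩ := kap_surjective F₁ g
  exact ht g' x

theorem cyc_of_theoremA (hA : ∀ G₁ : Subgroup (Om ≃ₐ[ℚ] Om),
      IsOpen (G₁ : Set (Om ≃ₐ[ℚ] Om)) → TheoremAFor Qs G₁)
    {F₁ : Type u₁} {F₂ : Type u₂} {E₂ : Type v₂} [Field F₁] [NumberField F₁] [Algebra F₁ Om]
    [Field F₂] [NumberField F₂] [Field E₂] [Algebra F₂ E₂] [IsGalois F₂ E₂]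
    (hsc : IsSolvablyClosed E₂) (α : (Om ≃ₐ[F₁] Om) →* (E₂ ≃ₐ[F₂] E₂)) (hα : Continuous α)
    (hs : Function.Surjective α) (n : ℕ) (hn : n ≠ 0) (s : Om ≃ₐ[F₁] Om) (a : ℕ)
    (hsa : ∀ ζ : Om, ζ ^ n = 1 → s ζ = ζ ^ a) (ζ : E₂) (hζ : ζ ^ n = 1) : α s ζ = ζ ^ a := by
  obtain ⟨j, t, ρ, hρ, ht⟩ := exists_qs_semiconj hA hsc α hα hs
  obtain ⟨z₀, hz₀⟩ := Crest.Agent.R018.Kumx568.exists_primitiveRoot qs_isSolvablyClosed n hn
  have hz₁ : IsPrimitiveRoot (j z₀) n := hz₀.map_of_injective j.injective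
  have : NeZero n := ⟨hn⟩
  obtain ⟨i, -, hi⟩ := hz₁.eq_pow_of_pow_eq_one hζ
  rw [← map_pow] at hi
  set z := z₀ ^ i with hz
  have hzn : z ^ n = 1 := by rw [hz, ← pow_mul, mul_comm, pow_mul, hz₀.pow_eq_one, one_pow]
  clear_value z
  have h1 : t (ρ (α s) z) = t (z ^ a) := by
    have h3 : t z ^ n = 1 := by rw [← map_pow, hzn, map_one]
    rw [← ht, hsa _ h3, map_pow]
  have h2 : ρ (α s) z = z ^ a := t.injective h1
  rw [← hi, ← hρ, h2, map_pow]

end cyc

end Crest.Agent.R018.Step2x924
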