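/-
R018 (S0024): the elementary support theorem.

If `a, b ≥ 1`, `2 ≤ a`, and for all primes `l` outside a finite set the number `b` lies in the closure of the
powers of `a` in `ℤ_l` (that is, for every `k` there is `n` with `a ^ n ≡ b (mod l ^ k)`), then `b` is a power of `a`.

Proof: for `m = 1 + T j` one gets `a ^ m - 1 ∣ (a - 1) (b ^ m - 1)`; then the finite difference operator
`∏_{i ≤ K} (A ^ i E - B)`, `A = a ^ T`, `B = b ^ T`, `A ^ K ≤ B < A ^ (K + 1)` gives an integer sequence tending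
to zero which is eventually nonzero unless `B = A ^ K`.
-/
import Mathlib

set_option autoImplicit false

namespace Crest.Agent.R018.Supportx662

open Filter Topology

/-- the operator `x ↦ (j ↦ u x (j+1) - v x j)` -/
def op (u v : ℝ) (x : ℕ → ℝ) : ℕ → ℝ := fun j => u * x (j + 1) - v * x j

/-- composition of the operators `A ^ i E - B`, `i = 1, …, K` -/
def ops (A B : ℝ) : ℕ → (ℕ → ℝ) → (ℕ → ℝ)
  | 0, x => x
  | (K + 1), x => op (A ^ (K + 1)) B (ops A B K x)

lemma ops_add (A B : ℝ) (K : ℕ) (x y : ℕ → ℝ) :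
    ops A B K (fun j => x j + y j) = fun j => ops A B K x j + ops A B K y j := by
  induction K with
  | zero => rfl
  | succ K ih =>
    funext j
    simp only [ops, op]
    rw [ih]
    ring

lemma ops_geom (A B lam c : ℝ) (K : ℕ) :
    ops A B K (fun j => c * lam ^ j) =
      fun j => (c * ∏ i ∈ Finset.range K, (A ^ (i + 1) * lam - B)) * lam ^ j := by
  induction K with
  | zero => funext j; simp [ops]
  | succ K ih =>
    funext j
    simp only [ops, op]
    rw [ih, Finset.prod_range_succ]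
    simp only []
    ring

lemma ops_zero (A B : ℝ) (K : ℕ) : ops A B K (fun _ => 0) = fun _ => 0 := by
  induction K with
  | zero => rfl
  | succ K ih =>
    funext j
    simp only [ops, op]
    rw [ih]
    simp

lemma ops_sum (A B : ℝ) (K : ℕ) {ι : Type*} (s : Finset ι) (f : ι → ℕ → ℝ) :
    ops A B K (fun j => ∑ i ∈ s, f i j) = fun j => ∑ i ∈ s, ops A B K (f i) j := by
  classical
  induction s using Finset.induction_on with
  | empty => simpa using ops_zero A B K
  | insert a s ha ih =>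
    have : (fun j => ∑ i ∈ insert a s, f i j) = fun j => f a j + (fun j => ∑ i ∈ s, f i j) j := by
      funext j; simp [Finset.sum_insert ha]
    rw [this, ops_add, ih]
    funext j
    simp [Finset.sum_insert ha]

lemma ops_int (A B : ℤ) (K : ℕ) (x : ℕ → ℝ) (hx : ∀ j, ∃ n : ℤ, x j = n) :
    ∀ j, ∃ n : ℤ, ops (A : ℝ) (B : ℝ) K x j = n := by
  induction K with
  | zero => simpa [ops] using hx
  | succ K ih =>
    intro j
    obtain ⟨n, hn⟩ := ih (j + 1)
    obtain ⟨m, hm⟩ := ih j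
    refine ⟨A ^ (K + 1) * n - B * m, ?_⟩
    simp only [ops, op, hn, hm]
    push_cast
    ring

lemma ops_tendsto (A B lam c : ℝ) (hlam : 0 < lam) (K : ℕ) (x : ℕ → ℝ)
    (hx : Tendsto (fun j => x j / lam ^ j) atTop (𝓝 c)) :
    Tendsto (fun j => ops A B K x j / lam ^ j) atTop
      (𝓝 (c * ∏ i ∈ Finset.range K, (A ^ (i + 1) * lam - B))) := by
  induction K with
  | zero => simpa [ops] using hx
  | succ K ih =>
    rw [Finset.prod_range_succ]
    have h1 : Tendsto (fun j => ops A B K x (j + 1) / lam ^ (j + 1)) atTop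
        (𝓝 (c * ∏ i ∈ Finset.range K, (A ^ (i + 1) * lam - B))) :=
      (tendsto_add_atTop_iff_nat 1).2 ih
    have h2 := ((h1.const_mul (A ^ (K + 1) * lam)).sub (ih.const_mul B))
    refine (h2.congr ?_).trans ?_
    · intro j
      simp only [ops, op]
      rw [pow_succ lam j]
      field_simp
    · rw [show A ^ (K + 1) * lam * (c * ∏ i ∈ Finset.range K, (A ^ (i + 1) * lam - B)) -
        B * (c * ∏ i ∈ Finset.range K, (A ^ (i + 1) * lam - B)) =
        c * ((∏ i ∈ Finset.range K, (A ^ (i + 1) * lam - B)) * (A ^ (K + 1) * lam - B)) by ring]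

/-- Key step: if `α A ^ j - 1` divides `C (β B ^ j - 1)` for all `j`, then `B` is a power of `A`. -/
theorem pow_of_dvd (A B α β C : ℕ) (hA : 2 ≤ A) (hB : 1 ≤ B) (hα : 2 ≤ α) (hβ : 1 ≤ β) (hC : 1 ≤ C)
    (h : ∀ j : ℕ, ((α : ℤ) * (A : ℤ) ^ j - 1) ∣ (C : ℤ) * ((β : ℤ) * (B : ℤ) ^ j - 1)) :
    ∃ K : ℕ, B = A ^ K := by
  -- choose `K`
  obtain ⟨K, hK1, hK2⟩ : ∃ K : ℕ, A ^ K ≤ B ∧ B < A ^ (K + 1) := by
    refine ⟨Nat.log A B, Nat.pow_log_le_self A (by omega), Nat.lt_pow_succ_log_self (by omega) B⟩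
  by_contra hne
  push Not at hne
  have hlt : A ^ K < B := lt_of_le_of_ne hK1 (fun e => hne K e.symm)
  -- real versions
  have hAr : (2 : ℝ) ≤ A := by exact_mod_cast hA
  have hA0 : (0 : ℝ) < A := by linarith
  have hBr : (1 : ℝ) ≤ B := by exact_mod_cast hB
  have hB0 : (0 : ℝ) < B := by linarith
  have hαr : (2 : ℝ) ≤ α := by exact_mod_cast hα
  have hα0 : (0 : ℝ) < α := by linarith
  have hβr : (1 : ℝ) ≤ β := by exact_mod_cast hβ
  have hCr : (1 : ℝ) ≤ C := by exact_mod_cast hC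
  have hlt' : (A : ℝ) ^ K < B := by exact_mod_cast hlt
  have hK2' : (B : ℝ) < (A : ℝ) ^ (K + 1) := by exact_mod_cast hK2
  have hApow : ∀ j : ℕ, (1 : ℝ) ≤ (A : ℝ) ^ j := fun j => one_le_pow₀ (by linarith)
  have hD : ∀ j : ℕ, (0 : ℝ) < (α : ℝ) * (A : ℝ) ^ j - 1 := by
    intro j
    have := hApow j
    nlinarith
  -- the integer sequence
  set x : ℕ → ℝ := fun j => (C : ℝ) * ((β : ℝ) * (B : ℝ) ^ j - 1) / ((α : ℝ) * (A : ℝ) ^ j - 1) with hx
  have hxint : ∀ j, ∃ n : ℤ, x j = n := by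
    intro j
    obtain ⟨n, hn⟩ := h j
    refine ⟨n, ?_⟩
    simp only [hx]
    rw [div_eq_iff (hD j).ne']
    have : ((C : ℤ) * ((β : ℤ) * (B : ℤ) ^ j - 1) : ℤ) = (((α : ℤ) * (A : ℤ) ^ j - 1) * n : ℤ) := hn
    have h2 : (((C : ℤ) * ((β : ℤ) * (B : ℤ) ^ j - 1) : ℤ) : ℝ) =
        ((((α : ℤ) * (A : ℤ) ^ j - 1) * n : ℤ) : ℝ) := by rw [this]
    push_cast at h2
    rw [h2]; ring
  set lam : ℝ := (B : ℝ) / (A : ℝ) ^ (K + 1) with hlam
  have hlam0 : 0 < lam := by positivity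
  have hlam1 : lam < 1 := by
    rw [hlam, div_lt_one (by positivity)]; exact hK2'
  -- the main terms
  set g : ℕ → ℕ → ℝ := fun i j => ((C : ℝ) * β / (α : ℝ) ^ (i + 1)) * ((B : ℝ) / (A : ℝ) ^ (i + 1)) ^ j with hg
  set z : ℕ → ℝ := fun j => x j + ∑ i ∈ Finset.range K, (-(C : ℝ) * β / (α : ℝ) ^ (i + 1)) *
      ((B : ℝ) / (A : ℝ) ^ (i + 1)) ^ j with hz
  -- geometric series
  have hgeo : ∀ (n : ℕ) (t : ℝ), 1 < t →
      1 / (t - 1) = ∑ i ∈ Finset.range n, 1 / t ^ (i + 1) + 1 / (t ^ n * (t - 1)) := by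
    intro n t ht
    have ht0 : t ≠ 0 := by positivity
    have ht1 : t - 1 ≠ 0 := by intro e; linarith
    induction n with
    | zero => simp
    | succ n ih =>
      rw [Finset.sum_range_succ, ih]
      field_simp
      ring
  -- exact form of z
  have hzform : ∀ j, z j = (C : ℝ) * β * (B : ℝ) ^ j /
      (((α : ℝ) * (A : ℝ) ^ j) ^ K * ((α : ℝ) * (A : ℝ) ^ j - 1)) - C / ((α : ℝ) * (A : ℝ) ^ j - 1) := by
    intro j
    have ht : (1 : ℝ) < (α : ℝ) * (A : ℝ) ^ j := by have := hD j; linarith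
    have e1 := hgeo K _ ht
    have e2 : x j = (C : ℝ) * β * (B : ℝ) ^ j * (1 / ((α : ℝ) * (A : ℝ) ^ j - 1)) -
        C / ((α : ℝ) * (A : ℝ) ^ j - 1) := by
      simp only [hx]
      have := (hD j).ne'
      field_simp
    simp only [hz]
    rw [e2, e1, mul_add, Finset.mul_sum]
    have e3 : ∀ i ∈ Finset.range K, (C : ℝ) * β * (B : ℝ) ^ j * (1 / ((α : ℝ) * (A : ℝ) ^ j) ^ (i + 1)) =
        - ((-(C : ℝ) * β / (α : ℝ) ^ (i + 1)) * ((B : ℝ) / (A : ℝ) ^ (i + 1)) ^ j) := by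
      intro i _
      rw [mul_pow, div_pow, ← pow_mul, ← pow_mul, mul_comm j (i + 1)]
      field_simp
    rw [Finset.sum_congr rfl e3, Finset.sum_neg_distrib]
    ring
  -- limit of z j / lam ^ j
  have hrat : Tendsto (fun j : ℕ => (1 : ℝ) / ((α : ℝ) * (A : ℝ) ^ j)) atTop (𝓝 0) := by
    have h1 : Tendsto (fun j : ℕ => (A : ℝ) ^ j) atTop atTop :=
      tendsto_pow_atTop_atTop_of_one_lt (by linarith)
    have h2 : Tendsto (fun j : ℕ => (α : ℝ) * (A : ℝ) ^ j) atTop atTop :=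
      h1.const_mul_atTop hα0
    refine h2.inv_tendsto_atTop.congr (fun j => ?_)
    simp [one_div]
  have hlimz : Tendsto (fun j => z j / lam ^ j) atTop (𝓝 ((C : ℝ) * β / (α : ℝ) ^ (K + 1))) := by
    have e : ∀ j, z j / lam ^ j = ((C : ℝ) * β / (α : ℝ) ^ (K + 1) - (C / α) * (((A : ℝ) ^ K / B) ^ j)) *
        (1 / (1 - 1 / ((α : ℝ) * (A : ℝ) ^ j))) := by
      intro j
      rw [hzform j, hlam, div_pow, ← pow_mul, div_pow, ← pow_mul]
      have h1 := (hD j).ne'
      have h2 : (α : ℝ) * (A : ℝ) ^ j ≠ 0 := by positivity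
      have h3 : 1 - 1 / ((α : ℝ) * (A : ℝ) ^ j) ≠ 0 := by
        have : 1 - 1 / ((α : ℝ) * (A : ℝ) ^ j) = ((α : ℝ) * (A : ℝ) ^ j - 1) / ((α : ℝ) * (A : ℝ) ^ j) := by
          field_simp
        rw [this]; exact div_ne_zero h1 h2
      have h4 : 1 - 1 / ((α : ℝ) * (A : ℝ) ^ j) = ((α : ℝ) * (A : ℝ) ^ j - 1) / ((α : ℝ) * (A : ℝ) ^ j) := by
        field_simp
      rw [h4]
      have h5 : (A : ℝ) ^ ((K + 1) * j) = (A : ℝ) ^ (K * j) * (A : ℝ) ^ j := by
        rw [← pow_add]; ring_nf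
      rw [h5, mul_pow, ← pow_mul, mul_comm j K]
      field_simp
      ring
    have h1 : Tendsto (fun j : ℕ => ((A : ℝ) ^ K / B) ^ j) atTop (𝓝 0) := by
      apply tendsto_pow_atTop_nhds_zero_of_lt_one (by positivity)
      rw [div_lt_one hB0]; exact hlt'
    have h2 : Tendsto (fun j : ℕ => 1 / (1 - 1 / ((α : ℝ) * (A : ℝ) ^ j))) atTop (𝓝 (1 / (1 - 0))) := by
      apply Tendsto.div tendsto_const_nhds
      · exact tendsto_const_nhds.sub hrat
      · norm_num
    have h3 := ((tendsto_const_nhds (x := (C : ℝ) * β / (α : ℝ) ^ (K + 1))).sub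
      (h1.const_mul ((C : ℝ) / α))).mul h2
    refine (h3.congr (fun j => (e j).symm)).trans ?_
    simp
  -- operator
  have hzops : ops (A : ℝ) (B : ℝ) K z = ops (A : ℝ) (B : ℝ) K x := by
    funext j
    have e1 : ops (A : ℝ) (B : ℝ) K z j = ops (A : ℝ) (B : ℝ) K x j +
        ops (A : ℝ) (B : ℝ) K (fun j => ∑ i ∈ Finset.range K, (-(C : ℝ) * β / (α : ℝ) ^ (i + 1)) *
          ((B : ℝ) / (A : ℝ) ^ (i + 1)) ^ j) j := by
      rw [hz, ops_add]
    rw [e1, ops_sum]
    simp only []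
    rw [Finset.sum_eq_zero]
    · ring
    · intro i hi
      rw [ops_geom]
      have : ∏ i' ∈ Finset.range K, ((A : ℝ) ^ (i' + 1) * ((B : ℝ) / (A : ℝ) ^ (i + 1)) - B) = 0 := by
        apply Finset.prod_eq_zero hi
        field_simp
        ring
      simp only []
      rw [this]; ring
  have hlim := ops_tendsto (A : ℝ) (B : ℝ) lam _ hlam0 K z hlimz
  rw [hzops] at hlim
  set c : ℝ := (C : ℝ) * β / (α : ℝ) ^ (K + 1) *
    ∏ i ∈ Finset.range K, ((A : ℝ) ^ (i + 1) * lam - B) with hc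
  have hcne : c ≠ 0 := by
    rw [hc]
    apply mul_ne_zero (by positivity)
    rw [Finset.prod_ne_zero_iff]
    intro i hi
    have hi' : i + 1 ≤ K := Finset.mem_range.1 hi
    have : (A : ℝ) ^ (i + 1) * lam < B := by
      rw [hlam, mul_div_assoc', div_lt_iff₀ (by positivity), mul_comm]
      apply mul_lt_mul_of_pos_left _ hB0
      exact pow_lt_pow_right₀ (by linarith) (by omega)
    linarith
  -- integer sequence tending to zero
  have hy := ops_int (A : ℤ) (B : ℤ) K x hxint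
  have hy0 : Tendsto (fun j => ops (A : ℝ) (B : ℝ) K x j) atTop (𝓝 0) := by
    have h1 : Tendsto (fun j : ℕ => lam ^ j) atTop (𝓝 0) :=
      tendsto_pow_atTop_nhds_zero_of_lt_one hlam0.le hlam1
    have h2 := hlim.mul h1
    rw [mul_zero] at h2
    refine h2.congr ?_
    intro j
    field_simp
  have hev : ∀ᶠ j in atTop, ops (A : ℝ) (B : ℝ) K x j = 0 := by
    have h1 : ∀ᶠ j in atTop, |ops (A : ℝ) (B : ℝ) K x j| < 1 := by
      have := hy0.abs
      rw [abs_zero] at this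
      exact this.eventually (gt_mem_nhds (by norm_num))
    filter_upwards [h1] with j hj
    obtain ⟨n, hn⟩ := hy j
    push_cast at hn
    rw [hn] at hj ⊢
    have : |n| < 1 := by exact_mod_cast hj
    have : n = 0 := by rw [abs_lt] at this; omega
    simp [this]
  have hev2 : Tendsto (fun j => ops (A : ℝ) (B : ℝ) K x j / lam ^ j) atTop (𝓝 0) := by
    refine tendsto_const_nhds.congr' ?_
    filter_upwards [hev] with j hj
    rw [hj]; simp
  exact hcne (tendsto_nhds_unique hlim hev2)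

/-- **Support theorem**.  If `a ≥ 2`, `b ≥ 1` and for every prime `l` outside a finite set and every `k`
there is `n` with `a ^ n ≡ b (mod l ^ k)`, then `b` is a power of `a`. -/
theorem support (a b : ℕ) (ha : 2 ≤ a) (hb : 1 ≤ b) (S : Finset ℕ)
    (h : ∀ l : ℕ, l.Prime → l ∉ S → ∀ k : ℕ, ∃ n : ℕ, a ^ n ≡ b [MOD l ^ k]) :
    ∃ k : ℕ, b = a ^ k := by
  classical
  set S' := S.filter Nat.Prime with hS'
  set T : ℕ := ∏ l ∈ S', Nat.totient (l ^ a) with hT
  have hTpos : 0 < T := by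
    apply Finset.prod_pos
    intro l hl
    have : l.Prime := (Finset.mem_filter.1 hl).2
    exact Nat.totient_pos.2 (pow_pos this.pos _)
  have hmain : ∀ j : ℕ, (a ^ (1 + T * j) - 1) ∣ (a - 1) * (b ^ (1 + T * j) - 1) := by
    intro j
    rw [Nat.dvd_iff_prime_pow_dvd_dvd]
    intro l k hl hk
    rcases Nat.eq_zero_or_pos k with rfl | hkpos
    · simp
    have hpow1 : 1 ≤ a ^ (1 + T * j) := Nat.one_le_pow _ _ (by omega)
    have hbpow1 : 1 ≤ b ^ (1 + T * j) := Nat.one_le_pow _ _ hb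
    have hmod : a ^ (1 + T * j) ≡ 1 [MOD l ^ k] := ((Nat.modEq_iff_dvd' hpow1).2 hk).symm
    by_cases hlS : l ∈ S
    · -- bad primes
      have hlS' : l ∈ S' := Finset.mem_filter.2 ⟨hlS, hl⟩
      have hla : Nat.Coprime a l := by
        rw [Nat.coprime_comm, Nat.Prime.coprime_iff_not_dvd hl]
        intro hd
        have h1 : l ∣ a ^ (1 + T * j) := dvd_pow hd (by omega)
        have h2 : l ∣ a ^ (1 + T * j) - 1 := (dvd_pow_self l hkpos.ne').trans hk
        have h3 : l ∣ 1 := by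
          have := (Nat.dvd_sub h1 h2)
          have e : a ^ (1 + T * j) - (a ^ (1 + T * j) - 1) = 1 := by omega
          rwa [e] at this
        exact hl.one_lt.ne' (Nat.dvd_one.1 h3)
      have hTl : a ^ (1 + T * j) ≡ a [MOD l ^ a] := by
        have hcop : Nat.Coprime a (l ^ a) := Nat.Coprime.pow_right _ hla
        obtain ⟨u, hu⟩ : Nat.totient (l ^ a) ∣ T := Finset.dvd_prod_of_mem _ hlS'
        have h1 : a ^ (T * j) ≡ 1 [MOD l ^ a] := by
          rw [hu, mul_assoc, pow_mul]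
          have := (Nat.ModEq.pow_totient hcop).pow (u * j)
          simpa using this
        calc a ^ (1 + T * j) = a * a ^ (T * j) := by rw [pow_add, pow_one]
          _ ≡ a * 1 [MOD l ^ a] := Nat.ModEq.mul_left a h1
          _ = a := mul_one a
      have hkey : ∀ k' ≤ k, k' ≤ a → l ^ k' ∣ a - 1 := by
        intro k' hk1 hk2
        have h1 : a ^ (1 + T * j) ≡ 1 [MOD l ^ k'] := hmod.of_dvd (pow_dvd_pow l hk1)
        have h2 : a ^ (1 + T * j) ≡ a [MOD l ^ k'] := hTl.of_dvd (pow_dvd_pow l hk2)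
        have h3 : 1 ≡ a [MOD l ^ k'] := h1.symm.trans h2
        exact (Nat.modEq_iff_dvd' (by omega)).1 h3
      have hka : k ≤ a := by
        by_contra hcon
        push Not at hcon
        have := hkey a hcon.le le_rfl
        have h1 : l ^ a ≤ a - 1 := Nat.le_of_dvd (by omega) this
        have h2 : a < l ^ a := Nat.lt_pow_self hl.one_lt
        omega
      exact (hkey k le_rfl hka).mul_right _
    · -- good primes
      obtain ⟨n, hn⟩ := h l hl hlS k
      have h1 : b ^ (1 + T * j) ≡ 1 [MOD l ^ k] := by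
        calc b ^ (1 + T * j) ≡ (a ^ n) ^ (1 + T * j) [MOD l ^ k] := (hn.pow _).symm
          _ = (a ^ (1 + T * j)) ^ n := by rw [← pow_mul, ← pow_mul, mul_comm]
          _ ≡ 1 ^ n [MOD l ^ k] := hmod.pow n
          _ = 1 := one_pow n
      exact ((Nat.modEq_iff_dvd' hbpow1).1 h1.symm).mul_left _
  -- apply the key step
  have hkey := pow_of_dvd (a ^ T) (b ^ T) a b (a - 1)
    (le_trans ha (by
      calc a = a ^ 1 := (pow_one a).symm
        _ ≤ a ^ T := Nat.pow_le_pow_right (by omega) hTpos))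
    (Nat.one_le_pow _ _ hb) ha hb (by omega) ?_
  · obtain ⟨K, hK⟩ := hkey
    refine ⟨K, ?_⟩
    have : b ^ T = (a ^ K) ^ T := by rw [hK, ← pow_mul, ← pow_mul, mul_comm]
    exact Nat.pow_left_injective hTpos.ne' this
  · intro j
    have h1 := hmain j
    have hpow1 : 1 ≤ a ^ (1 + T * j) := Nat.one_le_pow _ _ (by omega)
    have hbpow1 : 1 ≤ b ^ (1 + T * j) := Nat.one_le_pow _ _ hb
    have h2 : ((a ^ (1 + T * j) - 1 : ℕ) : ℤ) ∣ (((a - 1) * (b ^ (1 + T * j) - 1) : ℕ) : ℤ) := by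
      exact_mod_cast h1
    have e1 : ((a ^ (1 + T * j) - 1 : ℕ) : ℤ) = (a : ℤ) * ((a ^ T : ℕ) : ℤ) ^ j - 1 := by
      rw [Nat.cast_sub hpow1]
      push_cast
      rw [pow_add, pow_one, pow_mul]
    have e2 : (((a - 1) * (b ^ (1 + T * j) - 1) : ℕ) : ℤ) =
        ((a - 1 : ℕ) : ℤ) * ((b : ℤ) * ((b ^ T : ℕ) : ℤ) ^ j - 1) := by
      rw [Nat.cast_mul, Nat.cast_sub hbpow1]
      push_cast
      rw [pow_add, pow_one, pow_mul]
    rw [e1, e2] at h2
    exact h2

/-- Version for a prime target: if `p` is a prime and for almost all `l` the prime `p` lies in the closure of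
the powers of `a` in `ℤ_l`, then `a = p`. -/
theorem support_prime (a p : ℕ) (ha : 2 ≤ a) (hp : p.Prime) (S : Finset ℕ)
    (h : ∀ l : ℕ, l.Prime → l ∉ S → ∀ k : ℕ, ∃ n : ℕ, a ^ n ≡ p [MOD l ^ k]) : a = p := by
  obtain ⟨k, hk⟩ := support a p ha hp.one_lt.le S h
  have : k = 1 := by
    rcases k with _ | _ | k
    · simp at hk; exact absurd hk hp.one_lt.ne'
    · rfl
    · exfalso
      have h1 : a ∣ p := hk ▸ dvd_pow_self a (by omega)
      rcases (Nat.dvd_prime hp).1 h1 with h2 | h2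
      · omega
      · have : a ^ (k + 1 + 1) = a := by rw [← hk, h2]
        have h3 : a ^ 1 < a ^ (k + 1 + 1) := Nat.pow_lt_pow_right (by omega) (by omega)
        rw [pow_one] at h3
        omega
  rw [hk, this, pow_one]

end Crest.Agent.R018.Supportx662
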