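import Crest.Agent.R018.HeartDef_74
import Crest.Agent.R018.FDE_389

/-!
# Row 18: block `TFDE` of `HeartDef_74`
-/

set_option autoImplicit false

namespace Crest.Agent.R018.TFDEx389

theorem holds : HeartDefx74.TFDE := fun E _ _ _ => FDEx389.fde E

end Crest.Agent.R018.TFDEx389
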