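import Crest.Agent.R018.HeartDef_74
import Crest.Agent.R018.GLem_791
import Crest.Agent.R018.V3_793

/-!
# Row 18: the literals `HeartDef_74.TV3` and `HeartDef_74.TG` (helper791)
-/

set_option autoImplicit false

namespace Crest.Agent.R018.TGx791

open Crest.Agent.R018.HeartDefx74 Crest.Agent.R018.GDefx791

theorem tv3_holds : TV3 := fun l _ hl => V3x793.v3 l hl

/-- LEMMA G, literal of `HeartDef_74` -/
theorem tg_holds : TG := by
  intro E _ _ _ G1 α hs l _ hl
  have hr : IsOpen (α.range : Set (E ≃ₐ[ℚ] E)) := by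
    rw [MonoidHom.coe_range]
    exact hs.open_range
  exact GLemx791.lemmaG_gen l (V3x793.v3 l hl) G1 hs.isOpen α hs.cont hr

end Crest.Agent.R018.TGx791
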