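import Crest.Agent.R018.HeartDef_74
import Crest.Agent.R018.Good_820

/-!
# Row 18 (helper820): the block `TGood` of `HeartDef_74`
-/

set_option autoImplicit false

open Crest.NumberTheoryR Crest.Agent.R018.EndDefx924
  Crest.Agent.R018.GDefx791 Crest.Agent.R018.HeartDefx74

namespace Crest.Agent.R018.TGoodx820

theorem holds : TGood := by
  intro E _ _ _ G1 α hs hnd U' hU'
  obtain ⟨U, h1, h2, h3, h4⟩ := Crest.Agent.R018.Goodx820.exists_good G1 hs.isOpen α hs.cont
    hs.open_range hnd (U' : Set (E ≃ₐ[ℚ] E)) hU' U'.one_mem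
  exact ⟨U, h1, h2, h3, h4⟩

end Crest.Agent.R018.TGoodx820
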