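import Crest.Agent.R018.HeartDef_74
import Crest.Agent.R018.S1Fin_380

/-!
Row 18: `THit` of `HeartDef_74` from `TLoc` (helper380).
-/

set_option autoImplicit false

namespace Crest.Agent.R018.THitx380

open Crest.NumberTheoryR Crest.Agent.R018.EndDefx924 Crest.Agent.R018.Placesx484
  Crest.Agent.R018.GDefx791 Crest.Agent.R018.LocDefx31 Crest.Agent.R018.HeartDefx74

/-- (S1) for one prime `l`, from the local correspondence at `l` -/
theorem hit_of_loc (E : Type) [Field E] [CharZero E] [IsGalois ℚ E] (hE : IsSolvablyClosed E)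
    (G1 : Subgroup (Om ≃ₐ[ℚ] Om)) (hG : IsOpen (G1 : Set (Om ≃ₐ[ℚ] Om)))
    (α : G1 →* (E ≃ₐ[ℚ] E)) (hα : Continuous α) (hr : IsOpen (Set.range α))
    (l : ℕ) (hl : l.Prime) (hloc : Loc Om E α l) :
    ∃ B : ℕ, ∀ Q : Place E, B < Q.rchar → ∃ P : Place Om, S1 α l P ∧ Goes α P Q :=
  S1Finx380.bad_finite G1 hG α hα hr l hl
    (fun k => Kumx568.exists_primitiveRoot (E := Om) (fun p _ => IsAlgClosed.splits p) (l ^ k)
      (pow_ne_zero _ hl.ne_zero))
    (fun k => Kumx568.exists_primitiveRoot hE (l ^ k) (pow_ne_zero _ hl.ne_zero))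
    (fun x => IsAlgClosed.exists_pow_nat_eq x hl.pos)
    (fun x => Kumx568.exists_pow_eq hE l hl.ne_zero x) hloc

/-- **(S1)** `THit` from `TLoc` -/
theorem tHit_of_tLoc (h : TLoc) : THit := by
  intro E _ _ _ G1 α hs l hl hl5
  exact hit_of_loc E hs.closed G1 hs.isOpen α hs.cont hs.open_range l hl
    (h E G1 α hs l hl hl5)

end Crest.Agent.R018.THitx380
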