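import Crest.Agent.R018.Core_74
import Crest.Agent.R018.TheoremU_245
import Crest.Agent.R018.CycFT_925
import Crest.Agent.R018.FTSub_925

/-!
# Row 18: the target `TheoremU` of Core_74 from helper245's THEOREM U (helper819)
-/

set_option autoImplicit false

open NumberField
open scoped Pointwise
open Crest.NumberTheoryR

namespace Crest.Agent.R018.TheoremUx819

open Crest.Agent.R018.EndDefx924
open Crest.Agent.R018.Placesx484 Crest.Agent.R018.Corex74
open Crest.Agent.R018.LCEndx925 Crest.Agent.R018.TheoremUx245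

/-- the `q`-power map on the residue field of `P` gives a geometric Frobenius -/
theorem isFrob_of_act {F E : Type*} [Field F] [Field E] [CharZero E] [Algebra F E]
    (q : ℕ) [hq : Fact q.Prime] (P : Place E) (hP : P.rchar = q) (g : E ≃ₐ[F] E)
    (h : Act P g q) : IsFrob q (g : E →+* E) := by
  obtain ⟨l, hl⟩ := exists_geom q P (by rw [← hP]; exact P.rchar_mem)
  refine ⟨l, fun x => ?_⟩
  have h1 := hl _ (h ((toOO E).symm x))
  rw [map_sub, map_sub, map_pow, map_pow, toOO_smul, RingEquiv.apply_symm_apply, sub_eq_zero] at h1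
  exact h1

/-- a geometric Frobenius is a Frobenius at the corresponding place -/
theorem act_of_isFrob {F E : Type*} [Field F] [Field E] [CharZero E] [Algebra F E]
    (q : ℕ) [hq : Fact q.Prime] (g : E ≃ₐ[F] E) (h : IsFrob q (g : E →+* E)) :
    ∃ P : Place E, P.rchar = q ∧ Act P g q := by
  obtain ⟨l, hl⟩ := h
  refine ⟨placeOf q l, (placeOf q l).rchar_eq_of_mem hq.out (natCast_mem_placeOf q l), ?_⟩
  intro x
  rw [mem_placeOf, map_sub, map_sub, map_pow, map_pow, toOO_smul, hl, sub_self]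

/-- two elements acting as the same power map differ by inertia -/
theorem inertia_of_act {E H : Type*} [Field E] [CharZero E] [Group H] [MulSemiringAction H E]
    (P : Place E) (g h : H) {q : ℕ} (hg : Act P g q) (hh : Act P h q) (hgP : g • P = P) :
    ∀ y : 𝓞 E, (g⁻¹ * h) • y - y ∈ P.ideal := by
  intro y
  have h1 : h • y - g • y ∈ P.ideal := by
    have := sub_mem (hh y) (hg y)
    simpa using this
  have h2 : g⁻¹ • (h • y - g • y) ∈ P.ideal := by
    rw [← Place.mem_smul_ideal, hgP]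
    exact h1
  rwa [smul_sub, inv_smul_smul, ← mul_smul] at h2

theorem smul_eq_of_act {E H : Type*} [Field E] [CharZero E] [Group H] [MulSemiringAction H E]
    (P : Place E) (g : H) {q : ℕ} (hq : q ≠ 0) (h : Act P g q) :
    g • P = P := by
  rw [Place.smul_eq_iff]
  intro x hx
  have h1 := h x
  have h2 : x ^ q ∈ P.ideal := Ideal.pow_mem_of_mem _ hx q (Nat.pos_of_ne_zero hq)
  simpa using add_mem h1 h2

/-- **THEOREM U** in the form of Core_74 -/
theorem theoremU_of (hF2 : F2) (hF3 : F3) (hF5 : F5) : TheoremU := by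
  classical
  intro D hsurj hU
  apply CycFTx925.ft_of_embedding
  obtain ⟨F₁, hnf, i, j, hji, hij, hi, hcont⟩ :=
    FTSubx925.exists_transfer D.G D.isOpen_G D.α D.cont
  -- a finite set generating `F₁`
  obtain ⟨N₀, hN₀⟩ := exists_finset_range (algebraMap F₁ Om)
  have hN₀G : ∀ σ : BB, (∀ x ∈ N₀, σ x = x) → σ ∈ D.G := by
    intro σ hσ
    have h1 : ∀ x : F₁, σ (algebraMap F₁ Om x) = algebraMap F₁ Om x := by
      intro x
      have h2 := hN₀ (IntermediateField.fixedField (Subgroup.zpowers σ)) (fun y hy => by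
        rintro ⟨τ, hτ⟩
        have h3 : τ ∈ MulAction.stabilizer BB y := by
          refine (Subgroup.zpowers_le (g := σ)).2 ?_ hτ
          exact hσ y hy
        exact h3) x
      exact h2 ⟨σ, Subgroup.mem_zpowers σ⟩
    let τ : Om ≃ₐ[F₁] Om := AlgEquiv.ofRingEquiv (f := (σ : Om ≃+* Om)) h1
    have h2 : ((i τ : D.G) : BB) = σ := by
      apply AlgEquiv.ext
      intro x
      rw [hi]
      rfl
    rw [← h2]
    exact (i τ).2
  have hsq : ∀ x : Sv, ∃ y, y ^ 2 = x := fun x =>
    Crest.Agent.R018.EndAx245.exists_sq_of_solvablyClosed CycFTx925.sv_isSolvablyClosed x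
  have hHU : HU (Set.univ : Set ℕ) (N₀ : Set Om) (D.α.comp i) := by
    intro T
    obtain ⟨N, hNf, hNG, hN⟩ := EndBx924.exists_level ℚ T
    have hVn : (N.fixingSubgroup : Subgroup SG).Normal := inferInstance
    have hVo : IsOpen ((N.fixingSubgroup : Subgroup SG) : Set SG) :=
      IntermediateField.fixingSubgroup_isOpen N
    obtain ⟨B1, hB1⟩ := hU N.fixingSubgroup hVn hVo
    obtain ⟨B3, hB3⟩ := hF3 N.fixingSubgroup hVo
    refine ⟨max B1 B3, fun q hqp hq _ hsplit β hβ => ?_⟩
    obtain ⟨P, Q, σ, φ, hP, hQ, hσ, hφ, hV⟩ := hB1 q hqp.out (lt_of_le_of_lt (le_max_left _ _) hq)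
    -- the residue degree is one
    have hf : fdeg D.G P = 1 := by
      obtain ⟨ψ, -, hψ⟩ := hF2.2 P
      have h1 : IsFrob q (ψ : Om →+* Om) := isFrob_of_act q P hP ψ (hP ▸ hψ)
      have h2 : ψ ∈ D.G := hN₀G ψ (fun x hx => hsplit ψ h1 x hx)
      have hmem : 1 ∈ {a | 0 < a ∧ ∃ g ∈ D.G, Act P g (P.rchar ^ a)} :=
        ⟨one_pos, ψ, h2, by rw [pow_one]; exact hψ⟩
      have h3 : fdeg D.G P ≤ 1 := Nat.sInf_le hmem
      have h4 : 0 < fdeg D.G P := (Nat.sInf_mem ⟨1, hmem⟩).1
      omega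
    obtain ⟨Q', hQ', hβ'⟩ := act_of_isFrob q β hβ
    obtain ⟨γ, hγ⟩ := hF5.1 Q Q' (hQ.trans hQ'.symm)
    have hβQ : Act Q (γ⁻¹ * β * γ) q := by
      intro y
      have h1 := hβ' (γ • y)
      rw [← hγ, ← smul_pow', ← mul_smul] at h1
      rw [Place.mem_smul_ideal, smul_sub, inv_smul_smul, ← mul_smul, ← mul_assoc] at h1
      exact h1
    have hφQ : φ • Q = Q := smul_eq_of_act Q φ hqp.out.ne_zero hφ
    have h1 : φ⁻¹ * (γ⁻¹ * β * γ) ∈ N.fixingSubgroup :=
      hB3 Q (by rw [hQ]; exact lt_of_le_of_lt (le_max_right _ _) hq) _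
        (inertia_of_act Q φ _ hφ hβQ hφQ)
    rw [hf, pow_one] at hV
    have h2 : (D.α σ)⁻¹ * (γ⁻¹ * β * γ) ∈ N.fixingSubgroup := by
      have := mul_mem hV h1
      rwa [mul_assoc, mul_inv_cancel_left] at this
    refine ⟨j σ, γ⁻¹, ?_, fun x hx => ?_⟩
    · apply isFrob_of_act q P hP
      intro y
      have h3 := hσ.2 y
      rw [hf, pow_one, hP] at h3
      have h4 : (j σ) • y = (σ : BB) • y := by
        apply NumberField.RingOfIntegers.coe_injective
        have h5 := LCMainx925.coe_smul_int (j σ) y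
        have h6 := LCMainx925.coe_smul_int (σ : BB) y
        have h7 : (j σ) (y : Om) = (σ : BB) (y : Om) := by
          rw [← hi, hij]
        exact h5.trans (h7.trans h6.symm)
      rw [h4]
      exact h3
    · have h3 : ((D.α σ)⁻¹ * (γ⁻¹ * β * γ)) x = x := h2 ⟨x, hN x hx⟩
      rw [MonoidHom.comp_apply, hij]
      have h4 : (γ⁻¹ * β * γ) x = D.α σ x := by
        calc (γ⁻¹ * β * γ) x = (D.α σ * ((D.α σ)⁻¹ * (γ⁻¹ * β * γ))) x := by
              rw [mul_inv_cancel_left]
          _ = D.α σ x := by rw [AlgEquiv.mul_apply, h3]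
      rw [← h4, inv_inv]
      rfl
  obtain ⟨e, he⟩ := theoremU hsq (D.α.comp i) hcont FDAdaptx389.fd_univ N₀ hHU
  refine ⟨e, fun g x => ?_⟩
  have h1 := he (j g) x
  rw [← hi, hij] at h1
  rw [h1, MonoidHom.comp_apply, hij]

end Crest.Agent.R018.TheoremUx819
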