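import Crest.Agent.R018.Wire_819
import Crest.Agent.R018.LocT_31
import Crest.Agent.R018.CC_656
import Crest.Agent.R018.CoreBad_863
import Crest.Agent.R018.BadFin_863
import Crest.Agent.R018.ProbeEx_658
import Crest.Agent.R018.LocInst_925

/-!
# Row 18: THEOREM A (unconditional) (helper819)
-/

set_option autoImplicit false

namespace Crest.Agent.R018.ThmAx819

open Crest.Agent.R018.Corex74

theorem cc : CC :=
  CCx656.cc_of CoreDx820.ndLevel_holds LemmaGx791.lemmaG_holds ProbeExx658.probeEx_holds
    LocTx31.locT CoreFx656.F3_holds CoreFx656.F4_holds F56x791.F5_holds F56x791.F6_holds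
    CoreFx656.F7_holds F9x530.F9_holds

/-- **THEOREM A** -/
theorem theoremA : TheoremA :=
  Wirex819.theoremA_of LocTx31.locT (BadFinx863.badFinite_of LocTx31.locT)
    (CoreBadx863.badBound_of LocTx31.locT) ProbeExx658.probeEx_holds cc

end Crest.Agent.R018.ThmAx819
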