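import Crest.Agent.R018.Step2C_924
import Crest.Agent.R018.Core_74

/-!
# Row 18: top wiring, `Sv = Qs` and Theorem A of Core_74 => S0024 (helper924)
-/

set_option autoImplicit false

open Crest.NumberTheoryR Crest.Agent.R018.EndDefx924 Crest.Agent.R018.Corex74
open Crest.Agent.R018.Step2x924 (Qs TheoremAFor LOC qs_le_range qs_isSolvablyClosed)

universe u₁ u₂ v₁ v₂

namespace Crest.Agent.R018.Topx924

theorem sv_eq : Sv = Qs := by
  apply le_antisymm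
  · have hQ : Normal ℚ Qs ∧ IsSolvablyClosed Qs :=
      ⟨Crest.Agent.R018.Step2x924.qs_isGalois.to_normal, qs_isSolvablyClosed⟩
    exact iInf_le (fun E : SvFam => E.1) ⟨Qs, hQ⟩
  · refine le_iInf fun E => ?_
    intro x hx
    obtain ⟨y, hy⟩ := qs_le_range (E := E.1) E.2.2 (algebraMap E.1 Om) x hx
    rw [← hy]
    exact y.2

theorem sv_isSolvablyClosed : IsSolvablyClosed Sv := by
  rw [sv_eq]
  exact qs_isSolvablyClosed

/-- Theorem A of `Core_74` gives Theorem A in the form of STEP 2. -/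
theorem theoremAFor_of_core (h : Crest.Agent.R018.Corex74.TheoremA) :
    ∀ G₁ : Subgroup (Om ≃ₐ[ℚ] Om), IsOpen (G₁ : Set (Om ≃ₐ[ℚ] Om)) → TheoremAFor Qs G₁ := by
  rw [← sv_eq]
  intro G₁ hG₁ α hα hopen
  obtain ⟨t, ht⟩ := h ⟨G₁, hG₁, α, hα, hopen⟩
  refine ⟨(algebraMap Sv Om).comp (t : Sv →+* Sv), fun g x => ?_⟩
  have h1 : α g = t⁻¹ * res (g : BB) * t := ht g
  have h2 : t (α g x) = res (g : BB) (t x) := by
    rw [h1]
    change t (t⁻¹ (res (g : BB) (t x))) = _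
    rw [← AlgEquiv.mul_apply, mul_inv_cancel, AlgEquiv.one_apply]
  change (g : Om ≃ₐ[ℚ] Om) (algebraMap Sv Om (t x)) = algebraMap Sv Om (t (α g x))
  rw [h2]
  exact (AlgEquiv.restrictNormal_commutes (g : Om ≃ₐ[ℚ] Om) Sv (t x)).symm

/-- **S0024** from Theorem A of `Core_74` and the local correspondence. -/
theorem s0024_of_core (hA : Crest.Agent.R018.Corex74.TheoremA) (hloc : LOC.{u₁, v₂, v₂})
    (F₁ : Type u₁) (F₂ : Type u₂) (E₁ : Type v₁) (E₂ : Type v₂) [Field F₁] [NumberField F₁]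
    [Field F₂] [NumberField F₂] [Field E₁] [Algebra F₁ E₁] [IsGalois F₁ E₁] [Field E₂]
    [Algebra F₂ E₂] [IsGalois F₂ E₂] (h₂ : IsSolvablyClosed E₂)
    (α : (E₁ ≃ₐ[F₁] E₁) →* (E₂ ≃ₐ[F₂] E₂)) (hα : Continuous α) (hopen : IsOpen (Set.range α)) :
    ∃ j : E₂ →+* E₁, ∀ g : E₁ ≃ₐ[F₁] E₁, ∀ x : E₂, g (j x) = j (α g x) :=
  Crest.Agent.R018.Redx49.of_coreForm
    (Crest.Agent.R018.Step2x924.coreForm_of_qs (theoremAFor_of_core hA) hloc)
    F₁ F₂ E₁ E₂ h₂ α hα hopen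

end Crest.Agent.R018.Topx924
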