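import Crest.Agent.R018.Ver_568

/-!
Row 18, PROP TR, group theoretic half (helper793): `N` normal in `G`, `N ≤ H`, `H / N` generated by
`g1`; the transfer `H → A` of `a : N → A`.
-/

set_option autoImplicit false

namespace Crest.Agent.R018.V3Gx793

open MonoidHom Subgroup

variable {G : Type*} [Group G] {A : Type*} [CommGroup A]

/-- the homomorphism `a : N → A` on `N` as a subgroup of `H` -/
def aH {N : Subgroup G} (H : Subgroup G) (a : N →* A) : N.subgroupOf H →* A :=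
  a.comp
    { toFun := fun x => ⟨(x : H), Subgroup.mem_subgroupOf.1 x.2⟩
      map_one' := rfl
      map_mul' := fun _ _ => rfl }

theorem aH_apply {N : Subgroup G} (H : Subgroup G) (a : N →* A) (x : N.subgroupOf H) :
    aH H a x = a ⟨(x : H), Subgroup.mem_subgroupOf.1 x.2⟩ := rfl

theorem conj_mem {N : Subgroup G} [N.Normal] {x : G} (hx : x ∈ N) (g : G) : g⁻¹ * x * g ∈ N := by
  have := Subgroup.Normal.conj_mem (inferInstance : N.Normal) x hx g⁻¹
  simpa using this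

theorem a_conj_mem {N : Subgroup G} [N.Normal] (a : N →* A) {x : G} (hx : x ∈ N) {y : G}
    (hy : y ∈ N) : a ⟨y⁻¹ * x * y, conj_mem hx y⟩ = a ⟨x, hx⟩ := by
  have h1 : (⟨y⁻¹ * x * y, conj_mem hx y⟩ : N) = (⟨y, hy⟩ : N)⁻¹ * ⟨x, hx⟩ * ⟨y, hy⟩ := rfl
  rw [h1, map_mul, map_mul, map_inv, mul_right_comm, inv_mul_cancel, one_mul]

variable {N : Subgroup G} [N.Normal] {H : Subgroup G} {g1 : G}

/-- the transfer vanishes at `F`, `F ≡ g1` modulo `N`, as soon as `a (F ^ n) = 1` -/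
theorem transfer_frob [(N.subgroupOf H).FiniteIndex]
    (hH : ∀ h ∈ H, ∃ k : ℤ, (g1 ^ k)⁻¹ * h ∈ N) (a : N →* A)
    (htf : ∀ (x : A) (n : ℕ), 0 < n → x ^ n = 1 → x = 1)
    (F : G) (hFH : F ∈ H) (hF : g1⁻¹ * F ∈ N) (n : ℕ) (hn : 0 < n) (hFn : F ^ n ∈ N)
    (ha : a ⟨F ^ n, hFn⟩ = 1) : transfer (aH H a) ⟨F, hFH⟩ = 1 := by
  refine Verx568.transfer_eq_one_of_mem (aH H a) (Subgroup.zpowers ⟨F, hFH⟩) ?_ ?_ _
    (Subgroup.mem_zpowers _)
  · rintro ⟨h, hh⟩
    obtain ⟨k, hk⟩ := hH h hh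
    refine ⟨⟨F, hFH⟩ ^ k, Subgroup.zpow_mem_zpowers _ _, ?_⟩
    rw [Subgroup.mem_subgroupOf]
    have h1 : ((F : G) : G ⧸ N) = (g1 : G ⧸ N) := by
      rw [eq_comm, QuotientGroup.eq]; exact hF
    have h2 : ((F ^ k : G) : G ⧸ N) = ((g1 ^ k : G) : G ⧸ N) := by
      rw [QuotientGroup.mk_zpow, QuotientGroup.mk_zpow, h1]
    have h3 : ((g1 ^ k : G) : G ⧸ N) = (h : G ⧸ N) := QuotientGroup.eq.2 hk
    have h4 : ((F ^ k : G) : G ⧸ N) = (h : G ⧸ N) := h2.trans h3
    simpa using QuotientGroup.eq.1 h4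
  · rintro ⟨h, hh⟩ hhN ⟨k, hk⟩
    have hk' : F ^ k = h := congrArg Subtype.val hk
    have hhN' : h ∈ N := Subgroup.mem_subgroupOf.1 hhN
    rw [aH_apply]
    apply htf _ n hn
    have h1 : (⟨h, hhN'⟩ : N) ^ n = (⟨F ^ n, hFn⟩ : N) ^ k := by
      apply Subtype.ext
      push_cast
      rw [← hk', ← zpow_natCast, ← zpow_natCast, ← zpow_mul, ← zpow_mul, mul_comm]
    have h2 : a ⟨h, hhN'⟩ ^ n = 1 := by
      rw [← map_pow, h1, map_zpow, ha, one_zpow]
    exact h2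

/-- the transfer of an element of `N` is a power of the product over `range n` -/
theorem prod_eq_one [(N.subgroupOf H).FiniteIndex] (hNH : N ≤ H) (hg1 : g1 ∈ H)
    (hH : ∀ h ∈ H, ∃ k : ℤ, (g1 ^ k)⁻¹ * h ∈ N) (a : N →* A)
    (n : ℕ) (hn : 0 < n) (hg1n : g1 ^ n ∈ N) (x : G) (hx : x ∈ N)
    (hx1 : transfer (aH H a) ⟨x, hNH hx⟩ = 1) :
    ∏ i ∈ Finset.range n, a ⟨(g1 ^ i)⁻¹ * x * (g1 ^ i), conj_mem hx _⟩ = 1 := by
  classical
  have hex : ∃ o, 0 < o ∧ g1 ^ o ∈ N := ⟨n, hn, hg1n⟩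
  set o := Nat.find hex with ho
  have ho0 : 0 < o := (Nat.find_spec hex).1
  have hoN : g1 ^ o ∈ N := (Nat.find_spec hex).2
  have hmin : ∀ j, j < o → 0 < j → g1 ^ j ∉ N := fun j hj h0 h1 => Nat.find_min hex hj ⟨h0, h1⟩
  let c : ℕ → A := fun i => a ⟨(g1 ^ i)⁻¹ * x * (g1 ^ i), conj_mem hx _⟩
  -- periodicity
  have hper : ∀ i, c (i + o) = c i := by
    intro i
    have h1 := a_conj_mem a (conj_mem hx (g1 ^ i)) hoN
    refine Eq.trans ?_ h1
    simp only [c]
    congr 1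
    apply Subtype.ext
    simp only [pow_add, mul_inv_rev, mul_assoc]
  -- o divides n
  have hdvd : o ∣ n := by
    by_contra hnd
    have h1 : 0 < n % o := Nat.pos_of_ne_zero fun h => hnd (Nat.dvd_of_mod_eq_zero h)
    have h2 := Nat.mod_lt n ho0
    apply hmin _ h2 h1
    have h3 : g1 ^ n = (g1 ^ o) ^ (n / o) * g1 ^ (n % o) := by
      rw [← pow_mul, ← pow_add, Nat.div_add_mod]
    have h4 : g1 ^ (n % o) = ((g1 ^ o) ^ (n / o))⁻¹ * g1 ^ n := by
      rw [h3]; group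
    rw [h4]
    exact N.mul_mem (N.inv_mem (N.pow_mem hoN _)) hg1n
  obtain ⟨m, hm⟩ := hdvd
  have hrange : ∀ m, ∏ i ∈ Finset.range (o * m), c i = (∏ i ∈ Finset.range o, c i) ^ m := by
    intro m
    induction m with
    | zero => simp
    | succ m ih =>
      rw [Nat.mul_succ, Finset.prod_range_add, ih, pow_succ]
      congr 1
      refine Finset.prod_congr rfl fun i _ => ?_
      have : ∀ m, c (o * m + i) = c i := by
        intro m
        induction m with
        | zero => simp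
        | succ m ih =>
          rw [Nat.mul_succ, add_right_comm, hper, ih]
      exact this m
  change ∏ i ∈ Finset.range n, c i = 1
  rw [hm, hrange]
  -- now the transfer
  have : Fintype (H ⧸ N.subgroupOf H) := (N.subgroupOf H).fintypeQuotientOfFiniteIndex
  let t : H ⧸ N.subgroupOf H → H := Quotient.out
  have ht : ∀ q, (t q : H ⧸ N.subgroupOf H) = q := fun q => QuotientGroup.out_eq' q
  rw [Verx568.transfer_of_normal (aH H a) t ht ⟨x, hNH hx⟩ (Subgroup.mem_subgroupOf.2 hx)] at hx1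
  let φ : Fin o → H ⧸ N.subgroupOf H := fun i => ((⟨g1, hg1⟩ ^ (i : ℕ) : H) : H ⧸ N.subgroupOf H)
  have hφ : Function.Bijective φ := by
    constructor
    · have key : ∀ i j : Fin o, (i : ℕ) ≤ j → φ i = φ j → i = j := by
        intro i j hij h
        have h1 := QuotientGroup.eq.1 h
        rw [Subgroup.mem_subgroupOf] at h1
        have h2 : ((((⟨g1, hg1⟩ : H) ^ (i : ℕ))⁻¹ * (⟨g1, hg1⟩ : H) ^ (j : ℕ) : H) : G) =
            g1 ^ ((j : ℕ) - i) := by
          push_cast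
          rw [inv_mul_eq_iff_eq_mul, ← pow_add]
          congr 1
          omega
        rw [h2] at h1
        by_contra hne
        have h3 : (i : ℕ) ≠ j := fun h => hne (Fin.ext h)
        exact hmin _ (by omega) (by omega) h1
      intro i j h
      rcases le_total (i : ℕ) j with hij | hij
      · exact key i j hij h
      · exact (key j i hij h.symm).symm
    · intro q
      obtain ⟨⟨h, hh⟩, rfl⟩ := QuotientGroup.mk_surjective q
      obtain ⟨k, hk⟩ := hH h hh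
      have hpos : (0 : ℤ) < o := by exact_mod_cast ho0
      have h1 := Int.emod_nonneg k hpos.ne'
      have h2 := Int.emod_lt_of_pos k hpos
      refine ⟨⟨(k % o).toNat, by omega⟩, ?_⟩
      rw [QuotientGroup.eq, Subgroup.mem_subgroupOf]
      have h3 : g1 ^ k = (g1 ^ (o : ℕ)) ^ (k / o) * g1 ^ ((k % o).toNat) := by
        have h4 : ((k % o).toNat : ℤ) = k % o := Int.toNat_of_nonneg h1
        have h5 : g1 ^ ((k % o).toNat) = g1 ^ (k % (o : ℤ)) := by
          rw [← zpow_natCast, h4]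
        rw [h5, ← zpow_natCast, ← zpow_mul, ← zpow_add, Int.mul_ediv_add_emod]
      have h6 : ((((⟨g1, hg1⟩ : H) ^ ((k % o).toNat))⁻¹ * (⟨h, hh⟩ : H) : H) : G) =
          (g1 ^ ((k % o).toNat))⁻¹ * h := by
        push_cast; rfl
      change ((((⟨g1, hg1⟩ : H) ^ ((k % o).toNat))⁻¹ * (⟨h, hh⟩ : H) : H) : G) ∈ N
      rw [h6]
      have h7 : (g1 ^ ((k % o).toNat))⁻¹ * h =
          (((g1 ^ ((k % o).toNat))⁻¹ * ((g1 ^ (o : ℕ)) ^ (k / o))⁻¹ * (g1 ^ ((k % o).toNat))))⁻¹ *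
            ((g1 ^ k)⁻¹ * h) := by
        rw [h3]; group
      rw [h7]
      refine N.mul_mem (N.inv_mem ?_) hk
      exact conj_mem (N.inv_mem (N.zpow_mem hoN _)) _
  have hprod : ∏ i : Fin o, c i = 1 := by
    rw [← hx1]
    refine Fintype.prod_bijective φ hφ _ _ ?_
    intro i
    rw [aH_apply]
    have h1 : (t (φ i) : H ⧸ N.subgroupOf H) = ((⟨g1, hg1⟩ ^ (i : ℕ) : H) : H ⧸ N.subgroupOf H) :=
      ht _
    have h2 := QuotientGroup.eq.1 h1.symm
    rw [Subgroup.mem_subgroupOf] at h2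
    set y : G := ((((⟨g1, hg1⟩ : H) ^ (i : ℕ))⁻¹ * t (φ i) : H) : G) with hy
    have h3 : ((t (φ i) : H) : G) = g1 ^ (i : ℕ) * y := by
      rw [hy]; push_cast; group
    have h4 := a_conj_mem a (conj_mem hx (g1 ^ (i : ℕ))) h2
    simp only [c]
    rw [← h4]
    congr 1
    apply Subtype.ext
    change _ = (((t (φ i))⁻¹ * (⟨x, hNH hx⟩ : H) * t (φ i) : H) : G)
    push_cast
    rw [h3]
    group
  rw [← Finset.prod_range (fun i => c i)] at hprod
  rw [hprod, one_pow]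

end Crest.Agent.R018.V3Gx793
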