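import Mathlib

/-!
Row 18: the transfer (Verlagerung) `G → A` of a homomorphism `ϕ : H → A`, `H ≤ G` of finite index
(helper568).

* `transfer_eq_prod`       : formula with an arbitrary section `t : G ⧸ H → G`
* `transfer_of_normal`     : `H` normal, `h ∈ H`: the product of all conjugates
* `transfer_eq_one_of_mem` : if `D` acts transitively on `G ⧸ H` and `ϕ = 1` on `D ⊓ H` then the
  transfer is trivial on `D`
* `continuous_transfer`    : `H` open, `ϕ` continuous ⇒ the transfer is continuous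
-/

set_option autoImplicit false

namespace Crest.Agent.R018.Verx568

open MonoidHom Subgroup Subgroup.leftTransversals

variable {G : Type*} [Group G] {H : Subgroup G} {A : Type*} [CommGroup A] (ϕ : H →* A)

theorem section_mem (t : G ⧸ H → G) (ht : ∀ q, (t q : G ⧸ H) = q) (g : G) (q : G ⧸ H) :
    (t q)⁻¹ * (g * t (g⁻¹ • q)) ∈ H := by
  rw [← QuotientGroup.eq, ht]
  have h1 : ((g * t (g⁻¹ • q) : G) : G ⧸ H) = g • ((t (g⁻¹ • q) : G) : G ⧸ H) := rfl
  rw [h1, ht, smul_inv_smul]

/-- The transfer computed with an arbitrary section. -/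
theorem transfer_eq_prod [H.FiniteIndex] [Fintype (G ⧸ H)] (t : G ⧸ H → G)
    (ht : ∀ q, (t q : G ⧸ H) = q) (g : G) :
    transfer ϕ g = ∏ q : G ⧸ H, ϕ ⟨(t q)⁻¹ * (g * t (g⁻¹ • q)), section_mem t ht g q⟩ := by
  classical
  let T : H.LeftTransversal := ⟨Set.range t, isComplement_range_left ht⟩
  have hT : ∀ q, ((T.2.leftQuotientEquiv q : _) : G) = t q := fun q =>
    IsComplement.leftQuotientEquiv_apply ht q
  rw [transfer_def ϕ T g]
  unfold diff
  have h0 : ∀ (i j : Fintype (G ⧸ H)) (f f' : G ⧸ H → A), (∀ q, f q = f' q) →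
      (@Finset.prod _ _ _ (@Finset.univ _ i) f) = (@Finset.prod _ _ _ (@Finset.univ _ j) f') := by
    intro i j f f' hf
    have : i = j := Subsingleton.elim _ _
    subst this
    exact Finset.prod_congr rfl (fun q _ => hf q)
  apply h0
  intro q
  congr 1
  apply Subtype.ext
  change ((T.2.leftQuotientEquiv q : _) : G)⁻¹ * (((g • T).2.leftQuotientEquiv q : _) : G) = _
  rw [smul_apply_eq_smul_apply_inv_smul, hT, hT]
  rfl

/-- For `h ∈ H`, `H` normal, the transfer is the product over the conjugates. -/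
theorem transfer_of_normal [H.Normal] [H.FiniteIndex] [Fintype (G ⧸ H)] (t : G ⧸ H → G)
    (ht : ∀ q, (t q : G ⧸ H) = q) (h : G) (hh : h ∈ H) :
    transfer ϕ h = ∏ q : G ⧸ H, ϕ ⟨(t q)⁻¹ * h * t q, by
      have := Subgroup.Normal.conj_mem (inferInstance : H.Normal) h hh (t q)⁻¹
      simpa using this⟩ := by
  rw [transfer_eq_prod ϕ t ht]
  apply Finset.prod_congr rfl
  intro q _
  congr 1
  apply Subtype.ext
  change (t q)⁻¹ * (h * t (h⁻¹ • q)) = (t q)⁻¹ * h * t q
  have h1 : h⁻¹ • q = q := by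
    obtain ⟨x, rfl⟩ := QuotientGroup.mk_surjective q
    change ((h⁻¹ * x : G) : G ⧸ H) = x
    rw [QuotientGroup.eq]
    have := Subgroup.Normal.conj_mem (inferInstance : H.Normal) h hh x⁻¹
    simpa using this
  rw [h1, mul_assoc]

/-- If the section takes values in `D` and `ϕ = 1` on `D ⊓ H`, the transfer is `1` on `D`. -/
theorem transfer_eq_one_of_section [H.FiniteIndex] (D : Subgroup G) (t : G ⧸ H → G)
    (ht : ∀ q, (t q : G ⧸ H) = q) (htD : ∀ q, t q ∈ D)
    (hD : ∀ h (hh : h ∈ H), h ∈ D → ϕ ⟨h, hh⟩ = 1) (g : G) (hg : g ∈ D) :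
    transfer ϕ g = 1 := by
  have : Fintype (G ⧸ H) := H.fintypeQuotientOfFiniteIndex
  rw [transfer_eq_prod ϕ t ht]
  apply Finset.prod_eq_one
  intro q _
  exact hD _ _ (D.mul_mem (D.inv_mem (htD _)) (D.mul_mem hg (htD _)))

/-- If `G = D H` and `ϕ = 1` on `D ⊓ H`, the transfer is `1` on `D`. -/
theorem transfer_eq_one_of_mem [H.FiniteIndex] (D : Subgroup G)
    (hDH : ∀ g : G, ∃ d ∈ D, d⁻¹ * g ∈ H)
    (hD : ∀ h (hh : h ∈ H), h ∈ D → ϕ ⟨h, hh⟩ = 1) (g : G) (hg : g ∈ D) :
    transfer ϕ g = 1 := by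
  have h1 : ∀ q : G ⧸ H, ∃ d : G, d ∈ D ∧ (d : G ⧸ H) = q := by
    intro q
    obtain ⟨x, rfl⟩ := QuotientGroup.mk_surjective q
    obtain ⟨d, hd, hdx⟩ := hDH x
    exact ⟨d, hd, QuotientGroup.eq.2 hdx⟩
  choose t htD ht using h1
  exact transfer_eq_one_of_section ϕ D t ht htD hD g hg

section top

variable [TopologicalSpace G] [IsTopologicalGroup G] [TopologicalSpace A] [IsTopologicalGroup A]

/-- The transfer of a continuous homomorphism on an open subgroup of finite index is continuous. -/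
theorem continuous_transfer [H.FiniteIndex] (hH : IsOpen (H : Set G)) (hϕ : Continuous ϕ) :
    Continuous (transfer ϕ) := by
  classical
  have : Fintype (G ⧸ H) := H.fintypeQuotientOfFiniteIndex
  let t : G ⧸ H → G := Quotient.out
  have ht : ∀ q, (t q : G ⧸ H) = q := fun q => QuotientGroup.out_eq' q
  -- extension by one
  let ψ : G → A := fun g => if h : g ∈ H then ϕ ⟨g, h⟩ else 1
  have hψ : ContinuousAt ψ 1 := by
    have h1 : ContinuousOn ψ (H : Set G) := by
      rw [continuousOn_iff_continuous_domRestrict]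
      have h2 : (H : Set G).domRestrict ψ = fun g : H => ϕ g := by
        funext g
        simp only [Set.domRestrict_apply, ψ]
        exact dif_pos g.2
      rw [h2]
      exact hϕ
    exact h1.continuousAt (hH.mem_nhds H.one_mem)
  have hf : ContinuousAt (fun g : G => ∏ q : G ⧸ H, ψ ((t q)⁻¹ * g * t q)) 1 := by
    apply tendsto_finsetProd
    intro q _
    have h1 : ContinuousAt (fun g : G => (t q)⁻¹ * g * t q) 1 := by fun_prop
    have h2 : (t q)⁻¹ * 1 * t q = 1 := by group
    have h3 : ContinuousAt ψ ((fun g : G => (t q)⁻¹ * g * t q) 1) := by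
      change ContinuousAt ψ ((t q)⁻¹ * 1 * t q)
      rw [h2]; exact hψ
    exact ContinuousAt.comp (f := fun g : G => (t q)⁻¹ * g * t q) (x := 1) h3 h1
  apply continuous_of_continuousAt_one
  refine hf.congr ?_
  have hopen : ∀ᶠ g in nhds (1 : G), ∀ q : G ⧸ H, (t q)⁻¹ * g * t q ∈ H := by
    rw [Filter.eventually_all]
    intro q
    have h1 : ContinuousAt (fun g : G => (t q)⁻¹ * g * t q) 1 := by fun_prop
    have h2 : (t q)⁻¹ * 1 * t q = 1 := by group
    have h3 : (H : Set G) ∈ nhds ((t q)⁻¹ * 1 * t q) := by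
      rw [h2]; exact hH.mem_nhds H.one_mem
    exact h1.eventually h3
  filter_upwards [hopen] with g hg
  rw [transfer_eq_prod ϕ t ht]
  apply Finset.prod_congr rfl
  intro q _
  have h1 : g⁻¹ • q = q := by
    conv_lhs => rw [← ht q]
    conv_rhs => rw [← ht q]
    change ((g⁻¹ * t q : G) : G ⧸ H) = t q
    rw [QuotientGroup.eq, mul_inv_rev, inv_inv]
    exact hg q
  simp only [ψ]
  rw [dif_pos (hg q)]
  congr 1
  apply Subtype.ext
  change (t q)⁻¹ * g * t q = (t q)⁻¹ * (g * t (g⁻¹ • q))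
  rw [h1, mul_assoc]

end top

end Crest.Agent.R018.Verx568
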