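import Crest.Agent.R018.WDet_410

/-!
# Row 18: the entries of the interpolation matrix (helper410, block W2)
-/

set_option autoImplicit false

namespace Crest.Agent.R018.WBin410

open Crest.Agent.R018.WDet410

variable {R : Type*} [CommRing R]

theorem one_add_pow_eq (b : R) (z B : ℕ) (h : z < B) :
    (1 + b) ^ z = ∑ i ∈ Finset.range B, b ^ i * (z.choose i : R) := by
  rw [add_comm, add_pow]
  have h1 : Finset.range (z + 1) ⊆ Finset.range B := Finset.range_subset_range.mpr h
  rw [← Finset.sum_subset h1]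
  · apply Finset.sum_congr rfl
    intro i _
    rw [one_pow, mul_one]
  · intro i _ hi
    rw [Finset.mem_range, not_lt] at hi
    rw [Nat.choose_eq_zero_of_lt (by omega)]
    simp

theorem prod_one_add_pow {r : ℕ} (b : Fin r → R) (z : Fin r → ℕ) (B : ℕ) (h : ∀ i, z i < B) :
    ∏ i, (1 + b i) ^ z i = ∑ k ∈ Fintype.piFinset (fun _ : Fin r => Finset.range B),
      (∏ i, b i ^ k i) * (∏ i, ((z i).choose (k i) : R)) := by
  rw [Finset.prod_congr rfl fun i _ => one_add_pow_eq (b i) (z i) B (h i)]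
  rw [Finset.prod_univ_sum]
  apply Finset.sum_congr rfl
  intro k _
  rw [Finset.prod_mul_distrib]

theorem prod_pow_mem {r : ℕ} (I : Ideal R) (b : Fin r → R) (hb : ∀ i, b i ∈ I)
    (k : Fin r → ℕ) : ∏ i, b i ^ k i ∈ I ^ deg k := by
  rw [deg, ← Finset.prod_pow_eq_pow_sum]
  exact Ideal.prod_mem_prod fun i _ => Ideal.pow_mem_pow (hb i) _

theorem prod_pow_sub_one_mem {ι : Type*} (s : Finset ι) (I : Ideal R) (c : ι → R) (l : ι → ℕ)
    (hc : ∀ i ∈ s, c i - 1 ∈ I) : (∏ i ∈ s, c i ^ l i) - 1 ∈ I := by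
  rw [← Ideal.Quotient.eq, map_prod, map_one]
  apply Finset.prod_eq_one
  intro i hi
  rw [map_pow, (Ideal.Quotient.eq (I := I)).mpr (hc i hi), map_one, one_pow]

/-- **Determinant congruence.**  `g s j` are the conjugates of the `y_j`, congruent mod `I^e` to
products of `r` elements `c s k ≡ 1 mod I` with exponents independent of `s`. -/
theorem det_mem_of_congr {Λ S J : Type*} [Fintype Λ] [DecidableEq Λ] [Fintype S] [Fintype J]
    {r : ℕ} (I : Ideal R) (e m : ℕ) (g : S → J → R) (c : S → Fin r → R) (a : J → Fin r → ℕ)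
    (hc : ∀ s k, c s k - 1 ∈ I) (hg : ∀ s j, g s j - ∏ k, c s k ^ a j k ∈ I ^ e)
    (lam : Λ → S → ℕ) (tt : Λ → J → ℕ) (he : m * (Fintype.card Λ - m ^ r) ≤ e) :
    (Matrix.of fun l t : Λ => ∏ s, ∏ j, g s j ^ (lam l s * tt t j)).det
      ∈ I ^ (m * (Fintype.card Λ - m ^ r)) := by
  classical
  -- the exponents
  set z : Λ → Fin r → ℕ := fun t k => ∑ j, tt t j * a j k with hz
  set b : Λ → Fin r → R := fun l k => (∏ s, c s k ^ lam l s) - 1 with hb
  have hbI : ∀ l k, b l k ∈ I := by
    intro l k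
    exact prod_pow_sub_one_mem _ I _ _ fun s _ => hc s k
  obtain ⟨B, hB⟩ : ∃ B : ℕ, ∀ t k, z t k < B := by
    refine ⟨(∑ t, ∑ k, z t k) + 1, fun t k => ?_⟩
    have h1 : z t k ≤ ∑ k, z t k :=
      Finset.single_le_sum (f := fun k => z t k) (fun _ _ => Nat.zero_le _) (Finset.mem_univ k)
    have h2 : ∑ k, z t k ≤ ∑ t, ∑ k, z t k :=
      Finset.single_le_sum (f := fun t => ∑ k, z t k) (fun _ _ => Nat.zero_le _)
        (Finset.mem_univ t)
    omega
  apply det_mem' I m e (Fintype.piFinset (fun _ : Fin r => Finset.range B))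
    (fun l k => ∏ i, b l i ^ k i) (fun k t => ∏ i, ((z t i).choose (k i) : R))
    (fun l k => prod_pow_mem I _ (hbI l) k) _ _ he
  intro l t
  rw [← prod_one_add_pow (b l) (z t) B (hB t)]
  rw [← Ideal.Quotient.eq, Matrix.of_apply]
  have h1 : ∀ k, 1 + b l k = ∏ s, c s k ^ lam l s := by
    intro k
    simp [hb]
  simp only [h1]
  have h2 : ∀ s j, (Ideal.Quotient.mk (I ^ e)) (g s j)
      = (Ideal.Quotient.mk (I ^ e)) (∏ k, c s k ^ a j k) := fun s j =>
    Ideal.Quotient.eq.mpr (hg s j)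
  rw [map_prod, map_prod]
  simp only [map_prod, map_pow, h2]
  simp only [← map_pow, ← map_prod]
  congr 1
  -- pure ring identity
  calc ∏ s, ∏ j, (∏ k, c s k ^ a j k) ^ (lam l s * tt t j)
      = ∏ s, ∏ j, ∏ k, (c s k ^ lam l s) ^ (tt t j * a j k) := by
        apply Finset.prod_congr rfl
        intro s _
        apply Finset.prod_congr rfl
        intro j _
        rw [← Finset.prod_pow]
        apply Finset.prod_congr rfl
        intro k _
        rw [← pow_mul, ← pow_mul]
        congr 1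
        ring
    _ = ∏ s, ∏ k, ∏ j, (c s k ^ lam l s) ^ (tt t j * a j k) := by
        apply Finset.prod_congr rfl
        intro s _
        rw [Finset.prod_comm]
    _ = ∏ k, ∏ s, ∏ j, (c s k ^ lam l s) ^ (tt t j * a j k) := Finset.prod_comm
    _ = ∏ k, (∏ s, c s k ^ lam l s) ^ z t k := by
        apply Finset.prod_congr rfl
        intro k _
        rw [← Finset.prod_pow]
        apply Finset.prod_congr rfl
        intro s _
        rw [Finset.prod_pow_eq_pow_sum]

end Crest.Agent.R018.WBin410
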