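import Mathlib

/-!
# Row 18: congruence bound for interpolation determinants (helper410, block W2)

`M_{l,t} = ∑_{κ ∈ F} u_{l,κ} v_{κ,t}` with `u_{l,κ} ∈ I^{|κ|}`, `κ ∈ ℕ^r`.  Then
`det M ∈ I^(m (N - m^r))`, `N` the size of the matrix.
-/

set_option autoImplicit false

namespace Crest.Agent.R018.WDet410

variable {R : Type*} [CommRing R]

/-- The total degree of a multi-index. -/
def deg {r : ℕ} (k : Fin r → ℕ) : ℕ := ∑ i, k i

theorem card_filter_deg_lt {r : ℕ} (m : ℕ) (A : Finset (Fin r → ℕ))
    (h : ∀ k ∈ A, deg k < m) : A.card ≤ m ^ r := by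
  have h1 : A ⊆ Fintype.piFinset (fun _ : Fin r => Finset.range m) := by
    intro k hk
    rw [Fintype.mem_piFinset]
    intro i
    rw [Finset.mem_range]
    exact lt_of_le_of_lt (Finset.single_le_sum (f := k) (fun _ _ => Nat.zero_le _)
      (Finset.mem_univ i)) (h k hk)
  refine (Finset.card_le_card h1).trans ?_
  rw [Fintype.card_piFinset]
  simp

/-- `N` distinct multi-indices have total degree at least `m (N - m^r)`. -/
theorem sum_deg_ge {Λ : Type*} [Fintype Λ] {r : ℕ} (m : ℕ) (p : Λ → Fin r → ℕ)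
    (hp : Function.Injective p) : m * (Fintype.card Λ - m ^ r) ≤ ∑ l, deg (p l) := by
  classical
  have h1 : (Finset.univ.filter fun l => deg (p l) < m).card ≤ m ^ r := by
    have h2 : ((Finset.univ.filter fun l => deg (p l) < m).image p).card ≤ m ^ r := by
      apply card_filter_deg_lt
      intro k hk
      rw [Finset.mem_image] at hk
      obtain ⟨l, hl, rfl⟩ := hk
      exact (Finset.mem_filter.mp hl).2
    rwa [Finset.card_image_of_injective _ hp] at h2
  have h3 : (Finset.univ.filter fun l => deg (p l) < m).card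
      + (Finset.univ.filter fun l => ¬ deg (p l) < m).card = Fintype.card Λ := by
    rw [Finset.card_filter_add_card_filter_not]
    rfl
  calc m * (Fintype.card Λ - m ^ r)
      ≤ m * (Finset.univ.filter fun l => ¬ deg (p l) < m).card := by
        apply Nat.mul_le_mul_left
        omega
    _ = ∑ l ∈ Finset.univ.filter (fun l => ¬ deg (p l) < m), m := by
        rw [Finset.sum_const, smul_eq_mul, mul_comm]
    _ ≤ ∑ l ∈ Finset.univ.filter (fun l => ¬ deg (p l) < m), deg (p l) := by
        apply Finset.sum_le_sum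
        intro l hl
        exact not_lt.mp (Finset.mem_filter.mp hl).2
    _ ≤ ∑ l, deg (p l) := by
        apply Finset.sum_le_sum_of_subset_of_nonneg (Finset.filter_subset _ _)
        intros; exact Nat.zero_le _

theorem det_mem {Λ : Type*} [Fintype Λ] [DecidableEq Λ] {r : ℕ} (I : Ideal R) (m : ℕ)
    (F : Finset (Fin r → ℕ)) (u : Λ → (Fin r → ℕ) → R) (v : (Fin r → ℕ) → Λ → R)
    (hu : ∀ l k, u l k ∈ I ^ deg k) :
    (Matrix.of fun l t => ∑ k ∈ F, u l k * v k t).det ∈ I ^ (m * (Fintype.card Λ - m ^ r)) := by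
  have h1 : (Matrix.of fun l t => ∑ k ∈ F, u l k * v k t).det
      = ∑ p ∈ Fintype.piFinset (fun _ : Λ => F),
        (∏ l, u l (p l)) * (Matrix.of fun l t => v (p l) t).det := by
    have h2 := (Matrix.detRowAlternating (n := Λ) (R := R)).toMultilinearMap.map_sum_finset
      (fun l k => u l k • v k) (fun _ => F)
    have h3 : (Matrix.of fun l t => ∑ k ∈ F, u l k * v k t).det
        = (Matrix.detRowAlternating (n := Λ) (R := R)).toMultilinearMap
          (fun l => ∑ k ∈ F, u l k • v k) := by
      show Matrix.det _ = Matrix.det _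
      congr 1
      ext l t
      simp [Finset.sum_apply]
    rw [h3, h2]
    apply Finset.sum_congr rfl
    intro p _
    rw [MultilinearMap.map_smul_univ, smul_eq_mul]
    rfl
  rw [h1]
  apply Ideal.sum_mem
  intro p _
  by_cases hp : Function.Injective p
  · apply Ideal.mul_mem_right
    refine Ideal.pow_le_pow_right (sum_deg_ge m p hp) ?_
    rw [← Finset.prod_pow_eq_pow_sum]
    exact Ideal.prod_mem_prod fun l _ => hu l (p l)
  · have h4 : (Matrix.of fun l t => v (p l) t).det = 0 := by
      rw [Function.Injective] at hp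
      push Not at hp
      obtain ⟨a, b, hab, hne⟩ := hp
      apply Matrix.det_zero_of_row_eq hne
      ext t
      simp [hab]
    rw [h4, mul_zero]
    exact Ideal.zero_mem _

/-- Congruent matrices have congruent determinants. -/
theorem det_sub_det_mem {Λ : Type*} [Fintype Λ] [DecidableEq Λ] (J : Ideal R)
    (M M' : Matrix Λ Λ R) (h : ∀ l t, M l t - M' l t ∈ J) : M.det - M'.det ∈ J := by
  rw [← Ideal.Quotient.eq, RingHom.map_det, RingHom.map_det]
  congr 1
  ext l t
  exact Ideal.Quotient.eq.mpr (h l t)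

/-- The form used: entries are congruent mod `I^e` to sums with `u_{l,κ} ∈ I^{|κ|}`. -/
theorem det_mem' {Λ : Type*} [Fintype Λ] [DecidableEq Λ] {r : ℕ} (I : Ideal R) (m e : ℕ)
    (F : Finset (Fin r → ℕ)) (u : Λ → (Fin r → ℕ) → R) (v : (Fin r → ℕ) → Λ → R)
    (hu : ∀ l k, u l k ∈ I ^ deg k) (M : Matrix Λ Λ R)
    (hM : ∀ l t, M l t - ∑ k ∈ F, u l k * v k t ∈ I ^ e)
    (he : m * (Fintype.card Λ - m ^ r) ≤ e) :
    M.det ∈ I ^ (m * (Fintype.card Λ - m ^ r)) := by
  have h1 := det_sub_det_mem (I ^ e) M (Matrix.of fun l t => ∑ k ∈ F, u l k * v k t) hM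
  have h2 := det_mem I m F u v hu
  have h3 := Ideal.add_mem _ (Ideal.pow_le_pow_right he h1) h2
  simpa using h3

end Crest.Agent.R018.WDet410
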