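import Crest.Agent.R018.WBin_410

/-!
# Row 18: Waldschmidt block, assembly (helper410, block W4)

No logarithms: everything is a congruence in the ring of integers of a number field.
-/

set_option autoImplicit false

namespace Crest.Agent.R018.WMain410

open NumberField Crest.Agent.R018.WDet410 Crest.Agent.R018.WBin410

section house

variable {K : Type*} [Field K] [NumberField K]

theorem house_prod_le' {ι : Type*} (s : Finset ι) (f : ι → K) :
    house (∏ i ∈ s, f i) ≤ ∏ i ∈ s, house (f i) := by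
  simp only [house, map_prod]
  exact Finset.norm_prod_le s _

theorem house_neg (x : K) : house (-x) = house x := by
  simp only [house, map_neg, norm_neg]

theorem house_det_le {L : Type*} [Fintype L] [DecidableEq L] (M : Matrix L L K) (B : ℝ)
    (hB : ∀ i j, house (M i j) ≤ B) :
    house M.det ≤ (Fintype.card L).factorial * B ^ (Fintype.card L) := by
  rw [Matrix.det_apply]
  refine (house_sum_le_sum_house _ _).trans ?_
  have h1 : ∀ σ ∈ (Finset.univ : Finset (Equiv.Perm L)),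
      house (Equiv.Perm.sign σ • ∏ i, M (σ i) i) ≤ B ^ (Fintype.card L) := by
    intro σ _
    have h2 : house (Equiv.Perm.sign σ • ∏ i, M (σ i) i) = house (∏ i, M (σ i) i) := by
      rcases Int.units_eq_one_or (Equiv.Perm.sign σ) with h | h
      · rw [h, one_smul]
      · rw [h, Units.neg_smul, one_smul, house_neg]
    rw [h2]
    refine (house_prod_le' _ _).trans ?_
    calc ∏ i, house (M (σ i) i) ≤ ∏ _i : L, B :=
          Finset.prod_le_prod (fun i _ => house_nonneg _) fun i _ => hB _ _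
      _ = B ^ (Fintype.card L) := by rw [Finset.prod_const, Finset.card_univ]
  refine (Finset.sum_le_card_nsmul _ _ _ h1).trans ?_
  rw [Finset.card_univ, Fintype.card_perm, nsmul_eq_mul]

/-- Liouville: a non-zero algebraic integer divisible by `l ^ M` has house at least `l ^ M`. -/
theorem pow_le_house (l M : ℕ) (x : 𝓞 K) (hx : x ≠ 0)
    (h : x ∈ (Ideal.span {(l : 𝓞 K)}) ^ M) : (l : ℝ) ^ M ≤ house (x : K) := by
  rw [Ideal.span_singleton_pow, Ideal.mem_span_singleton] at h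
  obtain ⟨β, hβ⟩ := h
  have hβ0 : β ≠ 0 := by
    rintro rfl
    exact hx (by rw [hβ, mul_zero])
  have h1 : 1 ≤ house (β : K) :=
    one_le_house_of_isIntegral β.isIntegral_coe (by simpa using hβ0)
  have h2 : (x : K) = ((l ^ M : ℕ) : K) * (β : K) := by
    rw [hβ]; push_cast; rfl
  rw [h2, house_nat_mul]
  push_cast
  nlinarith [pow_nonneg (Nat.cast_nonneg l : (0 : ℝ) ≤ l) M]

end house

/-- The numerical inequality. -/
theorem final_ineq (r n h S l : ℕ) (hl : 2 ≤ l)
    (hS : 2 * ((2 * r + 1) * (r + 1)) + 2 * (h * ((r + 1) * n)) < S) (hS2 : 2 ≤ S) :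
    ((S ^ (2 * r + 1)) ^ (r + 1)).factorial *
      ((2 ^ h) ^ ((r + 1) * (n * (S ^ (2 * r + 1) * S)))) ^ ((S ^ (2 * r + 1)) ^ (r + 1)) <
    l ^ (S ^ (2 * r + 3) * ((S ^ (2 * r + 1)) ^ (r + 1) - (S ^ (2 * r + 3)) ^ r)) := by
  set N := (S ^ (2 * r + 1)) ^ (r + 1) with hN
  set m := S ^ (2 * r + 3) with hm
  have hNm : N = m ^ r * S := by
    rw [hN, hm, ← pow_mul, ← pow_mul, ← pow_succ]
    congr 1
    ring
  have hSpos : 0 < S := by omega
  have hmpos : 0 < m := by rw [hm]; positivity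
  have hNpos : 0 < N := by rw [hN]; positivity
  -- `N ≤ 2 (N - m ^ r)`
  have hsub : N ≤ 2 * (N - m ^ r) := by
    have : 2 * m ^ r ≤ N := by
      rw [hNm, mul_comm]
      exact Nat.mul_le_mul_left _ hS2
    omega
  -- square everything
  have key : (N.factorial * ((2 ^ h) ^ ((r + 1) * (n * (S ^ (2 * r + 1) * S)))) ^ N) ^ 2 <
      (l ^ (m * (N - m ^ r))) ^ 2 := by
    have h1 : N.factorial ≤ N ^ N := Nat.factorial_le_pow N
    have hNle : N ≤ 2 ^ (S * ((2 * r + 1) * (r + 1))) := by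
      rw [hN, ← pow_mul, pow_mul 2]
      exact Nat.pow_le_pow_left (Nat.lt_two_pow_self).le _
    have h2 : (N.factorial * ((2 ^ h) ^ ((r + 1) * (n * (S ^ (2 * r + 1) * S)))) ^ N) ^ 2 ≤
        2 ^ ((2 * (S * ((2 * r + 1) * (r + 1))) +
          2 * (h * ((r + 1) * (n * (S ^ (2 * r + 1) * S))))) * N) := by
      calc (N.factorial * ((2 ^ h) ^ ((r + 1) * (n * (S ^ (2 * r + 1) * S)))) ^ N) ^ 2
          ≤ (N ^ N * ((2 ^ h) ^ ((r + 1) * (n * (S ^ (2 * r + 1) * S)))) ^ N) ^ 2 := by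
            gcongr
        _ ≤ ((2 ^ (S * ((2 * r + 1) * (r + 1)))) ^ N *
            ((2 ^ h) ^ ((r + 1) * (n * (S ^ (2 * r + 1) * S)))) ^ N) ^ 2 := by
            gcongr
        _ = _ := by
            rw [← pow_mul, ← pow_mul, ← pow_mul, ← pow_add, ← pow_mul]
            congr 1
            ring
    have h3 : 2 ^ (m * N) ≤ (l ^ (m * (N - m ^ r))) ^ 2 := by
      rw [← pow_mul]
      calc 2 ^ (m * N) ≤ 2 ^ (m * (N - m ^ r) * 2) := by
            apply Nat.pow_le_pow_right (by norm_num)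
            calc m * N ≤ m * (2 * (N - m ^ r)) := Nat.mul_le_mul_left _ hsub
              _ = _ := by ring
        _ ≤ _ := Nat.pow_le_pow_left hl _
    refine lt_of_le_of_lt h2 (lt_of_lt_of_le ?_ h3)
    apply Nat.pow_lt_pow_right (by norm_num)
    apply Nat.mul_lt_mul_of_pos_right _ hNpos
    -- `2 S (..) + 2 h (r+1) n S^(2r+2) < S^(2r+3)`
    have h4 : S ≤ S ^ (2 * r + 1) * S := Nat.le_mul_of_pos_left _ (by positivity)
    calc 2 * (S * ((2 * r + 1) * (r + 1))) + 2 * (h * ((r + 1) * (n * (S ^ (2 * r + 1) * S))))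
        ≤ 2 * ((S ^ (2 * r + 1) * S) * ((2 * r + 1) * (r + 1))) +
          2 * (h * ((r + 1) * (n * (S ^ (2 * r + 1) * S)))) := by gcongr
      _ = (2 * ((2 * r + 1) * (r + 1)) + 2 * (h * ((r + 1) * n))) * (S ^ (2 * r + 1) * S) := by
          ring
      _ < S * (S ^ (2 * r + 1) * S) :=
          Nat.mul_lt_mul_of_pos_right hS (by positivity)
      _ = m := by rw [hm]; ring
  exact lt_of_pow_lt_pow_left₀ 2 (by positivity) key

/-- The zero estimate, in the form of a non-vanishing determinant. -/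
def ZeroEst {k : Type*} [Field k] {Sg : Type*} [Fintype Sg] [DecidableEq Sg]
    (x : Sg → ℕ → k) : Prop :=
  ∀ A : ℕ, ∃ n S0 : ℕ, ∀ S ≥ S0, ∃ t : (Sg → Fin (S ^ A)) → Fin n → Fin S,
    (Matrix.of fun lam c : Sg → Fin (S ^ A) =>
      ∏ s, ∏ j : Fin n, x s j ^ ((lam s : ℕ) * (t c j : ℕ))).det ≠ 0

/-- **Theorem W, for exactly `r = card Sg - 1` elements.** -/
theorem main_aux {F K : Type*} [Field F] [NumberField F] [Field K] [NumberField K]
    {Sg : Type*} [Fintype Sg] [DecidableEq Sg] (φ : Sg → (𝓞 F →+* 𝓞 K))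
    (r : ℕ) (hr : Fintype.card Sg = r + 1)
    (l : ℕ) (hl : 2 ≤ l) (y : ℕ → 𝓞 F)
    (hW : ZeroEst fun s j => ((φ s (y j) : 𝓞 K) : K)) :
    ∃ n e0 : ℕ, ∀ e ≥ e0, ∀ η : Fin r → 𝓞 F, (∀ k, (l : 𝓞 F) ∣ η k - 1) →
      ∀ a : Fin n → Fin r → ℕ, ¬ ∀ j : Fin n, (l : 𝓞 F) ^ e ∣ y j - ∏ k, η k ^ a j k := by
  obtain ⟨n, S0, hS0⟩ := hW (2 * r + 1)
  -- the bound `2 ^ h` for the conjugates
  obtain ⟨h, hh⟩ := pow_unbounded_of_one_lt
    (∑ s : Sg, ∑ j : Fin n, house ((φ s (y j) : 𝓞 K) : K)) (one_lt_two : (1 : ℝ) < 2)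
  have hH : ∀ s (j : Fin n), house ((φ s (y j) : 𝓞 K) : K) ≤ ((2 ^ h : ℕ) : ℝ) := by
    intro s j
    push_cast
    refine le_trans ?_ hh.le
    calc house ((φ s (y j) : 𝓞 K) : K) ≤ ∑ j : Fin n, house ((φ s (y j) : 𝓞 K) : K) :=
          Finset.single_le_sum (f := fun j : Fin n => house ((φ s (y j) : 𝓞 K) : K))
            (fun _ _ => house_nonneg _) (Finset.mem_univ j)
      _ ≤ _ := Finset.single_le_sum
            (f := fun s => ∑ j : Fin n, house ((φ s (y j) : 𝓞 K) : K))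
            (fun _ _ => Finset.sum_nonneg fun _ _ => house_nonneg _) (Finset.mem_univ s)
  -- the choice of `S`
  set S := S0 + 2 + (2 * ((2 * r + 1) * (r + 1)) + 2 * (h * ((r + 1) * n))) + 1 with hSdef
  obtain ⟨t, ht⟩ := hS0 S (by omega)
  set m := S ^ (2 * r + 3) with hm
  have hcard : Fintype.card (Sg → Fin (S ^ (2 * r + 1))) = (S ^ (2 * r + 1)) ^ (r + 1) := by
    rw [Fintype.card_fun, Fintype.card_fin, hr]
  refine ⟨n, m * ((S ^ (2 * r + 1)) ^ (r + 1) - m ^ r), ?_⟩
  intro e he η hη a hcon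
  -- the determinant in `𝓞 K`
  have hdet := det_mem_of_congr (Λ := Sg → Fin (S ^ (2 * r + 1))) (S := Sg) (J := Fin n) (r := r)
    (Ideal.span {(l : 𝓞 K)}) e m (fun s j => φ s (y j)) (fun s k => φ s (η k)) a
    (by
      intro s k
      rw [Ideal.mem_span_singleton]
      have := map_dvd (φ s) (hη k)
      rwa [map_natCast, map_sub, map_one] at this)
    (by
      intro s j
      rw [Ideal.span_singleton_pow, Ideal.mem_span_singleton]
      have := map_dvd (φ s) (hcon j)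
      rwa [map_pow, map_natCast, map_sub, map_prod, Finset.prod_congr rfl
        (fun k _ => map_pow (φ s) (η k) (a j k))] at this)
    (fun lam s => (lam s : ℕ)) (fun c j => (t c j : ℕ)) (by rw [hcard]; exact he)
  rw [hcard] at hdet
  set M : Matrix (Sg → Fin (S ^ (2 * r + 1))) (Sg → Fin (S ^ (2 * r + 1))) (𝓞 K) :=
    Matrix.of fun lam c => ∏ s, ∏ j : Fin n, φ s (y j) ^ ((lam s : ℕ) * (t c j : ℕ)) with hM
  -- its image in `K`
  have hmap : ((M.det : 𝓞 K) : K) = (Matrix.of fun lam c : Sg → Fin (S ^ (2 * r + 1)) =>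
      ∏ s, ∏ j : Fin n, ((φ s (y j) : 𝓞 K) : K) ^ ((lam s : ℕ) * (t c j : ℕ))).det := by
    have h1 := RingHom.map_det (algebraMap (𝓞 K) K) M
    rw [show ((M.det : 𝓞 K) : K) = algebraMap (𝓞 K) K M.det from rfl, h1]
    congr 1
    ext lam c
    simp [hM, map_prod, map_pow]
  have hne : M.det ≠ 0 := by
    intro h0
    apply ht
    rw [← hmap, h0]
    simp
  have hlow := pow_le_house l _ M.det hne hdet
  -- the upper bound
  have hup : house ((M.det : 𝓞 K) : K) ≤ (Fintype.card (Sg → Fin (S ^ (2 * r + 1)))).factorial *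
      ((((2 ^ h : ℕ) : ℝ)) ^ ((r + 1) * (n * (S ^ (2 * r + 1) * S)))) ^
        (Fintype.card (Sg → Fin (S ^ (2 * r + 1)))) := by
    rw [hmap]
    apply house_det_le
    intro lam c
    rw [Matrix.of_apply]
    refine (house_prod_le' _ _).trans ?_
    have hone : (1 : ℝ) ≤ ((2 ^ h : ℕ) : ℝ) := by exact_mod_cast Nat.one_le_two_pow
    calc ∏ s, house (∏ j : Fin n, ((φ s (y j) : 𝓞 K) : K) ^ ((lam s : ℕ) * (t c j : ℕ)))
        ≤ ∏ _s : Sg, ((((2 ^ h : ℕ) : ℝ)) ^ (n * (S ^ (2 * r + 1) * S))) := by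
          apply Finset.prod_le_prod (fun _ _ => house_nonneg _)
          intro s _
          refine (house_prod_le' _ _).trans ?_
          calc ∏ j : Fin n, house (((φ s (y j) : 𝓞 K) : K) ^ ((lam s : ℕ) * (t c j : ℕ)))
              ≤ ∏ _j : Fin n, (((2 ^ h : ℕ) : ℝ)) ^ (S ^ (2 * r + 1) * S) := by
                apply Finset.prod_le_prod (fun _ _ => house_nonneg _)
                intro j _
                refine (house_pow_le _ _).trans ?_
                refine (pow_le_pow_left₀ (house_nonneg _) (hH s j) _).trans ?_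
                exact pow_le_pow_right₀ hone
                  (Nat.mul_le_mul (lam s).isLt.le (t c j).isLt.le)
            _ = _ := by
                rw [Finset.prod_const, Finset.card_univ, Fintype.card_fin, ← pow_mul, mul_comm n]
      _ = _ := by
          rw [Finset.prod_const, Finset.card_univ, hr, ← pow_mul, mul_comm (r + 1)]
  rw [hcard] at hup
  have hfin := final_ineq r n h S l hl (by omega) (by omega)
  have : ((l ^ (m * ((S ^ (2 * r + 1)) ^ (r + 1) - m ^ r)) : ℕ) : ℝ) ≤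
      ((((S ^ (2 * r + 1)) ^ (r + 1)).factorial *
      ((2 ^ h) ^ ((r + 1) * (n * (S ^ (2 * r + 1) * S)))) ^ ((S ^ (2 * r + 1)) ^ (r + 1)) : ℕ)
        : ℝ) := by
    push_cast
    push_cast at hlow hup
    exact hlow.trans hup
  exact absurd (Nat.cast_le.mp this) (not_le.mpr hfin)

/-- **Theorem W** (congruence form): for every `r < card Sg`. -/
theorem main_zero {F K : Type*} [Field F] [NumberField F] [Field K] [NumberField K]
    {Sg : Type*} [Fintype Sg] [DecidableEq Sg] [Nonempty Sg] (φ : Sg → (𝓞 F →+* 𝓞 K))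
    (l : ℕ) (hl : 2 ≤ l) (y : ℕ → 𝓞 F)
    (hW : ZeroEst fun s j => ((φ s (y j) : 𝓞 K) : K)) :
    ∃ n e0 : ℕ, ∀ e ≥ e0, ∀ r < Fintype.card Sg, ∀ η : Fin r → 𝓞 F,
      (∀ k, (l : 𝓞 F) ∣ η k - 1) →
      ∀ a : Fin n → Fin r → ℕ, ¬ ∀ j : Fin n, (l : 𝓞 F) ^ e ∣ y j - ∏ k, η k ^ a j k := by
  obtain ⟨q, hq⟩ : ∃ q, Fintype.card Sg = q + 1 :=
    ⟨Fintype.card Sg - 1, by have := Fintype.card_pos (α := Sg); omega⟩
  obtain ⟨n, e0, H⟩ := main_aux φ q hq l hl y hW
  refine ⟨n, e0, ?_⟩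
  intro e he r hr η hη a hcon
  have hrq : r ≤ q := by omega
  -- pad with `1`
  obtain ⟨p, rfl⟩ := Nat.exists_eq_add_of_le hrq
  refine H e he (Fin.append η (fun _ : Fin p => 1)) ?_ (fun j => Fin.append (a j) fun _ => 0) ?_
  · intro k
    refine Fin.addCases (fun i => ?_) (fun i => ?_) k
    · rw [Fin.append_left]; exact hη i
    · rw [Fin.append_right]; simp
  · intro j
    rw [Fin.prod_univ_add]
    simpa using hcon j

end Crest.Agent.R018.WMain410
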