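import Mathlib

/-!
# Row 18, l-adic Waldschmidt block, W1: the weak zero estimate (helper791)

`x i j` (`i < d`, `j < n`) units of a field `k` such that no product
`∏ x i j ^ (m i * t j)` with `m ≠ 0`, `t ≠ 0` integral is `1` (`Ind x`). For every `d, A` there is `n₀`
such that for `n ≥ n₀` and `S` large no nonzero polynomial in `d` variables with partial degrees
`≤ S ^ A` vanishes at all points `(∏ j, x i j ^ s j)_i`, `0 ≤ s j < S` (`zero_est`).

Proof: translates of `P` by a point of the group are coprime to `P` with few exceptions, and a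
resultant eliminates one variable.
-/

set_option autoImplicit false

noncomputable section

open MvPolynomial
open scoped Polynomial

namespace Crest.Agent.R018.WZerox791


/-! elimination -/
theorem resultant_ne_zero_of_isRelPrime {R : Type*} [CommRing R] [IsDomain R]
    [UniqueFactorizationMonoid R] {f g : R[X]} (hg0 : g ≠ 0) (h : IsRelPrime f g) :
    f.resultant g ≠ 0 := by
  intro hres
  set m := f.natDegree with hm
  set n := g.natDegree with hn
  obtain ⟨v, hv, hv0⟩ := (Matrix.exists_mulVec_eq_zero_iff (M := Polynomial.sylvester f g m n)).mpr hres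
  let b₁ := (((Polynomial.degreeLT.basis R m).prod (Polynomial.degreeLT.basis R n)).reindex finSumFinEquiv)
  let b₂ := Polynomial.degreeLT.basis R (m + n)
  let w := b₁.equivFun.symm v
  have hw : Polynomial.sylvesterMap f g hm.ge hn.ge w = 0 := by
    have h1 := LinearMap.toMatrix_mulVec_repr b₁ b₂ (Polynomial.sylvesterMap f g hm.ge hn.ge) w
    rw [Polynomial.toMatrix_sylvesterMap'] at h1
    have h2 : (b₁.repr w : Fin (m+n) → R) = v := by
      change b₁.equivFun w = v
      exact b₁.equivFun.apply_symm_apply v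
    rw [h2, hv0] at h1
    apply b₂.repr.injective
    ext i
    have := congrFun h1 i
    simpa using this.symm
  have hw0 : w ≠ 0 := by
    intro h0
    apply hv
    have : b₁.equivFun w = v := b₁.equivFun.apply_symm_apply v
    rw [← this, h0, map_zero]
  have hw' : f * (w.2 : R[X]) + g * (w.1 : R[X]) = 0 := by
    have := congrArg Subtype.val hw
    simpa using this
  have hp := w.1.2
  have hq := w.2.2
  rw [Polynomial.mem_degreeLT] at hp hq
  have hq0 : (w.2 : R[X]) = 0 := by
    by_contra hne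
    have hd : g ∣ f * (w.2 : R[X]) := ⟨-(w.1 : R[X]), by linear_combination hw'⟩
    have hd' : g ∣ (w.2 : R[X]) := h.symm.dvd_of_dvd_mul_left hd
    have := Polynomial.degree_le_of_dvd hd' hne
    rw [Polynomial.degree_eq_natDegree hg0, ← hn] at this
    exact absurd hq (not_lt.mpr this)
  have hp0 : (w.1 : R[X]) = 0 := by
    rw [hq0, mul_zero, zero_add] at hw'
    exact (mul_eq_zero.mp hw').resolve_left hg0
  apply hw0
  ext1
  · exact Subtype.ext hp0
  · exact Subtype.ext hq0


theorem finSuccEquiv_rename_succ {k : Type*} [CommSemiring k] {d : ℕ} (φ : MvPolynomial (Fin d) k) :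
    finSuccEquiv k d (rename Fin.succ φ) = Polynomial.C φ := by
  induction φ using MvPolynomial.induction_on with
  | C a =>
    simp [finSuccEquiv_apply]
  | add p q hp hq => simp [hp, hq]
  | mul_X p i hp => simp [hp, finSuccEquiv_X_succ]

/-- the degree of a resultant -/
theorem degreeOf_det_le {σ k : Type*} [Field k] {N D : ℕ} (M : Matrix (Fin N) (Fin N) (MvPolynomial σ k))
    (i : σ) (h : ∀ a b, degreeOf i (M a b) ≤ D) : degreeOf i M.det ≤ N * D := by
  rw [Matrix.det_apply]
  refine (degreeOf_sum_le _ _ _).trans (Finset.sup_le fun π _ => ?_)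
  have h1 : degreeOf i (∏ a, M (π a) a) ≤ N * D := by
    refine (degreeOf_prod_le _ _ _).trans ?_
    refine (Finset.sum_le_sum fun a _ => h _ _).trans ?_
    simp
  rcases Int.units_eq_one_or (Equiv.Perm.sign π) with h2 | h2
  · rw [h2, one_smul]; exact h1
  · rw [h2]
    simpa using h1

theorem elim {k : Type*} [Field k] {d D : ℕ} {P Q : MvPolynomial (Fin (d + 1)) k}
    (hP : P ≠ 0) (hQ : Q ≠ 0) (h : IsRelPrime P Q) (hPD : ∀ i, degreeOf i P ≤ D)
    (hQD : ∀ i, degreeOf i Q ≤ D) :
    ∃ R : MvPolynomial (Fin d) k, R ≠ 0 ∧ (∀ i, degreeOf i R ≤ 2 * D * D + D) ∧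
      ∀ a : Fin (d + 1) → k, eval a P = 0 → eval a Q = 0 → eval (fun i => a i.succ) R = 0 := by
  set f := finSuccEquiv k d P with hf
  set g := finSuccEquiv k d Q with hg
  have hf0 : f ≠ 0 := by simpa [hf] using hP
  have hg0 : g ≠ 0 := by simpa [hg] using hQ
  have hrel : IsRelPrime f g := by
    intro c hc1 hc2
    have h1 : (finSuccEquiv k d).symm c ∣ P := by
      have := map_dvd (finSuccEquiv k d).symm hc1
      simpa [hf] using this
    have h2 : (finSuccEquiv k d).symm c ∣ Q := by
      have := map_dvd (finSuccEquiv k d).symm hc2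
      simpa [hg] using this
    have h3 := (h h1 h2).map (finSuccEquiv k d)
    simpa using h3
  have hres := resultant_ne_zero_of_isRelPrime hg0 hrel
  have hdf : f.natDegree ≤ D := by rw [hf, natDegree_finSuccEquiv]; exact hPD 0
  have hdg : g.natDegree ≤ D := by rw [hg, natDegree_finSuccEquiv]; exact hQD 0
  have hcf : ∀ i j, degreeOf i (f.coeff j) ≤ D := fun i j =>
    (degreeOf_coeff_finSuccEquiv P i j).trans (hPD _)
  have hcg : ∀ i j, degreeOf i (g.coeff j) ≤ D := fun i j =>
    (degreeOf_coeff_finSuccEquiv Q i j).trans (hQD _)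
  by_cases hdeg : f.natDegree ≠ 0 ∨ g.natDegree ≠ 0
  · refine ⟨f.resultant g, hres, fun i => ?_, fun a ha hb => ?_⟩
    · have h1 : degreeOf i (f.resultant g) ≤ (f.natDegree + g.natDegree) * D := by
        apply degreeOf_det_le
        intro a b
        induction b using Fin.addCases with
        | left b =>
          simp only [Polynomial.sylvester, Matrix.of_apply, Fin.addCases_left]
          split_ifs
          · exact hcg _ _
          · simp
        | right b =>
          simp only [Polynomial.sylvester, Matrix.of_apply, Fin.addCases_right]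
          split_ifs
          · exact hcf _ _
          · simp
      refine h1.trans ?_
      calc (f.natDegree + g.natDegree) * D ≤ (D + D) * D := by gcongr
        _ ≤ 2 * D * D + D := by rw [← two_mul]; omega
    · obtain ⟨p, q, -, -, hpq⟩ :=
        Polynomial.exists_mul_add_mul_eq_C_resultant f g le_rfl le_rfl hdeg
      have h1 : eval a ((finSuccEquiv k d).symm (f * p + g * q)) = 0 := by
        rw [map_add, map_mul, map_mul, map_add, map_mul, map_mul]
        simp [hf, hg, ha, hb]
      rw [hpq] at h1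
      have h2 : (finSuccEquiv k d).symm (Polynomial.C (f.resultant g)) =
          rename Fin.succ (f.resultant g) := by
        rw [AlgEquiv.symm_apply_eq]
        rw [finSuccEquiv_rename_succ]
      rw [h2, eval_rename] at h1
      exact h1
  · push Not at hdeg
    refine ⟨f.coeff 0, ?_, fun i => (hcf i 0).trans (by omega), fun a ha hb => ?_⟩
    · intro h0
      apply hf0
      rw [Polynomial.eq_C_of_natDegree_eq_zero hdeg.1, h0, map_zero]
    · have h1 : P = rename Fin.succ (f.coeff 0) := by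
        apply (finSuccEquiv k d).injective
        rw [finSuccEquiv_rename_succ, ← Polynomial.eq_C_of_natDegree_eq_zero hdeg.1]
      rw [h1, eval_rename] at ha
      exact ha



variable {k : Type*} [Field k] {ι : Type*}

/-- `X_i ↦ u_i X_i` -/
def sc (u : ι → kˣ) : MvPolynomial ι k →ₐ[k] MvPolynomial ι k :=
  aeval (fun i => C (u i : k) * X i)

theorem sc_X (u : ι → kˣ) (i : ι) : sc u (X i) = C (u i : k) * X i := by simp [sc]

theorem sc_C (u : ι → kˣ) (a : k) : sc u (C a) = C a := by simp [sc]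

theorem sc_sc (u v : ι → kˣ) (P : MvPolynomial ι k) : sc u (sc v P) = sc (u * v) P := by
  have : (sc u).comp (sc v) = sc (u * v) := by
    apply algHom_ext
    intro i
    simp only [AlgHom.comp_apply, sc_X, map_mul, sc_C, Pi.mul_apply, Units.val_mul]
    ring
  rw [← this]; rfl

theorem sc_one (P : MvPolynomial ι k) : sc (1 : ι → kˣ) P = P := by
  have : sc (1 : ι → kˣ) = AlgHom.id k _ := by
    apply algHom_ext
    intro i
    simp [sc_X]
  rw [this]; rfl

/-- as an equivalence -/
def scE (u : ι → kˣ) : MvPolynomial ι k ≃ₐ[k] MvPolynomial ι k :=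
  AlgEquiv.ofAlgHom (sc u) (sc u⁻¹) (by ext1 i; simp [sc_sc, sc_one]) (by ext1 i; simp [sc_sc, sc_one])

@[simp] theorem scE_apply (u : ι → kˣ) (P : MvPolynomial ι k) : scE u P = sc u P := rfl

theorem sc_monomial (u : ι → kˣ) (m : ι →₀ ℕ) (a : k) :
    sc u (monomial m a) = monomial m (a * m.prod fun i e => (u i : k) ^ e) := by
  rw [sc, aeval_monomial]
  simp only [mul_pow, algebraMap_eq]
  rw [Finsupp.prod_mul, monomial_eq, C_mul, mul_assoc]
  congr 2
  simp [Finsupp.prod, map_prod]

theorem coeff_sc (u : ι → kˣ) (m : ι →₀ ℕ) (P : MvPolynomial ι k) :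
    coeff m (sc u P) = coeff m P * m.prod fun i e => (u i : k) ^ e := by
  classical
  induction P using MvPolynomial.monomial_add_induction_on with
  | C a =>
    rw [sc_C, coeff_C]
    split_ifs with h
    · subst h; simp
    · simp
  | monomial_add m' b f _ _ ih =>
    rw [map_add, coeff_add, coeff_add, ih, sc_monomial, coeff_monomial, coeff_monomial, add_mul]
    split_ifs with h
    · subst h; rfl
    · simp

theorem support_sc (u : ι → kˣ) (P : MvPolynomial ι k) : (sc u P).support = P.support := by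
  classical
  ext m
  rw [mem_support_iff, mem_support_iff, coeff_sc, mul_ne_zero_iff]
  refine and_iff_left ?_
  rw [Finsupp.prod]
  exact Finset.prod_ne_zero_iff.mpr fun i _ => pow_ne_zero _ (u i).ne_zero

theorem degreeOf_sc (u : ι → kˣ) (P : MvPolynomial ι k) (i : ι) :
    degreeOf i (sc u P) = degreeOf i P := by
  classical
  rw [degreeOf_eq_sup, degreeOf_eq_sup, support_sc]

theorem eval_sc (u : ι → kˣ) (a : ι → k) (P : MvPolynomial ι k) :
    eval a (sc u P) = eval (fun i => (u i : k) * a i) P := by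
  have : (aeval a : MvPolynomial ι k →ₐ[k] k).comp (sc u) = aeval (fun i => (u i : k) * a i) := by
    apply algHom_ext
    intro i
    simp [sc_X]
  have h := congrArg (fun f => f P) this
  simpa [AlgHom.comp_apply, aeval_eq_eval] using h

/-- rigidity -/
theorem rigid [Fintype ι] {Q : MvPolynomial ι k} (hQ : Irreducible Q) (hX : ∀ i, ¬ X i ∣ Q) (u : ι → kˣ)
    (hu : ∀ m : ι → ℤ, m ≠ 0 → (∏ i, u i ^ m i) ≠ 1) : ¬ Associated Q (sc u Q) := by
  classical
  rintro ⟨c, hc⟩
  obtain ⟨c0, hc0, hc1⟩ := (isUnit_iff_eq_C_of_isReduced (P := (c : MvPolynomial ι k))).mp c.isUnit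
  have h1 : ∀ m ∈ Q.support, (m.prod fun i e => (u i : k) ^ e) = c0 := by
    intro m hm
    have h2 := congrArg (coeff m) hc
    rw [hc1, mul_comm, coeff_C_mul, coeff_sc] at h2
    rw [mem_support_iff] at hm
    have h3 : coeff m Q * ((m.prod fun i e => (u i : k) ^ e) - c0) = 0 := by
      linear_combination -h2
    exact sub_eq_zero.mp ((mul_eq_zero.mp h3).resolve_left hm)
  have h2 : ∀ m ∈ Q.support, ∀ m' ∈ Q.support, m = m' := by
    intro m hm m' hm'
    by_contra hne
    apply hu (fun i => (m i : ℤ) - m' i)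
    · intro h0
      apply hne
      ext i
      have := congrFun h0 i
      simp only [Pi.zero_apply] at this
      omega
    · apply Units.ext
      have e1 := h1 m hm
      have e2 := h1 m' hm'
      rw [Finsupp.prod_fintype _ _ (fun i => pow_zero _)] at e1 e2
      simp only [zpow_sub, zpow_natCast, Finset.prod_mul_distrib, Finset.prod_inv_distrib,
        Units.val_one, Units.val_mul, Units.val_inv_eq_inv_val, Units.coe_prod, Units.val_pow_eq_pow_val]
      rw [e1, e2, mul_inv_cancel₀]
      rw [← e1]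
      exact Finset.prod_ne_zero_iff.mpr fun i _ => pow_ne_zero _ (u i).ne_zero
  have hQ0 : Q ≠ 0 := hQ.ne_zero
  obtain ⟨m, hm⟩ := Finset.nonempty_iff_ne_empty.mpr (fun h => hQ0 (support_eq_empty.mp h))
  have h3 : Q = monomial m (coeff m Q) := by
    ext m'
    rw [coeff_monomial]
    split_ifs with h
    · rw [h]
    · by_contra h4
      exact h (h2 m hm m' (mem_support_iff.mpr h4))
  by_cases hm0 : m = 0
  · apply hQ.not_isUnit
    rw [h3, hm0]
    change IsUnit (C _)
    refine IsUnit.map C (isUnit_iff_ne_zero.mpr ?_)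
    rw [← hm0]
    exact mem_support_iff.mp hm
  · obtain ⟨i, hi⟩ := Finsupp.ne_iff.mp hm0
    apply hX i
    rw [h3]
    rw [Finsupp.coe_zero, Pi.zero_apply] at hi
    rw [X_dvd_monomial]
    exact Or.inr hi


/-- the points of the group -/
def gp {d n : ℕ} (x : Fin d → Fin n → kˣ) (t : Fin n → ℤ) : Fin d → kˣ := fun i => ∏ j, x i j ^ t j

theorem gp_def {d n : ℕ} (x : Fin d → Fin n → kˣ) (t : Fin n → ℤ) (i : Fin d) :
    gp x t i = ∏ j, x i j ^ t j := rfl

theorem gp_add {d n : ℕ} (x : Fin d → Fin n → kˣ) (s t : Fin n → ℤ) :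
    gp x (s + t) = gp x s * gp x t := by
  ext i
  simp [gp, zpow_add, Finset.prod_mul_distrib]

theorem gp_neg {d n : ℕ} (x : Fin d → Fin n → kˣ) (t : Fin n → ℤ) :
    gp x (-t) = (gp x t)⁻¹ := by
  ext i
  simp [gp]

/-- independence -/
def Ind {d n : ℕ} (x : Fin d → Fin n → kˣ) : Prop :=
  ∀ (m : Fin d → ℤ) (t : Fin n → ℤ), m ≠ 0 → t ≠ 0 → ∏ i, ∏ j, x i j ^ (m i * t j) ≠ 1

theorem Ind.gp {d n : ℕ} {x : Fin d → Fin n → kˣ} (h : Ind x) {t : Fin n → ℤ} (ht : t ≠ 0)
    (m : Fin d → ℤ) (hm : m ≠ 0) : ∏ i, gp x t i ^ m i ≠ 1 := by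
  have := h m t hm ht
  convert this using 1
  refine Finset.prod_congr rfl fun i _ => ?_
  rw [gp_def, ← Finset.prod_zpow]
  refine Finset.prod_congr rfl fun j _ => ?_
  rw [← zpow_mul, mul_comm]

theorem sc_irreducible {ι : Type*} (u : ι → kˣ) {Q : MvPolynomial ι k} (h : Irreducible Q) :
    Irreducible (sc u Q) := by
  rw [← scE_apply]
  exact (MulEquiv.irreducible_iff (scE u)).mpr h

theorem sc_associated {ι : Type*} (u : ι → kˣ) {Q R : MvPolynomial ι k} (h : Associated Q R) :
    Associated (sc u Q) (sc u R) := h.map (sc u)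

/-- few bad translates -/
theorem exists_isRelPrime {d n : ℕ} {x : Fin d → Fin n → kˣ} (h : Ind x)
    {P : MvPolynomial (Fin d) k} (hP : P ≠ 0) (hX : ∀ i, ¬ X i ∣ P) (T : Finset (Fin n → ℤ))
    (hT : (UniqueFactorizationMonoid.factors P).card ^ 2 < T.card) :
    ∃ t ∈ T, IsRelPrime P (sc (gp x t) P) := by
  classical
  by_contra hcon
  push Not at hcon
  set F := (UniqueFactorizationMonoid.factors P).toFinset with hF
  have key : ∀ t : Fin n → ℤ, t ∈ T → ∃ q : MvPolynomial (Fin d) k × MvPolynomial (Fin d) k,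
      q ∈ F ×ˢ F ∧ Associated q.1 (sc (gp x t) q.2) := by
    intro t ht
    have h1 := hcon t ht
    rw [IsRelPrime] at h1
    push Not at h1
    obtain ⟨r, hr1, hr2, hr3⟩ := h1
    have hr0 : r ≠ 0 := fun h0 => hP (zero_dvd_iff.mp (h0 ▸ hr1))
    obtain ⟨R, hR, hRr⟩ := WfDvdMonoid.exists_irreducible_factor hr3 hr0
    obtain ⟨Q1, hQ1, hQR⟩ := UniqueFactorizationMonoid.exists_mem_factors_of_dvd hP hR (hRr.trans hr1)
    have hR2 : sc (gp x t)⁻¹ R ∣ P := by
      have := map_dvd (sc (gp x t)⁻¹) (hRr.trans hr2)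
      simpa [sc_sc, sc_one] using this
    obtain ⟨Q2, hQ2, hQR2⟩ := UniqueFactorizationMonoid.exists_mem_factors_of_dvd hP
      (sc_irreducible _ hR) hR2
    refine ⟨(Q1, Q2), ?_, ?_⟩
    · rw [Finset.mem_product]
      exact ⟨by simpa [hF] using hQ1, by simpa [hF] using hQ2⟩
    · have h2 := sc_associated (gp x t) hQR2
      rw [sc_sc, mul_inv_cancel, sc_one] at h2
      exact hQR.symm.trans h2
  choose! q hq1 hq2 using key
  have hcard : T.card ≤ (F ×ˢ F).card := by
    refine Finset.card_le_card_of_injOn q (fun t ht => hq1 t ht) ?_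
    intro t ht t' ht' htt
    by_contra hne
    have h1 := hq2 t ht
    have h2 := hq2 t' ht'
    rw [← htt] at h2
    have h3 := h1.symm.trans h2
    have h4 := sc_associated (gp x (-t)) h3
    rw [sc_sc, sc_sc, ← gp_add, ← gp_add, neg_add_cancel] at h4
    have h5 : sc (gp x 0) (q t).2 = (q t).2 := by
      have : gp x 0 = 1 := by ext i; simp [gp]
      rw [this, sc_one]
    rw [h5] at h4
    have hmem : (q t).2 ∈ UniqueFactorizationMonoid.factors P := by
      have := (Finset.mem_product.mp (hq1 t ht)).2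
      simpa [hF] using this
    have hirr := UniqueFactorizationMonoid.irreducible_of_factor _ hmem
    have hdvd := UniqueFactorizationMonoid.dvd_of_mem_factors hmem
    refine rigid hirr (fun i hi => hX i (hi.trans hdvd)) (gp x (-t + t')) (fun m hm => ?_) h4
    refine h.gp ?_ m hm
    intro h0
    apply hne
    have : t' = t := by
      have := neg_add_eq_zero.mp h0
      exact this.symm
    exact this.symm
  rw [Finset.card_product] at hcard
  have : F.card ≤ (UniqueFactorizationMonoid.factors P).card := Multiset.toFinset_card_le _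
  nlinarith



/-! ### degrees -/

/-- the sum of the partial degrees -/
def sdeg {d : ℕ} (P : MvPolynomial (Fin d) k) : ℕ := ∑ i, degreeOf i P

theorem sdeg_mul {d : ℕ} {P Q : MvPolynomial (Fin d) k} (hP : P ≠ 0) (hQ : Q ≠ 0) :
    sdeg (P * Q) = sdeg P + sdeg Q := by
  simp only [sdeg, ← Finset.sum_add_distrib]
  exact Finset.sum_congr rfl fun i _ => degreeOf_mul_eq hP hQ

theorem sdeg_pos {d : ℕ} {P : MvPolynomial (Fin d) k} (hP : Irreducible P) : 1 ≤ sdeg P := by
  by_contra hcon
  have h0 : sdeg P = 0 := by omega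
  have h1 : ∀ i, degreeOf i P = 0 := fun i => (Finset.sum_eq_zero_iff.mp h0) i (Finset.mem_univ _)
  have h2 : ∀ m ∈ P.support, m = 0 := by
    intro m hm
    ext i
    have := monomial_le_degreeOf i hm
    rw [h1 i] at this
    simpa using this
  have h3 : P = C (coeff 0 P) := by
    ext m
    rw [coeff_C]
    split_ifs with h
    · rw [h]
    · by_contra h4
      exact h (h2 m (mem_support_iff.mpr h4)).symm
  apply hP.not_isUnit
  rw [h3]
  refine IsUnit.map C (isUnit_iff_ne_zero.mpr fun h4 => hP.ne_zero ?_)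
  rw [h3, h4, map_zero]

theorem sdeg_X {d : ℕ} (i : Fin d) : 1 ≤ sdeg (X i : MvPolynomial (Fin d) k) := by
  have h := Finset.single_le_sum (f := fun j => degreeOf j (X i : MvPolynomial (Fin d) k))
    (fun j _ => Nat.zero_le _) (Finset.mem_univ i)
  simp only [degreeOf_X_self] at h
  exact h

theorem card_le_sdeg_prod {d : ℕ} (s : Multiset (MvPolynomial (Fin d) k))
    (hs : ∀ P ∈ s, Irreducible P) : s.prod ≠ 0 ∧ s.card ≤ sdeg s.prod := by
  induction s using Multiset.induction_on with
  | empty => simp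
  | cons P s ih =>
    obtain ⟨h1, h2⟩ := ih fun Q hQ => hs Q (Multiset.mem_cons_of_mem hQ)
    have hP := hs P (Multiset.mem_cons_self P s)
    rw [Multiset.prod_cons, Multiset.card_cons]
    refine ⟨mul_ne_zero hP.ne_zero h1, ?_⟩
    rw [sdeg_mul hP.ne_zero h1]
    have := sdeg_pos hP
    omega

theorem card_factors_le {d : ℕ} {P : MvPolynomial (Fin d) k} (hP : P ≠ 0) :
    (UniqueFactorizationMonoid.factors P).card ≤ sdeg P := by
  obtain ⟨h1, h2⟩ := card_le_sdeg_prod (UniqueFactorizationMonoid.factors P)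
    fun Q hQ => UniqueFactorizationMonoid.irreducible_of_factor _ hQ
  obtain ⟨c, hc⟩ := UniqueFactorizationMonoid.factors_prod hP
  have h3 : sdeg P = sdeg (UniqueFactorizationMonoid.factors P).prod + sdeg (c : MvPolynomial (Fin d) k) := by
    rw [← sdeg_mul h1 c.ne_zero, hc]
  omega

/-- remove the factors `X i` -/
theorem strip {d : ℕ} : ∀ (N : ℕ) (P : MvPolynomial (Fin d) k), P ≠ 0 → sdeg P ≤ N →
    ∃ P' : MvPolynomial (Fin d) k, P' ≠ 0 ∧ (∀ i, ¬ X i ∣ P') ∧
      (∀ i, degreeOf i P' ≤ degreeOf i P) ∧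
      ∀ a : Fin d → k, (∀ i, a i ≠ 0) → eval a P = 0 → eval a P' = 0 := by
  intro N
  induction N with
  | zero =>
    intro P hP hN
    refine ⟨P, hP, fun i hi => ?_, fun i => le_rfl, fun a _ h => h⟩
    obtain ⟨Q, rfl⟩ := hi
    have hQ : Q ≠ 0 := right_ne_zero_of_mul hP
    rw [sdeg_mul (X_ne_zero i) hQ] at hN
    have := sdeg_X (k := k) i
    omega
  | succ N ih =>
    intro P hP hN
    by_cases hX : ∀ i, ¬ X i ∣ P
    · exact ⟨P, hP, hX, fun i => le_rfl, fun a _ h => h⟩
    · push Not at hX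
      obtain ⟨i, Q, rfl⟩ := hX
      have hQ : Q ≠ 0 := right_ne_zero_of_mul hP
      have h1 := sdeg_X (k := k) i
      rw [sdeg_mul (X_ne_zero i) hQ] at hN
      obtain ⟨P', h2, h3, h4, h5⟩ := ih Q hQ (by omega)
      refine ⟨P', h2, h3, fun j => (h4 j).trans ?_, fun a ha h => h5 a ha ?_⟩
      · rw [degreeOf_mul_eq (X_ne_zero i) hQ]
        omega
      · rw [map_mul, eval_X] at h
        exact (mul_eq_zero.mp h).resolve_left (ha i)

theorem Ind.tail {d n : ℕ} {x : Fin (d + 1) → Fin n → kˣ} (h : Ind x) :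
    Ind fun i : Fin d => x i.succ := by
  intro m t hm ht
  have h1 := h (Fin.cons 0 m) t (fun h0 => hm (by
    ext i
    have := congrFun h0 i.succ
    simpa using this)) ht
  rw [Fin.prod_univ_succ] at h1
  simpa using h1

/-- the zero estimate, natural number exponents -/
theorem zero_est (d : ℕ) : ∀ A : ℕ, ∃ n₀ : ℕ, ∀ n, n₀ ≤ n → ∃ S₀ : ℕ, ∀ S, S₀ ≤ S →
    ∀ (x : Fin d → Fin n → kˣ), Ind x → ∀ P : MvPolynomial (Fin d) k, P ≠ 0 →
      (∀ i, degreeOf i P ≤ S ^ A) →
      ∃ s : Fin n → ℕ, (∀ j, s j < S) ∧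
        eval (fun i => ((gp x (fun j => (s j : ℤ)) i : kˣ) : k)) P ≠ 0 := by
  induction d with
  | zero =>
    intro A
    refine ⟨0, fun n _ => ⟨1, fun S hS x _ P hP _ => ⟨fun _ => 0, fun j => (by omega : 0 < S), ?_⟩⟩⟩
    intro h0
    apply hP
    rw [eq_C_of_isEmpty P] at h0 ⊢
    rw [eval_C] at h0
    rw [h0, map_zero]
  | succ d ih =>
    intro A
    obtain ⟨n₁, hn₁⟩ := ih (4 * A + 1)
    refine ⟨max n₁ (4 * A + 1), fun n hn => ?_⟩
    obtain ⟨S₁, hS₁⟩ := hn₁ n (le_of_max_le_left hn)
    have hn4 : 4 * A + 1 ≤ n := le_of_max_le_right hn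
    refine ⟨2 * (S₁ + (d + 1) ^ 2 + 4), fun S hS x hx P hP hPD => ?_⟩
    set S' := S / 2 with hS'
    have hS'1 : S₁ + (d + 1) ^ 2 + 4 ≤ S' := by omega
    have hSS : S ≤ S' ^ 2 := by
      have : S ≤ 2 * S' + 1 := by omega
      nlinarith
    have hS2 : S' + S' ≤ S := by omega
    have hpow : S ^ (2 * A) ≤ S' ^ (4 * A) := by
      calc S ^ (2 * A) ≤ (S' ^ 2) ^ (2 * A) := Nat.pow_le_pow_left hSS _
        _ = S' ^ (4 * A) := by rw [← pow_mul]; congr 1; ring
    by_contra hcon
    push Not at hcon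
    obtain ⟨Q, hQ0, hQX, hQD, hQv⟩ := strip (sdeg P) P hP le_rfl
    have hQD' : ∀ i, degreeOf i Q ≤ S ^ A := fun i => (hQD i).trans (hPD i)
    have hQz : ∀ s : Fin n → ℕ, (∀ j, s j < S) →
        eval (fun i => ((gp x (fun j => (s j : ℤ)) i : kˣ) : k)) Q = 0 := fun s hs =>
      hQv _ (fun i => Units.ne_zero _) (hcon s hs)
    -- a good translate
    let emb : (Fin n → Fin S') → (Fin n → ℤ) := fun t j => ((t j : ℕ) : ℤ)
    have hemb : Function.Injective emb := by
      intro t t' h
      ext j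
      have := congrFun h j
      simpa [emb] using this
    let T : Finset (Fin n → ℤ) := Finset.univ.map ⟨emb, hemb⟩
    have hT : T.card = S' ^ n := by simp [T]
    have hfac : (UniqueFactorizationMonoid.factors Q).card ^ 2 < T.card := by
      have h1 : (UniqueFactorizationMonoid.factors Q).card ≤ (d + 1) * S ^ A := by
        refine (card_factors_le hQ0).trans ?_
        refine (Finset.sum_le_sum fun i _ => hQD' i).trans ?_
        simp
      rw [hT]
      calc (UniqueFactorizationMonoid.factors Q).card ^ 2 ≤ ((d + 1) * S ^ A) ^ 2 :=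
            Nat.pow_le_pow_left h1 _
        _ = (d + 1) ^ 2 * S ^ (2 * A) := by rw [mul_pow, ← pow_mul]; ring_nf
        _ ≤ (d + 1) ^ 2 * S' ^ (4 * A) := Nat.mul_le_mul_left _ hpow
        _ < S' * S' ^ (4 * A) := by
            apply Nat.mul_lt_mul_of_pos_right
            · omega
            · exact Nat.pow_pos (by omega)
        _ = S' ^ (4 * A + 1) := by ring
        _ ≤ S' ^ n := Nat.pow_le_pow_right (by omega) hn4
    obtain ⟨t, htT, ht⟩ := exists_isRelPrime hx hQ0 hQX T hfac
    obtain ⟨t', -, rfl⟩ := Finset.mem_map.mp htT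
    change IsRelPrime Q (sc (gp x (emb t')) Q) at ht
    have hsc0 : sc (gp x (emb t')) Q ≠ 0 := by
      intro h0
      apply hQ0
      have := congrArg (sc (gp x (emb t'))⁻¹) h0
      simpa [sc_sc, sc_one] using this
    obtain ⟨R, hR0, hRD, hRv⟩ := elim hQ0 hsc0 ht hQD' (fun i => by rw [degreeOf_sc]; exact hQD' i)
    obtain ⟨s, hs, hs'⟩ := hS₁ S' (by omega) (fun i => x i.succ) hx.tail R hR0 (fun i => by
      refine (hRD i).trans ?_
      calc 2 * S ^ A * S ^ A + S ^ A ≤ 2 * S ^ A * S ^ A + S ^ A * S ^ A := by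
            have : 1 ≤ S ^ A := Nat.one_le_pow _ _ (by omega)
            nlinarith
        _ = 3 * S ^ (2 * A) := by rw [two_mul A, pow_add]; ring
        _ ≤ 3 * S' ^ (4 * A) := Nat.mul_le_mul_left _ hpow
        _ ≤ S' * S' ^ (4 * A) := Nat.mul_le_mul_right _ (by omega)
        _ = S' ^ (4 * A + 1) := by ring)
    apply hs'
    have h1 := hRv (fun i => ((gp x (fun j => (s j : ℤ)) i : kˣ) : k))
      (hQz s fun j => by have := hs j; omega) (by
        rw [eval_sc]
        have h2 := hQz (fun j => (t' j : ℕ) + s j) (fun j => by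
          have := hs j; have := (t' j).2; omega)
        have h3 : (fun j => ((((t' j : ℕ) + s j : ℕ)) : ℤ)) = emb t' + fun j => (s j : ℤ) := by
          ext j; simp [emb]
        rw [h3, gp_add] at h2
        simpa using h2)
    exact h1

/-! ### the matrix form -/

/-- full rank matrices have a nonsingular square submatrix -/
theorem exists_submatrix {Λ T : Type*} [Fintype Λ] [DecidableEq Λ] (B : Matrix Λ T k)
    (h : ∀ c : Λ → k, (∀ t, ∑ l, c l * B l t = 0) → c = 0) :
    ∃ f : Λ → T, (Matrix.of fun l m => B l (f m)).det ≠ 0 := by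
  classical
  let v : T → (Λ → k) := fun t l => B l t
  have hspan : Submodule.span k (Set.range v) = ⊤ := by
    by_contra hne
    obtain ⟨φ, hφ, hφ0⟩ := Submodule.exists_le_ker_of_lt_top _ (lt_top_iff_ne_top.mpr hne)
    apply hφ
    have h1 : (fun l => φ (Pi.single l 1)) = (0 : Λ → k) := by
      apply h
      intro t
      have h2 : φ (v t) = 0 := hφ0 (Submodule.subset_span ⟨t, rfl⟩)
      rw [LinearMap.pi_apply_eq_sum_univ φ (v t)] at h2
      simp only [smul_eq_mul, v] at h2
      rw [← h2]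
      refine Finset.sum_congr rfl fun l _ => ?_
      rw [mul_comm]
      congr 2
      ext j
      simp [Pi.single_apply, eq_comm]
    apply LinearMap.pi_ext'
    intro l
    ext
    simpa using congrFun h1 l
  obtain ⟨b, hb, hbs, hbi⟩ := exists_linearIndependent k (Set.range v)
  rw [hspan] at hbs
  have hbs' : ⊤ ≤ Submodule.span k (Set.range ((↑) : b → (Λ → k))) := by
    rw [Subtype.range_coe]; exact hbs.ge
  let bas := Module.Basis.mk hbi hbs'
  have : Fintype b := FiniteDimensional.fintypeBasisIndex bas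
  have hcard : Fintype.card b = Fintype.card Λ := by
    rw [← Module.finrank_eq_card_basis bas, Module.finrank_fintype_fun_eq_card]
  let e : Λ ≃ b := Fintype.equivOfCardEq hcard.symm
  have hpre : ∀ l, ∃ t, v t = (e l : Λ → k) := fun l => hb (e l).2
  choose f hf using hpre
  refine ⟨f, ?_⟩
  have h2 : LinearIndependent k (fun m => v (f m)) := by
    have h4 : (fun m => v (f m)) = ((↑) : b → (Λ → k)) ∘ e := by
      ext m : 1
      exact hf m
    rw [h4]
    exact hbi.comp e e.injective
  have h3 : IsUnit (Matrix.of fun l m => B l (f m)) := by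
    rw [← Matrix.linearIndependent_cols_iff_isUnit]
    exact h2
  exact ((Matrix.isUnit_iff_isUnit_det _).mp h3).ne_zero

/-- **W1, matrix form**: the generalized Vandermonde matrices have full rank. -/
theorem exists_det_ne_zero (k : Type*) [Field k] (d A : ℕ) : ∃ n₀ : ℕ, ∀ n, n₀ ≤ n → ∃ S₀ : ℕ, ∀ S, S₀ ≤ S →
    ∀ (x : Fin d → Fin n → kˣ), Ind x → ∀ D, D ≤ S ^ A →
      ∃ f : (Fin d → Fin D) → (Fin n → Fin S), Function.Injective f ∧
        (Matrix.of fun (l m : Fin d → Fin D) =>
          ∏ i, ∏ j, ((x i j : k)) ^ ((l i : ℕ) * (f m j : ℕ))).det ≠ 0 := by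
  classical
  obtain ⟨n₀, hn₀⟩ := zero_est (k := k) d A
  refine ⟨n₀, fun n hn => ?_⟩
  obtain ⟨S₀, hS₀⟩ := hn₀ n hn
  refine ⟨S₀, fun S hS x hx D hD => ?_⟩
  let B : Matrix (Fin d → Fin D) (Fin n → Fin S) k := Matrix.of fun l t =>
    ∏ i, ∏ j, ((x i j : k)) ^ ((l i : ℕ) * (t j : ℕ))
  obtain ⟨f, hf⟩ := exists_submatrix B (by
    intro c hc
    by_contra hc0
    -- the polynomial
    let mon : (Fin d → Fin D) → (Fin d →₀ ℕ) := fun l => Finsupp.equivFunOnFinite.symm fun i => (l i : ℕ)
    have hmon : Function.Injective mon := by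
      intro l l' h
      ext i
      have := congrArg (fun g => g i) h
      simpa [mon] using this
    let P : MvPolynomial (Fin d) k := ∑ l, monomial (mon l) (c l)
    have hcoeff : ∀ l, coeff (mon l) P = c l := by
      intro l
      simp only [P, coeff_sum, coeff_monomial]
      rw [Finset.sum_eq_single l]
      · simp
      · intro l' _ hne
        rw [if_neg fun h => hne (hmon h)]
      · simp
    have hP : P ≠ 0 := by
      intro h0
      apply hc0
      ext l
      rw [← hcoeff l, h0]
      simp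
    have hPD : ∀ i, degreeOf i P ≤ S ^ A := by
      intro i
      refine (degreeOf_sum_le _ _ _).trans (Finset.sup_le fun l _ => ?_)
      by_cases h0 : c l = 0
      · rw [h0, monomial_zero]; simp
      · rw [degreeOf_monomial_eq _ _ h0]
        simp only [mon, Finsupp.equivFunOnFinite_symm_apply_apply]
        exact ((l i).2.le).trans hD
    obtain ⟨s, hs, hs'⟩ := hS₀ S hS x hx P hP hPD
    apply hs'
    have h1 := hc fun j => ⟨s j, hs j⟩
    rw [← h1]
    simp only [P, map_sum, eval_monomial]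
    refine Finset.sum_congr rfl fun l _ => ?_
    congr 1
    simp only [B, Matrix.of_apply]
    rw [Finsupp.prod_fintype _ _ (fun i => pow_zero _)]
    refine Finset.prod_congr rfl fun i _ => ?_
    simp only [gp, Units.coe_prod, zpow_natCast, Units.val_pow_eq_pow_val, mon,
      Finsupp.equivFunOnFinite_symm_apply_apply]
    rw [← Finset.prod_pow]
    refine Finset.prod_congr rfl fun j _ => ?_
    rw [← pow_mul, mul_comm])
  refine ⟨f, ?_, hf⟩
  intro m m' hmm
  by_contra hne
  apply hf
  apply Matrix.det_zero_of_column_eq hne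
  intro l
  simp [hmm]

/-- **W1 in the form consumed by the assembly** -/
theorem zero_matrix {k : Type*} [Field k] {Sg : Type*} [Fintype Sg] [DecidableEq Sg] (x : Sg → ℕ → kˣ)
    (hx : ∀ (n : ℕ) (m : Sg → ℤ) (t : Fin n → ℤ), m ≠ 0 → t ≠ 0 →
      ∏ s, ∏ j : Fin n, (x s j) ^ (m s * t j) ≠ 1) (A : ℕ) :
    ∃ n₀ : ℕ, ∀ n, n₀ ≤ n → ∃ S₀ : ℕ, ∀ S, S₀ ≤ S →
      ∃ t : (Sg → Fin (S ^ A)) → Fin n → Fin S,
        (Matrix.of fun lam c : (Sg → Fin (S ^ A)) =>
          ∏ s, ∏ j : Fin n, ((x s j : kˣ) : k) ^ ((lam s : ℕ) * (t c j : ℕ))).det ≠ 0 := by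
  classical
  let e : Sg ≃ Fin (Fintype.card Sg) := Fintype.equivFin Sg
  obtain ⟨n₀, hn₀⟩ := exists_det_ne_zero k (Fintype.card Sg) A
  refine ⟨n₀, fun n hn => ?_⟩
  obtain ⟨S₀, hS₀⟩ := hn₀ n hn
  refine ⟨S₀, fun S hS => ?_⟩
  obtain ⟨f, -, hf⟩ := hS₀ S hS (fun i j => x (e.symm i) j) (by
    intro m t hm ht
    have h1 := hx n (fun s => m (e s)) t (fun h0 => hm (by
      ext i
      have := congrFun h0 (e.symm i)
      simpa using this)) ht
    rw [← Equiv.prod_comp e.symm] at h1
    simpa using h1) (S ^ A) le_rfl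
  let E : (Sg → Fin (S ^ A)) ≃ (Fin (Fintype.card Sg) → Fin (S ^ A)) := Equiv.arrowCongr e (Equiv.refl _)
  refine ⟨fun c => f (E c), ?_⟩
  rw [← Matrix.det_submatrix_equiv_self E] at hf
  convert hf using 2
  ext lam c
  simp only [Matrix.of_apply, Matrix.submatrix_apply]
  rw [← Equiv.prod_comp e.symm]
  rfl

end Crest.Agent.R018.WZerox791
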