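import Crest.Agent.R018.WMain_410
import Crest.Agent.R018.WZero_791

/-!
# Row 18: Waldschmidt block, final theorem in congruence form (helper410)
-/

set_option autoImplicit false

namespace Crest.Agent.R018.WThm410

open NumberField Crest.Agent.R018.WMain410

/-- **Theorem W.** If the conjugates of the `y j` are multiplicatively independent in the strong
sense `hInd`, then for some `n` and all large `e` the elements `y j`, `j < n`, are not contained,
modulo `l ^ e`, in the monoid generated by `r < card Sg` elements which are `1` modulo `l`. -/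
theorem thmW {F K : Type*} [Field F] [NumberField F] [Field K] [NumberField K]
    {Sg : Type*} [Fintype Sg] [DecidableEq Sg] [Nonempty Sg] (φ : Sg → (𝓞 F →+* 𝓞 K))
    (l : ℕ) (hl : 2 ≤ l) (y : ℕ → 𝓞 F) (hy : ∀ s j, φ s (y j) ≠ 0)
    (hInd : ∀ (n : ℕ) (m : Sg → ℤ) (t : Fin n → ℤ), m ≠ 0 → t ≠ 0 →
      ∏ s, ∏ j : Fin n, ((φ s (y j) : 𝓞 K) : K) ^ (m s * t j) ≠ 1) :
    ∃ n e0 : ℕ, ∀ e ≥ e0, ∀ r < Fintype.card Sg, ∀ η : Fin r → 𝓞 F,
      (∀ k, (l : 𝓞 F) ∣ η k - 1) →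
      ∀ a : Fin n → Fin r → ℕ, ¬ ∀ j : Fin n, (l : 𝓞 F) ^ e ∣ y j - ∏ k, η k ^ a j k := by
  apply main_zero φ l hl y
  intro A
  have hy' : ∀ s j, ((φ s (y j) : 𝓞 K) : K) ≠ 0 := fun s j => by
    simpa using hy s j
  obtain ⟨n, hn⟩ := WZerox791.zero_matrix (k := K)
    (fun (s : Sg) (j : ℕ) => Units.mk0 ((φ s (y j) : 𝓞 K) : K) (hy' s j)) (by
      intro n m t hm ht h
      apply hInd n m t hm ht
      have := congrArg (fun u : Kˣ => (u : K)) h
      simpa [Units.coe_prod] using this) A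
  obtain ⟨S0, hS0⟩ := hn n le_rfl
  exact ⟨n, S0, fun S hS => hS0 S hS⟩

/-- Theorem W with the embeddings of `F` in `K`. -/
theorem thmW_emb (F K : Type*) [Field F] [NumberField F] [Field K] [NumberField K]
    [Nonempty (F →+* K)] (l : ℕ) (hl : 2 ≤ l) (y : ℕ → 𝓞 F) (hy : ∀ j, y j ≠ 0)
    (hInd : ∀ (n : ℕ) (m : (F →+* K) → ℤ) (t : Fin n → ℤ), m ≠ 0 → t ≠ 0 →
      ∏ s : F →+* K, ∏ j : Fin n, s (y j : F) ^ (m s * t j) ≠ 1) :
    ∃ n e0 : ℕ, ∀ e ≥ e0, ∀ r < Fintype.card (F →+* K), ∀ η : Fin r → 𝓞 F,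
      (∀ k, (l : 𝓞 F) ∣ η k - 1) →
      ∀ a : Fin n → Fin r → ℕ, ¬ ∀ j : Fin n, (l : 𝓞 F) ^ e ∣ y j - ∏ k, η k ^ a j k := by
  classical
  apply thmW (fun s : F →+* K => RingOfIntegers.mapRingHom s) l hl y
  · intro s j h
    have h1 : ((RingOfIntegers.mapRingHom s (y j) : 𝓞 K) : K) = 0 := by rw [h]; simp
    have h2 : s (y j : F) = 0 := h1
    exact hy j (by simpa using h2)
  · intro n m t hm ht
    exact hInd n m t hm ht

end Crest.Agent.R018.WThm410
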