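import Mathlib

/-!
# Row 18: weak zero estimate on a torus (helper410)

Points `β_t = ∏_j g_j^{t_j}` in the torus of dimension `n`, `t` in a box `[0,T)^m`.  A nonzero
polynomial of partial degrees `≤ D` vanishes at few of them as soon as no nontrivial monomial is
trivial at a nontrivial product of the `g_j`.
-/

set_option autoImplicit false

noncomputable section

open MvPolynomial

namespace Crest.Agent.R018.WaldZE410

variable {K : Type*} [Field K]

/-- `X_i ↦ u_i X_i`. -/
def scaleHom {n : ℕ} (u : Fin n → Kˣ) : MvPolynomial (Fin n) K →ₐ[K] MvPolynomial (Fin n) K :=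
  aeval fun i => C (u i : K) * X i

/-- `X_i ↦ u_i X_i` as an automorphism. -/
def scale {n : ℕ} (u : Fin n → Kˣ) : MvPolynomial (Fin n) K ≃ₐ[K] MvPolynomial (Fin n) K :=
  AlgEquiv.ofAlgHom (scaleHom u) (scaleHom fun i => (u i)⁻¹)
    (by
      ext i : 1
      simp only [scaleHom, AlgHom.comp_apply, aeval_X, map_mul, algHom_C, algebraMap_eq,
        AlgHom.id_apply]
      rw [← mul_assoc, ← C_mul]
      simp)
    (by
      ext i : 1
      simp only [scaleHom, AlgHom.comp_apply, aeval_X, map_mul, algHom_C, algebraMap_eq,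
        AlgHom.id_apply]
      rw [← mul_assoc, ← C_mul]
      simp)

theorem scale_apply {n : ℕ} (u : Fin n → Kˣ) (P : MvPolynomial (Fin n) K) :
    scale u P = aeval (fun i => C (u i : K) * X i) P := rfl

theorem scale_monomial {n : ℕ} (u : Fin n → Kˣ) (l : Fin n →₀ ℕ) (a : K) :
    scale u (monomial l a) = monomial l ((∏ i, (u i : K) ^ l i) * a) := by
  rw [scale_apply, aeval_monomial, algebraMap_eq]
  rw [monomial_eq (s := l) (a := (∏ i, (u i : K) ^ l i) * a)]
  rw [Finsupp.prod_fintype _ _ (by simp), Finsupp.prod_fintype _ _ (by simp)]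
  simp only [mul_pow, Finset.prod_mul_distrib, C_mul, map_prod, map_pow]
  ring

theorem coeff_scale {n : ℕ} (u : Fin n → Kˣ) (l : Fin n →₀ ℕ) (P : MvPolynomial (Fin n) K) :
    coeff l (scale u P) = (∏ i, (u i : K) ^ l i) * coeff l P := by
  induction P using MvPolynomial.induction_on' with
  | monomial k a =>
    rw [scale_monomial, coeff_monomial, coeff_monomial]
    split_ifs with h
    · rw [h]
    · simp
  | add p q hp hq => rw [map_add, coeff_add, hp, hq, coeff_add, mul_add]

theorem prod_pow_ne_zero {n : ℕ} (u : Fin n → Kˣ) (l : Fin n →₀ ℕ) :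
    (∏ i, (u i : K) ^ l i) ≠ 0 :=
  Finset.prod_ne_zero_iff.mpr fun i _ => pow_ne_zero _ (u i).ne_zero

theorem support_scale {n : ℕ} (u : Fin n → Kˣ) (P : MvPolynomial (Fin n) K) :
    (scale u P).support = P.support := by
  ext l
  rw [mem_support_iff, mem_support_iff, coeff_scale]
  constructor
  · intro h h0
    exact h (by rw [h0, mul_zero])
  · intro h
    exact mul_ne_zero (prod_pow_ne_zero u l) h

theorem degreeOf_scale {n : ℕ} (u : Fin n → Kˣ) (P : MvPolynomial (Fin n) K) (i : Fin n) :
    degreeOf i (scale u P) = degreeOf i P := by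
  rw [degreeOf_eq_sup, degreeOf_eq_sup, support_scale]

theorem eval_scale {n : ℕ} (u : Fin n → Kˣ) (x : Fin n → K) (P : MvPolynomial (Fin n) K) :
    eval x (scale u P) = eval (fun i => (u i : K) * x i) P := by
  induction P using MvPolynomial.induction_on with
  | C a => rw [scale_apply]; simp
  | add p q hp hq => rw [map_add, map_add, hp, hq, map_add]
  | mul_X p i hp => rw [map_mul, map_mul, hp, map_mul, scale_apply]; simp

theorem degreeOf_det_le {σ : Type*} {k : ℕ} (M : Matrix (Fin k) (Fin k) (MvPolynomial σ K))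
    (i : σ) (D : ℕ) (h : ∀ a b, degreeOf i (M a b) ≤ D) : degreeOf i M.det ≤ k * D := by
  rw [Matrix.det_apply]
  refine (degreeOf_sum_le i _ _).trans (Finset.sup_le fun s _ => ?_)
  have h1 : degreeOf i (∏ a, M (s a) a) ≤ k * D := by
    refine (degreeOf_prod_le i _ _).trans ?_
    refine (Finset.sum_le_sum fun a _ => h (s a) a).trans ?_
    simp
  rcases Int.units_eq_one_or (Equiv.Perm.sign s) with h2 | h2
  · rw [h2, one_smul]; exact h1
  · rw [h2, Units.neg_smul, one_smul, degreeOf_neg]; exact h1

end Crest.Agent.R018.WaldZE410
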