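import Crest.Agent.R018.Core_74
import Crest.Agent.R018.CoreW_74
import Crest.Agent.R018.CF_819
import Crest.Agent.R018.TheoremU_819
import Crest.Agent.R018.LChoice_693
import Crest.Agent.R018.ConsD_814
import Crest.Agent.R018.Deg1Holds_614
import Crest.Agent.R018.CoreF_656
import Crest.Agent.R018.CoreF2_755
import Crest.Agent.R018.NUCore_275
import Crest.Agent.R018.SvClosed_820
import Crest.Agent.R018.CoreD_820
import Crest.Agent.R018.F1_389
import Crest.Agent.R018.F9_530
import Crest.Agent.R018.F56_791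
import Crest.Agent.R018.LemmaG_791
import Crest.Agent.R018.CA_933
import Crest.Agent.R018.CB_933
import Crest.Agent.R018.Top_924

/-!
# Row 18: wiring of the Core_74 targets (helper819)
-/

set_option autoImplicit false

namespace Crest.Agent.R018.Wirex819

open Crest.Agent.R018.Corex74

theorem ca (hLoc : LocT) (hBF : BadFinite) (hPE : ProbeEx) : CA :=
  CAx933.ca_of CoreDx820.ndLevel_holds LemmaGx791.lemmaG_holds hPE hLoc hBF F1x389.f1_holds
    CoreFx656.F3_holds CoreFx656.F4_holds F56x791.F5_holds F56x791.F6_holds CoreFx656.F7_holds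
    F1x389.f8_holds F9x530.F9_holds

theorem cb (hLoc : LocT) (hBF : BadFinite) (hPE : ProbeEx) : CB :=
  CBx933.cb_of (ca hLoc hBF hPE) CoreDx820.ndLevel_holds LemmaGx791.lemmaG_holds hPE
    F1x389.f1_holds CoreF2x755.F2_holds CoreFx656.F3_holds CoreFx656.F4_holds F56x791.F5_holds
    F56x791.F6_holds CoreFx656.F7_holds F9x530.F9_holds F9x530.F10_holds

/-- Theorem A from the targets which are still open -/
theorem theoremA_of (hLoc : LocT) (hBF : BadFinite) (hBB : BadBound) (hPE : ProbeEx)
    (hCC : CC) : TheoremA := by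
  have hF1 : F1 := F1x389.f1_holds
  have hF2 : F2 := CoreF2x755.F2_holds
  have hF3 : F3 := CoreFx656.F3_holds
  have hF4 : F4 := CoreFx656.F4_holds
  have hF5 : F5 := F56x791.F5_holds
  have hF6 : F6 := F56x791.F6_holds
  have hCA : CA := ca hLoc hBF hPE
  have hCB : CB := cb hLoc hBF hPE
  have hCD : CD := ConsDx814.CD_holds hLoc hBF hCC Deg1Holdsx614.deg1Thm_holds hF1 hF2 hF5 hF6
  have hCF : CF := CFx819.cf_of SvClosedx820.isSolvablyClosed_Sv LChoicex693.lchoice hCA hCB hCD
    hBB hLoc hF1 hF2 hF3 hF4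
  exact CoreWx74.theoremA (SvClosedx820.descent_of_NU (NUCorex275.nu_of hLoc)) hCF hCA
    (TheoremUx819.theoremU_of hF2 hF3 hF5)

end Crest.Agent.R018.Wirex819
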